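import Vale.Agent.P353.Gam1

/-! Fierz identities. -/

noncomputable section

open MeasureTheory Filter Topology Complex Matrix
open scoped ContDiff RealInnerProductSpace

namespace Vale.Agent.P353

variable {γ : Fin 9 → M16}

namespace Gam2Aux

/-- product of gamma matrices along a list -/
def P (γ : Fin 9 → M16) (l : List (Fin 9)) : M16 := (l.map γ).prod

/-- the sign of `P l` under conjugation with `γ k` -/
def sg (k : Fin 9) : List (Fin 9) → ℤ
  | [] => 1
  | a :: l => (if a = k then 1 else -1) * sg k l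

lemma P_cons (a : Fin 9) (l : List (Fin 9)) : P γ (a :: l) = γ a * P γ l := by simp [P]

lemma P_append (l l' : List (Fin 9)) : P γ (l ++ l') = P γ l * P γ l' := by simp [P]

lemma sg_append (k : Fin 9) (l l' : List (Fin 9)) : sg k (l ++ l') = sg k l * sg k l' := by
  induction l with
  | nil => simp [sg]
  | cons a l ih => simp only [List.cons_append, sg, ih, mul_assoc]

lemma sg_notMem {k : Fin 9} {l : List (Fin 9)} (hk : k ∉ l) : sg k l = (-1) ^ l.length := by
  induction l with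
  | nil => rfl
  | cons a l ih =>
    rw [List.mem_cons, not_or] at hk
    rw [sg, if_neg (Ne.symm hk.1), ih hk.2, List.length_cons, pow_succ']

lemma sg_mem {k : Fin 9} {l : List (Fin 9)} (hl : l.Nodup) (hk : k ∈ l) :
    sg k l = -(-1) ^ l.length := by
  induction l with
  | nil => cases hk
  | cons a l ih =>
    rw [List.nodup_cons] at hl
    rw [sg, List.length_cons, pow_succ']
    split_ifs with h
    · rw [sg_notMem (h ▸ hl.1)]
      ring
    · rw [ih hl.2 ((List.mem_cons.1 hk).resolve_left (Ne.symm h))]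
      ring

lemma comm (h : IsGam γ) (k : Fin 9) (l : List (Fin 9)) :
    γ k * P γ l = (sg k l : ℝ) • (P γ l * γ k) := by
  induction l with
  | nil => simp [P, sg]
  | cons a l ih =>
    rw [P_cons, sg, mul_assoc]
    split_ifs with e
    · rw [e, one_mul, ← mul_smul_comm, ← ih]
    · rw [← mul_assoc, h.anti k a (Ne.symm e), neg_mul, mul_assoc, ih]
      simp

lemma conj (h : IsGam γ) (k : Fin 9) (l : List (Fin 9)) :
    γ k * P γ l * γ k = (sg k l : ℝ) • P γ l := by
  rw [comm h, smul_mul_assoc, mul_assoc, h.sq, mul_one]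

lemma tr_zero (h : IsGam γ) {l : List (Fin 9)} (hl : ∃ k, sg k l = -1) : (P γ l).trace = 0 := by
  obtain ⟨k, hk⟩ := hl
  exact h.trace_of_anti (i := k) (by simp [comm h, hk])

lemma orth (h : IsGam γ) (l : List (Fin 9)) : (P γ l)ᵀ * P γ l = 1 := by
  induction l with
  | nil => simp [P]
  | cons a l ih => rw [P_cons, transpose_mul, h.symm, mul_assoc, ← mul_assoc (γ a), h.sq, one_mul, ih]

lemma transp (h : IsGam γ) {l : List (Fin 9)} (hl : l.Nodup) :
    (P γ l)ᵀ = (-1 : ℝ) ^ l.length.choose 2 • P γ l := by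
  induction l with
  | nil => simp [P]
  | cons a l ih =>
    rw [List.nodup_cons] at hl
    rw [P_cons, transpose_mul, h.symm, ih hl.2, comm h, sg_notMem hl.1, List.length_cons,
      Nat.choose_succ_succ' _ 1, Nat.choose_one_right, smul_smul, smul_mul_assoc]
    congr 1
    push_cast
    rw [pow_add, mul_right_comm, ← mul_pow]
    simp

lemma exists_sg {s t : Finset (Fin 9)} (hs : s.card ≤ 4) (ht : t.card ≤ 4) (hst : s ≠ t) :
    ∃ k, sg k (s.sort (· ≤ ·) ++ t.sort (· ≤ ·)) = -1 := by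
  have m1 := fun (s : Finset (Fin 9)) k (hk : k ∈ s) =>
    sg_mem (s.sort_nodup (· ≤ ·)) ((Finset.mem_sort _).2 hk)
  have m2 := fun (s : Finset (Fin 9)) k (hk : k ∉ s) =>
    sg_notMem (l := s.sort (· ≤ ·)) fun h => hk ((Finset.mem_sort _).1 h)
  simp only [sg_append]
  by_cases hp : (-1 : ℤ) ^ (s.sort (· ≤ ·)).length * (-1) ^ (t.sort (· ≤ ·)).length = 1
  · obtain ⟨k, hk⟩ := not_forall.1 fun h => hst (Finset.ext h)
    refine ⟨k, ?_⟩
    by_cases h1 : k ∈ s
    · rw [m1 s k h1, m2 t k fun h2 => hk (iff_of_true h1 h2), neg_mul, hp]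
    · rw [m2 s k h1, m1 t k (by tauto), mul_neg, hp]
  · obtain ⟨k, -, hk⟩ := Finset.exists_mem_notMem_of_card_lt_card (s := s ∪ t) (t := Finset.univ)
      ((Finset.card_union_le _ _).trans_lt (by simp; omega))
    rw [Finset.mem_union, not_or] at hk
    refine ⟨k, ?_⟩
    rw [m2 s k hk.1, m2 t k hk.2]
    rw [← pow_add] at hp ⊢
    exact (neg_one_pow_eq_or ℤ _).resolve_left hp

lemma span_top (h : IsGam γ) : Submodule.span ℝ (Set.range
    fun s : {s : Finset (Fin 9) // s.card ≤ 4} => P γ (s.1.sort (· ≤ ·))) = ⊤ := by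
  have : Nonempty {s : Finset (Fin 9) // s.card ≤ 4} := ⟨⟨∅, by simp⟩⟩
  have hc : Fintype.card {s : Finset (Fin 9) // s.card ≤ 4} = 256 := by decide +kernel
  refine LinearIndependent.span_eq_top_of_card_eq_finrank
    (Fintype.linearIndependent_iff.2 fun g hg t => ?_) (by simp [hc, Module.finrank_matrix])
  have h1 := congrArg (fun A => ((P γ (t.1.sort (· ≤ ·)))ᵀ * A).trace) hg
  simp only [Finset.mul_sum, trace_sum, mul_smul_comm, trace_smul, mul_zero, trace_zero] at h1
  rw [Finset.sum_eq_single t (fun s _ hs => by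
    rw [transp h (Finset.sort_nodup _ _), smul_mul_assoc, ← P_append, trace_smul,
      tr_zero h (exists_sg t.2 s.2 fun e => hs (Subtype.ext e).symm), smul_zero, smul_zero])
    (by simp), orth h] at h1
  simpa using h1

lemma ind (h : IsGam γ) {ε : ℝ} (hε : ε = 1 ∨ ε = -1) {f : M16 → M16} (hf : IsLinearMap ℝ f)
    (h0 : ∀ l : List (Fin 9), l.SortedLT → l.length ≤ 4 → (-1 : ℝ) ^ l.length.choose 2 = ε →
      f (P γ l) = 0) {M : M16} (hM : Mᵀ = ε • M) : f M = 0 := by
  have h1 : hf.mk' f ∘ₗ (LinearMap.id + ε • (transposeLinearEquiv _ _ ℝ ℝ).toLinearMap) = 0 := by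
    refine LinearMap.ext_on_range (span_top h) fun s => ?_
    change f (P γ _ + ε • (P γ _)ᵀ) = 0
    rw [transp h (Finset.sort_nodup _ _), smul_smul, hf.map_add, hf.map_smul]
    by_cases e : (-1 : ℝ) ^ (s.1.sort (· ≤ ·)).length.choose 2 = ε
    · rw [h0 _ s.1.sortedLT_sort (by simpa using s.2) e, smul_zero, add_zero]
    · rcases neg_one_pow_eq_or ℝ ((s.1.sort (· ≤ ·)).length.choose 2) with e' | e' <;>
        rw [e'] at e ⊢ <;> rcases hε with rfl | rfl <;> simp at e ⊢
  have h2 : f (M + ε • Mᵀ) = 0 := LinearMap.congr_fun h1 M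
  rw [hM, smul_smul, hf.map_add, hf.map_smul,
    show ε * ε = 1 by rcases hε with rfl | rfl <;> norm_num, one_smul, ← two_smul ℝ] at h2
  simpa using h2

lemma sym (h : IsGam γ) {M : M16} (hM : Mᵀ = M) : ∑ k, γ k * M * γ k =
    M + (M.trace / 2) • (1 : M16) - ∑ i, ((M * γ i).trace / 2) • γ i := by
  rw [← sub_eq_zero]
  refine ind h (Or.inl rfl) (f := fun M => ∑ k, γ k * M * γ k -
    (M + (M.trace / 2) • (1 : M16) - ∑ i, ((M * γ i).trace / 2) • γ i)) ⟨fun A B => ?_, fun c A => ?_⟩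
    (fun l hl h4 e => ?_) (by simpa using hM)
  · simp only [mul_add, add_mul, trace_add, add_div, add_smul, Finset.sum_add_distrib]
    abel
  · simp only [mul_smul_comm, smul_mul_assoc, trace_smul, smul_eq_mul, mul_div_assoc, mul_smul,
      smul_sub, smul_add, Finset.smul_sum]
  · simp only [conj h, ← Finset.sum_smul, ← Int.cast_sum]
    rcases l with _ | ⟨a, _ | ⟨b, _ | ⟨c, _ | ⟨d, _ | ⟨_, l⟩⟩⟩⟩⟩
    · simp only [P, sg, List.map_nil, List.prod_nil, one_mul, h.trace_gamma]
      simp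
      module
    · have k : ∀ a : Fin 9, ∑ k, sg k [a] = -7 := by decide +kernel
      simp only [k, P, List.map_cons, List.map_nil, List.prod_cons, List.prod_nil, mul_one,
        h.trace_gamma, h.trace_gamma_mul, ite_div, ite_smul, zero_div, zero_smul,
        Finset.sum_ite_eq, Finset.mem_univ, if_true]
      module
    · norm_num at e
    · norm_num [Nat.choose] at e
    · have k : ∀ a b c d : Fin 9, [a, b, c, d].SortedLT → ∑ k, sg k [a, b, c, d] = 1 ∧
        (∃ m, sg m [a, b, c, d] = -1) ∧ ∀ i, ∃ m, sg m ([a, b, c, d] ++ [i]) = -1 := by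
        decide +kernel
      obtain ⟨k1, k2, k3⟩ := k a b c d hl
      have k4 : ∀ i, (P γ [a, b, c, d] * γ i).trace = 0 := fun i => by
        simpa only [P_append, P_cons (l := []), show P γ [] = 1 from rfl, mul_one] using
          tr_zero h (k3 i)
      simp [k1, k4, tr_zero h k2]
    · simp only [List.length_cons] at h4
      omega

/-- integer mass coefficients -/
def kz (i : Fin 9) : ℤ := if i.val < 3 then -2 else 1

lemma kk_eq (i : Fin 9) : kk i = kz i := by
  unfold kk kz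
  split_ifs <;> simp

/-- the antisymmetric defect -/
def Wd (γ : Fin 9 → M16) (N : M16) : M16 :=
  ∑ k, ∑ i, (kk i * (γ k * γ i * N).trace / 8) • (γ k * γ i) + (3 / 4 * (Gm γ * N).trace) • Gm γ -
    ∑ k, kk k • (γ k * N * γ k)

lemma Wd_lin : IsLinearMap ℝ (Wd γ) := by
  refine ⟨fun A B => ?_, fun c A => ?_⟩
  · simp only [Wd, mul_add, add_mul, trace_add, add_div, add_smul, smul_add, Finset.sum_add_distrib]
    abel
  · simp only [Wd, mul_smul_comm, smul_mul_assoc, trace_smul, smul_eq_mul, mul_div_assoc,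
      smul_sub, smul_add, Finset.smul_sum, smul_smul, mul_left_comm _ c, mul_comm _ c]

lemma Wd_P (h : IsGam γ) (l : List (Fin 9)) : ∑ k, kk k • (γ k * P γ l * γ k) =
    ((∑ k, kz k * sg k l : ℤ) : ℝ) • P γ l := by
  simp only [conj h, smul_smul, ← Finset.sum_smul, kk_eq, Int.cast_sum, Int.cast_mul]

lemma Wd_two (h : IsGam γ) {a b : Fin 9} (hab : a ≠ b) : Wd γ (P γ [a, b]) = 0 := by
  have k : ∀ a b : Fin 9, a ≠ b → ∑ k, kz k * sg k [a, b] = -2 * (kz a + kz b) := by
    decide +kernel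
  have e : P γ [a, b] = γ a * γ b := by simp [P]
  have t : ∀ k i, (γ k * γ i * (γ a * γ b)).trace =
      16 * ((if k = b then if i = a then 1 else 0 else 0) -
        if k = a then if i = b then 1 else 0 else 0) := fun k i => by
    rw [h.mul_eq k i, add_mul, trace_add, ← h.gamma2_ne hab, h.trace_gamma2_mul, ite_and, ite_and,
      h.gamma2_ne hab]
    split_ifs <;> simp [h.trace_gamma_mul, hab]
  rw [Wd, Wd_P h, k a b hab, e, ← mul_assoc (Gm γ), h.trace_Gm_two]
  simp only [t, mul_sub, sub_div, sub_smul, mul_ite, ite_div, ite_smul, mul_zero, zero_div,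
    zero_smul, Finset.sum_sub_distrib, Finset.sum_ite_irrel, Finset.sum_const_zero,
    Finset.sum_ite_eq', Finset.mem_univ, if_true, h.anti b a hab.symm, kk_eq]
  push_cast
  module

lemma Wd_three (h : IsGam γ) (a b c : Fin 9) : Wd γ (P γ [a, b, c]) =
    (3 / 4 * (P γ ([0, 1, 2] ++ [a, b, c])).trace) • Gm γ -
      ((∑ k, kz k * sg k [a, b, c] : ℤ) : ℝ) • P γ [a, b, c] := by
  have t : ∀ k i, (γ k * γ i * P γ [a, b, c]).trace = 0 := fun k i => by
    obtain ⟨m, -, hm⟩ := Finset.exists_mem_notMem_of_card_lt_card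
      (s := [k, i, a, b, c].toFinset) (t := Finset.univ)
      ((List.toFinset_card_le _).trans_lt (by simp))
    rw [mul_assoc, ← P_cons, ← P_cons]
    exact tr_zero h ⟨m, (sg_notMem fun h => hm (List.mem_toFinset.2 h)).trans (by norm_num)⟩
  simp only [Wd, Wd_P h, t, mul_zero, zero_div, zero_smul, Finset.sum_const_zero, zero_add,
    P_append]
  simp [P, Gm, mul_assoc]

lemma Wd_zero (h : IsGam γ) {N : M16} (hN : Nᵀ = -N) (hc : Gm γ * N * (Gm γ)ᵀ = N) : Wd γ N = 0 := by
  have h1 := ind h (Or.inr rfl) (f := fun Y => Wd γ (Y + Gm γ * Y * (Gm γ)ᵀ)) (M := N)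
    ⟨fun A B => by rw [← Wd_lin.map_add, mul_add, add_mul, add_add_add_comm], fun c A => by
      rw [← Wd_lin.map_smul, mul_smul_comm, smul_mul_assoc, smul_add]⟩
    (fun l hl h4 e => ?_) (by simpa using hN)
  · rw [hc, ← two_smul ℝ, Wd_lin.map_smul] at h1
    simpa using h1
  have h2 : Gm γ * P γ l * (Gm γ)ᵀ = ((sg 0 l * sg 1 l * sg 2 l : ℤ) : ℝ) • P γ l := by
    calc _ = γ 0 * (γ 1 * (γ 2 * P γ l * γ 2) * γ 1) * γ 0 := by
          simp only [Gm, transpose_mul, h.symm, mul_assoc]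
      _ = _ := by
          simp only [conj h, mul_smul_comm, smul_mul_assoc, smul_smul]
          push_cast
          congr 1
          ring
  rw [h2, Wd_lin.map_add, Wd_lin.map_smul]
  rcases l with _ | ⟨a, _ | ⟨b, _ | ⟨c, _ | ⟨d, _ | ⟨_, l⟩⟩⟩⟩⟩
  · norm_num at e
  · norm_num at e
  · have k : ∀ a b : Fin 9, [a, b].SortedLT → a ≠ b := by decide +kernel
    rw [Wd_two h (k a b hl), smul_zero, add_zero]
  · have k : ∀ a b c : Fin 9, [a, b, c].SortedLT → [a, b, c] = [0, 1, 2] ∨
        sg 0 [a, b, c] * sg 1 [a, b, c] * sg 2 [a, b, c] = -1 ∨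
        (∑ k, kz k * sg k [a, b, c] = 0 ∧ ∃ m, sg m ([0, 1, 2] ++ [a, b, c]) = -1) := by
      decide +kernel
    rcases k a b c hl with k | k | ⟨k, k'⟩
    · have e1 : P γ [0, 1, 2] = Gm γ := by simp [P, Gm, mul_assoc]
      have e2 : ∑ k, kz k * sg k [0, 1, 2] = -12 := by decide +kernel
      have e3 : Wd γ (P γ [0, 1, 2]) = 0 := by
        rw [Wd_three h, P_append, e1, e2, h.Gm_sq]
        simp
        module
      rw [k, e3, smul_zero, add_zero]
    · simp [k]
    · simp only [Wd_three h, k, tr_zero h k', mul_zero, zero_smul, Int.cast_zero, sub_self,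
        smul_zero, add_zero]
  · norm_num [Nat.choose] at e
  · simp only [List.length_cons] at h4
    omega

lemma vv (A B : M16) (u w : Fin 16 → ℝ) :
    vecMulVec (A *ᵥ u) (B *ᵥ w) = A * vecMulVec u w * Bᵀ := by
  rw [mul_vecMulVec, vecMulVec_mul, vecMul_transpose]

end Gam2Aux

open Gam2Aux

/-- `u ⊙ w` -/
def symP (u w : Fin 16 → ℝ) : M16 := vecMulVec u w + vecMulVec w u

/-- `u ∧ w` -/
def wedP (u w : Fin 16 → ℝ) : M16 := vecMulVec u w - vecMulVec w u

theorem IsGam.fierz1 (h : IsGam γ) (e e' : Fin 16 → ℝ) (j : Fin 9) :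
    ∑ k, (symP (γ k *ᵥ e) (gamma2 γ j k *ᵥ e') + symP (γ k *ᵥ e') (gamma2 γ j k *ᵥ e)) =
      (2 * (e ⬝ᵥ e')) • γ j - (2 * (e ⬝ᵥ (γ j *ᵥ e'))) • (1 : M16) := by
  obtain ⟨M, hM⟩ : ∃ M, M = vecMulVec e e' + vecMulVec e' e := ⟨_, rfl⟩
  have h1 : Mᵀ = M := by rw [hM, transpose_add, transpose_vecMulVec, transpose_vecMulVec, add_comm]
  have h2 : M.trace = 2 * (e ⬝ᵥ e') := by
    rw [hM, trace_add, trace_vecMulVec, trace_vecMulVec, dotProduct_comm e', two_mul]
  have h3 : (M * γ j).trace = 2 * (e ⬝ᵥ (γ j *ᵥ e')) := by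
    rw [trace_mul_comm, hM, mul_add, trace_add, mul_vecMulVec, mul_vecMulVec, trace_vecMulVec,
      trace_vecMulVec, dotProduct_comm _ e, two_mul, dotProduct_mulVec, ← mulVec_transpose, h.symm]
  have h4 : ∀ i k, gamma2 γ i k = γ i * γ k - if i = k then 1 else 0 := fun i k => by
    rw [h.mul_eq, add_sub_cancel_left]
  have h5 : ∀ k, symP (γ k *ᵥ e) (gamma2 γ j k *ᵥ e') + symP (γ k *ᵥ e') (gamma2 γ j k *ᵥ e) =
      γ k * M * γ k * γ j + γ j * (γ k * M * γ k) - if k = j then γ j * M + M * γ j else 0 := by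
    intro k
    simp only [symP, vv, h.gamma2_transpose, h.symm]
    rw [h4 j k, h4 k j, hM]
    by_cases e : k = j
    · simp only [e, if_true]
      noncomm_ring
    · simp only [e, Ne.symm e, if_false]
      noncomm_ring
  have h6 : (∑ i, ((M * γ i).trace / 2) • γ i) * γ j + γ j * ∑ i, ((M * γ i).trace / 2) • γ i =
      (M * γ j).trace • (1 : M16) := by
    simp only [Finset.sum_mul, Finset.mul_sum, ← Finset.sum_add_distrib, smul_mul_assoc,
      mul_smul_comm, ← smul_add, h.anticomm, smul_ite, smul_zero, Finset.sum_ite_eq',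
      Finset.mem_univ, if_true, smul_smul]
    congr 1
    ring
  simp only [h5, Finset.sum_sub_distrib, Finset.sum_add_distrib, ← Finset.sum_mul,
    ← Finset.mul_sum, sym h h1, Finset.sum_ite_eq', Finset.mem_univ, if_true]
  rw [← h2, ← h3, ← h6]
  simp only [sub_mul, add_mul, mul_sub, mul_add, smul_mul_assoc, mul_smul_comm, one_mul, mul_one]
  module

theorem IsGam.fierz2 (h : IsGam γ) (e e' : Fin 16 → ℝ) :
    ∑ k, kk k • (wedP (γ k *ᵥ e) ((γ k * Gm γ) *ᵥ e') + wedP (γ k *ᵥ e') ((γ k * Gm γ) *ᵥ e)) =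
      (3 * (e ⬝ᵥ e')) • Gm γ - hat γ (rho γ e e') := by
  obtain ⟨M, hM⟩ : ∃ M, M = vecMulVec e e' + vecMulVec e' e := ⟨_, rfl⟩
  have h1 : Mᵀ = M := by rw [hM, transpose_add, transpose_vecMulVec, transpose_vecMulVec, add_comm]
  have h2 : M.trace = 2 * (e ⬝ᵥ e') := by
    rw [hM, trace_add, trace_vecMulVec, trace_vecMulVec, dotProduct_comm e', two_mul]
  have h3 := Wd_zero h (N := M * Gm γ + Gm γ * M)
    (by rw [transpose_add, transpose_mul, transpose_mul, h1, h.Gm_transpose]; noncomm_ring) (by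
      rw [h.Gm_transpose, mul_add, add_mul, ← mul_assoc _ _ M, h.Gm_sq, mul_assoc, mul_assoc,
        mul_neg (Gm γ), h.Gm_sq]
      noncomm_ring)
  have h4 : ∀ k, wedP (γ k *ᵥ e) ((γ k * Gm γ) *ᵥ e') + wedP (γ k *ᵥ e') ((γ k * Gm γ) *ᵥ e) =
      -(γ k * (M * Gm γ + Gm γ * M) * γ k) := fun k => by
    simp only [wedP, vv, transpose_mul, h.Gm_transpose, h.symm, hM]
    noncomm_ring
  have h5 : ∀ k i, rho γ e e' k i = kk i * (γ k * γ i * (Gm γ * M)).trace := fun k i => by
    rw [rho, dotProduct_comm, dotProduct_comm (γ k *ᵥ e'), ← trace_vecMulVec, ← trace_vecMulVec,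
      vv, vv, h.symm, ← trace_add, ← add_mul, ← mul_add, add_comm, ← hM, trace_mul_comm]
    simp only [mul_assoc]
  have h6 : ∀ k i, (γ k * γ i * (M * Gm γ)).trace = (γ k * γ i * (Gm γ * M)).trace := by
    intro k i
    by_cases e : k = i
    · rw [e, h.sq, one_mul, one_mul, trace_mul_comm]
    · rw [← trace_transpose, transpose_mul, transpose_mul, transpose_mul, h1, h.Gm_transpose,
        h.symm, h.symm, h.anti i k (Ne.symm e), neg_mul, neg_mul_neg, trace_mul_comm]
  have h7 : (Gm γ * (M * Gm γ + Gm γ * M)).trace = -4 * (e ⬝ᵥ e') := by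
    rw [mul_add, trace_add, ← mul_assoc, trace_mul_cycle, ← mul_assoc, h.Gm_sq, neg_one_mul,
      trace_neg, h2]
    ring
  have h8 : hat γ (rho γ e e') = ∑ k, ∑ i,
      (kk i * (γ k * γ i * (M * Gm γ + Gm γ * M)).trace / 8) • (γ k * γ i) := by
    refine Finset.sum_congr rfl fun k _ => Finset.sum_congr rfl fun i _ => ?_
    rw [h5, mul_add, trace_add, h6]
    congr 1
    ring
  rw [Wd, ← h8, h7, sub_eq_zero] at h3
  simp only [h4, smul_neg, Finset.sum_neg_distrib, ← h3]
  module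

end Vale.Agent.P353
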