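import Vale.Agent.P353.Stmts
import Vale.Agent.P353.Gam2

/-! The anticommutator of two supercharges. -/

noncomputable section

open MeasureTheory Filter Topology Complex Matrix
open scoped ContDiff RealInnerProductSpace

namespace Vale.Agent.P353

namespace A1Aux

variable {d : ℕ} {F : Type} [NormedAddCommGroup F] [InnerProductSpace ℂ F] [FiniteDimensional ℂ F]
  {θ : Tn 16 d →L[ℝ] F →L[ℂ] F} {γ : Fin 9 → M16}

theorem sum_rank (𝔞 : Submodule ℝ (Lg d)) (p q : Fin 16 → ℝ) {b b' : Lg d →L[ℝ] Lg d}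
    (h : ∀ u v, ⟪b u, v⟫ = ⟪u, b' v⟫) :
    ∑ a, (innerSL ℝ (tens q (b (onb 𝔞 a)) : Tn 16 d)).smulRight
      (tens p (onb 𝔞 a) : Tn 16 d) = kr (vecMulVec p q) (𝔞.starProjection * b') := by
  refine ContinuousLinearMap.ext fun v => ext_cmp fun i => ?_
  simp only [_root_.sum_apply, ContinuousLinearMap.smulRight_apply,
    innerSL_apply_apply, inner_tens_left, h, ← map_smul, ← map_sum, sum_inner_onb_smul]
  rw [cmp_kr]
  simp only [cmp_tens, cv_apply, map_sum, map_smul, smul_smul, vecMulVec_apply,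
    mul_apply_eq_comp, Finset.smul_sum, mul_comm]

theorem sum_theta (𝔞 : Submodule ℝ (Lg d)) (p q : Fin 16 → ℝ) {b b' : Lg d →L[ℝ] Lg d}
    (h : ∀ u v, ⟪b u, v⟫ = ⟪u, b' v⟫) :
    ∑ a, θ (tens p (onb 𝔞 a)) * θ (tens q (b (onb 𝔞 a))) =
      (2 : ℂ) • dG θ (kr (vecMulVec p q) (𝔞.starProjection * b')) := by
  simp only [Cov3Aux.theta_mul, ← sum_rank 𝔞 p q h, dG_sum, Finset.smul_sum]

theorem two_skew (h : IsCAR θ) (M : M16) {a : Lg d →L[ℝ] Lg d} (ha : IsSkew a) :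
    (2 : ℂ) • dG θ (kr M a) = dG θ (kr (M + Mᵀ) a) := by
  have h1 : IsSym (kr (M - Mᵀ) a) := fun u v => by
    rw [inner_kr (M - Mᵀ) a (-a) (fun x y => by rw [ha, _root_.neg_apply, inner_neg_right]),
      kr_neg_right, ← kr_neg_left, transpose_sub, transpose_transpose, neg_sub]
  have h2 := CarAux.dG_sym h h1
  rw [trR_kr, trace_sub, trace_transpose, sub_self, zero_mul, zero_div, ofReal_zero, zero_smul,
    sub_eq_add_neg, kr_add_left, kr_neg_left, dG_add, dG_neg, add_neg_eq_zero] at h2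
  rw [kr_add_left, dG_add, ← h2, two_smul]

theorem two_sym (h : IsCAR θ) {M : M16} (hM : M.trace = 0) {a : Lg d →L[ℝ] Lg d} (ha : IsSym a) :
    (2 : ℂ) • dG θ (kr M a) = dG θ (kr (M - Mᵀ) a) := by
  have h1 : IsSym (kr (M + Mᵀ) a) := fun u v => by
    rw [inner_kr (M + Mᵀ) a a ha, transpose_add, transpose_transpose, add_comm]
  have h2 := CarAux.dG_sym h h1
  rw [trR_kr, trace_add, trace_transpose, hM, add_zero, zero_mul, zero_div, ofReal_zero, zero_smul,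
    kr_add_left, dG_add, add_eq_zero_iff_eq_neg] at h2
  rw [sub_eq_add_neg, kr_add_left, kr_neg_left, dG_add, dG_neg, ← h2, two_smul]

theorem comm_gamma2 (h : IsGam γ) (k j i : Fin 9) : γ k * gamma2 γ j i - gamma2 γ j i * γ k =
    (2 * Gam1Aux.dl k j) • γ i - (2 * Gam1Aux.dl k i) • γ j := by
  have e : ∀ j i, γ k * (γ j * γ i) - γ j * γ i * γ k =
      (2 * Gam1Aux.dl k j) • γ i - (2 * Gam1Aux.dl k i) • γ j := fun j i => by
    rw [Gam1Aux.swap' h k j, Gam1Aux.swap h k i, mul_sub, mul_smul_comm, mul_one, mul_assoc]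
    abel
  have e1 := e j i
  have e2 := e i j
  simp only [gamma2, mul_smul_comm, smul_mul_assoc, mul_sub, sub_mul]
  linear_combination (norm := module) (1 / 2 : ℝ) • e1 - (1 / 2 : ℝ) • e2

theorem dot_sym (h : IsGam γ) (e e' : Fin 16 → ℝ) (k j i : Fin 9) :
    (γ k *ᵥ e) ⬝ᵥ (gamma2 γ j i *ᵥ e') + (γ k *ᵥ e') ⬝ᵥ (gamma2 γ j i *ᵥ e) =
      2 * Gam1Aux.dl k j * (e ⬝ᵥ (γ i *ᵥ e')) - 2 * Gam1Aux.dl k i * (e ⬝ᵥ (γ j *ᵥ e')) := by
  have := congrArg (fun M : M16 => e ⬝ᵥ (M *ᵥ e')) (comm_gamma2 h k j i)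
  simp only [sub_mulVec, smul_mulVec, dotProduct_sub, dotProduct_smul, smul_eq_mul] at this
  rw [dotProduct_comm (γ k *ᵥ e'), Gam1Aux.dot_mul, Gam1Aux.dot_mul, h.symm, h.gamma2_transpose,
    gamma2_swap j i, mulVec_mulVec, mulVec_mulVec, neg_mul, neg_mulVec, dotProduct_neg,
    ← sub_eq_add_neg, this]

theorem trace_kk (h : IsGam γ) (e e' : Fin 16 → ℝ) :
    (∑ i, vecMulVec (γ i *ᵥ e) ((kk i • (γ i * Gm γ)) *ᵥ e')).trace = 0 := by
  have e1 : ∀ i, (vecMulVec (γ i *ᵥ e) ((kk i • (γ i * Gm γ)) *ᵥ e')).trace =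
      kk i * (e ⬝ᵥ (Gm γ *ᵥ e')) := fun i => by
    rw [trace_vecMulVec, Gam1Aux.dot_mul, h.symm, mulVec_mulVec, mul_smul_comm, Gam1Aux.sq' h,
      smul_mulVec, dotProduct_smul, smul_eq_mul]
  simp only [trace_sum, e1, ← Finset.sum_mul]
  rw [show ∑ i, kk i = 0 by simp [Fin.sum_univ_succ, kk]; norm_num, zero_mul]

end A1Aux

open A1Aux

namespace Ctx

variable {N d : ℕ} {F : Type} [NormedAddCommGroup F] [InnerProductSpace ℂ F]
  [FiniteDimensional ℂ F] (c : Ctx N d F)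

theorem a1_Km (e e' : Fin 16 → ℝ) (x y : Tn 9 d) :
    ⟪c.sE e y, c.Km e' x⟫ + ⟪c.sE e' y, c.Km e x⟫ = ⟪y, kr (rho c.γ e e') 1 x⟫ := by
  simp only [sE_apply, Km_apply, sum_inner, inner_sum, real_inner_smul_right, inner_tens]
  rw [inner_eq_sum_cmp, ← Finset.sum_add_distrib]
  simp only [cmp_kr, inner_sum, real_inner_smul_right, one_apply_eq_self, rho, Finset.mul_sum,
    ← Finset.sum_add_distrib]
  rw [Finset.sum_comm]
  exact Finset.sum_congr rfl fun _ _ => Finset.sum_congr rfl fun _ _ => by ring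

theorem a1_Phi (e e' : Fin 16 → ℝ) (x y : Tn 9 d) :
    ⟪c.sE e y, c.Phi e' x⟫ + ⟪c.sE e' y, c.Phi e x⟫ =
      ⟪y, ∑ j, (2 * (e ⬝ᵥ (c.γ j *ᵥ e'))) • c.vf (cmp j x) x⟫ := by
  have e1 : ∀ i j, ∑ k, ((c.γ k *ᵥ e) ⬝ᵥ (gamma2 c.γ j i *ᵥ e') *
      ⟪cmp k y, c.ad (cmp i x) (cmp j x)⟫ + (c.γ k *ᵥ e') ⬝ᵥ (gamma2 c.γ j i *ᵥ e) *
        ⟪cmp k y, c.ad (cmp i x) (cmp j x)⟫) =
      2 * (e ⬝ᵥ (c.γ i *ᵥ e')) * ⟪cmp j y, c.ad (cmp i x) (cmp j x)⟫ +
        2 * (e ⬝ᵥ (c.γ j *ᵥ e')) * ⟪cmp i y, c.ad (cmp j x) (cmp i x)⟫ := fun i j => by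
    rw [c.ad_anti (cmp j x), inner_neg_right]
    simp only [← add_mul, dot_sym c.gam, Gam1Aux.dl, sub_mul, Finset.sum_sub_distrib, mul_ite,
      ite_mul, mul_zero, zero_mul, Finset.sum_ite_eq', Finset.mem_univ, if_true]
    ring
  simp only [Phi, inner_sum, real_inner_smul_right]
  simp only [sE_apply, sum_inner, inner_tens]
  rw [← mul_add]
  simp only [← Finset.sum_add_distrib, e1]
  simp only [Finset.sum_add_distrib]
  rw [Finset.sum_comm (f := fun i j => 2 * (e ⬝ᵥ (c.γ j *ᵥ e')) *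
    ⟪cmp i y, c.ad (cmp j x) (cmp i x)⟫)]
  simp only [inner_eq_sum_cmp y, vf, cmp_kr_one, Finset.mul_sum]
  ring

theorem a1_bil {π : Setoid (Fin N)} {𝔞 : Submodule ℝ (Lg d)} (h : c.Th π 𝔞) (g m : ℝ)
    (e e' : Fin 16 → ℝ) {x : Tn 9 d} (hx : x ∈ sub 9 𝔞) :
    ∑ k, c.θ (c.sE e (onb (sub 9 𝔞) k)) * c.θ (fderiv ℝ (c.beta g m e') x (onb (sub 9 𝔞) k)) =
      (g : ℂ) • ∑ j, dG c.θ (kr (∑ k, symP (c.γ k *ᵥ e) (gamma2 c.γ j k *ᵥ e'))
        (c.adw 𝔞 (cmp j x))) +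
      (m : ℂ) • dG c.θ (kr (∑ k, kk k • wedP (c.γ k *ᵥ e) ((c.γ k * Gm c.γ) *ᵥ e'))
        𝔞.starProjection) := by
  have hP : IsSym 𝔞.starProjection := fun u v => 𝔞.inner_starProjection_left_eq_right u v
  have e1 : ∑ k, c.θ (c.sE e (onb (sub 9 𝔞) k)) * c.θ (c.Km e' (onb (sub 9 𝔞) k)) =
      dG c.θ (kr (∑ k, kk k • wedP (c.γ k *ᵥ e) ((c.γ k * Gm c.γ) *ᵥ e')) 𝔞.starProjection) := by
    have e2 := fun p q => sum_theta (θ := c.θ) 𝔞 p q (b := 1) (b' := 1) fun _ _ => rfl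
    simp only [one_apply_eq_self, mul_one] at e2
    simp only [Cov3Aux.sum_basis, cov3_sE, cov3_Km, e2]
    rw [← Finset.smul_sum, ← dG_sum, ← kr_sum_left, two_sym c.car (trace_kk c.gam e e') hP,
      transpose_sum, ← Finset.sum_sub_distrib]
    simp only [wedP, transpose_vecMulVec, transpose_smul, smul_mulVec, vecMulVec_smul,
      smul_vecMulVec, smul_sub]
  have e3 : ∑ k, c.θ (c.sE e (onb (sub 9 𝔞) k)) *
      c.θ (fderiv ℝ (c.Phi e') x (onb (sub 9 𝔞) k)) =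
      ∑ j, dG c.θ (kr (∑ k, symP (c.γ k *ᵥ e) (gamma2 c.γ j k *ᵥ e')) (c.adw 𝔞 (cmp j x))) := by
    have e4 : ∀ i j, ∑ a, c.θ (tens (c.γ i *ᵥ e) (onb 𝔞 a)) *
        c.θ (tens (gamma2 c.γ j i *ᵥ e') ((-c.ad (cmp j x)) (onb 𝔞 a))) =
        dG c.θ (kr (symP (c.γ i *ᵥ e) (gamma2 c.γ j i *ᵥ e')) (c.adw 𝔞 (cmp j x))) := fun i j => by
      have hs : IsSkew (c.adw 𝔞 (cmp j x)) := fun u v => by
        simp only [adw, mul_apply_eq_comp]
        rw [hP, c.ad_skew, hP]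
      rw [sum_theta 𝔞 _ _ (b' := c.ad (cmp j x)) fun u v => by
        rw [_root_.neg_apply, inner_neg_left, c.ad_skew, neg_neg], c.cov3_adw h (mem_sub.1 hx j),
        two_skew c.car _ hs, transpose_vecMulVec, symP]
    simp only [Cov3Aux.sum_basis, cov3_sE, cov3_Phi, map_sum, Finset.mul_sum, kr_sum_left, dG_sum,
      ← e4]
    refine Eq.trans ?_ Finset.sum_comm
    exact Finset.sum_congr rfl fun i _ => Finset.sum_comm
  simp only [cov3_fderiv, map_add, theta_smul, mul_add, mul_smul_comm, Finset.sum_add_distrib,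
    ← Finset.smul_sum]
  rw [e1, e3]

theorem a1_rot (𝔴 : Submodule ℝ (Lg d)) {ρ : Matrix (Fin 9) (Fin 9) ℝ} (hρ : IsRot ρ) :
    dG c.θ (kr (hat c.γ ρ) 𝔴.starProjection) * c.P0 𝔴 = 0 := by
  have hP : IsSym 𝔴.starProjection := fun u v => 𝔴.inner_starProjection_left_eq_right u v
  have hPP := 𝔴.isIdempotentElem_starProjection.eq
  rw [P0, c.car.dG_vac (c.isPCS_Gm 𝔴) (Cov1Aux.skew_kr (c.gam.hat_transpose hρ.1) hP)
    (by rw [kr_mul, kr_mul, c.gam.hat_comm_Gm hρ]) (by rw [Gm_supp, kr_mul, one_mul, hPP]),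
    kr_mul, trR_kr, c.gam.trace_Gm_hat]
  simp

theorem p_a1 (h_potid : c.S_potid) : c.S_a1 := by
  intro π g m e e' ψ hψ x hx
  obtain ⟨hD, hP⟩ := c.mem_D0.1 hψ
  obtain ⟨hS, hG⟩ := c.mem_D.1 hD
  have hT := c.Th_ss π
  have hv : ∑ k, (⟪c.sE e (onb (sub 9 (c.ss π)) k), c.beta g m e' x⟫ +
      ⟪c.sE e' (onb (sub 9 (c.ss π)) k), c.beta g m e x⟫) • onb (sub 9 (c.ss π)) k =
      g • ∑ j, (2 * (e ⬝ᵥ (c.γ j *ᵥ e'))) • c.vf (cmp j x) x + m • kr (rho c.γ e e') 1 x := by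
    refine Eq.trans (Finset.sum_congr rfl fun k _ => ?_) (sum_onb_self (U := sub 9 (c.ss π)) ?_)
    · rw [inner_add_right, real_inner_smul_right, real_inner_smul_right, ← a1_Km, ← a1_Phi]
      simp only [beta, inner_add_right, real_inner_smul_right]
      congr 1
      ring
    · refine Submodule.add_mem _ (Submodule.smul_mem _ _ (Submodule.sum_mem _ fun j _ =>
        Submodule.smul_mem _ _ (hT.vf_mem c (hT.2 (mem_sub.1 hx j)) hx)))
        (Submodule.smul_mem _ _ (mem_sub.2 fun i => ?_))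
      rw [cmp_kr]
      exact Submodule.sum_mem _ fun j _ => Submodule.smul_mem _ _ (mem_sub.1 hx j)
  have hg : ∀ j, fderiv ℝ ψ x (c.vf (cmp j x) x) =
      dG c.θ (kr 1 (c.adw (c.ss π) (cmp j x))) (ψ x) := fun j => by
    rw [c.gauss_law hT (hS.1.differentiable (by simp)) hG (hT.2 (mem_sub.1 hx j)) hx, ← hP x hx,
      ← mul_apply_eq_comp, c.Gs_P0 (hT.2 (mem_sub.1 hx j)), mul_apply_eq_comp]
  have hr : dG c.θ (kr (hat c.γ (rho c.γ e e')) 1) (ψ x) =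
      dG c.θ (kr (hat c.γ (rho c.γ e e')) (c.ss π).starProjection) (ψ x) := by
    have h0 := congrArg (fun a : F →L[ℂ] F => a (ψ x))
      (c.a1_rot (c.ss π)ᗮ (c.gam.rho_isRot e e'))
    simp only [mul_apply_eq_comp, hP x hx, _root_.zero_apply] at h0
    rw [show (1 : Lg d →L[ℝ] Lg d) = _ from
      (c.ss π).id_eq_sum_starProjection_self_orthogonalComplement, kr_add_right, dG_add,
      _root_.add_apply, h0, add_zero]
  have h1 := c.car.dop_anti (U := sub 9 (c.ss π)) 1 (c.contDiff_beta g m e)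
    (c.contDiff_beta g m e') (t := e ⬝ᵥ e') (fun y _ z _ => c.inner_sE e e' y z) hS.1 x
  have h2 := c.car.sum_dop_sq (U := sub 9 (c.ss π)) 1 (fun α => c.contDiff_beta g m (eb α))
    (c.iso _ g m) hS.1 hx
  have h3 : ∀ j, dG c.θ (kr (∑ k, symP (c.γ k *ᵥ e) (gamma2 c.γ j k *ᵥ e'))
      (c.adw (c.ss π) (cmp j x))) + dG c.θ (kr (∑ k, symP (c.γ k *ᵥ e') (gamma2 c.γ j k *ᵥ e))
      (c.adw (c.ss π) (cmp j x))) =
      ((2 * (e ⬝ᵥ e') : ℝ) : ℂ) • dG c.θ (kr (c.γ j) (c.adw (c.ss π) (cmp j x))) -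
      ((2 * (e ⬝ᵥ (c.γ j *ᵥ e')) : ℝ) : ℂ) • dG c.θ (kr 1 (c.adw (c.ss π) (cmp j x))) := fun j => by
    rw [← dG_add, ← kr_add_left, ← Finset.sum_add_distrib, c.gam.fierz1, sub_eq_add_neg,
      kr_add_left, kr_neg_left, kr_smul_left, kr_smul_left, dG_add, dG_neg, dG_smul, dG_smul,
      sub_eq_add_neg]
  have h4 : dG c.θ (kr (∑ k, kk k • wedP (c.γ k *ᵥ e) ((c.γ k * Gm c.γ) *ᵥ e'))
      (c.ss π).starProjection) + dG c.θ (kr (∑ k, kk k • wedP (c.γ k *ᵥ e')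
        ((c.γ k * Gm c.γ) *ᵥ e)) (c.ss π).starProjection) =
      ((3 * (e ⬝ᵥ e') : ℝ) : ℂ) • dG c.θ (kr (Gm c.γ) (c.ss π).starProjection) -
        dG c.θ (kr (hat c.γ (rho c.γ e e')) (c.ss π).starProjection) := by
    rw [← dG_add, ← kr_add_left, ← Finset.sum_add_distrib]
    simp only [← smul_add]
    rw [c.gam.fierz2, sub_eq_add_neg, kr_add_left, kr_neg_left, kr_smul_left, dG_add, dG_neg,
      dG_smul, sub_eq_add_neg]
  rw [hv, Finset.sum_add_distrib, c.a1_bil hT g m e e' hx, c.a1_bil hT g m e' e hx,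
    add_add_add_comm, ← smul_add, ← smul_add, h4, ← Finset.sum_add_distrib, h_potid] at h1
  simp only [h3, Finset.sum_sub_distrib, ← Finset.smul_sum, map_add, map_smul, map_sum, hg] at h1
  rw [c.bil_eq hT g m hx, dG_add, dG_smul, dG_smul, Dw, dG_sum] at h2
  simp only [Q, Ham, Rot, Pi.smul_apply, Finset.sum_apply]
  rw [h1, h2, hr]
  simp only [_root_.add_apply, _root_.smul_apply, _root_.sub_apply, _root_.sum_apply, Pot,
    ← coe_smul]
  push_cast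
  module

end Ctx

end Vale.Agent.P353
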