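import Vale.Agent.P353.Stmts

/-! Rotation covariance. -/

noncomputable section

open MeasureTheory Filter Topology Complex Matrix
open scoped ContDiff RealInnerProductSpace

namespace Vale.Agent.P353

namespace A2Aux

open Ga2Aux

section

variable {E : Type} [NormedAddCommGroup E] [InnerProductSpace ℝ E] [FiniteDimensional ℝ E]
  [MeasurableSpace E] [BorelSpace E]
variable {S : Type} [NormedAddCommGroup S] [InnerProductSpace ℝ S] [FiniteDimensional ℝ S]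
variable {F : Type} [NormedAddCommGroup F] [InnerProductSpace ℂ F] [FiniteDimensional ℂ F]
variable {θ : S →L[ℝ] F →L[ℂ] F} {U : Submodule ℝ E} {C : Set ((E →L[ℝ] E) × (F →L[ℂ] F))}

omit [FiniteDimensional ℝ S] [FiniteDimensional ℂ F] in
theorem skew_sum {r : E →L[ℝ] E} (hr : IsSkew r) (hU : ∀ x ∈ U, r x ∈ U) (s : E →L[ℝ] S)
    (D : E →L[ℝ] F) : ∑ k, θ (s (onb U k)) (D (r (onb U k))) =
      -∑ k, θ (s (r (onb U k))) (D (onb U k)) := by
  have e1 : ∀ k, θ (s (onb U k)) (D (r (onb U k))) =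
      ∑ l, ⟪onb U l, r (onb U k)⟫ • θ (s (onb U k)) (D (onb U l)) := fun k => by
    conv_lhs => rw [← sum_onb_self (hU _ (onb_mem U k))]
    simp only [map_sum, map_smul, ContinuousLinearMap.map_smul_of_tower]
  have e2 : ∀ k, θ (s (r (onb U k))) (D (onb U k)) =
      ∑ l, ⟪onb U l, r (onb U k)⟫ • θ (s (onb U l)) (D (onb U k)) := fun k => by
    conv_lhs => rw [← sum_onb_self (hU _ (onb_mem U k))]
    simp only [map_sum, map_smul, _root_.sum_apply, _root_.smul_apply]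
  simp only [e1, e2, ← Finset.sum_neg_distrib]
  rw [Finset.sum_comm]
  refine Finset.sum_congr rfl fun k _ => Finset.sum_congr rfl fun l _ => ?_
  rw [← neg_smul, ← hr, real_inner_comm]

omit [FiniteDimensional ℝ E] [FiniteDimensional ℂ F] [MeasurableSpace E] [BorelSpace E] in
theorem fderiv_rot (r : E →L[ℝ] E) (a : F →L[ℂ] F) {ψ : E → F} (hψ : ContDiff ℝ ∞ ψ) (x v : E) :
    fderiv ℝ (fun y => fderiv ℝ ψ y (r y) - a (ψ y)) x v =
      fderiv ℝ (fun y => fderiv ℝ ψ y v) x (r x) + fderiv ℝ ψ x (r v) - a (fderiv ℝ ψ x v) := by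
  have h1 : DifferentiableAt ℝ (fderiv ℝ ψ) x :=
    (hψ.fderiv_right (m := ∞) (by exact_mod_cast le_rfl)).differentiable (by simp) x
  have h2 := h1.hasFDerivAt.clm_apply r.hasFDerivAt
  have h3 := (a.restrictScalars ℝ).hasFDerivAt.comp x (hψ.differentiable (by simp) x).hasFDerivAt
  have h4 := h1.hasFDerivAt.clm_apply (hasFDerivAt_const (r x) x)
  rw [dir_symm hψ, h4.fderiv]
  refine (congrArg (fun L : E →L[ℝ] F => L v) (h2.sub h3).fderiv).trans ?_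
  simp [add_comm]

theorem rot_comm (h : IsCAR θ) (p : ℝ) {r : E →L[ℝ] E} (hr : IsSkew r) (hU : ∀ x ∈ U, r x ∈ U)
    {a : S →L[ℝ] S} (ha : IsSkew a) {s s' : E →L[ℝ] S} {β β' : E → S} (hβ : ContDiff ℝ ∞ β)
    (hs : ∀ y, a (s y) = s' y + s (r y)) {x : E} (hb : a (β x) = β' x + fderiv ℝ β x (r x))
    {ψ : E → F} (hψ : ContDiff ℝ ∞ ψ) :
    (fderiv ℝ (dop θ U p s β ψ) x (r x) - dG θ a (dop θ U p s β ψ x)) -
      dop θ U p s β (fun y => fderiv ℝ ψ y (r y) - dG θ a (ψ y)) x = -dop θ U p s' β' ψ x := by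
  have hc : ∀ u f, dG θ a (θ u f) = θ u (dG θ a f) + θ (a u) f := fun u f => by
    have := congrArg (fun b : F →L[ℂ] F => b f) (h.dG_comm ha u)
    simp only [_root_.sub_apply, mul_apply_eq_comp] at this
    rw [← this, add_sub_cancel]
  rw [fderiv_dop θ U p s hβ hψ]
  simp only [dop, fderiv_rot r _ hψ, map_add, map_sub, map_sum, map_smul, hc, hs, hb,
    _root_.add_apply, smul_add, smul_sub, Finset.sum_add_distrib, Finset.sum_sub_distrib,
    ← Finset.smul_sum, skew_sum hr hU]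
  module

theorem rot_mem (hA : Adm U C) {r : E →L[ℝ] E} (hU : ∀ x ∈ U, r x ∈ U) {a : F →L[ℂ] F}
    (hC : ∀ c ∈ C, r * c.1 = c.1 * r ∧ a * c.2 = c.2 * a) {ψ : E → F} (h : ψ ∈ Tst U C) :
    (fun y => fderiv ℝ ψ y (r y) - a (ψ y)) ∈ Tst U C := by
  refine (Tst U C).sub_mem (x := fun y => fderiv ℝ ψ y (r y))
    ⟨h.1.fderiv r.contDiff hU, fun c hc x hx => ?_⟩ (clm_mem_Tst h fun c hc => (hC c hc).2)
  have hd : Differentiable ℝ ψ := h.1.1.differentiable (by simp)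
  have h2 : HasFDerivAt (fun z => ψ (c.1 z)) ((fderiv ℝ ψ (c.1 x)).comp c.1) x :=
    (hd _).hasFDerivAt.comp x c.1.hasFDerivAt
  have h3 : HasFDerivAt (fun z => c.2 (ψ z)) ((c.2.restrictScalars ℝ).comp (fderiv ℝ ψ x)) x :=
    (c.2.restrictScalars ℝ).hasFDerivAt.comp x (hd x).hasFDerivAt
  have h4 := fderiv_congr_on h2.differentiableAt h3.differentiableAt hx (hU x hx)
    (Eventually.of_forall (h.2 c hc))
  rw [h2.fderiv, h3.fderiv] at h4
  change fderiv ℝ ψ (c.1 x) ((r * c.1) x) = _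
  rw [(hC c hc).1]
  exact h4

end

variable {γ : Fin 9 → M16} {ρ : Matrix (Fin 9) (Fin 9) ℝ}

theorem hat_mul (h : IsGam γ) (hρ : ρᵀ = -ρ) (i : Fin 9) :
    hat γ ρ * γ i = γ i * hat γ ρ + ∑ k, ρ k i • γ k := by
  rw [← h.hat_comm_gamma hρ, add_sub_cancel]

theorem hat_mul_G (h : IsGam γ) (hρ : IsRot ρ) (i : Fin 9) :
    kk i • (hat γ ρ * (γ i * Gm γ)) =
      kk i • (γ i * Gm γ * hat γ ρ) + ∑ k, (ρ k i * kk k) • (γ k * Gm γ) := by
  rw [← mul_assoc, hat_mul h hρ.1, add_mul, mul_assoc, h.hat_comm_Gm hρ, ← mul_assoc, smul_add,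
    Finset.sum_mul, Finset.smul_sum]
  refine congrArg _ (Finset.sum_congr rfl fun k _ => ?_)
  rw [smul_mul_assoc, smul_smul]
  by_cases hk : kk k = kk i
  · rw [hk, mul_comm]
  · rw [hρ.2 k i hk, mul_zero, zero_mul]

theorem hat_mul_two (h : IsGam γ) (hρ : ρᵀ = -ρ) (j i : Fin 9) :
    hat γ ρ * gamma2 γ j i = gamma2 γ j i * hat γ ρ +
      (∑ k, ρ k j • gamma2 γ k i + ∑ k, ρ k i • gamma2 γ j k) := by
  have e : ∀ j i, hat γ ρ * (γ j * γ i) = γ j * γ i * hat γ ρ +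
      (∑ k, ρ k j • (γ k * γ i) + ∑ k, ρ k i • (γ j * γ k)) := fun j i => by
    rw [← mul_assoc, hat_mul h hρ, add_mul, mul_assoc, hat_mul h hρ, mul_add, Finset.mul_sum,
      Finset.sum_mul, ← mul_assoc]
    simp only [smul_mul_assoc, mul_smul_comm]
    abel
  simp only [gamma2, mul_smul_comm, smul_mul_assoc, mul_sub, sub_mul, e,
    smul_comm (ρ _ _) (1 / 2 : ℝ), ← Finset.smul_sum, smul_sub (ρ _ _), Finset.sum_sub_distrib]
  module

end A2Aux

open A2Aux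

namespace Ctx

variable {N d : ℕ} {F : Type} [NormedAddCommGroup F] [InnerProductSpace ℂ F]
  [FiniteDimensional ℂ F] (c : Ctx N d F) {ρ : Matrix (Fin 9) (Fin 9) ℝ}

theorem a2_sE (hρ : ρᵀ = -ρ) (e : Fin 16 → ℝ) (y : Tn 9 d) :
    kr (hat c.γ ρ) 1 (c.sE e y) = c.sE (hat c.γ ρ *ᵥ e) y + c.sE e (kr ρ 1 y) := by
  simp only [sE_apply, map_sum, kr_tens, mulVec_mulVec, hat_mul c.gam hρ, add_mulVec, tens_add,
    sum_mulVec, tens_sum, smul_mulVec, tens_smul, cmp_kr, map_smul, one_apply_eq_self,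
    Finset.sum_add_distrib]
  rw [Finset.sum_comm]

theorem a2_Km (hρ : IsRot ρ) (e : Fin 16 → ℝ) (y : Tn 9 d) :
    kr (hat c.γ ρ) 1 (c.Km e y) = c.Km (hat c.γ ρ *ᵥ e) y + c.Km e (kr ρ 1 y) := by
  simp only [Km_apply, map_sum, map_smul, kr_tens, mulVec_mulVec, one_apply_eq_self]
  simp only [← tens_smul, ← smul_mulVec, hat_mul_G c.gam hρ]
  simp only [add_mulVec, tens_add, sum_mulVec, tens_sum, smul_mulVec, tens_smul, cmp_kr, map_smul,
    map_sum, one_apply_eq_self, Finset.sum_add_distrib, Finset.smul_sum, smul_smul, mul_comm]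
  rw [Finset.sum_comm]

theorem a2_Phi (hρ : ρᵀ = -ρ) (e : Fin 16 → ℝ) (x : Tn 9 d) :
    kr (hat c.γ ρ) 1 (c.Phi e x) =
      c.Phi (hat c.γ ρ *ᵥ e) x + fderiv ℝ (c.Phi e) x (kr ρ 1 x) := by
  have e1 : ∑ i, ∑ j, ∑ k, ρ k j • (tens (gamma2 c.γ k i *ᵥ e) (c.ad (cmp i x) (cmp j x)) :
      Tn 16 d) = ∑ i, ∑ j, ∑ k, ρ k i • tens (gamma2 c.γ j k *ᵥ e) (c.ad (cmp i x) (cmp j x)) := by
    rw [Finset.sum_comm]
    refine Finset.sum_congr rfl fun i _ => Finset.sum_congr rfl fun j _ =>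
      Finset.sum_congr rfl fun k _ => ?_
    rw [gamma2_swap, c.ad_anti, neg_mulVec, tens_neg, map_neg, neg_neg]
  have e2 : fderiv ℝ (c.Phi e) x (kr ρ 1 x) =
      ∑ i, ∑ j, ∑ k, ρ k i • tens (gamma2 c.γ j k *ᵥ e) (c.ad (cmp i x) (cmp j x)) := by
    simp only [fderiv_Phi, cmp_kr, ad_sum, ad_smul, _root_.sum_apply, _root_.smul_apply, map_sum,
      map_smul, one_apply_eq_self]
    rw [Finset.sum_comm]
    refine Eq.trans ?_ Finset.sum_comm
    exact Finset.sum_congr rfl fun j _ => Finset.sum_comm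
  simp only [e2, Phi, map_sum, map_smul, kr_tens, mulVec_mulVec, hat_mul_two c.gam hρ, add_mulVec,
    tens_add, sum_mulVec, tens_sum, smul_mulVec, tens_smul, one_apply_eq_self,
    Finset.sum_add_distrib, e1]
  module

theorem p_a2 : c.S_a2 := by
  intro π g m ρ hρ ψ hψ
  have hone : IsSym (1 : Lg d →L[ℝ] Lg d) := fun _ _ => rfl
  have hU : ∀ x ∈ sub 9 (c.ss π), kr ρ 1 x ∈ sub 9 (c.ss π) := fun x hx => mem_sub.2 fun i => by
    rw [cmp_kr]
    exact Submodule.sum_mem _ fun j _ => Submodule.smul_mem _ _ (mem_sub.1 hx j)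
  have ha : IsSkew (kr (hat c.γ ρ) (1 : Lg d →L[ℝ] Lg d)) :=
    Cov1Aux.skew_kr (c.gam.hat_transpose hρ.1) hone
  refine ⟨rot_mem (c.adm_C0 π) hU ?_ hψ, fun e x _ => ?_⟩
  · rintro _ (rfl | ⟨u, -, rfl⟩)
    · exact ⟨by rw [mul_one, one_mul], c.car.dG_vac_comm (c.isPCS_Gm _) ha (by
        rw [kr_mul, kr_mul, c.gam.hat_comm_Gm hρ, one_mul, mul_one])⟩
    · refine ⟨by simp only [Ad9, kr_mul, one_mul, mul_one], ?_⟩
      rw [c.U_dG, kr_mul, kr_mul, one_mul, mul_one, mul_one, ← c.Ad_mul, mul_inv_cancel, c.Ad_one]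
  · refine rot_comm c.car 1 (fun u v => ?_) hU ha (c.contDiff_beta g m e) (c.a2_sE hρ.1 e) ?_ hψ.1.1
    · rw [inner_kr ρ 1 1 hone, hρ.1, kr_neg_left, _root_.neg_apply, inner_neg_right]
    · rw [cov3_fderiv, beta, beta, map_add, map_smul, map_smul, c.a2_Phi hρ.1, c.a2_Km hρ]
      module

end Ctx

end Vale.Agent.P353
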