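import Vale.Agent.P353.AbsC

/-! The abstract spectral gap lemma. -/

noncomputable section

open MeasureTheory Filter Topology Complex Matrix
open scoped ContDiff RealInnerProductSpace

namespace Vale.Agent.P353

variable {H D : Type} [NormedAddCommGroup H] [InnerProductSpace ℂ H] [CompleteSpace H]
  [AddCommGroup D] [Module ℂ D]

variable {ι : D →ₗ[ℂ] H} {Q : (Fin 16 → ℝ) → D →ₗ[ℂ] D} {γ : Fin 9 → M16} {m : ℝ}
  {Rt : Matrix (Fin 9) (Fin 9) ℝ → D →ₗ[ℂ] D}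

namespace AbsAux

variable {R : H →L[ℂ] H} {A : (Fin 16 → ℝ) → H →L[ℂ] H}

lemma Res.sub_sq_le (r : Res ι Q R A) (h : AbsAlg ι Q γ m Rt) (φ : D) :
    16 * ‖ι φ - R (ι φ)‖ ^ 2 ≤ absE ι Q φ := by
  have key : ∀ w, inner ℂ w (ι φ - R (ι φ)) =
      (1 / 16 : ℂ) * ∑ α, inner ℂ (A (eb α) w) (ι (Q (eb α) φ)) := fun w => by
    refine ind h (p := fun w => inner ℂ w (ι φ - R (ι φ)) =
      (1 / 16 : ℂ) * ∑ α, inner ℂ (A (eb α) w) (ι (Q (eb α) φ)))
      (isClosed_eq (by fun_prop) (by fun_prop)) (fun χ y hy => ?_) w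
    simp only [r.AT _ χ y hy]
    rw [← H_form h, ← H_symm h, inner_sub_right, ← r.Rsymm h, r.RT χ y hy, inner_add_left,
      orth' hy, add_zero, map_add, inner_add_left, add_sub_cancel_left]
  generalize ι φ - R (ι φ) = z at key ⊢
  have h1 := congrArg re (key z)
  rw [re_self, show (1 / 16 : ℂ) = ((1 / 16 : ℝ) : ℂ) by simp, re_ofReal_mul, re_sum] at h1
  have h2 : ∑ α, (inner ℂ (A (eb α) z) (ι (Q (eb α) φ))).re ≤
      ∑ α, (‖A (eb α) z‖ ^ 2 / 2 + ‖ι (Q (eb α) φ)‖ ^ 2 / 2) := Finset.sum_le_sum fun α _ => by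
    nlinarith [re_inner_le (A (eb α) z) (ι (Q (eb α) φ)),
      sq_nonneg (‖A (eb α) z‖ - ‖ι (Q (eb α) φ)‖)]
  rw [Finset.sum_add_distrib, ← Finset.sum_div, ← Finset.sum_div, r.en h, inner_sub_right,
    sub_re, re_self] at h2
  have h3 := re_inner_le (R z) z
  have h4 := mul_le_mul_of_nonneg_right ((r.core h).norm_le z) (norm_nonneg z)
  rw [absE]
  nlinarith [sq_nonneg ‖R z‖]

lemma Res.seq (r : Res ι Q R A) (h : AbsAlg ι Q γ m Rt) {u : H} (hu : R u = u) :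
    ∃ φ : ℕ → D, Tendsto (fun n => ι (φ n)) atTop (𝓝 u) ∧
      Tendsto (fun n => ι (absH Q (φ n))) atTop (𝓝 0) := by
  have : ∀ n : ℕ, ∃ φ, ‖ι φ - R u‖ ≤ 1 / ((n : ℝ) + 1) ∧
      ‖ι (absH Q φ) - (u - R u)‖ ≤ 1 / ((n : ℝ) + 1) := fun n =>
    r.approx h u (by rw [hu, sub_self]; exact subset_closure ⟨0, map_zero ι⟩)
      Nat.one_div_pos_of_nat
  choose φ h1 h2 using this
  rw [hu] at h1 h2
  simp only [sub_self] at h2
  exact ⟨φ, tendsto_iff_norm_sub_tendsto_zero.2 (squeeze_zero (fun _ => norm_nonneg _) h1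
      tendsto_one_div_add_atTop_nhds_zero_nat),
    tendsto_iff_norm_sub_tendsto_zero.2 (squeeze_zero (fun _ => norm_nonneg _) h2
      tendsto_one_div_add_atTop_nhds_zero_nat)⟩

lemma Res.mem_iff (r : Res ι Q R A) (h : AbsAlg ι Q γ m Rt) {V : Submodule ℂ H}
    (hV : ∀ u, u ∈ V ↔ ∀ ε > 0, ∃ φ, ‖ι φ - u‖ ≤ ε ∧ absE ι Q φ ≤ ε) (u : H) :
    u ∈ V ↔ R u = u := by
  rw [hV]
  refine ⟨fun hu => ?_, fun hu ε hε => ?_⟩
  · refine eq_of_forall_dist_le fun ε hε => ?_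
    obtain ⟨φ, h1, h2⟩ := hu (min (ε / 3) (ε ^ 2)) (lt_min (by positivity) (by positivity))
    have h3 := r.sub_sq_le h φ
    have h4 : ‖ι φ - R (ι φ)‖ ≤ ε / 3 := by
      refine abs_le_of_sq_le_sq' ?_ (by positivity) |>.2
      nlinarith [min_le_right (ε / 3) (ε ^ 2), sq_nonneg ε]
    have h5 := (r.core h).norm_le (ι φ - u)
    have h6 : R u - u = (ι φ - u) - (ι φ - R (ι φ)) - R (ι φ - u) := by rw [map_sub]; abel
    rw [dist_eq_norm, h6]
    linarith [min_le_left (ε / 3) (ε ^ 2), norm_sub_le (ι φ - u) (ι φ - R (ι φ)),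
      norm_sub_le (ι φ - u - (ι φ - R (ι φ))) (R (ι φ - u))]
  · obtain ⟨φ, h1, h2⟩ := r.seq h hu
    have h3 := (h1.norm.mul h2.norm).const_mul 16
    rw [norm_zero, mul_zero, mul_zero] at h3
    have h4 := (tendsto_iff_norm_sub_tendsto_zero.1 h1).eventually_le_const hε
    obtain ⟨n, h5, h6⟩ := (h4.and (h3.eventually_le_const hε)).exists
    exact ⟨φ n, h5, (energy h _).trans h6⟩

lemma Res.fin (r : Res ι Q R A) (h : AbsAlg ι Q γ m Rt) {V : Submodule ℂ H}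
    (hV : ∀ u, u ∈ V ↔ R u = u) : FiniteDimensional ℂ V := by
  have : V = Module.End.eigenspace (R : H →ₗ[ℂ] H) 1 := by
    ext u
    rw [hV, Module.End.mem_eigenspace_iff, one_smul]
    rfl
  rw [this]
  exact ContinuousLinearMap.finite_dimensional_eigenspace (r.compact h) 1 one_ne_zero

omit [CompleteSpace H] in
lemma exists_functional (L : D →ₗ[ℂ] ℂ) (hb : ∃ B, ∀ φ, ‖L φ‖ ^ 2 ≤ B * ‖ι φ‖ ^ 2) :
    ∃ g : H →L[ℂ] ℂ, ∀ φ, g (ι φ) = L φ := by
  obtain ⟨B, hB⟩ := hb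
  have h1 : ∃ C, ∀ φ, ‖L φ‖ ≤ C * ‖ι φ‖ := ⟨√|B|, fun φ => by
    refine abs_le_of_sq_le_sq' ?_ (by positivity) |>.2
    rw [mul_pow, Real.sq_sqrt (abs_nonneg _)]
    exact (hB φ).trans (mul_le_mul_of_nonneg_right (le_abs_self _) (sq_nonneg _))⟩
  obtain ⟨g, hg, -⟩ := exists_extension_norm_eq (LinearMap.range ι) (L.compLeftInverse ι)
  exact ⟨g, fun φ => (hg ⟨_, φ, rfl⟩).trans (L.compLeftInverse_apply_of_bdd ι h1 φ _ rfl)⟩

end AbsAux

open AbsAux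

theorem AbsAlg.comm (h : AbsAlg ι Q γ m Rt) (e : Fin 16 → ℝ) (φ : D) :
    ι (absH Q (Q e φ) - Q e (absH Q φ)) = (I * m / 2) • ι (Q (Gm γ *ᵥ e) φ) :=
  AbsAux.comm h e φ

theorem AbsAlg.second (h : AbsAlg ι Q γ m Rt) (φ : D) : ∑ α, absE ι Q (Q (eb α) φ) ≤
    256 * ‖ι (absH Q φ)‖ ^ 2 + 128 * m * (‖ι φ‖ * ‖ι (absH Q φ)‖) := AbsAux.second h φ

theorem AbsAlg.energy (h : AbsAlg ι Q γ m Rt) (φ : D) :
    absE ι Q φ ≤ 16 * (‖ι φ‖ * ‖ι (absH Q φ)‖) := AbsAux.energy h φ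

/-- finite dimension and gap -/
theorem AbsAlg.gap (h : AbsAlg ι Q γ m Rt) {V : Submodule ℂ H}
    (hV : ∀ u, u ∈ V ↔ ∀ ε > 0, ∃ φ, ‖ι φ - u‖ ≤ ε ∧ absE ι Q φ ≤ ε) :
    FiniteDimensional ℂ V ∧ ∀ φ, ∃ u ∈ V, m * ‖ι φ - u‖ ^ 2 ≤ absE ι Q φ := by
  obtain ⟨R, A, r⟩ := exists_res h
  have hV' := r.mem_iff h hV
  have := r.fin h hV'
  refine ⟨this, fun φ => ?_⟩
  obtain ⟨u, hu, y, hy, h1⟩ := V.exists_add_mem_mem_orthogonal (ι (φ + absH Q φ))
  have h2 := r.RT φ 0 (Submodule.zero_mem _)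
  rw [add_zero, h1, map_add, (hV' u).1 hu] at h2
  have h3 : ι (absH Q φ) = y - R y := by
    rw [map_add, ← h2] at h1
    linear_combination (norm := module) h1
  have h4 := (r.core h).gap_form (r.compact h) hV' hy
  have h5 := (Submodule.mem_orthogonal _ _).1 (Vᗮ.sub_mem hy ((r.core h).inv hV' y hy)) u hu
  refine ⟨u, hu, ?_⟩
  rwa [E_eq h, h3, ← h2, add_sub_cancel_left, inner_add_left, h5, zero_add]

theorem AbsAlg.range (h : AbsAlg ι Q γ m Rt) {V : Submodule ℂ H}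
    (hV : ∀ u, u ∈ V ↔ ∀ ε > 0, ∃ φ, ‖ι φ - u‖ ≤ ε ∧ absE ι Q φ ≤ ε) {w : H}
    (hw : w ∈ closure (Set.range ι)) (ho : w ∈ Vᗮ) {ε : ℝ} (hε : 0 < ε) :
    ∃ φ, ‖ι (absH Q φ) - w‖ ≤ ε ∧ m * ‖ι φ‖ ≤ 16 * ‖w‖ + ε := by
  obtain ⟨R, A, r⟩ := exists_res h
  have hm := h.pos
  obtain ⟨x, hx, h1⟩ := (r.core h).solve (r.compact h) (r.mem_iff h hV) ho
  obtain ⟨φ, h2, h3⟩ := r.approx h x (by rwa [hx]) (lt_min hε (div_pos hε hm))
  rw [hx] at h3
  refine ⟨φ, h3.trans (min_le_left _ _), ?_⟩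
  have h4 := (le_div_iff₀ hm).1 (h2.trans (min_le_right _ _))
  nlinarith [mul_le_mul_of_nonneg_left (norm_le_norm_sub_add (ι φ) (R x)) hm.le]

/-- zero modes are rotation invariant -/
theorem AbsAlg.rot_inv (h : AbsAlg ι Q γ m Rt) {V : Submodule ℂ H}
    (hV : ∀ u, u ∈ V ↔ ∀ ε > 0, ∃ φ, ‖ι φ - u‖ ≤ ε ∧ absE ι Q φ ≤ ε) {u : H} (hu : u ∈ V) {ε : ℝ}
    (hε : 0 < ε) : ∃ φ, ‖ι φ - u‖ ≤ ε ∧ ‖ι (Rt rot78 φ)‖ ≤ ε := by
  obtain ⟨R, A, r⟩ := exists_res h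
  have hm := h.pos
  obtain ⟨φ, h1, h2⟩ := r.seq h ((r.mem_iff h hV u).1 hu)
  have h3 := ((h2.norm.pow 2).const_mul 256).add ((h1.norm.mul h2.norm).const_mul (128 * m))
  simp only [norm_zero, mul_zero, ne_eq, OfNat.ofNat_ne_zero, not_false_eq_true, zero_pow,
    add_zero] at h3
  have h4 : ∀ e α, Tendsto (fun n => ι (Q e (Q (eb α) (φ n)))) atTop (𝓝 0) := fun e α => by
    have he : 0 ≤ e ⬝ᵥ e := Finset.sum_nonneg fun i _ => mul_self_nonneg _
    have h5 := h3.const_mul (e ⬝ᵥ e)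
    rw [mul_zero] at h5
    have h6 : Tendsto (fun n => ‖ι (Q e (Q (eb α) (φ n)))‖ ^ 2) atTop (𝓝 0) := by
      refine squeeze_zero (fun _ => sq_nonneg _) (fun n => (norm_Q_le h e _).trans ?_) h5
      refine mul_le_mul_of_nonneg_left (le_trans ?_ (h.second (φ n))) he
      exact Finset.single_le_sum (f := fun α => absE ι Q (Q (eb α) (φ n)))
        (fun _ _ => E_nonneg _) (Finset.mem_univ α)
    have h7 := h6.sqrt
    simp only [Real.sqrt_sq (norm_nonneg _), Real.sqrt_zero] at h7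
    exact tendsto_zero_iff_norm_tendsto_zero.2 h7
  have h5 : ∀ e e', Tendsto (fun n => ι (Q e (Q e' (φ n)))) atTop (𝓝 0) := fun e e' => by
    have := tendsto_finsetSum Finset.univ fun α _ => (h4 e α).const_smul (e' α : ℂ)
    simp only [smul_zero, Finset.sum_const_zero] at this
    refine this.congr fun n => ?_
    rw [Q_expand h e' (φ n)]
    simp only [map_sum, map_smul]
  have h6 : ∀ e e', Tendsto (fun n => ι (Rt (rho γ e e') (φ n))) atTop (𝓝 0) := fun e e' => by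
    have hI : (I * m : ℂ) ≠ 0 := mul_ne_zero I_ne_zero (by exact_mod_cast hm.ne')
    have := ((h2.const_smul ((2 * (e ⬝ᵥ e') : ℝ) : ℂ)).sub ((h5 e e').add (h5 e' e))).const_smul
      (I * m : ℂ)⁻¹
    simp only [smul_zero, add_zero, sub_zero] at this
    refine this.congr fun n => ?_
    rw [← map_add, h.anti, map_sub, map_smul, map_smul, sub_sub_cancel, inv_smul_smul₀ hI]
  have h7 : Tendsto (fun n => ι (Rt rot78 (φ n))) atTop (𝓝 0) := by
    have := (tendsto_finsetSum Finset.univ fun α _ =>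
      h6 (eb α) ((Gm γ * γ 7 * γ 8) *ᵥ eb α)).const_smul (32 : ℂ)⁻¹
    simp only [smul_zero, Finset.sum_const_zero] at this
    refine this.congr fun n => ?_
    rw [← map_sum, ← LinearMap.sum_apply, ← lin_sum h.Radd h.Rsmul, h.gam.sum_rho_78, h.Rsmul,
      LinearMap.smul_apply, map_smul, ofReal_ofNat, inv_smul_smul₀ (by norm_num)]
  obtain ⟨n, h8, h9⟩ := (((tendsto_iff_norm_sub_tendsto_zero.1 h1).eventually_le_const hε).and
    ((tendsto_zero_iff_norm_tendsto_zero.1 h7).eventually_le_const hε)).exists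
  exact ⟨φ n, h8, h9⟩

/-- lower bound for the number of zero modes -/
theorem AbsAlg.crit_lower (h : AbsAlg ι Q γ m Rt) {V : Submodule ℂ H}
    (hV : ∀ u, u ∈ V ↔ ∀ ε > 0, ∃ φ, ‖ι φ - u‖ ≤ ε ∧ absE ι Q φ ≤ ε) {J : Type} [Fintype J]
    (L : J → D →ₗ[ℂ] ℂ) (hb : ∀ i, ∃ B, ∀ φ, ‖L i φ‖ ^ 2 ≤ B * ‖ι φ‖ ^ 2) {ε k K : ℝ}
    (hε : 0 ≤ ε) (hK : 0 ≤ K)
    (hH : ∀ i φ, ‖L i (absH Q φ)‖ ≤ ε * (m * ‖ι φ‖ + ‖ι (absH Q φ)‖)) (φ : J → D)
    (hφ : ∀ j, ‖ι (φ j)‖ ≤ K) (hd : ∀ j, k ≤ ‖L j (φ j)‖) (ho : ∀ i j, i ≠ j → ‖L i (φ j)‖ ≤ ε)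
    (hs : Fintype.card J * ε * (1 + 17 * K) < k) : Fintype.card J ≤ Module.finrank ℂ V := by
  classical
  have := (h.gap hV).1
  choose g hg using fun i => exists_functional (L i) (hb i)
  choose u hu w hw hφ' using fun j => V.exists_add_mem_mem_orthogonal (ι (φ j))
  have hw1 : ∀ j, w j ∈ closure (Set.range ι) := fun j => by
    have h1 : u j ∈ (LinearMap.range ι).topologicalClosure :=
      Metric.mem_closure_iff.2 fun δ hδ => by
        obtain ⟨χ, h1, -⟩ := (hV _).1 (hu j) _ (half_pos hδ)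
        refine ⟨ι χ, ⟨χ, rfl⟩, ?_⟩
        rw [dist_comm, dist_eq_norm]
        linarith
    have h2 := (LinearMap.range ι).topologicalClosure.sub_mem
      (Submodule.le_topologicalClosure _ (LinearMap.mem_range_self ι (φ j))) h1
    rwa [hφ', add_sub_cancel_left] at h2
  have hw2 : ∀ j, ‖w j‖ ≤ K := fun j => by
    refine le_trans ?_ (hφ j)
    rw [hφ', add_comm]
    exact norm_le_add ((Submodule.mem_orthogonal' _ _).1 (hw j) _ (hu j))
  have hw3 : ∀ i j, ‖g i (w j)‖ ≤ 17 * ε * K := fun i j => by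
    refine le_of_forall_pos_le_add fun δ hδ => ?_
    have hc : 0 < 2 * ε + ‖g i‖ + 1 := by positivity
    obtain ⟨χ, h1, h2⟩ := h.range hV (hw1 j) (hw j) (div_pos hδ hc)
    obtain ⟨η, hη⟩ : ∃ η, η = δ / (2 * ε + ‖g i‖ + 1) := ⟨_, rfl⟩
    have hη0 : 0 < η := hη ▸ div_pos hδ hc
    have hη1 : η * (2 * ε + ‖g i‖ + 1) = δ := by rw [hη, div_mul_cancel₀ _ hc.ne']
    rw [← hη] at h1 h2
    have h3 := hH i χ
    have h4 := (g i).le_of_opNorm_le_of_le le_rfl h1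
    have h5 := norm_le_norm_sub_add (ι (absH Q χ)) (w j)
    have h6 : ‖g i (w j)‖ ≤ ‖L i (absH Q χ)‖ + ‖g i (ι (absH Q χ) - w j)‖ := by
      rw [map_sub, hg]
      exact norm_le_insert _ _
    have h7 : m * ‖ι χ‖ + ‖ι (absH Q χ)‖ ≤ 17 * K + 2 * η := by linarith [hw2 j]
    nlinarith [mul_le_mul_of_nonneg_left h7 hε]
  have hM : ∀ i j, g i (u j) = L i (φ j) - g i (w j) := fun i j => by
    rw [← hg, hφ', map_add, add_sub_cancel_right]
  have hdet : (Matrix.of fun i j => g i (u j)).det ≠ 0 := by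
    refine det_ne_zero_of_sum_row_lt_diag fun i => ?_
    have h1 : ∑ j ∈ Finset.univ.erase i, ‖g i (u j)‖ ≤
        (Finset.univ.erase i).card • (ε + 17 * ε * K) :=
      Finset.sum_le_card_nsmul _ _ _ fun j hj => by
        rw [hM]
        linarith [norm_sub_le (L i (φ j)) (g i (w j)), hw3 i j,
          ho i j (Finset.ne_of_mem_erase hj).symm]
    have h2 : ((Finset.univ.erase i).card : ℝ) + 1 = Fintype.card J := by
      exact_mod_cast Finset.card_erase_add_one (Finset.mem_univ i)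
    have h3 : k - 17 * ε * K ≤ ‖g i (u i)‖ := by
      rw [hM]
      linarith [norm_sub_norm_le (L i (φ i)) (g i (w i)), hw3 i i, hd i]
    rw [nsmul_eq_mul] at h1
    rw [← h2] at hs
    simp only [Matrix.of_apply]
    nlinarith
  have hli : LinearIndependent ℂ fun j => (⟨u j, hu j⟩ : V) := by
    refine Fintype.linearIndependent_iff.2 fun c hc => ?_
    have h1 : ∑ j, c j • u j = 0 := by simpa using congrArg Subtype.val hc
    have h2 : (Matrix.of fun i j => g i (u j)) *ᵥ c = 0 := funext fun i => by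
      have := congrArg (g i) h1
      simp only [map_sum, map_smul, map_zero, smul_eq_mul] at this
      simpa [mulVec, dotProduct, mul_comm] using this
    exact congrFun (Matrix.eq_zero_of_mulVec_eq_zero hdet h2)
  exact hli.fintype_card_le_finrank

end Vale.Agent.P353
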