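import Vale.Agent.P353.Gam1

/-! The abstract superalgebra: definitions and algebraic identities. -/

noncomputable section

open MeasureTheory Filter Topology Complex Matrix
open scoped ContDiff RealInnerProductSpace

namespace Vale.Agent.P353

variable {H D : Type} [NormedAddCommGroup H] [InnerProductSpace ℂ H] [CompleteSpace H]
  [AddCommGroup D] [Module ℂ D]

/-- abstract Hamiltonian -/
def absH (Q : (Fin 16 → ℝ) → D →ₗ[ℂ] D) : D →ₗ[ℂ] D := (1 / 16 : ℂ) • ∑ α, Q (eb α) * Q (eb α)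

/-- abstract energy -/
def absE (ι : D →ₗ[ℂ] H) (Q : (Fin 16 → ℝ) → D →ₗ[ℂ] D) (φ : D) : ℝ := ∑ α, ‖ι (Q (eb α) φ)‖ ^ 2

/-- abstract superalgebra with compact resolvent -/
structure AbsAlg (ι : D →ₗ[ℂ] H) (Q : (Fin 16 → ℝ) → D →ₗ[ℂ] D) (γ : Fin 9 → M16) (m : ℝ)
    (Rt : Matrix (Fin 9) (Fin 9) ℝ → D →ₗ[ℂ] D) : Prop where
  gam : IsGam γ
  pos : 0 < m
  add : ∀ e e', Q (e + e') = Q e + Q e'
  smul : ∀ (t : ℝ) e, Q (t • e) = (t : ℂ) • Q e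
  Radd : ∀ ρ ρ', Rt (ρ + ρ') = Rt ρ + Rt ρ'
  Rsmul : ∀ (t : ℝ) ρ, Rt (t • ρ) = (t : ℂ) • Rt ρ
  symm : ∀ e φ ψ, inner ℂ (ι (Q e φ)) (ι ψ) = inner ℂ (ι φ) (ι (Q e ψ))
  anti : ∀ e e' φ, ι (Q e (Q e' φ) + Q e' (Q e φ)) =
    ι (((2 * (e ⬝ᵥ e') : ℝ) : ℂ) • absH Q φ - (I * m) • Rt (rho γ e e') φ)
  rot : ∀ ρ, IsRot ρ → ∀ e φ, ι (Rt ρ (Q e φ) - Q e (Rt ρ φ)) = -ι (Q (hat γ ρ *ᵥ e) φ)
  esa : ∀ u ∈ closure (Set.range ι), ∀ ε > 0, ∃ φ, ‖ι (φ + absH Q φ) - u‖ ≤ ε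
  cpt : ∀ φ : ℕ → D, (∀ n, ‖ι (φ n)‖ ^ 2 + absE ι Q (φ n) ≤ 1) →
    ∃ (k : ℕ → ℕ) (u : H), StrictMono k ∧ Tendsto (fun n => ι (φ (k n))) atTop (𝓝 u)

variable {ι : D →ₗ[ℂ] H} {Q : (Fin 16 → ℝ) → D →ₗ[ℂ] D} {γ : Fin 9 → M16} {m : ℝ}
  {Rt : Matrix (Fin 9) (Fin 9) ℝ → D →ₗ[ℂ] D}

namespace AbsAux

omit [CompleteSpace H]

lemma lin_zero {V : Type} [AddCommGroup V] [Module ℝ V] {P : V → D →ₗ[ℂ] D}
    (hs : ∀ (t : ℝ) e, P (t • e) = (t : ℂ) • P e) : P 0 = 0 := by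
  have := hs 0 0
  rwa [zero_smul, ofReal_zero, zero_smul] at this

lemma lin_sum {V J : Type} [AddCommGroup V] [Module ℝ V] {P : V → D →ₗ[ℂ] D}
    (ha : ∀ e e', P (e + e') = P e + P e') (hs : ∀ (t : ℝ) e, P (t • e) = (t : ℂ) • P e)
    (s : Finset J) (f : J → V) : P (∑ j ∈ s, f j) = ∑ j ∈ s, P (f j) := by
  classical
  induction s using Finset.induction_on with
  | empty => simpa using lin_zero hs
  | insert a s hna ih => rw [Finset.sum_insert hna, Finset.sum_insert hna, ha, ih]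

lemma Q_neg (h : AbsAlg ι Q γ m Rt) (e : Fin 16 → ℝ) : Q (-e) = -Q e := by
  have := h.smul (-1) e
  rwa [neg_one_smul, ofReal_neg, ofReal_one, neg_one_smul] at this

lemma Q_expand (h : AbsAlg ι Q γ m Rt) (e : Fin 16 → ℝ) (φ : D) :
    Q e φ = ∑ α, (e α : ℂ) • Q (eb α) φ := by
  conv_lhs => rw [← sum_eb_smul e, lin_sum h.add h.smul]
  simp only [h.smul, LinearMap.sum_apply, LinearMap.smul_apply]

lemma Q_GG (h : AbsAlg ι Q γ m Rt) (e : Fin 16 → ℝ) : Q (Gm γ *ᵥ (Gm γ *ᵥ e)) = -Q e := by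
  rw [mulVec_mulVec, h.gam.Gm_sq, neg_mulVec, one_mulVec, Q_neg h]

lemma cong (h : AbsAlg ι Q γ m Rt) (e : Fin 16 → ℝ) {φ ψ : D} (hφ : ι φ = ι ψ) :
    ι (Q e φ) = ι (Q e ψ) := by
  have h0 : ι (φ - ψ) = 0 := by rw [map_sub, hφ, sub_self]
  have h1 := h.symm e (φ - ψ) (Q e (φ - ψ))
  rw [h0, inner_zero_left, inner_self_eq_zero, map_sub, map_sub, sub_eq_zero] at h1
  exact h1

lemma H_apply (φ : D) : absH Q φ = (1 / 16 : ℂ) • ∑ α, Q (eb α) (Q (eb α) φ) := by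
  simp only [absH, LinearMap.smul_apply, LinearMap.sum_apply, Module.End.mul_apply]

lemma H_form (h : AbsAlg ι Q γ m Rt) (φ ψ : D) : inner ℂ (ι φ) (ι (absH Q ψ)) =
    (1 / 16 : ℂ) * ∑ α, inner ℂ (ι (Q (eb α) φ)) (ι (Q (eb α) ψ)) := by
  simp only [H_apply, map_smul, map_sum, inner_smul_right, inner_sum, h.symm]

lemma H_symm (h : AbsAlg ι Q γ m Rt) (φ ψ : D) :
    inner ℂ (ι (absH Q φ)) (ι ψ) = inner ℂ (ι φ) (ι (absH Q ψ)) := by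
  rw [← inner_conj_symm, H_form h, H_form h]
  simp only [map_mul, map_sum, inner_conj_symm, map_div₀, map_one, map_ofNat]

lemma E_eq (h : AbsAlg ι Q γ m Rt) (φ : D) :
    absE ι Q φ = 16 * (inner ℂ (ι φ) (ι (absH Q φ))).re := by
  have : ∀ x : H, inner ℂ x x = ((‖x‖ ^ 2 : ℝ) : ℂ) := fun x => by
    rw [inner_self_eq_norm_sq_to_K]; simp
  rw [H_form h, absE]
  simp only [this]
  rw [← ofReal_sum, show (1 / 16 : ℂ) = ((1 / 16 : ℝ) : ℂ) by simp, ← ofReal_mul, ofReal_re]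
  ring

lemma E_nonneg (φ : D) : 0 ≤ absE ι Q φ := Finset.sum_nonneg fun _ _ => by positivity

lemma re_inner_le (x y : H) : (inner ℂ x y).re ≤ ‖x‖ * ‖y‖ :=
  (re_le_norm _).trans (norm_inner_le_norm x y)

lemma energy (h : AbsAlg ι Q γ m Rt) (φ : D) :
    absE ι Q φ ≤ 16 * (‖ι φ‖ * ‖ι (absH Q φ)‖) := by
  rw [E_eq h]
  have := re_inner_le (ι φ) (ι (absH Q φ))
  linarith

lemma norm_Q_le (h : AbsAlg ι Q γ m Rt) (e : Fin 16 → ℝ) (φ : D) :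
    ‖ι (Q e φ)‖ ^ 2 ≤ (e ⬝ᵥ e) * absE ι Q φ := by
  have h1 : ‖ι (Q e φ)‖ ≤ ∑ α, |e α| * ‖ι (Q (eb α) φ)‖ := by
    rw [Q_expand h, map_sum]
    refine (norm_sum_le _ _).trans (le_of_eq (Finset.sum_congr rfl fun α _ => ?_))
    rw [map_smul, norm_smul, norm_real, Real.norm_eq_abs]
  have h2 := Finset.sum_mul_sq_le_sq_mul_sq Finset.univ (fun α => |e α|)
    (fun α => ‖ι (Q (eb α) φ)‖)
  simp only [sq_abs] at h2
  have h3 : e ⬝ᵥ e = ∑ α, e α ^ 2 := by simp only [dotProduct, sq]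
  rw [h3, absE]
  exact (pow_le_pow_left₀ (norm_nonneg _) h1 2).trans h2

lemma G_dot (h : IsGam γ) (e : Fin 16 → ℝ) : (Gm γ *ᵥ e) ⬝ᵥ (Gm γ *ᵥ e) = e ⬝ᵥ e := by
  rw [Gam1Aux.dot_mul, h.Gm_transpose, mulVec_mulVec, neg_mul, h.Gm_sq, neg_neg, one_mulVec]

lemma norm_QG (h : AbsAlg ι Q γ m Rt) (e : Fin 16 → ℝ) (φ : D) :
    ‖ι (Q (Gm γ *ᵥ e) φ)‖ = ‖ι (Q e φ)‖ := by
  have h1 := h.anti (Gm γ *ᵥ e) (Gm γ *ᵥ e) φ
  rw [G_dot h.gam, h.gam.rho_Gm, ← h.anti, map_add, map_add, ← two_smul ℂ, ← two_smul ℂ] at h1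
  have h2 := smul_right_injective H (two_ne_zero (α := ℂ)) h1
  have h3 := h.symm (Gm γ *ᵥ e) φ (Q (Gm γ *ᵥ e) φ)
  rw [h2, ← h.symm e φ, inner_self_eq_norm_sq_to_K, inner_self_eq_norm_sq_to_K] at h3
  have h4 : ‖ι (Q (Gm γ *ᵥ e) φ)‖ ^ 2 = ‖ι (Q e φ)‖ ^ 2 := by exact_mod_cast h3
  exact (pow_left_inj₀ (norm_nonneg _) (norm_nonneg _) two_ne_zero).1 h4

/-- the commutator of an anticommutator with a supercharge -/
lemma anti_comm (h : AbsAlg ι Q γ m Rt) (e e' a : Fin 16 → ℝ) (φ : D) :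
    ι (Q e (Q e' (Q a φ)) + Q e' (Q e (Q a φ))) - ι (Q a (Q e (Q e' φ) + Q e' (Q e φ))) =
      ((2 * (e ⬝ᵥ e') : ℝ) : ℂ) • ι (absH Q (Q a φ) - Q a (absH Q φ)) +
        (I * m) • ι (Q (hat γ (rho γ e e') *ᵥ a) φ) := by
  have h1 := h.rot _ (h.gam.rho_isRot e e') a φ
  rw [h.anti e e' (Q a φ), cong h a (h.anti e e' φ)]
  simp only [map_sub, map_smul] at h1 ⊢
  rw [← neg_neg (ι (Q (hat γ (rho γ e e') *ᵥ a) φ)), ← h1]
  module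

lemma comm (h : AbsAlg ι Q γ m Rt) (e : Fin 16 → ℝ) (φ : D) :
    ι (absH Q (Q e φ) - Q e (absH Q φ)) = (I * m / 2) • ι (Q (Gm γ *ᵥ e) φ) := by
  have h1 : ∀ α, ι (Q (eb α) (Q (eb α) (Q e φ))) - ι (Q e (Q (eb α) (Q (eb α) φ))) =
      -((2 * e α : ℂ) • ι (absH Q (Q (eb α) φ) - Q (eb α) (absH Q φ))) -
        (I * m) • ι (Q (hat γ (rho γ (eb α) e) *ᵥ eb α) φ) := fun α => by
    have := anti_comm h (eb α) e (eb α) φ
    rw [show eb α ⬝ᵥ e = e α by simp [eb]] at this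
    simp only [map_add, ofReal_mul, ofReal_ofNat] at this
    rw [← neg_add', ← this]
    abel
  have h2 : ∑ α, (2 * e α : ℂ) • ι (absH Q (Q (eb α) φ) - Q (eb α) (absH Q φ)) =
      (2 : ℂ) • ι (absH Q (Q e φ) - Q e (absH Q φ)) := by
    rw [Q_expand h e φ, Q_expand h e (absH Q φ)]
    simp only [map_sub, map_sum, map_smul, ← Finset.sum_sub_distrib, Finset.smul_sum, smul_sub,
      smul_smul]
  have h3 : ∑ α, ι (Q (hat γ (rho γ (eb α) e) *ᵥ eb α) φ) = (-9 : ℂ) • ι (Q (Gm γ *ᵥ e) φ) := by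
    rw [← map_sum, ← LinearMap.sum_apply, ← lin_sum h.add h.smul, h.gam.sum_hat_rho, h.smul]
    simp
  have h4 : ∑ α, (ι (Q (eb α) (Q (eb α) (Q e φ))) - ι (Q e (Q (eb α) (Q (eb α) φ)))) =
      (16 : ℂ) • ι (absH Q (Q e φ) - Q e (absH Q φ)) := by
    simp only [H_apply, map_sub, map_smul, map_sum, smul_sub, smul_smul, Finset.sum_sub_distrib]
    norm_num
  simp only [h1, Finset.sum_sub_distrib, Finset.sum_neg_distrib, ← Finset.smul_sum, h2, h3] at h4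
  generalize ι (absH Q (Q e φ) - Q e (absH Q φ)) = x at h4 ⊢
  linear_combination (norm := module) (-1 / 18 : ℂ) • h4

lemma second (h : AbsAlg ι Q γ m Rt) (φ : D) : ∑ α, absE ι Q (Q (eb α) φ) ≤
    256 * ‖ι (absH Q φ)‖ ^ 2 + 128 * m * (‖ι φ‖ * ‖ι (absH Q φ)‖) := by
  have hm := h.pos
  have h1 : ∀ α, absE ι Q (Q (eb α) φ) ≤
      16 * (inner ℂ (ι (Q (eb α) φ)) (ι (Q (eb α) (absH Q φ)))).re +
        8 * m * ‖ι (Q (eb α) φ)‖ ^ 2 := fun α => by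
    have hc := comm h (eb α) φ
    rw [map_sub, sub_eq_iff_eq_add'] at hc
    have h2 := re_inner_le (ι (Q (eb α) φ)) ((I * m / 2) • ι (Q (Gm γ *ᵥ eb α) φ))
    rw [norm_smul, norm_QG h, norm_div, norm_mul, norm_I, norm_real, Real.norm_eq_abs,
      abs_of_pos hm, one_mul, Complex.norm_ofNat] at h2
    rw [E_eq h, hc, inner_add_right, add_re]
    nlinarith
  have h2 : ∑ α, (inner ℂ (ι (Q (eb α) φ)) (ι (Q (eb α) (absH Q φ)))).re =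
      16 * ‖ι (absH Q φ)‖ ^ 2 := by
    have := H_form h φ (absH Q φ)
    rw [← H_symm h, inner_self_eq_norm_sq_to_K] at this
    rw [← re_sum, show ∑ α, inner ℂ (ι (Q (eb α) φ)) (ι (Q (eb α) (absH Q φ))) =
      ((16 * ‖ι (absH Q φ)‖ ^ 2 : ℝ) : ℂ) by
        push_cast; linear_combination (-16 : ℂ) * this, ofReal_re]
  have h3 := Finset.sum_le_sum fun α (_ : α ∈ Finset.univ) => h1 α
  rw [Finset.sum_add_distrib, ← Finset.mul_sum, ← Finset.mul_sum, h2] at h3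
  have h4 := energy h φ
  rw [absE] at h4
  nlinarith

/-- raising and lowering operators -/
def EE (Q : (Fin 16 → ℝ) → D →ₗ[ℂ] D) (γ : Fin 9 → M16) (s : ℝ) (e : Fin 16 → ℝ) : D →ₗ[ℂ] D :=
  Q e + (s * I) • Q (Gm γ *ᵥ e)

lemma sq_comm (h : AbsAlg ι Q γ m Rt) {e a : Fin 16 → ℝ} (he : e ⬝ᵥ e = 1)
    (ha : hat γ (rho γ e e) *ᵥ a = (-5 : ℝ) • (Gm γ *ᵥ a)) (φ : D) :
    ι (Q e (Q e (Q a φ))) - ι (Q a (Q e (Q e φ))) = (-2 * I * m) • ι (Q (Gm γ *ᵥ a) φ) := by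
  have h1 := anti_comm h e e a φ
  rw [he, ha, comm h, h.smul] at h1
  simp only [map_add, LinearMap.smul_apply, map_smul] at h1
  push_cast at h1
  linear_combination (norm := module) (1 / 2 : ℂ) • h1

lemma triple (h : AbsAlg ι Q γ m Rt) {e a : Fin 16 → ℝ} (he : e ⬝ᵥ e = 1)
    (ha : hat γ (rho γ e e) *ᵥ a = (-5 : ℝ) • (Gm γ *ᵥ a)) (φ : D) :
    ι (EE Q γ (-1) e (EE Q γ 1 e (EE Q γ (-1) a φ))) +
      ι (EE Q γ 1 e (EE Q γ (-1) e (EE Q γ (-1) a φ))) -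
      ι (EE Q γ (-1) a (EE Q γ (-1) e (EE Q γ 1 e φ) + EE Q γ 1 e (EE Q γ (-1) e φ))) =
      (8 * m : ℂ) • ι (EE Q γ (-1) a φ) := by
  have he' : (Gm γ *ᵥ e) ⬝ᵥ (Gm γ *ᵥ e) = 1 := by rw [G_dot h.gam, he]
  have ha' : hat γ (rho γ e e) *ᵥ (Gm γ *ᵥ a) = (-5 : ℝ) • (Gm γ *ᵥ (Gm γ *ᵥ a)) := by
    rw [mulVec_mulVec, h.gam.hat_comm_Gm (h.gam.rho_isRot e e), ← mulVec_mulVec, ha, mulVec_smul]
  have h1 := sq_comm h he ha φ
  have h2 := sq_comm h he ha' φ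
  have h3 := sq_comm h he' (by rw [h.gam.rho_Gm]; exact ha) φ
  have h4 := sq_comm h he' (by rw [h.gam.rho_Gm]; exact ha') φ
  rw [Q_GG h] at h2 h4
  simp only [EE, LinearMap.add_apply, LinearMap.smul_apply, map_add, map_smul,
    LinearMap.neg_apply, map_neg] at h2 h4 ⊢
  push_cast
  linear_combination (norm := skip) (2 : ℂ) • h1 + (-2 * I) • h2 + (2 : ℂ) • h3 +
    (-2 * I) • h4
  match_scalars <;> ring_nf <;> simp only [I_sq, I_pow_three] <;> ring_nf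

end AbsAux

end Vale.Agent.P353
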