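import Vale.Agent.P353.AbsA

/-! The spectral gap for bounded operators satisfying the resolvent form of the superalgebra. -/

noncomputable section

open MeasureTheory Filter Topology Complex Matrix
open scoped ContDiff RealInnerProductSpace

namespace Vale.Agent.P353

namespace AbsAux

variable {H : Type} [NormedAddCommGroup H] [InnerProductSpace ℂ H]

/-- bounded raising and lowering operators -/
def EB (A : (Fin 16 → ℝ) → H →L[ℂ] H) (γ : Fin 9 → M16) (s : ℝ) (e : Fin 16 → ℝ) : H →L[ℂ] H :=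
  A e + (s * I) • A (Gm γ *ᵥ e)

/-- the resolvent form of the superalgebra -/
structure Core (R : H →L[ℂ] H) (A : (Fin 16 → ℝ) → H →L[ℂ] H) (γ : Fin 9 → M16) (m : ℝ) :
    Prop where
  gam : IsGam γ
  pos : 0 < m
  add : ∀ e e' w, A (e + e') w = A e w + A e' w
  smul : ∀ (t : ℝ) e w, A (t • e) w = (t : ℂ) • A e w
  Rsymm : ∀ w w', inner ℂ (R w) w' = inner ℂ w (R w')
  AR : ∀ e w w', inner ℂ (A e w) (R w') = inner ℂ (R w) (A e w')
  comm : ∀ e w, A e (R w) = R (A e w) + (I * m / 2) • R (A (Gm γ *ᵥ e) (R w))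
  en : ∀ w, ∑ α, ‖A (eb α) w‖ ^ 2 = 16 * (inner ℂ (R w) (w - R w)).re
  bd : ∀ e w, ‖A e w‖ ^ 2 ≤ (e ⬝ᵥ e) * ∑ α, ‖A (eb α) w‖ ^ 2
  triple : ∀ e a : Fin 16 → ℝ, e ⬝ᵥ e = 1 →
    hat γ (rho γ e e) *ᵥ a = (-5 : ℝ) • (Gm γ *ᵥ a) → ∀ w₀ w₁ w₂ w₃ w, EB A γ (-1) e w₀ = 0 →
    EB A γ 1 e w₀ = R w₁ → EB A γ (-1) e w₁ = R w₂ → EB A γ 1 a w₀ = R w₃ →
    inner ℂ (R w) (EB A γ 1 a w₂) - (inner ℂ (EB A γ 1 e w) (EB A γ 1 e w₃) +
      inner ℂ (EB A γ (-1) e w) (EB A γ (-1) e w₃)) = (8 * m : ℂ) * inner ℂ (R w) (R w₃)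

variable {R : H →L[ℂ] H} {A : (Fin 16 → ℝ) → H →L[ℂ] H} {γ : Fin 9 → M16} {m : ℝ}

lemma re_self (x : H) : (inner ℂ x x).re = ‖x‖ ^ 2 := by
  rw [inner_self_eq_norm_sq_to_K]; norm_cast

lemma Core.sq_le (c : Core R A γ m) (w : H) : ‖R w‖ ^ 2 ≤ (inner ℂ (R w) w).re := by
  have h1 := c.en w
  have h2 : 0 ≤ ∑ α, ‖A (eb α) w‖ ^ 2 := Finset.sum_nonneg fun _ _ => by positivity
  rw [inner_sub_right, sub_re, re_self] at h1
  linarith

lemma Core.norm_le (c : Core R A γ m) (w : H) : ‖R w‖ ≤ ‖w‖ := by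
  have h1 := (c.sq_le w).trans (re_inner_le _ _)
  nlinarith [norm_nonneg (R w), norm_nonneg w]

lemma Core.EB_adj (c : Core R A γ m) (s : ℝ) (e : Fin 16 → ℝ) (w w' : H) :
    inner ℂ (EB A γ s e w) (R w') = inner ℂ (R w) (EB A γ (-s) e w') := by
  simp only [EB, _root_.add_apply, _root_.smul_apply, inner_add_left,
    inner_add_right, inner_smul_left, inner_smul_right, c.AR, map_mul, conj_ofReal, conj_I]
  push_cast
  ring

lemma Core.shift (c : Core R A γ m) {s : ℝ} (hs : s * s = 1) (e : Fin 16 → ℝ) {u : H} {ν : ℝ}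
    (hu : R u = (ν : ℂ) • u) :
    (ν : ℂ) • EB A γ s e u = ((1 + s * (m / 2) * ν : ℝ) : ℂ) • R (EB A γ s e u) := by
  have h1 := c.comm e u
  have h2 := c.comm (Gm γ *ᵥ e) u
  have hs' : (s : ℂ) ^ 2 = 1 := by rw [sq]; exact_mod_cast hs
  rw [mulVec_mulVec, c.gam.Gm_sq, neg_mulVec, one_mulVec, ← neg_one_smul ℝ e, c.smul] at h2
  simp only [hu, EB, _root_.add_apply, _root_.smul_apply, map_add,
    map_smul] at h1 h2 ⊢
  push_cast at h2 ⊢
  linear_combination (norm := skip) h1 + (s * I) • h2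
  match_scalars <;> ring_nf <;> simp only [I_sq, hs'] <;> ring_nf

lemma Core.lower (c : Core R A γ m) (e : Fin 16 → ℝ) {u : H} {μ : ℝ}
    (hu : R u = (μ : ℂ) • u) (h0 : 0 < μ) (h1 : 1 < μ * (1 + m / 2)) :
    EB A γ (-1) e u = 0 := by
  have h2 := c.shift (s := -1) (by norm_num) e hu
  generalize EB A γ (-1) e u = v at h2
  have h3 := congrArg (fun x => (inner ℂ x v).re) h2
  simp only [inner_smul_left, conj_ofReal, re_ofReal_mul, re_self] at h3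
  have h4 := c.sq_le v
  have h5 := re_inner_le (R v) v
  have h6 := c.norm_le v
  have h7 : (inner ℂ (R v) v).re ≤ ‖v‖ ^ 2 := by nlinarith [norm_nonneg v]
  have h8 : 0 ≤ (inner ℂ (R v) v).re := le_trans (by positivity) h4
  have h9 : ‖v‖ ^ 2 ≤ 0 := by
    rcases le_total 0 (1 + -1 * (m / 2) * μ) with h | h
    · nlinarith [mul_le_mul_of_nonneg_left h7 h]
    · nlinarith [mul_nonneg (neg_nonneg.2 h) h8]
  exact norm_eq_zero.1 (pow_eq_zero_iff two_ne_zero |>.1 (le_antisymm h9 (by positivity)))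

lemma Core.up (c : Core R A γ m) (e : Fin 16 → ℝ) {u : H} {μ : ℝ}
    (hu : R u = (μ : ℂ) • u) (h0 : 0 < μ) :
    R (EB A γ 1 e u) = ((μ / (1 + m / 2 * μ) : ℝ) : ℂ) • EB A γ 1 e u := by
  have h2 := c.shift (s := 1) (by norm_num) e hu
  have hm := c.pos
  have h3 : ((1 + m / 2 * μ : ℝ) : ℂ) ≠ 0 := by
    exact_mod_cast (by positivity : (1 + m / 2 * μ : ℝ) ≠ 0)
  rw [one_mul] at h2
  rw [ofReal_div, div_eq_inv_mul, mul_smul, h2, inv_smul_smul₀ h3]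

lemma Core.down (c : Core R A γ m) (e : Fin 16 → ℝ) {y : H} {μ : ℝ} (h0 : 0 < μ)
    (hy : R y = ((μ / (1 + m / 2 * μ) : ℝ) : ℂ) • y) :
    R (EB A γ (-1) e y) = (μ : ℂ) • EB A γ (-1) e y := by
  have h2 := c.shift (s := -1) (by norm_num) e hy
  have hm := c.pos
  have h3 : (1 + m / 2 * μ : ℝ) ≠ 0 := by positivity
  have h4 : (1 + -1 * (m / 2) * (μ / (1 + m / 2 * μ)) : ℝ) = (1 + m / 2 * μ)⁻¹ := by
    field_simp; ring
  have h5 : (((1 + m / 2 * μ)⁻¹ : ℝ) : ℂ) ≠ 0 := by exact_mod_cast inv_ne_zero h3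
  rw [h4, div_eq_inv_mul, ofReal_mul, mul_smul] at h2
  exact (smul_right_injective H h5 h2).symm

lemma Core.en_eig (c : Core R A γ m) {u : H} {μ : ℝ} (hu : R u = (μ : ℂ) • u) :
    ∑ α, ‖A (eb α) u‖ ^ 2 = 16 * (μ * (1 - μ)) * ‖u‖ ^ 2 := by
  rw [c.en, hu, inner_sub_right]
  simp only [inner_smul_left, inner_smul_right, conj_ofReal, sub_re, re_ofReal_mul, re_self]
  ring

lemma Core.EB_sq_le (c : Core R A γ m) {e : Fin 16 → ℝ} (he : e ⬝ᵥ e = 1) {u : H} {μ : ℝ}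
    (hu : R u = (μ : ℂ) • u) : ‖EB A γ 1 e u‖ ^ 2 ≤ 64 * (μ * (1 - μ)) * ‖u‖ ^ 2 := by
  have h1 := c.bd e u
  have h2 := c.bd (Gm γ *ᵥ e) u
  rw [G_dot c.gam] at h2
  rw [he, c.en_eig hu] at h1 h2
  have h3 : ‖EB A γ 1 e u‖ ≤ ‖A e u‖ + ‖A (Gm γ *ᵥ e) u‖ := by
    simp only [EB, _root_.add_apply, _root_.smul_apply]
    refine (norm_add_le _ _).trans (le_of_eq ?_)
    simp [norm_smul]
  have h4 := pow_le_pow_left₀ (norm_nonneg _) h3 2
  nlinarith [sq_nonneg (‖A e u‖ - ‖A (Gm γ *ᵥ e) u‖)]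

lemma Core.step (c : Core R A γ m) {e a : Fin 16 → ℝ} (he : e ⬝ᵥ e = 1)
    (ha : hat γ (rho γ e e) *ᵥ a = (-5 : ℝ) • (Gm γ *ᵥ a)) {μ : ℝ} (h0 : 0 < μ)
    (h1 : 1 < μ * (1 + m / 2)) (h2 : μ < 1) {s : ℝ} (hs0 : 0 ≤ s)
    (hs : ∀ u, R u = (μ : ℂ) • u → ‖EB A γ 1 a u‖ ≤ s * ‖u‖) {ψ : H} (hψ : R ψ = (μ : ℂ) • ψ) :
    ‖EB A γ 1 a ψ‖ ≤ 8 * (1 - μ) / (m * μ) * s * ‖ψ‖ := by
  have hm := c.pos
  obtain ⟨ν, hν⟩ : ∃ ν : ℝ, ν = μ / (1 + m / 2 * μ) := ⟨_, rfl⟩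
  have hν0 : (ν : ℂ) ≠ 0 := by
    rw [hν]; exact_mod_cast (by positivity : (μ / (1 + m / 2 * μ) : ℝ) ≠ 0)
  have hμ0 : (μ : ℂ) ≠ 0 := by exact_mod_cast h0.ne'
  have up : ∀ b, ∃ w, EB A γ 1 b ψ = R w ∧ R w = (ν : ℂ) • w := fun b => by
    refine ⟨(ν : ℂ)⁻¹ • EB A γ 1 b ψ, ?_, ?_⟩
    · rw [map_smul, c.up b hψ h0, ← hν, inv_smul_smul₀ hν0]
    · rw [map_smul, c.up b hψ h0, ← hν, smul_comm]
  obtain ⟨w₁, e₁, r₁⟩ := up e
  obtain ⟨w₃, e₃, r₃⟩ := up a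
  obtain ⟨w₂, e₂, r₂⟩ : ∃ w, EB A γ (-1) e w₁ = R w ∧ R w = (μ : ℂ) • w := by
    have := c.down e h0 (hν ▸ r₁)
    refine ⟨(μ : ℂ)⁻¹ • EB A γ (-1) e w₁, ?_, ?_⟩
    · rw [map_smul, this, inv_smul_smul₀ hμ0]
    · rw [map_smul, this, smul_comm]
  have ht := congrArg re (c.triple e a he ha ψ w₁ w₂ w₃ w₃ (c.lower e hψ h0 h1) e₁ e₂ e₃)
  rw [show (8 * m : ℂ) = ((8 * m : ℝ) : ℂ) by push_cast; rfl, re_ofReal_mul, sub_re, add_re,
    re_self, re_self, re_self, ← e₃] at ht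
  have h3 := re_inner_le (EB A γ 1 a ψ) (EB A γ 1 a w₂)
  have h4 := hs w₂ r₂
  have h5 : μ * ‖w₂‖ ≤ 64 * (1 - μ) * ‖ψ‖ := by
    have ha := congrArg re (c.EB_adj 1 e w₂ w₁)
    rw [e₂, re_self, ← e₁, r₂, norm_smul, norm_real, Real.norm_eq_abs, abs_of_pos h0] at ha
    have hb := re_inner_le (EB A γ 1 e w₂) (EB A γ 1 e ψ)
    have hc := c.EB_sq_le he r₂
    have hd := c.EB_sq_le he hψ
    have hb0 : 0 ≤ 64 * (μ * (1 - μ)) := by nlinarith
    have he' : ‖EB A γ 1 e w₂‖ * ‖EB A γ 1 e ψ‖ ≤ 64 * (μ * (1 - μ)) * (‖w₂‖ * ‖ψ‖) := by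
      refine abs_le_of_sq_le_sq' ?_ (by positivity) |>.2
      rw [mul_pow]
      refine (mul_le_mul hc hd (by positivity) (by positivity)).trans (le_of_eq (by ring))
    rcases (norm_nonneg w₂).eq_or_lt with h | h
    · rw [← h]; nlinarith [norm_nonneg ψ]
    · refine le_of_mul_le_mul_left ?_ (mul_pos h0 h)
      nlinarith
  rcases (norm_nonneg (EB A γ 1 a ψ)).eq_or_lt with h | h
  · rw [← h]
    have : 0 ≤ 1 - μ := by linarith
    positivity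
  · have h6 : 8 * m * ‖EB A γ 1 a ψ‖ ≤ s * ‖w₂‖ := by
      refine le_of_mul_le_mul_left ?_ h
      nlinarith [mul_le_mul_of_nonneg_left h4 h.le, sq_nonneg ‖EB A γ 1 e w₃‖,
        sq_nonneg ‖EB A γ (-1) e w₃‖]
    rw [div_mul_eq_mul_div, div_mul_eq_mul_div, le_div_iff₀ (by positivity)]
    nlinarith [mul_le_mul_of_nonneg_left h5 hs0, mul_le_mul_of_nonneg_left h6 h0.le]

/-- no eigenvalues in the gap -/
lemma Core.eig (c : Core R A γ m) {μ : ℝ} (h1 : 16 / (16 + m) < μ) (h2 : μ < 1) {ψ : H}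
    (hψ : R ψ = (μ : ℂ) • ψ) : ψ = 0 := by
  have hm := c.pos
  have h0 : 0 < μ := lt_trans (by positivity) h1
  rw [div_lt_iff₀ (by positivity)] at h1
  have h3 : 1 < μ * (1 + m / 2) := by nlinarith
  have hθ : 8 * (1 - μ) / (m * μ) < 1 := by rw [div_lt_one (by positivity)]; nlinarith
  have hθ0 : 0 ≤ 8 * (1 - μ) / (m * μ) := by
    have : 0 ≤ 1 - μ := by linarith
    positivity
  let W : Submodule ℂ H := Module.End.eigenspace (R : H →ₗ[ℂ] H) μ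
  have hW : ∀ u, u ∈ W ↔ R u = (μ : ℂ) • u := fun u => Module.End.mem_eigenspace_iff
  have key : ∀ a, A a ψ = 0 := fun a => by
    refine Submodule.span_induction (p := fun a _ => A a ψ = 0) ?_ ?_ ?_ ?_
      (c.gam.exists_raising (Submodule.mem_top (x := a)))
    · rintro a ⟨e, he, ha⟩
      have hs : ∀ u, R u = (μ : ℂ) • u →
          ‖EB A γ 1 a u‖ ≤ ‖(EB A γ 1 a).comp W.subtypeL‖ * ‖u‖ := fun u hu =>
        ((EB A γ 1 a).comp W.subtypeL).le_opNorm ⟨u, (hW u).2 hu⟩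
      have hle : ‖(EB A γ 1 a).comp W.subtypeL‖ ≤
          8 * (1 - μ) / (m * μ) * ‖(EB A γ 1 a).comp W.subtypeL‖ :=
        ContinuousLinearMap.opNorm_le_bound _ (by positivity) fun u =>
          c.step he ha h0 h3 h2 (ContinuousLinearMap.opNorm_nonneg _) hs ((hW u).1 u.2)
      have hz : ‖(EB A γ 1 a).comp W.subtypeL‖ ≤ 0 := by
        nlinarith [norm_nonneg ((EB A γ 1 a).comp W.subtypeL)]
      have hp : EB A γ 1 a ψ = 0 :=
        norm_le_zero_iff.1 ((hs ψ hψ).trans (mul_nonpos_of_nonpos_of_nonneg hz (norm_nonneg _)))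
      have hn := c.lower a hψ h0 h3
      simp only [EB, _root_.add_apply, _root_.smul_apply] at hp hn
      push_cast at hp hn
      linear_combination (norm := module) (1 / 2 : ℂ) • hp + (1 / 2 : ℂ) • hn
    · have := c.smul 0 0 ψ
      rwa [zero_smul, ofReal_zero, zero_smul] at this
    · intro x y _ _ hx hy
      rw [c.add, hx, hy, add_zero]
    · intro t x _ hx
      rw [c.smul, hx, smul_zero]
  have h4 := c.en_eig hψ
  simp only [key, norm_zero, ne_eq, OfNat.ofNat_ne_zero, not_false_eq_true, zero_pow,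
    Finset.sum_const_zero] at h4
  have h5 : 0 < 16 * (μ * (1 - μ)) := by nlinarith
  rcases mul_eq_zero.1 h4.symm with h | h
  · exact absurd h h5.ne'
  · exact norm_eq_zero.1 (pow_eq_zero_iff two_ne_zero |>.1 h)

variable [CompleteSpace H] {V : Submodule ℂ H}

omit [CompleteSpace H] in
lemma Core.inv (c : Core R A γ m) (hV : ∀ u, u ∈ V ↔ R u = u) : ∀ y ∈ Vᗮ, R y ∈ Vᗮ :=
  fun y hy => (Submodule.mem_orthogonal _ _).2 fun u hu => by
    rw [← c.Rsymm, (hV u).1 hu]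
    exact (Submodule.mem_orthogonal _ _).1 hy u hu

lemma Core.norm_restrict (c : Core R A γ m) (hK : IsCompactOperator R)
    (hV : ∀ u, u ∈ V ↔ R u = u) : ‖R.restrict (c.inv hV)‖ ≤ 16 / (16 + m) := by
  have hm := c.pos
  have hsym : (R : H →ₗ[ℂ] H).IsSymmetric := c.Rsymm
  have hS : (R.restrict (c.inv hV)).IsSymmetric := hsym.restrict_invariant (c.inv hV)
  have hc : IsCompactOperator (R.restrict (c.inv hV)) := hK.restrict' (c.inv hV)
  have h0 : (0 : ℝ) ≤ 16 / (16 + m) := by positivity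
  have key : spectralRadius ℂ (R.restrict (c.inv hV)) ≤ ENNReal.ofNNReal ⟨_, h0⟩ := by
    refine iSup₂_le fun k hk => ENNReal.coe_le_coe.2 ?_
    change ‖k‖ ≤ 16 / (16 + m)
    by_cases hk0 : k = 0
    · rw [hk0, norm_zero]; exact h0
    obtain ⟨y, hy⟩ := ((hc.hasEigenvalue_iff_mem_spectrum hk0).2 hk).exists_hasEigenvector
    have hy0 : (y : H) ≠ 0 := fun h => hy.2 (Subtype.ext h)
    have hy1 : R y = k • (y : H) := congrArg Subtype.val hy.apply_eq_smul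
    have hn : 0 < ‖(y : H)‖ := norm_pos_iff.2 hy0
    have hre : (k.re : ℂ) = k := by
      have := c.Rsymm y y
      rw [hy1, inner_smul_left, inner_smul_right] at this
      exact conj_eq_iff_re.1 (mul_right_cancel₀ (inner_self_ne_zero.2 hy0) this)
    rw [← hre] at hy1 ⊢
    have h1 := c.sq_le y
    have h2 := c.norm_le y
    rw [hy1, inner_smul_left, conj_ofReal, re_ofReal_mul, re_self] at h1
    rw [hy1, norm_smul, norm_real, Real.norm_eq_abs] at h2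
    have h3 : 0 ≤ k.re := le_of_mul_le_mul_right
      (by rw [zero_mul]; exact le_trans (by positivity) h1) (pow_pos hn 2)
    rw [abs_of_nonneg h3] at h2
    rw [norm_real, Real.norm_eq_abs, abs_of_nonneg h3]
    by_contra hlt
    have h4 : k.re ≤ 1 := le_of_mul_le_mul_right (by rwa [one_mul]) hn
    rcases h4.eq_or_lt with h | h
    · rw [h, ofReal_one, one_smul] at hy1
      exact hy0 (inner_self_eq_zero.1 ((Submodule.mem_orthogonal _ _).1 y.2 _ ((hV y).2 hy1)))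
    · exact hy0 (c.eig (not_le.1 hlt) h hy1)
  rw [ContinuousLinearMap.spectralRadius_eq_nnnorm _ hS.isSelfAdjoint] at key
  exact ENNReal.coe_le_coe.1 key

lemma Core.gap_norm (c : Core R A γ m) (hK : IsCompactOperator R)
    (hV : ∀ u, u ∈ V ↔ R u = u) {y : H} (hy : y ∈ Vᗮ) : ‖R y‖ ≤ 16 / (16 + m) * ‖y‖ :=
  ((R.restrict (c.inv hV)).le_of_opNorm_le (c.norm_restrict hK hV) ⟨y, hy⟩)

lemma Core.gap_form (c : Core R A γ m) (hK : IsCompactOperator R)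
    (hV : ∀ u, u ∈ V ↔ R u = u) {y : H} (hy : y ∈ Vᗮ) :
    m * ‖R y‖ ^ 2 ≤ 16 * (inner ℂ (R y) (y - R y)).re := by
  have hm := c.pos
  have h1 := c.gap_norm hK hV (c.inv hV y hy)
  have h2 := re_inner_le (R (R y)) (R y)
  have h3 := le_trans (sq_nonneg _) (c.sq_le (y - (((16 + m) / 16 : ℝ) : ℂ) • R y))
  have h4 : (inner ℂ (R (R y)) y).re = ‖R y‖ ^ 2 := by rw [c.Rsymm, re_self]
  simp only [map_sub, map_smul, inner_sub_left, inner_sub_right, inner_smul_left,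
    inner_smul_right, conj_ofReal, sub_re, re_ofReal_mul, re_self, h4, mul_sub] at h3
  rw [inner_sub_right, sub_re, re_self]
  have h5 : (16 + m) / 16 * (inner ℂ (R (R y)) (R y)).re ≤ ‖R y‖ ^ 2 := by
    rw [div_mul_eq_mul_div, le_div_iff₀ (by positivity)] at h1
    nlinarith [norm_nonneg (R y), mul_le_mul_of_nonneg_left h1 (norm_nonneg (R y))]
  nlinarith [mul_le_mul_of_nonneg_left h5 (by positivity : 0 ≤ (16 + m) / 16)]

lemma exists_sub_eq (S : H →L[ℂ] H) (hS : ‖S‖ < 1) (w : H) : ∃ x, x - S x = w := by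
  refine ⟨((Units.oneSub S hS)⁻¹).val w, ?_⟩
  have := congrArg (fun T : H →L[ℂ] H => T w) (Units.oneSub S hS).mul_inv
  simpa using this

lemma Core.solve (c : Core R A γ m) (hK : IsCompactOperator R)
    (hV : ∀ u, u ∈ V ↔ R u = u) {w : H} (hw : w ∈ Vᗮ) :
    ∃ x, x - R x = w ∧ m * ‖R x‖ ≤ 16 * ‖w‖ := by
  have hm := c.pos
  have hlt : ‖R.restrict (c.inv hV)‖ < 1 :=
    (c.norm_restrict hK hV).trans_lt (by rw [div_lt_one (by positivity)]; linarith)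
  obtain ⟨x, hx⟩ := exists_sub_eq (R.restrict (c.inv hV)) hlt ⟨w, hw⟩
  have h1 : (x : H) - R x = w := congrArg Subtype.val hx
  refine ⟨x, h1, ?_⟩
  have h2 := c.gap_norm hK hV x.2
  have h3 : ‖(x : H)‖ ≤ ‖w‖ + ‖R x‖ := by
    rw [← h1]
    exact norm_le_norm_sub_add _ _
  rw [div_mul_eq_mul_div, le_div_iff₀ (by positivity)] at h2
  nlinarith

end AbsAux

end Vale.Agent.P353
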