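import Vale.Agent.P353.AbsB

/-! The resolvent of the abstract Hamiltonian. -/

noncomputable section

open MeasureTheory Filter Topology Complex Matrix
open scoped ContDiff RealInnerProductSpace

namespace Vale.Agent.P353

namespace AbsAux

variable {H D : Type} [NormedAddCommGroup H] [InnerProductSpace ℂ H] [CompleteSpace H]
  [AddCommGroup D] [Module ℂ D]
  {ι : D →ₗ[ℂ] H} {Q : (Fin 16 → ℝ) → D →ₗ[ℂ] D} {γ : Fin 9 → M16} {m : ℝ}
  {Rt : Matrix (Fin 9) (Fin 9) ℝ → D →ₗ[ℂ] D}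

/-- the resolvent and the supercharges composed with the resolvent -/
structure Res (ι : D →ₗ[ℂ] H) (Q : (Fin 16 → ℝ) → D →ₗ[ℂ] D) (R : H →L[ℂ] H)
    (A : (Fin 16 → ℝ) → H →L[ℂ] H) : Prop where
  RT : ∀ φ y, y ∈ (LinearMap.range ι)ᗮ → R (ι (φ + absH Q φ) + y) = ι φ
  AT : ∀ e φ y, y ∈ (LinearMap.range ι)ᗮ → A e (ι (φ + absH Q φ) + y) = ι (Q e φ)

omit [CompleteSpace H] in
lemma orth {y : H} (hy : y ∈ (LinearMap.range ι)ᗮ) (φ : D) : inner ℂ (ι φ) y = 0 :=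
  (Submodule.mem_orthogonal _ _).1 hy _ (LinearMap.mem_range_self ι φ)

omit [CompleteSpace H] in
lemma orth' {y : H} (hy : y ∈ (LinearMap.range ι)ᗮ) (φ : D) : inner ℂ y (ι φ) = 0 := by
  rw [← inner_conj_symm, orth hy, map_zero]

omit [CompleteSpace H] in
lemma norm_le_add {x y : H} (h : inner ℂ x y = 0) : ‖x‖ ≤ ‖x + y‖ := by
  have := norm_add_sq (𝕜 := ℂ) x y
  rw [h, map_zero] at this
  exact abs_le_of_sq_le_sq' (by nlinarith [sq_nonneg ‖y‖]) (norm_nonneg _) |>.2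

lemma dense (h : AbsAlg ι Q γ m Rt) (w : H) {ε : ℝ} (hε : 0 < ε) :
    ∃ φ y, y ∈ (LinearMap.range ι)ᗮ ∧ ‖ι (φ + absH Q φ) + y - w‖ ≤ ε := by
  obtain ⟨x, hx, y, hy, rfl⟩ :=
    (LinearMap.range ι).topologicalClosure.exists_add_mem_mem_orthogonal w
  obtain ⟨φ, hφ⟩ := h.esa x hx ε hε
  refine ⟨φ, y, Submodule.orthogonal_le (Submodule.le_topologicalClosure _) hy, ?_⟩
  rwa [add_sub_add_right_eq_sub]

lemma ind (h : AbsAlg ι Q γ m Rt) {p : H → Prop} (hp : IsClosed {w | p w})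
    (hT : ∀ φ y, y ∈ (LinearMap.range ι)ᗮ → p (ι (φ + absH Q φ) + y)) (w : H) : p w := by
  have : w ∈ closure {w | p w} := Metric.mem_closure_iff.2 fun ε hε => by
    obtain ⟨φ, y, hy, h1⟩ := dense h w (half_pos hε)
    refine ⟨_, hT φ y hy, ?_⟩
    rw [dist_comm, dist_eq_norm]
    linarith
  rwa [hp.closure_eq] at this

omit [CompleteSpace H] in
lemma T_sq (h : AbsAlg ι Q γ m Rt) (φ : D) : ‖ι (φ + absH Q φ)‖ ^ 2 =
    ‖ι φ‖ ^ 2 + absE ι Q φ / 8 + ‖ι (absH Q φ)‖ ^ 2 := by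
  rw [map_add, norm_add_sq (𝕜 := ℂ), E_eq h]
  simp only [RCLike.re_to_complex]
  ring

lemma exists_ext (h : AbsAlg ι Q γ m Rt) (f : D →ₗ[ℂ] H) {C : ℝ} (hC : 0 ≤ C)
    (hf : ∀ φ, ‖f φ‖ ≤ C * ‖ι (φ + absH Q φ)‖) :
    ∃ S : H →L[ℂ] H, ∀ φ y, y ∈ (LinearMap.range ι)ᗮ → S (ι (φ + absH Q φ) + y) = f φ := by
  obtain ⟨T, hT⟩ : ∃ T : D × (LinearMap.range ι)ᗮ →ₗ[ℂ] H,
      ∀ φ y, T (φ, y) = ι (φ + absH Q φ) + y :=
    ⟨(ι ∘ₗ (1 + absH Q)).coprod (LinearMap.range ι)ᗮ.subtype, fun _ _ => rfl⟩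
  obtain ⟨g, hg⟩ : ∃ g : D × (LinearMap.range ι)ᗮ →ₗ[ℂ] H, ∀ φ y, g (φ, y) = f φ :=
    ⟨f ∘ₗ LinearMap.fst ℂ D _, fun _ _ => rfl⟩
  have hd : DenseRange T := fun w =>
    ind h (p := fun w => w ∈ closure (Set.range T)) isClosed_closure
      (fun φ y hy => subset_closure ⟨(φ, ⟨y, hy⟩), hT _ _⟩) w
  have hb : ∃ C, ∀ p, ‖g p‖ ≤ C * ‖T p‖ := ⟨C, fun ⟨φ, y⟩ => by
    rw [hT, hg]
    exact (hf φ).trans (mul_le_mul_of_nonneg_left (norm_le_add (orth y.2 _)) hC)⟩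
  refine ⟨g.extendOfNorm T, fun φ y hy => ?_⟩
  have := LinearMap.extendOfNorm_eq hd hb (φ, ⟨y, hy⟩)
  rwa [hT, hg] at this

lemma exists_res (h : AbsAlg ι Q γ m Rt) : ∃ R A, Res ι Q R A := by
  obtain ⟨R, hR⟩ := exists_ext h ι zero_le_one fun φ => by
    rw [one_mul]
    refine abs_le_of_sq_le_sq' ?_ (norm_nonneg _) |>.2
    nlinarith [T_sq h φ, E_nonneg (ι := ι) (Q := Q) φ, sq_nonneg ‖ι (absH Q φ)‖]
  have : ∀ e, ∃ S : H →L[ℂ] H, ∀ φ y, y ∈ (LinearMap.range ι)ᗮ →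
      S (ι (φ + absH Q φ) + y) = (ι ∘ₗ Q e) φ := fun e => by
    have he : 0 ≤ e ⬝ᵥ e := Finset.sum_nonneg fun i _ => mul_self_nonneg _
    refine exists_ext h _ (C := √(8 * (e ⬝ᵥ e))) (Real.sqrt_nonneg _) fun φ => ?_
    refine abs_le_of_sq_le_sq' ?_ (by positivity) |>.2
    rw [mul_pow, Real.sq_sqrt (by positivity), T_sq h]
    refine (norm_Q_le h e φ).trans ?_
    nlinarith [mul_nonneg he (sq_nonneg ‖ι φ‖), mul_nonneg he (sq_nonneg ‖ι (absH Q φ)‖)]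
  choose A hA using this
  exact ⟨R, A, hR, hA⟩

variable {R : H →L[ℂ] H} {A : (Fin 16 → ℝ) → H →L[ℂ] H}

lemma Res.B1 (r : Res ι Q R A) (h : AbsAlg ι Q γ m Rt) (χ : D) (w : H) :
    inner ℂ (ι (χ + absH Q χ)) (R w) = inner ℂ (ι χ) w := by
  refine ind h (p := fun w => inner ℂ (ι (χ + absH Q χ)) (R w) = inner ℂ (ι χ) w)
    (isClosed_eq (by fun_prop) (by fun_prop)) (fun φ y hy => ?_) w
  rw [r.RT φ y hy, inner_add_right, orth hy, add_zero, map_add, map_add, inner_add_left,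
    inner_add_right, H_symm h]

lemma Res.B0 (r : Res ι Q R A) (h : AbsAlg ι Q γ m Rt) {y : H} (hy : y ∈ (LinearMap.range ι)ᗮ)
    (w : H) : inner ℂ y (R w) = 0 := by
  refine ind h (p := fun w => inner ℂ y (R w) = 0)
    (isClosed_eq (by fun_prop) (by fun_prop)) (fun φ y' hy' => ?_) w
  rw [r.RT φ y' hy', orth' hy]

lemma Res.B0' (r : Res ι Q R A) (h : AbsAlg ι Q γ m Rt) {y : H} (hy : y ∈ (LinearMap.range ι)ᗮ)
    (e : Fin 16 → ℝ) (w : H) : inner ℂ y (A e w) = 0 := by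
  refine ind h (p := fun w => inner ℂ y (A e w) = 0)
    (isClosed_eq (by fun_prop) (by fun_prop)) (fun φ y' hy' => ?_) w
  rw [r.AT e φ y' hy', orth' hy]

lemma Res.B2 (r : Res ι Q R A) (h : AbsAlg ι Q γ m Rt) (e : Fin 16 → ℝ) (χ : D) (w : H) :
    inner ℂ (ι (Q e χ)) (R w) = inner ℂ (ι χ) (A e w) := by
  refine ind h (p := fun w => inner ℂ (ι (Q e χ)) (R w) = inner ℂ (ι χ) (A e w))
    (isClosed_eq (by fun_prop) (by fun_prop)) (fun φ y hy => ?_) w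
  rw [r.RT φ y hy, r.AT e φ y hy, h.symm]

lemma Res.B3 (r : Res ι Q R A) (h : AbsAlg ι Q γ m Rt) (s : ℝ) (e : Fin 16 → ℝ) (χ : D) (w : H) :
    inner ℂ (ι (EE Q γ s e χ)) (R w) = inner ℂ (ι χ) (EB A γ (-s) e w) := by
  simp only [EE, EB, LinearMap.add_apply, LinearMap.smul_apply, _root_.add_apply,
    _root_.smul_apply, map_add, map_smul, inner_add_left, inner_add_right, inner_smul_left,
    inner_smul_right, r.B2 h, map_mul, conj_ofReal, conj_I]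
  push_cast
  ring

omit [CompleteSpace H] in
lemma Res.ET (r : Res ι Q R A) (s : ℝ) (e : Fin 16 → ℝ) (φ : D) {y : H}
    (hy : y ∈ (LinearMap.range ι)ᗮ) :
    EB A γ s e (ι (φ + absH Q φ) + y) = ι (EE Q γ s e φ) := by
  rw [EB, EE, _root_.add_apply, _root_.smul_apply, r.AT _ _ _ hy, r.AT _ _ _ hy,
    LinearMap.add_apply, LinearMap.smul_apply, map_add, map_smul]

lemma Res.Rsymm (r : Res ι Q R A) (h : AbsAlg ι Q γ m Rt) (w w' : H) :
    inner ℂ (R w) w' = inner ℂ w (R w') := by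
  refine ind h (p := fun w => inner ℂ (R w) w' = inner ℂ w (R w'))
    (isClosed_eq (by fun_prop) (by fun_prop)) (fun φ y hy => ?_) w
  rw [r.RT φ y hy, inner_add_left, r.B1 h, r.B0 h hy, add_zero]

lemma Res.AR (r : Res ι Q R A) (h : AbsAlg ι Q γ m Rt) (e : Fin 16 → ℝ) (w w' : H) :
    inner ℂ (A e w) (R w') = inner ℂ (R w) (A e w') := by
  refine ind h (p := fun w => inner ℂ (A e w) (R w') = inner ℂ (R w) (A e w'))
    (isClosed_eq (by fun_prop) (by fun_prop)) (fun φ y hy => ?_) w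
  rw [r.RT φ y hy, r.AT e φ y hy, r.B2 h]

lemma Res.comm (r : Res ι Q R A) (h : AbsAlg ι Q γ m Rt) (e : Fin 16 → ℝ) (x : H) :
    A e (R x) = R (A e x) + (I * m / 2) • R (A (Gm γ *ᵥ e) (R x)) := by
  have key : ∀ w' w, inner ℂ (A e w) w' =
      inner ℂ w (A e w') + inner ℂ ((I * m / 2) • A (Gm γ *ᵥ e) w) (R w') := fun w' w => by
    refine ind h (p := fun w => inner ℂ (A e w) w' =
      inner ℂ w (A e w') + inner ℂ ((I * m / 2) • A (Gm γ *ᵥ e) w) (R w'))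
      (isClosed_eq (by fun_prop) (by fun_prop)) (fun φ y hy => ?_) w
    have hc := AbsAux.comm h e φ
    rw [map_sub, sub_eq_iff_eq_add'] at hc
    rw [r.AT _ φ y hy, r.AT _ φ y hy, ← r.B1 h, inner_add_left, r.B0' h hy, add_zero, ← r.B2 h,
      ← inner_add_left, map_add, hc, map_add, map_add, add_assoc]
  refine ext_inner_right ℂ fun w' => ?_
  rw [key, ← r.AR h, ← r.Rsymm h, ← r.Rsymm h, inner_add_left, map_smul]

lemma Res.en (r : Res ι Q R A) (h : AbsAlg ι Q γ m Rt) (w : H) :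
    ∑ α, ‖A (eb α) w‖ ^ 2 = 16 * (inner ℂ (R w) (w - R w)).re := by
  refine ind h (p := fun w => ∑ α, ‖A (eb α) w‖ ^ 2 = 16 * (inner ℂ (R w) (w - R w)).re)
    (isClosed_eq (by fun_prop) (by fun_prop)) (fun φ y hy => ?_) w
  simp only [r.RT φ y hy, r.AT _ φ y hy]
  rw [inner_sub_right, inner_add_right, orth hy, add_zero, map_add, inner_add_right,
    add_sub_cancel_left, ← E_eq h, absE]

lemma Res.core (r : Res ι Q R A) (h : AbsAlg ι Q γ m Rt) : Core R A γ m where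
  gam := h.gam
  pos := h.pos
  add e e' w := by
    refine ind h (p := fun w => A (e + e') w = A e w + A e' w)
      (isClosed_eq (by fun_prop) (by fun_prop)) (fun φ y hy => ?_) w
    simp only [r.AT _ φ y hy, h.add, LinearMap.add_apply]
    rw [map_add]
  smul t e w := by
    refine ind h (p := fun w => A (t • e) w = (t : ℂ) • A e w)
      (isClosed_eq (by fun_prop) (by fun_prop)) (fun φ y hy => ?_) w
    simp only [r.AT _ φ y hy, h.smul, LinearMap.smul_apply, map_smul]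
  Rsymm := r.Rsymm h
  AR := r.AR h
  comm := r.comm h
  en := r.en h
  bd e w := by
    refine ind h (p := fun w => ‖A e w‖ ^ 2 ≤ (e ⬝ᵥ e) * ∑ α, ‖A (eb α) w‖ ^ 2)
      (isClosed_le (by fun_prop) (by fun_prop)) (fun φ y hy => ?_) w
    simp only [r.AT _ φ y hy]
    exact norm_Q_le h e φ
  triple e a he ha w₀ w₁ w₂ w₃ w h₀ h₁ h₂ h₃ := by
    refine ind h (p := fun w => inner ℂ (R w) (EB A γ 1 a w₂) -
      (inner ℂ (EB A γ 1 e w) (EB A γ 1 e w₃) + inner ℂ (EB A γ (-1) e w) (EB A γ (-1) e w₃)) =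
        (8 * m : ℂ) * inner ℂ (R w) (R w₃))
      (isClosed_eq (by fun_prop) (by fun_prop)) (fun φ y hy => ?_) w
    have ht := congrArg (fun x => inner ℂ x (R w₀)) (AbsAux.triple h he ha φ)
    simp only [inner_sub_left, inner_add_left, inner_smul_left, r.B3 h, neg_neg, h₀, h₁, h₂, h₃,
      inner_zero_right, add_zero, map_mul, conj_ofReal, map_ofNat, map_add ι] at ht
    rw [r.RT φ y hy, r.ET _ _ φ hy, r.ET _ _ φ hy, ht]

lemma Res.compact (r : Res ι Q R A) (h : AbsAlg ι Q γ m Rt) : IsCompactOperator R := by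
  let S : Set H := {x | ∃ φ, ‖ι φ‖ ^ 2 + absE ι Q φ ≤ 1 ∧ ι φ = x}
  have hS : IsCompact (closure S) := by
    refine IsSeqCompact.isCompact fun x hx => ?_
    have : ∀ n : ℕ, ∃ φ, ‖ι φ‖ ^ 2 + absE ι Q φ ≤ 1 ∧ dist (x n) (ι φ) < 1 / ((n : ℝ) + 1) :=
      fun n => by
        obtain ⟨_, ⟨φ, h1, rfl⟩, h2⟩ := Metric.mem_closure_iff.1 (hx n) _ Nat.one_div_pos_of_nat
        exact ⟨φ, h1, h2⟩
    choose φ h1 h2 using this
    obtain ⟨k, u, hk, hu⟩ := h.cpt φ h1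
    refine ⟨u, mem_closure_of_tendsto hu (Eventually.of_forall fun n => ⟨_, h1 _, rfl⟩), k, hk,
      hu.congr_dist ?_⟩
    refine squeeze_zero (fun _ => dist_nonneg) (fun n => ?_)
      ((tendsto_one_div_add_atTop_nhds_zero_nat (𝕜 := ℝ)).comp hk.tendsto_atTop)
    rw [dist_comm]
    exact (h2 (k n)).le
  refine (isCompactOperator_iff_image_ball_subset_compact (R : H →ₗ[ℂ] H)
    (r := 1 / 4) (by norm_num)).2 ⟨_, hS, ?_⟩
  rintro _ ⟨w, hw, rfl⟩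
  rw [mem_ball_zero_iff] at hw
  refine Metric.mem_closure_iff.2 fun ε hε => ?_
  obtain ⟨φ, y, hy, h1⟩ := dense h w (lt_min (half_pos hε) (by norm_num : (0 : ℝ) < 1 / 16))
  have h2 := (r.core h).norm_le (ι (φ + absH Q φ) + y - w)
  rw [map_sub, r.RT φ y hy] at h2
  refine ⟨ι φ, ⟨φ, ?_, rfl⟩, ?_⟩
  · have h3 : ‖ι (φ + absH Q φ)‖ ≤ 5 / 16 := by
      have := norm_le_norm_sub_add (ι (φ + absH Q φ) + y) w
      linarith [norm_le_add (orth hy (φ + absH Q φ)), min_le_right (ε / 2) (1 / 16)]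
    have h4 := pow_le_pow_left₀ (norm_nonneg _) h3 2
    rw [T_sq h] at h4
    nlinarith [sq_nonneg ‖ι φ‖, sq_nonneg ‖ι (absH Q φ)‖]
  · rw [dist_comm, dist_eq_norm]
    change ‖ι φ - R w‖ < ε
    linarith [min_le_left (ε / 2) (1 / 16)]

/-- approximation in the graph norm -/
lemma Res.approx (r : Res ι Q R A) (h : AbsAlg ι Q γ m Rt) (x : H)
    (hx : x - R x ∈ closure (Set.range ι)) {ε : ℝ} (hε : 0 < ε) :
    ∃ φ, ‖ι φ - R x‖ ≤ ε ∧ ‖ι (absH Q φ) - (x - R x)‖ ≤ ε := by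
  obtain ⟨φ, y, hy, h1⟩ := dense h x (half_pos hε)
  have h2 := (r.core h).norm_le (ι (φ + absH Q φ) + y - x)
  rw [map_sub, r.RT φ y hy] at h2
  refine ⟨φ, by linarith, ?_⟩
  have h3 : inner ℂ (x - R x) y = 0 := by
    refine closure_minimal (t := {z | inner ℂ z y = 0}) ?_
      (isClosed_eq (by fun_prop) (by fun_prop)) hx
    rintro _ ⟨χ, rfl⟩
    exact orth hy χ
  have h4 : inner ℂ (ι (absH Q φ) - (x - R x)) y = 0 := by
    rw [inner_sub_left, orth hy, h3, sub_zero]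
  refine (norm_le_add h4).trans ?_
  have h5 : ι (absH Q φ) - (x - R x) + y = (ι (φ + absH Q φ) + y - x) - (ι φ - R x) := by
    rw [map_add]; abel
  rw [h5]
  linarith [norm_sub_le (ι (φ + absH Q φ) + y - x) (ι φ - R x)]

end AbsAux

end Vale.Agent.P353
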