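import Vale.Agent.P353.Amp0Aux

/-! Vanishing of the amplitudes at zero mass. -/

noncomputable section

open MeasureTheory Filter Topology Complex Matrix
open scoped ContDiff RealInnerProductSpace

namespace Vale.Agent.P353

namespace Amp0Aux

variable {N d : ℕ} {F : Type} [NormedAddCommGroup F] [InnerProductSpace ℂ F]
  [FiniteDimensional ℂ F] (c : Ctx N d F) {π π' : Setoid (Fin N)} {𝔞 : Submodule ℝ (Lg d)}

theorem grad_le (h : c.Th π 𝔞) (R : ℝ) : ∃ K, 0 ≤ K ∧ ∀ g, 1 ≤ g → ∀ φ, Sm (sub 9 𝔞) φ →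
    c.Supp 𝔞 R φ → grad (sub 9 𝔞) φ ≤ K * g * c.NE 𝔞 g 0 φ := by
  obtain ⟨K, hK⟩ := c.norm_bil_le
  refine ⟨|K| * |R| + 1, by positivity, fun g hg φ hφ hs => ?_⟩
  have e := c.car.energy 1 (fun α => c.contDiff_beta g 0 (eb α)) (c.iso _ g 0) hφ
  have w : 0 ≤ wnrm (sub 9 𝔞) (fun x => ∑ α, ‖c.beta g 0 (eb α) x‖ ^ 2) φ :=
    integral_nonneg fun x => by positivity
  have i1 := hφ.integrable_wnrm (w := fun _ => |K| * |R| * g) continuousOn_const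
  have b := norm_integral_le_of_norm_le (f := fun x : sub 9 𝔞 => (inner ℂ (φ x)
      (bil c.θ (sub 9 𝔞) (fun α => c.sE (eb α)) (fun α => c.beta g 0 (eb α)) x (φ x))).re) i1
    (.of_forall fun x => by
      by_cases hx : R < ‖(x : Tn 9 d)‖
      · rw [hs x x.2 hx]
        simp
      · have h1 := hK π 𝔞 h g 0 x x.2
        rw [abs_zero, add_zero, abs_of_pos (by linarith : 0 < g)] at h1
        have h2 : K * (g * ‖(x : Tn 9 d)‖) ≤ |K| * |R| * g := by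
          rw [mul_assoc, mul_comm |R|]
          exact mul_le_mul (le_abs_self K) (mul_le_mul_of_nonneg_left
            ((not_lt.1 hx).trans (le_abs_self R)) (by linarith)) (by positivity) (abs_nonneg K)
        refine (abs_re_le_norm _).trans ((norm_inner_le_norm _ _).trans ?_)
        rw [pow_two, mul_left_comm]
        exact mul_le_mul_of_nonneg_left (ContinuousLinearMap.le_of_opNorm_le _ (h1.trans h2) _)
          (norm_nonneg _))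
  rw [integral_const_mul, Real.norm_eq_abs] at b
  have b' := (abs_le.1 b).1
  have p1 : 0 ≤ c.En 𝔞 g 0 φ := en_nonneg _ _ _ _
  have p2 := nrm_nonneg (sub 9 𝔞) φ
  have p3 := grad_nonneg (sub 9 𝔞) φ
  have p4 : 0 ≤ |K| * |R| * g := by positivity
  change -(|K| * |R| * g * nrm (sub 9 𝔞) φ) ≤ _ at b'
  change c.En 𝔞 g 0 φ = _ at e
  unfold Ctx.NE
  nlinarith [mul_nonneg p4 p1, mul_nonneg (sub_nonneg.2 hg) (add_nonneg p1 p2)]

theorem rad_mem {ψ : Tn 9 d → F} (hψ : ψ ∈ c.D π 𝔞) {f : Tn 9 d → ℝ} (hf : ContDiff ℝ ∞ f)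
    (hr : ∀ x y, ‖x‖ = ‖y‖ → f x = f y) : (fun x => (f x : ℂ) • ψ x) ∈ c.D π 𝔞 :=
  c.mulR_mem_D hψ hf fun u _ x _ => hr _ _ (c.norm_Ad9 u x)

theorem NE_cut (𝔞 : Submodule ℝ (Lg d)) {h : Tn 9 d → ℝ} (hh : ContDiff ℝ ∞ h) {r R : ℝ}
    (hr : 0 < r) (h0 : ∀ x, x ∉ Ann _ r R → h x = 0) : ∃ M, 0 ≤ M ∧ ∀ (g : ℝ) (ψ : Tn 9 d → F),
      Sm (sub 9 𝔞) ψ → ∀ A, c.En 𝔞 g 0 ψ + wnrm (sub 9 𝔞) wt ψ ≤ A →
        c.NE 𝔞 g 0 (fun x => (h x : ℂ) • ψ x) ≤ M * A := by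
  obtain ⟨M, hM, H⟩ := cut_bound (U := sub 9 𝔞) c.car hh hr h0
  exact ⟨M, hM, fun g ψ hψ A hA => (H _ _ (fun α => c.contDiff_beta g 0 (eb α)) (c.iso _ g 0) ψ
    hψ).trans (mul_le_mul_of_nonneg_left hA hM)⟩

theorem NE_cut2 (𝔞 : Submodule ℝ (Lg d)) {s h : Tn 9 d → ℝ} (hs : ContDiff ℝ ∞ s)
    (hh : ContDiff ℝ ∞ h) {r R : ℝ}
    (hr : 0 < r) (h0 : ∀ x, x ∉ Ann _ r R → h x = 0) : ∃ M, 0 ≤ M ∧ ∀ (g : ℝ) (ψ : Tn 9 d → F),
      Sm (sub 9 𝔞) ψ → ∀ A, c.En 𝔞 g 0 ψ + wnrm (sub 9 𝔞) wt ψ ≤ A →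
        c.NE 𝔞 g 0 (fun x => (s x : ℂ) • (h x : ℂ) • ψ x) ≤ M * A := by
  obtain ⟨M, hM, H⟩ := NE_cut c 𝔞 (hs.mul hh) hr fun x hx => by rw [h0 x hx, mul_zero]
  refine ⟨M, hM, fun g ψ hψ A hA => ?_⟩
  simpa only [ofReal_mul, mul_smul] using H g ψ hψ A hA

theorem nrm_le_NE (g : ℝ) (ψ : Tn 9 d → F) : nrm (sub 9 𝔞) ψ ≤ c.NE 𝔞 g 0 ψ :=
  le_add_of_nonneg_right (en_nonneg _ _ _ _)

theorem zero_not_good (h : π' < π) : (0 : Tn 9 d) ∉ c.Good π π' := fun h0 =>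
  c.zero_not_mem_Gen h (c.Good_subset_Gen π π' h0)

theorem hat_gen (h_lm4 : c.S_lm4) (h : π' ≤ π) {η : Tn 9 d → ℝ}
    (hη : SmR (c.CS 𝔞 π') η (c.Good π π')) : SmR (c.CS 𝔞 π') (c.hatη π 𝔞 π' η) (c.Gen π π') :=
  (h_lm4.hat π 𝔞 π' h η Set.univ (hη.mono fun _ _ hx => ⟨hx, trivial⟩)).mono
    fun _ _ hx => c.Good_subset_Gen π π' hx.1

variable {g : ℕ → ℝ} {ψ : ℕ → Tn 9 d → F} {K₀ : ℝ}

theorem weighted (h_lm4 : c.S_lm4) (h_lam : c.S_lam) (h_mul : c.S_mul) (h_ub : c.S_ub)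
    (hT : c.Th π 𝔞) (hlt : π' < π) (hg : Tendsto g atTop atTop) (hD : ∀ n, ψ n ∈ c.D π 𝔞)
    (hK : ∀ n, wnrm (sub 9 𝔞) wt (ψ n) ≤ K₀) (hE : ∀ᶠ n in atTop, c.En 𝔞 (g n) 0 (ψ n) ≤ 1)
    {β : LL (sub 9 (c.ss π')) F} (hβ : β ∈ c.BK π π') : ∃ B : ℝ, ∀ η,
      SmR (c.CS 𝔞 π') η (c.Good π π') → ∀ ε > 0, ∀ᶠ n in atTop,
        ‖c.Lamh π 𝔞 π' (g n) (ψ n) η β‖ ^ 2 ≤ (B * ∫ y : c.CS 𝔞 π', η y ^ 2 / wt (y : Tn 9 d)) + ε := by
  obtain ⟨K, hK0, hub⟩ := h_ub π 𝔞 π' hT hlt.le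
  refine ⟨2 * (K * ‖β‖ ^ 2 * K₀), fun η hη ε hε => ?_⟩
  obtain ⟨r, R, hr, hR, hz⟩ := exists_rad (zero_not_good c hlt) hη
  obtain ⟨f, f1, f2, f3, f4, f5⟩ := exists_ann (E := Tn 9 d) hr (add_pos hR hr)
  obtain ⟨s, s1, s2, s3, s4⟩ := exists_sq (E := Tn 9 d) hr
  obtain ⟨M₁, hM₁, b1⟩ := NE_cut c 𝔞 f1 hr f5
  obtain ⟨M₂, hM₂, b2⟩ := NE_cut2 c 𝔞 s1 f1 hr f5
  have hη' : SmR (c.CS 𝔞 π') (fun x => (s x)⁻¹ * η x) (c.Good π π') :=
    hη.mul' (s1.inv fun x => (s3 x).ne')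
  have hI : ∫ y : c.CS 𝔞 π', ((s y)⁻¹ * η y) ^ 2 = ∫ y : c.CS 𝔞 π', η y ^ 2 / wt (y : Tn 9 d) := by
    refine integral_congr_ae (.of_forall fun y => ?_)
    by_cases hy : (y : Tn 9 d) ∈ Ann _ (3 * r) R
    · simp only
      rw [← s4 y (by linarith [hy.1]), mul_pow, inv_pow, mul_comm, div_eq_mul_inv]
    · simp [hz y y.2 hy]
  have hK₀ : 0 ≤ K₀ := (wnrm_wt_nonneg _).trans (hK 0)
  obtain ⟨ε', hε', he⟩ : ∃ ε' > 0, 2 * (ε' * (M₂ * (1 + K₀))) + 2 * (ε' * (M₁ * (1 + K₀))) ≤ ε := by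
    refine ⟨ε / (2 * (M₂ * (1 + K₀)) + 2 * (M₁ * (1 + K₀)) + 1), by positivity, ?_⟩
    rw [← mul_assoc, ← mul_assoc 2 _ (M₁ * _), ← mul_add, mul_comm 2, mul_assoc,
      div_mul_eq_mul_div, div_le_iff₀ (by positivity)]
    exact mul_le_mul_of_nonneg_left (by linarith) hε.le
  filter_upwards [hE, hg.eventually (h_lam.loc π 𝔞 π' (Ann _ (3 * r) R) (r / 2) (half_pos hr)),
    hg.eventually (h_mul π 𝔞 π' hT hlt.le _ (hat_gen c h_lm4 hlt.le hη') β s s1 ε' hε'),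
    hg.eventually ((hub 0 (by simp)).2 _ hη' β hβ ε' hε')] with n h1 h2 h3 h4
  have hA : c.En 𝔞 (g n) 0 (ψ n) + wnrm (sub 9 𝔞) wt (ψ n) ≤ 1 + K₀ := add_le_add h1 (hK n)
  have m1 := rad_mem c (hD n) f1 f2
  have m2 := rad_mem c m1 s1 s2
  have e1 := (h2 (ψ n) (fun x => (f x : ℂ) • ψ n x) η β hz fun x _ y hy hxy => by
    rw [f4 x (near_ann hr hy hxy).self_of_nhds, ofReal_one, one_smul]).2
  have e2 := (h_lam.congrη π 𝔞 π' (g n) (fun x => (f x : ℂ) • ψ n x) (c.hatη π 𝔞 π' η)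
    (fun x => s x * c.hatη π 𝔞 π' (fun x => (s x)⁻¹ * η x) x) β fun y hy => by
      simp only [Ctx.hatη, Submodule.starProjection_eq_self_iff.2 hy]
      rw [← mul_div_assoc, ← mul_assoc, mul_inv_cancel₀ (s3 y).ne', one_mul]).1
  have a1 := (h3 _ m1).trans (mul_le_mul_of_nonneg_left
    ((nrm_le_NE c (g n) _).trans (b1 (g n) _ (hD n).1 _ hA)) hε'.le)
  have a2 := h4 _ m2
  have a3 := mul_le_mul_of_nonneg_left (b2 (g n) _ (hD n).1 _ hA) hε'.le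
  have a4 : nrm (sub 9 𝔞) (fun x => (s x : ℂ) • (f x : ℂ) • ψ n x) ≤ K₀ := by
    have := nrm_mulR (U := sub 9 𝔞) (fun x => s x * f x) (ψ n)
    simp only [ofReal_mul, mul_smul] at this
    rw [this]
    refine (wnrm_le (M := 1) (hD n).1 ((s1.mul f1).continuous.fun_pow 2) wt_smooth.continuous
      fun x => ?_).trans (by rw [one_mul]; exact hK n)
    by_cases hx : x ∈ Ann _ r (2 * (R + r))
    · rw [mul_pow, s4 x hx.1, mul_comm]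
      exact mul_le_mul_of_nonneg_right (f3 x) (wt_nonneg x)
    · simp [f5 x hx, wt_nonneg]
  rw [hI] at a2
  have hI0 : 0 ≤ ∫ y : c.CS 𝔞 π', η y ^ 2 / wt (y : Tn 9 d) :=
    integral_nonneg fun y => div_nonneg (sq_nonneg _) (wt_nonneg _)
  have a5 := mul_le_mul_of_nonneg_left a4
    (mul_nonneg (mul_nonneg hK0 hI0) (sq_nonneg ‖β‖))
  rw [e1, Ctx.Lamh, e2]
  rw [Ctx.Lamh] at a2
  generalize c.Lam π 𝔞 π' (g n) _ (c.hatη π 𝔞 π' _) β = y at a1 a2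
  generalize c.Lam π 𝔞 π' (g n) _ _ β = x at a1
  have a6 := Ga1cAux.norm_add_sq_le y (-(y - x))
  rw [norm_neg, neg_sub, add_sub_cancel] at a6
  linarith

theorem lamQ_zero (h_lam : c.S_lam) (h_wif : c.S_wif)
    (hT : c.Th π 𝔞) (hlt : π' < π) (hg : Tendsto g atTop atTop) (hD : ∀ n, ψ n ∈ c.D π 𝔞)
    (hK : ∀ n, wnrm (sub 9 𝔞) wt (ψ n) ≤ K₀)
    (hE : Tendsto (fun n => c.En 𝔞 (g n) 0 (ψ n)) atTop (𝓝 0))
    {β : LL (sub 9 (c.ss π')) F} (hβ : β ∈ c.BK π π') {η : Tn 9 d → ℝ}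
    (hη : SmR (c.CS 𝔞 π') η (c.Good π π')) (α : Fin 16) :
    Tendsto (fun n => c.LamQ π 𝔞 π' (g n) 0 (eb α) (ψ n) η β) atTop (𝓝 0) := by
  obtain ⟨L, K, hL, hw⟩ := h_wif π 𝔞 π' hT hlt.le η hη β hβ 0 (by simp)
  obtain ⟨r, R, hr, hR, hz⟩ := exists_rad (zero_not_good c hlt) hη
  obtain ⟨f, f1, f2, f3, f4, f5⟩ := exists_ann (E := Tn 9 d) hr (add_pos hR hr)
  obtain ⟨M₁, hM₁, b1⟩ := NE_cut c 𝔞 f1 hr f5
  obtain ⟨M₂, hM₂, b2⟩ := NE_cut2 c 𝔞 f1 f1 hr f5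
  obtain ⟨M₃, hM₃, b3⟩ := grad_le c hT (2 * (R + r))
  obtain ⟨a, ha⟩ : ∃ a : Tn 9 d → F →L[ℂ] F,
      ∀ x, a x = (-I * (1 : ℝ)) • c.θ (c.sE (eb α) (gU (sub 9 𝔞) f x)) := ⟨_, fun _ => rfl⟩
  have a0 : ∀ x, fderiv ℝ f x = 0 → a x = 0 := fun x hx => by
    rw [ha, gU_zero hx, map_zero, map_zero, smul_zero]
  have a1 : ContDiff ℝ ∞ a := by
    rw [funext ha]
    exact (c.θ.contDiff.comp ((c.sE (eb α)).contDiff.comp (gU_smooth f1))).const_smul _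
  obtain ⟨M₄, hM₄, b4⟩ := clm_bound (U := sub 9 𝔞) a1
    (HasCompactSupport.intro (compact_Ann r (2 * (R + r))) fun x hx => a0 x (fderiv_ann f5 hx))
  have df := f1.differentiable (by simp)
  have hQ : ∀ (t : ℝ) (φ : Tn 9 d → F), ContDiff ℝ ∞ φ →
      c.Q 𝔞 t 0 (eb α) (fun x => (f x : ℂ) • φ x) =
        (fun x => (f x : ℂ) • c.Q 𝔞 t 0 (eb α) φ x) + fun x => a x (φ x) := fun t φ hφ => by
    funext x
    rw [Pi.add_apply, ha]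
    exact dop_mulR 1 _ _ (hφ.differentiable (by simp) x) (df x)
  have m1 := fun n => rad_mem c (hD n) f1 f2
  have m2 := fun n => rad_mem c (m1 n) f1 f2
  have m3 := fun n => rad_mem c (rad_mem c (c.Q_mem_D hT (g n) 0 (eb α) (hD n)) f1 f2) f1 f2
  have m4 : ∀ n, (fun x => a x ((f x : ℂ) • ψ n x)) ∈ c.D π 𝔞 := fun n => by
    have := (c.D π 𝔞).sub_mem (c.Q_mem_D hT (g n) 0 (eb α) (m2 n))
      (rad_mem c (c.Q_mem_D hT (g n) 0 (eb α) (m1 n)) f1 f2)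
    rwa [hQ _ _ (m1 n).1.1, add_sub_cancel_left] at this
  have e1 : ∀ n, c.Q 𝔞 (g n) 0 (eb α) (fun x => (f x : ℂ) • (f x : ℂ) • ψ n x) =
      (fun x => (f x : ℂ) • (f x : ℂ) • c.Q 𝔞 (g n) 0 (eb α) (ψ n) x) +
        (2 : ℂ) • fun x => a x ((f x : ℂ) • ψ n x) := fun n => by
    rw [hQ _ _ (m1 n).1.1, hQ _ _ (hD n).1.1]
    funext x
    simp only [Pi.add_apply, Pi.smul_apply, smul_add, map_smul, two_smul, add_assoc]
  have hA : ∀ᶠ n in atTop, c.En 𝔞 (g n) 0 (ψ n) + wnrm (sub 9 𝔞) wt (ψ n) ≤ 1 + K₀ :=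
    (hE.eventually (ge_mem_nhds one_pos)).mono fun n h => add_le_add h (hK n)
  have g1 := hg.eventually_ge_atTop 1
  have t1 := tz (fun ε hε => (hg.eventually (hw ε hε)).mono fun n h => (h _ (m2 n)).2 α)
    (hA.mono fun n h => b2 (g n) _ (hD n).1 _ h)
  have t2 := tz (C := M₄ * (M₁ * (1 + K₀)) + M₄ * (M₁ * (1 + K₀) + M₃ * (M₁ * (1 + K₀))))
    (fun ε hε => (hg.eventually (hw ε hε)).mono fun n h => (h _ (m4 n)).1) (by
      filter_upwards [hA, g1] with n h h1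
      have c1 := b1 (g n) _ (hD n).1 _ h
      have c2 := (nrm_le_NE c (g n) _).trans c1
      obtain ⟨c3, c4⟩ := b4 _ (m1 n).1
      have c5 := b3 (g n) h1 _ (m1 n).1 fun x _ hx => by
        rw [f5 x fun h => absurd h.2 (not_le.2 hx), ofReal_zero, zero_smul]
      have c6 := c5.trans (mul_le_mul_of_nonneg_left c1 (by positivity))
      have c7 := nrm_nonneg (sub 9 𝔞) fun x => (f x : ℂ) • ψ n x
      refine add_le_add (c3.trans (mul_le_mul_of_nonneg_left c2 hM₄)) ?_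
      rw [div_le_iff₀ (by linarith), mul_assoc]
      refine c4.trans (mul_le_mul_of_nonneg_left ?_ hM₄)
      nlinarith)
  have t3 : Tendsto (fun n => L (g n)
      fun x => (f x : ℂ) • (f x : ℂ) • c.Q 𝔞 (g n) 0 (eb α) (ψ n) x) atTop (𝓝 0) := by
    refine tz (y := fun _ => 1) (C := 1) (fun ε hε => ?_) (.of_forall fun _ => le_rfl)
    have t := hE.const_mul |K|
    rw [mul_zero] at t
    filter_upwards [t.eventually (ge_mem_nhds hε), g1] with n h h1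
    refine ((hL (g n) (by linarith)).2 _ (m3 n)).trans ?_
    have c1 : nrm (sub 9 𝔞) (fun x => (f x : ℂ) • (f x : ℂ) • c.Q 𝔞 (g n) 0 (eb α) (ψ n) x) ≤
        c.En 𝔞 (g n) 0 (ψ n) := by
      have := nrm_mulR (U := sub 9 𝔞) (fun x => f x * f x) (c.Q 𝔞 (g n) 0 (eb α) (ψ n))
      simp only [ofReal_mul, mul_smul] at this
      rw [this]
      refine (wnrm_le (M := 1) (c.Q_mem_D hT (g n) 0 (eb α) (hD n)).1
        ((f1.mul f1).continuous.fun_pow 2) (continuous_const (y := (1 : ℝ))) fun x => ?_).trans ?_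
      · rw [mul_pow]
        exact mul_le_mul (f3 x) (f3 x) (sq_nonneg _) zero_le_one
      · rw [one_mul, wnrm_one]
        exact Finset.single_le_sum
          (f := fun α => nrm (sub 9 𝔞) (c.Q 𝔞 (g n) 0 (eb α) (ψ n)))
          (fun _ _ => nrm_nonneg _ _) (Finset.mem_univ α)
    rw [mul_one]
    exact (mul_le_mul (le_abs_self K) c1 (nrm_nonneg _ _) (abs_nonneg K)).trans h
  have t4 := (t3.add (t2.const_mul 2)).sub t1
  rw [mul_zero, add_zero, sub_zero] at t4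
  refine t4.congr' ?_
  filter_upwards [g1, hg.eventually (h_lam.loc π 𝔞 π' (Ann _ (3 * r) R) (r / 2) (half_pos hr))]
    with n h1 h2
  have e2 : c.Lamh π 𝔞 π' (g n) (fun x => a x ((f x : ℂ) • ψ n x)) η β = 0 := by
    rw [(h2 _ 0 η β hz fun x _ y hy hxy => ?_).2, (h_lam.zero π 𝔞 π' (g n) η β).2]
    have e : f =ᶠ[𝓝 x] fun _ => 1 := (near_ann hr hy hxy).mono fun z hz => f4 z hz
    rw [a0 x (by rw [e.fderiv_eq, fderiv_fun_const]; rfl)]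
    rfl
  have e3 : c.LamQ π 𝔞 π' (g n) 0 (eb α) (fun x => (f x : ℂ) • (f x : ℂ) • ψ n x) η β =
      c.LamQ π 𝔞 π' (g n) 0 (eb α) (ψ n) η β := by
    have hf : ∀ x ∈ sub 9 𝔞, ∀ y ∈ Ann _ (3 * r) R, ‖x - y‖ ≤ r / 2 →
        (f x : ℂ) • (f x : ℂ) • ψ n x = ψ n x := fun x _ y hy hxy => by
      rw [f4 x (near_ann hr hy hxy).self_of_nhds, ofReal_one, one_smul, one_smul]
    refine Finset.sum_congr rfl fun k _ => ?_
    rw [(h2 _ _ _ _ (fderiv_off hη.1 (closed_Ann _ _) hz (onb_mem _ k)) hf).2,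
      (h2 _ _ _ _ (fun y hy hn => by rw [hz y hy hn, mul_zero]) hf).2]
  rw [e1, (hL (g n) (by linarith)).1 _ (m3 n) _ (m4 n), e2, e3]
  ring

end Amp0Aux

namespace Ctx

variable {N d : ℕ} {F : Type} [NormedAddCommGroup F] [InnerProductSpace ℂ F]
  [FiniteDimensional ℂ F] (c : Ctx N d F)

open Amp0Aux in
theorem p_amp0 (h_lm4 : c.S_lm4) (h_lam : c.S_lam) (h_mul : c.S_mul) (h_ub : c.S_ub)
    (h_wif : c.S_wif) (h_sec : c.S_sec) : c.S_amp0 := by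
  intro π π' hlt g ψ hg hD ⟨K₀, hK⟩ hE η₀ hη₀ β₀ hβ₀
  have hT := c.Th_ss π
  have hW := fun β (hβ : β ∈ c.BK π π') => weighted c h_lm4 h_lam h_mul h_ub hT hlt hg hD hK
    (hE.eventually (ge_mem_nhds one_pos)) hβ
  rw [tendsto_iff_ultrafilter]
  intro 𝒰 h𝒰
  obtain ⟨L, hL⟩ : ∃ L : (Tn 9 d → ℝ) → LL (sub 9 (c.ss π')) F → ℂ, ∀ η β,
      L η β = limUnder (𝒰 : Filter ℕ) fun n => c.Lamh π (c.ss π) π' (g n) (ψ n) η β :=
    ⟨_, fun _ _ => rfl⟩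
  have lim : ∀ η, SmR (c.CS (c.ss π) π') η (c.Good π π') → ∀ β ∈ c.BK π π',
      Tendsto (fun n => c.Lamh π (c.ss π) π' (g n) (ψ n) η β) 𝒰 (𝓝 (L η β)) := fun η hη β hβ => by
    obtain ⟨B, hB⟩ := hW β hβ
    rw [hL]
    exact ulim (hB η hη 1 one_pos) h𝒰
  have g0 : ∀ᶠ n in (𝒰 : Filter ℕ), 0 < g n := (hg.eventually_gt_atTop 0).filter_mono h𝒰
  have l1 : ∀ β ∈ c.BK π π', LinR (c.CS (c.ss π) π') (c.Good π π') fun η => L η β :=
    fun β hβ η η' hη hη' t => tendsto_nhds_unique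
      (lim _ (hη.add (hη'.mul' (f := fun _ => t) contDiff_const)) β hβ)
      (((lim η hη β hβ).add ((lim η' hη' β hβ).const_mul (t : ℂ))).congr' (g0.mono fun n hn =>
        (h_lam.linηh π _ π' hT hlt.le (g n) hn _ (hD n).1 β η η' hη hη' t).symm))
  have hcen : ∀ k, onb (c.CS (c.ss π) π') k ∈ sub 9 (c.cen π') := fun k =>
    sub_mono inf_le_right (onb_mem _ k)
  have sec := h_sec π _ π' hT hlt.le 0 L l1
    (fun η hη β hβ β' hβ' z => tendsto_nhds_unique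
      (lim η hη _ ⟨(c.B π').add_mem hβ.1 ((c.B π').smul_mem z hβ'.1),
        by rw [map_add, map_smul, hβ.2, hβ'.2]⟩)
      (((lim η hη β hβ).add ((lim η hη β' hβ').const_mul _)).congr' (g0.mono fun n hn =>
        (h_lam.linβ π _ π' hT hlt.le _ (hat_gen c h_lm4 hlt.le hη) (g n) hn _ (hD n).1
          β β' z).symm)))
    (fun η η' β h => by
      rw [hL, hL, funext fun n => (h_lam.congrη π _ π' (g n) (ψ n) η η' β h).2])
    fun α η hη β hβ => tendsto_nhds_unique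
      (tendsto_finsetSum _ fun k _ => (lim _ (hη.fderiv (onb_mem _ k)) _
        (h_lm4.theta_BK π π' hlt.le _ (c.sE_mem _ (hcen k)) _ β hβ)).add
        (lim _ (hη.mul' (contDiff_const.inner ℝ contDiff_id)) _
          (h_lm4.theta_BK π π' hlt.le _ (c.Km_mem _ (hcen k)) _ β hβ)))
      ((lamQ_zero c h_lam h_wif hT hlt hg hD hK hE hβ hη α).mono_left h𝒰)
  obtain ⟨𝒦, h𝒦, hZ⟩ := c.exists_bad hT hlt.le
  obtain ⟨B, hB⟩ := hW β₀ hβ₀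
  obtain ⟨u, u1, u2, u3, u4⟩ := removable h𝒦 (O := {0}ᶜ) (Z := c.Good π π') isOpen_compl_singleton
    (fun x hx => ⟨fun h => ⟨fun h0 => zero_not_good c hlt (h0 ▸ h), (hZ x hx).1 h⟩,
      fun h => (hZ x hx).2 h.2⟩) wt_smooth.continuous (fun x hx => wt_pos hx) (l1 β₀ hβ₀) (B := B)
    (fun η hη => le_of_forall_pos_le_add fun ε hε =>
      le_of_tendsto ((lim η hη β₀ hβ₀).norm.pow 2) ((hB η hη ε hε).filter_mono h𝒰))
    (a := fun _ => 0) contDiff_const fun η hη => by simpa using (sec η hη β₀ hβ₀).2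
  have u0 := liouville (c.nine_le_finrank_CS hT hlt) u1 u2 fun η hη => by
    have h1 := u4 η hη
    have h2 : ∫ x : c.CS (c.ss π) π', ((lap (c.CS (c.ss π) π') η x : ℝ) : ℂ) * u x =
        -2 * ∫ x : c.CS (c.ss π) π',
          ((-lap (c.CS (c.ss π) π') η x / 2 + 0 * η x : ℝ) : ℂ) * u x := by
      rw [← integral_const_mul]
      refine integral_congr_ae (.of_forall fun x => ?_)
      push_cast
      ring
    rw [h2, h1, mul_zero]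
  have e : L η₀ β₀ = 0 := by
    rw [u3 η₀ hη₀]
    refine integral_eq_zero_of_ae (u0.mono fun x hx => ?_)
    simp only [hx, Pi.zero_apply, mul_zero]
  exact e ▸ lim η₀ hη₀ β₀ hβ₀

end Ctx

end Vale.Agent.P353
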