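import Vale.Agent.P353.Loc

/-! Integration over subspaces. -/

noncomputable section

open MeasureTheory Filter Topology Complex Matrix
open scoped ContDiff RealInnerProductSpace

namespace Vale.Agent.P353

variable {E : Type} [NormedAddCommGroup E] [InnerProductSpace ℝ E] [FiniteDimensional ℝ E]
  [MeasurableSpace E] [BorelSpace E]

variable {U U₁ U₂ : Submodule ℝ E} {V : Type} [NormedAddCommGroup V] [NormedSpace ℝ V]

theorem measurePreserving_sup (h : U₁ ⟂ U₂) (hU : U₁ ⊔ U₂ = U) :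
    ∃ e : U₁ × U₂ ≃ᵐ U, (∀ p, (e p : E) = p.1 + p.2) ∧ MeasurePreserving e volume volume ∧
      Continuous e ∧ Continuous e.symm := by
  have h1 : U₁ ≤ U := hU ▸ le_sup_left
  have h2 : U₂ ≤ U := hU ▸ le_sup_right
  let L : WithLp 2 (U₁ × U₂) →ₗᵢ[ℝ] U :=
    { toLinearMap := (Submodule.inclusion h1).coprod (Submodule.inclusion h2) ∘ₗ
        (WithLp.linearEquiv 2 ℝ (U₁ × U₂)).toLinearMap
      norm_map' := fun p => by
        rw [← sq_eq_sq₀ (norm_nonneg _) (norm_nonneg _), WithLp.prod_norm_sq_eq_of_L2]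
        show ‖(p.fst : E) + p.snd‖ ^ 2 = ‖(p.fst : E)‖ ^ 2 + ‖(p.snd : E)‖ ^ 2
        rw [norm_add_sq_real, h.inner_eq p.fst.2 p.snd.2]
        ring }
  have hL : Function.Surjective L := fun x => by
    have hx : (x : E) ∈ U₁ ⊔ U₂ := hU ▸ x.2
    obtain ⟨a, ha, b, hb, hab⟩ := Submodule.mem_sup.1 hx
    exact ⟨WithLp.toLp 2 (⟨a, ha⟩, ⟨b, hb⟩), Subtype.ext hab⟩
  let L' := LinearIsometryEquiv.ofSurjective L hL
  refine ⟨(MeasurableEquiv.toLp 2 (U₁ × U₂)).trans L'.toMeasurableEquiv, fun p => rfl,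
    L'.measurePreserving.comp (WithLp.volume_preserving_toLp U₁ U₂),
    L'.continuous.comp (WithLp.prod_continuous_toLp 2 U₁ U₂),
    (WithLp.prod_continuous_ofLp 2 U₁ U₂).comp L'.symm.continuous⟩

theorem lintegral_sup (h : U₁ ⟂ U₂) (hU : U₁ ⊔ U₂ = U) {f : E → ENNReal}
    (hf : AEMeasurable fun x : U => f x) : ∫⁻ x : U, f x = ∫⁻ x : U₁, ∫⁻ y : U₂, f (x + y) := by
  obtain ⟨e, he, hm, -⟩ := measurePreserving_sup h hU
  have h1 : AEMeasurable (fun p => f (e p)) volume :=
    hf.comp_quasiMeasurePreserving hm.quasiMeasurePreserving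
  rw [← hm.lintegral_comp_emb e.measurableEmbedding, Measure.volume_eq_prod, lintegral_prod _ h1]
  simp only [he]

theorem integral_sup (h : U₁ ⟂ U₂) (hU : U₁ ⊔ U₂ = U) {f : E → V}
    (hf : Integrable fun x : U => f x) : ∫ x : U, f x = ∫ x : U₁, ∫ y : U₂, f (x + y) := by
  obtain ⟨e, he, hm, -⟩ := measurePreserving_sup h hU
  have h1 : Integrable (fun p => f (e p)) volume :=
    (hm.integrable_comp_emb e.measurableEmbedding (g := fun x : U => f x)).2 hf
  rw [← hm.integral_comp', Measure.volume_eq_prod, integral_prod _ h1]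
  simp only [he]

theorem integrable_sup (h : U₁ ⟂ U₂) (hU : U₁ ⊔ U₂ = U) {f : E → V} :
    (Integrable fun x : U => f x) ↔ Integrable fun p : U₁ × U₂ => f (p.1 + p.2) := by
  obtain ⟨e, he, hm, -⟩ := measurePreserving_sup h hU
  rw [← hm.integrable_comp_emb e.measurableEmbedding]
  simp only [Function.comp_def, he]

theorem integrable_integral_sup (h : U₁ ⟂ U₂) (hU : U₁ ⊔ U₂ = U) {f : E → V}
    (hf : Integrable fun x : U => f x) : Integrable fun x : U₁ => ∫ y : U₂, f (x + y) :=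
  ((integrable_sup h hU).1 hf).integral_prod_left

/-- slices of compactly supported functions -/
theorem hasCompactSupport_slice (h : U₂ ≤ U) {f : E → V} (hf : HasCompactSupport fun x : U => f x)
    {x : E} (hx : x ∈ U) : HasCompactSupport fun y : U₂ => f (x + y) := by
  have h1 : Isometry fun y : U₂ => (⟨x + y, U.add_mem hx (h y.2)⟩ : U) :=
    Isometry.of_dist_eq fun a b => by simp [Subtype.dist_eq]
  have h2 := hf.comp_isClosedEmbedding h1.isClosedEmbedding
  exact h2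

theorem quasiMeasurePreserving_proj (h : U₁ ≤ U) {t : ℝ} (ht : t ≠ 0) :
    Measure.QuasiMeasurePreserving (fun x : U => t • U₁.orthogonalProjectionOnto x) volume volume := by
  have ho : U₁ ⟂ U₁ᗮ ⊓ U := (Submodule.isOrtho_orthogonal_right U₁).mono_right inf_le_left
  obtain ⟨e, he, hm, -⟩ := measurePreserving_sup ho
    (Submodule.sup_orthogonal_inf_of_hasOrthogonalProjection h)
  have h1 : (fun x : U => t • U₁.orthogonalProjectionOnto x) =
      (t • ·) ∘ Prod.fst ∘ e.symm := by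
    funext x
    obtain ⟨p, rfl⟩ := e.surjective x
    simp only [Function.comp_apply, e.symm_apply_apply, he, map_add,
      Submodule.orthogonalProjectionOnto_mem_subspace_eq_self,
      Submodule.orthogonalProjectionOnto_eq_zero_iff.2 p.2.2.1, add_zero]
  rw [h1]
  exact (Measure.quasiMeasurePreserving_smul volume ht).comp
    (Measure.quasiMeasurePreserving_fst.comp hm.symm.quasiMeasurePreserving)

theorem measurePreserving_isometry {R : E →L[ℝ] E} (hR : ∀ x ∈ U₁, ‖R x‖ = ‖x‖)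
    (h : U₁.map (R : E →ₗ[ℝ] E) = U₂) :
    ∃ e : U₁ ≃ₗᵢ[ℝ] U₂, (∀ x, (e x : E) = R x) ∧ MeasurePreserving e volume volume := by
  let L : U₁ →ₗᵢ[ℝ] U₂ :=
    { toLinearMap := (R : E →ₗ[ℝ] E).restrict fun x hx => h ▸ Submodule.mem_map_of_mem hx
      norm_map' := fun x => hR x x.2 }
  have hL : Function.Surjective L := fun y => by
    have hy : (y : E) ∈ U₁.map (R : E →ₗ[ℝ] E) := h ▸ y.2
    obtain ⟨x, hx, hxy⟩ := hy
    exact ⟨⟨x, hx⟩, Subtype.ext hxy⟩
  exact ⟨LinearIsometryEquiv.ofSurjective L hL, fun x => rfl,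
    LinearIsometryEquiv.measurePreserving _⟩

theorem integral_isometry {R : E →L[ℝ] E} (hR : ∀ x ∈ U₁, ‖R x‖ = ‖x‖)
    (h : U₁.map (R : E →ₗ[ℝ] E) = U₂) (f : E → V) : ∫ x : U₁, f (R x) = ∫ x : U₂, f x := by
  obtain ⟨e, he, hm⟩ := measurePreserving_isometry hR h
  rw [← hm.integral_comp e.toHomeomorph.measurableEmbedding]
  simp only [he]

theorem map_eq_of_isometry {R : E →L[ℝ] E} (hR : ∀ x ∈ U, R x ∈ U ∧ ‖R x‖ = ‖x‖) :
    U.map (R : E →ₗ[ℝ] E) = U := by
  let L : U →ₗᵢ[ℝ] U :=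
    { toLinearMap := (R : E →ₗ[ℝ] E).restrict fun x hx => (hR x hx).1
      norm_map' := fun x => (hR x x.2).2 }
  have hL : Function.Surjective L :=
    (LinearMap.injective_iff_surjective (f := L.toLinearMap)).1 L.injective
  refine le_antisymm (Submodule.map_le_iff_le_comap.2 fun x hx => (hR x hx).1) fun y hy => ?_
  obtain ⟨x, hx⟩ := hL ⟨y, hy⟩
  exact ⟨x, x.2, congrArg Subtype.val hx⟩

theorem integral_smul_sub (U : Submodule ℝ E) (f : E → V) {t : ℝ} (ht : 0 < t) :
    ∫ x : U, f (t • x) = (t ^ Module.finrank ℝ U)⁻¹ • ∫ x : U, f x :=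
  Measure.integral_comp_smul_of_nonneg volume (fun x : U => f x) t (hR := ht.le)

theorem integral_add_sub (f : E → V) {y : E} (hy : y ∈ U) :
    ∫ x : U, f (x + y) = ∫ x : U, f x :=
  integral_add_right_eq_self (fun x : U => f x) ⟨y, hy⟩

theorem integral_neg_sub (U : Submodule ℝ E) (f : E → V) : ∫ x : U, f (-x) = ∫ x : U, f x :=
  integral_neg_eq_self (fun x : U => f x) volume

theorem integral_bot [CompleteSpace V] (f : E → V) : ∫ x : (⊥ : Submodule ℝ E), f x = f 0 := by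
  have h1 : (volume : Measure (⊥ : Submodule ℝ E)) Set.univ = 1 := by
    rw [← (stdOrthonormalBasis ℝ (⊥ : Submodule ℝ E)).volume_parallelepiped]
    congr 1
    exact (Set.Nonempty.eq_univ ⟨0, (mem_parallelepiped_iff _ _).2 ⟨0, ⟨le_rfl, zero_le_one⟩, by simp⟩⟩).symm
  have h2 : ∀ x : (⊥ : Submodule ℝ E), f x = f 0 := fun x => by
    rw [(Submodule.mem_bot ℝ).1 x.2]
  simp only [h2, integral_const, Measure.real, h1, ENNReal.toReal_one, one_smul]

/-- linear change of variables between two subspaces of possibly different spaces -/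
theorem integral_linear {E' : Type} [NormedAddCommGroup E'] [InnerProductSpace ℝ E']
    [FiniteDimensional ℝ E'] [MeasurableSpace E'] [BorelSpace E'] {U' : Submodule ℝ E'}
    (T : U' ≃ₗ[ℝ] U) (e : U' ≃ₗᵢ[ℝ] U) (f : E → V) :
    ∫ x : U, f x = |LinearMap.det (e.symm.toLinearEquiv.toLinearMap ∘ₗ T.toLinearMap)| •
      ∫ y : U', f (T y) := by
  obtain ⟨S, hS⟩ : ∃ S : U' ≃ₗ[ℝ] U', S = T.trans e.symm.toLinearEquiv := ⟨_, rfl⟩
  have h0 : e.symm.toLinearEquiv.toLinearMap ∘ₗ T.toLinearMap = S.toLinearMap := by rw [hS]; rfl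
  have hd : LinearMap.det S.toLinearMap ≠ 0 := (LinearEquiv.isUnit_det' S).ne_zero
  have h1 := Measure.map_linearMap_addHaar_eq_smul_addHaar volume hd
  have h2 := integral_map_equiv (μ := volume)
    S.toContinuousLinearEquiv.toHomeomorph.toMeasurableEquiv fun y : U' => f (e y)
  have h3 : ∀ y, e (S y) = T y := fun y => by rw [hS]; simp
  have h4 : ∫ y, f (e y) ∂(Measure.map S.toLinearMap volume) = ∫ y : U', f (e (S y)) := h2
  simp only [h3] at h4
  rw [h0, ← h4, h1, integral_smul_measure, ENNReal.toReal_ofReal (abs_nonneg _), smul_smul,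
    ← abs_mul, mul_inv_cancel₀ hd, abs_one, one_smul,
    ← e.measurePreserving.integral_comp e.toHomeomorph.measurableEmbedding]

theorem measure_submodule_eq_zero (h : U₁ < U) : volume {x : U | (x : E) ∈ U₁} = 0 :=
  Measure.addHaar_submodule volume (U₁.comap U.subtype) fun h1 =>
    h.not_ge (Submodule.comap_subtype_eq_top.1 h1)

variable {F : Type} [NormedAddCommGroup F] [InnerProductSpace ℂ F]

namespace FubAux

theorem sq_mul {l : ℝ} (hl : 0 < l) (n : ℕ) :
    l ^ (-(n : ℝ) / 2) * l ^ (-(n : ℝ) / 2) * l ^ n = 1 := by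
  rw [← Real.rpow_add hl, add_halves, Real.rpow_neg hl.le, Real.rpow_natCast,
    inv_mul_cancel₀ (pow_pos hl n).ne']

omit [FiniteDimensional ℝ E] [MeasurableSpace E] [BorelSpace E] in
theorem norm_dil_sq (U : Submodule ℝ E) {l : ℝ} (hl : 0 < l) (b : E → F) (x : E) :
    ‖dil U l b x‖ ^ 2 = (l ^ Module.finrank ℝ U)⁻¹ * ‖b (l⁻¹ • x)‖ ^ 2 := by
  rw [dil, norm_smul, mul_pow, Complex.norm_real, Real.norm_eq_abs, sq_abs, sq,
    eq_inv_of_mul_eq_one_left (sq_mul hl _)]

theorem integral_inv (U : Submodule ℝ E) (f : E → V) {l : ℝ} (hl : 0 < l) :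
    ∫ x : U, f (l⁻¹ • x) = (l ^ Module.finrank ℝ U) • ∫ x : U, f x :=
  Measure.integral_comp_inv_smul_of_nonneg volume (fun x : U => f x) hl.le

end FubAux

open FubAux

theorem nrm_dil (U : Submodule ℝ E) {l : ℝ} (hl : 0 < l) (b : E → F) :
    nrm U (dil U l b) = nrm U b := by
  simp only [nrm, norm_dil_sq U hl]
  rw [integral_const_mul, integral_inv U (fun x => ‖b x‖ ^ 2) hl, smul_eq_mul,
    inv_mul_cancel_left₀ (pow_pos hl _).ne']

theorem ip_dil (U : Submodule ℝ E) {l : ℝ} (hl : 0 < l) (a b : E → F) :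
    ip U (dil U l a) (dil U l b) = ip U a b := by
  simp only [ip, dil, inner_smul_left, inner_smul_right, Complex.conj_ofReal, ← mul_assoc]
  rw [integral_const_mul, integral_inv U (fun x => inner ℂ (a x) (b x)) hl, Complex.real_smul,
    ← mul_assoc, ← Complex.ofReal_mul, ← Complex.ofReal_mul, sq_mul hl, Complex.ofReal_one,
    one_mul]

theorem wnrm_dil (U : Submodule ℝ E) {l : ℝ} (hl : 0 < l) (w : E → ℝ) (b : E → F) :
    wnrm U w (dil U l b) = wnrm U (fun x => w (l • x)) b := by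
  have h1 := integral_inv U (fun x => w (l • x) * ‖b x‖ ^ 2) hl
  simp only [smul_inv_smul₀ hl.ne'] at h1
  simp only [wnrm, norm_dil_sq U hl, mul_left_comm (w _)]
  rw [integral_const_mul, h1, smul_eq_mul, inv_mul_cancel_left₀ (pow_pos hl _).ne']

open Pointwise in
theorem mass_dil (U : Submodule ℝ E) {l : ℝ} (hl : 0 < l) (O : Set E) (b : E → F) :
    mass U O (dil U l b) = mass U {x | l • x ∈ O} b := by
  have h1 := Measure.setIntegral_comp_smul_of_pos volume (fun x : U => ‖b x‖ ^ 2)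
    {x : U | (x : E) ∈ O} (inv_pos.2 hl)
  have h2 : l⁻¹ • {x : U | (x : E) ∈ O} = {x : U | (x : E) ∈ {x | l • x ∈ O}} := by
    ext x
    rw [Set.mem_inv_smul_set_iff₀ hl.ne']
    rfl
  simp only [Submodule.coe_smul] at h1
  simp only [mass, norm_dil_sq U hl]
  rw [integral_const_mul, h1, h2, smul_eq_mul, inv_pow, inv_inv,
    inv_mul_cancel_left₀ (pow_pos hl _).ne']

theorem grad_dil (U : Submodule ℝ E) {l : ℝ} (hl : 0 < l) (b : E → F) :
    grad U (dil U l b) = grad U b / l ^ 2 := by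
  have h1 : ∀ x, gsq U (dil U l b) x =
      (l ^ Module.finrank ℝ U)⁻¹ * (l ^ 2)⁻¹ * gsq U b (l⁻¹ • x) := fun x => by
    have h2 : dil U l b = ((l ^ (-(Module.finrank ℝ U : ℝ) / 2) : ℝ) : ℂ) •
      fun x => b (l⁻¹ • x) := rfl
    simp only [gsq, Finset.mul_sum]
    refine Finset.sum_congr rfl fun k _ => ?_
    rw [h2, fderiv_const_smul_field, Pi.smul_apply, fderiv_comp_smul, _root_.smul_apply,
      _root_.smul_apply,      norm_smul, norm_smul, mul_pow, mul_pow, Complex.norm_real, Real.norm_eq_abs,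
      Real.norm_eq_abs, sq_abs, sq_abs, sq, eq_inv_of_mul_eq_one_left (sq_mul hl _), inv_pow,
      mul_assoc]
  simp only [grad, h1]
  rw [integral_const_mul, integral_inv U (gsq U b) hl, smul_eq_mul]
  field_simp

theorem memLp_dil {l : ℝ} (hl : 0 < l) {b : E → F} (h : MemLp (fun x : U => b x) 2 volume) :
    MemLp (fun x : U => dil U l b x) 2 volume := by
  have h1 : MemLp (fun x : U => b x) 2 (Measure.map (l⁻¹ • ·) (volume : Measure U)) := by
    rw [Measure.map_addHaar_smul volume (inv_pos.2 hl).ne']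
    exact h.smul_measure ENNReal.ofReal_ne_top
  exact (h1.comp_of_map (measurable_const_smul _).aemeasurable).const_smul _

theorem dil_dil (U : Submodule ℝ E) {l l' : ℝ} (hl : 0 < l) (hl' : 0 < l') (b : E → F) :
    dil U l (dil U l' b) = dil U (l * l') b := by
  funext x
  simp only [dil, smul_smul]
  rw [Real.mul_rpow hl.le hl'.le, Complex.ofReal_mul, _root_.mul_inv_rev]

theorem dil_one (U : Submodule ℝ E) (b : E → F) : dil U 1 b = b := by
  funext x
  simp [dil]

theorem dil_mem_Tst {C : Set ((E →L[ℝ] E) × (F →L[ℂ] F))} {l : ℝ} (hl : 0 < l) {b : E → F}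
    (h : b ∈ Tst U C) : dil U l b ∈ Tst U C := by
  have h1 := h.1.2.comp_smul (inv_pos.2 hl).ne'
  have h2 : ContDiff ℝ ∞ fun x => b (l⁻¹ • x) := h.1.1.comp (contDiff_const_smul _)
  refine (Tst U C).smul_mem _ (x := fun x => b (l⁻¹ • x)) ⟨⟨h2, h1⟩, fun c hc x hx => ?_⟩
  show b (l⁻¹ • c.1 x) = c.2 (b (l⁻¹ • x))
  rw [← map_smul]
  exact h.2 c hc _ (U.smul_mem _ hx)

theorem ell_pos {g : ℝ} (hg : 0 < g) : 0 < ell g := Real.rpow_pos_of_pos hg _

theorem mul_ell_pow {g : ℝ} (hg : 0 < g) : g * ell g ^ 3 = 1 := by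
  rw [ell, ← Real.rpow_natCast, ← Real.rpow_mul hg.le]
  norm_num
  rw [Real.rpow_neg_one, mul_inv_cancel₀ hg.ne']

theorem tendsto_ell : Tendsto ell atTop (𝓝 0) :=
  tendsto_rpow_neg_atTop (by norm_num)

end Vale.Agent.P353
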