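import Vale.Agent.P353.Ga1
import Vale.Agent.P353.Fub

/-! A Liouville theorem on the punctured space. -/

noncomputable section

open MeasureTheory Filter Topology Complex Matrix
open scoped ContDiff RealInnerProductSpace

namespace Vale.Agent.P353

variable {E : Type} [NormedAddCommGroup E] [InnerProductSpace ℝ E] [FiniteDimensional ℝ E]
  [MeasurableSpace E] [BorelSpace E]

namespace LvAux

open scoped Convolution

variable {V : Type} [NormedAddCommGroup V] [InnerProductSpace ℝ V]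

/-- directional derivative -/
def pd (e : V) (f : V → ℝ) (x : V) : ℝ := fderiv ℝ f x e

theorem pd_sm {f : V → ℝ} (hf : ContDiff ℝ ∞ f) (e : V) : ContDiff ℝ ∞ (pd e f) :=
  (hf.fderiv_right (m := ∞) (by simp)).clm_apply contDiff_const

theorem pd_of {f : V → ℝ} {L : V →L[ℝ] ℝ} {x : V} (h : HasFDerivAt f L x) (e : V) :
    pd e f x = L e := by rw [pd, h.fderiv]

theorem dAt {f : V → ℝ} (hf : ContDiff ℝ ∞ f) (x : V) : HasFDerivAt f (fderiv ℝ f x) x :=
  (hf.differentiable (by simp) x).hasFDerivAt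

theorem pd_mul {f g : V → ℝ} (hf : ContDiff ℝ ∞ f) (hg : ContDiff ℝ ∞ g) (e x : V) :
    pd e (fun y => f y * g y) x = f x * pd e g x + pd e f x * g x := by
  rw [pd_of ((dAt hf x).fun_mul (dAt hg x))]
  simp [pd, mul_comm]

theorem pd_add {f g : V → ℝ} (hf : ContDiff ℝ ∞ f) (hg : ContDiff ℝ ∞ g) (e x : V) :
    pd e (fun y => f y + g y) x = pd e f x + pd e g x :=
  pd_of ((dAt hf x).fun_add (dAt hg x)) e

theorem pd_refl {f : V → ℝ} (hf : ContDiff ℝ ∞ f) (e x : V) :
    pd e (fun t => f (x - t)) = fun t => -pd e f (x - t) := by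
  funext t
  refine (pd_of ((dAt hf (x - t)).comp t ((hasFDerivAt_id t).const_sub x)) e).trans ?_
  simp [pd]

theorem pd_refl2 {f : V → ℝ} (hf : ContDiff ℝ ∞ f) (e x t : V) :
    pd e (pd e fun t => f (x - t)) t = pd e (pd e f) (x - t) := by
  rw [pd_refl hf, pd, fderiv_fun_neg]
  exact (congrArg Neg.neg (congrFun (pd_refl (pd_sm hf e) e x) t)).trans (neg_neg _)

theorem pd_zero {f : V → ℝ} {x : V} (h : x ∉ tsupport f) (e : V) : pd e f x = 0 := by
  rw [pd, fderiv_of_notMem_tsupport ℝ h]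
  rfl

theorem tsupport_pd (f : V → ℝ) (e : V) : tsupport (pd e f) ⊆ tsupport f :=
  closure_minimal (fun _ hx => by_contra fun h => hx (pd_zero h e)) (isClosed_tsupport f)

theorem pd_cs {f : V → ℝ} (hf : HasCompactSupport f) (e : V) : HasCompactSupport (pd e f) :=
  hf.of_isClosed_subset (isClosed_tsupport _) (tsupport_pd f e)

variable [FiniteDimensional ℝ V] [MeasurableSpace V] [BorelSpace V]

theorem int_pd {f : V → ℝ} (hf : ContDiff ℝ ∞ f) (hc : HasCompactSupport f) (e : V) :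
    Integrable (pd e f) ∧ ∫ x, pd e f x = 0 := by
  have h1 : Integrable (pd e f) :=
    (pd_sm hf e).continuous.integrable_of_hasCompactSupport (pd_cs hc e)
  have h2 := integral_mul_fderiv_eq_neg_fderiv_mul_of_integrable (μ := volume)
    (f := fun _ : V => (1 : ℝ)) (g := f) (v := e) (by simp)
    (h1.congr (.of_forall fun _ => (one_mul _).symm))
    (by simpa using hf.continuous.integrable_of_hasCompactSupport hc)
    (fun _ _ => differentiableAt_const _) fun x _ => (dAt hf x).differentiableAt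
  exact ⟨h1, by simpa [pd] using h2⟩

/-- The inequalities of Hardy and Caccioppoli in one step. -/
theorem cacc {ι : Type} [Fintype ι] (b : ι → V) {χ v h : V → ℝ} {W : ι → V → ℝ}
    (hχ : ContDiff ℝ ∞ χ) (hv : ContDiff ℝ ∞ v) (hW : ∀ k, ContDiff ℝ ∞ (W k))
    (cχ : HasCompactSupport χ) (harm : ∀ x, χ x ≠ 0 → ∑ k, pd (b k) (pd (b k) v) x = 0)
    (hh : ∀ x, ∑ k, (pd (b k) χ x ^ 2 + W k x ^ 2 + W k x * pd (b k) χ x -
      χ x * pd (b k) (W k) x) ≤ h x) : 0 ≤ ∫ x, h x * v x ^ 2 := by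
  by_cases hI : Integrable fun x => h x * v x ^ 2
  swap
  · rw [integral_undef hI]
  have s1 := fun k => (hχ.mul hv).mul (pd_sm hv (b k))
  have s2 := fun k => ((hW k).mul hv).mul hv
  have G := fun k => int_pd (hχ.mul ((s1 k).add (s2 k))) cχ.mul_right (b k)
  have e0 := integral_add hI (integrable_finsetSum Finset.univ fun k _ => (G k).1)
  rw [integral_finsetSum _ fun k _ => (G k).1, Finset.sum_eq_zero fun k _ => (G k).2,
    add_zero] at e0
  refine (integral_nonneg fun x => ?_).trans_eq e0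
  have e1 : χ x * (χ x * v x * ∑ k, pd (b k) (pd (b k) v) x) = 0 := by
    by_cases h0 : χ x = 0
    · rw [h0, zero_mul]
    · rw [harm x h0, mul_zero, mul_zero]
  have e2 : ∑ k, (pd (b k) χ x * v x + χ x * pd (b k) v x + v x * W k x) ^ 2 =
      (∑ k, (pd (b k) χ x ^ 2 + W k x ^ 2 + W k x * pd (b k) χ x - χ x * pd (b k) (W k) x)) *
        v x ^ 2 + ∑ k, pd (b k) (fun x => χ x * (χ x * v x * pd (b k) v x + W k x * v x * v x)) x -
        χ x * (χ x * v x * ∑ k, pd (b k) (pd (b k) v) x) := by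
    simp only [Finset.sum_mul, Finset.mul_sum, ← Finset.sum_add_distrib, ← Finset.sum_sub_distrib]
    refine Finset.sum_congr rfl fun k _ => ?_
    rw [pd_mul hχ ((s1 k).add (s2 k)), pd_add (s1 k) (s2 k), pd_mul (hχ.mul hv) (pd_sm hv _),
      pd_mul ((hW k).mul hv) hv, pd_mul hχ hv, pd_mul (hW k) hv]
    ring
  have e3 := Finset.sum_nonneg fun k (_ : k ∈ Finset.univ) =>
    sq_nonneg (pd (b k) χ x * v x + χ x * pd (b k) v x + v x * W k x)
  have e4 := mul_le_mul_of_nonneg_right (hh x) (sq_nonneg (v x))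
  change 0 ≤ _ + _
  linarith

theorem fatou {w h : V → ℝ} {v : ℕ → V → ℝ} {M : ℝ} (hw : Integrable fun x => w x ^ 2)
    (hv : ∀ n, Integrable fun x => v n x ^ 2) (hle : ∀ n, ∫ x, v n x ^ 2 ≤ ∫ x, w x ^ 2)
    (ht : ∀ᵐ x, Tendsto (fun n => v n x) atTop (𝓝 (w x))) (hm : AEStronglyMeasurable h volume)
    (hM : ∀ x, ‖h x‖ ≤ M) (h0 : ∀ n, 0 ≤ ∫ x, h x * v n x ^ 2) : 0 ≤ ∫ x, h x * w x ^ 2 := by
  have hM0 : 0 ≤ M := (norm_nonneg _).trans (hM 0)
  have p : ∀ x, 0 ≤ M - h x := fun x => sub_nonneg.2 ((le_abs_self _).trans (hM x))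
  have i : ∀ {f : V → ℝ}, (Integrable fun x => f x ^ 2) →
      (Integrable fun x => (M - h x) * f x ^ 2) ∧
      ∫ x, (M - h x) * f x ^ 2 = M * (∫ x, f x ^ 2) - ∫ x, h x * f x ^ 2 := fun hf => by
    have h1 := hf.bdd_mul hm (.of_forall hM)
    simp only [sub_mul]
    exact ⟨(hf.const_mul M).sub h1, by rw [integral_sub (hf.const_mul M) h1, integral_const_mul]⟩
  have k : ENNReal.ofReal (∫ x, (M - h x) * w x ^ 2) ≤ ENNReal.ofReal (M * ∫ x, w x ^ 2) := by
    rw [ofReal_integral_eq_lintegral_ofReal (i hw).1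
      (.of_forall fun x => mul_nonneg (p x) (sq_nonneg _)),
      lintegral_congr_ae (ht.mono fun x hx => (ENNReal.tendsto_ofReal
        ((hx.pow 2).const_mul (M - h x))).liminf_eq.symm)]
    refine (lintegral_liminf_le' fun n => (i (hv n)).1.aemeasurable.ennreal_ofReal).trans
      (liminf_le_of_frequently_le' (.of_forall fun n => ?_))
    rw [← ofReal_integral_eq_lintegral_ofReal (i (hv n)).1
      (.of_forall fun x => mul_nonneg (p x) (sq_nonneg _)), (i (hv n)).2]
    exact ENNReal.ofReal_le_ofReal (by linarith [h0 n, mul_le_mul_of_nonneg_left (hle n) hM0])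
  rw [ENNReal.ofReal_le_ofReal_iff (mul_nonneg hM0 (integral_nonneg fun _ => sq_nonneg _)),
    (i hw).2] at k
  linarith

/-- convolution -/
def cv (w ρ : V → ℝ) : V → ℝ := w ⋆[ContinuousLinearMap.mul ℝ ℝ, volume] ρ

theorem cv_apply (w ρ : V → ℝ) (x : V) : cv w ρ x = ∫ t, w t * ρ (x - t) := rfl

theorem pd_cv {w ρ : V → ℝ} (hw : LocallyIntegrable w) (hρ : ContDiff ℝ ∞ ρ)
    (hc : HasCompactSupport ρ) (e : V) : pd e (cv w ρ) = cv w (pd e ρ) := by
  funext x
  exact (pd_of (hc.hasFDerivAt_convolution_right _ hw (hρ.of_le (by simp)) x) e).trans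
    (convolution_precompR_apply _ hw (hc.fderiv ℝ) (hρ.continuous_fderiv (by simp)) x e)

theorem cv_int {w ρ : V → ℝ} (hw : LocallyIntegrable w) (hρ : Continuous ρ)
    (hc : HasCompactSupport ρ) (x : V) : Integrable fun t => w t * ρ (x - t) :=
  hc.convolutionExists_right (ContinuousLinearMap.mul ℝ ℝ) hw hρ x

theorem young {w ρ : V → ℝ} (hw : LocallyIntegrable w) (hw2 : Integrable fun x => w x ^ 2)
    (hρ : Continuous ρ) (hc : HasCompactSupport ρ) (h0 : ∀ x, 0 ≤ ρ x) (h1 : ∫ x, ρ x = 1) :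
    (Integrable fun x => cv w ρ x ^ 2) ∧ ∫ x, cv w ρ x ^ 2 ≤ ∫ x, w x ^ 2 := by
  have iρ : Integrable ρ := hρ.integrable_of_hasCompactSupport hc
  have i2 : Integrable (cv (fun x => w x ^ 2) ρ) := hw2.integrable_convolution _ iρ
  have k : ∀ x, cv w ρ x ^ 2 ≤ cv (fun x => w x ^ 2) ρ x := fun x => by
    have a1 := cv_int hw hρ hc x
    have a2 := cv_int hw2.locallyIntegrable hρ hc x
    have a3 := iρ.comp_sub_left x
    have a4 : 0 ≤ ∫ t, (w t ^ 2 * ρ (x - t) - 2 * cv w ρ x * (w t * ρ (x - t)) +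
        cv w ρ x ^ 2 * ρ (x - t)) := integral_nonneg fun t =>
      (mul_nonneg (sq_nonneg (w t - cv w ρ x)) (h0 (x - t))).trans_eq (by ring)
    have a5 : Integrable fun t => w t ^ 2 * ρ (x - t) - 2 * cv w ρ x * (w t * ρ (x - t)) :=
      a2.sub (a1.const_mul _)
    rw [integral_add a5 (a3.const_mul _), integral_sub a2 (a1.const_mul _),
      integral_const_mul, integral_const_mul, integral_sub_left_eq_self, h1, ← cv_apply,
      ← cv_apply] at a4
    linarith
  have i3 : Integrable fun x => cv w ρ x ^ 2 := i2.mono'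
    ((hc.continuous_convolution_right _ hw hρ).pow 2).aestronglyMeasurable
    (.of_forall fun x => (Real.norm_of_nonneg (sq_nonneg _)).trans_le (k x))
  refine ⟨i3, (integral_mono i3 i2 k).trans_eq ((integral_convolution _ hw2 iρ).trans ?_)⟩
  rw [h1]
  exact mul_one _

omit [InnerProductSpace ℝ V] [FiniteDimensional ℝ V] [MeasurableSpace V] [BorelSpace V] in
theorem wt_cont : Continuous (wt : V → ℝ) := by
  unfold wt
  exact Continuous.div (by fun_prop) (by fun_prop) fun x => by positivity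

theorem loc {F : Type} [NormedAddCommGroup F] {u : V → F} (hu : AEStronglyMeasurable u volume)
    (hi : Integrable fun x => wt x * ‖u x‖ ^ 2) {K : Set V} (hK : IsCompact K) (h0 : 0 ∉ K) :
    MemLp u 2 (volume.restrict K) ∧ IntegrableOn u K := by
  have h1 : ∀ x ∈ K, wt x ≠ 0 := fun x hx => by
    have : 0 < ‖x‖ := norm_pos_iff.2 fun e => h0 (e ▸ hx)
    unfold wt
    positivity
  have h2 : MemLp u 2 (volume.restrict K) :=
    (memLp_two_iff_integrable_sq_norm hu.restrict).2 ((hi.integrableOn.continuousOn_mul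
      (wt_cont.continuousOn.inv₀ h1) hK).congr_fun
        (fun x hx => inv_mul_cancel_left₀ (h1 x hx) _) hK.measurableSet)
  have : IsFiniteMeasure (volume.restrict K) := isFiniteMeasure_restrict.2 hK.measure_lt_top.ne
  exact ⟨h2, h2.integrable one_le_two⟩

/-- The inequality passes to weak solutions. -/
theorem weak {ι : Type} [Fintype ι] (b : ι → V) {u χ h : V → ℝ} {W : ι → V → ℝ}
    (hu : AEStronglyMeasurable u volume) (hi : Integrable fun x => wt x * ‖u x‖ ^ 2)
    (heq : ∀ η : V → ℝ, ContDiff ℝ ∞ η → HasCompactSupport η → 0 ∉ tsupport η →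
      ∫ x, (∑ k, pd (b k) (pd (b k) η) x) * u x = 0)
    (hχ : ContDiff ℝ ∞ χ) (hW : ∀ k, ContDiff ℝ ∞ (W k)) {δ R : ℝ} (hδ : 0 < δ)
    (hs : ∀ x, χ x ≠ 0 ∨ h x ≠ 0 → 2 * δ ≤ ‖x‖ ∧ ‖x‖ ≤ R) (hc : Continuous h)
    (hh : ∀ x, ∑ k, (pd (b k) χ x ^ 2 + W k x ^ 2 + W k x * pd (b k) χ x -
      χ x * pd (b k) (W k) x) ≤ h x) : 0 ≤ ∫ x, h x * u x ^ 2 := by
  obtain ⟨A, hA⟩ : ∃ A : Set V, A = Metric.closedBall 0 (R + δ) \ Metric.ball 0 δ := ⟨_, rfl⟩
  have mA : ∀ x, x ∈ A ↔ ‖x‖ ≤ R + δ ∧ δ ≤ ‖x‖ := fun x => by simp [hA]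
  have cA : IsCompact A := hA ▸ (isCompact_closedBall _ _).diff Metric.isOpen_ball
  obtain ⟨l2, l1⟩ := loc hu hi cA fun h => by simpa [hδ.not_ge] using (mA 0).1 h
  have w1 := (l1.integrable_indicator cA.measurableSet).locallyIntegrable
  have w2 := ((memLp_indicator_iff_restrict cA.measurableSet).2 l2).integrable_sq
  have cs : ∀ {f : V → ℝ}, (∀ x, f x ≠ 0 → ‖x‖ ≤ R) → HasCompactSupport f := fun hf =>
    HasCompactSupport.intro (isCompact_closedBall 0 R) fun x hx =>
      by_contra fun h => hx (mem_closedBall_zero_iff.2 (hf x h))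
  obtain ⟨M, hM⟩ := (cs fun x hx => (hs x (.inr hx)).2).exists_bound_of_continuous hc
  let φ : ℕ → ContDiffBump (0 : V) := fun n =>
    ⟨δ * (1 / (n + 1)) / 2, δ * (1 / (n + 1)), by positivity, half_lt_self (by positivity)⟩
  have hφ : ∀ n, (φ n).rOut ≤ δ := fun n => mul_le_of_le_one_right hδ.le
    (div_le_one_of_le₀ (le_add_of_nonneg_left n.cast_nonneg) (by positivity))
  have y := fun n => young w1 w2 ((φ n).continuous_normed (μ := volume))
    (φ n).hasCompactSupport_normed (φ n).nonneg_normed (φ n).integral_normed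
  refine (fatou w2 (fun n => (y n).1) (fun n => (y n).2) ?_ hc.aestronglyMeasurable hM
    fun n => ?_).trans_eq (integral_congr_ae (.of_forall fun x => ?_))
  · refine (ContDiffBump.ae_convolution_tendsto_right_of_locallyIntegrable (φ := φ) (K := 2)
      (mul_zero δ ▸ tendsto_one_div_add_atTop_nhds_zero_nat.const_mul δ)
      (.of_forall fun n => (mul_div_cancel₀ _ two_ne_zero).ge) w1).mono fun x hx =>
        hx.congr fun n => ?_
    rw [convolution_lsmul_swap, cv_apply]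
    simp only [smul_eq_mul, mul_comm]
  · have s : ContDiff ℝ ∞ ((φ n).normed volume) := (φ n).contDiff_normed
    have c : HasCompactSupport ((φ n).normed volume) := (φ n).hasCompactSupport_normed
    refine cacc b hχ (c.contDiff_convolution_right _ w1 s) hW
      (cs fun x hx => (hs x (.inl hx)).2) (fun x hx => ?_) hh
    have hx' := hs x (.inl hx)
    have t0 : ∀ t, t ∉ A → x - t ∉ tsupport ((φ n).normed volume) := fun t ht h => by
      rw [(φ n).tsupport_normed_eq, mem_closedBall_zero_iff] at h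
      refine ht ((mA t).2 ⟨?_, ?_⟩)
      · linarith [hφ n, norm_le_norm_add_norm_sub x t]
      · linarith [hφ n, norm_le_norm_add_norm_sub' x t]
    have h1 := heq (fun t => (φ n).normed volume (x - t)) (s.comp (by fun_prop))
      (c.comp_homeomorph (Homeomorph.subLeft x)) fun h0 => by
        have h2 : ∀ᶠ t in 𝓝 (0 : V), ‖t‖ < δ :=
          continuous_norm.continuousAt.eventually_lt continuousAt_const (by simpa using hδ)
        exact notMem_tsupport_iff_eventuallyEq.2 (h2.mono fun t ht =>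
          image_eq_zero_of_notMem_tsupport (t0 t fun h => ((mA t).1 h).2.not_gt ht)) h0
    have e : ∀ k, pd (b k) (pd (b k) (cv (A.indicator u) ((φ n).normed volume))) x =
        ∫ t, A.indicator u t * pd (b k) (pd (b k) ((φ n).normed volume)) (x - t) := fun k => by
      rw [pd_cv w1 s c, pd_cv w1 (pd_sm s _) (pd_cs c _), cv_apply]
    refine (Finset.sum_congr rfl fun k _ => e k).trans ?_
    rw [← integral_finsetSum _ fun k _ =>
      cv_int w1 (pd_sm (pd_sm s _) _).continuous (pd_cs (pd_cs c _) _) x, ← h1]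
    refine integral_congr_ae (.of_forall fun t => ?_)
    simp only [pd_refl2 s, ← Finset.mul_sum]
    by_cases ht : t ∈ A
    · rw [Set.indicator_of_mem ht, mul_comm]
    · rw [Finset.sum_eq_zero fun k _ => pd_zero (fun h => t0 t ht (tsupport_pd _ _ h)) _,
        mul_zero, zero_mul]
  · by_cases h0 : h x = 0
    · simp only [h0, zero_mul]
    · have := hs x (.inr h0)
      simp only [Set.indicator_of_mem ((mA x).2 ⟨by linarith, by linarith⟩)]

omit [MeasurableSpace V] [BorelSpace V] in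
/-- The choice of the multipliers. -/
theorem mult (hD : 9 ≤ Module.finrank ℝ V) {c : V → ℝ} (hc : ContDiff ℝ ∞ c) :
    ∃ (χ : V → ℝ) (W : Fin (Module.finrank ℝ V) → V → ℝ), ContDiff ℝ ∞ χ ∧
      (∀ k, ContDiff ℝ ∞ (W k)) ∧ (∀ x, χ x ≠ 0 → c x ≠ 0) ∧
      ∀ x, ∑ k, (pd (stdOrthonormalBasis ℝ V k) χ x ^ 2 + W k x ^ 2 +
        W k x * pd (stdOrthonormalBasis ℝ V k) χ x - χ x * pd (stdOrthonormalBasis ℝ V k) (W k) x) ≤
        2 * (‖x‖ ^ 2 * ∑ k, pd (stdOrthonormalBasis ℝ V k) c x ^ 2 - c x ^ 2) * wt x := by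
  set b := stdOrthonormalBasis ℝ V
  obtain ⟨q, hq⟩ : ∃ q : V → ℝ, q = fun x => (1 + ‖x‖ ^ 2)⁻¹ := ⟨_, rfl⟩
  have s0 : ContDiff ℝ ∞ fun x : V => ‖x‖ ^ 2 := contDiff_norm_sq ℝ
  have s1 : ContDiff ℝ ∞ q := hq ▸ (contDiff_const.add s0).inv fun x => by positivity
  have s2 : ∀ k, ContDiff ℝ ∞ fun x : V => 2 * ⟪b k, x⟫ := fun k =>
    contDiff_const.mul (contDiff_const.inner ℝ contDiff_id)
  have d0 : ∀ k x, pd (b k) (fun x : V => ‖x‖ ^ 2) x = 2 * ⟪b k, x⟫ := fun k x => by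
    rw [pd_of (hasStrictFDerivAt_norm_sq x).hasFDerivAt]
    simp [real_inner_comm]
  have d2 : ∀ k x, pd (b k) (fun x : V => 2 * ⟪b k, x⟫) x = 2 := fun k x => by
    refine (pd_of ((innerSL ℝ (b k)).hasFDerivAt.const_mul 2) _).trans ?_
    simp
  have q1 : ∀ x, q x + ‖x‖ ^ 2 * q x = 1 := fun x => by
    rw [hq]
    field_simp
  have q0 : ∀ x, 0 < q x := fun x => by
    rw [hq]
    positivity
  have d1 : ∀ k x, pd (b k) q x = -(2 * ⟪b k, x⟫) * q x ^ 2 := fun k x => by
    have h1 := pd_add s1 (s0.mul s1) (b k) x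
    rw [pd_mul s0 s1, d0, funext q1, pd_of (hasFDerivAt_const 1 x),
      _root_.zero_apply] at h1
    linear_combination (-q x) * h1 - pd (b k) q x * q1 x
  refine ⟨fun x => c x * (‖x‖ ^ 2 * q x), fun k x => 2 * ⟪b k, x⟫ * (q x * c x),
    hc.mul (s0.mul s1), fun k => (s2 k).mul (s1.mul hc), fun x => left_ne_zero_of_mul,
    fun x => ?_⟩
  have e1 : ∑ k, ⟪b k, x⟫ ^ 2 = ‖x‖ ^ 2 := by
    simpa only [Real.norm_eq_abs, sq_abs] using b.sum_sq_norm_inner_right x
  have e2 : wt x = ‖x‖ ^ 2 * q x ^ 2 := by rw [wt, hq, inv_pow, div_eq_mul_inv]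
  have e3 : ∀ k, pd (b k) (fun x => c x * (‖x‖ ^ 2 * q x)) x ^ 2 +
      (2 * ⟪b k, x⟫ * (q x * c x)) ^ 2 +
      2 * ⟪b k, x⟫ * (q x * c x) * pd (b k) (fun x => c x * (‖x‖ ^ 2 * q x)) x -
      c x * (‖x‖ ^ 2 * q x) * pd (b k) (fun x => 2 * ⟪b k, x⟫ * (q x * c x)) x ≤
      2 * (‖x‖ ^ 2 * q x) ^ 2 * pd (b k) c x ^ 2 + 16 * (c x * q x) ^ 2 * ⟪b k, x⟫ ^ 2 -
        2 * (‖x‖ ^ 2 * (c x * q x) ^ 2) := fun k => by
    have h1 : pd (b k) (fun x => ‖x‖ ^ 2 * q x) x = 2 * ⟪b k, x⟫ * q x ^ 2 := by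
      rw [pd_mul s0 s1, d0, d1]
      linear_combination (-2 * ⟪b k, x⟫ * q x) * q1 x
    have h2 : q x ^ 2 ≤ 1 := pow_le_one₀ (q0 x).le (by
      linarith [q1 x, mul_nonneg (sq_nonneg ‖x‖) (q0 x).le])
    have h3 := mul_le_mul_of_nonneg_left h2 (sq_nonneg (c x * q x * ⟪b k, x⟫))
    have h4 := sq_nonneg (c x * (2 * ⟪b k, x⟫ * q x ^ 2) - pd (b k) c x * (‖x‖ ^ 2 * q x))
    have h5 : (c x * q x * ⟪b k, x⟫) ^ 2 * (q x + ‖x‖ ^ 2 * q x) =
        (c x * q x * ⟪b k, x⟫) ^ 2 := by rw [q1, mul_one]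
    rw [pd_mul hc (s0.mul s1), h1, pd_mul (s2 k) (s1.mul hc), pd_mul s1 hc, d1, d2]
    linarith
  refine (Finset.sum_le_sum fun k _ => e3 k).trans ?_
  have h9 : (9 : ℝ) ≤ Module.finrank ℝ V := by exact_mod_cast hD
  rw [Finset.sum_sub_distrib, Finset.sum_add_distrib, ← Finset.mul_sum, ← Finset.mul_sum, e1, e2,
    Finset.sum_const, Finset.card_univ, Fintype.card_fin, nsmul_eq_mul]
  linarith [mul_le_mul_of_nonneg_right h9
    (mul_nonneg (sq_nonneg ‖x‖) (sq_nonneg (c x * q x)))]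

omit [MeasurableSpace V] [BorelSpace V] in
theorem cut : ∃ (K : ℝ) (c : ℕ → V → ℝ), (∀ n, ContDiff ℝ ∞ (c n)) ∧
    (∀ n, ∃ δ R : ℝ, 0 < δ ∧ ∀ x ∈ tsupport (c n), 2 * δ ≤ ‖x‖ ∧ ‖x‖ ≤ R) ∧
    (∀ n x, |c n x| ≤ 1 ∧ ‖x‖ * ‖fderiv ℝ (c n) x‖ ≤ K) ∧
    ∀ x, x ≠ 0 → ∀ᶠ n in atTop, c n =ᶠ[𝓝 x] fun _ => 1 := by
  obtain ⟨K, hK⟩ := exists_cutoff V
  choose! χ s _ h01 h1 h0 hd using hK
  have hz : ∀ R > 0, ∀ x : V, 2 * R < ‖x‖ → χ R =ᶠ[𝓝 x] fun _ => 0 := fun R hR x hx =>
    (continuousAt_const.eventually_lt continuous_norm.continuousAt hx).mono fun y hy =>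
      h0 R hR y hy.le
  have hb : ∀ R > 0, ∀ x : V, ‖x‖ * ‖fderiv ℝ (χ R) x‖ ≤ 2 * K := fun R hR x => by
    have h2 : 0 ≤ K / R := (norm_nonneg _).trans (hd R hR x)
    have h3 : 2 * R * (K / R) = 2 * K := by field_simp
    rcases le_or_gt ‖x‖ (2 * R) with h | h
    · exact (mul_le_mul h (hd R hR x) (norm_nonneg _) (by positivity)).trans_eq h3
    · rw [(hz R hR x h).fderiv_eq, fderiv_fun_const, Pi.zero_apply, norm_zero, mul_zero, ← h3]
      positivity
  have p : ∀ n : ℕ, (0 : ℝ) < n + 1 := fun n => by positivity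
  have p' : ∀ n : ℕ, (0 : ℝ) < 1 / (n + 1) := fun n => by positivity
  refine ⟨4 * K, fun n x => χ (n + 1) x * (1 - χ (1 / (n + 1)) x),
    fun n => (s _ (p n)).mul (contDiff_const.sub (s _ (p' n))),
    fun n => ⟨1 / (n + 1) / 2, 2 * (n + 1), by positivity, ?_⟩, fun n x => ?_, fun x hx => ?_⟩
  · refine closure_minimal (t := {x : V | _ ≤ ‖x‖ ∧ ‖x‖ ≤ _}) (fun x hx => ⟨?_, ?_⟩)
      ((isClosed_le continuous_const continuous_norm).and
        (isClosed_le continuous_norm continuous_const))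
    · refine le_of_not_gt fun h => right_ne_zero_of_mul hx ?_
      rw [h1 _ (p' n) x (by linarith), sub_self]
    · exact le_of_not_gt fun h => left_ne_zero_of_mul hx (h0 _ (p n) x h.le)
  · have a1 := h01 _ (p n) x
    have a2 := h01 _ (p' n) x
    have a3 : |χ (n + 1) x| ≤ 1 := abs_le.2 ⟨by linarith, a1.2⟩
    have a4 : |1 - χ (1 / (n + 1)) x| ≤ 1 := abs_le.2 ⟨by linarith, by linarith⟩
    refine ⟨(abs_mul _ _).trans_le (mul_le_one₀ a3 (abs_nonneg _) a4), ?_⟩
    rw [((dAt (s _ (p n)) x).fun_mul ((dAt (s _ (p' n)) x).const_sub 1)).fderiv]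
    refine (mul_le_mul_of_nonneg_left (norm_add_le_of_le
      ((norm_smul_le _ _).trans (mul_le_of_le_one_left (norm_nonneg _) a3))
      ((norm_smul_le _ _).trans (mul_le_of_le_one_left (norm_nonneg _) a4))) (norm_nonneg _)).trans ?_
    rw [norm_neg]
    linarith [hb _ (p n) x, hb _ (p' n) x]
  · have a1 : ∀ᶠ n : ℕ in atTop, ‖x‖ < n := tendsto_natCast_atTop_atTop.eventually_gt_atTop _
    have a2 : ∀ᶠ n : ℕ in atTop, 1 / ((n : ℝ) + 1) < ‖x‖ / 2 :=
      tendsto_one_div_add_atTop_nhds_zero_nat.eventually_lt_const (half_pos (norm_pos_iff.2 hx))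
    filter_upwards [a1, a2] with n b1 b2
    filter_upwards [hz _ (p' n) x (by linarith),
      continuous_norm.continuousAt.eventually_lt continuousAt_const b1] with y c1 c2
    rw [c1, h1 _ (p n) y (by linarith), sub_zero, mul_one]

theorem real (hD : 9 ≤ Module.finrank ℝ V) {u : V → ℝ} (hu : AEStronglyMeasurable u volume)
    (hi : Integrable fun x => wt x * ‖u x‖ ^ 2)
    (heq : ∀ η : V → ℝ, ContDiff ℝ ∞ η → HasCompactSupport η → 0 ∉ tsupport η →
      ∫ x, (∑ k, pd (stdOrthonormalBasis ℝ V k) (pd (stdOrthonormalBasis ℝ V k) η) x) * u x = 0) :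
    ∀ᵐ x, u x = 0 := by
  set b := stdOrthonormalBasis ℝ V
  obtain ⟨K, c, s, hs, hb, ht⟩ := cut (V := V)
  have w0 : ∀ x : V, 0 ≤ wt x := fun x => by
    unfold wt
    positivity
  have hc : ∀ n, Continuous fun x => 2 * (‖x‖ ^ 2 * ∑ k, pd (b k) (c n) x ^ 2 - c n x ^ 2) * wt x :=
    fun n => (continuous_const.mul (((continuous_norm.pow 2).mul (continuous_finsetSum _ fun k _ =>
      (pd_sm (s n) _).continuous.pow 2)).sub ((s n).continuous.pow 2))).mul wt_cont
  have h1 : ∀ n, 0 ≤ ∫ x,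
      2 * (‖x‖ ^ 2 * ∑ k, pd (b k) (c n) x ^ 2 - c n x ^ 2) * wt x * u x ^ 2 := fun n => by
    obtain ⟨χ, W, s1, s2, h1, h2⟩ := mult hD (s n)
    obtain ⟨δ, R, hδ, h3⟩ := hs n
    refine weak b hu hi heq s1 s2 hδ (fun x hx => h3 x (by_contra fun h => ?_)) (hc n) h2
    rcases hx with hx | hx
    · exact h1 x hx (image_eq_zero_of_notMem_tsupport h)
    · exact hx (by simp [image_eq_zero_of_notMem_tsupport h, pd_zero h])
  have hi' : Integrable fun x => wt x * u x ^ 2 := by simpa only [Real.norm_eq_abs, sq_abs] using hi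
  have h2 := tendsto_integral_of_dominated_convergence (μ := volume)
    (F := fun n x => 2 * (‖x‖ ^ 2 * ∑ k, pd (b k) (c n) x ^ 2 - c n x ^ 2) * wt x * u x ^ 2)
    (f := fun x => -2 * (wt x * u x ^ 2))
    (fun x => 2 * (Module.finrank ℝ V * K ^ 2 + 1) * (wt x * u x ^ 2))
    (fun n => (hc n).aestronglyMeasurable.mul (hu.pow 2)) (hi'.const_mul _)
    (fun n => .of_forall fun x => ?_) (.of_forall fun x => ?_)
  · have h3 := ge_of_tendsto' h2 h1
    rw [integral_const_mul] at h3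
    have h4 := (integral_eq_zero_iff_of_nonneg (fun x => mul_nonneg (w0 x) (sq_nonneg _)) hi').1
      (le_antisymm (by linarith) (integral_nonneg fun x => mul_nonneg (w0 x) (sq_nonneg _)))
    have : Nontrivial V := Module.nontrivial_of_finrank_pos (R := ℝ) (by omega)
    filter_upwards [h4, Measure.ae_ne volume (0 : V)] with x hx h0
    have h5 : 0 < ‖x‖ := norm_pos_iff.2 h0
    exact pow_eq_zero_iff two_ne_zero |>.1 ((mul_eq_zero.1 hx).resolve_left (by
      unfold wt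
      positivity))
  · have a1 : ‖x‖ ^ 2 * ∑ k, pd (b k) (c n) x ^ 2 ≤ Module.finrank ℝ V * K ^ 2 := by
      rw [Finset.mul_sum]
      refine (Finset.sum_le_card_nsmul _ _ (K ^ 2) fun k _ => ?_).trans_eq (by simp)
      rw [← sq_abs (pd _ _ _), ← mul_pow]
      refine pow_le_pow_left₀ (by positivity) (le_trans (mul_le_mul_of_nonneg_left ?_
        (norm_nonneg _)) (hb n x).2) 2
      exact ((fderiv ℝ (c n) x).le_opNorm _).trans_eq (by rw [b.norm_eq_one, mul_one])
    have a2 : c n x ^ 2 ≤ 1 := (sq_le_one_iff_abs_le_one _).2 (hb n x).1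
    have a3 : 0 ≤ ‖x‖ ^ 2 * ∑ k, pd (b k) (c n) x ^ 2 := by positivity
    have a4 := mul_nonneg (w0 x) (sq_nonneg (u x))
    rw [mul_assoc, norm_mul, Real.norm_of_nonneg a4]
    exact mul_le_mul_of_nonneg_right
      (abs_le.2 ⟨by linarith, by linarith [sq_nonneg (c n x)]⟩) a4
  · by_cases hx : x = 0
    · simp [hx, wt]
    · refine tendsto_const_nhds.congr' ((ht x hx).mono fun n hn => ?_)
      simp only [pd, hn.fderiv_eq, hn.self_of_nhds]
      simp
      ring

end LvAux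

open LvAux in
theorem liouville {C : Submodule ℝ E} (hC : 9 ≤ Module.finrank ℝ C) {u : C → ℂ}
    (hu : AEStronglyMeasurable u volume)
    (hi : IntegrableOn (fun x : C => wt (x : E) * ‖u x‖ ^ 2) {x : C | (x : E) ∈ ({0}ᶜ : Set E)})
    (heq : ∀ η, SmR C η {0}ᶜ → ∫ x : C, ((lap C η x : ℝ) : ℂ) * u x = 0) :
    u =ᵐ[volume] 0 := by
  have hi' : Integrable fun x : C => wt x * ‖u x‖ ^ 2 :=
    hi.integrable_of_forall_notMem_eq_zero fun x hx => by
      rw [show (x : E) = 0 from not_not.1 hx]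
      simp [wt]
  have key : ∀ L : ℂ →L[ℝ] ℝ, ‖L‖ ≤ 1 → ∀ᵐ x, L (u x) = 0 := fun L hL => by
    have hm : AEStronglyMeasurable (fun x => L (u x)) volume :=
      L.continuous.comp_aestronglyMeasurable hu
    refine real hC hm (hi'.mono' (wt_cont.aestronglyMeasurable.mul (hm.norm.pow 2))
      (.of_forall fun x => ?_)) fun η s c h0 => ?_
    · have w0 : 0 ≤ wt x := by
        unfold wt
        positivity
      rw [Real.norm_of_nonneg (by positivity)]
      exact mul_le_mul_of_nonneg_left (pow_le_pow_left₀ (norm_nonneg _)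
        ((L.le_of_opNorm_le hL _).trans_eq (one_mul _)) 2) w0
    have e1 : ∀ f : C → ℝ, ContDiff ℝ ∞ f → ∀ (e : C) (y : E),
        fderiv ℝ (fun y => f (C.orthogonalProjectionOnto y)) y e =
          pd e f (C.orthogonalProjectionOnto y) := fun f hf e y => by
      refine (pd_of ((dAt hf _).comp y C.orthogonalProjectionOnto.hasFDerivAt) _).trans ?_
      simp [pd]
    have e2 : ∀ x : C, lap C (fun y => η (C.orthogonalProjectionOnto y)) x =
        ∑ k, pd (stdOrthonormalBasis ℝ C k) (pd (stdOrthonormalBasis ℝ C k) η) x := fun x => by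
      simp only [lap, onb, e1 η s, e1 _ (pd_sm s _)]
      simp
    have h1 := heq (fun y => η (C.orthogonalProjectionOnto y))
      ⟨s.comp C.orthogonalProjectionOnto.contDiff, (↑) '' tsupport η,
        c.isCompact.image continuous_subtype_val, by
          rintro _ ⟨x, hx, rfl⟩ h
          exact h0 ((Subtype.ext h : x = 0) ▸ hx), by
          rintro _ ⟨x, -, rfl⟩
          exact x.2, fun x hx h => image_eq_zero_of_notMem_tsupport fun h' =>
            h ⟨_, h', Submodule.starProjection_eq_self_iff.2 hx⟩⟩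
    simp only [e2, ← Complex.real_smul] at h1
    have i1 : Integrable fun x : C => (∑ k, pd (stdOrthonormalBasis ℝ C k)
        (pd (stdOrthonormalBasis ℝ C k) η) x) • u x :=
      ((loc hu hi' c.isCompact h0).2.continuousOn_smul (continuous_finsetSum _ fun k _ =>
        (pd_sm (pd_sm s _) _).continuous).continuousOn
          c.isCompact).integrable_of_forall_notMem_eq_zero fun x hx => by
        rw [Finset.sum_eq_zero fun k _ => pd_zero (fun h => hx (tsupport_pd _ _ h)) _, zero_smul]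
    have h2 := L.integral_comp_comm i1
    rw [h1, map_zero] at h2
    simpa only [map_smul, smul_eq_mul] using h2
  filter_upwards [key Complex.reCLM Complex.reCLM_norm.le, key Complex.imCLM Complex.imCLM_norm.le]
    with x h1 h2
  exact Complex.ext h1 h2

end Vale.Agent.P353
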