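import Vale.Agent.P353.Stmts
import Vale.Agent.P353.Lv

/-! Annular cutoffs and limits along ultrafilters. -/

noncomputable section

open MeasureTheory Filter Topology Complex Matrix
open scoped ContDiff RealInnerProductSpace

namespace Vale.Agent.P353

namespace Amp0Aux

variable {E : Type} [NormedAddCommGroup E] [InnerProductSpace ℝ E] [FiniteDimensional ℝ E]
  [MeasurableSpace E] [BorelSpace E]
variable {S : Type} [NormedAddCommGroup S] [InnerProductSpace ℝ S] [FiniteDimensional ℝ S]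
variable {F : Type} [NormedAddCommGroup F] [InnerProductSpace ℂ F] [FiniteDimensional ℂ F]
variable {θ : S →L[ℝ] F →L[ℂ] F} {U : Submodule ℝ E}

/-- closed annulus -/
def Ann (E : Type) [NormedAddCommGroup E] (r R : ℝ) : Set E := {x | r ≤ ‖x‖ ∧ ‖x‖ ≤ R}

theorem closed_Ann (r R : ℝ) : IsClosed (Ann E r R) :=
  (isClosed_le continuous_const continuous_norm).inter
    (isClosed_le continuous_norm continuous_const)

theorem compact_Ann (r R : ℝ) : IsCompact (Ann E r R) :=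
  (isCompact_closedBall (0 : E) R).of_isClosed_subset (closed_Ann r R)
    fun _ hx => mem_closedBall_zero_iff.2 hx.2

theorem wt_pos {x : E} (hx : x ≠ 0) : 0 < wt x := by
  have := norm_pos_iff.2 hx
  unfold wt
  positivity

theorem wt_nonneg (x : E) : 0 ≤ wt x := by
  unfold wt
  positivity

theorem wt_le (x : E) : wt x ≤ 1 := by
  unfold wt
  rw [div_le_one (by positivity)]
  nlinarith [sq_nonneg (‖x‖ ^ 2), sq_nonneg ‖x‖]

theorem wt_smooth : ContDiff ℝ ∞ (wt : E → ℝ) :=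
  (contDiff_norm_sq ℝ).div ((contDiff_const.add (contDiff_norm_sq ℝ)).pow 2) fun x => by positivity

theorem exists_ann {r R : ℝ} (hr : 0 < r) (hR : 0 < R) : ∃ f : E → ℝ, ContDiff ℝ ∞ f ∧
    (∀ x y, ‖x‖ = ‖y‖ → f x = f y) ∧ (∀ x, f x ^ 2 ≤ 1) ∧ (∀ x ∈ Ann E (2 * r) R, f x = 1) ∧
    ∀ x, x ∉ Ann E r (2 * R) → f x = 0 := by
  obtain ⟨K, hK⟩ := exists_cutoff E
  obtain ⟨a, a1, a2, a3, a4, a5, -⟩ := hK R hR
  obtain ⟨b, b1, b2, b3, b4, b5, -⟩ := hK r hr
  refine ⟨fun x => a x * (1 - b x), a1.mul (contDiff_const.sub b1),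
    fun x y h => by simp only [a2 x y h, b2 x y h], fun x => ?_,
    fun x hx => by simp only [a4 x hx.2, b5 x hx.1, sub_zero, mul_one], fun x hx => ?_⟩
  · have h1 := mul_nonneg (a3 x).1 (sub_nonneg.2 (b3 x).2)
    have h2 : a x * (1 - b x) ≤ 1 :=
      mul_le_one₀ (a3 x).2 (sub_nonneg.2 (b3 x).2) (by linarith [(b3 x).1])
    exact pow_le_one₀ h1 h2
  · rcases not_and_or.1 hx with h | h
    · simp only [b4 x (not_le.1 h).le, sub_self, mul_zero]
    · simp only [a5 x (not_le.1 h).le, zero_mul]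

theorem exists_sq {r : ℝ} (hr : 0 < r) : ∃ s : E → ℝ, ContDiff ℝ ∞ s ∧
    (∀ x y, ‖x‖ = ‖y‖ → s x = s y) ∧ (∀ x, 0 < s x) ∧ ∀ x, r ≤ ‖x‖ → s x ^ 2 = wt x := by
  obtain ⟨K, hK⟩ := exists_cutoff E
  obtain ⟨b, b1, b2, b3, b4, b5, -⟩ := hK (r / 2) (half_pos hr)
  have hp : ∀ x : E, 0 < wt x + b x := fun x => by
    by_cases hx : x = 0
    · rw [b4 x (by rw [hx, norm_zero]; positivity)]
      linarith [wt_nonneg x]
    · linarith [wt_pos hx, (b3 x).1]
  refine ⟨fun x => √(wt x + b x), (wt_smooth.add b1).sqrt fun x => (hp x).ne',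
    fun x y h => by simp only [wt, h, b2 x y h], fun x => Real.sqrt_pos.2 (hp x), fun x hx => ?_⟩
  rw [Real.sq_sqrt (hp x).le, b5 x (by linarith), add_zero]

theorem fderiv_ann {V : Type} [NormedAddCommGroup V] [NormedSpace ℝ V] {h : E → V} {r R : ℝ}
    (h0 : ∀ x, x ∉ Ann E r R → h x = 0) {x : E} (hx : x ∉ Ann E r R) : fderiv ℝ h x = 0 := by
  have e : h =ᶠ[𝓝 x] fun _ => 0 :=
    Filter.mem_of_superset ((closed_Ann r R).isOpen_compl.mem_nhds hx) fun y hy => h0 y hy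
  rw [e.fderiv_eq, fderiv_fun_const]
  rfl

theorem bound_ann {k : E → ℝ} (hk : Continuous k) {r R : ℝ} (hr : 0 < r)
    (h0 : ∀ x, x ∉ Ann E r R → k x = 0) : ∃ M, 0 ≤ M ∧ ∀ x, k x ≤ M * wt x := by
  have hp : ∀ x ∈ Ann E r R, 0 < wt x := fun x hx => wt_pos (norm_pos_iff.1 (hr.trans_le hx.1))
  obtain ⟨M, hM⟩ := (compact_Ann r R).exists_bound_of_continuousOn
    (hk.continuousOn.div wt_smooth.continuous.continuousOn fun x hx => (hp x hx).ne')
  refine ⟨max M 0, le_max_right _ _, fun x => ?_⟩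
  by_cases hx : x ∈ Ann E r R
  · rw [← div_le_iff₀ (hp x hx)]
    exact ((le_abs_self _).trans (hM x hx)).trans (le_max_left _ _)
  · rw [h0 x hx]
    exact mul_nonneg (le_max_right _ _) (wt_nonneg x)

theorem wnrm_le {ψ : E → F} (hψ : Sm U ψ) {w w' : E → ℝ} (hw : Continuous w) (hw' : Continuous w')
    {M : ℝ} (h : ∀ x, w x ≤ M * w' x) : wnrm U w ψ ≤ M * wnrm U w' ψ := by
  unfold wnrm
  rw [← integral_const_mul]
  refine integral_mono (hψ.integrable_wnrm hw.continuousOn)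
    ((hψ.integrable_wnrm hw'.continuousOn).const_mul M) fun x => ?_
  simp only [← mul_assoc]
  exact mul_le_mul_of_nonneg_right (h x) (by positivity)

theorem nrm_mulR (h : E → ℝ) (ψ : E → F) :
    nrm U (fun x => (h x : ℂ) • ψ x) = wnrm U (fun x => h x ^ 2) ψ := by
  simp only [nrm, wnrm, norm_smul, Complex.norm_real, mul_pow, Real.norm_eq_abs, sq_abs]

theorem wnrm_one (ψ : E → F) : wnrm U (fun _ => 1) ψ = nrm U ψ := by
  simp only [nrm, wnrm, one_mul]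

theorem wnrm_wt_nonneg (ψ : E → F) : 0 ≤ wnrm U wt ψ :=
  integral_nonneg fun x => mul_nonneg (wt_nonneg _) (by positivity)

theorem gU_smooth {h : E → ℝ} (hh : ContDiff ℝ ∞ h) : ContDiff ℝ ∞ (gU U h) :=
  ContDiff.sum fun k _ => (RsAux.contDiff_D hh _).smul contDiff_const

theorem gU_zero {h : E → ℝ} {x : E} (hx : fderiv ℝ h x = 0) : gU U h x = 0 := by
  simp [gU, hx]

theorem cut_bound (car : IsCAR θ) {h : E → ℝ} (hh : ContDiff ℝ ∞ h) {r R : ℝ} (hr : 0 < r)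
    (h0 : ∀ x, x ∉ Ann E r R → h x = 0) : ∃ M, 0 ≤ M ∧ ∀ (s : Fin 16 → E →L[ℝ] S)
      (β : Fin 16 → E → S), (∀ α, ContDiff ℝ ∞ (β α)) → Iso U s β → ∀ ψ : E → F, Sm U ψ →
      nrm U (fun x => (h x : ℂ) • ψ x) + en θ U 1 s β (fun x => (h x : ℂ) • ψ x) ≤
        M * (en θ U 1 s β ψ + wnrm U wt ψ) := by
  have c1 : Continuous fun x => h x ^ 2 := hh.continuous.pow 2
  have c2 : Continuous fun x => ‖gU U h x‖ ^ 2 := (gU_smooth hh).continuous.norm.pow 2
  obtain ⟨A, hA, a⟩ := bound_ann (R := R) c1 hr fun x hx => by simp [h0 x hx]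
  obtain ⟨B, hB, b⟩ := bound_ann (R := R) c2 hr fun x hx => by simp [gU_zero (fderiv_ann h0 hx)]
  refine ⟨2 * A + 16 * B, by positivity, fun s β hβ hI ψ hψ => ?_⟩
  have e1 := car.en_mulR_le 1 hβ hI hψ hh
  have e2 := wnrm_le hψ c1 wt_smooth.continuous a
  have e3 := wnrm_le hψ c2 wt_smooth.continuous b
  have e4 : ∑ α, wnrm U (fun x => h x ^ 2) (dop θ U 1 (s α) (β α) ψ) ≤ A * en θ U 1 s β ψ := by
    rw [en, Finset.mul_sum]
    refine Finset.sum_le_sum fun α _ => ?_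
    rw [← wnrm_one]
    exact wnrm_le (hψ.dop 1 _ (hβ α)) c1 continuous_const fun x =>
      (a x).trans (mul_le_mul_of_nonneg_left (wt_le x) hA)
  have p1 := en_nonneg (θ := θ) (U := U) 1 s β ψ
  have p2 := wnrm_wt_nonneg (U := U) ψ
  rw [nrm_mulR]
  nlinarith [mul_nonneg hA p2, mul_nonneg hB p1]

theorem clm_bound {a : E → F →L[ℂ] F} (ha : ContDiff ℝ ∞ a) (hc : HasCompactSupport a) :
    ∃ M, 0 ≤ M ∧ ∀ φ : E → F, Sm U φ → nrm U (fun x => a x (φ x)) ≤ M * nrm U φ ∧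
      grad U (fun x => a x (φ x)) ≤ M * (nrm U φ + grad U φ) := by
  obtain ⟨A, hA⟩ := ha.continuous.bounded_above_of_compact_support hc
  obtain ⟨B, hB⟩ := (ha.continuous_fderiv (by simp)).bounded_above_of_compact_support (hc.fderiv ℝ)
  have hA0 : 0 ≤ A := (norm_nonneg _).trans (hA 0)
  have hB0 : 0 ≤ B := (norm_nonneg _).trans (hB 0)
  refine ⟨2 * A ^ 2 + 2 * B ^ 2 * Module.finrank ℝ U, by positivity, fun φ hφ => ⟨?_, ?_⟩⟩
  · have i1 := hφ.integrable_wnrm (w := fun _ => 1) continuousOn_const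
    simp only [one_mul] at i1
    unfold nrm
    rw [← integral_const_mul]
    refine integral_mono_of_nonneg (.of_forall fun x => by positivity) (i1.const_mul _)
      (.of_forall fun x => ?_)
    have h1 : ‖a x (φ x)‖ ≤ A * ‖φ x‖ := (a x).le_of_opNorm_le (hA x) _
    have h2 := pow_le_pow_left₀ (norm_nonneg _) h1 2
    have h3 : 0 ≤ (A ^ 2 + 2 * B ^ 2 * Module.finrank ℝ U) * ‖φ x‖ ^ 2 := by positivity
    simp only
    nlinarith
  · have i1 := hφ.integrable_wnrm (w := fun _ => 1) continuousOn_const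
    have i2 := hφ.integrable_wgsq (w := fun _ => 1) continuousOn_const
    simp only [one_mul] at i1 i2
    unfold nrm grad
    rw [← integral_add i1 i2, ← integral_const_mul]
    refine integral_mono_of_nonneg (.of_forall fun x => gsq_nonneg _ _ _) ((i1.add i2).const_mul _)
      (.of_forall fun x => ?_)
    have hd : ∀ v, fderiv ℝ (fun y => a y (φ y)) x v
        = fderiv ℝ a x v (φ x) + a x (fderiv ℝ φ x v) := fun v => by
      have h1 := (((ContinuousLinearMap.restrictScalarsL ℂ F F ℝ ℝ).hasFDerivAt.comp (x : E)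
        (ha.differentiable (by simp) x).hasFDerivAt).clm_apply
        (hφ.1.differentiable (by simp) x).hasFDerivAt).fderiv
      have h2 : fderiv ℝ (fun y => a y (φ y)) x = _ := h1
      rw [h2, add_comm]
      rfl
    have hk : ∀ k, ‖fderiv ℝ (fun y => a y (φ y)) x (onb U k)‖ ^ 2 ≤
        2 * B ^ 2 * ‖φ x‖ ^ 2 + 2 * A ^ 2 * ‖fderiv ℝ φ x (onb U k)‖ ^ 2 := fun k => by
      have n1 : ‖onb U k‖ = 1 := (stdOrthonormalBasis ℝ U).orthonormal.1 k
      have h1 : ‖fderiv ℝ a x (onb U k)‖ ≤ B := by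
        have := (fderiv ℝ a x).le_of_opNorm_le (hB x) (onb U k)
        rwa [n1, mul_one] at this
      have h2 := pow_le_pow_left₀ (norm_nonneg _)
        ((fderiv ℝ a x (onb U k)).le_of_opNorm_le h1 (φ x)) 2
      have h3 := pow_le_pow_left₀ (norm_nonneg _)
        ((a x).le_of_opNorm_le (hA x) (fderiv ℝ φ x (onb U k))) 2
      rw [hd]
      refine (Ga1cAux.norm_add_sq_le _ _).trans ?_
      rw [mul_pow] at h2 h3
      linarith
    have h4 := Finset.sum_le_sum fun k (_ : k ∈ Finset.univ) => hk k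
    rw [Finset.sum_add_distrib, Finset.sum_const, Finset.card_univ, Fintype.card_fin,
      ← Finset.mul_sum, nsmul_eq_mul] at h4
    have h5 : 0 ≤ 2 * A ^ 2 * ‖φ x‖ ^ 2 := by positivity
    have h6 : 0 ≤ 2 * B ^ 2 * Module.finrank ℝ U * gsq U φ x :=
      mul_nonneg (by positivity) (gsq_nonneg _ _ _)
    simp only
    unfold gsq at h6 ⊢
    nlinarith

theorem tz {x : ℕ → ℂ} {y : ℕ → ℝ} {C : ℝ} (h : ∀ ε > 0, ∀ᶠ n in atTop, ‖x n‖ ^ 2 ≤ ε * y n)
    (hy : ∀ᶠ n in atTop, y n ≤ C) : Tendsto x atTop (𝓝 0) := by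
  rw [NormedAddGroup.tendsto_nhds_zero]
  intro ε hε
  have hC : 0 < |C| + 1 := by positivity
  filter_upwards [h (ε ^ 2 / (|C| + 1)) (by positivity), hy] with n h1 h2
  refine lt_of_pow_lt_pow_left₀ 2 hε.le (h1.trans_lt ?_)
  rw [div_mul_eq_mul_div, div_lt_iff₀ hC]
  exact mul_lt_mul_of_pos_left (by linarith [le_abs_self C]) (by positivity)

theorem ulim {x : ℕ → ℂ} {M : ℝ} (h : ∀ᶠ n in atTop, ‖x n‖ ^ 2 ≤ M) {𝒰 : Ultrafilter ℕ}
    (h𝒰 : (𝒰 : Filter ℕ) ≤ atTop) : Tendsto x 𝒰 (𝓝 (limUnder (𝒰 : Filter ℕ) x)) := by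
  have h1 : ∀ᶠ n in (𝒰 : Filter ℕ), x n ∈ Metric.closedBall (0 : ℂ) √M :=
    (h.filter_mono h𝒰).mono fun n hn => mem_closedBall_zero_iff.2 (Real.le_sqrt_of_sq_le hn)
  obtain ⟨a, -, ha⟩ := (isCompact_closedBall (0 : ℂ) √M).ultrafilter_le_nhds (𝒰.map x)
    (le_principal_iff.2 h1)
  exact tendsto_nhds_limUnder ⟨a, ha⟩

theorem exists_rad {C : Submodule ℝ E} {Z : Set E} (hZ : (0 : E) ∉ Z) {η : E → ℝ}
    (h : SmR C η Z) : ∃ r R : ℝ, 0 < r ∧ 0 < R ∧ ∀ y ∈ C, y ∉ Ann E (3 * r) R → η y = 0 := by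
  obtain ⟨-, K, hK, hKZ, -, hz⟩ := h
  obtain ⟨R, hR, h1⟩ := hK.isBounded.exists_pos_norm_le
  obtain ⟨r, hr, h2⟩ := Metric.isOpen_iff.1 hK.isClosed.isOpen_compl 0 fun h => hZ (hKZ h)
  refine ⟨r / 3, R, by positivity, hR, fun y hy hn => hz y hy fun hyK => hn ⟨?_, h1 y hyK⟩⟩
  by_contra hlt
  exact h2 (mem_ball_zero_iff.2 (by linarith)) hyK

theorem fderiv_off {C : Submodule ℝ E} {η : E → ℝ} (hη : ContDiff ℝ ∞ η) {K : Set E}
    (hK : IsClosed K) (h : ∀ y ∈ C, y ∉ K → η y = 0) {v : E} (hv : v ∈ C) :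
    ∀ y ∈ C, y ∉ K → fderiv ℝ η y v = 0 := fun y hy hn => by
  rw [fderiv_congr_on (f' := fun _ => (0 : ℝ)) (hη.differentiable (by simp) y)
    (differentiableAt_const _) hy hv
    (Filter.mem_of_superset (hK.isOpen_compl.mem_nhds hn) fun z hz hz' => h z hz' hz)]
  simp

theorem near_ann {r R : ℝ} (hr : 0 < r) {x y : E} (hy : y ∈ Ann E (3 * r) R)
    (h : ‖x - y‖ ≤ r / 2) : ∀ᶠ z in 𝓝 x, z ∈ Ann E (2 * r) (R + r) := by
  filter_upwards [Metric.ball_mem_nhds x (half_pos hr)] with z hz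
  rw [mem_ball_iff_norm] at hz
  have h1 := norm_sub_norm_le z x
  have h2 := norm_sub_norm_le x y
  have h3 := norm_sub_norm_le x z
  have h4 := norm_sub_norm_le y x
  rw [norm_sub_rev] at h3 h4
  exact ⟨by linarith [hy.1], by linarith [hy.2]⟩

end Amp0Aux

end Vale.Agent.P353
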