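import Mathlib

/-! Fourier integrals of integrable functions: injectivity and a maximum principle. -/

noncomputable section

open MeasureTheory Filter Topology Complex
open scoped ContDiff RealInnerProductSpace FourierTransform

namespace Vale.Agent.P353.FvAux

variable {V : Type} [NormedAddCommGroup V] [InnerProductSpace ℝ V] [FiniteDimensional ℝ V]
  [MeasurableSpace V] [BorelSpace V]

/-- plane wave -/
def ew (ξ x : V) : ℂ := cexp ((⟪ξ, x⟫ : ℝ) * I)

omit [FiniteDimensional ℝ V] [MeasurableSpace V] [BorelSpace V] in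
theorem norm_ew (ξ x : V) : ‖ew ξ x‖ = 1 := norm_exp_ofReal_mul_I _

omit [FiniteDimensional ℝ V] [MeasurableSpace V] [BorelSpace V] in
theorem continuous_ew (ξ : V) : Continuous (ew ξ) := by
  unfold ew
  fun_prop

theorem hasDerivAt_cexp (p q t : ℝ) : HasDerivAt (fun s : ℝ => cexp ((p + s * q : ℝ) * I))
    (q * I * cexp ((p + t * q : ℝ) * I)) t := by
  have h : HasDerivAt (fun s : ℝ => p + s * q) q t := by
    simpa using ((hasDerivAt_id t).mul_const q).const_add p
  have := (h.ofReal_comp.mul_const I).cexp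
  rwa [mul_comm] at this

/-- Fourier integral -/
def Ft (w : V → ℂ) (ξ : V) : ℂ := ∫ x, ew ξ x * w x

theorem integrable_ew {w : V → ℂ} (hw : Integrable w) (ξ : V) :
    Integrable fun x => ew ξ x * w x :=
  hw.bdd_mul (c := 1) (continuous_ew ξ).aestronglyMeasurable
    (Eventually.of_forall fun x => (norm_ew ξ x).le)

theorem ft_inj {w : V → ℂ} (hw : Integrable w) (h : ∀ ξ, Ft w ξ = 0) : ∀ᵐ x, w x = 0 := by
  have h0 : ∀ ξ, 𝓕 w ξ = 0 := fun ξ => by
    rw [Real.fourier_eq', ← h ((-2 * Real.pi) • ξ), Ft]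
    simp only [ew, real_inner_smul_left, smul_eq_mul, real_inner_comm ξ]
  refine ae_eq_zero_of_integral_contDiff_smul_eq_zero hw.locallyIntegrable fun g hg hs => ?_
  let φ : SchwartzMap V ℂ := (hs.comp_left (g := fun r : ℝ => (r : ℂ)) rfl).toSchwartzMap
    (ofRealCLM.contDiff.comp hg)
  have e := VectorFourier.integral_fourierIntegral_smul_eq_flip (L := innerₗ V)
    Real.continuous_fourierChar continuous_inner hw ((𝓕⁻ φ).integrable (μ := volume))
  have e1 : ∀ ξ, VectorFourier.fourierIntegral Real.fourierChar volume (innerₗ V) w ξ = 0 := h0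
  have e2 : ∀ x, VectorFourier.fourierIntegral Real.fourierChar volume (innerₗ V).flip
      (𝓕⁻ φ : SchwartzMap V ℂ) x = (g x : ℂ) := fun x => by
    rw [flip_innerₗ]
    have : (𝓕 (𝓕⁻ φ) : SchwartzMap V ℂ) x = φ x := by
      rw [FourierTransform.fourier_fourierInv_eq]
    exact this
  simp only [e1, e2, zero_mul, integral_zero, smul_eq_mul] at e
  rw [e]
  simp only [real_smul, mul_comm]

theorem continuous_ft {w : V → ℂ} (hw : Integrable w) : Continuous (Ft w) := by
  refine continuous_of_dominated (bound := fun x => ‖w x‖)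
    (fun ξ => (integrable_ew hw ξ).aestronglyMeasurable)
    (fun ξ => Eventually.of_forall fun x => by rw [norm_mul, norm_ew, one_mul]) hw.norm
    (Eventually.of_forall fun x => ?_)
  unfold ew
  fun_prop

theorem integrable_inner {w : V → ℂ} (hw : Integrable w) (hw' : Integrable fun x => ‖x‖ * ‖w x‖)
    (v : V) : Integrable fun x => ((⟪v, x⟫ : ℝ) * I) * w x := by
  refine (hw'.const_mul ‖v‖).mono' (AEStronglyMeasurable.mul (by fun_prop) hw.1)
    (Eventually.of_forall fun x => ?_)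
  rw [norm_mul, norm_mul, norm_I, mul_one, norm_real, ← mul_assoc]
  gcongr
  exact abs_real_inner_le_norm v x

theorem hasDerivAt_ft {w : V → ℂ} (hw : Integrable w) (hw' : Integrable fun x => ‖x‖ * ‖w x‖)
    (ξ v : V) : HasDerivAt (fun t : ℝ => Ft w (ξ + t • v))
      (Ft (fun x => ((⟪v, x⟫ : ℝ) * I) * w x) ξ) 0 := by
  have h := (hasDerivAt_integral_of_dominated_loc_of_deriv_le (μ := volume) (x₀ := (0 : ℝ))
    (F := fun t x => ew (ξ + t • v) x * w x)
    (F' := fun t x => ew (ξ + t • v) x * (((⟪v, x⟫ : ℝ) * I) * w x))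
    (bound := fun x => ‖((⟪v, x⟫ : ℝ) * I) * w x‖) univ_mem
    (Eventually.of_forall fun t => (integrable_ew hw _).1) (integrable_ew hw _)
    (integrable_ew (integrable_inner hw hw' v) _).1
    (Eventually.of_forall fun x t _ => by rw [norm_mul, norm_ew, one_mul])
    (integrable_inner hw hw' v).norm (Eventually.of_forall fun x t _ => ?_)).2
  · simpa [Ft] using h
  · have := (hasDerivAt_cexp ⟪ξ, x⟫ ⟪v, x⟫ t).mul_const (w x)
    simp only [ew, inner_add_left, real_inner_smul_left]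
    rwa [mul_comm _ (cexp _), mul_assoc] at this

omit [MeasurableSpace V] [BorelSpace V] in
/-- a maximum principle for a transport equation -/
theorem max_principle {f : V → ℂ} (hf : Continuous f) (B : V → V) (c : V → ℝ)
    (hB : ∀ ξ, ξ ≠ 0 → 0 < ⟪ξ, B ξ⟫) (hc : ∀ ξ, ξ ≠ 0 → 0 < c ξ)
    (hd : ∀ ξ, HasDerivAt (fun t : ℝ => f (ξ + t • (-B ξ))) (c ξ * f ξ) 0) (h0 : f 0 = 0)
    (ξ : V) : f ξ = 0 := by
  obtain ⟨η, hη, hmax⟩ := (isCompact_closedBall (0 : V) ‖ξ‖).exists_isMaxOn
    ⟨ξ, by simp⟩ (hf.norm.pow 2).continuousOn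
  suffices h : f η = 0 by
    have : ‖f ξ‖ ^ 2 ≤ ‖f η‖ ^ 2 := hmax (show ξ ∈ Metric.closedBall (0 : V) ‖ξ‖ by simp)
    rw [h] at this
    simpa using this
  by_contra hne
  have hη0 : η ≠ 0 := fun h => hne (h ▸ h0)
  have hp := hB η hη0
  have h1 := (hd η).norm_sq
  have h2 : 0 < 2 * inner ℝ (f (η + (0 : ℝ) • (-B η))) ((c η : ℂ) * f η) := by
    rw [zero_smul, add_zero, ← real_smul, real_inner_smul_right, real_inner_self_eq_norm_sq]
    have := hc η hη0
    have := norm_pos_iff.2 hne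
    positivity
  have h3 := (hasDerivAt_iff_tendsto_slope_left_right.1 h1).2.eventually (lt_mem_nhds h2)
  have h4 : ∀ᶠ t : ℝ in 𝓝[>] 0, t * ‖B η‖ ^ 2 < 2 * ⟪η, B η⟫ := by
    refine eventually_nhdsWithin_of_eventually_nhds ?_
    exact (continuous_id.mul continuous_const).continuousAt.eventually_lt continuousAt_const
      (by simpa using hp)
  obtain ⟨t, ht1, ht2, ht3⟩ := (h3.and (h4.and self_mem_nhdsWithin)).exists
  have ht : 0 < t := ht3
  have h5 : η + t • (-B η) ∈ Metric.closedBall (0 : V) ‖ξ‖ := by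
    rw [mem_closedBall_zero_iff] at hη ⊢
    refine le_trans (abs_le_of_sq_le_sq' ?_ (norm_nonneg _)).2 hη
    rw [norm_add_sq_real, real_inner_smul_right, inner_neg_right, norm_smul, norm_neg, mul_pow,
      Real.norm_eq_abs, sq_abs]
    nlinarith
  have h6 : ‖f (η + t • (-B η))‖ ^ 2 ≤ ‖f η‖ ^ 2 := hmax h5
  rw [slope_def_field, zero_smul, add_zero, sub_zero] at ht1
  have := (div_pos_iff_of_pos_right ht).1 ht1
  linarith

theorem eq_zero_of_transport {w : V → ℂ} (hw : Integrable w)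
    (hw' : Integrable fun x => ‖x‖ * ‖w x‖) (B : V → V) (c : V → ℝ)
    (hB : ∀ ξ, ξ ≠ 0 → 0 < ⟪ξ, B ξ⟫) (hc : ∀ ξ, ξ ≠ 0 → 0 < c ξ)
    (h : ∀ ξ, ∫ x, ew ξ x * ((c ξ + (⟪B ξ, x⟫ : ℝ) * I) * w x) = 0) (h0 : ∫ x, w x = 0) :
    ∀ᵐ x, w x = 0 := by
  refine ft_inj hw (max_principle (continuous_ft hw) B c hB hc (fun ξ => ?_) ?_)
  · have h1 := hasDerivAt_ft hw hw' ξ (-B ξ)
    have h2 := h ξ
    simp only [add_mul _ _ (w _), mul_add] at h2
    rw [integral_add (integrable_ew (hw.const_mul _) ξ)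
      (integrable_ew (integrable_inner hw hw' _) ξ)] at h2
    have e : Ft (fun x => ((⟪-B ξ, x⟫ : ℝ) * I) * w x) ξ = c ξ * Ft w ξ := by
      rw [Ft, Ft, ← integral_const_mul]
      simp only [mul_left_comm (c ξ : ℂ)]
      rw [eq_neg_of_add_eq_zero_left h2, ← integral_neg]
      simp only [inner_neg_left, ofReal_neg, neg_mul, mul_neg]
    rwa [e] at h1
  · simpa [Ft, ew] using h0

end Vale.Agent.P353.FvAux
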