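import Vale.Agent.P353.So
import Vale.Agent.P353.FvAux

/-! Ground state of the harmonic oscillator among weak solutions. -/

noncomputable section

open MeasureTheory Filter Topology Complex Matrix
open scoped ContDiff RealInnerProductSpace

namespace Vale.Agent.P353

variable {E : Type} [NormedAddCommGroup E] [InnerProductSpace ℝ E] [FiniteDimensional ℝ E]
  [MeasurableSpace E] [BorelSpace E]

namespace FvAux

section Calc

omit [FiniteDimensional ℝ E] [MeasurableSpace E] [BorelSpace E]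

/-- directional derivative -/
def D (v : E) (f : E → ℝ) (x : E) : ℝ := fderiv ℝ f x v

theorem contDiff_D {f : E → ℝ} (hf : ContDiff ℝ ∞ f) (v : E) : ContDiff ℝ ∞ (D v f) :=
  (hf.fderiv_right (m := ∞) le_rfl).clm_apply contDiff_const

theorem D_mul {f g : E → ℝ} (hf : ContDiff ℝ ∞ f) (hg : ContDiff ℝ ∞ g) (v : E) :
    D v (fun x => f x * g x) = fun x => f x * D v g x + g x * D v f x := by
  funext x
  rw [D, fderiv_fun_mul (hf.differentiable (by simp) x) (hg.differentiable (by simp) x)]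
  rfl

theorem D_add {f g : E → ℝ} (hf : ContDiff ℝ ∞ f) (hg : ContDiff ℝ ∞ g) (v : E) :
    D v (fun x => f x + g x) = fun x => D v f x + D v g x := by
  funext x
  rw [D, fderiv_fun_add (hf.differentiable (by simp) x) (hg.differentiable (by simp) x)]
  rfl

theorem D_D_mul {f g : E → ℝ} (hf : ContDiff ℝ ∞ f) (hg : ContDiff ℝ ∞ g) (v x : E) :
    D v (D v fun x => f x * g x) x =
      f x * D v (D v g) x + 2 * (D v f x * D v g x) + g x * D v (D v f) x := by
  rw [D_mul hf hg, D_add (hf.mul (contDiff_D hg v)) (hg.mul (contDiff_D hf v)),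
    D_mul hf (contDiff_D hg v), D_mul hg (contDiff_D hf v)]
  ring

theorem D_scale {f : E → ℝ} (hf : ContDiff ℝ ∞ f) (r : ℝ) (v : E) :
    D v (fun x => f (r • x)) = fun x => r * D v f (r • x) := by
  funext x
  have h := ((hf.differentiable (by simp) (r • x)).hasFDerivAt.comp x
    ((hasFDerivAt_id x).const_smul r)).fderiv
  rw [D, show (fun x => f (r • x)) = f ∘ HSMul.hSMul r from rfl, h]
  simp [D]

theorem D_const_mul {f : E → ℝ} (hf : ContDiff ℝ ∞ f) (r : ℝ) (v : E) :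
    D v (fun x => r * f x) = fun x => r * D v f x := by
  funext x
  rw [D, fderiv_const_mul (hf.differentiable (by simp) x)]
  rfl

theorem D_inner {c c' : ℝ → ℝ} (hc : ∀ t, HasDerivAt c (c' t) t) (ξ v : E) :
    D v (fun x => c ⟪ξ, x⟫) = fun x => ⟪ξ, v⟫ * c' ⟪ξ, x⟫ := by
  funext x
  have h := ((hc ⟪ξ, x⟫).comp_hasFDerivAt x (innerSL ℝ ξ).hasFDerivAt).fderiv
  rw [D, show (fun x => c ⟪ξ, x⟫) = c ∘ inner ℝ ξ from rfl, h]
  simp [mul_comm]

end Calc

omit [MeasurableSpace E] [BorelSpace E] in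
theorem lap_mul (C : Submodule ℝ E) {f g : E → ℝ} (hf : ContDiff ℝ ∞ f) (hg : ContDiff ℝ ∞ g)
    (x : E) : lap C (fun x => f x * g x) x =
      f x * lap C g x + 2 * ∑ k, D (onb C k) f x * D (onb C k) g x + g x * lap C f x := by
  have : lap C (fun x => f x * g x) x = ∑ k, D (onb C k) (D (onb C k) fun x => f x * g x) x := rfl
  rw [this]
  simp only [D_D_mul hf hg, Finset.sum_add_distrib, ← Finset.mul_sum]
  rfl

omit [MeasurableSpace E] [BorelSpace E] in
/-- cutoff functions with uniformly bounded first and second derivatives -/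
theorem exists_cut (C : Submodule ℝ E) : ∃ (K : ℝ) (χ : ℕ → E → ℝ),
    (∀ n, ContDiff ℝ ∞ (χ n) ∧ HasCompactSupport (χ n)) ∧ (∀ n x, |χ n x| ≤ 1) ∧
    (∀ n x k, |D (onb C k) (χ n) x| ≤ K) ∧ (∀ n x, |lap C (χ n) x| ≤ K) ∧
    ∀ x, ∀ᶠ n in atTop, χ n =ᶠ[𝓝 x] fun _ => 1 := by
  let b : ContDiffBump (0 : E) := ⟨1, 2, one_pos, one_lt_two⟩
  have hb : ContDiff ℝ ∞ b := b.contDiff
  have hs : ∀ (f : E → ℝ) (v : E), HasCompactSupport f → HasCompactSupport (D v f) :=
    fun f v h => h.fderiv_apply ℝ v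
  have h1 : ∀ k, ∃ K, ∀ x, |D (onb C k) b x| ≤ K := fun k =>
    (contDiff_D hb _).continuous.bounded_above_of_compact_support (hs _ _ b.hasCompactSupport)
  have h2 : ∀ k, ∃ K, ∀ x, |D (onb C k) (D (onb C k) b) x| ≤ K := fun k =>
    (contDiff_D (contDiff_D hb _) _).continuous.bounded_above_of_compact_support
      (hs _ _ (hs _ _ b.hasCompactSupport))
  choose K1 hK1 using h1
  choose K2 hK2 using h2
  have p1 : ∀ k, 0 ≤ K1 k := fun k => (abs_nonneg _).trans (hK1 k 0)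
  have p2 : ∀ k, 0 ≤ K2 k := fun k => (abs_nonneg _).trans (hK2 k 0)
  have hr : ∀ n : ℕ, 0 < ((n : ℝ) + 1)⁻¹ ∧ ((n : ℝ) + 1)⁻¹ ≤ 1 := fun n =>
    ⟨by positivity, inv_le_one_of_one_le₀ (by simp)⟩
  have hsm : ∀ (f : E → ℝ) (r : ℝ), ContDiff ℝ ∞ f → ContDiff ℝ ∞ fun x => f (r • x) :=
    fun f r h => h.comp (contDiff_id.const_smul r)
  refine ⟨∑ k, K1 k + ∑ k, K2 k, fun n x => b (((n : ℝ) + 1)⁻¹ • x),
    fun n => ⟨hsm _ _ hb, b.hasCompactSupport.comp_smul (hr n).1.ne'⟩,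
    fun n x => by rw [abs_of_nonneg b.nonneg]; exact b.le_one, fun n x k => ?_, fun n x => ?_,
    fun x => ?_⟩
  · rw [D_scale hb, abs_mul, abs_of_pos (hr n).1]
    have e1 := Finset.single_le_sum (fun k _ => p1 k) (Finset.mem_univ k)
    have e2 := Finset.sum_nonneg fun k (_ : k ∈ Finset.univ) => p2 k
    have e3 := mul_le_mul (hr n).2 (hK1 k (((n : ℝ) + 1)⁻¹ • x)) (abs_nonneg _) zero_le_one
    linarith
  · have e0 : lap C (fun x => b (((n : ℝ) + 1)⁻¹ • x)) x =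
        ∑ k, D (onb C k) (D (onb C k) fun x => b (((n : ℝ) + 1)⁻¹ • x)) x := rfl
    have e2 := Finset.sum_nonneg fun k (_ : k ∈ Finset.univ) => p1 k
    rw [e0]
    refine (Finset.abs_sum_le_sum_abs _ _).trans
      ((Finset.sum_le_sum fun k _ => ?_).trans (le_add_of_nonneg_left e2))
    rw [D_scale hb, D_const_mul (hsm _ _ (contDiff_D hb _)), D_scale (contDiff_D hb _), abs_mul,
      abs_mul, abs_of_pos (hr n).1]
    have e3 := mul_le_mul (hr n).2 (hK2 k (((n : ℝ) + 1)⁻¹ • x)) (abs_nonneg _) zero_le_one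
    have e4 := mul_le_mul (hr n).2 e3 (by have := (hr n).1; positivity) zero_le_one
    linarith
  · obtain ⟨N, hN⟩ := exists_nat_gt ‖x‖
    filter_upwards [eventually_ge_atTop N] with n hn
    have hn' : (N : ℝ) ≤ n := by exact_mod_cast hn
    have hc : ContinuousAt (fun y : E => ((n : ℝ) + 1)⁻¹ • y) x := by fun_prop
    refine (b.eventuallyEq_one_of_mem_ball ?_).comp_tendsto hc
    rw [mem_ball_zero_iff, norm_smul, Real.norm_eq_abs, abs_of_pos (hr n).1,
      inv_mul_lt_iff₀ (by positivity)]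
    change ‖x‖ < (n + 1) * 1
    linarith

/-- extension of a weak equation to test functions without compact support -/
theorem weak_ext {C : Submodule ℝ E} {W : E → ℝ} (hW : Continuous W) {u : C → ℂ}
    (hu : AEStronglyMeasurable u volume)
    (heq : ∀ η, SmR C η Set.univ → ∫ x : C, ((-lap C η x / 2 + W x * η x : ℝ) : ℂ) * u x = 0)
    {f : E → ℝ} (hf : ContDiff ℝ ∞ f) (h0 : Integrable fun x : C => |f x| * ‖u x‖)
    (h1 : ∀ k, Integrable fun x : C => |D (onb C k) f x| * ‖u x‖)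
    (h2 : Integrable fun x : C => |-lap C f x / 2 + W x * f x| * ‖u x‖) :
    ∫ x : C, ((-lap C f x / 2 + W x * f x : ℝ) : ℂ) * u x = 0 := by
  obtain ⟨K, χ, c1, c2, c3, c4, c5⟩ := exists_cut C
  have hlap : ∀ g : E → ℝ, ContDiff ℝ ∞ g → Continuous (lap C g) := fun g hg =>
    continuous_finsetSum _ fun k _ => (contDiff_D (contDiff_D hg _) _).continuous
  have hT := tendsto_integral_of_dominated_convergence (μ := (volume : Measure C))
    (F := fun n (x : C) => ((-lap C (fun y => χ n y * f y) x / 2 + W x * (χ n x * f x) : ℝ) : ℂ) *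
      u x) (f := fun x : C => ((-lap C f x / 2 + W x * f x : ℝ) : ℂ) * u x)
    (fun x => |-lap C f x / 2 + W x * f x| * ‖u x‖ +
      K * ∑ k, |D (onb C k) f x| * ‖u x‖ + K * (|f x| * ‖u x‖)) (fun n => ?_)
    ((h2.add ((integrable_finsetSum _ fun k _ => h1 k).const_mul K)).add (h0.const_mul K))
    (fun n => Eventually.of_forall fun x => ?_) (Eventually.of_forall fun x => ?_)
  · refine tendsto_nhds_unique hT (tendsto_const_nhds.congr fun n => (heq _ ⟨(c1 n).1.mul hf,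
      tsupport (χ n) ∩ C, (c1 n).2.isCompact.inter_right C.closed_of_finiteDimensional,
      Set.subset_univ _, Set.inter_subset_right, fun x hx hx' => ?_⟩).symm)
    rw [image_eq_zero_of_notMem_tsupport fun h => hx' ⟨h, hx⟩, zero_mul]
  · refine AEStronglyMeasurable.mul (Continuous.aestronglyMeasurable ?_) hu
    have e1 := hlap _ ((c1 n).1.mul hf)
    have e2 := (c1 n).1.continuous
    have e3 := hf.continuous
    fun_prop
  · have hK : 0 ≤ K := (abs_nonneg _).trans (c4 0 0)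
    rw [norm_mul, norm_real, Real.norm_eq_abs, lap_mul C (c1 n).1 hf, ← Finset.sum_mul,
      ← mul_assoc K, ← mul_assoc K, ← add_mul, ← add_mul]
    gcongr
    have e1 : |∑ k, D (onb C k) (χ n) x * D (onb C k) f x| ≤ K * ∑ k, |D (onb C k) f x| := by
      rw [Finset.mul_sum]
      refine (Finset.abs_sum_le_sum_abs _ _).trans (Finset.sum_le_sum fun k _ => ?_)
      rw [abs_mul]
      exact mul_le_mul_of_nonneg_right (c3 n x k) (abs_nonneg _)
    have e2 : |χ n x * (-lap C f x / 2 + W x * f x)| ≤ |-lap C f x / 2 + W x * f x| := by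
      rw [abs_mul]
      exact mul_le_of_le_one_left (abs_nonneg _) (c2 n x)
    have e3 : |f x * lap C (χ n) x| ≤ K * |f x| := by
      rw [abs_mul, mul_comm]
      exact mul_le_mul_of_nonneg_right (c4 n x) (abs_nonneg _)
    have e4 : 0 ≤ K * |f x| := by positivity
    rw [abs_le] at e1 e2 e3 ⊢
    constructor <;> linarith [e1.1, e1.2, e2.1, e2.2, e3.1, e3.2]
  · refine tendsto_const_nhds.congr' ((c5 x).mono fun n hn => ?_)
    have e1 : (fun y => χ n y * f y) =ᶠ[𝓝 (x : E)] f := hn.mono fun y hy => by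
      simp only [hy, one_mul]
    have e2 : lap C (fun y => χ n y * f y) x = lap C f x :=
      Finset.sum_congr rfl fun k _ => by
        rw [Filter.EventuallyEq.fderiv_eq (e1.fderiv.mono fun y hy => by rw [hy])]
    simp only [e2, hn.eq_of_nhds, one_mul]

variable {C : Submodule ℝ E} {A : E →L[ℝ] E} {a : ℝ}

theorem D_gauss (hs : IsSym A) (v : E) :
    D v (gauss C A) = fun x => -⟪A v, x⟫ * gauss C A x := by
  funext x
  rw [D, fderiv_gauss hs, hs v x]

theorem lap_gauss (hs : IsSym A) (hC : ∀ x ∈ C, A x ∈ C) {x : E} (hx : x ∈ C) :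
    lap C (gauss C A) x = (‖A x‖ ^ 2 - trR (C.starProjection * A)) * gauss C A x := by
  have e0 : lap C (gauss C A) x = ∑ k, D (onb C k) (D (onb C k) (gauss C A)) x := rfl
  have e1 : ∀ v : E, D v (D v (gauss C A)) x =
      (⟪v, A x⟫ * ⟪v, A x⟫ - ⟪v, A v⟫) * gauss C A x := fun v => by
    have h1 : ContDiff ℝ ∞ fun y : E => -⟪A v, y⟫ := (innerSL ℝ (A v)).contDiff.neg
    rw [D_gauss hs, D_mul h1 (contDiff_gauss C A), D_gauss hs,
      D_inner (c := fun t => -t) (c' := fun _ => -1) fun t => (hasDerivAt_id t).neg]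
    simp only [hs v]
    ring
  rw [e0]
  simp only [e1, ← Finset.sum_mul, Finset.sum_sub_distrib]
  rw [sum_inner_onb_mul, sum_onb_trR, Submodule.starProjection_eq_self_iff.2 (hC x hx),
    real_inner_self_eq_norm_sq]

theorem lap_osc {c c' : ℝ → ℝ} (hc : ∀ t, HasDerivAt c (c' t) t)
    (hc' : ∀ t, HasDerivAt c' (-c t) t) (hs' : ContDiff ℝ ∞ c') {ξ : E} (hξ : ξ ∈ C) (x : E) :
    lap C (fun y => c ⟪ξ, y⟫) x = -‖ξ‖ ^ 2 * c ⟪ξ, x⟫ := by
  have e0 : lap C (fun y => c ⟪ξ, y⟫) x =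
      ∑ k, D (onb C k) (D (onb C k) fun y => c ⟪ξ, y⟫) x := rfl
  have e1 : ∀ v : E, D v (D v fun y => c ⟪ξ, y⟫) x = -(⟪v, ξ⟫ * ⟪v, ξ⟫) * c ⟪ξ, x⟫ := fun v => by
    have h1 : ContDiff ℝ ∞ fun y : E => c' ⟪ξ, y⟫ := hs'.comp (innerSL ℝ ξ).contDiff
    rw [D_inner hc, D_const_mul h1, D_inner hc', real_inner_comm v ξ]
    ring
  rw [e0]
  simp only [e1, ← Finset.sum_mul, Finset.sum_neg_distrib]
  rw [sum_inner_onb_mul, Submodule.starProjection_eq_self_iff.2 hξ, real_inner_self_eq_norm_sq]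

theorem integrable_pow (ha : 0 < a) (hA : ∀ w ∈ C, a * ‖w‖ ^ 2 ≤ ⟪w, A w⟫) {u : C → ℂ}
    (hu : MemLp u 2 volume) (k : ℕ) :
    Integrable fun x : C => ‖(x : E)‖ ^ k * gauss C A x * ‖u x‖ := by
  have hc := (contDiff_gauss C A).continuous
  have h : MemLp (fun x : C => ‖(x : E)‖ ^ k * gauss C A x) 2 volume := by
    rw [memLp_two_iff_integrable_sq (Continuous.aestronglyMeasurable (by fun_prop))]
    refine (integrable_gauss_sq ha hA (k * 2)).congr (Eventually.of_forall fun x => ?_)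
    simp only [mul_pow, pow_mul]
  exact h.integrable_mul hu.norm

theorem integrable_dom (ha : 0 < a) (hA : ∀ w ∈ C, a * ‖w‖ ^ 2 ≤ ⟪w, A w⟫) {u : C → ℂ}
    (hu : MemLp u 2 volume) {g : E → ℝ} (hg : Continuous g) (p q : ℝ)
    (h : ∀ x ∈ C, |g x| ≤ (p + q * ‖x‖) * gauss C A x) :
    Integrable fun x : C => |g x| * ‖u x‖ := by
  refine (((integrable_pow ha hA hu 0).const_mul p).add
    ((integrable_pow ha hA hu 1).const_mul q)).mono'
    (AEStronglyMeasurable.mul (Continuous.aestronglyMeasurable (by fun_prop)) hu.1.norm)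
    (Eventually.of_forall fun x => ?_)
  rw [Real.norm_eq_abs, abs_of_nonneg (by positivity)]
  refine (mul_le_mul_of_nonneg_right (h x x.2) (norm_nonneg _)).trans (le_of_eq ?_)
  simp only [Pi.add_apply]
  ring

theorem integrable_cast {u : C → ℂ} (hu : AEStronglyMeasurable u volume) {g : E → ℝ}
    (hg : Continuous g) (h : Integrable fun x : C => |g x| * ‖u x‖) :
    Integrable fun x : C => (g x : ℂ) * u x :=
  h.mono' (AEStronglyMeasurable.mul (Continuous.aestronglyMeasurable (by fun_prop)) hu)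
    (Eventually.of_forall fun x => by rw [norm_mul, norm_real, Real.norm_eq_abs])

theorem osc (hs : IsSym A) (hC : ∀ x ∈ C, A x ∈ C) (ha : 0 < a)
    (hA : ∀ w ∈ C, a * ‖w‖ ^ 2 ≤ ⟪w, A w⟫) {lam : ℝ} {u : C → ℂ} (hu : MemLp u 2 volume)
    (heq : ∀ η, SmR C η Set.univ → ∫ x : C, ((-lap C η x / 2 +
      (‖A x‖ ^ 2 / 2 - trR (C.starProjection * A) / 2 + lam) * η x : ℝ) : ℂ) * u x = 0)
    {c c' : ℝ → ℝ} (hc : ∀ t, HasDerivAt c (c' t) t) (hc' : ∀ t, HasDerivAt c' (-c t) t)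
    (h1 : ContDiff ℝ ∞ c) (h1' : ContDiff ℝ ∞ c') (h2 : ∀ t, |c t| ≤ 1) (h2' : ∀ t, |c' t| ≤ 1)
    {ξ : E} (hξ : ξ ∈ C) :
    (Integrable fun x : C => (((c ⟪ξ, (x : E)⟫ * (‖ξ‖ ^ 2 / 2 + lam) +
      c' ⟪ξ, (x : E)⟫ * ⟪A ξ, (x : E)⟫) * gauss C A x : ℝ) : ℂ) * u x) ∧
    ∫ x : C, (((c ⟪ξ, (x : E)⟫ * (‖ξ‖ ^ 2 / 2 + lam) +
      c' ⟪ξ, (x : E)⟫ * ⟪A ξ, (x : E)⟫) * gauss C A x : ℝ) : ℂ) * u x = 0 := by
  have s1 : ContDiff ℝ ∞ fun y : E => c ⟪ξ, y⟫ := h1.comp (innerSL ℝ ξ).contDiff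
  have sG := contDiff_gauss C A
  have hG := gauss_nonneg C A
  have key : ∀ x ∈ C, -lap C (fun y => c ⟪ξ, y⟫ * gauss C A y) x / 2 +
      (‖A x‖ ^ 2 / 2 - trR (C.starProjection * A) / 2 + lam) * (c ⟪ξ, x⟫ * gauss C A x) =
      (c ⟪ξ, x⟫ * (‖ξ‖ ^ 2 / 2 + lam) + c' ⟪ξ, x⟫ * ⟪A ξ, x⟫) * gauss C A x := by
    intro x hx
    have e : ∑ k, D (onb C k) (fun y => c ⟪ξ, y⟫) x * D (onb C k) (gauss C A) x =
        -(c' ⟪ξ, x⟫ * gauss C A x) * ⟪A ξ, x⟫ := by
      have e' := sum_inner_onb_mul C ξ (A x)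
      rw [Submodule.starProjection_eq_self_iff.2 hξ, ← hs] at e'
      rw [← e', Finset.mul_sum]
      refine Finset.sum_congr rfl fun k _ => ?_
      rw [D_inner hc, D_gauss hs]
      simp only [hs (onb C k), real_inner_comm (onb C k) ξ]
      ring
    rw [lap_mul C s1 sG, lap_gauss hs hC hx, lap_osc hc hc' h1' hξ, e]
    ring
  have bd : ∀ (p : ℝ) (v : E) (s t : ℝ) (x : E), |s| ≤ 1 → |t| ≤ 1 →
      |(s * p + t * ⟪v, x⟫) * gauss C A x| ≤ (|p| + ‖v‖ * ‖x‖) * gauss C A x := by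
    intro p v s t x hs ht
    rw [abs_mul, abs_of_nonneg (hG x)]
    refine mul_le_mul_of_nonneg_right ((abs_add_le _ _).trans (add_le_add ?_ ?_)) (hG x)
    · rw [abs_mul]
      exact mul_le_of_le_one_left (abs_nonneg _) hs
    · rw [abs_mul]
      exact (mul_le_of_le_one_left (abs_nonneg _) ht).trans (abs_real_inner_le_norm v x)
  have c1 := h1.continuous
  have c2 := h1'.continuous
  have c3 := sG.continuous
  have c4 : Continuous fun x => (c ⟪ξ, x⟫ * (‖ξ‖ ^ 2 / 2 + lam) +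
      c' ⟪ξ, x⟫ * ⟪A ξ, x⟫) * gauss C A x := by fun_prop
  have i2 := integrable_dom ha hA hu c4 _ _ fun x _ => bd _ _ _ _ x (h2 _) (h2' _)
  refine ⟨integrable_cast hu.1 c4 i2, ?_⟩
  have h := weak_ext (W := fun x => ‖A x‖ ^ 2 / 2 - trR (C.starProjection * A) / 2 + lam)
    (by fun_prop) hu.1 heq (s1.mul sG)
    (integrable_dom ha hA hu (s1.mul sG).continuous 1 0 fun x _ => ?_) (fun k => ?_)
    (i2.congr (Eventually.of_forall fun x => by simp only [key x x.2]))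
  · simpa only [fun x : C => key x x.2] using h
  · rw [abs_mul, abs_of_nonneg (hG x), zero_mul, add_zero]
    exact mul_le_mul_of_nonneg_right (h2 _) (hG x)
  · refine integrable_dom ha hA hu (contDiff_D (s1.mul sG) _).continuous |⟪ξ, onb C k⟫|
      ‖A (onb C k)‖ fun x _ => ?_
    refine le_trans (le_of_eq ?_) (bd _ _ (c' ⟪ξ, x⟫) (-c ⟪ξ, x⟫) x (h2' _) (by simpa using h2 _))
    rw [D_mul s1 sG, D_inner hc, D_gauss hs]
    congr 1
    ring

theorem transport (hs : IsSym A) (hC : ∀ x ∈ C, A x ∈ C) (ha : 0 < a)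
    (hA : ∀ w ∈ C, a * ‖w‖ ^ 2 ≤ ⟪w, A w⟫) {lam : ℝ} {u : C → ℂ} (hu : MemLp u 2 volume)
    (heq : ∀ η, SmR C η Set.univ → ∫ x : C, ((-lap C η x / 2 +
      (‖A x‖ ^ 2 / 2 - trR (C.starProjection * A) / 2 + lam) * η x : ℝ) : ℂ) * u x = 0) (ξ : C) :
    ∫ x : C, ew ξ x * ((((‖ξ‖ ^ 2 / 2 + lam : ℝ) : ℂ) + (⟪A ξ, (x : E)⟫ : ℝ) * I) *
      (gauss C A x * u x)) = 0 := by
  obtain ⟨i1, e1⟩ := osc hs hC ha hA hu heq (c := Real.cos) (c' := fun t => -Real.sin t)
    Real.hasDerivAt_cos (fun t => (Real.hasDerivAt_sin t).neg) Real.contDiff_cos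
    Real.contDiff_sin.neg Real.abs_cos_le_one (fun t => by simpa using Real.abs_sin_le_one t) ξ.2
  obtain ⟨i2, e2⟩ := osc hs hC ha hA hu heq (c := Real.sin) (c' := Real.cos)
    Real.hasDerivAt_sin Real.hasDerivAt_cos Real.contDiff_sin
    Real.contDiff_cos Real.abs_sin_le_one Real.abs_cos_le_one ξ.2
  have e := integral_add i1 (i2.const_mul I)
  rw [integral_const_mul, e1, e2, mul_zero, add_zero] at e
  rw [← e]
  refine integral_congr_ae (Eventually.of_forall fun x => ?_)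
  simp only [ew, exp_mul_I, Submodule.coe_inner, Submodule.coe_norm]
  push_cast
  linear_combination (Complex.sin (⟪(ξ : E), (x : E)⟫ : ℝ) * (⟪A ξ, (x : E)⟫ : ℝ) *
    (gauss C A x : ℝ) * u x) * I_mul_I

theorem memLp_gauss (ha : 0 < a) (hA : ∀ w ∈ C, a * ‖w‖ ^ 2 ≤ ⟪w, A w⟫) :
    MemLp (fun x : C => (gauss C A x : ℂ)) 2 volume := by
  have hc := (contDiff_gauss C A).continuous
  refine MemLp.ofReal (f := fun x : C => gauss C A x) ?_
  rw [memLp_two_iff_integrable_sq (Continuous.aestronglyMeasurable (by fun_prop))]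
  simpa using integrable_gauss_sq ha hA 0

theorem integrable_gu (ha : 0 < a) (hA : ∀ w ∈ C, a * ‖w‖ ^ 2 ≤ ⟪w, A w⟫) {u : C → ℂ}
    (hu : MemLp u 2 volume) : (Integrable fun x : C => (gauss C A x : ℂ) * u x) ∧
      Integrable fun x : C => ‖x‖ * ‖(gauss C A x : ℂ) * u x‖ := by
  refine ⟨(memLp_gauss ha hA).integrable_mul hu,
    (integrable_pow ha hA hu 1).congr (Eventually.of_forall fun x => ?_)⟩
  simp only [norm_mul, norm_real, Real.norm_eq_abs, abs_of_nonneg (gauss_nonneg C A _),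
    Submodule.coe_norm, pow_one, mul_assoc]

theorem transport_gauss (hs : IsSym A) (hC : ∀ x ∈ C, A x ∈ C) (ha : 0 < a)
    (hA : ∀ w ∈ C, a * ‖w‖ ^ 2 ≤ ⟪w, A w⟫) (ξ : C) :
    ∫ x : C, ew ξ x * ((((‖ξ‖ ^ 2 / 2 : ℝ) : ℂ) + (⟪A ξ, (x : E)⟫ : ℝ) * I) *
      (gauss C A x * gauss C A x)) = 0 := by
  obtain ⟨i0, i1⟩ := integrable_gu ha hA (memLp_gauss ha hA)
  have j0 := integrable_ew i0 ξ
  have j1 := integrable_ew (integrable_inner i0 i1 ⟨A ξ, hC _ ξ.2⟩) ξ
  simp only [Submodule.coe_inner] at j1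
  have h := integral_bilinear_hasLineDerivAt_right_eq_neg_left_of_integrable
    (μ := (volume : Measure C)) (B := ContinuousLinearMap.mul ℝ ℂ) (v := ξ) (f := ew ξ)
    (f' := fun x => ((‖ξ‖ ^ 2 : ℝ) : ℂ) * I * ew ξ x)
    (g := fun x : C => (gauss C A x : ℂ) * gauss C A x)
    (g' := fun x : C => 2 * I * (((⟪A ξ, (x : E)⟫ : ℝ) * I) * (gauss C A x * gauss C A x)))
    ((j0.const_mul (((‖ξ‖ ^ 2 : ℝ) : ℂ) * I)).congr (Eventually.of_forall fun x => by
      simp only [ContinuousLinearMap.mul_apply', mul_assoc]))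
    ((j1.const_mul (2 * I)).congr (Eventually.of_forall fun x => by
      simp only [ContinuousLinearMap.mul_apply']
      ring)) j0 (fun x _ => ?_) fun x _ => ?_
  · simp only [ContinuousLinearMap.mul_apply', mul_left_comm (ew ξ _) (2 * I),
      mul_assoc (((‖ξ‖ ^ 2 : ℝ) : ℂ) * I), integral_const_mul] at h
    simp only [add_mul _ _ ((gauss C A _ : ℂ) * _), mul_add]
    rw [integral_add (integrable_ew (i0.const_mul _) ξ) j1]
    simp only [mul_left_comm (ew ξ _) ((‖ξ‖ ^ 2 / 2 : ℝ) : ℂ), integral_const_mul]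
    refine mul_left_cancel₀ (show 2 * I ≠ 0 by simp) ?_
    push_cast at h ⊢
    linear_combination h
  · have := hasDerivAt_cexp ⟪ξ, x⟫ ⟪ξ, ξ⟫ 0
    simp only [HasLineDerivAt, ew, inner_add_right, real_inner_smul_right]
    simpa only [zero_mul, add_zero, real_inner_self_eq_norm_sq] using this
  · have h1 := (((contDiff_gauss C A).differentiable (by simp) x).hasFDerivAt.comp x
      C.subtypeL.hasFDerivAt).hasLineDerivAt ξ
    have h2 : HasDerivAt (fun t : ℝ => gauss C A (x + t • ξ : C))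
        (-⟪A ξ, (x : E)⟫ * gauss C A x) 0 := by
      rw [hs, ← fderiv_gauss hs]
      exact h1
    have h3 := h2.ofReal_comp.mul h2.ofReal_comp
    simp only [zero_smul, add_zero] at h3
    refine h3.congr_deriv ?_
    push_cast
    linear_combination (-2 * (⟪A ξ, (x : E)⟫ : ℝ) * (gauss C A x : ℝ) ^ 2 : ℂ) * I_mul_I

end FvAux

open FvAux in
theorem free_vacuum {C : Submodule ℝ E} {A : E →L[ℝ] E} (hs : IsSym A) (hC : ∀ x ∈ C, A x ∈ C)
    {a : ℝ} (ha : 0 < a) (hA : ∀ w ∈ C, a * ‖w‖ ^ 2 ≤ ⟪w, A w⟫) {lam : ℝ} (hl : 0 ≤ lam)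
    {u : C → ℂ} (hu : MemLp u 2 volume)
    (heq : ∀ η, SmR C η Set.univ → ∫ x : C, ((-lap C η x / 2 +
      (‖A x‖ ^ 2 / 2 - trR (C.starProjection * A) / 2 + lam) * η x : ℝ) : ℂ) * u x = 0) :
    ∃ z : ℂ, (∀ᵐ x : C, u x = z * gauss C A x) ∧ (0 < lam → z = 0) := by
  have hT := transport hs hC ha hA hu heq
  obtain ⟨i0, i1⟩ := integrable_gu ha hA hu
  obtain ⟨z, hz⟩ : ∃ z, z = ∫ x : C, (gauss C A x : ℂ) * u x := ⟨_, rfl⟩
  have hz0 : (lam : ℂ) * z = 0 := by
    have := hT 0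
    rw [hz, ← integral_const_mul]
    simpa [ew] using this
  have hu' : MemLp (fun x : C => u x - z * gauss C A x) 2 volume :=
    hu.sub ((memLp_gauss ha hA).const_mul z)
  obtain ⟨j0, j1⟩ := integrable_gu ha hA hu'
  obtain ⟨k0, k1⟩ := integrable_gu ha hA (memLp_gauss ha hA)
  have h := eq_zero_of_transport j0 j1 (fun ξ => ⟨A ξ, hC _ ξ.2⟩) (fun ξ => ‖ξ‖ ^ 2 / 2 + lam)
    (fun ξ hξ => ?_) (fun ξ hξ => ?_) (fun ξ => ?_) ?_
  · refine ⟨z, h.mono fun x hx => ?_, fun h => ?_⟩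
    · exact sub_eq_zero.1 ((mul_eq_zero.1 hx).resolve_left
        (ofReal_ne_zero.2 (gauss_pos ha hA _).ne'))
    · exact (mul_eq_zero.1 hz0).resolve_left (ofReal_ne_zero.2 h.ne')
  · refine lt_of_lt_of_le ?_ (hA ξ ξ.2)
    have : 0 < ‖(ξ : E)‖ := norm_pos_iff.2 (by simpa using hξ)
    positivity
  · have := norm_pos_iff.2 hξ
    positivity
  · have int : ∀ {w : C → ℂ} (p : ℝ), Integrable w → (Integrable fun x => ‖x‖ * ‖w x‖) →
        Integrable fun x : C => ew ξ x * (((p : ℂ) + (⟪A ξ, (x : E)⟫ : ℝ) * I) * w x) :=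
      fun p h h' => integrable_ew (((h.const_mul (p : ℂ)).add
        (integrable_inner h h' ⟨A ξ, hC _ ξ.2⟩)).congr (Eventually.of_forall fun x => by
          simp only [Pi.add_apply, Submodule.coe_inner, add_mul])) ξ
    have e := integral_sub (int (‖ξ‖ ^ 2 / 2 + lam) i0 i1) ((int (‖ξ‖ ^ 2 / 2) k0 k1).const_mul z)
    rw [integral_const_mul, hT, transport_gauss hs hC ha hA, mul_zero, sub_zero] at e
    rw [← e]
    refine integral_congr_ae (Eventually.of_forall fun x => ?_)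
    simp only [Submodule.coe_inner]
    push_cast
    linear_combination (-ew ξ x * (gauss C A x : ℝ) ^ 2) * hz0
  · simp only [mul_sub, mul_left_comm _ z]
    rw [integral_sub i0 (k0.const_mul z), integral_const_mul, ← hz]
    simp only [← sq, ← ofReal_pow]
    rw [integral_complex_ofReal, integral_gauss_sq ha hA]
    simp

end Vale.Agent.P353
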