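import Vale.Agent.P353.Stmts
import Vale.Agent.P353.Fv

/-! The amplitudes at unit mass. -/

noncomputable section

open MeasureTheory Filter Topology Complex Matrix
open scoped ContDiff RealInnerProductSpace

namespace Vale.Agent.P353

namespace Amp1Aux

theorem exists_lim {𝒰 : Ultrafilter ℕ} {f : ℕ → ℂ} {M : ℝ} (h : ∀ᶠ n in 𝒰, ‖f n‖ ^ 2 ≤ M) :
    Tendsto f 𝒰 (𝓝 (limUnder (𝒰 : Filter ℕ) f)) := by
  refine tendsto_nhds_limUnder ?_
  have hK : IsCompact (Metric.closedBall (0 : ℂ) (√M)) := isCompact_closedBall _ _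
  have hm : Metric.closedBall (0 : ℂ) (√M) ∈ (𝒰.map f : Filter ℂ) := by
    rw [Ultrafilter.coe_map, Filter.mem_map]
    filter_upwards [h] with n hn
    rw [Set.mem_preimage, mem_closedBall_zero_iff]
    exact Real.le_sqrt_of_sq_le hn
  obtain ⟨x, -, hx⟩ := hK.ultrafilter_le_nhds (𝒰.map f) (le_principal_iff.2 hm)
  exact ⟨x, hx⟩

theorem sq_zero {f : ℕ → ℂ} (h : ∀ ε > 0, ∀ᶠ n in atTop, ‖f n‖ ^ 2 ≤ ε) :
    Tendsto f atTop (𝓝 0) := by
  rw [NormedAddGroup.tendsto_nhds_zero]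
  intro ε hε
  filter_upwards [h ((ε / 2) ^ 2) (by positivity)] with n hn
  have := (sq_le_sq₀ (norm_nonneg _) (by positivity)).1 hn
  linarith

theorem lim_congr {l : Filter ℕ} {f f' : ℕ → ℂ} (h : f =ᶠ[l] f') :
    limUnder l f = limUnder l f' := by
  unfold limUnder
  rw [Filter.map_congr h]

theorem smR_lin {E : Type} [NormedAddCommGroup E] [InnerProductSpace ℝ E] [FiniteDimensional ℝ E]
    [MeasurableSpace E] [BorelSpace E] {C : Submodule ℝ E} {Z : Set E} {η η' : E → ℝ}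
    (h : SmR C η Z) (h' : SmR C η' Z) (t : ℝ) : SmR C (fun x => η x + t * η' x) Z :=
  h.add (h'.mul' (f := fun _ => t) contDiff_const)

theorem smR_lap {E : Type} [NormedAddCommGroup E] [InnerProductSpace ℝ E] [FiniteDimensional ℝ E]
    [MeasurableSpace E] [BorelSpace E] {C : Submodule ℝ E} {Z : Set E} {η a : E → ℝ}
    (h : SmR C η Z) (ha : ContDiff ℝ ∞ a) :
    SmR C (fun x => -lap C η x / 2 + a x * η x) Z :=
  RsAux.smR_PP ha h

variable {N d : ℕ} {F : Type} [NormedAddCommGroup F] [InnerProductSpace ℂ F]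
  [FiniteDimensional ℂ F] (c : Ctx N d F) {π π' : Setoid (Fin N)}

theorem BK_lin {β β' : LL (sub 9 (c.ss π')) F} (h : β ∈ c.BK π π') (h' : β' ∈ c.BK π π') (z : ℂ) :
    β + z • β' ∈ c.BK π π' :=
  ⟨(c.B π').add_mem h.1 ((c.B π').smul_mem z h'.1), by rw [map_add, map_smul, h.2, h'.2]⟩

theorem BK_zero : (0 : LL (sub 9 (c.ss π')) F) ∈ c.BK π π' :=
  ⟨(c.B π').zero_mem, map_zero _⟩

theorem BK_smul {β : LL (sub 9 (c.ss π')) F} (h : β ∈ c.BK π π') (z : ℂ) : z • β ∈ c.BK π π' := by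
  have := BK_lin c (BK_zero c) h z
  rwa [zero_add] at this

theorem BK_poly {a : F →L[ℂ] F} (ha : ∀ β ∈ c.BK π π', opL _ a β ∈ c.BK π π') (q : Polynomial ℂ) :
    ∀ β ∈ c.BK π π', opL _ (Polynomial.aeval a q) β ∈ c.BK π π' := by
  induction q using Polynomial.induction_on with
  | C z =>
    intro β hβ
    rw [Polynomial.aeval_C, Algebra.algebraMap_eq_smul_one, opL_smul, opL_one]
    exact BK_smul c hβ z
  | add p q hp hq =>
    intro β hβ
    rw [map_add, opL_add]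
    have := BK_lin c (hp β hβ) (hq β hβ) 1
    rwa [one_smul] at this
  | monomial n z h =>
    intro β hβ
    rw [pow_succ, ← mul_assoc, map_mul, Polynomial.aeval_X, opL_mul]
    exact h _ (ha β hβ)

theorem P0_le {𝔟 𝔟' : Submodule ℝ (Lg d)} (h : 𝔟 ≤ 𝔟') : c.P0 𝔟 * c.P0 𝔟' = c.P0 𝔟' := by
  have h1 : 𝔟 ⟂ 𝔟ᗮ ⊓ 𝔟' := (Submodule.isOrtho_orthogonal_right 𝔟).mono_right inf_le_left
  rw [← Submodule.sup_orthogonal_inf_of_hasOrthogonalProjection h, c.P0_sup h1, ← mul_assoc]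
  congr 1
  exact vac_idem _

theorem P0_split (h : π' ≤ π) : c.P0 (c.ss π')ᗮ =
    c.P0 (c.ss π)ᗮ * c.P0 (c.ss π ⊓ c.cen π') * c.P0 (c.off π π') := by
  have h1 : (c.ss π)ᗮ ⟂ c.ss π ⊓ c.cen π' :=
    (Submodule.isOrtho_orthogonal_left (c.ss π)).mono_right inf_le_left
  have h2 : (c.ss π)ᗮ ⊔ (c.ss π ⊓ c.cen π') ⟂ c.off π π' := by
    rw [Submodule.isOrtho_sup_left]
    exact ⟨(Submodule.isOrtho_orthogonal_left (c.ss π)).mono_right (c.off_le_ss h),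
      (c.off_isOrtho_blk π π').symm.mono_left (inf_le_right.trans (c.cen_le_blk π'))⟩
  rw [c.ss_orthogonal h, c.P0_sup h2, c.P0_sup h1]

theorem V_fix (h : π' ≤ π) {β : LL (sub 9 (c.ss π')) F} (hβ : β ∈ c.V π' 1 0) :
    β ∈ c.BK π π' ∧ opL _ (c.P0 (c.ss π ⊓ c.cen π')) β = β := by
  obtain ⟨h1, h2⟩ := c.mem_V_iff.1 hβ
  have key : ∀ 𝔟 ≤ (c.ss π')ᗮ, opL _ (c.P0 𝔟) β = β := by
    intro 𝔟 hb
    calc opL _ (c.P0 𝔟) β = opL _ (c.P0 𝔟) (opL _ (c.P0 (c.ss π')ᗮ) β) := by rw [h2]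
      _ = opL _ (c.P0 𝔟 * c.P0 (c.ss π')ᗮ) β := by rw [opL_mul]; rfl
      _ = β := by rw [P0_le c hb, h2]
  refine ⟨⟨h1, key _ ?_⟩, key _ ?_⟩
  · rw [c.ss_orthogonal h]
    exact le_sup_right
  · rw [c.ss_orthogonal h]
    exact le_sup_right.trans le_sup_left

theorem trR_supp (𝔠 : Submodule ℝ (Lg d)) :
    trR (-(kr (Gm c.γ) 𝔠.starProjection * kr (Gm c.γ) 𝔠.starProjection)) =
      16 * Module.finrank ℝ 𝔠 := by
  have h1 : trR 𝔠.starProjection = Module.finrank ℝ 𝔠 := by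
    unfold trR
    refine LinearMap.IsProj.trace ⟨fun x => 𝔠.starProjection_apply_mem x, fun x hx => ?_⟩
    exact Submodule.starProjection_eq_self_iff.2 hx
  rw [c.Gm_supp, trR_kr, h1, Matrix.trace_one]
  simp

/-- one eigenspace of the number operator -/
theorem mode (h : π' ≤ π) {L : (Tn 9 d → ℝ) → ℂ}
    (hL : LinR (c.CS (c.ss π) π') (c.Good π π') L) {B : ℝ}
    (hB : ∀ η, SmR (c.CS (c.ss π) π') η (c.Good π π') →
      ‖L η‖ ^ 2 ≤ B * ∫ x : c.CS (c.ss π) π', η x ^ 2) (k : ℕ)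
    (heq : ∀ η, SmR (c.CS (c.ss π) π') η (c.Good π π') →
      L (fun x => -lap (c.CS (c.ss π) π') η x / 2 + 1 ^ 2 * ‖Afree d x‖ ^ 2 / 2 * η x) +
        ((3 * 1 / 2 : ℝ) : ℂ) * ((((k : ℝ) - 16 * (Module.finrank ℝ
          (c.ss π ⊓ c.cen π' : Submodule ℝ (Lg d)) : ℝ) / 4 : ℝ) : ℂ) * L η) = 0) :
    ∃ z : ℂ, (∀ η, SmR (c.CS (c.ss π) π') η (c.Good π π') → L η =
      z * (∫ y : c.CS (c.ss π) π', η y * gauss (c.CS (c.ss π) π') (Afree d) y : ℝ)) ∧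
      (0 < k → z = 0) := by
  obtain ⟨𝒦, h𝒦, hZ⟩ := c.exists_bad (c.Th_ss π) h
  have htr : trR ((c.CS (c.ss π) π').starProjection * Afree d) = 12 * (Module.finrank ℝ
      (c.ss π ⊓ c.cen π' : Submodule ℝ (Lg d)) : ℝ) := Ctx.trR_Afree _
  have hs : ContDiff ℝ ∞ fun x : Tn 9 d => ‖Afree d x‖ ^ 2 :=
    (Afree d).contDiff.norm_sq ℝ
  obtain ⟨u, hum, hui, hLu, hequ⟩ := removable (O := Set.univ) (Z := c.Good π π')
    (w := fun _ => 1) (B := B) (a := fun x => ‖Afree d x‖ ^ 2 / 2 -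
      trR ((c.CS (c.ss π) π').starProjection * Afree d) / 2 + 3 * k / 2) h𝒦 isOpen_univ
    (fun x hx => by rw [hZ x hx]; simp) continuous_const (fun _ _ => one_pos) hL
    (fun η hη => by simpa only [div_one] using hB η hη)
    (((hs.div_const 2).sub contDiff_const).add contDiff_const) (fun η hη => by
      have h1 := hL _ η (smR_lap (a := fun x => 1 ^ 2 * ‖Afree d x‖ ^ 2 / 2) hη
        ((contDiff_const.mul hs).div_const 2)) hη (3 * 1 / 2 * ((k : ℝ) - 16 * (Module.finrank ℝ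
          (c.ss π ⊓ c.cen π' : Submodule ℝ (Lg d)) : ℝ) / 4))
      rw [ofReal_mul, mul_assoc, heq η hη] at h1
      rw [← h1, htr]
      congr 1
      funext x
      ring)
  have hu2 : MemLp u 2 volume := by
    rw [memLp_two_iff_integrable_sq_norm hum]
    simpa [IntegrableOn] using hui
  obtain ⟨z, hz, hz0⟩ := free_vacuum (C := c.CS (c.ss π) π') (lam := 3 * k / 2) Ctx.Afree_sym
    (fun x hx => Ctx.Afree_mem hx) one_pos
    (fun w _ => by rw [one_mul]; exact (Ctx.Afree_bounds w).2.2) (by positivity) hu2 hequ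
  refine ⟨z, fun η hη => ?_, fun hk => hz0 (by positivity)⟩
  rw [hLu η hη, ← integral_complex_ofReal, ← integral_const_mul]
  refine integral_congr_ae ?_
  filter_upwards [hz] with x hx
  rw [hx]
  simp only [ofReal_mul]
  ring

/-- the limit functional vanishes -/
theorem vanish (h_sec : c.S_sec) (h : π' ≤ π) {β₀ : LL (sub 9 (c.ss π')) F}
    (hβ₀ : β₀ ∈ c.V π' 1 0) (hV : ∀ β ∈ c.V π' 1 0, ∃ z : ℂ, β = z • β₀) {η₁ : Tn 9 d → ℝ}
    (hη₁ : SmR (c.CS (c.ss π) π') η₁ (c.Good π π'))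
    (hne : (∫ y : c.CS (c.ss π) π', η₁ y * gauss (c.CS (c.ss π) π') (Afree d) y) ≠ 0)
    (L : (Tn 9 d → ℝ) → LL (sub 9 (c.ss π')) F → ℂ)
    (h1 : ∀ β ∈ c.BK π π', LinR (c.CS (c.ss π) π') (c.Good π π') fun η => L η β)
    (h2 : ∀ η, SmR (c.CS (c.ss π) π') η (c.Good π π') → ∀ β ∈ c.BK π π', ∀ β' ∈ c.BK π π',
      ∀ z : ℂ, L η (β + z • β') = L η β + (starRingEnd ℂ) z * L η β')
    (h3 : ∀ η η' β, (∀ y ∈ c.CS (c.ss π) π', η y = η' y) → L η β = L η' β)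
    (h4 : ∀ α η, SmR (c.CS (c.ss π) π') η (c.Good π π') → ∀ β ∈ c.BK π π',
      ∑ k, (L (fun x => fderiv ℝ η x (onb (c.CS (c.ss π) π') k))
          (opL _ ((-I) • c.θ (c.sE (eb α) (onb (c.CS (c.ss π) π') k))) β) +
        L (fun x => ⟪onb (c.CS (c.ss π) π') k, x⟫ * η x)
          (opL _ (((1 : ℝ) : ℂ) • c.θ (c.Km (eb α) (onb (c.CS (c.ss π) π') k))) β)) = 0)
    (h5 : ∀ β ∈ c.BK π π', ∃ B : ℝ, ∀ η, SmR (c.CS (c.ss π) π') η (c.Good π π') →
      ‖L η β‖ ^ 2 ≤ B * ∫ x : c.CS (c.ss π) π', η x ^ 2)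
    (h6 : ∀ η, SmR (c.CS (c.ss π) π') η (c.Good π π') → ∀ β,
      L η (opL _ (c.P0 (c.ss π)ᗮ) β) = L η β)
    (h7 : L η₁ β₀ = 0) :
    ∀ η, SmR (c.CS (c.ss π) π') η (c.Good π π') → ∀ β ∈ c.BK π π', L η β = 0 := by
  have hs := h_sec π (c.ss π) π' (c.Th_ss π) h 1 L h1 h2 h3 h4
  obtain ⟨n, p, hp1, hp0, hpk⟩ := c.car.number (c.isPCS_Gm (c.ss π ⊓ c.cen π'))
  rw [trR_supp] at hpk
  obtain ⟨A, hA⟩ : ∃ A, A = dG c.θ (kr (Gm c.γ) (c.ss π ⊓ c.cen π').starProjection) := ⟨_, rfl⟩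
  rw [← hA] at hs hp1 hp0 hpk
  have hL0 : ∀ η, SmR (c.CS (c.ss π) π') η (c.Good π π') → L η 0 = 0 := by
    intro η hη
    have := h2 η hη 0 (BK_zero c) 0 (BK_zero c) 1
    simpa using this
  have hsm : ∀ η, SmR (c.CS (c.ss π) π') η (c.Good π π') → ∀ β ∈ c.BK π π', ∀ z : ℂ,
      L η (z • β) = (starRingEnd ℂ) z * L η β := by
    intro η hη β hβ z
    have := h2 η hη 0 (BK_zero c) β hβ z
    rwa [zero_add, hL0 η hη, zero_add] at this
  have hAm : ∀ β ∈ c.BK π π', opL _ A β ∈ c.BK π π' := by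
    intro β hβ
    have h0 := BK_smul c (hs η₁ hη₁ β hβ).1 I
    rw [opL_smul, _root_.smul_apply, smul_smul] at h0
    simpa using h0
  have hmode : ∀ k ∈ Finset.range (n + 1), ∀ β ∈ c.BK π π',
      ∃ z : ℂ, (∀ η, SmR (c.CS (c.ss π) π') η (c.Good π π') →
        L η (opL _ (Polynomial.aeval A (p k)) β) =
          z * (∫ y : c.CS (c.ss π) π', η y * gauss (c.CS (c.ss π) π') (Afree d) y : ℝ)) ∧
        (0 < k → z = 0) := by
    intro k hk β hβ
    have hm := BK_poly c hAm (p k) β hβ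
    obtain ⟨B, hB⟩ := h5 _ hm
    refine mode c h (h1 _ hm) hB k fun η hη => ?_
    have h0 := (hs η hη _ hm).2
    have e : opL _ ((-I) • A) (opL _ (Polynomial.aeval A (p k)) β) =
        (((k : ℝ) - 16 * (Module.finrank ℝ (c.ss π ⊓ c.cen π' : Submodule ℝ (Lg d)) : ℝ) / 4 : ℝ) :
          ℂ) • opL _ (Polynomial.aeval A (p k)) β := by
      rw [← _root_.smul_apply, ← opL_smul, ← hpk k hk, opL_mul]
      rfl
    rw [e, hsm η hη _ hm, conj_ofReal] at h0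
    exact h0
  obtain ⟨hb0, hb1⟩ := V_fix c h hβ₀
  have hP : Polynomial.aeval A (p 0) = c.P0 (c.ss π ⊓ c.cen π') := hp0
  have hz0 : ∀ η, SmR (c.CS (c.ss π) π') η (c.Good π π') → L η β₀ = 0 := by
    obtain ⟨z, hz, -⟩ := hmode 0 (by simp) β₀ hb0
    rw [hP, hb1] at hz
    have h8 := hz η₁ hη₁
    rw [h7] at h8
    have h9 : z = 0 := (mul_eq_zero.1 h8.symm).resolve_right (ofReal_ne_zero.2 hne)
    intro η hη
    rw [hz η hη, h9, zero_mul]
  intro η hη β hβ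
  have hk : ∀ k ∈ Finset.range (n + 1), L η (opL _ (Polynomial.aeval A (p k)) β) = 0 := by
    intro k hk
    rcases Nat.eq_zero_or_pos k with rfl | hk0
    · obtain ⟨z, hz⟩ := hV _ (c.P0_mem_V hβ.1)
      have e : opL _ (c.P0 (c.ss π)ᗮ) (opL _ (c.P0 (c.ss π ⊓ c.cen π')) β) = z • β₀ := by
        rw [← hz, P0_split c h, opL_mul, opL_mul, mul_apply_eq_comp,
          mul_apply_eq_comp, hβ.2]
      rw [hP, ← h6 η hη, e, hsm η hη _ hb0, hz0 η hη, mul_zero]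
    · obtain ⟨z, hz, hz'⟩ := hmode k hk β hβ
      rw [hz η hη, hz' hk0, zero_mul]
  have hsum : ∀ s : Finset ℕ, s ⊆ Finset.range (n + 1) →
      opL _ (∑ k ∈ s, Polynomial.aeval A (p k)) β ∈ c.BK π π' ∧
        L η (opL _ (∑ k ∈ s, Polynomial.aeval A (p k)) β) = 0 := by
    intro s
    induction s using Finset.induction_on with
    | empty =>
      intro _
      have e : opL (sub 9 (c.ss π')) (0 : F →L[ℂ] F) β = 0 := by
        rw [← zero_smul ℂ (1 : F →L[ℂ] F), opL_smul, zero_smul, _root_.zero_apply]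
      rw [Finset.sum_empty, e]
      exact ⟨BK_zero c, hL0 η hη⟩
    | insert k s hks ih =>
      intro hsub
      obtain ⟨i1, i2⟩ := ih ((Finset.subset_insert k s).trans hsub)
      have hm := BK_poly c hAm (p k) β hβ
      rw [Finset.sum_insert hks, opL_add, _root_.add_apply]
      have j1 := BK_lin c hm i1 1
      have j2 := h2 η hη _ hm _ i1 1
      rw [one_smul] at j1 j2
      refine ⟨j1, ?_⟩
      rw [j2, i2, hk k (hsub (Finset.mem_insert_self k s))]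
      simp
  have := (hsum _ le_rfl).2
  rwa [hp1, opL_one, one_apply_eq_self] at this

end Amp1Aux

open Amp1Aux

namespace Ctx

variable {N d : ℕ} {F : Type} [NormedAddCommGroup F] [InnerProductSpace ℂ F]
  [FiniteDimensional ℂ F] (c : Ctx N d F)

theorem p_amp1 (h_lm4 : c.S_lm4) (h_lam : c.S_lam) (h_ub : c.S_ub) (h_wif : c.S_wif)
    (h_sec : c.S_sec) : c.S_amp1 := by
  intro π π' h β₀ hβ₀ hV η₁ hη₁ hne g ψ hg hψ ⟨K₀, hK₀⟩ hEn h0 η hη β hβ
  have hTh := c.Th_ss π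
  have hD : ∀ n, ψ n ∈ c.D π (c.ss π) := fun n => (c.mem_D0.1 (hψ n)).1
  have hS : ∀ n, Sm (sub 9 (c.ss π)) (ψ n) := fun n => (c.mem_D.1 (hD n)).1
  have hpos : ∀ᶠ n in atTop, 0 < g n := hg.eventually_gt_atTop 0
  have hNE : ∀ᶠ n in atTop, c.NE (c.ss π) (g n) 1 (ψ n) ≤ K₀ + 1 := by
    filter_upwards [hEn.eventually_le_const one_pos] with n hn
    exact add_le_add (hK₀ n) hn
  have hK0 : 0 ≤ K₀ := (nrm_nonneg _ _).trans (hK₀ 0)
  have hhat : ∀ η, SmR (c.CS (c.ss π) π') η (c.Good π π') →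
      SmR (c.CS (c.ss π) π') (c.hatη π (c.ss π) π' η) (c.Gen π π') := fun η hη =>
    (h_lm4.hat π (c.ss π) π' h η Set.univ (hη.mono fun x _ hx => ⟨hx, trivial⟩)).mono
      fun x _ hx => c.Good_subset_Gen π π' hx.1
  obtain ⟨K, hK, hub⟩ := h_ub π (c.ss π) π' hTh h
  have hbd : ∀ η, SmR (c.CS (c.ss π) π') η (c.Good π π') → ∀ β ∈ c.BK π π', ∀ ε > 0,
      ∀ᶠ n in atTop, ‖c.Lamh π (c.ss π) π' (g n) (ψ n) η β‖ ^ 2 ≤
        K * ‖β‖ ^ 2 * K₀ * (∫ y : c.CS (c.ss π) π', η y ^ 2) + ε := by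
    intro η hη β hβ ε hε
    have hε' : 0 < ε / (K₀ + 1) := by positivity
    filter_upwards [hg.eventually ((hub 1 (by simp)).2 η hη β hβ _ hε'), hNE] with n hn hn'
    have h1 := hn (ψ n) (hD n)
    have h2 : 0 ≤ ∫ y : c.CS (c.ss π) π', η y ^ 2 := integral_nonneg fun y => sq_nonneg _
    have h3 : K * (∫ y : c.CS (c.ss π) π', η y ^ 2) * ‖β‖ ^ 2 * nrm (sub 9 (c.ss π)) (ψ n) ≤
        K * (∫ y : c.CS (c.ss π) π', η y ^ 2) * ‖β‖ ^ 2 * K₀ :=
      mul_le_mul_of_nonneg_left (hK₀ n) (by positivity)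
    have h4 : ε / (K₀ + 1) * c.NE (c.ss π) (g n) 1 (ψ n) ≤ ε / (K₀ + 1) * (K₀ + 1) :=
      mul_le_mul_of_nonneg_left hn' hε'.le
    rw [div_mul_cancel₀ _ (by positivity)] at h4
    linarith
  have hQ : ∀ α η, SmR (c.CS (c.ss π) π') η (c.Good π π') → ∀ β ∈ c.BK π π',
      Tendsto (fun n => c.LamQ π (c.ss π) π' (g n) 1 (eb α) (ψ n) η β) atTop (𝓝 0) := by
    intro α η hη β hβ
    obtain ⟨L, K', hL, hL'⟩ := h_wif π (c.ss π) π' hTh h η hη β hβ 1 (by simp)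
    have t1 : Tendsto (fun n => L (g n) (c.Q (c.ss π) (g n) 1 (eb α) (ψ n))) atTop (𝓝 0) := by
      refine sq_zero fun ε hε => ?_
      have t0 := hEn.const_mul |K'|
      rw [mul_zero] at t0
      filter_upwards [t0.eventually_le_const hε, hpos] with n hn hn'
      have h1 := (hL (g n) hn').2 _ (c.Q_mem_D hTh (g n) 1 (eb α) (hD n))
      have h2 : nrm (sub 9 (c.ss π)) (c.Q (c.ss π) (g n) 1 (eb α) (ψ n)) ≤
          c.En (c.ss π) (g n) 1 (ψ n) :=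
        Finset.single_le_sum (f := fun α => nrm (sub 9 (c.ss π))
          (c.Q (c.ss π) (g n) 1 (eb α) (ψ n))) (fun _ _ => nrm_nonneg _ _) (Finset.mem_univ α)
      exact h1.trans ((mul_le_mul (le_abs_self K') h2 (nrm_nonneg _ _) (abs_nonneg _)).trans hn)
    have t2 : Tendsto (fun n => L (g n) (c.Q (c.ss π) (g n) 1 (eb α) (ψ n)) -
        c.LamQ π (c.ss π) π' (g n) 1 (eb α) (ψ n) η β) atTop (𝓝 0) := by
      refine sq_zero fun ε hε => ?_
      have hε' : 0 < ε / (K₀ + 1) := by positivity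
      filter_upwards [hg.eventually (hL' _ hε'), hNE] with n hn hn'
      have h4 : ε / (K₀ + 1) * c.NE (c.ss π) (g n) 1 (ψ n) ≤ ε / (K₀ + 1) * (K₀ + 1) :=
        mul_le_mul_of_nonneg_left hn' hε'.le
      rw [div_mul_cancel₀ _ (by positivity)] at h4
      exact ((hn (ψ n) (hD n)).2 α).trans h4
    simpa using t1.sub t2
  refine (tendsto_iff_ultrafilter _ _ _).2 fun 𝒰 h𝒰 => ?_
  obtain ⟨L, hL⟩ : ∃ L : (Tn 9 d → ℝ) → LL (sub 9 (c.ss π')) F → ℂ, ∀ η β,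
      L η β = limUnder (𝒰 : Filter ℕ) fun n => c.Lamh π (c.ss π) π' (g n) (ψ n) η β :=
    ⟨_, fun _ _ => rfl⟩
  have hT : ∀ η, SmR (c.CS (c.ss π) π') η (c.Good π π') → ∀ β ∈ c.BK π π',
      Tendsto (fun n => c.Lamh π (c.ss π) π' (g n) (ψ n) η β) 𝒰 (𝓝 (L η β)) := by
    intro η hη β hβ
    rw [hL]
    exact exists_lim ((hbd η hη β hβ 1 one_pos).filter_mono h𝒰)
  have hpos' : ∀ᶠ n in (𝒰 : Filter ℕ), 0 < g n := hpos.filter_mono h𝒰
  have hz := vanish c h_sec h hβ₀ hV hη₁ hne L ?_ ?_ ?_ ?_ ?_ ?_ ?_ η hη β hβ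
  · rw [← hz]
    exact hT η hη β hβ
  · intro β hβ η η' hη hη' t
    refine tendsto_nhds_unique (hT _ (smR_lin hη hη' t) β hβ) ?_
    refine ((hT η hη β hβ).add ((hT η' hη' β hβ).const_mul (t : ℂ))).congr' ?_
    filter_upwards [hpos'] with n hn
    exact (h_lam.linηh π (c.ss π) π' hTh h (g n) hn (ψ n) (hS n) β η η' hη hη' t).symm
  · intro η hη β hβ β' hβ' z
    refine tendsto_nhds_unique (hT η hη _ (BK_lin c hβ hβ' z)) ?_
    refine ((hT η hη β hβ).add ((hT η hη β' hβ').const_mul ((starRingEnd ℂ) z))).congr' ?_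
    filter_upwards [hpos'] with n hn
    exact (h_lam.linβ π (c.ss π) π' hTh h _ (hhat η hη) (g n) hn (ψ n) (hS n) β β' z).symm
  · intro η η' β he
    rw [hL, hL]
    exact lim_congr (Eventually.of_forall fun n =>
      (h_lam.congrη π (c.ss π) π' (g n) (ψ n) η η' β he).2)
  · intro α η hη β hβ
    refine tendsto_nhds_unique ?_ ((hQ α η hη β hβ).mono_left h𝒰)
    refine tendsto_finsetSum _ fun k _ => Tendsto.add ?_ ?_
    · exact hT _ (hη.fderiv (onb_mem _ k)) _ (h_lm4.theta_BK π π' h _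
        (sub_mono inf_le_right (c.sE_mem _ (onb_mem _ k))) _ β hβ)
    · exact hT _ (hη.mul' (innerSL ℝ (onb (c.CS (c.ss π) π') k)).contDiff) _
        (h_lm4.theta_BK π π' h _ (sub_mono inf_le_right (c.Km_mem _ (onb_mem _ k))) _ β hβ)
  · intro β hβ
    refine ⟨K * ‖β‖ ^ 2 * K₀, fun η hη => le_of_forall_pos_le_add fun ε hε => ?_⟩
    exact le_of_tendsto ((hT η hη β hβ).norm.pow 2) ((hbd η hη β hβ ε hε).filter_mono h𝒰)
  · intro η hη β
    rw [hL, hL]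
    refine lim_congr ?_
    filter_upwards [hpos'] with n hn
    exact h_lam.P0 π π' h _ (hhat η hη) (g n) hn (ψ n) (hψ n) β
  · exact tendsto_nhds_unique (hT η₁ hη₁ β₀ (V_fix c h hβ₀).1) (h0.mono_left h𝒰)

end Ctx

end Vale.Agent.P353
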