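import Vale.Agent.P353.Stmts

/-! Macroscopic approximants of bound states. -/

noncomputable section

open MeasureTheory Filter Topology Complex Matrix
open scoped ContDiff RealInnerProductSpace

namespace Vale.Agent.P353

namespace ApxAux

variable {N d : ℕ} {F : Type} [NormedAddCommGroup F] [InnerProductSpace ℂ F]
  [FiniteDimensional ℂ F] (c : Ctx N d F)

theorem coer : ∃ K : ℝ, 0 ≤ K ∧ ∀ π, ∀ ψ : Tn 9 d → F, Sm (sub 9 (c.ss π)) ψ →
    8 * grad (sub 9 (c.ss π)) ψ + 4 * wnrm (sub 9 (c.ss π)) c.Fsq ψ ≤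
      c.En (c.ss π) 1 0 ψ + K * wnrm (sub 9 (c.ss π)) (fun x => ‖x‖) ψ := by
  obtain ⟨K, hK⟩ := c.norm_bil_le
  refine ⟨|K|, abs_nonneg _, fun π ψ hψ => ?_⟩
  obtain ⟨i1, e1⟩ := Cov4Aux.energy' c.car (fun α => c.contDiff_beta 1 0 (eb α))
    (c.iso (sub 9 (c.ss π)) 1 0) hψ
  have i2 := (Cov4Aux.integrable_gsq le_rfl hψ).const_mul 8
  have i3 := (hψ.integrable_wnrm c.contDiff_Fsq.continuous.continuousOn).const_mul 4
  have i4 := (hψ.integrable_wnrm (w := fun x => ‖x‖) continuous_norm.continuousOn).const_mul |K|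
  rw [Ctx.En, e1, grad, wnrm, wnrm, ← integral_const_mul, ← integral_const_mul,
    ← integral_const_mul, ← integral_add i2 i3, ← integral_add i1 i4]
  refine integral_mono (i2.add i3) (i1.add i4) fun x => ?_
  simp only [Cov4Aux.dens]
  have h1 := c.Pot_eq 1 0 x
  have h2 := (hK π _ (c.Th_ss π) 1 0 x x.2).trans (mul_le_mul_of_nonneg_right (le_abs_self K)
    (by positivity))
  have h3 := (abs_le.1 ((abs_re_le_norm _).trans ((norm_inner_le_norm (𝕜 := ℂ) (ψ x) _).trans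
    (mul_le_mul_of_nonneg_left ((ContinuousLinearMap.le_opNorm _ (ψ x)).trans
      (mul_le_mul_of_nonneg_right h2 (norm_nonneg _))) (norm_nonneg _))))).1
  rw [Ctx.Pot] at h1
  rw [h1]
  simp only [abs_one, abs_zero] at h3
  linarith

theorem step {π π' : Setoid (Fin N)} (h : π' ≤ π) {β : LL (sub 9 (c.ss π')) F}
    (hβ : β ∈ c.BK π π') {ε : ℝ} (hε : 0 < ε) : ∀ᶠ R : ℝ in atTop, ∃ φ ∈ c.D π' (c.ss π'),
      (∀ x, c.P0 (c.off π π') (φ x) = φ x) ∧ (∀ x ∈ sub 9 (c.ss π'), R < ‖x‖ → φ x = 0) ∧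
      ‖L2 _ φ - β‖ ≤ ε ∧ c.En (c.ss π') 1 0 φ ≤ ε / R ^ 2 ∧
      wnrm (sub 9 (c.ss π')) (fun x => ‖x‖) φ ≤ ε * R ∧
      wnrm (sub 9 (c.ss π')) (fun x => ‖x‖ ^ 2) φ ≤ ε * R ^ 2 := by
  filter_upwards [c.car.approx (fun α => c.contDiff_beta 1 0 (eb α)) (c.iso _ 1 0)
    (c.adm_Cinv (c.Th_ss π')) hβ.1 hε] with R ⟨φ, hφ, h1, h2, h3, h4, h5⟩
  have hn : ∀ a, ‖c.P0 (c.off π π') a‖ ≤ ‖a‖ := norm_vac_le _
  have hn' : ‖c.P0 (c.off π π')‖ ≤ 1 :=
    ContinuousLinearMap.opNorm_le_bound _ zero_le_one fun a => by rw [one_mul]; exact hn a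
  have hs : Sm (sub 9 (c.ss π')) φ := hφ.1
  have hm : (fun x => c.P0 (c.off π π') (φ x)) ∈ c.D π' (c.ss π') := by
    refine clm_mem_Tst hφ ?_
    rintro _ ⟨u, hu, rfl⟩
    exact (c.U_P0 (c.Ad_mem_iff fun x hx => c.Ad_mem_off h hu hx)).symm
  have hw : ∀ w : Tn 9 d → ℝ, Continuous w → (∀ x, 0 ≤ w x) →
      wnrm (sub 9 (c.ss π')) w (fun x => c.P0 (c.off π π') (φ x)) ≤
        wnrm (sub 9 (c.ss π')) w φ := fun w hw h0 =>
    integral_mono (Sm.integrable_wnrm hm.1 hw.continuousOn) (hs.integrable_wnrm hw.continuousOn)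
      fun x => mul_le_mul_of_nonneg_left (pow_le_pow_left₀ (norm_nonneg _) (hn _) 2) (h0 x)
  have ho : sub 16 (c.ss π') ≤ sub 16 (c.off π π')ᗮ :=
    sub_mono (inf_le_left.trans (c.off_isOrtho_blk π π').symm.le)
  refine ⟨_, hm, fun x => ?_, fun x hx hR => by rw [h1 x hx hR, map_zero], ?_, ?_,
    (hw _ continuous_norm norm_nonneg).trans h4,
    (hw _ (continuous_norm.pow 2) fun _ => sq_nonneg _).trans h5⟩
  · exact congrArg (fun a : F →L[ℂ] F => a (φ x)) (vac_idem (θ := c.θ) _)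
  · have e : L2 _ (fun x => c.P0 (c.off π π') (φ x)) - β =
        opL (sub 9 (c.ss π')) (c.P0 (c.off π π')) (L2 _ φ - β) := by
      rw [map_sub, hβ.2, opL_L2 _ hs.memLp]
    rw [e]
    have e1 : ‖opL (sub 9 (c.ss π')) (c.P0 (c.off π π'))‖ ≤ 1 := (norm_opL_le _).trans hn'
    have e2 := (opL (sub 9 (c.ss π')) (c.P0 (c.off π π'))).le_opNorm (L2 _ φ - β)
    exact e2.trans ((mul_le_of_le_one_left (norm_nonneg _) e1).trans h2)
  · refine (Ga5Aux.en_clm (σ := 1) (fun α => c.contDiff_beta 1 0 (eb α)) (Or.inl rfl)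
      (fun α x hx => ?_) hs).trans ((mul_le_of_le_one_left (en_nonneg _ _ _ _)
        (pow_le_one₀ (norm_nonneg _) hn')).trans h3)
    rw [one_smul, one_smul]
    exact ⟨c.P0_theta (ho (c.sE_mem _ hx)), c.P0_theta (ho (Cov4Aux.beta_mem c 1 0 _ hx))⟩

end ApxAux

namespace Ctx

variable {N d : ℕ} {F : Type} [NormedAddCommGroup F] [InnerProductSpace ℂ F]
  [FiniteDimensional ℂ F] (c : Ctx N d F)

theorem p_apx (_h_lmea : c.S_lmea) : c.S_apx := by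
  intro π π' h β hβ r hr ε hε
  obtain ⟨K, K0, hK⟩ := ApxAux.coer c
  obtain ⟨δ, hδ, d1, d2, d3, d4⟩ : ∃ δ > 0, δ ^ 2 ≤ ε ∧ δ / r ^ 2 ≤ ε ∧ K * (δ * r) ≤ ε ∧
      δ * r ^ 2 ≤ ε := by
    have t : ∀ f : ℝ → ℝ, Continuous f → f 0 = 0 → ∀ᶠ δ in 𝓝[>] (0 : ℝ), f δ ≤ ε :=
      fun f hf h0 => ((hf.tendsto' 0 0 h0).eventually (ge_mem_nhds hε)).filter_mono nhdsWithin_le_nhds
    obtain ⟨δ, a⟩ := ((eventually_mem_nhdsWithin (a := (0 : ℝ)) (s := Set.Ioi 0)).and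
      ((t (fun δ => δ ^ 2) (by fun_prop) (by simp)).and
      ((t (fun δ => δ / r ^ 2) (by fun_prop) (by simp)).and
      ((t (fun δ => K * (δ * r)) (by fun_prop) (by simp)).and
      (t (fun δ => δ * r ^ 2) (by fun_prop) (by simp)))))).exists
    exact ⟨δ, a⟩
  have hT : Tendsto (fun g => r * (ell g)⁻¹) atTop atTop :=
    Tendsto.const_mul_atTop hr (tendsto_inv_nhdsGT_zero.comp (tendsto_nhdsWithin_iff.2
      ⟨tendsto_ell, (eventually_gt_atTop 0).mono fun g hg => ell_pos hg⟩))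
  filter_upwards [hT.eventually (ApxAux.step c h hβ hδ), eventually_ge_atTop 1]
    with g ⟨φ, hφ, h0, h1, h2, h3, h4, h5⟩ hg
  have hg0 : 0 < g := one_pos.trans_le hg
  have hl := ell_pos hg0
  have hl3 := mul_ell_pow hg0
  set l := ell g
  have hs : Sm (sub 9 (c.ss π')) φ := hφ.1
  have hc := hK π' φ hs
  have g0 := grad_nonneg (sub 9 (c.ss π')) φ
  have w0 : 0 ≤ wnrm (sub 9 (c.ss π')) c.Fsq φ :=
    integral_nonneg fun x => mul_nonneg (c.Fsq_nonneg x) (sq_nonneg _)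
  have e3 : δ / (r * l⁻¹) ^ 2 = δ / r ^ 2 * l ^ 2 := by field_simp
  have h4' : K * wnrm (sub 9 (c.ss π')) (fun x => ‖x‖) φ ≤ ε * l⁻¹ := by
    refine (mul_le_mul_of_nonneg_left h4 K0).trans ?_
    rw [← mul_assoc δ, ← mul_assoc K]
    exact mul_le_mul_of_nonneg_right d3 (inv_pos.2 hl).le
  have h3' : c.En (c.ss π') 1 0 φ ≤ ε * l ^ 2 :=
    h3.trans (e3.le.trans (mul_le_mul_of_nonneg_right d2 (sq_nonneg _)))
  have hgl : g = l⁻¹ / l ^ 2 := by
    field_simp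
    linarith
  have hl2 : l ^ 2 ≤ l⁻¹ := by
    rw [hgl, le_div_iff₀ (by positivity)] at hg
    linarith
  have hb : c.En (c.ss π') 1 0 φ + K * wnrm (sub 9 (c.ss π')) (fun x => ‖x‖) φ ≤ 2 * ε * l⁻¹ := by
    nlinarith [mul_le_mul_of_nonneg_left hl2 hε.le]
  refine ⟨dil (sub 9 (c.ss π')) l φ, dil_mem_Tst hl hφ, fun x => ?_, fun x hx hR => ?_,
    ?_, ?_, ?_, ?_, ?_⟩
  · rw [dil, map_smul, h0]
  · rw [dil, h1 _ (Submodule.smul_mem _ _ hx), smul_zero]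
    rw [norm_smul, Real.norm_of_nonneg (inv_pos.2 hl).le, mul_comm]
    exact mul_lt_mul_of_pos_left hR (inv_pos.2 hl)
  · have : dil (sub 9 (c.ss π')) l φ - dil (sub 9 (c.ss π')) l (rep _ β) =
        dil (sub 9 (c.ss π')) l (φ - rep _ β) := by
      funext x
      simp only [dil, Pi.sub_apply, smul_sub]
    rw [this, nrm_dil _ hl, ← norm_L2_sq (hs.memLp.sub (memLp_rep β)),
      L2_sub hs.memLp (memLp_rep β), L2_rep]
    exact (pow_le_pow_left₀ (norm_nonneg _) h2 2).trans d1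
  · rw [c.En_dil _ hl, hl3, zero_mul, div_le_iff₀ (by positivity)]
    exact h3'
  · rw [grad_dil _ hl, hgl, ← mul_div_assoc]
    refine div_le_div_of_nonneg_right ?_ (sq_nonneg _)
    nlinarith [mul_pos hε (inv_pos.2 hl)]
  · have : wnrm (sub 9 (c.ss π')) (fun x => c.Fsq (l • x)) φ =
        l ^ 4 * wnrm (sub 9 (c.ss π')) c.Fsq φ := by
      simp only [wnrm, c.Fsq_smul, mul_assoc, integral_const_mul]
    rw [wnrm_dil _ hl, this, ← mul_assoc, show g * l ^ 4 = l by rw [pow_succ, ← mul_assoc, hl3, one_mul]]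
    have h6 : wnrm (sub 9 (c.ss π')) c.Fsq φ ≤ ε * l⁻¹ := by
      nlinarith [mul_pos hε (inv_pos.2 hl)]
    refine (mul_le_mul_of_nonneg_left h6 hl.le).trans (le_of_eq ?_)
    field_simp
  · have : wnrm (sub 9 (c.ss π')) (fun x => ‖l • x‖ ^ 2) φ =
        l ^ 2 * wnrm (sub 9 (c.ss π')) (fun x => ‖x‖ ^ 2) φ := by
      simp only [wnrm, norm_smul, mul_pow, Real.norm_eq_abs, sq_abs, mul_assoc, integral_const_mul]
    rw [wnrm_dil _ hl, this]
    refine (mul_le_mul_of_nonneg_left h5 (sq_nonneg _)).trans (le_trans (le_of_eq ?_) d4)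
    field_simp

end Ctx

end Vale.Agent.P353
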