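import Vale.Agent.P353.Ctx

/-! Area inequality with multiplicity. -/

noncomputable section

open MeasureTheory Filter Topology Complex Matrix
open scoped ContDiff RealInnerProductSpace

namespace Vale.Agent.P353

theorem area_le {E : Type} [NormedAddCommGroup E] [NormedSpace ℝ E] [FiniteDimensional ℝ E]
    [MeasurableSpace E] [BorelSpace E] (μ : Measure E) [μ.IsAddHaarMeasure] {Ψ : E → E}
    {O : Set E} (hO : IsOpen O) (hΨ : ContDiffOn ℝ 1 Ψ O) (hd : ∀ x ∈ O, (fderiv ℝ Ψ x).det ≠ 0)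
    {M : ℕ} (hM : ∀ y, (O ∩ Ψ ⁻¹' {y}).encard ≤ M) {f : E → ENNReal} (hf : Measurable f) :
    ∫⁻ x in O, ENNReal.ofReal |(fderiv ℝ Ψ x).det| * f (Ψ x) ∂μ ≤ M * ∫⁻ y, f y ∂μ := by
  obtain ⟨U, hU⟩ := Set.Countable.exists_eq_range (s := {V ∈ insert ∅
    (TopologicalSpace.countableBasis E) | V ⊆ O ∧ Set.InjOn Ψ V})
    (((TopologicalSpace.countable_countableBasis E).insert ∅).mono fun _ h => h.1)
    ⟨∅, Set.mem_insert _ _, Set.empty_subset _, Set.injOn_empty _⟩
  have h1 := fun n => (hU ▸ Set.mem_range_self n : U n ∈ _)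
  have h2 : ∀ n, MeasurableSet (disjointed U n) := MeasurableSet.disjointed fun n => by
    rcases (h1 n).1 with h | h
    · exact h ▸ MeasurableSet.empty
    · exact (TopologicalSpace.isOpen_of_mem_countableBasis h).measurableSet
  have h3 : ⋃ n, disjointed U n = O := by
    rw [iUnion_disjointed]
    refine (Set.iUnion_subset fun n => (h1 n).2.1).antisymm fun x hx => ?_
    have k : HasStrictFDerivAt Ψ
        ((fderiv ℝ Ψ x).toContinuousLinearEquivOfDetNeZero (hd x hx) : E →L[ℝ] E) x :=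
      (hΨ.contDiffAt (hO.mem_nhds hx)).hasStrictFDerivAt one_ne_zero
    obtain ⟨V, v1, v2, v3⟩ := (TopologicalSpace.isBasis_countableBasis E).mem_nhds_iff.1
      (inter_mem (hO.mem_nhds hx) k.eventually_left_inverse)
    obtain ⟨n, rfl⟩ : V ∈ Set.range U := hU ▸ ⟨Set.mem_insert_of_mem _ v1, fun y hy => (v3 hy).1,
      Set.LeftInvOn.injOn fun y hy => (v3 hy).2⟩
    exact Set.mem_iUnion.2 ⟨n, v2⟩
  have h4 : ∀ n, ∀ x ∈ disjointed U n, HasFDerivWithinAt Ψ (fderiv ℝ Ψ x) (disjointed U n) x :=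
    fun n x hx => ((hΨ.contDiffAt (hO.mem_nhds ((h1 n).2.1 (disjointed_subset U n hx)))).differentiableAt
      one_ne_zero).hasFDerivAt.hasFDerivWithinAt
  have h5 : ∀ n, Set.InjOn Ψ (disjointed U n) := fun n => (h1 n).2.2.mono (disjointed_subset U n)
  have h6 := fun n => measurable_image_of_fderivWithin (h2 n) (h4 n) (h5 n)
  rw [← h3, lintegral_iUnion h2 (disjoint_disjointed U), ← lintegral_const_mul _ hf,
    tsum_congr fun n => ((lintegral_image_eq_lintegral_abs_det_fderiv_mul μ (h2 n) (h4 n) (h5 n)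
      f).symm.trans (lintegral_indicator (h6 n) f).symm),
    ← lintegral_tsum fun n => (hf.indicator (h6 n)).aemeasurable]
  refine lintegral_mono fun y => ?_
  choose! g g1 g2 using fun n (hn : n ∈ {n | y ∈ Ψ '' disjointed U n}) => hn
  have k : {n | y ∈ Ψ '' disjointed U n}.encard ≤ M :=
    (Set.encard_le_encard_of_injOn (f := g) (t := O ∩ Ψ ⁻¹' {y}) (fun n hn =>
      ⟨(h1 n).2.1 (disjointed_subset U n (g1 n hn)), g2 n hn⟩) fun n hn m hm e => by
        by_contra hne
        exact Set.disjoint_left.1 (disjoint_disjointed U hne) (g1 n hn) (e ▸ g1 m hm)).trans (hM y)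
  calc _ = ∑' n, {n | y ∈ Ψ '' disjointed U n}.indicator (fun _ => f y) n := rfl
    _ = _ := (tsum_subtype _ _).symm.trans (ENNReal.tsum_set_const _ _)
    _ ≤ _ := mul_le_mul_left (by exact_mod_cast k) _

end Vale.Agent.P353
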