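import Vale.Agent.P353.Loc

/-! Tensor basics. -/

noncomputable section

open MeasureTheory Filter Topology Complex Matrix
open scoped ContDiff RealInnerProductSpace

namespace Vale.Agent.P353

variable {n n' n'' d : ℕ}

@[simp] theorem cmp_apply (i : Fin n) (x : Tn n d) (A : Fin d) : cmp i x A = x (i, A) := rfl

@[simp] theorem tens_apply (a : Fin n → ℝ) (y : Lg d) (p : Fin n × Fin d) :
    tens a y p = a p.1 * y p.2 := rfl

theorem cmp_tens (i : Fin n) (a : Fin n → ℝ) (y : Lg d) : cmp i (tens a y) = a i • y := by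
  ext A
  simp

theorem ext_cmp {x y : Tn n d} (h : ∀ i, cmp i x = cmp i y) : x = y := by
  ext ⟨i, A⟩
  exact congrArg (fun z : Lg d => z A) (h i)

theorem sum_tens_cmp (x : Tn n d) : ∑ i, tens (Pi.single i 1) (cmp i x) = x := by
  ext ⟨j, A⟩
  simp [Pi.single_apply]

theorem inner_eq_sum_cmp (x y : Tn n d) : ⟪x, y⟫ = ∑ i, ⟪cmp i x, cmp i y⟫ := by
  simp only [PiLp.inner_apply, Fintype.sum_prod_type, cmp_apply]

theorem norm_sq_eq_sum_cmp (x : Tn n d) : ‖x‖ ^ 2 = ∑ i, ‖cmp i x‖ ^ 2 := by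
  simp only [← real_inner_self_eq_norm_sq, inner_eq_sum_cmp]

theorem norm_cmp_le (i : Fin n) (x : Tn n d) : ‖cmp i x‖ ≤ ‖x‖ := by
  refine (pow_le_pow_iff_left₀ (norm_nonneg _) (norm_nonneg _) two_ne_zero).1 ?_
  rw [norm_sq_eq_sum_cmp x]
  exact Finset.single_le_sum (f := fun i => ‖cmp i x‖ ^ 2) (fun _ _ => sq_nonneg _)
    (Finset.mem_univ i)

theorem inner_tens (a b : Fin n → ℝ) (y z : Lg d) :
    ⟪tens a y, tens b z⟫ = (a ⬝ᵥ b) * ⟪y, z⟫ := by
  simp only [inner_eq_sum_cmp, cmp_tens, real_inner_smul_left, real_inner_smul_right, dotProduct,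
    Finset.sum_mul]
  exact Finset.sum_congr rfl fun i _ => by ring

theorem inner_tens_left (a : Fin n → ℝ) (y : Lg d) (x : Tn n d) :
    ⟪tens a y, x⟫ = ⟪y, cv a x⟫ := by
  simp only [inner_eq_sum_cmp, cmp_tens, cv, _root_.sum_apply, _root_.smul_apply, inner_sum,
    real_inner_smul_left, real_inner_smul_right]

theorem tens_add (a b : Fin n → ℝ) (y : Lg d) : tens (a + b) y = tens a y + tens b y := by
  ext p
  simp [add_mul]

theorem tens_smul (t : ℝ) (a : Fin n → ℝ) (y : Lg d) : tens (t • a) y = t • tens a y := by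
  ext p
  simp [mul_assoc]

theorem tens_neg (a : Fin n → ℝ) (y : Lg d) : tens (-a) y = -tens a y := by
  ext p
  simp

theorem tens_sum {ι : Type} (s : Finset ι) (a : ι → Fin n → ℝ) (y : Lg d) :
    tens (∑ j ∈ s, a j) y = ∑ j ∈ s, tens (a j) y := by
  ext p
  simp [Finset.sum_mul]

theorem cv_apply (v : Fin n → ℝ) (x : Tn n d) : cv v x = ∑ i, v i • cmp i x := by
  simp only [cv, _root_.sum_apply, _root_.smul_apply]

theorem cv_tens (v a : Fin n → ℝ) (y : Lg d) : cv v (tens a y) = (v ⬝ᵥ a) • y := by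
  simp only [cv_apply, cmp_tens, smul_smul, dotProduct, Finset.sum_smul]

theorem cmp_kr (M : Matrix (Fin n') (Fin n) ℝ) (a : Lg d →L[ℝ] Lg d) (i : Fin n') (x : Tn n d) :
    cmp i (kr M a x) = ∑ j, M i j • a (cmp j x) := by
  simp only [kr, _root_.sum_apply, ContinuousLinearMap.comp_apply, map_sum, cmp_tens]

theorem cmp_kr_one (a : Lg d →L[ℝ] Lg d) (i : Fin n) (x : Tn n d) :
    cmp i (kr 1 a x) = a (cmp i x) := by
  simp [cmp_kr, Matrix.one_apply]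

theorem cv_kr_one (v : Fin n → ℝ) (a : Lg d →L[ℝ] Lg d) (x : Tn n d) :
    cv v (kr 1 a x) = a (cv v x) := by
  simp only [cv_apply, cmp_kr_one, map_sum, map_smul]

theorem kr_tens (M : Matrix (Fin n') (Fin n) ℝ) (a : Lg d →L[ℝ] Lg d) (v : Fin n → ℝ) (y : Lg d) :
    kr M a (tens v y) = tens (M *ᵥ v) (a y) := by
  refine ext_cmp fun i => ?_
  simp only [cmp_kr, cmp_tens, map_smul, smul_smul, Matrix.mulVec, dotProduct, Finset.sum_smul]

theorem kr_comp (M : Matrix (Fin n'') (Fin n') ℝ) (M' : Matrix (Fin n') (Fin n) ℝ)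
    (a a' : Lg d →L[ℝ] Lg d) : kr M a ∘L kr M' a' = kr (M * M') (a * a') := by
  refine ContinuousLinearMap.ext fun x => ext_cmp fun i => ?_
  simp only [ContinuousLinearMap.comp_apply, cmp_kr, map_sum, map_smul, Finset.smul_sum, smul_smul,
    Matrix.mul_apply, Finset.sum_smul, mul_apply_eq_comp]
  exact Finset.sum_comm

theorem kr_mul (M M' : Matrix (Fin n) (Fin n) ℝ) (a a' : Lg d →L[ℝ] Lg d) :
    kr M a * kr M' a' = kr (M * M') (a * a') := kr_comp M M' a a'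

theorem kr_one : kr (1 : Matrix (Fin n) (Fin n) ℝ) (1 : Lg d →L[ℝ] Lg d) = 1 := by
  exact ContinuousLinearMap.ext fun x => ext_cmp fun i => cmp_kr_one 1 i x

theorem kr_add_left (M M' : Matrix (Fin n') (Fin n) ℝ) (a : Lg d →L[ℝ] Lg d) :
    kr (M + M') a = kr M a + kr M' a := by
  refine ContinuousLinearMap.ext fun x => ext_cmp fun i => ?_
  simp [cmp_kr, add_smul, Finset.sum_add_distrib]

theorem kr_add_right (M : Matrix (Fin n') (Fin n) ℝ) (a a' : Lg d →L[ℝ] Lg d) :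
    kr M (a + a') = kr M a + kr M a' := by
  refine ContinuousLinearMap.ext fun x => ext_cmp fun i => ?_
  simp [cmp_kr, Finset.sum_add_distrib]

theorem kr_smul_left (t : ℝ) (M : Matrix (Fin n') (Fin n) ℝ) (a : Lg d →L[ℝ] Lg d) :
    kr (t • M) a = t • kr M a := by
  refine ContinuousLinearMap.ext fun x => ext_cmp fun i => ?_
  simp [cmp_kr, Finset.smul_sum, smul_smul]

theorem kr_smul_right (t : ℝ) (M : Matrix (Fin n') (Fin n) ℝ) (a : Lg d →L[ℝ] Lg d) :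
    kr M (t • a) = t • kr M a := by
  refine ContinuousLinearMap.ext fun x => ext_cmp fun i => ?_
  simp [cmp_kr, Finset.smul_sum, smul_smul, mul_comm]

theorem kr_neg_left (M : Matrix (Fin n') (Fin n) ℝ) (a : Lg d →L[ℝ] Lg d) :
    kr (-M) a = -kr M a := by
  refine ContinuousLinearMap.ext fun x => ext_cmp fun i => ?_
  simp [cmp_kr]

theorem kr_neg_right (M : Matrix (Fin n') (Fin n) ℝ) (a : Lg d →L[ℝ] Lg d) :
    kr M (-a) = -kr M a := by
  refine ContinuousLinearMap.ext fun x => ext_cmp fun i => ?_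
  simp [cmp_kr]

theorem kr_sub_right (M : Matrix (Fin n') (Fin n) ℝ) (a a' : Lg d →L[ℝ] Lg d) :
    kr M (a - a') = kr M a - kr M a' := by
  refine ContinuousLinearMap.ext fun x => ext_cmp fun i => ?_
  simp [cmp_kr, smul_sub]

theorem kr_zero_right (M : Matrix (Fin n') (Fin n) ℝ) : kr M (0 : Lg d →L[ℝ] Lg d) = 0 := by
  refine ContinuousLinearMap.ext fun x => ext_cmp fun i => ?_
  simp [cmp_kr]

theorem kr_sum_left {ι : Type} (s : Finset ι) (M : ι → Matrix (Fin n') (Fin n) ℝ)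
    (a : Lg d →L[ℝ] Lg d) : kr (∑ j ∈ s, M j) a = ∑ j ∈ s, kr (M j) a := by
  refine ContinuousLinearMap.ext fun x => ext_cmp fun i => ?_
  simp only [cmp_kr, _root_.sum_apply, map_sum, Matrix.sum_apply, Finset.sum_smul]
  exact Finset.sum_comm

theorem kr_sum_right {ι : Type} (s : Finset ι) (M : Matrix (Fin n') (Fin n) ℝ)
    (a : ι → Lg d →L[ℝ] Lg d) : kr M (∑ j ∈ s, a j) = ∑ j ∈ s, kr M (a j) := by
  refine ContinuousLinearMap.ext fun x => ext_cmp fun i => ?_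
  simp only [cmp_kr, _root_.sum_apply, map_sum, Finset.smul_sum]
  exact Finset.sum_comm

/-- `kr M` as a continuous linear map in the second argument -/
theorem exists_krL (M : Matrix (Fin n') (Fin n) ℝ) :
    ∃ L : (Lg d →L[ℝ] Lg d) →L[ℝ] (Tn n d →L[ℝ] Tn n' d), ∀ a, L a = kr M a := by
  exact ⟨LinearMap.toContinuousLinearMap
    { toFun := kr M, map_add' := kr_add_right M, map_smul' := fun t a => kr_smul_right t M a },
    fun _ => rfl⟩

theorem inner_kr (M : Matrix (Fin n') (Fin n) ℝ) (a b : Lg d →L[ℝ] Lg d)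
    (h : ∀ u v, ⟪a u, v⟫ = ⟪u, b v⟫) (x : Tn n d) (y : Tn n' d) :
    ⟪kr M a x, y⟫ = ⟪x, kr Mᵀ b y⟫ := by
  simp only [inner_eq_sum_cmp, cmp_kr, sum_inner, inner_sum, real_inner_smul_left,
    real_inner_smul_right, h, Matrix.transpose_apply]
  exact Finset.sum_comm

theorem norm_kr_one_le (a : Lg d →L[ℝ] Lg d) :
    ‖kr (1 : Matrix (Fin n) (Fin n) ℝ) a‖ ≤ ‖a‖ := by
  refine ContinuousLinearMap.opNorm_le_bound _ (norm_nonneg _) fun x => ?_
  refine (pow_le_pow_iff_left₀ (norm_nonneg _) (by positivity) two_ne_zero).1 ?_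
  rw [mul_pow, norm_sq_eq_sum_cmp, norm_sq_eq_sum_cmp, Finset.mul_sum]
  refine Finset.sum_le_sum fun i _ => ?_
  rw [cmp_kr_one, ← mul_pow]
  exact pow_le_pow_left₀ (norm_nonneg _) (a.le_opNorm _) 2

theorem trR_kr (M : Matrix (Fin n) (Fin n) ℝ) (a : Lg d →L[ℝ] Lg d) :
    trR (kr M a) = M.trace * trR a := by
  have e : ∀ p : Fin n × Fin d, EuclideanSpace.basisFun (Fin n × Fin d) ℝ p =
      tens (Pi.single p.1 1) (EuclideanSpace.basisFun (Fin d) ℝ p.2) := by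
    rintro ⟨i, A⟩
    ext ⟨j, B⟩
    by_cases h1 : j = i <;> by_cases h2 : B = A <;> simp [h1, h2]
  unfold trR
  rw [LinearMap.trace_eq_sum_inner _ (EuclideanSpace.basisFun (Fin n × Fin d) ℝ),
    LinearMap.trace_eq_sum_inner _ (EuclideanSpace.basisFun (Fin d) ℝ), Fintype.sum_prod_type,
    Matrix.trace, Finset.sum_mul_sum]
  simp only [e, ContinuousLinearMap.coe_coe, kr_tens, inner_tens]
  simp

theorem exp_kr_one (a : Lg d →L[ℝ] Lg d) :
    NormedSpace.exp (kr (1 : Matrix (Fin n) (Fin n) ℝ) a) = kr 1 (NormedSpace.exp a) := by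
  obtain ⟨L, hL⟩ := exists_krL (d := d) (1 : Matrix (Fin n) (Fin n) ℝ)
  let f : (Lg d →L[ℝ] Lg d) →+* (Tn n d →L[ℝ] Tn n d) :=
    { toFun := kr 1
      map_one' := kr_one
      map_mul' := fun a b => by rw [kr_mul, Matrix.mul_one]
      map_zero' := kr_zero_right 1
      map_add' := kr_add_right 1 }
  have hf : Continuous f := L.continuous.congr hL
  exact (NormedSpace.map_exp_of_mem_ball (𝕂 := ℝ) f hf a
    ((NormedSpace.expSeries_radius_eq_top ℝ (Lg d →L[ℝ] Lg d)).symm ▸ edist_lt_top _ _)).symm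

theorem mem_sub {𝔞 : Submodule ℝ (Lg d)} {x : Tn n d} : x ∈ sub n 𝔞 ↔ ∀ i, cmp i x ∈ 𝔞 := by
  simp [sub, Submodule.mem_iInf]

theorem tens_mem_sub {𝔞 : Submodule ℝ (Lg d)} (a : Fin n → ℝ) {y : Lg d} (hy : y ∈ 𝔞) :
    tens a y ∈ sub n 𝔞 := by
  exact mem_sub.2 fun i => cmp_tens i a y ▸ 𝔞.smul_mem _ hy

theorem cv_mem {𝔞 : Submodule ℝ (Lg d)} (v : Fin n → ℝ) {x : Tn n d} (hx : x ∈ sub n 𝔞) :
    cv v x ∈ 𝔞 := by
  rw [cv_apply]
  exact 𝔞.sum_mem fun i _ => 𝔞.smul_mem _ (mem_sub.1 hx i)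

theorem sub_starProjection (𝔞 : Submodule ℝ (Lg d)) :
    (sub n 𝔞).starProjection = kr 1 𝔞.starProjection := by
  refine ContinuousLinearMap.ext fun x => Submodule.eq_starProjection_of_mem_of_inner_eq_zero
    (mem_sub.2 fun i => ?_) fun w hw => ?_
  · rw [cmp_kr_one]
    exact 𝔞.starProjection_apply_mem _
  · rw [inner_eq_sum_cmp]
    refine Finset.sum_eq_zero fun i _ => ?_
    rw [map_sub, cmp_kr_one]
    exact Submodule.starProjection_inner_eq_zero _ _ (mem_sub.1 hw i)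

theorem Bas1Aux.cv_single (i : Fin n) (x : Tn n d) : cv (Pi.single i 1) x = cmp i x := by
  simp [cv_apply, Pi.single_apply]

theorem sub_orthogonal (𝔞 : Submodule ℝ (Lg d)) : (sub n 𝔞)ᗮ = sub n 𝔞ᗮ := by
  ext x
  rw [mem_sub, Submodule.mem_orthogonal]
  refine ⟨fun h i => (Submodule.mem_orthogonal _ _).2 fun u hu => ?_, fun h u hu => ?_⟩
  · have := h _ (tens_mem_sub (Pi.single i 1) hu)
    rwa [inner_tens_left, Bas1Aux.cv_single] at this
  · rw [inner_eq_sum_cmp]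
    exact Finset.sum_eq_zero fun i _ => (Submodule.mem_orthogonal _ _).1 (h i) _ (mem_sub.1 hu i)

theorem sub_inf (𝔞 𝔟 : Submodule ℝ (Lg d)) : sub n (𝔞 ⊓ 𝔟) = sub n 𝔞 ⊓ sub n 𝔟 := by
  ext x
  simp only [mem_sub, Submodule.mem_inf, forall_and]

theorem sub_sup (𝔞 𝔟 : Submodule ℝ (Lg d)) : sub n (𝔞 ⊔ 𝔟) = sub n 𝔞 ⊔ sub n 𝔟 := by
  refine le_antisymm (fun x hx => ?_) (sup_le (fun x hx => mem_sub.2 fun i =>
    Submodule.mem_sup_left (mem_sub.1 hx i)) fun x hx => mem_sub.2 fun i =>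
    Submodule.mem_sup_right (mem_sub.1 hx i))
  rw [← sum_tens_cmp x]
  refine Submodule.sum_mem _ fun i _ => ?_
  obtain ⟨y, hy, z, hz, h⟩ := Submodule.mem_sup.1 (mem_sub.1 hx i)
  rw [← h, map_add]
  exact Submodule.add_mem_sup (tens_mem_sub _ hy) (tens_mem_sub _ hz)

theorem sub_mono {𝔞 𝔟 : Submodule ℝ (Lg d)} (h : 𝔞 ≤ 𝔟) : sub n 𝔞 ≤ sub n 𝔟 := by
  exact fun x hx => mem_sub.2 fun i => h (mem_sub.1 hx i)

theorem sub_isOrtho {𝔞 𝔟 : Submodule ℝ (Lg d)} (h : 𝔞 ⟂ 𝔟) : sub n 𝔞 ⟂ sub n 𝔟 := by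
  rw [Submodule.isOrtho_iff_le, sub_orthogonal]
  exact sub_mono h

theorem sub_top : sub n (⊤ : Submodule ℝ (Lg d)) = ⊤ := by
  ext x
  simp [mem_sub]

theorem sub_bot : sub n (⊥ : Submodule ℝ (Lg d)) = ⊥ := by
  refine (Submodule.eq_bot_iff _).2 fun x hx => ext_cmp fun i => ?_
  rw [map_zero]
  exact mem_sub.1 hx i

namespace Bas1Aux

section

variable {E V : Type} [NormedAddCommGroup E] [InnerProductSpace ℝ E] [FiniteDimensional ℝ E]
  [NormedAddCommGroup V] [NormedSpace ℝ V]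

theorem frame {ι : Type} [Fintype ι] (b : ι → E) (f : E →L[ℝ] E →L[ℝ] V) :
    ∑ k, f (b k) (b k) = ∑ p, f (stdOrthonormalBasis ℝ E p)
      (∑ k, ⟪b k, stdOrthonormalBasis ℝ E p⟫ • b k) := by
  simp only [map_sum, map_smul]
  rw [Finset.sum_comm]
  refine Finset.sum_congr rfl fun k _ => ?_
  conv_lhs => enter [1, 2]; rw [← (stdOrthonormalBasis ℝ E).sum_repr' (b k)]
  simp only [map_sum, map_smul, _root_.sum_apply, _root_.smul_apply, real_inner_comm]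

theorem onb_frame (U : Submodule ℝ E) (x : E) :
    ∑ k, ⟪onb U k, x⟫ • onb U k = U.starProjection x := by
  rw [(stdOrthonormalBasis ℝ U).starProjection_eq_sum_rankOne]
  simp [onb]

theorem inner_onb (U : Submodule ℝ E) (k : Fin (Module.finrank ℝ U)) : ⟪onb U k, onb U k⟫ = 1 := by
  rw [real_inner_self_eq_norm_sq, onb, ← Submodule.coe_norm, (stdOrthonormalBasis ℝ U).norm_eq_one,
    one_pow]

end

theorem tens_frame (𝔞 : Submodule ℝ (Lg d)) (v : Fin n → ℝ) (x : Tn n d) :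
    ∑ a, ⟪tens v (onb 𝔞 a), x⟫ • tens v (onb 𝔞 a) = tens v (𝔞.starProjection (cv v x)) := by
  simp only [← onb_frame, map_sum, map_smul, inner_tens_left]

theorem onb_sub {V : Type} [NormedAddCommGroup V] [NormedSpace ℝ V] (𝔞 : Submodule ℝ (Lg d))
    (f : Tn n d →L[ℝ] Tn n d →L[ℝ] V) :
    ∑ k, f (onb (sub n 𝔞) k) (onb (sub n 𝔞) k) =
      ∑ i, ∑ a, f (tens (Pi.single i 1) (onb 𝔞 a)) (tens (Pi.single i 1) (onb 𝔞 a)) := by
  rw [frame, Finset.sum_congr rfl fun i _ => frame (fun a => tens (Pi.single i 1) (onb 𝔞 a)) f,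
    Finset.sum_comm]
  refine Finset.sum_congr rfl fun p _ => ?_
  rw [← map_sum, onb_frame, sub_starProjection, ← sum_tens_cmp (kr 1 _ _)]
  simp only [tens_frame, cv_single, cmp_kr_one]

theorem Wsl_proj (𝔴 : Submodule ℝ (Lg d)) {v : Fin 9 → ℝ} (hv : v ⬝ᵥ v = 1) (x : Tn 9 d) :
    (sub 9 𝔴).starProjection x =
      (Wsl 𝔴 v).starProjection x + tens v (𝔴.starProjection (cv v x)) := by
  rw [← sub_eq_iff_eq_add]
  refine (Submodule.eq_starProjection_of_mem_of_inner_eq_zero (K := Wsl 𝔴 v)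
    (Submodule.mem_inf.2 ⟨(sub 9 𝔴).sub_mem ((sub 9 𝔴).starProjection_apply_mem x)
      (tens_mem_sub v (𝔴.starProjection_apply_mem _)), ?_⟩) fun w hw => ?_).symm
  · change cv v (_ - _) = 0
    rw [map_sub, cv_tens, hv, one_smul, sub_starProjection, cv_kr_one, sub_self]
  · have h : cv v w = 0 := hw.2
    rw [← sub_add, inner_add_left, inner_tens_left, h, inner_zero_right, add_zero]
    exact Submodule.starProjection_inner_eq_zero _ _ hw.1

end Bas1Aux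

theorem finrank_sub (𝔞 : Submodule ℝ (Lg d)) :
    Module.finrank ℝ (sub n 𝔞) = n * Module.finrank ℝ 𝔞 := by
  have h : ∑ k, ⟪onb (sub n 𝔞) k, onb (sub n 𝔞) k⟫ =
      ∑ i, ∑ a, ⟪tens (Pi.single i 1) (onb 𝔞 a), tens (Pi.single i 1) (onb 𝔞 a)⟫ :=
    Bas1Aux.onb_sub 𝔞 (innerSL ℝ (E := Tn n d))
  simp only [inner_tens, Bas1Aux.inner_onb] at h
  simp at h
  exact_mod_cast h

/-- a bilinear sum over an orthonormal basis of `sub n 𝔞` -/
theorem sum_onb_sub {V : Type} [NormedAddCommGroup V] [NormedSpace ℝ V] (𝔞 : Submodule ℝ (Lg d))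
    (f : Tn n d →L[ℝ] Tn n d →L[ℝ] V) :
    ∑ k, f (onb (sub n 𝔞) k) (onb (sub n 𝔞) k) =
      ∑ i, ∑ a, f (tens (Pi.single i 1) (onb 𝔞 a)) (tens (Pi.single i 1) (onb 𝔞 a)) := by
  exact Bas1Aux.onb_sub 𝔞 f

/-- the slice: `sub 9 𝔴` is the orthogonal sum of `Wsl 𝔴 v` and `v ⊗ 𝔴` -/
theorem sum_onb_Wsl {V : Type} [NormedAddCommGroup V] [NormedSpace ℝ V] (𝔴 : Submodule ℝ (Lg d))
    {v : Fin 9 → ℝ} (hv : v ⬝ᵥ v = 1) (f : Tn 9 d →L[ℝ] Tn 9 d →L[ℝ] V) :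
    ∑ k, f (onb (sub 9 𝔴) k) (onb (sub 9 𝔴) k) =
      ∑ k, f (onb (Wsl 𝔴 v) k) (onb (Wsl 𝔴 v) k) +
        ∑ a, f (tens v (onb 𝔴 a)) (tens v (onb 𝔴 a)) := by
  rw [Bas1Aux.frame, Bas1Aux.frame (onb (Wsl 𝔴 v)), Bas1Aux.frame fun a => tens v (onb 𝔴 a),
    ← Finset.sum_add_distrib]
  refine Finset.sum_congr rfl fun p _ => ?_
  rw [← map_add, Bas1Aux.onb_frame, Bas1Aux.onb_frame, Bas1Aux.tens_frame, Bas1Aux.Wsl_proj 𝔴 hv]

theorem finrank_Wsl (𝔴 : Submodule ℝ (Lg d)) {v : Fin 9 → ℝ} (hv : v ⬝ᵥ v = 1) :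
    Module.finrank ℝ (Wsl 𝔴 v) = 8 * Module.finrank ℝ 𝔴 := by
  have h : ∑ k, ⟪onb (sub 9 𝔴) k, onb (sub 9 𝔴) k⟫ = ∑ k, ⟪onb (Wsl 𝔴 v) k, onb (Wsl 𝔴 v) k⟫ +
      ∑ a, ⟪tens v (onb 𝔴 a), tens v (onb 𝔴 a)⟫ := sum_onb_Wsl 𝔴 hv (innerSL ℝ (E := Tn 9 d))
  simp only [inner_tens, Bas1Aux.inner_onb, hv] at h
  simp only [Finset.sum_const, Finset.card_univ, Fintype.card_fin, nsmul_eq_mul, mul_one] at h
  have h2 := finrank_sub (n := 9) 𝔴
  have h3 : Module.finrank ℝ (sub 9 𝔴) = Module.finrank ℝ (Wsl 𝔴 v) + Module.finrank ℝ 𝔴 := by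
    exact_mod_cast h
  omega

end Vale.Agent.P353
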