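import Mathlib

/-! Exponentials and logarithms in Banach algebras and matrix algebras. -/

noncomputable section

open Complex Matrix NormedSpace
open scoped Nat

namespace Vale.Agent.P353.Bas2Aux

section Banach

variable {V W : Type} [NormedAddCommGroup V] [NormedSpace ℝ V] [CompleteSpace V]
  [NormedAddCommGroup W] [NormedSpace ℝ W] [CompleteSpace W]

theorem hasSum_apply (a : V →L[ℝ] V) (v : V) :
    HasSum (fun n : ℕ => (n !⁻¹ : ℝ) • (a ^ n) v) (exp a v) := by
  have h := (ContinuousLinearMap.apply ℝ V v).hasSum (exp_series_hasSum_exp' (𝕂 := ℝ) a)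
  simpa only [ContinuousLinearMap.apply_apply, _root_.smul_apply] using h

theorem exp_inter (f : V →L[ℝ] W) (a : V →L[ℝ] V) (b : W →L[ℝ] W)
    (h : ∀ v, f (a v) = b (f v)) (v : V) : f (exp a v) = exp b (f v) := by
  have hp : ∀ n : ℕ, f ((a ^ n) v) = (b ^ n) (f v) := fun n => by
    induction n with
    | zero => rfl
    | succ n ih => rw [pow_succ', pow_succ', mul_apply_eq_comp, h, ih]; rfl
  refine (f.hasSum (hasSum_apply a v)).unique ?_
  simpa only [map_smul, hp] using hasSum_apply b (f v)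

variable {A : Type} [NormedRing A] [NormedAlgebra ℝ A] [CompleteSpace A]

theorem exp_left (Z M : A) : exp (ContinuousLinearMap.mul ℝ A Z) M = exp Z * M := by
  have hp : ∀ n : ℕ, (ContinuousLinearMap.mul ℝ A Z ^ n) M = Z ^ n * M := fun n => by
    induction n with
    | zero => rw [pow_zero, pow_zero, one_mul]; rfl
    | succ n ih => rw [pow_succ', pow_succ', mul_apply_eq_comp, ih, mul_assoc]; rfl
  refine (hasSum_apply _ M).unique ?_
  simpa only [hp, smul_mul_assoc] using (exp_series_hasSum_exp' (𝕂 := ℝ) Z).mul_right M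

theorem exp_right (Z M : A) : exp ((ContinuousLinearMap.mul ℝ A).flip Z) M = M * exp Z := by
  have hp : ∀ n : ℕ, ((ContinuousLinearMap.mul ℝ A).flip Z ^ n) M = M * Z ^ n := fun n => by
    induction n with
    | zero => rw [pow_zero, pow_zero, mul_one]; rfl
    | succ n ih =>
      rw [pow_succ', pow_succ, mul_apply_eq_comp, ih, ← mul_assoc]; rfl
  refine (hasSum_apply _ M).unique ?_
  simpa only [hp, mul_smul_comm] using (exp_series_hasSum_exp' (𝕂 := ℝ) Z).mul_left M

theorem exp_conj_inter (f : V →L[ℝ] A) (a : V →L[ℝ] V) (Z : A)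
    (h : ∀ v, f (a v) = Z * f v - f v * Z) (v : V) :
    f (exp a v) = exp Z * f v * exp (-Z) := by
  let _ : NormedAlgebra ℚ (A →L[ℝ] A) := NormedAlgebra.restrictScalars ℚ ℝ _
  have hc : Commute (ContinuousLinearMap.mul ℝ A Z) ((ContinuousLinearMap.mul ℝ A).flip (-Z)) :=
    ContinuousLinearMap.ext fun M => (mul_assoc Z M (-Z)).symm
  rw [exp_inter f a (ContinuousLinearMap.mul ℝ A Z + (ContinuousLinearMap.mul ℝ A).flip (-Z))
    (fun v => by rw [h, sub_eq_add_neg, ← mul_neg]; rfl), exp_add_of_commute hc,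
    mul_apply_eq_comp, exp_left, exp_right, mul_assoc]

end Banach

section Mat

variable {n : Type} [Fintype n] [DecidableEq n]

open scoped Matrix.Norms.L2Operator in
theorem exp_conj_mat {V : Type} [NormedAddCommGroup V] [NormedSpace ℝ V] [FiniteDimensional ℝ V]
    (f : V →ₗ[ℝ] Matrix n n ℂ) (a : V →L[ℝ] V) (Z : Matrix n n ℂ)
    (h : ∀ v, f (a v) = Z * f v - f v * Z) (v : V) :
    f (exp a v) = exp Z * f v * exp (-Z) :=
  haveI := FiniteDimensional.complete ℝ V
  exp_conj_inter (LinearMap.toContinuousLinearMap f) a Z h v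

theorem exp_unitary {Z : Matrix n n ℂ} (h : Zᴴ = -Z) : exp Z ∈ Matrix.unitaryGroup n ℂ := by
  rw [Matrix.mem_unitaryGroup_iff, star_eq_conjTranspose, ← Matrix.exp_conjTranspose, h,
    ← Matrix.exp_add_of_commute _ _ (Commute.refl Z).neg_right, add_neg_cancel,
    NormedSpace.exp_zero]

open scoped Matrix.Norms.L2Operator in
theorem exists_log (u : Matrix.unitaryGroup n ℂ) : ∃ A : Matrix n n ℂ, A.IsHermitian ∧
    (u : Matrix n n ℂ) = exp ((-I) • A) ∧
      ∀ M : Matrix n n ℂ, Commute (u : Matrix n n ℂ) M → Commute A M := by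
  have hu : (u : Matrix n n ℂ) ∈ unitary (Matrix n n ℂ) := u.2
  have hn : IsStarNormal (u : Matrix n n ℂ) := isStarNormal_of_mem_unitary hu
  have hc : ∀ f : ℂ → ℂ, ContinuousOn f (spectrum ℂ (u : Matrix n n ℂ)) := fun f =>
    (Matrix.finite_spectrum _).continuousOn f
  refine ⟨cfc (fun z : ℂ => ((-arg z : ℝ) : ℂ)) (u : Matrix n n ℂ), ?_, ?_, fun M hM =>
    hM.cfc ?_ _⟩
  · rw [Matrix.IsHermitian, ← star_eq_conjTranspose, ← cfc_star]
    simp
  · rw [← cfc_smul (-I) _ _ (hc _), ← CFC.complex_exp_eq_normedSpace_exp (cfc_predicate _ _),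
      ← cfc_comp' _ _ _ (by fun_prop) (hc _)]
    conv_lhs => rw [← cfc_id' ℂ (u : Matrix n n ℂ)]
    refine cfc_congr fun z hz => ?_
    have h1 := norm_mul_exp_arg_mul_I z
    rw [spectrum.norm_eq_one_of_unitary hu hz, ofReal_one, one_mul] at h1
    rw [← h1]
    simp only [h1, smul_eq_mul, ofReal_neg, neg_mul_neg, mul_comm I]
  · have h1 : star (u : Matrix n n ℂ) * u = 1 := hu.1
    have h2 : (u : Matrix n n ℂ) * star (u : Matrix n n ℂ) = 1 := hu.2
    calc star (u : Matrix n n ℂ) * M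
        = star (u : Matrix n n ℂ) * (M * u) * star (u : Matrix n n ℂ) := by
          rw [mul_assoc, mul_assoc, h2, mul_one]
      _ = M * star (u : Matrix n n ℂ) := by rw [← hM.eq, ← mul_assoc, h1, one_mul]

open scoped Matrix.Norms.Frobenius in
theorem frob_comm {X Y Z : Matrix n n ℂ} {x y z : ℝ} (hx : 0 ≤ x) (hy : 0 ≤ y) (hz : 0 ≤ z)
    (hX : x ^ 2 = ∑ a, ∑ b, ‖X a b‖ ^ 2) (hY : y ^ 2 = ∑ a, ∑ b, ‖Y a b‖ ^ 2)
    (hZ : z ^ 2 = ∑ a, ∑ b, ‖Z a b‖ ^ 2) (h : Z = (-I) • (X * Y - Y * X)) : z ≤ 2 * x * y := by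
  have key : ∀ (M : Matrix n n ℂ) (r : ℝ), 0 ≤ r → r ^ 2 = ∑ a, ∑ b, ‖M a b‖ ^ 2 → ‖M‖ = r :=
    fun M r h0 h => by
      rw [Matrix.frobenius_norm_def, ← Real.sqrt_eq_rpow]
      simp only [Real.rpow_two]
      rw [← h, Real.sqrt_sq h0]
  rw [← key X x hx hX, ← key Y y hy hY, ← key Z z hz hZ, h, norm_smul, norm_neg, norm_I, one_mul]
  have h1 := norm_sub_le (X * Y) (Y * X)
  have h2 := Matrix.frobenius_norm_mul X Y
  have h3 := Matrix.frobenius_norm_mul Y X
  linarith

end Mat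

end Vale.Agent.P353.Bas2Aux
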