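import Vale.Agent.P353.Bas1
import Vale.Agent.P353.Bas2Aux

/-! Lie algebra basics. -/

noncomputable section

open MeasureTheory Filter Topology Complex Matrix
open scoped ContDiff RealInnerProductSpace

namespace Vale.Agent.P353

namespace Ctx

variable {N d : ℕ} {F : Type} [NormedAddCommGroup F] [InnerProductSpace ℂ F]
  [FiniteDimensional ℂ F] (c : Ctx N d F)

theorem mat_herm (x : Lg d) : (c.mat x).IsHermitian := by
  change (∑ A, x A • c.T A).IsHermitian
  rw [Matrix.IsHermitian, conjTranspose_sum]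
  exact Finset.sum_congr rfl fun A _ => by rw [conjTranspose_smul, (c.herm A).eq, star_trivial]

theorem mat_trace (x : Lg d) : (c.mat x).trace = 0 := by
  change (∑ A, x A • c.T A).trace = 0
  simp [trace_sum, c.trace0]

theorem co_mat (x : Lg d) : c.co (c.mat x) = x := by
  ext A
  change (trace (c.T A * ∑ B, x B • c.T B)).re = x A
  simp [Matrix.mul_sum, trace_sum, c.orth, apply_ite]

theorem mat_injective : Function.Injective c.mat :=
  Function.LeftInverse.injective c.co_mat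

theorem co_one : c.co 1 = 0 := by
  ext A
  change (trace (c.T A * 1)).re = 0
  simp [c.trace0]

theorem inner_eq_trace (x y : Lg d) : ((⟪x, y⟫ : ℝ) : ℂ) = (c.mat x * c.mat y).trace := by
  change _ = ((∑ A, x A • c.T A) * ∑ B, y B • c.T B).trace
  simp [Matrix.mul_sum, Matrix.sum_mul, trace_sum, c.orth, PiLp.inner_apply, mul_comm]

theorem inner_co (x : Lg d) (M : Matrix (Fin N) (Fin N) ℂ) :
    ⟪x, c.co M⟫ = (c.mat x * M).trace.re := by
  change _ = ((∑ A, x A • c.T A) * M).trace.re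
  simp [Matrix.sum_mul, trace_sum, PiLp.inner_apply, coT, mul_comm]

theorem norm_sq_eq (x : Lg d) : ‖x‖ ^ 2 = ∑ a, ∑ b, ‖c.mat x a b‖ ^ 2 := by
  rw [← real_inner_self_eq_norm_sq, ← ofReal_inj, c.inner_eq_trace]
  simp only [trace, diag, mul_apply, ofReal_sum, ofReal_pow]
  refine Finset.sum_congr rfl fun a _ => Finset.sum_congr rfl fun b _ => ?_
  rw [← (c.mat_herm x).apply b a, star_def, mul_conj']

theorem mat_ad (x y : Lg d) :
    c.mat (c.ad x y) = (-I) • (c.mat x * c.mat y - c.mat y * c.mat x) := by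
  refine c.span _ ?_ ?_
  · rw [Matrix.IsHermitian, conjTranspose_smul, conjTranspose_sub, conjTranspose_mul,
      conjTranspose_mul, (c.mat_herm x).eq, (c.mat_herm y).eq, star_neg, star_def, conj_I,
      neg_smul, ← smul_neg, neg_sub]
  · rw [trace_smul, trace_sub, trace_mul_comm, sub_self, smul_zero]

theorem ad_eq_zero_iff (x y : Lg d) : c.ad x y = 0 ↔ Commute (c.mat x) (c.mat y) := by
  rw [← map_eq_zero_iff c.mat c.mat_injective, c.mat_ad, smul_eq_zero, sub_eq_zero,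
    or_iff_right (neg_ne_zero.2 I_ne_zero)]
  rfl

theorem ad_anti (x y : Lg d) : c.ad x y = -c.ad y x :=
  c.mat_injective <| by
  rw [map_neg, c.mat_ad, c.mat_ad, ← smul_neg, neg_sub]

theorem ad_self (x : Lg d) : c.ad x x = 0 :=
  (c.ad_eq_zero_iff x x).2 (Commute.refl _)

theorem ad_skew (x : Lg d) : IsSkew (c.ad x) := fun u v => by
  rw [← ofReal_inj, ofReal_neg, c.inner_eq_trace, c.inner_eq_trace, c.mat_ad, c.mat_ad]
  simp only [Matrix.smul_mul, Matrix.mul_smul, trace_smul, Matrix.sub_mul, Matrix.mul_sub,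
    trace_sub, ← Matrix.mul_assoc, trace_mul_cycle (c.mat u) (c.mat v) (c.mat x), smul_eq_mul]
  ring

theorem inner_ad_cyc (x y z : Lg d) : ⟪c.ad x y, z⟫ = ⟪x, c.ad y z⟫ := by
  rw [c.ad_anti x y, inner_neg_left, c.ad_skew y x z, neg_neg]

theorem ad_add (x y : Lg d) : c.ad (x + y) = c.ad x + c.ad y :=
  ContinuousLinearMap.ext fun z => by
  rw [_root_.add_apply, c.ad_anti, c.ad_anti x, c.ad_anti y, map_add, neg_add]

theorem ad_smul (t : ℝ) (x : Lg d) : c.ad (t • x) = t • c.ad x :=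
  ContinuousLinearMap.ext fun z => by
  rw [_root_.smul_apply, c.ad_anti, c.ad_anti x, map_smul, smul_neg]

theorem ad_neg (x : Lg d) : c.ad (-x) = -c.ad x := ContinuousLinearMap.ext fun z => by
  rw [_root_.neg_apply, c.ad_anti, c.ad_anti x, map_neg]

theorem ad_zero : c.ad 0 = 0 := ContinuousLinearMap.ext fun z => by
  rw [c.ad_anti, map_zero, neg_zero]
  rfl

theorem ad_sum {ι : Type} (s : Finset ι) (x : ι → Lg d) :
    c.ad (∑ j ∈ s, x j) = ∑ j ∈ s, c.ad (x j) :=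
  map_sum ({ toFun := c.ad, map_zero' := c.ad_zero, map_add' := c.ad_add } :
    Lg d →+ Lg d →L[ℝ] Lg d) x s

/-- `ad` as a continuous bilinear map -/
theorem exists_adL : ∃ L : Lg d →L[ℝ] Lg d →L[ℝ] Lg d, ∀ x, L x = c.ad x :=
  ⟨LinearMap.toContinuousLinearMap
    { toFun := c.ad, map_add' := c.ad_add, map_smul' := c.ad_smul }, fun _ => rfl⟩

theorem jacobi (x y : Lg d) : c.ad (c.ad x y) = c.ad x * c.ad y - c.ad y * c.ad x :=
  ContinuousLinearMap.ext fun z => c.mat_injective <| by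
    rw [_root_.sub_apply, mul_apply_eq_comp, mul_apply_eq_comp, map_sub]
    simp only [c.mat_ad, Matrix.smul_mul, Matrix.mul_smul, Matrix.sub_mul, Matrix.mul_sub,
      smul_sub, Matrix.mul_assoc]
    abel

theorem norm_ad_le (x y : Lg d) : ‖c.ad x y‖ ≤ 2 * ‖x‖ * ‖y‖ :=
  Bas2Aux.frob_comm (norm_nonneg _) (norm_nonneg _) (norm_nonneg _) (c.norm_sq_eq x)
    (c.norm_sq_eq y) (c.norm_sq_eq _) (c.mat_ad x y)

theorem mat_Ad (u : UN N) (x : Lg d) : c.mat (c.Ad u x) =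
    (u : Matrix (Fin N) (Fin N) ℂ) * c.mat x * star (u : Matrix (Fin N) (Fin N) ℂ) := by
  refine c.span _ (isHermitian_mul_mul_conjTranspose _ (c.mat_herm x)) ?_
  rw [trace_mul_cycle, UnitaryGroup.star_mul_self, Matrix.one_mul, c.mat_trace]

theorem Ad_mul (u u' : UN N) : c.Ad (u * u') = c.Ad u * c.Ad u' :=
  ContinuousLinearMap.ext fun z => c.mat_injective <| by
    rw [mul_apply_eq_comp, c.mat_Ad, c.mat_Ad, c.mat_Ad, Submonoid.coe_mul, star_mul]
    simp only [Matrix.mul_assoc]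

theorem Ad_one : c.Ad 1 = 1 :=
  ContinuousLinearMap.ext fun z => c.mat_injective <| by
  rw [c.mat_Ad, OneMemClass.coe_one, star_one, Matrix.one_mul, Matrix.mul_one]
  rfl

theorem inner_Ad (u : UN N) (x y : Lg d) : ⟪c.Ad u x, c.Ad u y⟫ = ⟪x, y⟫ := by
  rw [← ofReal_inj, c.inner_eq_trace, c.inner_eq_trace, c.mat_Ad, c.mat_Ad, ← Matrix.mul_assoc,
    trace_mul_comm]
  simp only [← Matrix.mul_assoc, UnitaryGroup.star_mul_self, Matrix.one_mul]
  rw [Matrix.mul_assoc (c.mat x), UnitaryGroup.star_mul_self, Matrix.mul_one]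

theorem inner_Ad_left (u : UN N) (x y : Lg d) : ⟪c.Ad u x, y⟫ = ⟪x, c.Ad u⁻¹ y⟫ := by
  rw [← c.inner_Ad u x, ← mul_apply_eq_comp, ← c.Ad_mul, mul_inv_cancel, c.Ad_one]
  rfl

theorem norm_Ad (u : UN N) (x : Lg d) : ‖c.Ad u x‖ = ‖x‖ := by
  rw [norm_eq_sqrt_real_inner, c.inner_Ad, ← norm_eq_sqrt_real_inner]

theorem Ad_ad (u : UN N) (x y : Lg d) : c.Ad u (c.ad x y) = c.ad (c.Ad u x) (c.Ad u y) :=
  c.mat_injective <| by
    have h : ∀ M : Matrix (Fin N) (Fin N) ℂ, star (u : Matrix (Fin N) (Fin N) ℂ) *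
        ((u : Matrix (Fin N) (Fin N) ℂ) * M) = M := fun M => by
      rw [← Matrix.mul_assoc, UnitaryGroup.star_mul_self, Matrix.one_mul]
    simp only [c.mat_Ad, c.mat_ad, Matrix.smul_mul, Matrix.mul_smul, Matrix.sub_mul,
      Matrix.mul_sub, smul_sub, Matrix.mul_assoc, h]

theorem Ad_eq_iff (u : UN N) (x : Lg d) :
    c.Ad u x = x ↔ Commute (u : Matrix (Fin N) (Fin N) ℂ) (c.mat x) := by
  rw [← c.mat_injective.eq_iff, c.mat_Ad]
  refine ⟨fun h => ?_, fun h => ?_⟩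
  · have := congrArg (· * (u : Matrix (Fin N) (Fin N) ℂ)) h
    simp only [Matrix.mul_assoc, UnitaryGroup.star_mul_self, Matrix.mul_one] at this
    exact this
  · rw [h.eq, Matrix.mul_assoc, mem_unitaryGroup_iff.1 u.2, Matrix.mul_one]

theorem continuous_Ad : Continuous fun u : UN N => c.Ad u := by
  refine continuous_clm_apply.2 fun y => ?_
  exact c.co.continuous_of_finiteDimensional.comp
    ((continuous_subtype_val.mul continuous_const).mul continuous_subtype_val.star)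

theorem Ad9_mul (u u' : UN N) : c.Ad9 (u * u') = c.Ad9 u * c.Ad9 u' := by
  rw [Ad9, Ad9, Ad9, kr_mul, Matrix.one_mul, c.Ad_mul]

theorem Ad9_one : c.Ad9 1 = 1 := by rw [Ad9, c.Ad_one, kr_one]

theorem Ad9_inv_apply (u : UN N) (x : Tn 9 d) : c.Ad9 u⁻¹ (c.Ad9 u x) = x := by
  rw [← mul_apply_eq_comp, ← c.Ad9_mul, inv_mul_cancel, c.Ad9_one]
  rfl

theorem Ad9_apply_inv (u : UN N) (x : Tn 9 d) : c.Ad9 u (c.Ad9 u⁻¹ x) = x := by
  rw [← mul_apply_eq_comp, ← c.Ad9_mul, mul_inv_cancel, c.Ad9_one]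
  rfl

theorem inner_Ad9 (u : UN N) (x y : Tn 9 d) : ⟪c.Ad9 u x, c.Ad9 u y⟫ = ⟪x, y⟫ := by
  simp only [inner_eq_sum_cmp, Ad9, cmp_kr_one, c.inner_Ad]

theorem norm_Ad9 (u : UN N) (x : Tn 9 d) : ‖c.Ad9 u x‖ = ‖x‖ := by
  rw [norm_eq_sqrt_real_inner, c.inner_Ad9, ← norm_eq_sqrt_real_inner]

theorem continuous_Ad9 : Continuous fun p : UN N × Tn 9 d => c.Ad9 p.1 p.2 := by
  obtain ⟨L, hL⟩ := exists_krL (d := d) (1 : Matrix (Fin 9) (Fin 9) ℝ)
  simp only [Ad9, ← hL]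
  exact (L.continuous.comp (c.continuous_Ad.comp continuous_fst)).clm_apply continuous_snd

theorem vf_skew (ξ : Lg d) : IsSkew (c.vf ξ) := fun x y => by
  simp only [inner_eq_sum_cmp, vf, cmp_kr_one, c.ad_skew ξ _ _, Finset.sum_neg_distrib]

theorem norm_vf_le (ξ : Lg d) (x : Tn 9 d) : ‖c.vf ξ x‖ ≤ 2 * ‖ξ‖ * ‖x‖ :=
  ((c.vf ξ).le_opNorm x).trans (mul_le_mul_of_nonneg_right ((norm_kr_one_le _).trans
    (ContinuousLinearMap.opNorm_le_bound _ (by positivity) (c.norm_ad_le ξ))) (norm_nonneg x))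

/-- the transpose is an orthogonal anti-automorphism -/
theorem exists_transpose : ∃ τ : Lg d →L[ℝ] Lg d, (∀ x, c.mat (τ x) = (c.mat x)ᵀ) ∧
    τ * τ = 1 ∧ IsSym τ ∧ ∀ x y, τ (c.ad x y) = -c.ad (τ x) (τ y) := by
  obtain ⟨τ, hτ⟩ : ∃ τ : Lg d →L[ℝ] Lg d, ∀ x, c.mat (τ x) = (c.mat x)ᵀ :=
    ⟨LinearMap.toContinuousLinearMap
      (c.co ∘ₗ (transposeLinearEquiv (Fin N) (Fin N) ℝ ℂ).toLinearMap ∘ₗ c.mat), fun x =>
      c.span _ (c.mat_herm x).transpose ((trace_transpose _).trans (c.mat_trace x))⟩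
  refine ⟨τ, hτ, ContinuousLinearMap.ext fun x => c.mat_injective ?_, fun x y => ?_,
    fun x y => c.mat_injective ?_⟩
  · rw [mul_apply_eq_comp, hτ, hτ]
    rfl
  · rw [← ofReal_inj, c.inner_eq_trace, c.inner_eq_trace, hτ, hτ, ← trace_transpose,
      transpose_mul, transpose_transpose, trace_mul_comm]
  · rw [map_neg, hτ, c.mat_ad, c.mat_ad, hτ, hτ, transpose_smul, transpose_sub, transpose_mul,
      transpose_mul, ← smul_neg, neg_sub]

theorem bas2_skew (y : Lg d) (t : ℝ) :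
    ((-I) • (c.mat y + (t : ℂ) • 1))ᴴ = -((-I) • (c.mat y + (t : ℂ) • 1)) := by
  rw [conjTranspose_smul, conjTranspose_add, conjTranspose_smul, conjTranspose_one,
    (c.mat_herm y).eq, star_def, conj_ofReal, map_neg, conj_I, neg_smul (-I)]

/-- the one parameter groups -/
theorem exists_exp (y : Lg d) (t : ℝ) : ∃ u : UN N,
    (u : Matrix (Fin N) (Fin N) ℂ) = NormedSpace.exp ((-I) • (c.mat y + (t : ℂ) • 1)) :=
  ⟨⟨_, Bas2Aux.exp_unitary (c.bas2_skew y t)⟩, rfl⟩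

theorem Ad_exp {y : Lg d} {t : ℝ} {u : UN N}
    (h : (u : Matrix (Fin N) (Fin N) ℂ) = NormedSpace.exp ((-I) • (c.mat y + (t : ℂ) • 1))) :
    c.Ad u = NormedSpace.exp (c.ad y) :=
  ContinuousLinearMap.ext fun x => c.mat_injective <| by
    rw [c.mat_Ad, h, star_eq_conjTranspose, ← Matrix.exp_conjTranspose, c.bas2_skew]
    refine (Bas2Aux.exp_conj_mat c.mat (c.ad y) _ (fun v => ?_) x).symm
    simp only [c.mat_ad, Matrix.smul_mul, Matrix.mul_smul, Matrix.add_mul, Matrix.mul_add,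
      Matrix.one_mul, Matrix.mul_one, smul_sub, smul_add]
    abel

/-- every unitary is an exponential of an element of its bicommutant -/
theorem exists_log (u : UN N) : ∃ (y : Lg d) (t : ℝ),
    (u : Matrix (Fin N) (Fin N) ℂ) = NormedSpace.exp ((-I) • (c.mat y + (t : ℂ) • 1)) ∧
      ∀ M : Matrix (Fin N) (Fin N) ℂ, Commute (u : Matrix (Fin N) (Fin N) ℂ) M →
        Commute (c.mat y) M := by
  obtain ⟨A, hA, hu, hM⟩ := Bas2Aux.exists_log u
  have h1 : ((A.trace.re : ℝ) : ℂ) = A.trace := by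
    rw [← conj_eq_iff_re, ← star_def, ← trace_conjTranspose, hA.eq]
  have h2 : c.mat (c.co (A - ((A.trace.re / N : ℝ) : ℂ) • 1)) =
      A - ((A.trace.re / N : ℝ) : ℂ) • 1 := by
    refine c.span _ (hA.sub ?_) ?_
    · rw [Matrix.IsHermitian, conjTranspose_smul, conjTranspose_one, star_def, conj_ofReal]
    · rcases Nat.eq_zero_or_pos N with rfl | hN
      · simp [trace]
      · have : (N : ℂ) ≠ 0 := Nat.cast_ne_zero.2 hN.ne'
        rw [trace_sub, trace_smul, trace_one, Fintype.card_fin, ofReal_div, h1, ofReal_natCast,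
          smul_eq_mul, div_mul_cancel₀ _ this, sub_self]
  refine ⟨c.co (A - ((A.trace.re / N : ℝ) : ℂ) • 1), A.trace.re / N, ?_, fun M h => ?_⟩
  · rw [h2, sub_add_cancel]
    exact hu
  · rw [h2]
    exact (hM M h).sub_left ((Commute.one_left M).smul_left _)

end Ctx

end Vale.Agent.P353
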