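import Vale.Agent.P353.Bas3b

/-! Action of the gauge groups on the block subalgebras. -/

noncomputable section

open MeasureTheory Filter Topology Complex Matrix
open scoped ContDiff RealInnerProductSpace

namespace Vale.Agent.P353

variable {N : ℕ}

namespace Bas3Aux

/-- block diagonal matrices -/
def BD (π : Setoid (Fin N)) (M : Matrix (Fin N) (Fin N) ℂ) : Prop := ∀ a b, ¬ π a b → M a b = 0

theorem BD.mul {π : Setoid (Fin N)} {M M' : Matrix (Fin N) (Fin N) ℂ} (h : BD π M)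
    (h' : BD π M') : BD π (M * M') := by
  intro a b hab
  rw [Matrix.mul_apply]
  refine Finset.sum_eq_zero fun k _ => ?_
  by_cases hk : π a k
  · have : ¬ π k b := fun hkb => hab (π.trans' hk hkb)
    rw [h' k b this, mul_zero]
  · rw [h a k hk, zero_mul]

theorem BD.star {π : Setoid (Fin N)} {M : Matrix (Fin N) (Fin N) ℂ} (h : BD π M) :
    BD π (star M) := by
  intro a b hab
  rw [Matrix.star_apply, h b a (fun hba => hab (π.symm' hba)), star_zero]

open Classical in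
/-- indicator of a block -/
def ind (π : Setoid (Fin N)) (a : Fin N) : Matrix (Fin N) (Fin N) ℂ :=
  Matrix.diagonal fun k => if π a k then 1 else 0

theorem BD_iff (π : Setoid (Fin N)) (M : Matrix (Fin N) (Fin N) ℂ) :
    BD π M ↔ ∀ a, Commute M (ind π a) := by
  constructor
  · intro h a
    ext i j
    simp only [ind, Matrix.mul_diagonal, Matrix.diagonal_mul]
    by_cases hij : π i j
    · have : π a i ↔ π a j := ⟨fun h1 => π.trans' h1 hij, fun h1 => π.trans' h1 (π.symm' hij)⟩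
      by_cases hi : π a i
      · simp [hi, this.1 hi]
      · have hj : ¬ π a j := fun hj => hi (this.2 hj)
        simp [hi, hj]
    · simp [h i j hij]
  · intro h a b hab
    have := congrFun (congrFun (h a).eq a) b
    simp only [ind, Matrix.mul_diagonal, Matrix.diagonal_mul] at this
    have haa : π a a := π.refl' a
    simpa [hab, haa] using this.symm

theorem exists_pair {π π' : Setoid (Fin N)} (h : π' < π) : ∃ a b, π a b ∧ ¬ π' a b := by
  by_contra hc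
  push Not at hc
  exact h.2 (fun a b hab => hc a b hab)

theorem Maps_self {π π' π'' : Setoid (Fin N)} {w : Equiv.Perm (Fin N)} (h : Maps π π' π'' w) :
    Maps π π π w := by
  refine ⟨h.1, fun a b => ⟨fun hab => ?_, fun hab => ?_⟩⟩
  · exact π.trans' (π.symm' (h.1 a)) (π.trans' hab (h.1 b))
  · exact π.trans' (h.1 a) (π.trans' hab (π.symm' (h.1 b)))

variable {d : ℕ} {F : Type} [NormedAddCommGroup F] [InnerProductSpace ℂ F]
  [FiniteDimensional ℂ F] (c : Ctx N d F) {π π' π'' : Setoid (Fin N)}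
  {𝔞 : Submodule ℝ (Lg d)}

theorem ad_mem_blk {x y : Lg d} (hx : x ∈ c.blk π) (hy : y ∈ c.blk π) : c.ad x y ∈ c.blk π := by
  intro a b hab
  have h1 : BD π (c.mat x * c.mat y) := BD.mul hx hy
  have h2 : BD π (c.mat y * c.mat x) := BD.mul hy hx
  rw [c.mat_ad]
  simp [h1 a b hab, h2 a b hab]

theorem Ad_inv_apply (u : UN N) (x : Lg d) : c.Ad u⁻¹ (c.Ad u x) = x := by
  have := c.Ad_mul u⁻¹ u
  rw [inv_mul_cancel, c.Ad_one] at this
  exact (DFunLike.congr_fun this x).symm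

theorem Ad_apply_inv (u : UN N) (x : Lg d) : c.Ad u (c.Ad u⁻¹ x) = x := by
  have := Ad_inv_apply c u⁻¹ x
  rwa [inv_inv] at this

theorem Ad_orth {u : UN N} {𝔟 𝔟' : Submodule ℝ (Lg d)}
    (h : ∀ x, c.Ad u x ∈ 𝔟' ↔ x ∈ 𝔟) (x : Lg d) : c.Ad u x ∈ 𝔟'ᗮ ↔ x ∈ 𝔟ᗮ := by
  rw [Submodule.mem_orthogonal, Submodule.mem_orthogonal]
  constructor
  · intro H z hz
    rw [← c.inner_Ad u]
    exact H _ ((h z).2 hz)
  · intro H z hz
    rw [← Ad_apply_inv c u z] at hz ⊢
    rw [c.inner_Ad]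
    exact H _ ((h _).1 hz)

theorem mat_diag_eq_iff (x : Lg d) (a b : Fin N) :
    c.mat x a a = c.mat x b b ↔ (c.mat x a a).re - (c.mat x b b).re = 0 := by
  rw [sub_eq_zero]
  refine ⟨fun h => by rw [h], fun h => ?_⟩
  have ha := (c.mat_herm x).coe_re_apply_self a
  have hb := (c.mat_herm x).coe_re_apply_self b
  rw [← ha, ← hb]
  exact congrArg (fun r : ℝ => (r : ℂ)) h

theorem exists_cen (a b : Fin N) (hab : ¬ π' a b) :
    ∃ y ∈ c.cen π', c.mat y a a ≠ c.mat y b b := by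
  classical
  set r : ℝ := (∑ k, if π' a k then (1 : ℝ) else 0) / N with hr
  have hN : (N : ℝ) ≠ 0 := by
    have := a.pos
    positivity
  set D : Matrix (Fin N) (Fin N) ℂ :=
    Matrix.diagonal fun k => (((if π' a k then (1 : ℝ) else 0) - r : ℝ) : ℂ) with hD
  have hH : D.IsHermitian := by
    rw [hD]
    apply Matrix.isHermitian_diagonal_of_self_adjoint
    ext k
    simp only [Pi.star_apply, RCLike.star_def, Complex.conj_ofReal]
  have hT : D.trace = 0 := by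
    rw [hD, Matrix.trace_diagonal, ← Complex.ofReal_sum, Finset.sum_sub_distrib]
    simp only [Finset.sum_const, Finset.card_univ, Fintype.card_fin, nsmul_eq_mul]
    rw [hr, mul_div_cancel₀ _ hN, sub_self, Complex.ofReal_zero]
  have hM : c.mat (c.co D) = D := c.span D hH hT
  refine ⟨c.co D, ⟨fun i j hij => ?_, fun i j hij => ?_⟩, ?_⟩
  · rw [hM, hD, Matrix.diagonal_apply_ne _ hij]
  · rw [hM, hD, Matrix.diagonal_apply_eq, Matrix.diagonal_apply_eq]
    have : π' a i ↔ π' a j :=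
      ⟨fun h1 => π'.trans' h1 hij, fun h1 => π'.trans' h1 (π'.symm' hij)⟩
    simp only [this]
  · rw [hM, hD, Matrix.diagonal_apply_eq, Matrix.diagonal_apply_eq]
    have haa : π' a a := π'.refl' a
    rw [if_pos haa, if_neg hab]
    intro h
    have := Complex.ofReal_injective h
    linarith

theorem exists_sep (h : c.Th π 𝔞) (h' : π' ≤ π) {a b : Fin N} (hab : π a b) (hab' : ¬ π' a b) :
    ∃ z ∈ 𝔞 ⊓ c.cen π', c.mat z a a ≠ c.mat z b b := by
  obtain ⟨y, hy, hne⟩ := exists_cen c a b hab'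
  have hyb : y ∈ c.ss π ⊔ c.cen π := by
    rw [c.ss_sup_cen]
    exact c.blk_mono h' (c.cen_le_blk π' hy)
  obtain ⟨s, hs, t, ht, rfl⟩ := Submodule.mem_sup.1 hyb
  refine ⟨s, ⟨h.1 hs, ?_⟩, fun he => hne ?_⟩
  · have := (c.cen π').sub_mem hy (c.cen_anti h' ht)
    rwa [add_sub_cancel_right] at this
  · have h2 := ht.2 a b hab
    simp only [map_add, Matrix.add_apply]
    rw [he, h2]

/-- difference of two diagonal entries -/
def dif (a b : Fin N) : Lg d →ₗ[ℝ] ℝ where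
  toFun y := (c.mat y a a).re - (c.mat y b b).re
  map_add' x y := by simp only [map_add, Matrix.add_apply, Complex.add_re]; ring
  map_smul' t x := by
    simp only [map_smul, Matrix.smul_apply, Complex.smul_re, RingHom.id_apply, smul_eq_mul]; ring

/-- the differences in the last six directions -/
def dif6 (a b : Fin N) : Tn 9 d →ₗ[ℝ] ({i : Fin 9 // 3 ≤ i.val} → ℝ) :=
  LinearMap.pi fun i => dif c a b ∘ₗ (cmp i.1 : Tn 9 d →L[ℝ] Lg d).toLinearMap

theorem dif6_apply (a b : Fin N) (x : Tn 9 d) (i : {i : Fin 9 // 3 ≤ i.val}) :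
    dif6 c a b x i = dif c a b (cmp i.1 x) := rfl

theorem finrank_bad (h : c.Th π 𝔞) (h' : π' ≤ π) {a b : Fin N} (hab : π a b) (hab' : ¬ π' a b) :
    Module.finrank ℝ (c.CS 𝔞 π' ⊓ LinearMap.ker (dif6 c a b) : Submodule ℝ (Tn 9 d)) + 6 ≤
      Module.finrank ℝ (c.CS 𝔞 π') := by
  obtain ⟨z, hz, hne⟩ := exists_sep c h h' hab hab'
  have hδ : dif c a b z ≠ 0 := fun h0 => hne ((mat_diag_eq_iff c z a b).2 h0)
  have hsurj : LinearMap.range ((dif6 c a b).domRestrict (c.CS 𝔞 π')) = ⊤ := by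
    rw [LinearMap.range_eq_top]
    intro v
    refine ⟨⟨tens (fun i => if hi : 3 ≤ i.val then v ⟨i, hi⟩ / dif c a b z else 0) z,
      tens_mem_sub _ hz⟩, ?_⟩
    ext i
    rw [LinearMap.domRestrict_apply, dif6_apply, cmp_tens, map_smul, dif_pos i.2, smul_eq_mul,
      div_mul_cancel₀ _ hδ]
  have h1 := LinearMap.finrank_range_add_finrank_ker ((dif6 c a b).domRestrict (c.CS 𝔞 π'))
  rw [hsurj, finrank_top, Module.finrank_fintype_fun_eq_card, LinearMap.ker_domRestrict] at h1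
  have h6 : Fintype.card {i : Fin 9 // 3 ≤ i.val} = 6 := by decide
  have h2 : Module.finrank ℝ (c.CS 𝔞 π' ⊓ LinearMap.ker (dif6 c a b) : Submodule ℝ (Tn 9 d)) =
      Module.finrank ℝ (Submodule.comap (c.CS 𝔞 π').subtype (LinearMap.ker (dif6 c a b))) := by
    rw [← Submodule.map_comap_subtype]
    exact (Submodule.equivMapOfInjective _ (Submodule.injective_subtype _) _).finrank_eq.symm
  omega

end Bas3Aux

open Bas3Aux

namespace Ctx

variable {d : ℕ} {F : Type} [NormedAddCommGroup F] [InnerProductSpace ℂ F]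
  [FiniteDimensional ℂ F] (c : Ctx N d F) {π π' π'' : Setoid (Fin N)}
  {𝔞 : Submodule ℝ (Lg d)}

theorem ad_mem_ss {x y : Lg d} (hx : x ∈ c.blk π) (hy : y ∈ c.blk π) : c.ad x y ∈ c.ss π := by
  refine ⟨ad_mem_blk c hx hy, ?_⟩
  refine (Submodule.mem_orthogonal _ _).2 fun z hz => ?_
  rw [← c.inner_ad_cyc, (c.mem_cen_iff z).1 hz x hx, inner_zero_left]

theorem ad_mem_off (h : π' ≤ π) {x y : Lg d} (hx : x ∈ c.blk π') (hy : y ∈ c.off π π') :
    c.ad x y ∈ c.off π π' := by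
  refine ⟨ad_mem_blk c (c.blk_mono h hx) hy.1, ?_⟩
  refine (Submodule.mem_orthogonal _ _).2 fun z hz => ?_
  rw [← c.inner_ad_cyc]
  exact (Submodule.mem_orthogonal _ _).1 hy.2 _ (ad_mem_blk c hz hx)

theorem ad_mem_blk_orthogonal {x y : Lg d} (hx : x ∈ c.blk π) (hy : y ∈ (c.blk π)ᗮ) :
    c.ad x y ∈ (c.blk π)ᗮ := by
  refine (Submodule.mem_orthogonal _ _).2 fun z hz => ?_
  rw [← c.inner_ad_cyc]
  exact (Submodule.mem_orthogonal _ _).1 hy _ (ad_mem_blk c hz hx)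

theorem Ad_mem_blk {u : UN N} (hu : u ∈ Grp π) {x : Lg d} (hx : x ∈ c.blk π) :
    c.Ad u x ∈ c.blk π := by
  have h1 : BD π ((u : Matrix (Fin N) (Fin N) ℂ) * c.mat x *
      star (u : Matrix (Fin N) (Fin N) ℂ)) := BD.mul (BD.mul hu hx) (BD.star hu)
  intro a b hab
  rw [c.mat_Ad]
  exact h1 a b hab

theorem Ad_cen {u : UN N} (hu : u ∈ Grp π) {x : Lg d} (hx : x ∈ c.cen π) : c.Ad u x = x := by
  rw [c.Ad_eq_iff]
  have hd : c.mat x = Matrix.diagonal fun a => c.mat x a a := by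
    ext a b
    by_cases hab : a = b
    · subst hab; simp
    · rw [Matrix.diagonal_apply_ne _ hab, hx.1 a b hab]
  rw [hd]
  ext a b
  simp only [Matrix.mul_diagonal, Matrix.diagonal_mul]
  by_cases hab : π a b
  · rw [hx.2 a b hab, mul_comm]
  · rw [hu a b hab, zero_mul, mul_zero]

theorem Th.Ad_mem (h : c.Th π 𝔞) {u : UN N} (hu : u ∈ Grp π) {x : Lg d} (hx : x ∈ 𝔞) :
    c.Ad u x ∈ 𝔞 := by
  have hb : x ∈ c.blk π := h.2 hx
  have h1 : c.Ad u x - x ∈ c.ss π := by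
    refine ⟨(c.blk π).sub_mem (c.Ad_mem_blk hu hb) hb, ?_⟩
    refine (Submodule.mem_orthogonal _ _).2 fun z hz => ?_
    have := c.inner_Ad u z x
    rw [c.Ad_cen hu hz] at this
    rw [inner_sub_right, this, sub_self]
  have := 𝔞.add_mem (h.1 h1) hx
  rwa [sub_add_cancel] at this

theorem Th.Ad9_mem (h : c.Th π 𝔞) {u : UN N} (hu : u ∈ Grp π) {x : Tn 9 d} (hx : x ∈ sub 9 𝔞) :
    c.Ad9 u x ∈ sub 9 𝔞 := by
  rw [mem_sub] at hx ⊢
  intro i
  rw [Ad9, cmp_kr_one]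
  exact Th.Ad_mem c h hu (hx i)

theorem Th.vf_mem (h : c.Th π 𝔞) {ξ : Lg d} (hξ : ξ ∈ c.blk π) {x : Tn 9 d} (hx : x ∈ sub 9 𝔞) :
    c.vf ξ x ∈ sub 9 𝔞 := by
  rw [mem_sub] at hx ⊢
  intro i
  rw [vf, cmp_kr_one]
  exact h.1 (c.ad_mem_ss hξ (h.2 (hx i)))

theorem Ad_mem_off (h : π' ≤ π) {u : UN N} (hu : u ∈ Grp π') {x : Lg d} (hx : x ∈ c.off π π') :
    c.Ad u x ∈ c.off π π' := by
  refine ⟨c.Ad_mem_blk (Grp_mono h hu) hx.1, ?_⟩
  refine (Submodule.mem_orthogonal' _ _).2 fun z hz => ?_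
  rw [c.inner_Ad_left]
  exact (Submodule.mem_orthogonal' _ _).1 hx.2 _ (c.Ad_mem_blk (inv_mem_Grp hu) hz)

/-- an isometry that preserves a subspace commutes with its projection -/
theorem Ad_starProjection {u : UN N} {𝔟 𝔟' : Submodule ℝ (Lg d)}
    (h : ∀ x, c.Ad u x ∈ 𝔟' ↔ x ∈ 𝔟) :
    c.Ad u * 𝔟.starProjection = 𝔟'.starProjection * c.Ad u := by
  refine ContinuousLinearMap.ext fun x => ?_
  show c.Ad u (𝔟.starProjection x) = 𝔟'.starProjection (c.Ad u x)
  symm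
  refine Submodule.eq_starProjection_of_mem_orthogonal ((h _).2 (𝔟.starProjection_apply_mem x)) ?_
  rw [← map_sub]
  exact (Ad_orth c h _).2 (𝔟.sub_starProjection_mem_orthogonal x)

theorem Ad_mem_iff {u : UN N} {𝔟 : Submodule ℝ (Lg d)} (h : ∀ x ∈ 𝔟, c.Ad u x ∈ 𝔟) (x : Lg d) :
    c.Ad u x ∈ 𝔟 ↔ x ∈ 𝔟 := by
  refine ⟨fun hx => ?_, h x⟩
  have hinj : Function.Injective (c.Ad u) := fun a b hab => by
    rw [← Ad_inv_apply c u a, hab, Ad_inv_apply]
  let f : 𝔟 →ₗ[ℝ] 𝔟 := (c.Ad u).toLinearMap.restrict h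
  have hf : Function.Injective f := fun a b hab =>
    Subtype.ext (hinj (congrArg Subtype.val hab))
  obtain ⟨y, hy⟩ := (LinearMap.injective_iff_surjective.1 hf) ⟨_, hx⟩
  have : (y : Lg d) = x := hinj (congrArg Subtype.val hy)
  rw [← this]
  exact y.2

theorem ad_starProjection {y : Lg d} {𝔟 : Submodule ℝ (Lg d)} (h : ∀ x ∈ 𝔟, c.ad y x ∈ 𝔟) :
    c.ad y * 𝔟.starProjection = 𝔟.starProjection * c.ad y := by
  refine ContinuousLinearMap.ext fun x => ?_
  show c.ad y (𝔟.starProjection x) = 𝔟.starProjection (c.ad y x)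
  symm
  refine Submodule.eq_starProjection_of_mem_orthogonal (h _ (𝔟.starProjection_apply_mem x)) ?_
  rw [← map_sub]
  refine (Submodule.mem_orthogonal' _ _).2 fun z hz => ?_
  rw [c.ad_skew y, (Submodule.mem_orthogonal' _ _).1 (𝔟.sub_starProjection_mem_orthogonal x) _
    (h z hz), neg_zero]

theorem perm_mem_blk {w : Equiv.Perm (Fin N)} (h : Maps π π' π'' w) (x : Lg d) :
    c.Ad (permU w) x ∈ c.blk π'' ↔ x ∈ c.blk π' := by
  constructor
  · intro H a b hab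
    rw [← c.mat_Ad_permU w]
    exact H _ _ fun h1 => hab ((h.2 a b).1 h1)
  · intro H a b hab
    obtain ⟨a, rfl⟩ := w.surjective a
    obtain ⟨b, rfl⟩ := w.surjective b
    rw [c.mat_Ad_permU]
    exact H _ _ fun h1 => hab ((h.2 a b).2 h1)

theorem perm_mem_cen {w : Equiv.Perm (Fin N)} (h : Maps π π' π'' w) (x : Lg d) :
    c.Ad (permU w) x ∈ c.cen π'' ↔ x ∈ c.cen π' := by
  constructor
  · intro H
    refine ⟨fun a b hab => ?_, fun a b hab => ?_⟩
    · rw [← c.mat_Ad_permU w]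
      exact H.1 _ _ fun h1 => hab (w.injective h1)
    · rw [← c.mat_Ad_permU w x a, ← c.mat_Ad_permU w x b]
      exact H.2 _ _ ((h.2 a b).2 hab)
  · intro H
    refine ⟨fun a b hab => ?_, fun a b hab => ?_⟩
    · obtain ⟨a, rfl⟩ := w.surjective a
      obtain ⟨b, rfl⟩ := w.surjective b
      rw [c.mat_Ad_permU]
      exact H.1 _ _ fun h1 => hab (congrArg w h1)
    · obtain ⟨a, rfl⟩ := w.surjective a
      obtain ⟨b, rfl⟩ := w.surjective b
      rw [c.mat_Ad_permU, c.mat_Ad_permU]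
      exact H.2 _ _ ((h.2 a b).1 hab)

theorem perm_mem_ss {w : Equiv.Perm (Fin N)} (h : Maps π π' π'' w) (x : Lg d) :
    c.Ad (permU w) x ∈ c.ss π'' ↔ x ∈ c.ss π' := by
  simp only [ss, Submodule.mem_inf]
  rw [c.perm_mem_blk h, Ad_orth c (c.perm_mem_cen h)]

theorem perm_mem_off {w : Equiv.Perm (Fin N)} (h : Maps π π' π'' w) (x : Lg d) :
    c.Ad (permU w) x ∈ c.off π π'' ↔ x ∈ c.off π π' := by
  simp only [off, Submodule.mem_inf]
  rw [c.perm_mem_blk (Maps_self h), Ad_orth c (c.perm_mem_blk h)]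

theorem perm_mem_Gen {w : Equiv.Perm (Fin N)} (h : Maps π π' π'' w) (x : Tn 9 d) :
    c.Ad9 (permU w) x ∈ c.Gen π π'' ↔ x ∈ c.Gen π π' := by
  have hs := Maps_self h
  simp only [Gen, Set.mem_ofPred_eq, Ad9, cmp_kr_one]
  constructor
  · intro H a b hab hab'
    obtain ⟨i, hi⟩ := H (w a) (w b) ((hs.2 a b).2 hab) fun h1 => hab' ((h.2 a b).1 h1)
    rw [c.mat_Ad_permU, c.mat_Ad_permU] at hi
    exact ⟨i, hi⟩
  · intro H a b hab hab'
    obtain ⟨a, rfl⟩ := w.surjective a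
    obtain ⟨b, rfl⟩ := w.surjective b
    obtain ⟨i, hi⟩ := H a b ((hs.2 a b).1 hab) fun h1 => hab' ((h.2 a b).2 h1)
    refine ⟨i, ?_⟩
    rw [c.mat_Ad_permU, c.mat_Ad_permU]
    exact hi

theorem perm_mem_Good {w : Equiv.Perm (Fin N)} (h : Maps π π' π'' w) (x : Tn 9 d) :
    c.Ad9 (permU w) x ∈ c.Good π π'' ↔ x ∈ c.Good π π' := by
  have hs := Maps_self h
  simp only [Good, Set.mem_ofPred_eq, Ad9, cmp_kr_one]
  constructor
  · intro H a b hab hab'
    obtain ⟨i, hi3, hi⟩ := H (w a) (w b) ((hs.2 a b).2 hab) fun h1 => hab' ((h.2 a b).1 h1)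
    rw [c.mat_Ad_permU, c.mat_Ad_permU] at hi
    exact ⟨i, hi3, hi⟩
  · intro H a b hab hab'
    obtain ⟨a, rfl⟩ := w.surjective a
    obtain ⟨b, rfl⟩ := w.surjective b
    obtain ⟨i, hi3, hi⟩ := H a b ((hs.2 a b).1 hab) fun h1 => hab' ((h.2 a b).2 h1)
    refine ⟨i, hi3, ?_⟩
    rw [c.mat_Ad_permU, c.mat_Ad_permU]
    exact hi

theorem isOpen_Gen (π π' : Setoid (Fin N)) : IsOpen (c.Gen π π') := by
  have hc : ∀ (i : Fin 9) (a : Fin N), Continuous fun x : Tn 9 d => c.mat (cmp i x) a a := by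
    intro i a
    have h1 : Continuous c.mat := c.mat.continuous_of_finiteDimensional
    exact ((h1.comp (cmp i).continuous).matrix_elem a a)
  have : c.Gen π π' = ⋂ a, ⋂ b, ⋂ _ : π a b, ⋂ _ : ¬ π' a b, ⋃ i,
      {x | c.mat (cmp i x) a a ≠ c.mat (cmp i x) b b} := by
    ext x
    simp only [Gen, Set.mem_ofPred_eq, Set.mem_iInter, Set.mem_iUnion]
  rw [this]
  refine isOpen_iInter_of_finite fun a => isOpen_iInter_of_finite fun b =>
    isOpen_iInter_of_finite fun _ => isOpen_iInter_of_finite fun _ => isOpen_iUnion fun i => ?_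
  exact isOpen_ne_fun (hc i a) (hc i b)

theorem isOpen_Good (π π' : Setoid (Fin N)) : IsOpen (c.Good π π') := by
  have hc : ∀ (i : Fin 9) (a : Fin N), Continuous fun x : Tn 9 d => c.mat (cmp i x) a a := by
    intro i a
    have h1 : Continuous c.mat := c.mat.continuous_of_finiteDimensional
    exact ((h1.comp (cmp i).continuous).matrix_elem a a)
  have : c.Good π π' = ⋂ a, ⋂ b, ⋂ _ : π a b, ⋂ _ : ¬ π' a b, ⋃ i : Fin 9, ⋃ _ : 3 ≤ i.val,
      {x | c.mat (cmp i x) a a ≠ c.mat (cmp i x) b b} := by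
    ext x
    simp only [Good, Set.mem_ofPred_eq, Set.mem_iInter, Set.mem_iUnion, exists_prop]
  rw [this]
  refine isOpen_iInter_of_finite fun a => isOpen_iInter_of_finite fun b =>
    isOpen_iInter_of_finite fun _ => isOpen_iInter_of_finite fun _ => isOpen_iUnion fun i =>
      isOpen_iUnion fun _ => ?_
  exact isOpen_ne_fun (hc i a) (hc i b)

theorem Good_subset_Gen (π π' : Setoid (Fin N)) : c.Good π π' ⊆ c.Gen π π' := by
  intro x hx a b hab hab'
  obtain ⟨i, -, hi⟩ := hx a b hab hab'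
  exact ⟨i, hi⟩

theorem exp_mem_Grp {y : Lg d} (hy : y ∈ c.blk π) {t : ℝ} {u : UN N}
    (h : (u : Matrix (Fin N) (Fin N) ℂ) = NormedSpace.exp ((-I) • (c.mat y + (t : ℂ) • 1))) :
    u ∈ Grp π := by
  have h1 : BD π (u : Matrix (Fin N) (Fin N) ℂ) := by
    rw [BD_iff, h]
    intro a
    have h2 : Commute (c.mat y) (ind π a) := (BD_iff π _).1 hy a
    have h3 : Commute ((-I) • (c.mat y + (t : ℂ) • 1)) (ind π a) :=
      (h2.add_left ((Commute.one_left _).smul_left _)).smul_left _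
    exact h3.exp_left
  exact h1

theorem exists_log_Grp {u : UN N} (hu : u ∈ Grp π) : ∃ y ∈ c.blk π, ∃ t : ℝ,
    (u : Matrix (Fin N) (Fin N) ℂ) = NormedSpace.exp ((-I) • (c.mat y + (t : ℂ) • 1)) ∧
      ∀ x : Lg d, c.Ad u x = x → c.ad y x = 0 := by
  obtain ⟨y, t, h1, h2⟩ := c.exists_log u
  have hb : BD π (c.mat y) := (BD_iff π _).2 fun a => h2 _ ((BD_iff π _).1 hu a)
  exact ⟨y, hb, t, h1, fun x hx => (c.ad_eq_zero_iff y x).2 (h2 _ ((c.Ad_eq_iff u x).1 hx))⟩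

/-- the complement of the good set is a finite union of subspaces of codimension six -/
theorem exists_bad (h : c.Th π 𝔞) (h' : π' ≤ π) : ∃ 𝒦 : Finset (Submodule ℝ (Tn 9 d)),
    (∀ K ∈ 𝒦, K ≤ c.CS 𝔞 π' ∧ Module.finrank ℝ K + 6 ≤ Module.finrank ℝ (c.CS 𝔞 π')) ∧
      ∀ x ∈ c.CS 𝔞 π', x ∈ c.Good π π' ↔ ∀ K ∈ 𝒦, x ∉ K := by
  classical
  refine ⟨(Finset.univ.filter fun p : Fin N × Fin N => π p.1 p.2 ∧ ¬ π' p.1 p.2).image
    fun p => c.CS 𝔞 π' ⊓ LinearMap.ker (dif6 c p.1 p.2), ?_, ?_⟩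
  · intro K hK
    obtain ⟨p, hp, rfl⟩ := Finset.mem_image.1 hK
    have hp' := (Finset.mem_filter.1 hp).2
    exact ⟨inf_le_left, finrank_bad c h h' hp'.1 hp'.2⟩
  · intro x hx
    constructor
    · intro H K hK hxK
      obtain ⟨p, hp, rfl⟩ := Finset.mem_image.1 hK
      have hp' := (Finset.mem_filter.1 hp).2
      obtain ⟨i, hi3, hi⟩ := H p.1 p.2 hp'.1 hp'.2
      have h0 : dif6 c p.1 p.2 x = 0 := hxK.2
      exact hi ((mat_diag_eq_iff c _ _ _).2 (congrFun h0 ⟨i, hi3⟩))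
    · intro H a b hab hab'
      by_contra hc
      push Not at hc
      refine H _ (Finset.mem_image.2 ⟨(a, b), Finset.mem_filter.2 ⟨Finset.mem_univ _, hab, hab'⟩,
        rfl⟩) ⟨hx, ?_⟩
      show dif6 c a b x = 0
      funext i
      exact (mat_diag_eq_iff c _ _ _).1 (hc i.1 i.2)

theorem nine_le_finrank_CS (h : c.Th π 𝔞) (h' : π' < π) :
    9 ≤ Module.finrank ℝ (c.CS 𝔞 π') := by
  obtain ⟨a, b, hab, hab'⟩ := exists_pair h'
  obtain ⟨z, hz, hne⟩ := exists_sep c h h'.le hab hab'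
  have hz0 : z ≠ 0 := by
    rintro rfl
    simp at hne
  have h1 : 0 < Module.finrank ℝ (𝔞 ⊓ c.cen π' : Submodule ℝ (Lg d)) :=
    Module.finrank_pos_iff_exists_ne_zero.2 ⟨⟨z, hz⟩, fun h0 => hz0 (congrArg Subtype.val h0)⟩
  rw [CS, finrank_sub]
  omega

theorem zero_not_mem_Gen (h' : π' < π) : (0 : Tn 9 d) ∉ c.Gen π π' := by
  obtain ⟨a, b, hab, hab'⟩ := exists_pair h'
  intro H
  obtain ⟨i, hi⟩ := H a b hab hab'
  simp at hi

end Ctx

end Vale.Agent.P353
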