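import Vale.Agent.P353.Ctx

/-! Gauge groups and permutations. -/

noncomputable section

open MeasureTheory Filter Topology Complex Matrix
open scoped ContDiff RealInnerProductSpace

namespace Vale.Agent.P353

variable {N : ℕ}

namespace Bas3aAux

theorem finite_setoid : Finite (Setoid (Fin N)) :=
  Finite.of_injective (fun π : Setoid (Fin N) => (π.r : Fin N → Fin N → Prop))
    fun _ _ h => Setoid.ext fun a b => Iff.of_eq (congrFun (congrFun h a) b)

theorem compact_UN : CompactSpace (UN N) := by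
  refine isCompact_iff_compactSpace.1 ?_
  have hK : IsCompact (Set.pi Set.univ fun _ : Fin N => Set.pi Set.univ fun _ : Fin N =>
      Metric.closedBall (0 : ℂ) 1) :=
    isCompact_univ_pi fun _ => isCompact_univ_pi fun _ => isCompact_closedBall _ _
  refine IsCompact.of_isClosed_subset (s := (Set.pi Set.univ fun _ : Fin N =>
    Set.pi Set.univ fun _ : Fin N => Metric.closedBall (0 : ℂ) 1 :
      Set (Matrix (Fin N) (Fin N) ℂ))) hK ?_ fun u hu a _ b _ => ?_
  · have e : ((Matrix.unitaryGroup (Fin N) ℂ : Submonoid _) : Set (Matrix (Fin N) (Fin N) ℂ)) =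
        {u | u * star u = 1} := Set.ext fun u => Matrix.mem_unitaryGroup_iff
    rw [e]
    exact isClosed_eq (continuous_id.matrix_mul continuous_id.matrix_conjTranspose)
      continuous_const
  · exact mem_closedBall_zero_iff.2 (entry_norm_bound_of_unitary hu a b)

end Bas3aAux

theorem one_mem_Grp (π : Setoid (Fin N)) : (1 : UN N) ∈ Grp π := fun a _ h =>
  Matrix.one_apply_ne fun e => h (e ▸ π.refl a)

theorem mul_mem_Grp {π : Setoid (Fin N)} {u u' : UN N} (h : u ∈ Grp π) (h' : u' ∈ Grp π) :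
    u * u' ∈ Grp π := fun a b hab => by
  change ((u : Matrix (Fin N) (Fin N) ℂ) * (u' : Matrix (Fin N) (Fin N) ℂ)) a b = 0
  rw [Matrix.mul_apply]
  refine Finset.sum_eq_zero fun k _ => ?_
  by_cases e : π a k
  · rw [h' k b fun e' => hab (π.trans e e'), mul_zero]
  · rw [h a k e, zero_mul]

theorem inv_mem_Grp {π : Setoid (Fin N)} {u : UN N} (h : u ∈ Grp π) : u⁻¹ ∈ Grp π :=
  fun a b hab => by
    change star ((u : Matrix (Fin N) (Fin N) ℂ) b a) = 0
    rw [h b a fun e => hab (π.symm e), star_zero]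

theorem Grp_mono {π π' : Setoid (Fin N)} (h : π' ≤ π) : Grp π' ⊆ Grp π :=
  fun _ hu a b hab => hu a b fun e => hab (h e)

theorem Grp_top : Grp (⊤ : Setoid (Fin N)) = Set.univ :=
  Set.eq_univ_of_forall fun _ _ _ hab => absurd trivial hab

theorem isCompact_Grp (π : Setoid (Fin N)) : IsCompact (Grp π) := by
  have := Bas3aAux.compact_UN (N := N)
  refine IsClosed.isCompact ?_
  have e : Grp π = ⋂ a, ⋂ b, ⋂ _ : ¬ π a b,
      {u : UN N | (u : Matrix (Fin N) (Fin N) ℂ) a b = 0} := by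
    ext u
    simp only [Set.mem_iInter]
    rfl
  rw [e]
  exact isClosed_iInter fun a => isClosed_iInter fun b => isClosed_iInter fun _ =>
    isClosed_eq (continuous_subtype_val.matrix_elem a b) continuous_const

theorem permU_apply (w : Equiv.Perm (Fin N)) (a b : Fin N) :
    (permU w : Matrix (Fin N) (Fin N) ℂ) a b = if a = w b then 1 else 0 := by
  change (w⁻¹).permMatrix ℂ a b = _
  rw [Equiv.Perm.permMatrix, PEquiv.toMatrix_apply]
  simp only [Equiv.toPEquiv_apply, Option.mem_def, Option.some.injEq, Equiv.Perm.inv_eq_iff_eq]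

theorem permU_mul (w w' : Equiv.Perm (Fin N)) : permU (w * w') = permU w * permU w' := by
  refine Subtype.ext ?_
  change ((w * w')⁻¹).permMatrix ℂ = (w⁻¹).permMatrix ℂ * (w'⁻¹).permMatrix ℂ
  rw [_root_.mul_inv_rev, Matrix.permMatrix_mul]

theorem permU_one : permU (1 : Equiv.Perm (Fin N)) = 1 := by
  refine Subtype.ext ?_
  change ((1 : Equiv.Perm (Fin N))⁻¹).permMatrix ℂ = 1
  rw [inv_one, Matrix.permMatrix_one]

theorem permU_inv (w : Equiv.Perm (Fin N)) : permU w⁻¹ = (permU w)⁻¹ :=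
  eq_inv_of_mul_eq_one_left (by rw [← permU_mul, inv_mul_cancel, permU_one])

theorem permU_mem_Grp {π : Setoid (Fin N)} {w : Equiv.Perm (Fin N)} (h : ∀ a, π (w a) a) :
    permU w ∈ Grp π := fun a b hab => by
  rw [permU_apply, if_neg fun e : a = w b => hab (e ▸ h b)]

theorem conj_mem_Grp {π π' π'' : Setoid (Fin N)} {w : Equiv.Perm (Fin N)} (h : Maps π π' π'' w)
    {u : UN N} (hu : u ∈ Grp π') : permU w * u * (permU w)⁻¹ ∈ Grp π'' := fun a b hab => by
  obtain ⟨a, rfl⟩ := w.surjective a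
  obtain ⟨b, rfl⟩ := w.surjective b
  rw [← permU_inv]
  change ((permU w : Matrix (Fin N) (Fin N) ℂ) * (u : Matrix (Fin N) (Fin N) ℂ) *
    (permU w⁻¹ : Matrix (Fin N) (Fin N) ℂ)) (w a) (w b) = 0
  simp only [Matrix.mul_apply, permU_apply, Equiv.Perm.coe_inv, Equiv.symm_apply_apply,
    EmbeddingLike.apply_eq_iff_eq, ite_mul, one_mul, zero_mul, mul_ite, mul_one, mul_zero,
    Finset.sum_ite_eq, Finset.sum_ite_eq', Finset.mem_univ, if_true]
  exact hu a b fun e => hab ((h.2 a b).2 e)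

theorem Maps.symm {π π' π'' : Setoid (Fin N)} {w : Equiv.Perm (Fin N)} (h : Maps π π' π'' w) :
    Maps π π'' π' w⁻¹ := by
  refine ⟨fun a => ?_, fun a b => ?_⟩
  · obtain ⟨a, rfl⟩ := w.surjective a
    simpa using π.symm (h.1 a)
  · obtain ⟨a, rfl⟩ := w.surjective a
    obtain ⟨b, rfl⟩ := w.surjective b
    simpa using (h.2 a b).symm

theorem Maps.trans {π π₁ π₂ π₃ : Setoid (Fin N)} {w w' : Equiv.Perm (Fin N)}
    (h : Maps π π₁ π₂ w) (h' : Maps π π₂ π₃ w') : Maps π π₁ π₃ (w' * w) :=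
  ⟨fun a => π.trans (h'.1 (w a)) (h.1 a), fun a b => (h'.2 (w a) (w b)).trans (h.2 a b)⟩

theorem Maps.refl (π π' : Setoid (Fin N)) : Maps π π' π' 1 :=
  ⟨fun a => π.refl a, fun _ _ => Iff.rfl⟩

theorem Maps.eq_self {π π' : Setoid (Fin N)} {w : Equiv.Perm (Fin N)} (h : Maps π π π' w) :
    π' = π := by
  refine Setoid.ext fun a b => ?_
  obtain ⟨a, rfl⟩ := w.surjective a
  obtain ⟨b, rfl⟩ := w.surjective b
  refine (h.2 a b).trans ⟨fun e => ?_, fun e => ?_⟩
  · exact π.trans (h.1 a) (π.trans e (π.symm (h.1 b)))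
  · exact π.trans (π.symm (h.1 a)) (π.trans e (h.1 b))

theorem Maps.le {π π' π'' : Setoid (Fin N)} {w : Equiv.Perm (Fin N)} (h : Maps π π' π'' w)
    (h' : π' ≤ π) : π'' ≤ π := by
  intro a b e
  obtain ⟨a, rfl⟩ := w.surjective a
  obtain ⟨b, rfl⟩ := w.surjective b
  exact π.trans (h.1 a) (π.trans (h' ((h.2 a b).1 e)) (π.symm (h.1 b)))

theorem exists_isRep (π : Setoid (Fin N)) : ∃ R, IsRep π R := by
  classical
  have := Bas3aAux.finite_setoid (N := N)
  let s : Setoid (Setoid (Fin N)) := ⟨fun a b => ∃ w, Maps π a b w,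
    ⟨fun a => ⟨1, Maps.refl π a⟩, fun ⟨w, h⟩ => ⟨w⁻¹, h.symm⟩,
      fun ⟨w, h⟩ ⟨w', h'⟩ => ⟨w' * w, h.trans h'⟩⟩⟩
  refine ⟨(Set.toFinite {a | a ≤ π ∧ (Quotient.mk s a).out = a}).toFinset, fun a ha => ?_,
    fun a ha => ?_, fun a ha b hb w h => ?_⟩
  · exact ((Set.Finite.mem_toFinset _).1 ha).1
  · obtain ⟨w, hw⟩ : s (Quotient.mk s a).out a := Quotient.mk_out a
    refine ⟨(Quotient.mk s a).out, (Set.Finite.mem_toFinset _).2 ⟨hw.symm.le ha, ?_⟩, w, hw⟩
    rw [Quotient.out_eq]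
  · rw [← ((Set.Finite.mem_toFinset _).1 ha).2, ← ((Set.Finite.mem_toFinset _).1 hb).2,
      Quotient.sound (s := s) ⟨w, h⟩]

theorem IsRep.self_mem {π : Setoid (Fin N)} {R : Finset (Setoid (Fin N))} (h : IsRep π R) :
    π ∈ R := by
  obtain ⟨π', hR, w, hw⟩ := h.2.1 π le_rfl
  exact hw.symm.eq_self ▸ hR

theorem setoid_induction {P : Setoid (Fin N) → Prop} (h : ∀ π, (∀ π' < π, P π') → P π)
    (π : Setoid (Fin N)) : P π := by
  have := Bas3aAux.finite_setoid (N := N)
  exact (wellFounded_lt (α := Setoid (Fin N))).induction π h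

end Vale.Agent.P353
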