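import Vale.Agent.P353.Bas2
import Vale.Agent.P353.Bas3a

/-! Partitions, block subalgebras and gauge groups. -/

noncomputable section

open MeasureTheory Filter Topology Complex Matrix
open scoped ContDiff RealInnerProductSpace

namespace Vale.Agent.P353

variable {N : ℕ}

namespace Ctx

variable {d : ℕ} {F : Type} [NormedAddCommGroup F] [InnerProductSpace ℂ F]
  [FiniteDimensional ℂ F] (c : Ctx N d F) {π π' π'' : Setoid (Fin N)}
  {𝔞 : Submodule ℝ (Lg d)}

theorem b3b_inner (x y : Lg d) : ⟪x, y⟫ = (∑ a, ∑ b, c.mat x a b * c.mat y b a).re := by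
  have h := congrArg Complex.re (c.inner_eq_trace x y)
  simpa only [ofReal_re, Matrix.trace, Matrix.diag_apply, Matrix.mul_apply] using h

theorem b3b_co {M : Matrix (Fin N) (Fin N) ℂ} (hM : M.IsHermitian) :
    ∃ t : ℝ, c.mat (c.co M) = M - t • 1 := by
  refine ⟨M.trace.re / N, ?_⟩
  have h1 : c.co M = c.co (M - (M.trace.re / N : ℝ) • 1) := by
    rw [map_sub, map_smul, co_one, smul_zero, sub_zero]
  rw [h1]
  refine c.span _ (hM.sub ?_) ?_
  · rw [Matrix.IsHermitian, Matrix.conjTranspose_smul, Matrix.conjTranspose_one, star_trivial]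
  · rcases Nat.eq_zero_or_pos N with rfl | hN
    · simp [Matrix.trace]
    · have h2 : (M.trace.re : ℂ) = M.trace := by
        rw [← Complex.conj_eq_iff_re, ← Complex.star_def, ← Matrix.trace_conjTranspose, hM.eq]
      have h3 : (N : ℂ) ≠ 0 := by exact_mod_cast hN.ne'
      rw [Matrix.trace_sub, Matrix.trace_smul, Matrix.trace_one, Fintype.card_fin, real_smul]
      push_cast
      rw [h2, div_mul_cancel₀ _ h3, sub_self]

theorem b3b_trunc (π : Setoid (Fin N)) [DecidableRel π] (x : Lg d) :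
    ∃ y : Lg d, ∀ a b, c.mat y a b = if π a b then c.mat x a b else 0 := by
  refine ⟨c.co (Matrix.of fun a b => if π a b then c.mat x a b else 0), fun a b => ?_⟩
  rw [c.span]
  · rfl
  · ext a b
    rw [Matrix.conjTranspose_apply, Matrix.of_apply, Matrix.of_apply, ← (c.mat_herm x).apply a b]
    by_cases h : π a b
    · rw [if_pos h, if_pos (π.symm' h)]
    · rw [if_neg h, if_neg fun h' => h (π.symm' h'), star_zero]
  · simpa only [Matrix.trace, Matrix.diag_apply, Matrix.of_apply, π.refl', if_true]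
      using c.mat_trace x

theorem b3b_orth (π : Setoid (Fin N)) {x : Lg d} (h : ∀ a b, π a b → c.mat x a b = 0) :
    x ∈ (c.blk π)ᗮ := fun y hy => by
  rw [c.b3b_inner, Finset.sum_eq_zero fun a _ => Finset.sum_eq_zero fun b _ => ?_, zero_re]
  by_cases hab : π a b
  · rw [h b a (π.symm' hab), mul_zero]
  · rw [hy a b hab, zero_mul]

theorem b3b_cen (π : Setoid (Fin N)) [DecidableRel π] (x : Lg d) :
    x ∈ (c.cen π)ᗮ ↔ ∀ a, ∑ b, (if π a b then c.mat x b b else 0) = 0 := by
  classical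
  refine ⟨fun h a => ?_, fun h y hy => ?_⟩
  · obtain ⟨t, ht⟩ := c.b3b_co (M := Matrix.diagonal fun b => if π a b then 1 else 0)
      (Matrix.isHermitian_diagonal_iff.2 fun b => by
        split_ifs
        exacts [IsSelfAdjoint.one _, IsSelfAdjoint.zero _])
    have h1 := h (c.co (Matrix.diagonal fun b => if π a b then 1 else 0)) ⟨fun p q hpq => by
      rw [ht]
      simp [hpq], fun p q hpq => by
      have e : π a p ↔ π a q := ⟨fun k => π.trans' k hpq, fun k => π.trans' k (π.symm' hpq)⟩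
      rw [ht]
      simp [e]⟩
    rw [real_inner_comm, inner_co] at h1
    refine Complex.ext ?_ ?_
    · simpa [Matrix.trace] using h1
    · rw [im_sum]
      refine Finset.sum_eq_zero fun b _ => ?_
      split_ifs
      · exact Complex.conj_eq_iff_im.1 ((c.mat_herm x).apply b b)
      · rfl
  · have h1 : ∑ a, ∑ b, c.mat y a b * c.mat x b a = ∑ a, c.mat y a a * c.mat x a a :=
      Finset.sum_congr rfl fun a _ => Finset.sum_eq_single a
        (fun b _ hb => by rw [hy.1 a b hb.symm, zero_mul]) (by simp)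
    rw [c.b3b_inner, h1, ← Finset.sum_fiberwise Finset.univ (Quotient.mk π),
      Finset.sum_eq_zero fun q _ => ?_, zero_re]
    obtain ⟨a, rfl⟩ := q.exists_rep
    rw [← mul_zero (c.mat y a a), ← h a, Finset.mul_sum, Finset.sum_filter]
    refine Finset.sum_congr rfl fun b _ => ?_
    by_cases hab : π a b
    · rw [if_pos hab, if_pos (Quotient.sound (π.symm' hab)), hy.2 a b hab]
    · rw [if_neg hab, if_neg fun k => hab (π.symm' (Quotient.exact k)), mul_zero]

theorem mat_Ad_permU (w : Equiv.Perm (Fin N)) (x : Lg d) (a b : Fin N) :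
    c.mat (c.Ad (permU w) x) (w a) (w b) = c.mat x a b := by
  simp [mat_Ad, Matrix.mul_apply, Matrix.star_apply, permU_apply]

theorem mat_blk_proj (π : Setoid (Fin N)) [DecidableRel π] (x : Lg d) (a b : Fin N) :
    c.mat ((c.blk π).starProjection x) a b = if π a b then c.mat x a b else 0 := by
  obtain ⟨y, hy⟩ := c.b3b_trunc π x
  rw [Submodule.eq_starProjection_of_mem_orthogonal (v := y) (fun a b h => by rw [hy, if_neg h])
    (c.b3b_orth π fun a b h => by rw [map_sub, Matrix.sub_apply, hy, if_pos h, sub_self]), hy]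

theorem mem_blk_orthogonal (π : Setoid (Fin N)) (x : Lg d) :
    x ∈ (c.blk π)ᗮ ↔ ∀ a b, π a b → c.mat x a b = 0 := by
  classical
  refine ⟨fun h a b hab => ?_, c.b3b_orth π⟩
  have h1 := c.mat_blk_proj π x a b
  rw [(Submodule.starProjection_apply_eq_zero_iff _).2 h, if_pos hab, map_zero] at h1
  exact h1.symm

theorem mem_off (h : π' ≤ π) (x : Lg d) :
    x ∈ c.off π π' ↔ ∀ a b, (¬ π a b ∨ π' a b) → c.mat x a b = 0 :=
  ⟨fun hx a b hab => hab.elim (hx.1 a b) ((c.mem_blk_orthogonal π' x).1 hx.2 a b),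
    fun hx => ⟨fun a b hab => hx a b (Or.inl hab), c.b3b_orth π' fun a b hab => hx a b (Or.inr hab)⟩⟩

theorem mem_ss (π : Setoid (Fin N)) [DecidableRel π] (x : Lg d) :
    x ∈ c.ss π ↔ x ∈ c.blk π ∧ ∀ a, ∑ b, (if π a b then c.mat x b b else 0) = 0 :=
  and_congr_right fun _ => c.b3b_cen π x

theorem mem_cen_iff (x : Lg d) : x ∈ c.cen π ↔ ∀ y ∈ c.blk π, c.ad x y = 0 := by
  simp only [ad_eq_zero_iff]
  refine ⟨fun h y hy => ?_, fun h => ?_⟩
  · ext a b
    rw [Matrix.mul_apply, Matrix.mul_apply, Finset.sum_eq_single a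
      (fun k _ hk => by rw [h.1 a k hk.symm, zero_mul]) (by simp), Finset.sum_eq_single b
      (fun k _ hk => by rw [h.1 k b hk, mul_zero]) (by simp)]
    by_cases hab : π a b
    · rw [h.2 a b hab, mul_comm]
    · rw [hy a b hab, mul_zero, zero_mul]
  · have key : ∀ a b, π a b → Commute (c.mat x) (Matrix.single a b 1 + Matrix.single b a 1) := by
      intro a b hab
      obtain ⟨t, ht⟩ := c.b3b_co (M := Matrix.single a b 1 + Matrix.single b a 1) (by
        rw [Matrix.IsHermitian, Matrix.conjTranspose_add, Matrix.conjTranspose_single,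
          Matrix.conjTranspose_single, star_one, add_comm])
      have h1 := h (c.co (Matrix.single a b 1 + Matrix.single b a 1)) fun p q hpq => by
        have k1 : p ≠ q := fun k => hpq (k ▸ π.refl' p)
        have k2 : ¬ (a = p ∧ b = q) := fun k => hpq (k.1 ▸ k.2 ▸ hab)
        have k3 : ¬ (b = p ∧ a = q) := fun k => hpq (k.1 ▸ k.2 ▸ π.symm' hab)
        rw [ht]
        simp [k1, k2, k3]
      rw [ht] at h1
      simpa using h1.add_right ((Commute.one_right _).smul_right t)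
    have h1 : ∀ a b, a ≠ b → c.mat x a b = 0 := fun a b hab => by
      have k := congrFun (congrFun (key b b (π.refl' b)).eq a) b
      simpa [Matrix.mul_add, Matrix.add_mul, hab] using k
    refine ⟨h1, fun a b hab => ?_⟩
    rcases eq_or_ne a b with rfl | hne
    · rfl
    · have k := congrFun (congrFun (key a b hab).eq a) b
      simpa [Matrix.mul_add, Matrix.add_mul, hne, hne.symm] using k

theorem cen_le_blk (π : Setoid (Fin N)) : c.cen π ≤ c.blk π := fun _ hx a b hab =>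
  hx.1 a b fun k => hab (k ▸ π.refl' a)

theorem ss_sup_cen (π : Setoid (Fin N)) : c.ss π ⊔ c.cen π = c.blk π := by
  rw [ss, sup_comm, inf_comm,
    Submodule.sup_orthogonal_inf_of_hasOrthogonalProjection (c.cen_le_blk π)]

theorem ss_isOrtho_cen (π : Setoid (Fin N)) : c.ss π ⟂ c.cen π := inf_le_right

theorem blk_mono (h : π' ≤ π) : c.blk π' ≤ c.blk π := fun _ hx a b hab => hx a b fun k => hab (h k)

theorem ss_mono (h : π' ≤ π) : c.ss π' ≤ c.ss π :=
  inf_le_inf (c.blk_mono h) (Submodule.orthogonal_le fun _ hx => ⟨hx.1, fun a b k => hx.2 a b (h k)⟩)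

theorem cen_anti (h : π' ≤ π) : c.cen π ≤ c.cen π' := fun _ hx =>
  ⟨hx.1, fun a b k => hx.2 a b (h k)⟩

theorem off_le_ss (h : π' ≤ π) : c.off π π' ≤ c.ss π :=
  inf_le_inf le_rfl (Submodule.orthogonal_le ((c.cen_anti h).trans (c.cen_le_blk π')))

theorem off_self (π : Setoid (Fin N)) : c.off π π = ⊥ := Submodule.inf_orthogonal_eq_bot _

theorem off_isOrtho_blk (π π' : Setoid (Fin N)) : c.off π π' ⟂ c.blk π' := inf_le_right

theorem blk_sup_off (h : π' ≤ π) : c.blk π' ⊔ c.off π π' = c.blk π := by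
  rw [off, inf_comm, Submodule.sup_orthogonal_inf_of_hasOrthogonalProjection (c.blk_mono h)]

theorem off_sup_off (h : π' ≤ π) (h' : π'' ≤ π') : c.off π π' ⊔ c.off π' π'' = c.off π π'' := by
  have h1 : c.off π π' ≤ (c.blk π'')ᗮ := inf_le_right.trans (Submodule.orthogonal_le (c.blk_mono h'))
  rw [off.eq_def c π π'', ← c.blk_sup_off h, sup_comm (c.blk π'), sup_inf_assoc_of_le _ h1,
    off.eq_def c π']

theorem off_isOrtho_off (π π' π'' : Setoid (Fin N)) : c.off π π' ⟂ c.off π' π'' :=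
  (c.off_isOrtho_blk π π').mono_right inf_le_left

theorem ss_top : c.ss ⊤ = ⊤ := by
  classical
  refine eq_top_iff.2 fun x _ => (c.mem_ss ⊤ x).2 ⟨fun a b h => absurd trivial h, fun a => ?_⟩
  rw [← c.mat_trace x]
  exact Finset.sum_congr rfl fun b _ => if_pos trivial

theorem blk_top : c.blk ⊤ = ⊤ := eq_top_iff.2 fun _ _ _ _ h => absurd trivial h

theorem ss_inf_cen (π : Setoid (Fin N)) : c.ss π ⊓ c.cen π = ⊥ :=
  (c.ss_isOrtho_cen π).disjoint.eq_bot

theorem Th_ss (π : Setoid (Fin N)) : c.Th π (c.ss π) := ⟨le_rfl, inf_le_left⟩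

theorem Th.inf (h : c.Th π 𝔞) (h' : π' ≤ π) : c.Th π' (𝔞 ⊓ c.blk π') :=
  ⟨le_inf ((c.ss_mono h').trans h.1) inf_le_left, inf_le_right⟩

theorem Th.sup_off (h : c.Th π 𝔞) (h' : π' ≤ π) : (𝔞 ⊓ c.blk π') ⊔ c.off π π' = 𝔞 := by
  rw [sup_comm, inf_comm, ← sup_inf_assoc_of_le _ ((c.off_le_ss h').trans h.1), sup_comm,
    c.blk_sup_off h', inf_eq_right.2 h.2]

theorem Th.cen_sup_ss (h : c.Th π 𝔞) (h' : π' ≤ π) :
    (𝔞 ⊓ c.cen π') ⊔ c.ss π' = 𝔞 ⊓ c.blk π' := by
  rw [sup_comm, inf_comm, ← sup_inf_assoc_of_le _ ((c.ss_mono h').trans h.1), ss_sup_cen, inf_comm]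

theorem CS_inf (h : π'' ≤ π') : c.CS (𝔞 ⊓ c.blk π') π'' = c.CS 𝔞 π'' := by
  rw [CS, CS, inf_assoc, inf_eq_right.2 ((c.cen_le_blk π'').trans (c.blk_mono h))]

/-- the orthogonal complement of `ss π'` -/
theorem ss_orthogonal (h : π' ≤ π) :
    (c.ss π')ᗮ = ((c.ss π)ᗮ ⊔ (c.ss π ⊓ c.cen π')) ⊔ c.off π π' := by
  have h1 : ((c.ss π)ᗮ ⊔ (c.ss π ⊓ c.cen π')) ⊔ c.off π π' ≤ (c.ss π')ᗮ :=
    sup_le (sup_le (Submodule.orthogonal_le (c.ss_mono h))
      (inf_le_right.trans (c.ss_isOrtho_cen π').symm))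
      (inf_le_right.trans (Submodule.orthogonal_le inf_le_left))
  have h2 : (((c.ss π)ᗮ ⊔ (c.ss π ⊓ c.cen π')) ⊔ c.off π π') ⊔ c.ss π' = ⊤ := by
    rw [sup_right_comm, sup_assoc _ _ (c.ss π'), Th.cen_sup_ss c (c.Th_ss π) h, sup_assoc,
      Th.sup_off c (c.Th_ss π) h, sup_comm, Submodule.sup_orthogonal_of_hasOrthogonalProjection]
  rw [← top_inf_eq (c.ss π')ᗮ, ← h2, sup_inf_assoc_of_le _ h1, Submodule.inf_orthogonal_eq_bot,
    sup_bot_eq]

end Ctx

end Vale.Agent.P353
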