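import Vale.Agent.P353.Gen

/-! Second quantization. -/

noncomputable section

open MeasureTheory Filter Topology Complex Matrix
open scoped ContDiff RealInnerProductSpace

set_option linter.unusedSectionVars false
set_option linter.unusedVariables false

namespace Vale.Agent.P353

variable {S : Type} [NormedAddCommGroup S] [InnerProductSpace ℝ S] [FiniteDimensional ℝ S]
variable {F : Type} [NormedAddCommGroup F] [InnerProductSpace ℂ F] [FiniteDimensional ℂ F]
variable {θ : S →L[ℝ] F →L[ℂ] F}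

/-- `u ∧ w : f ↦ ⟪w, f⟫ u - ⟪u, f⟫ w` -/
def wedge (u w : S) : S →L[ℝ] S := (innerSL ℝ w).smulRight u - (innerSL ℝ u).smulRight w

theorem wedge_apply (u w f : S) : wedge u w f = ⟪w, f⟫ • u - ⟪u, f⟫ • w := rfl

theorem wedge_skew (u w : S) : IsSkew (wedge u w) := fun x y => by
  simp only [wedge_apply, inner_sub_left, inner_sub_right, real_inner_smul_left,
    real_inner_smul_right, real_inner_comm x u, real_inner_comm x w]
  ring

theorem trR_eq_sum {V : Type} [NormedAddCommGroup V] [InnerProductSpace ℝ V] {ι : Type} [Fintype ι]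
    (b : OrthonormalBasis ι ℝ V) (a : V →L[ℝ] V) : trR a = ∑ j, ⟪b j, a (b j)⟫ :=
  LinearMap.trace_eq_sum_inner _ b

theorem theta_smul (t : ℝ) (u : S) : θ (t • u) = (t : ℂ) • θ u := by
  rw [map_smul]
  rfl

theorem IsCAR.sq (h : IsCAR θ) (u : S) : θ u * θ u = ((‖u‖ ^ 2 / 2 : ℝ) : ℂ) • 1 := by
  have h1 := h.anti u u
  rw [real_inner_self_eq_norm_sq] at h1
  rw [div_eq_inv_mul, ofReal_mul, mul_smul, ← h1]
  push_cast
  module

theorem IsCAR.re_inner (h : IsCAR θ) (u w : S) (a : F) :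
    (inner ℂ (θ u a) (θ w a)).re = ⟪u, w⟫ / 2 * ‖a‖ ^ 2 := by
  have h1 : inner ℂ (θ u a) (θ w a) + inner ℂ (θ w a) (θ u a) =
      ((⟪u, w⟫ * ‖a‖ ^ 2 : ℝ) : ℂ) := by
    rw [h.symm u, h.symm w, ← inner_add_right]
    change inner ℂ a ((θ u * θ w + θ w * θ u) a) = _
    rw [h.anti]
    simp [inner_self_eq_norm_sq_to_K]
  have h2 := congrArg re h1
  rw [add_re, ← inner_conj_symm (θ w a), conj_re, ofReal_re] at h2
  linarith

theorem IsCAR.norm_sq (h : IsCAR θ) (u : S) (a : F) : ‖θ u a‖ ^ 2 = ‖u‖ ^ 2 / 2 * ‖a‖ ^ 2 := by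
  rw [← real_inner_self_eq_norm_sq u, ← h.re_inner, ← inner_self_eq_norm_sq (𝕜 := ℂ)]
  rfl

theorem IsCAR.norm_le (h : IsCAR θ) (u : S) : ‖θ u‖ ≤ ‖u‖ := by
  refine ContinuousLinearMap.opNorm_le_bound _ (norm_nonneg u) fun a => ?_
  refine (sq_le_sq₀ (norm_nonneg _) (by positivity)).1 ?_
  rw [h.norm_sq, mul_pow]
  nlinarith [mul_nonneg (sq_nonneg ‖u‖) (sq_nonneg ‖a‖)]

theorem IsCAR.anti_of_orth (h : IsCAR θ) {u w : S} (huw : ⟪u, w⟫ = 0) :
    θ u * θ w = -(θ w * θ u) := by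
  have h1 := h.anti u w
  rw [huw, ofReal_zero, zero_smul] at h1
  exact eq_neg_of_add_eq_zero_left h1

namespace Car1aAux

omit [FiniteDimensional ℝ S] [FiniteDimensional ℂ F] in
theorem theta_expand {ι : Type} [Fintype ι] (b : OrthonormalBasis ι ℝ S)
    (φ : S →L[ℝ] F →L[ℂ] F) (x : S) : φ x = ∑ j, ((⟪b j, x⟫ : ℝ) : ℂ) • φ (b j) := by
  conv_lhs => rw [← b.sum_repr' x, map_sum]
  simp only [map_smul]
  rfl

omit [FiniteDimensional ℝ S] [FiniteDimensional ℂ F] in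
theorem transp {ι κ : Type} [Fintype ι] [Fintype κ] (b : OrthonormalBasis ι ℝ S)
    (e : OrthonormalBasis κ ℝ S) (φ ψ : S →L[ℝ] F →L[ℂ] F) {R R' : S → S}
    (hR : ∀ x y, ⟪R x, y⟫ = ⟪x, R' y⟫) :
    ∑ j, φ (R (b j)) * ψ (b j) = ∑ k, φ (e k) * ψ (R' (e k)) := by
  simp only [fun j => theta_expand e φ (R (b j)), fun k => theta_expand b ψ (R' (e k)),
    Finset.sum_mul, Finset.mul_sum, smul_mul_assoc, mul_smul_comm]
  rw [Finset.sum_comm]
  simp only [← hR, real_inner_comm (R _)]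

end Car1aAux

open Car1aAux

theorem dG_eq_sum {ι : Type} [Fintype ι] (b : OrthonormalBasis ι ℝ S) (a : S →L[ℝ] S) :
    dG θ a = (1 / 2 : ℂ) • ∑ j, θ (a (b j)) * θ (b j) :=
  congrArg _ (transp _ b (θ.comp a) θ (R := id) (R' := id) fun _ _ => rfl)

theorem dG_add (a b : S →L[ℝ] S) : dG θ (a + b) = dG θ a + dG θ b := by
  simp only [dG, _root_.add_apply, map_add, add_mul, Finset.sum_add_distrib, smul_add]

theorem dG_smul (t : ℝ) (a : S →L[ℝ] S) : dG θ (t • a) = (t : ℂ) • dG θ a := by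
  simp only [dG, _root_.smul_apply, theta_smul, smul_mul_assoc, ← Finset.smul_sum]
  exact smul_comm _ _ _

theorem dG_neg (a : S →L[ℝ] S) : dG θ (-a) = -dG θ a := by
  simp only [dG, _root_.neg_apply, map_neg, neg_mul, Finset.sum_neg_distrib, smul_neg]

theorem dG_zero : dG θ (0 : S →L[ℝ] S) = 0 := by
  simp [dG]

theorem dG_sum {ι : Type} (s : Finset ι) (a : ι → S →L[ℝ] S) :
    dG θ (∑ j ∈ s, a j) = ∑ j ∈ s, dG θ (a j) :=
  map_sum (AddMonoidHom.mk' (dG θ) dG_add) a s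

theorem exists_dGL (θ : S →L[ℝ] F →L[ℂ] F) :
    ∃ L : (S →L[ℝ] S) →L[ℝ] (F →L[ℂ] F), ∀ a, L a = dG θ a :=
  ⟨LinearMap.toContinuousLinearMap ⟨⟨dG θ, dG_add⟩, dG_smul⟩, fun _ => rfl⟩

theorem IsCAR.dG_wedge (h : IsCAR θ) (u w : S) :
    dG θ (wedge u w) = θ u * θ w - ((⟪u, w⟫ / 2 : ℝ) : ℂ) • 1 := by
  have h1 : ∀ u w : S, ∑ j, ((⟪w, stdOrthonormalBasis ℝ S j⟫ : ℝ) : ℂ) •
      (θ u * θ (stdOrthonormalBasis ℝ S j)) = θ u * θ w := fun u w => by
    simp only [theta_expand (stdOrthonormalBasis ℝ S) θ w, Finset.mul_sum, mul_smul_comm,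
      real_inner_comm w]
  simp only [dG, wedge_apply, map_sub, theta_smul, sub_mul, smul_mul_assoc, Finset.sum_sub_distrib,
    h1]
  rw [div_eq_inv_mul ⟪u, w⟫, ofReal_mul, mul_smul, ← h.anti]
  push_cast
  module

theorem IsCAR.dG_comm (h : IsCAR θ) {a : S →L[ℝ] S} (ha : IsSkew a) (u : S) :
    dG θ a * θ u - θ u * dG θ a = θ (a u) := by
  have h1 : ∀ x y : S, θ x * θ y * θ u - θ u * (θ x * θ y) =
      ((⟪y, u⟫ : ℝ) : ℂ) • θ x - ((⟪x, u⟫ : ℝ) : ℂ) • θ y := fun x y => by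
    rw [← mul_one (θ x), ← mul_smul_comm, ← h.anti, ← one_mul (θ y), ← smul_mul_assoc, ← h.anti]
    noncomm_ring
  rw [dG, smul_mul_assoc, mul_smul_comm, ← smul_sub, Finset.sum_mul, Finset.mul_sum,
    ← Finset.sum_sub_distrib]
  simp only [h1, ha _ u, ofReal_neg, neg_smul, sub_neg_eq_add, Finset.sum_add_distrib]
  rw [← theta_expand _ θ (a u)]
  erw [← theta_expand _ (θ.comp a) u]
  change (1 / 2 : ℂ) • (θ (a u) + θ (a u)) = _
  module

theorem IsCAR.dG_skew (h : IsCAR θ) {a : S →L[ℝ] S} (ha : IsSkew a) (x y : F) :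
    inner ℂ (dG θ a x) y = -inner ℂ x (dG θ a y) := by
  have h1 := transp (stdOrthonormalBasis ℝ S) (stdOrthonormalBasis ℝ S) θ θ (R := a)
    (R' := fun y => -a y) fun x y => by rw [ha, inner_neg_right]
  conv_rhs => rw [dG, h1]
  simp [dG, inner_smul_right, inner_sum, h.symm, mul_comm]

theorem IsCAR.dG_lie (h : IsCAR θ) {a b : S →L[ℝ] S} (ha : IsSkew a) (hb : IsSkew b) :
    dG θ a * dG θ b - dG θ b * dG θ a = dG θ (a * b - b * a) := by
  have h1 : ∀ x y : S, dG θ a * (θ x * θ y) - θ x * θ y * dG θ a =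
      θ (a x) * θ y + θ x * θ (a y) := fun x y => by
    rw [← h.dG_comm ha, ← h.dG_comm ha]
    noncomm_ring
  have h2 := transp (stdOrthonormalBasis ℝ S) (stdOrthonormalBasis ℝ S) (θ.comp b) θ
    (R := fun y => -a y) (R' := a) fun x y => by rw [inner_neg_left, ha, neg_neg]
  simp only [ContinuousLinearMap.comp_apply] at h2
  rw [dG.eq_1 θ b, smul_mul_assoc, mul_smul_comm, ← smul_sub, Finset.sum_mul, Finset.mul_sum,
    ← Finset.sum_sub_distrib]
  simp only [h1, Finset.sum_add_distrib, ← h2]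
  simp only [dG, ← Finset.sum_add_distrib, ← add_mul, map_neg, ← sub_eq_add_neg, map_sub,
    _root_.sub_apply, mul_apply_eq_comp]

/-- covariance of `dG`; `R'` is the inverse of the isometry `R` -/
theorem dG_conj {u : F →L[ℂ] F} {R R' : S →L[ℝ] S} (hR : ∀ x y, ⟪R x, y⟫ = ⟪x, R' y⟫)
    (hRR : R * R' = 1) (hu : ∀ y, u * θ y = θ (R y) * u) (a : S →L[ℝ] S) :
    u * dG θ a = dG θ (R * a * R') * u := by
  have h2 := transp (stdOrthonormalBasis ℝ S) (stdOrthonormalBasis ℝ S) (θ.comp (R * a)) θ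
    (R := R') (R' := R) fun x y => by rw [real_inner_comm, ← hR, real_inner_comm]
  simp only [ContinuousLinearMap.comp_apply, mul_apply_eq_comp] at h2
  simp only [dG, mul_apply_eq_comp, h2, mul_smul_comm, smul_mul_assoc, Finset.mul_sum,
    Finset.sum_mul, ← mul_assoc, hu]
  simp only [mul_assoc, hu]

theorem IsCAR.exp_dG_theta (h : IsCAR θ) {a : S →L[ℝ] S} (ha : IsSkew a) (u : S) :
    NormedSpace.exp (dG θ a) * θ u = θ (NormedSpace.exp a u) * NormedSpace.exp (dG θ a) := by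
  have := FiniteDimensional.complete ℂ F
  have := FiniteDimensional.complete ℝ S
  let +nondep : NormedAlgebra ℚ (F →L[ℂ] F) := .restrictScalars ℚ ℂ _
  have key : ∀ t : ℝ, HasDerivAt (fun t : ℝ => NormedSpace.exp (t • -dG θ a) *
      θ (NormedSpace.exp (t • a) u) * NormedSpace.exp (t • dG θ a)) 0 t := fun t => by
    have h1 := ((hasDerivAt_exp_smul_const (-dG θ a) t).mul (θ.hasFDerivAt.comp_hasDerivAt t
      ((hasDerivAt_exp_smul_const' a t).clm_apply (hasDerivAt_const t u)))).mul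
      (hasDerivAt_exp_smul_const' (dG θ a) t)
    refine h1.congr_deriv ?_
    simp only [Function.comp_apply, Pi.mul_apply, map_zero, add_zero,
      mul_apply_eq_comp, ← h.dG_comm ha]
    noncomm_ring
  have h2 := is_const_of_deriv_eq_zero (fun t => (key t).differentiableAt)
    (fun t => (key t).deriv) 0 1
  simp only [zero_smul, NormedSpace.exp_zero, one_mul, mul_one, one_smul,
    one_apply_eq_self] at h2
  rw [h2, ← mul_assoc, ← mul_assoc, ← NormedSpace.exp_add_of_commute (Commute.refl _).neg_right,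
    add_neg_cancel, NormedSpace.exp_zero, one_mul]

theorem IsCAR.norm_exp_dG (h : IsCAR θ) {a : S →L[ℝ] S} (ha : IsSkew a) (x : F) :
    ‖NormedSpace.exp (dG θ a) x‖ = ‖x‖ := by
  have := FiniteDimensional.complete ℂ F
  let +nondep : NormedAlgebra ℚ (F →L[ℂ] F) := .restrictScalars ℚ ℂ _
  have hs : dG θ a ∈ skewAdjoint (F →L[ℂ] F) := by
    rw [skewAdjoint.mem_iff, ContinuousLinearMap.star_eq_adjoint, eq_comm,
      ContinuousLinearMap.eq_adjoint_iff]
    intro x y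
    rw [_root_.neg_apply, inner_neg_left, h.dG_skew ha, neg_neg]
  have hu := NormedSpace.exp_mem_unitary_of_mem_skewAdjoint (𝔸 := F →L[ℂ] F) hs
  exact ContinuousLinearMap.norm_map_of_mem_unitary hu x

end Vale.Agent.P353
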