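import Vale.Agent.P353.Car1a

/-! Vacua. -/

noncomputable section

open MeasureTheory Filter Topology Complex Matrix
open scoped ContDiff RealInnerProductSpace

namespace Vale.Agent.P353

variable {S : Type} [NormedAddCommGroup S] [InnerProductSpace ℝ S] [FiniteDimensional ℝ S]
variable {F : Type} [NormedAddCommGroup F] [InnerProductSpace ℂ F] [FiniteDimensional ℂ F]
variable {θ : S →L[ℝ] F →L[ℂ] F}

theorem IsPCS.supp_sym {J : S →L[ℝ] S} (h : IsPCS J) : IsSym (-(J * J)) := fun u v => by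
  simp only [_root_.neg_apply, mul_apply_eq_comp, inner_neg_left, inner_neg_right, h.1 (J u) v,
    h.1 u (J v), neg_neg]

theorem IsPCS.supp_idem {J : S →L[ℝ] S} (h : IsPCS J) : -(J * J) * -(J * J) = -(J * J) := by
  rw [neg_mul_neg, ← mul_assoc, h.2, neg_mul]

theorem IsPCS.neg {J : S →L[ℝ] S} (h : IsPCS J) : IsPCS (-J) :=
  ⟨fun u v => by simp only [_root_.neg_apply, inner_neg_left, inner_neg_right, h.1 u v],
    by rw [neg_mul_neg, mul_neg, h.2]⟩

namespace CarAux

omit [FiniteDimensional ℝ S] in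
theorem mul_swap {J J' : S →L[ℝ] S} (h : IsPCS J) (h' : IsPCS J') (hJ : J * J' = 0) :
    J' * J = 0 := by
  refine ContinuousLinearMap.ext fun u => ext_inner_right ℝ fun v => ?_
  have : J (J' v) = 0 := congrArg (fun a : S →L[ℝ] S => a v) hJ
  rw [mul_apply_eq_comp, h'.1, h.1, this]
  simp

omit [FiniteDimensional ℝ S] in
theorem cube {J : S →L[ℝ] S} (h : IsPCS J) (u : S) : J (J (J u)) = -J u :=
  congrArg (fun a : S →L[ℝ] S => a u) h.2

/-- creation operator -/
def cre (θ : S →L[ℝ] F →L[ℂ] F) (J : S →L[ℝ] S) (u : S) : F →L[ℂ] F :=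
  θ (-(J (J u))) - I • θ (J u)

omit [FiniteDimensional ℝ S] in
theorem star_of {a b : F →L[ℂ] F} (h : ∀ x y, inner ℂ (a x) y = inner ℂ x (b y)) :
    star b = a := ((ContinuousLinearMap.eq_adjoint_iff a b).2 h).symm

omit [FiniteDimensional ℝ S] in
theorem star_theta (h : IsCAR θ) (u : S) : star (θ u) = θ u := star_of (h.symm u)

omit [FiniteDimensional ℝ S] in
theorem star_ann (h : IsCAR θ) (J : S →L[ℝ] S) (u : S) : star (ann θ J u) = cre θ J u := by
  rw [ann, cre, star_add, star_smul, star_theta h, star_theta h, Complex.star_def, conj_I, neg_smul,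
    sub_eq_add_neg]

omit [FiniteDimensional ℝ S] in
theorem star_vac (J : S →L[ℝ] S) : star (vac θ J) = vac θ J :=
  star_of (Submodule.inner_starProjection_left_eq_right _)

theorem star_dG (h : IsCAR θ) {a : S →L[ℝ] S} (ha : IsSkew a) : star (dG θ a) = -dG θ a :=
  star_of fun x y => by rw [_root_.neg_apply, inner_neg_left, h.dG_skew ha, neg_neg]

omit [FiniteDimensional ℝ S] [FiniteDimensional ℂ F] in
theorem ann_anti (h : IsCAR θ) {J : S →L[ℝ] S} (hJ : IsPCS J) (u w : S) :
    ann θ J u * ann θ J w + ann θ J w * ann θ J u = 0 := by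
  have h1 := h.anti (-(J (J u))) (-(J (J w)))
  have h2 := h.anti (J u) (J w)
  have h3 := h.anti (-(J (J u))) (J w)
  have h4 := h.anti (J u) (-(J (J w)))
  rw [inner_neg_neg, hJ.1, cube hJ, inner_neg_right, neg_neg] at h1
  rw [inner_neg_left, hJ.1, neg_neg] at h3
  rw [inner_neg_right, ofReal_neg, neg_smul] at h4
  simp only [ann, add_mul, mul_add, smul_mul_assoc, mul_smul_comm, smul_add, smul_smul, I_mul_I]
  linear_combination (norm := module) h1 - h2 + I • h3 + I • h4

omit [FiniteDimensional ℝ S] [FiniteDimensional ℂ F] in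
theorem ann_cre (h : IsCAR θ) (J : S →L[ℝ] S) (u w : S) :
    ∃ z : ℂ, ann θ J u * cre θ J w + cre θ J w * ann θ J u = z • 1 := by
  have h1 := h.anti (-(J (J u))) (-(J (J w)))
  have h2 := h.anti (J u) (J w)
  have h3 := h.anti (-(J (J u))) (J w)
  have h4 := h.anti (J u) (-(J (J w)))
  refine ⟨⟪-(J (J u)), -(J (J w))⟫ + ⟪J u, J w⟫ - I * ⟪-(J (J u)), J w⟫ +
    I * ⟪J u, -(J (J w))⟫, ?_⟩
  simp only [ann, cre, add_mul, mul_add, sub_mul, mul_sub, smul_mul_assoc, mul_smul_comm, smul_add,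
    smul_sub, smul_smul, I_mul_I]
  linear_combination (norm := module) h1 + h2 - I • h3 + I • h4

/-- the annihilation operators as a linear map -/
def annL (θ : S →L[ℝ] F →L[ℂ] F) (J : S →L[ℝ] S) : S →ₗ[ℝ] F →L[ℂ] F where
  toFun := ann θ J
  map_add' u w := by
    simp only [ann, map_add, neg_add, smul_add]
    abel
  map_smul' t u := by
    simp only [ann, map_smul, ← smul_neg, RingHom.id_apply, smul_add, smul_comm t I]

end CarAux

open CarAux

theorem IsPCS.add {J J' : S →L[ℝ] S} (h : IsPCS J) (h' : IsPCS J') (hJ : J * J' = 0) :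
    IsPCS (J + J') := by
  have h1 := CarAux.mul_swap h h' hJ
  refine ⟨fun u v => ?_, ?_⟩
  · simp only [_root_.add_apply, inner_add_left, inner_add_right, h.1 u v, h'.1 u v, neg_add]
  · have e : (J + J') * (J + J') = J * J + J' * J' := by
      rw [add_mul, mul_add, mul_add, hJ, h1, add_zero, zero_add]
    rw [e, add_mul, mul_add, mul_add, h.2, h'.2, mul_assoc, mul_assoc, hJ, h1, mul_zero, mul_zero,
      add_zero, zero_add, neg_add]

theorem vac_idem (J : S →L[ℝ] S) : vac θ J * vac θ J = vac θ J :=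
  isStarProjection_starProjection.isIdempotentElem.eq

theorem vac_symm (J : S →L[ℝ] S) (x y : F) :
    inner ℂ (vac θ J x) y = inner ℂ x (vac θ J y) :=
  Submodule.inner_starProjection_left_eq_right _ x y

theorem norm_vac_le (J : S →L[ℝ] S) (x : F) : ‖vac θ J x‖ ≤ ‖x‖ := Submodule.norm_starProjection_apply_le _ x

theorem vac_eq_self_iff (J : S →L[ℝ] S) (x : F) :
    vac θ J x = x ↔ ∀ u, ann θ J u x = 0 := by
  rw [vac, Submodule.starProjection_eq_self_iff, vacSp, Submodule.mem_iInf]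
  rfl

theorem vac_zero : vac θ (0 : S →L[ℝ] S) = 1 :=
  ContinuousLinearMap.ext fun x => (vac_eq_self_iff _ x).2 fun u => by simp [ann]

theorem ann_mul_vac (J : S →L[ℝ] S) (u : S) : ann θ J u * vac θ J = 0 :=
  ContinuousLinearMap.ext fun x =>
    (vac_eq_self_iff J _).1 (congrArg (fun a : F →L[ℂ] F => a x) (vac_idem J)) u

namespace CarAux

theorem vac_mul {J : S →L[ℝ] S} {a : F →L[ℂ] F} (h : ∀ u, ann θ J u * a = 0) :
    vac θ J * a = a :=
  ContinuousLinearMap.ext fun x => (vac_eq_self_iff J _).2 fun u =>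
    congrArg (fun a : F →L[ℂ] F => a x) (h u)

theorem vac_inter {J J' : S →L[ℝ] S} {a : F →L[ℂ] F} (h : ∀ u, ann θ J' u * (a * vac θ J) = 0)
    (h' : ∀ u, ann θ J u * (star a * vac θ J') = 0) : a * vac θ J = vac θ J' * a := by
  have h1 := congrArg star (vac_mul h')
  simp only [star_mul, star_vac, star_star] at h1
  rw [← vac_mul h, ← mul_assoc, h1]

theorem vac_cre (h : IsCAR θ) (J : S →L[ℝ] S) (u : S) : vac θ J * cre θ J u = 0 := by
  simpa only [star_mul, star_vac, star_ann h, star_zero] using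
    congrArg star (ann_mul_vac (θ := θ) J u)

end CarAux

/-- `θ (J u) Π = i θ u Π` on the support of `J` -/
theorem theta_J_vac {J : S →L[ℝ] S} {u : S} (hu : -(J (J u)) = u) :
    θ (J u) * vac θ J = I • (θ u * vac θ J) := by
  have h := ann_mul_vac (θ := θ) J u
  rw [ann, hu, add_mul, smul_mul_assoc] at h
  linear_combination (norm := module) (-I) • h + I_mul_I • (θ (J u) * vac θ J)

theorem IsCAR.vac_theta_J (h : IsCAR θ) {J : S →L[ℝ] S} {u : S} (hu : -(J (J u)) = u) :
    vac θ J * θ (J u) = (-I) • (vac θ J * θ u) := by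
  simpa only [star_mul, star_vac, star_theta h, star_smul, Complex.star_def, conj_I] using
    congrArg star (theta_J_vac (θ := θ) hu)

theorem IsCAR.vac_theta_vac (h : IsCAR θ) {J : S →L[ℝ] S} (hJ : IsPCS J) {u : S}
    (hu : -(J (J u)) = u) : vac θ J * θ u * vac θ J = 0 := by
  have h1 := congrArg (vac θ J * ·) (theta_J_vac (θ := θ) hu)
  simp only [← mul_assoc, h.vac_theta_J hu, smul_mul_assoc, mul_smul_comm] at h1
  linear_combination (norm := module) (I / 2) • h1 + I_mul_I • (vac θ J * θ u * vac θ J)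

omit [FiniteDimensional ℂ F] in
theorem CarAux.anti_J (h : IsCAR θ) {J : S →L[ℝ] S} (hJ : IsPCS J) {u : S} (hu : J u = 0) (w : S) :
    θ (J w) * θ u = -(θ u * θ (J w)) := by
  have := h.anti (J w) u
  rw [hJ.1, hu, inner_zero_right, neg_zero, ofReal_zero, zero_smul] at this
  exact eq_neg_of_add_eq_zero_left this

omit [FiniteDimensional ℂ F] in
theorem CarAux.anti_ann (h : IsCAR θ) {J : S →L[ℝ] S} (hJ : IsPCS J) {u : S} (hu : J u = 0)
    (w : S) : ann θ J w * θ u = -(θ u * ann θ J w) := by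
  simp only [ann, map_neg, add_mul, mul_add, neg_mul, mul_neg, smul_mul_assoc, mul_smul_comm,
    anti_J h hJ hu, smul_neg, neg_add]

omit [FiniteDimensional ℂ F] in
theorem CarAux.anti_cre (h : IsCAR θ) {J : S →L[ℝ] S} (hJ : IsPCS J) {u : S} (hu : J u = 0)
    (w : S) : θ u * cre θ J w = -(cre θ J w * θ u) := by
  simp only [cre, map_neg, sub_mul, mul_sub, neg_mul, mul_neg, smul_mul_assoc, mul_smul_comm,
    anti_J h hJ hu, smul_neg, neg_sub, neg_neg]
  abel

theorem IsCAR.vac_theta_comm (h : IsCAR θ) {J : S →L[ℝ] S} (hJ : IsPCS J) {u : S}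
    (hu : J u = 0) : vac θ J * θ u = θ u * vac θ J := by
  have h1 : ∀ w, ann θ J w * (θ u * vac θ J) = 0 := fun w => by
    rw [← mul_assoc, anti_ann h hJ hu, neg_mul, mul_assoc, ann_mul_vac, mul_zero, neg_zero]
  exact (vac_inter h1 (by simpa only [star_theta h] using h1)).symm

theorem CarAux.vtt (h : IsCAR θ) {J : S →L[ℝ] S} {u : S} (hu : -(J (J u)) = u) (w : S) :
    vac θ J * θ u * θ w * vac θ J = ((⟪u, w⟫ + I * ⟪J u, w⟫) / 2 : ℂ) • vac θ J := by
  have h1 := congrArg (vac θ J * · * vac θ J) (h.anti u w)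
  have h2 := congrArg (vac θ J * · * vac θ J) (h.anti (J u) w)
  simp only [mul_add, add_mul, mul_smul_comm, smul_mul_assoc, mul_one, vac_idem] at h1 h2
  rw [← mul_assoc, h.vac_theta_J hu, mul_assoc (vac θ J), mul_assoc (θ w), theta_J_vac hu] at h2
  simp only [mul_smul_comm, smul_mul_assoc, ← mul_assoc] at h1 h2
  linear_combination (norm := module) (1 / 2 : ℂ) • h1 + (I / 2) • h2 + (I_mul_I • (1 / 2 : ℂ) •
    (vac θ J * θ u * θ w * vac θ J - vac θ J * θ w * θ u * vac θ J))

theorem IsCAR.vac_theta_theta (h : IsCAR θ) {J : S →L[ℝ] S} (hJ : IsPCS J) {u w : S}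
    (hu : -(J (J u)) = u) (hw : -(J (J w)) = w) :
    vac θ J * θ u * θ w * vac θ J = ((⟪u, w⟫ - I * ⟪u, J w⟫) / 2 : ℂ) • vac θ J := by
  rw [vtt h hu, hJ.1, ofReal_neg, mul_neg, sub_eq_add_neg]

theorem IsCAR.vac_dG_vac (h : IsCAR θ) {J a : S →L[ℝ] S} (hJ : IsPCS J) (ha : IsSkew a)
    (hs : -(J * J) * a = a) :
    vac θ J * dG θ a * vac θ J = (I / 4 * trR (J * a) : ℂ) • vac θ J := by
  have h1 : ∀ u, -(J (J (a u))) = a u := fun u => congrArg (fun a : S →L[ℝ] S => a u) hs
  have h2 : ∀ u, ⟪a u, u⟫ = 0 := fun u => by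
    have := ha u u
    rw [real_inner_comm (a u) u] at this
    linarith
  rw [dG, trR_eq_sum (stdOrthonormalBasis ℝ S)]
  simp only [mul_smul_comm, smul_mul_assoc, Finset.mul_sum, Finset.sum_mul, ← mul_assoc,
    vtt h (h1 _), h2, ← Finset.sum_smul, smul_smul, ofReal_sum, mul_apply_eq_comp]
  congr 1
  refine Finset.sum_congr rfl fun j _ => ?_
  rw [real_inner_comm]
  push_cast
  ring

theorem CarAux.dG_ann (h : IsCAR θ) {J a : S →L[ℝ] S} (ha : IsSkew a) (hc : a * J = J * a)
    (u : S) : dG θ a * ann θ J u - ann θ J u * dG θ a = ann θ J (a u) := by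
  have h1 : ∀ u, J (a u) = a (J u) := fun u => (congrArg (fun a : S →L[ℝ] S => a u) hc).symm
  rw [ann, ann, h1, h1, ← map_neg a, ← h.dG_comm ha, ← h.dG_comm ha]
  simp only [mul_add, add_mul, mul_smul_comm, smul_mul_assoc, smul_sub]
  abel

theorem IsCAR.dG_vac_comm (h : IsCAR θ) {J a : S →L[ℝ] S} (hJ : IsPCS J) (ha : IsSkew a)
    (hc : a * J = J * a) : dG θ a * vac θ J = vac θ J * dG θ a := by
  have h1 : ∀ u, ann θ J u * (dG θ a * vac θ J) = 0 := fun u => by
    rw [← mul_assoc, ← sub_eq_iff_eq_add'.2 (sub_eq_iff_eq_add.1 (dG_ann h ha hc u)), sub_mul,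
      mul_assoc, ann_mul_vac, ann_mul_vac, mul_zero, sub_zero]
  exact vac_inter h1 fun u => by rw [star_dG h ha, neg_mul, mul_neg, h1, neg_zero]

/-- a generator that commutes with `J` and lives on its support acts on the vacuum by a charge -/
theorem IsCAR.dG_vac (h : IsCAR θ) {J a : S →L[ℝ] S} (hJ : IsPCS J) (ha : IsSkew a)
    (hc : a * J = J * a) (hs : -(J * J) * a = a) :
    dG θ a * vac θ J = (I / 4 * trR (J * a) : ℂ) • vac θ J := by
  rw [← h.vac_dG_vac hJ ha hs, ← h.dG_vac_comm hJ ha hc, mul_assoc, vac_idem]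

/-- covariance of the vacuum under an implemented isometry -/
theorem vac_conj {u : F →L[ℂ] F} {R R' : S →L[ℝ] S} (hRR : R * R' = 1) (hRR' : R' * R = 1)
    (hiso : ∀ x, ‖u x‖ = ‖x‖) (hu : ∀ y, u * θ y = θ (R y) * u) (J : S →L[ℝ] S) :
    u * vac θ J = vac θ (R * J * R') * u := by
  have h1 : star u * u = 1 := (ContinuousLinearMap.norm_map_iff_adjoint_comp_self u).1 hiso
  have h2 : u * star u = 1 := ContinuousLinearMap.coe_injective
    (mul_eq_one_comm.1 (congrArg (fun a : F →L[ℂ] F => (a : Module.End ℂ F)) h1))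
  have r1 : ∀ y, R (R' y) = y := fun y => congrArg (fun a : S →L[ℝ] S => a y) hRR
  have r2 : ∀ y, R' (R y) = y := fun y => congrArg (fun a : S →L[ℝ] S => a y) hRR'
  have h3 : ∀ y, u * ann θ J y = ann θ (R * J * R') (R y) * u := fun y => by
    simp only [ann, mul_add, add_mul, mul_smul_comm, smul_mul_assoc, hu, mul_apply_eq_comp, r2,
      map_neg R]
  refine vac_inter (fun y => ?_) fun y => ?_
  · rw [← mul_assoc, ← r1 y, ← h3, mul_assoc, ann_mul_vac, mul_zero]
  · rw [← one_mul (ann θ J y), ← h1, mul_assoc (star u), h3, mul_assoc, mul_assoc, ← mul_assoc u,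
      h2, one_mul, ann_mul_vac, mul_zero]

omit [FiniteDimensional ℝ S] [FiniteDimensional ℂ F] in
theorem CarAux.ann_add {J J' : S →L[ℝ] S} (h0 : J * J' = 0) (h0' : J' * J = 0) (u : S) :
    ann θ (J + J') u = ann θ J u + ann θ J' u := by
  have e : ∀ u, J (J' u) = 0 := fun u => congrArg (fun a : S →L[ℝ] S => a u) h0
  have e' : ∀ u, J' (J u) = 0 := fun u => congrArg (fun a : S →L[ℝ] S => a u) h0'
  simp only [ann, _root_.add_apply, map_add, e, e', add_zero, zero_add, neg_add, smul_add]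
  abel

theorem CarAux.vac_vac (h : IsCAR θ) {J J' : S →L[ℝ] S} (hJ : IsPCS J) (hJ' : IsPCS J')
    (h0 : J * J' = 0) : vac θ J * vac θ J' = vac θ J' * vac θ J := by
  have e : ∀ u, θ (J' u) * vac θ J = vac θ J * θ (J' u) := fun u =>
    (h.vac_theta_comm hJ (congrArg (fun a : S →L[ℝ] S => a u) h0)).symm
  have h1 : ∀ u, ann θ J' u * (vac θ J * vac θ J') = 0 := fun u => by
    have : ann θ J' u * vac θ J = vac θ J * ann θ J' u := by
      simp only [ann, map_neg, add_mul, mul_add, neg_mul, mul_neg, smul_mul_assoc, mul_smul_comm, e]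
    rw [← mul_assoc, this, mul_assoc, ann_mul_vac, mul_zero]
  exact vac_inter h1 (by simpa only [star_vac] using h1)

theorem IsCAR.vac_add (h : IsCAR θ) {J J' : S →L[ℝ] S} (hJ : IsPCS J) (hJ' : IsPCS J')
    (h0 : J * J' = 0) : vac θ (J + J') = vac θ J * vac θ J' := by
  have h0' := mul_swap hJ hJ' h0
  have h1 : ∀ {J J' : S →L[ℝ] S}, IsPCS J → J * J' = 0 → J' * J = 0 →
      vac θ (J + J') * vac θ J = vac θ (J + J') := by
    intro J J' hJ h0 h0'
    have e : ∀ u, J' (J u) = 0 := fun u => congrArg (fun a : S →L[ℝ] S => a u) h0'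
    have := congrArg star (vac_mul (θ := θ) (J := J) (a := vac θ (J + J')) fun u => by
      rw [← ann_mul_vac (θ := θ) (J + J') (-(J (J u))), ann_add h0 h0']
      simp only [ann, map_neg, e, cube hJ, map_zero, neg_zero, smul_zero, add_zero, neg_neg])
    simpa only [star_mul, star_vac] using this
  have h2 := h1 hJ' h0' h0
  rw [add_comm] at h2
  rw [← vac_mul (J := J + J') (a := vac θ J * vac θ J') fun u => ?_, ← mul_assoc, h1 hJ h0 h0', h2]
  rw [ann_add h0 h0', add_mul, ← mul_assoc, ann_mul_vac, vac_vac h hJ hJ' h0, ← mul_assoc,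
    ann_mul_vac, zero_mul, zero_mul, add_zero]

theorem IsCAR.vac_comm (h : IsCAR θ) {J J' : S →L[ℝ] S} (hJ : IsPCS J) (hJ' : IsPCS J')
    (h0 : J * J' = 0) : vac θ J * vac θ J' = vac θ J' * vac θ J := vac_vac h hJ hJ' h0

theorem IsCAR.vac_ne_zero [Nontrivial F] (h : IsCAR θ) {J : S →L[ℝ] S} (hJ : IsPCS J) :
    vac θ J ≠ 0 := by
  classical
  have h1 : ∀ s : Finset S, ∃ x : F, x ≠ 0 ∧ ∀ u ∈ s, ann θ J u x = 0 := by
    intro s
    induction s using Finset.induction_on with
    | empty => simpa using exists_ne (0 : F)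
    | insert w s _ ih =>
      obtain ⟨x, hx, h1⟩ := ih
      have e : ∀ u, ann θ J u (ann θ J w x) + ann θ J w (ann θ J u x) = 0 := fun u =>
        congrArg (fun a : F →L[ℂ] F => a x) (ann_anti h hJ u w)
      by_cases k : ann θ J w x = 0
      · exact ⟨x, hx, Finset.forall_mem_insert _ _ _ |>.2 ⟨k, h1⟩⟩
      · refine ⟨_, k, Finset.forall_mem_insert _ _ _ |>.2 ⟨?_, fun u hu => ?_⟩⟩
        · have := e w
          rwa [← two_smul ℂ, smul_eq_zero_iff_right two_ne_zero] at this
        · simpa only [h1 u hu, map_zero, add_zero] using e u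
  obtain ⟨x, hx, h2⟩ := h1 (Finset.univ.image (stdOrthonormalBasis ℝ S))
  refine fun k => hx ?_
  rw [← (vac_eq_self_iff (θ := θ) J x).2 fun u => ?_, k, _root_.zero_apply]
  rw [← (stdOrthonormalBasis ℝ S).sum_repr u]
  change annL θ J _ x = 0
  rw [map_sum, _root_.sum_apply]
  refine Finset.sum_eq_zero fun j _ => ?_
  rw [map_smul, _root_.smul_apply]
  exact smul_eq_zero_of_right _ (h2 _ (Finset.mem_image_of_mem _ (Finset.mem_univ j)))

end Vale.Agent.P353
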