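import Vale.Agent.P353.Car1

/-! Gap above the vacuum, smoothness, rank one, Clifford subalgebras. -/

noncomputable section

open MeasureTheory Filter Topology Complex Matrix
open scoped ContDiff RealInnerProductSpace

namespace Vale.Agent.P353

variable {S : Type} [NormedAddCommGroup S] [InnerProductSpace ℝ S] [FiniteDimensional ℝ S]
variable {F : Type} [NormedAddCommGroup F] [InnerProductSpace ℂ F] [FiniteDimensional ℂ F]
variable {θ : S →L[ℝ] F →L[ℂ] F}

namespace CarAux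

theorem sum_theta {ι : Type} [Fintype ι] (f : OrthonormalBasis ι ℝ S) (a : S →L[ℝ] S)
    {b b' : S →L[ℝ] S} (hb : ∀ u v, ⟪b u, v⟫ = ⟪u, b' v⟫) :
    ∑ j, θ (a (f j)) * θ (b (f j)) = (2 : ℂ) • dG θ (a * b') := by
  rw [dG_eq_sum f, smul_smul, mul_one_div_cancel two_ne_zero, one_smul]
  calc _ = ∑ j, ∑ k, ⟪f j, b' (f k)⟫ • (θ (a (f j)) * θ (f k)) := by
        refine Finset.sum_congr rfl fun j _ => ?_
        conv_lhs => rw [← f.sum_repr' (b (f j))]
        simp only [map_sum, map_smul, Finset.mul_sum, mul_smul_comm, ← hb, real_inner_comm]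
    _ = _ := by
        rw [Finset.sum_comm]
        refine Finset.sum_congr rfl fun k _ => ?_
        rw [mul_apply_eq_comp]
        conv_rhs => rw [← f.sum_repr' (b' (f k))]
        simp only [map_sum, map_smul, Finset.sum_mul, smul_mul_assoc]

theorem dG_sym (h : IsCAR θ) {s : S →L[ℝ] S} (hs : IsSym s) :
    dG θ s = ((trR s / 4 : ℝ) : ℂ) • 1 := by
  have h1 := sum_theta (θ := θ) (stdOrthonormalBasis ℝ S) s (b := 1) (b' := 1) fun _ _ => rfl
  have h2 := sum_theta (θ := θ) (stdOrthonormalBasis ℝ S) 1 hs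
  have h3 := congrArg₂ (· + ·) h2 h1
  simp only [one_apply_eq_self, ← Finset.sum_add_distrib, h.anti, ← Finset.sum_smul, mul_one,
    one_mul, ← ofReal_sum, ← trR_eq_sum] at h3
  push_cast
  linear_combination (norm := module) (-1 / 4 : ℂ) • h3

theorem sum_cre_ann (h : IsCAR θ) {J B : S →L[ℝ] S} (hJ : IsPCS J) (hB : IsSym B)
    (hc : B * J = J * B) {ι : Type} [Fintype ι] (f : OrthonormalBasis ι ℝ S) :
    ∑ j, cre θ J (B (f j)) * ann θ J (f j) =
      (4 : ℂ) • ((-I) • dG θ (J * B) + ((trR (B * -(J * J)) / 4 : ℝ) : ℂ) • 1) := by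
  have hJ' : ∀ u v, ⟪J u, v⟫ = ⟪u, (-J) v⟫ := fun u v => by
    rw [hJ.1, _root_.neg_apply, inner_neg_right]
  have c1 : J * J * B = B * (J * J) := by rw [mul_assoc, ← hc, ← mul_assoc, ← hc, mul_assoc]
  have c2 : -(J * J) * B = B * -(J * J) := by rw [neg_mul, c1, mul_neg]
  have c3 : IsSym (B * -(J * J)) := fun u v => by
    rw [mul_apply_eq_comp, hB, hJ.supp_sym, ← c2, mul_apply_eq_comp]
  have h1 := sum_theta (θ := θ) f (-(J * J) * B) hJ.supp_sym
  have h2 := sum_theta (θ := θ) f (J * B) hJ'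
  have h3 := sum_theta (θ := θ) f (-(J * J) * B) hJ'
  have h4 := sum_theta (θ := θ) f (J * B) hJ.supp_sym
  rw [c2, mul_assoc B, hJ.supp_idem, dG_sym h c3, ← c2] at h1
  rw [← hc, mul_assoc B, mul_neg J J, dG_sym h c3, hc, ← c2] at h2
  rw [c2, mul_assoc B, neg_mul_neg, hJ.2, mul_neg B J, hc, dG_neg, ← c2] at h3
  rw [← hc, mul_assoc B, mul_neg J, ← mul_assoc J, hJ.2, neg_neg, hc] at h4
  rw [← c2]
  simp only [mul_apply_eq_comp, _root_.neg_apply] at h1 h2 h3 h4
  simp only [cre, ann, sub_mul, mul_add, smul_mul_assoc, mul_smul_comm, Finset.sum_add_distrib,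
    Finset.sum_sub_distrib, ← Finset.smul_sum, smul_sub, smul_smul, I_mul_I, h1, h2, h3, h4]
  module

/-- the number operator -/
def num (θ : S →L[ℝ] F →L[ℂ] F) (J : S →L[ℝ] S) : F →L[ℂ] F :=
  (-I) • dG θ J + ((trR (-(J * J)) / 4 : ℝ) : ℂ) • 1

theorem num_eq (h : IsCAR θ) {J : S →L[ℝ] S} (hJ : IsPCS J) {ι : Type} [Fintype ι]
    (f : OrthonormalBasis ι ℝ S) :
    ∑ j, cre θ J ((1 : S →L[ℝ] S) (f j)) * ann θ J (f j) = (4 : ℂ) • num θ J := by
  simpa only [mul_one, one_mul, num] using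
    sum_cre_ann h hJ (B := 1) (fun _ _ => rfl) (by rw [one_mul, mul_one]) f

theorem re_form (h : IsCAR θ) (J : S →L[ℝ] S) {ι : Type} [Fintype ι]
    (f : OrthonormalBasis ι ℝ S) (β : ι → ℝ) {B : S →L[ℝ] S} (hf : ∀ j, B (f j) = β j • f j)
    {N : F →L[ℂ] F} (hN : ∑ j, cre θ J (B (f j)) * ann θ J (f j) = (4 : ℂ) • N) (x : F) :
    4 * (inner ℂ x (N x)).re = ∑ j, β j * ‖ann θ J (f j) x‖ ^ 2 := by
  have h1 := congrArg (fun a : F →L[ℂ] F => (inner ℂ x (a x)).re) hN
  simp only [_root_.smul_apply, inner_smul_right, _root_.sum_apply, inner_sum, re_sum] at h1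
  rw [show (4 : ℂ) = ((4 : ℝ) : ℂ) by norm_num, re_ofReal_mul] at h1
  rw [← h1]
  refine Finset.sum_congr rfl fun j _ => ?_
  have e : ann θ J (β j • f j) = β j • ann θ J (f j) := (annL θ J).map_smul _ _
  rw [hf, ← star_ann h, e, mul_apply_eq_comp, ContinuousLinearMap.star_eq_adjoint,
    ContinuousLinearMap.adjoint_inner_right, _root_.smul_apply, ← Complex.coe_smul, inner_smul_left,
    conj_ofReal, re_ofReal_mul, inner_self_eq_norm_sq_to_K]
  norm_cast

theorem num_mul (h : IsCAR θ) {J : S →L[ℝ] S} (hJ : IsPCS J) {X : F →L[ℂ] F}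
    (hX : ∀ u, ann θ J u * X = 0) : num θ J * X = 0 := by
  have := congrArg (· * X) (num_eq h hJ (stdOrthonormalBasis ℝ S))
  simp only [Finset.sum_mul, mul_assoc, hX, mul_zero, Finset.sum_const_zero, smul_mul_assoc] at this
  exact (smul_eq_zero_iff_right (by norm_num)).1 this.symm

theorem vac_of_num (h : IsCAR θ) {J : S →L[ℝ] S} (hJ : IsPCS J) {X : F →L[ℂ] F}
    (hX : num θ J * X = 0) : vac θ J * X = X := by
  refine vac_mul fun u => ContinuousLinearMap.ext fun x => ?_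
  have h1 := re_form h J (stdOrthonormalBasis ℝ S) (fun _ => 1) (B := 1)
    (fun _ => (one_smul _ _).symm) (num_eq h hJ _) (X x)
  rw [← mul_apply_eq_comp, hX, _root_.zero_apply, inner_zero_right, zero_re, mul_zero, eq_comm,
    Finset.sum_eq_zero_iff_of_nonneg fun _ _ => by positivity] at h1
  rw [← (stdOrthonormalBasis ℝ S).sum_repr u]
  change annL θ J _ (X x) = 0
  rw [map_sum, _root_.sum_apply]
  refine Finset.sum_eq_zero fun j _ => ?_
  rw [map_smul, _root_.smul_apply]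
  exact smul_eq_zero_of_right _ (show ann θ J _ (X x) = 0 by
    simpa using h1 j (Finset.mem_univ j))

theorem star_num (h : IsCAR θ) {J : S →L[ℝ] S} (hJ : IsPCS J) : star (num θ J) = num θ J := by
  rw [num, star_add, star_smul, star_smul, star_dG h hJ.1, star_one, Complex.star_def, conj_ofReal,
    map_neg, conj_I, neg_neg, smul_neg, neg_smul]

theorem ann_num (h : IsCAR θ) {J : S →L[ℝ] S} (hJ : IsPCS J) (u : S) :
    ann θ J u * num θ J = (num θ J + 1) * ann θ J u := by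
  have h1 := dG_ann h hJ.1 rfl u
  have h2 : ann θ J (J u) = (-I) • ann θ J u := by
    simp only [ann, cube hJ, neg_neg, smul_add, smul_smul, map_neg, neg_mul, I_mul_I, one_smul,
      smul_neg, neg_smul]
    abel
  rw [h2] at h1
  simp only [num, mul_add, add_mul, mul_smul_comm, smul_mul_assoc, mul_one, one_mul]
  linear_combination (norm := module) I • h1 - I_mul_I • ann θ J u

theorem prod_num (h : IsCAR θ) {J : S →L[ℝ] S} (hJ : IsPCS J) (l : List S) :
    (l.map (ann θ J)).prod * num θ J = (num θ J + (l.length : ℂ) • 1) * (l.map (ann θ J)).prod := by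
  induction l with
  | nil => simp
  | cons u l ih =>
    rw [List.map_cons, List.prod_cons, mul_assoc, ih, ← mul_assoc, mul_add, ann_num h hJ,
      ← mul_assoc, List.length_cons]
    congr 1
    simp only [add_mul, mul_smul_comm, smul_mul_assoc, mul_one, one_mul, Nat.cast_succ, add_smul,
      one_smul]
    abel

theorem nodal_mul (h : IsCAR θ) {J : S →L[ℝ] S} (hJ : IsPCS J) (m : ℕ) : ∀ X : F →L[ℂ] F,
    (∀ l : List S, l.length = m → (l.map (ann θ J)).prod * X = 0) →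
      Polynomial.aeval (num θ J) (Lagrange.nodal (Finset.range m) fun i => (i : ℂ)) * X = 0 := by
  induction m with
  | zero => exact fun X hX => by simpa using hX [] rfl
  | succ m ih =>
    intro X hX
    rw [Finset.range_add_one, Lagrange.nodal_insert_eq_nodal Finset.notMem_range_self, mul_comm,
      map_mul, mul_assoc]
    refine ih _ fun l hl => ?_
    rw [map_sub, Polynomial.aeval_X, Polynomial.aeval_C, Algebra.algebraMap_eq_smul_one,
      ← mul_assoc, mul_sub, prod_num h hJ, hl, add_mul, mul_smul_comm, smul_mul_assoc, mul_one,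
      one_mul, add_sub_cancel_right, mul_assoc]
    refine num_mul h hJ fun u => ?_
    simpa only [List.map_cons, List.prod_cons, mul_assoc] using hX (u :: l) (by simp [hl])

theorem prod_ann (h : IsCAR θ) {J : S →L[ℝ] S} (hJ : IsPCS J) (l : List S)
    (hl : l.length = Module.finrank ℝ S + 1) : (l.map (ann θ J)).prod = 0 := by
  have h1 : ∀ u, annL θ J u * annL θ J u = 0 := fun u => by
    have := ann_anti h hJ u u
    rwa [← two_smul ℂ, smul_eq_zero_iff_right two_ne_zero] at this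
  have h2 := (ExteriorAlgebra.ιMulti ℝ l.length).map_linearDependent l.get fun k => by
    simpa [hl] using k.fintype_card_le_finrank
  have h3 := congrArg (ExteriorAlgebra.lift ℝ ⟨annL θ J, h1⟩) h2
  rw [ExteriorAlgebra.ιMulti_apply, map_list_prod, map_zero, List.map_ofFn] at h3
  rw [← h3]
  conv_lhs => rw [← List.ofFn_get l, List.map_ofFn]
  simp only [Function.comp_def, ExteriorAlgebra.lift_ι_apply]
  rfl

/-- the spectral projections of the number operator -/
def pj (θ : S →L[ℝ] F →L[ℂ] F) (J : S →L[ℝ] S) (k : ℕ) : F →L[ℂ] F := Polynomial.aeval (num θ J)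
  (Lagrange.basis (Finset.range (Module.finrank ℝ S + 1)) (fun i => (i : ℂ)) k)

theorem sum_pj (J : S →L[ℝ] S) : ∑ k ∈ Finset.range (Module.finrank ℝ S + 1), pj θ J k = 1 := by
  simp only [pj]
  rw [← map_sum, Lagrange.sum_basis (fun _ _ _ _ k => Nat.cast_injective k)
    Finset.nonempty_range_add_one, map_one]

theorem num_pj (h : IsCAR θ) {J : S →L[ℝ] S} (hJ : IsPCS J) {k : ℕ}
    (hk : k ∈ Finset.range (Module.finrank ℝ S + 1)) : num θ J * pj θ J k = (k : ℂ) • pj θ J k := by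
  have h1 := nodal_mul h hJ _ 1 fun l hl => by rw [prod_ann h hJ l hl, zero_mul]
  rw [mul_one, Lagrange.nodal_eq_mul_nodal_erase hk, map_mul, map_sub, Polynomial.aeval_X,
    Polynomial.aeval_C, Algebra.algebraMap_eq_smul_one, sub_mul, smul_mul_assoc, one_mul,
    sub_eq_zero] at h1
  rw [pj, Lagrange.basis_eq_prod_sub_inv_mul_nodal_div hk, ← Lagrange.nodal_erase_eq_nodal_div hk,
    map_mul, Polynomial.aeval_C, Algebra.algebraMap_eq_smul_one, smul_mul_assoc, one_mul,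
    mul_smul_comm, h1, smul_comm]

theorem pj_zero (h : IsCAR θ) {J : S →L[ℝ] S} (hJ : IsPCS J) : pj θ J 0 = vac θ J := by
  have h1 : vac θ J * num θ J = 0 := by
    simpa only [star_mul, star_vac, star_num h hJ, star_zero] using
      congrArg star (num_mul h hJ (ann_mul_vac J))
  have h0 : 0 ∈ Finset.range (Module.finrank ℝ S + 1) := by simp
  rw [← mul_one (vac θ J), ← sum_pj J, Finset.mul_sum, Finset.sum_eq_single_of_mem 0 h0
    fun k hk k0 => ?_, vac_of_num h hJ (by rw [num_pj h hJ h0, Nat.cast_zero, zero_smul])]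
  have := congrArg (vac θ J * ·) (num_pj h hJ hk)
  simp only [← mul_assoc, h1, zero_mul, mul_smul_comm] at this
  exact (smul_eq_zero_iff_right (Nat.cast_ne_zero.2 k0)).1 this.symm

theorem pj_sq (h : IsCAR θ) {J : S →L[ℝ] S} (hJ : IsPCS J) {k : ℕ}
    (hk : k ∈ Finset.range (Module.finrank ℝ S + 1)) : star (pj θ J k) * pj θ J k = pj θ J k := by
  have h1 := congrArg (fun a => star a * pj θ J k) (sum_pj (θ := θ) J)
  simp only [star_sum, Finset.sum_mul, star_one, one_mul] at h1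
  rw [Finset.sum_eq_single_of_mem k hk fun j hj jk => ?_] at h1
  · exact h1
  have h2 := congrArg (fun a => star a * pj θ J k) (num_pj h hJ hj)
  simp only [star_mul, star_num h hJ, mul_assoc, num_pj h hJ hk, star_smul, star_natCast,
    mul_smul_comm, smul_mul_assoc] at h2
  rw [← sub_eq_zero, ← sub_smul] at h2
  exact (smul_eq_zero_iff_right (sub_ne_zero.2 fun e => jk (Nat.cast_injective e).symm)).1 h2

theorem num_ge (h : IsCAR θ) {J : S →L[ℝ] S} (hJ : IsPCS J) (x : F) :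
    ‖x - vac θ J x‖ ^ 2 ≤ (inner ℂ x (num θ J x)).re := by
  have h1 : ∀ a : F →L[ℂ] F, star a * a = a → (inner ℂ x (a x)).re = ‖a x‖ ^ 2 := by
    intro a ha
    conv_lhs => rw [← ha]
    rw [mul_apply_eq_comp, ContinuousLinearMap.star_eq_adjoint,
      ContinuousLinearMap.adjoint_inner_right, inner_self_eq_norm_sq_to_K]
    norm_cast
  have h2 := h1 (1 - vac θ J) (by
    rw [star_sub, star_one, star_vac, sub_mul, one_mul, mul_sub, mul_one, vac_idem, sub_self,
      sub_zero])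
  rw [show x - vac θ J x = (1 - vac θ J) x from rfl, ← h2, ← mul_one (num θ J), ← pj_zero h hJ,
    ← sum_pj (θ := θ) J, Finset.mul_sum, Finset.sum_range_succ', add_sub_cancel_right,
    Finset.sum_congr rfl fun k hk => num_pj h hJ hk, Finset.sum_range_succ', Nat.cast_zero,
    zero_smul, add_zero]
  simp only [_root_.sum_apply, inner_sum, re_sum]
  refine Finset.sum_le_sum fun k hk => ?_
  rw [_root_.smul_apply, inner_smul_right, ← ofReal_natCast, re_ofReal_mul,
    h1 _ (pj_sq h hJ (by simpa using hk))]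
  exact le_mul_of_one_le_left (by positivity) (by simp)

end CarAux

open CarAux

/-- the vacuum is the ground state of `-i dG (J B)`, with gap `b` -/
theorem IsCAR.gap (h : IsCAR θ) {J B : S →L[ℝ] S} (hJ : IsPCS J) (hB : IsSym B)
    (hc : B * J = J * B) {b : ℝ} (hb : ∀ u, b * ‖J u‖ ^ 2 ≤ ⟪J u, B (J u)⟫) (hb0 : 0 ≤ b) (x : F) :
    -(trR (B * -(J * J)) / 4) * ‖x‖ ^ 2 + b * ‖x - vac θ J x‖ ^ 2 ≤
      (inner ℂ x ((-I) • dG θ (J * B) x)).re := by
  have hs : (B : S →ₗ[ℝ] S).IsSymmetric := hB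
  obtain ⟨f, β, hf⟩ : ∃ (f : OrthonormalBasis (Fin (Module.finrank ℝ S)) ℝ S)
      (β : Fin (Module.finrank ℝ S) → ℝ), ∀ j, B (f j) = β j • f j :=
    ⟨hs.eigenvectorBasis rfl, hs.eigenvalues rfl, hs.apply_eigenvectorBasis rfl⟩
  have h1 := re_form h J f β hf (sum_cre_ann h hJ hB hc f) x
  have h2 := re_form h J f (fun _ => 1) (B := 1) (fun _ => (one_smul _ _).symm) (num_eq h hJ f) x
  have h3 := num_ge h hJ x
  have h4 : ∑ j, b * (1 * ‖ann θ J (f j) x‖ ^ 2) ≤ ∑ j, β j * ‖ann θ J (f j) x‖ ^ 2 := by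
    refine Finset.sum_le_sum fun j _ => ?_
    by_cases k : J (f j) = 0
    · simp [ann, k]
    · have e : B (J (f j)) = β j • J (f j) := by
        rw [← map_smul, ← hf]
        exact congrArg (fun a : S →L[ℝ] S => a (f j)) hc
      have := hb (f j)
      rw [e, inner_smul_right, real_inner_self_eq_norm_sq] at this
      rw [one_mul]
      exact mul_le_mul_of_nonneg_right (le_of_mul_le_mul_right this (by positivity)) (by positivity)
  rw [← Finset.mul_sum, ← h1, ← h2] at h4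
  rw [_root_.add_apply, inner_add_right, add_re, _root_.smul_apply (1 : F →L[ℂ] F), inner_smul_right,
    re_ofReal_mul, one_apply_eq_self, inner_self_eq_norm_sq_to_K] at h4
  have e : (((‖x‖ : ℝ) : ℂ) ^ 2).re = ‖x‖ ^ 2 := by norm_cast
  have h5 := mul_le_mul_of_nonneg_left h3 hb0
  erw [e] at h4
  rw [_root_.smul_apply] at h4
  linarith

theorem IsCAR.ground (h : IsCAR θ) {J B : S →L[ℝ] S} (hJ : IsPCS J) (hB : IsSym B)
    (hc : B * J = J * B) :
    (-I) • dG θ (J * B) * vac θ J = ((-(trR (B * -(J * J)) / 4) : ℝ) : ℂ) • vac θ J := by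
  have := congrArg (· * vac θ J) (sum_cre_ann h hJ hB hc (stdOrthonormalBasis ℝ S))
  simp only [Finset.sum_mul, mul_assoc, ann_mul_vac, mul_zero, Finset.sum_const_zero,
    smul_mul_assoc, add_mul, one_mul] at this
  rw [smul_mul_assoc, ofReal_neg]
  linear_combination (norm := module) (-1 / 4 : ℂ) • this

/-- the vacuum projection is a polynomial in `J` -/
theorem IsCAR.exists_smooth_vac (h : IsCAR θ) :
    ∃ Φ : (S →L[ℝ] S) → (F →L[ℂ] F), ContDiff ℝ ∞ Φ ∧ ∀ J, IsPCS J → vac θ J = Φ J := by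
  refine ⟨fun J => pj θ J 0, ?_, fun J hJ => (pj_zero h hJ).symm⟩
  obtain ⟨L, hL⟩ := exists_dGL θ
  have h1 : ContDiff ℝ ∞ fun J : S →L[ℝ] S => trR (-(J * J)) := by
    simp only [trR_eq_sum (stdOrthonormalBasis ℝ S)]
    exact ContDiff.sum fun j _ => contDiff_const.inner ℝ
      ((contDiff_id.mul contDiff_id).neg.clm_apply contDiff_const)
  have h2 : ContDiff ℝ ∞ (num θ) := by
    have : num θ = fun J => (-I) • L J + (trR (-(J * J)) / 4) • (1 : F →L[ℂ] F) :=
      funext fun J => by rw [num, hL, Complex.coe_smul]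
    rw [this]
    exact (L.contDiff.const_smul _).add ((h1.div_const _).smul contDiff_const)
  simp only [pj, Polynomial.aeval_eq_sum_range]
  exact ContDiff.sum fun i _ => (h2.pow i).const_smul _

/-- spectral decomposition of the number operator `-i dG J + dim / 4` -/
theorem IsCAR.number (h : IsCAR θ) {J : S →L[ℝ] S} (hJ : IsPCS J) :
    ∃ (n : ℕ) (p : ℕ → Polynomial ℂ), ∑ k ∈ Finset.range (n + 1),
      Polynomial.aeval (dG θ J) (p k) = 1 ∧ Polynomial.aeval (dG θ J) (p 0) = vac θ J ∧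
      ∀ k ∈ Finset.range (n + 1), (-I) • dG θ J * Polynomial.aeval (dG θ J) (p k) =
        (((k : ℝ) - trR (-(J * J)) / 4 : ℝ) : ℂ) • Polynomial.aeval (dG θ J) (p k) := by
  have e : ∀ k, Polynomial.aeval (dG θ J) ((Lagrange.basis (Finset.range (Module.finrank ℝ S + 1))
      (fun i => (i : ℂ)) k).comp (Polynomial.C (-I) * Polynomial.X +
        Polynomial.C ((trR (-(J * J)) / 4 : ℝ) : ℂ))) = pj θ J k := fun k => by
    rw [Polynomial.aeval_comp, map_add, map_mul, Polynomial.aeval_C, Polynomial.aeval_C,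
      Polynomial.aeval_X, Algebra.algebraMap_eq_smul_one, Algebra.algebraMap_eq_smul_one,
      smul_mul_assoc, one_mul]
    rfl
  refine ⟨Module.finrank ℝ S, fun k => (Lagrange.basis (Finset.range (Module.finrank ℝ S + 1))
    (fun i => (i : ℂ)) k).comp (Polynomial.C (-I) * Polynomial.X +
      Polynomial.C ((trR (-(J * J)) / 4 : ℝ) : ℂ)), ?_, (e 0).trans (pj_zero h hJ), fun k hk => ?_⟩
  · simp only [e, sum_pj]
  · have := num_pj h hJ hk
    rw [num, add_mul, smul_mul_assoc _ 1, one_mul] at this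
    rw [e, ofReal_sub, ofReal_natCast, sub_smul, ← this, add_sub_cancel_right]

namespace CarAux

theorem fock (h : IsCAR θ) {J : S →L[ℝ] S} (hJ : IsPCS J) (K : Submodule ℂ (F →L[ℂ] F))
    (hK : ∀ m ∈ K, vac θ J * m = m) : ∃ M : Submodule ℂ (F →L[ℂ] F), K ≤ M ∧
      (∀ m ∈ M, vac θ J * m ∈ K) ∧ (∀ u, ∀ m ∈ M, θ (-(J (J u))) * m ∈ M) ∧
      ∀ u, J u = 0 → (∀ m ∈ K, θ u * m ∈ K) → ∀ m ∈ M, θ u * m ∈ M := by
  let G : Set (F →L[ℂ] F) := {x | ∃ l : List S, ∃ m ∈ K, x = (l.map (cre θ J)).prod * m}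
  have h0 : ∀ (a : F →L[ℂ] F) (N : Submodule ℂ (F →L[ℂ] F)),
      (∀ l : List S, ∀ m ∈ K, a * ((l.map (cre θ J)).prod * m) ∈ N) →
      ∀ x ∈ Submodule.span ℂ G, a * x ∈ N := fun a N hN =>
    (Submodule.span_le (p := N.comap (LinearMap.mulLeft ℂ a))).2 (by
      rintro _ ⟨l, m, hm, rfl⟩
      exact hN l m hm)
  have h1 : ∀ u, ∀ x ∈ Submodule.span ℂ G, cre θ J u * x ∈ Submodule.span ℂ G := fun u =>
    h0 _ _ fun l m hm => Submodule.subset_span ⟨u :: l, m, hm, by simp [mul_assoc]⟩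
  have h2 : ∀ u, ∀ x ∈ Submodule.span ℂ G, ann θ J u * x ∈ Submodule.span ℂ G := fun u =>
    h0 _ _ fun l m hm => by
      induction l with
      | nil =>
        rw [List.map_nil, List.prod_nil, one_mul, ← hK m hm, ← mul_assoc, ann_mul_vac, zero_mul]
        exact zero_mem _
      | cons w l ih =>
        obtain ⟨z, hz⟩ := ann_cre h J u w
        rw [List.map_cons, List.prod_cons, mul_assoc, ← mul_assoc, eq_sub_of_add_eq hz, sub_mul,
          smul_mul_assoc, one_mul, mul_assoc]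
        exact sub_mem (Submodule.smul_mem _ _ (Submodule.subset_span ⟨l, m, hm, rfl⟩)) (h1 _ _ ih)
  refine ⟨Submodule.span ℂ G, fun m hm => Submodule.subset_span ⟨[], m, hm, by simp⟩,
    h0 _ _ fun l m hm => ?_, fun u m hm => ?_, fun u hu hu' => h0 _ _ fun l m hm => ?_⟩
  · cases l with
    | nil => rwa [List.map_nil, List.prod_nil, one_mul, hK m hm]
    | cons w l =>
      rw [List.map_cons, List.prod_cons, mul_assoc, ← mul_assoc, vac_cre h, zero_mul]
      exact zero_mem _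
  · have e : θ (-(J (J u))) = (1 / 2 : ℂ) • (ann θ J u + cre θ J u) := by
      rw [ann, cre]
      module
    rw [e, smul_mul_assoc, add_mul]
    exact Submodule.smul_mem _ _ (add_mem (h2 _ _ hm) (h1 _ _ hm))
  · induction l with
    | nil => exact Submodule.subset_span ⟨[], _, hu' m hm, by simp⟩
    | cons w l ih =>
      rw [List.map_cons, List.prod_cons, mul_assoc, ← mul_assoc, anti_cre h hJ hu, neg_mul,
        mul_assoc]
      exact neg_mem (h1 _ _ ih)

omit [FiniteDimensional ℝ S] [FiniteDimensional ℂ F] in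
theorem adj_mul {W : Submodule ℝ S} {M : Submodule ℂ (F →L[ℂ] F)}
    (hM : ∀ u ∈ W, ∀ m ∈ M, θ u * m ∈ M) {a : F →L[ℂ] F}
    (ha : a ∈ Algebra.adjoin ℂ (θ '' (W : Set S))) : ∀ m ∈ M, a * m ∈ M := by
  induction ha using Algebra.adjoin_induction with
  | mem x hx =>
    obtain ⟨u, hu, rfl⟩ := hx
    exact hM u hu
  | algebraMap z => exact fun m hm => Algebra.smul_def z m ▸ M.smul_mem z hm
  | add x y _ _ hx hy => exact fun m hm => add_mul x y m ▸ add_mem (hx m hm) (hy m hm)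
  | mul x y _ _ hx hy => exact fun m hm => mul_assoc x y m ▸ hx _ (hy m hm)

theorem vac_adj (h : IsCAR θ) {W : Submodule ℝ S} {J : S →L[ℝ] S} (hJ : IsPCS J)
    (hW : ∀ u ∈ W, -(J (J u)) = u) {a : F →L[ℂ] F} (ha : a ∈ Algebra.adjoin ℂ (θ '' (W : Set S))) :
    ∃ z : ℂ, vac θ J * a * vac θ J = z • vac θ J := by
  obtain ⟨M, h1, h2, h3, -⟩ := fock h hJ (Submodule.span ℂ {vac θ J}) fun m hm => by
    obtain ⟨z, rfl⟩ := Submodule.mem_span_singleton.1 hm
    rw [mul_smul_comm, vac_idem]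
  obtain ⟨z, hz⟩ := Submodule.mem_span_singleton.1 (h2 _ (adj_mul (fun u hu => hW u hu ▸ h3 u) ha
    _ (h1 (Submodule.mem_span_singleton_self _))))
  exact ⟨z, by rw [hz, mul_assoc]⟩

omit [FiniteDimensional ℝ S] [FiniteDimensional ℂ F] in
theorem gen (hi : Irred θ) {Ω : F} (hΩ : Ω ≠ 0) (x : F) :
    ∃ a ∈ Algebra.adjoin ℂ (θ '' ((⊤ : Submodule ℝ S) : Set S)), a Ω = x := by
  rcases hi ((Algebra.adjoin ℂ (θ '' ((⊤ : Submodule ℝ S) : Set S))).toSubmodule.map
    (ContinuousLinearMap.apply ℂ F Ω : (F →L[ℂ] F) →ₗ[ℂ] F)) (by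
      rintro u _ ⟨a, ha, rfl⟩
      exact ⟨θ u * a, Subalgebra.mul_mem _ (Algebra.subset_adjoin ⟨u, trivial, rfl⟩) ha, rfl⟩) with k | k
  · exact absurd ((Submodule.eq_bot_iff _).1 k Ω ⟨1, Subalgebra.one_mem _, rfl⟩) hΩ
  · exact (Submodule.eq_top_iff'.1 k) x

end CarAux

theorem IsCAR.rank_one [Nontrivial F] (h : IsCAR θ) (hi : Irred θ) {J : S →L[ℝ] S} (hJ : IsSkew J)
    (hJ2 : J * J = -1) : ∃ Ω : F, ‖Ω‖ = 1 ∧ ∀ x, vac θ J x = inner ℂ Ω x • Ω := by
  have hJ' : IsPCS J := ⟨hJ, by rw [hJ2, neg_one_mul]⟩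
  obtain ⟨y, hy⟩ : ∃ y, vac θ J y ≠ 0 := not_forall.1 fun k =>
    h.vac_ne_zero hJ' (ContinuousLinearMap.ext k)
  obtain ⟨Ω, h1, h2⟩ : ∃ Ω, ‖Ω‖ = 1 ∧ vac θ J Ω = Ω :=
    ⟨(‖vac θ J y‖⁻¹ : ℂ) • vac θ J y, norm_smul_inv_norm hy, by
      rw [map_smul, ← mul_apply_eq_comp, vac_idem]⟩
  refine ⟨Ω, h1, fun x => ?_⟩
  obtain ⟨a, ha, rfl⟩ := gen hi (norm_ne_zero_iff.1 (h1 ▸ one_ne_zero)) x
  obtain ⟨z, hz⟩ := vac_adj h hJ' (W := ⊤) (fun u _ => by
    rw [← mul_apply_eq_comp, hJ2, _root_.neg_apply, neg_neg, one_apply_eq_self]) ha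
  have h3 := congrArg (fun a : F →L[ℂ] F => a Ω) hz
  simp only [mul_apply_eq_comp, _root_.smul_apply, h2] at h3
  rw [h3, ← h2, vac_symm, h2, h3, inner_smul_right, inner_self_eq_norm_sq_to_K, h1]
  simp

theorem IsCAR.schur (h : IsCAR θ) (hi : Irred θ) {a : F →L[ℂ] F} (ha : ∀ u, a * θ u = θ u * a) :
    ∃ z : ℂ, a = z • 1 := by
  rcases subsingleton_or_nontrivial F with k | k
  · exact ⟨0, Subsingleton.elim _ _⟩
  obtain ⟨z, hz⟩ := Module.End.exists_eigenvalue (a : Module.End ℂ F)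
  refine ⟨z, ContinuousLinearMap.ext fun x => ?_⟩
  rcases hi (Module.End.eigenspace (a : Module.End ℂ F) z) (fun u y hy => by
    rw [Module.End.mem_eigenspace_iff] at hy ⊢
    rw [← map_smul, ← hy]
    exact congrArg (fun a : F →L[ℂ] F => a y) (ha u)) with k | k
  · exact absurd k hz
  · exact Module.End.mem_eigenspace_iff.1 (Submodule.eq_top_iff'.1 k x)

/-- the Clifford subalgebra generated by a subspace -/
def Cl (θ : S →L[ℝ] F →L[ℂ] F) (W : Submodule ℝ S) : Subalgebra ℂ (F →L[ℂ] F) :=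
  Algebra.adjoin ℂ (θ '' (W : Set S))

theorem IsCAR.star_mem_Cl (h : IsCAR θ) {W : Submodule ℝ S} {a : F →L[ℂ] F} (ha : a ∈ Cl θ W) :
    ContinuousLinearMap.adjoint a ∈ Cl θ W := by
  rw [← ContinuousLinearMap.star_eq_adjoint]
  induction ha using Algebra.adjoin_induction with
  | mem x hx =>
    obtain ⟨u, hu, rfl⟩ := hx
    rw [star_theta h]
    exact Algebra.subset_adjoin ⟨u, hu, rfl⟩
  | algebraMap z => exact algebraMap_star_comm (A := F →L[ℂ] F) z ▸ algebraMap_mem _ _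
  | add x y _ _ hx hy => exact star_add x y ▸ add_mem hx hy
  | mul x y _ _ hx hy => exact star_mul x y ▸ mul_mem hy hx

theorem IsCAR.dG_mem_Cl (h : IsCAR θ) {W : Submodule ℝ S} {a : S →L[ℝ] S} (ha : IsSkew a)
    (hW : ∀ u, a u ∈ W) : dG θ a ∈ Cl θ W := by
  have h1 := sum_theta (θ := θ) (stdOrthonormalBasis ℝ S) a
    (Submodule.inner_starProjection_left_eq_right W)
  have h2 : a * W.starProjection = a := by
    refine ContinuousLinearMap.ext fun u => ext_inner_right ℝ fun v => ?_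
    rw [mul_apply_eq_comp, ha, ha, Submodule.inner_starProjection_left_eq_right,
      Submodule.starProjection_eq_self_iff.2 (hW v)]
  rw [h2] at h1
  rw [← one_smul ℂ (dG θ a), ← one_div_mul_cancel (two_ne_zero (α := ℂ)), mul_smul, ← h1]
  have h3 : ∀ u ∈ W, θ u ∈ Cl θ W := fun u hu => Algebra.subset_adjoin ⟨u, hu, rfl⟩
  exact Subalgebra.smul_mem _ (Subalgebra.sum_mem _ fun j _ => mul_mem (h3 _ (hW _))
    (h3 _ (W.starProjection_apply_mem _))) _

theorem IsCAR.vac_mem_Cl (h : IsCAR θ) {W : Submodule ℝ S} {J : S →L[ℝ] S} (hJ : IsPCS J)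
    (hW : ∀ u, J u ∈ W) : vac θ J ∈ Cl θ W := by
  obtain ⟨n, p, -, h1, -⟩ := h.number hJ
  rw [← h1]
  exact (Algebra.adjoin_le (S := Cl θ W) (Set.singleton_subset_iff.2 (h.dG_mem_Cl hJ.1 hW)))
    (Polynomial.aeval_mem_adjoin_singleton ℂ _)

theorem IsCAR.vac_Cl_vac (h : IsCAR θ) {W : Submodule ℝ S} {J : S →L[ℝ] S} (hJ : IsPCS J)
    (hW : ∀ u ∈ W, -(J (J u)) = u) {a : F →L[ℂ] F} (ha : a ∈ Cl θ W) :
    ∃ z : ℂ, vac θ J * a * vac θ J = z • vac θ J := vac_adj h hJ hW ha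

/-- norms factorize: `‖a f‖ = ‖a Ω‖ ‖f‖` on the vacuum space -/
theorem IsCAR.norm_Cl_vac (h : IsCAR θ) {W : Submodule ℝ S} {J : S →L[ℝ] S} (hJ : IsPCS J)
    (hW : ∀ u ∈ W, -(J (J u)) = u) {a : F →L[ℂ] F} (ha : a ∈ Cl θ W) {Ω f : F}
    (hΩ : vac θ J Ω = Ω) (h1 : ‖Ω‖ = 1) (hf : vac θ J f = f) : ‖a f‖ = ‖a Ω‖ * ‖f‖ := by
  obtain ⟨z, hz⟩ := h.vac_Cl_vac hJ hW (mul_mem (h.star_mem_Cl ha) ha)
  have h2 : ∀ g, vac θ J g = g → ‖a g‖ ^ 2 = z.re * ‖g‖ ^ 2 := by
    intro g hg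
    have h3 := congrArg (fun a : F →L[ℂ] F => (inner ℂ g (a g)).re) hz
    simp only [mul_apply_eq_comp, _root_.smul_apply, hg, ← vac_symm, inner_smul_right,
      ContinuousLinearMap.adjoint_inner_right, inner_self_eq_norm_sq_to_K] at h3
    have e : ∀ r : ℝ, ((algebraMap ℝ ℂ r) ^ 2) = ((r ^ 2 : ℝ) : ℂ) := fun r => by simp
    simpa only [e, ofReal_re, re_mul_ofReal] using h3
  refine (sq_eq_sq₀ (norm_nonneg _) (by positivity)).1 ?_
  rw [mul_pow, h2 f hf, h2 Ω hΩ, h1, one_pow, mul_one]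

/-- the vacuum space of `J'` is generated from the full vacuum by the support of `J` -/
theorem IsCAR.exists_Cl (h : IsCAR θ) (hi : Irred θ) {W : Submodule ℝ S} {J J' : S →L[ℝ] S}
    (hJ : IsPCS J) (hJ' : IsPCS J') (h0 : J * J' = 0) (h1 : J * J + J' * J' = -1)
    (hW : ∀ u, J u ∈ W) {Ω : F} (hΩ : vac θ (J + J') Ω = Ω) (hne : Ω ≠ 0) {f : F}
    (hf : vac θ J' f = f) : ∃ a ∈ Cl θ W, a Ω = f := by
  have h0' := mul_swap hJ hJ' h0
  have e0 : ∀ u, J' (J u) = 0 := fun u => congrArg (fun a : S →L[ℝ] S => a u) h0'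
  let W₀ : Submodule ℝ S := LinearMap.range (J : S →ₗ[ℝ] S)
  let K : Submodule ℂ (F →L[ℂ] F) :=
    (Cl θ W₀).toSubmodule.map (LinearMap.mulRight ℂ (vac θ (J + J')))
  have k1 : ∀ u ∈ W₀, ∀ m ∈ K, θ u * m ∈ K := by
    rintro u hu _ ⟨a, ha, rfl⟩
    exact ⟨θ u * a, Subalgebra.mul_mem _ (Algebra.subset_adjoin ⟨u, hu, rfl⟩) ha, mul_assoc _ _ _⟩
  obtain ⟨M, m1, m2, m3, m4⟩ := fock h hJ' K (by
    rintro _ ⟨a, ha, rfl⟩
    refine sub_eq_zero.1 ((sub_one_mul _ _).symm.trans (adj_mul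
      (M := LinearMap.ker (LinearMap.mulLeft ℂ (vac θ J' - 1))) ?_ ha _ ?_))
    · rintro _ ⟨u, rfl⟩ m (hm : (vac θ J' - 1) * m = 0)
      change (vac θ J' - 1) * (θ (J u) * m) = 0
      rw [← mul_assoc, sub_mul, h.vac_theta_comm hJ' (e0 u), one_mul, ← mul_sub_one, mul_assoc, hm,
        mul_zero]
    · change (vac θ J' - 1) * _ = 0
      rw [h.vac_add hJ hJ' h0, h.vac_comm hJ hJ' h0, sub_mul, ← mul_assoc, vac_idem, one_mul,
        sub_self])
  obtain ⟨b, hb, rfl⟩ := gen hi hne f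
  obtain ⟨a, ha, e⟩ := m2 _ (adj_mul (M := M) (fun u _ m hm => by
    have e : u = J (-(J u)) + -(J' (J' u)) := by
      have := congrArg (fun a : S →L[ℝ] S => a u) h1
      simp only [_root_.add_apply, mul_apply_eq_comp, _root_.neg_apply, one_apply_eq_self] at this
      rw [map_neg, ← neg_add, this, neg_neg]
    rw [e, map_add, add_mul]
    exact add_mem (m4 _ (e0 _) (k1 _ ⟨_, rfl⟩) m hm) (m3 u m hm)) hb _
      (m1 ⟨1, Subalgebra.one_mem _, one_mul _⟩))
  refine ⟨a, Algebra.adjoin_mono (Set.image_mono (by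
    rintro _ ⟨u, rfl⟩
    exact hW u)) ha, ?_⟩
  have := congrArg (fun a : F →L[ℂ] F => a Ω) e
  simpa only [LinearMap.mulRight_apply, mul_apply_eq_comp, hΩ, hf] using this

/-- an even element of `Cl W` commutes with the generators orthogonal to `W` -/
theorem IsCAR.even_comm (h : IsCAR θ) {W : Submodule ℝ S} {p : F →L[ℂ] F} (hp : IsUnit p)
    (hpθ : ∀ u, p * θ u = -(θ u * p)) {a : F →L[ℂ] F} (ha : a ∈ Cl θ W) (hev : p * a = a * p)
    {u : S} (hu : u ∈ Wᗮ) : a * θ u = θ u * a := by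
  have h1 : ∃ a₀ a₁, a = a₀ + a₁ ∧ p * a₀ = a₀ * p ∧ a₀ * θ u = θ u * a₀ ∧
      p * a₁ = -(a₁ * p) ∧ a₁ * θ u = -(θ u * a₁) := by
    clear hev
    induction ha using Algebra.adjoin_induction with
    | mem x hx =>
      obtain ⟨w, hw, rfl⟩ := hx
      exact ⟨0, θ w, by simp, by simp, by simp, hpθ w,
        h.anti_of_orth (Submodule.inner_right_of_mem_orthogonal hw hu)⟩
    | algebraMap z =>
      exact ⟨_, 0, (add_zero _).symm, (Algebra.commutes _ _).symm, Algebra.commutes _ _, by simp,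
        by simp⟩
    | add x y _ _ hx hy =>
      obtain ⟨a, b, rfl, h1, h2, h3, h4⟩ := hx
      obtain ⟨c, d, rfl, k1, k2, k3, k4⟩ := hy
      refine ⟨a + c, b + d, add_add_add_comm _ _ _ _, ?_, ?_, ?_, ?_⟩ <;>
        simp only [mul_add, add_mul, neg_add, h1, h2, h3, h4, k1, k2, k3, k4]
    | mul x y _ _ hx hy =>
      obtain ⟨a, b, rfl, h1, h2, h3, h4⟩ := hx
      obtain ⟨c, d, rfl, k1, k2, k3, k4⟩ := hy
      refine ⟨a * c + b * d, a * d + b * c, by noncomm_ring, ?_, ?_, ?_, ?_⟩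
      · simp only [mul_add, add_mul, ← mul_assoc, h1, h3, neg_mul]
        simp only [mul_assoc, k1, k3, mul_neg, neg_neg]
      · simp only [mul_add, add_mul, mul_assoc, k2, k4, mul_neg]
        simp only [← mul_assoc, h2, h4, neg_mul, neg_neg]
      · simp only [mul_add, add_mul, ← mul_assoc, h1, h3, neg_mul]
        simp only [mul_assoc, k1, k3, mul_neg, neg_add]
      · simp only [mul_add, add_mul, mul_assoc, k2, k4, mul_neg]
        simp only [← mul_assoc, h2, h4, neg_mul, neg_add]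
  obtain ⟨a₀, a₁, rfl, h1, h2, h3, -⟩ := h1
  rw [mul_add, add_mul, h1, h3, add_right_inj, neg_eq_iff_add_eq_zero, ← two_smul ℂ,
    smul_eq_zero_iff_right two_ne_zero, hp.mul_left_eq_zero] at hev
  rw [hev, add_zero, h2]

theorem conj_mem_Cl {W W' : Submodule ℝ S} {u u' : F →L[ℂ] F} (huu : u * u' = 1)
    (huu' : u' * u = 1) {R : S →L[ℝ] S} (hu : ∀ y, u * θ y = θ (R y) * u)
    (hW : ∀ y ∈ W, R y ∈ W') {a : F →L[ℂ] F} (ha : a ∈ Cl θ W) : u * a * u' ∈ Cl θ W' := by
  induction ha using Algebra.adjoin_induction with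
  | mem x hx =>
    obtain ⟨w, hw, rfl⟩ := hx
    rw [hu, mul_assoc, huu, mul_one]
    exact Algebra.subset_adjoin ⟨_, hW w hw, rfl⟩
  | algebraMap z =>
    rw [← Algebra.commutes, mul_assoc, huu, mul_one]
    exact algebraMap_mem _ _
  | add x y _ _ hx hy =>
    rw [mul_add, add_mul]
    exact add_mem hx hy
  | mul x y _ _ hx hy =>
    have := mul_mem hx hy
    rwa [mul_assoc _ u', ← mul_assoc u', ← mul_assoc u', huu', one_mul, ← mul_assoc,
      mul_assoc u] at this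

end Vale.Agent.P353
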