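import Vale.Agent.P353.Car2

/-! Transversal pairs of vacua and the Berry connection. -/

noncomputable section

open MeasureTheory Filter Topology Complex Matrix
open scoped ContDiff RealInnerProductSpace

namespace Vale.Agent.P353

variable {S : Type} [NormedAddCommGroup S] [InnerProductSpace ℝ S] [FiniteDimensional ℝ S]
variable {F : Type} [NormedAddCommGroup F] [InnerProductSpace ℂ F] [FiniteDimensional ℂ F]
variable {θ : S →L[ℝ] F →L[ℂ] F}

namespace Car3Aux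

open CarAux

/-- the trace as a continuous linear map -/
def trC (F : Type) [NormedAddCommGroup F] [InnerProductSpace ℂ F] [FiniteDimensional ℂ F] :
    (F →L[ℂ] F) →L[ℂ] ℂ :=
  LinearMap.toContinuousLinearMap ((LinearMap.trace ℂ F) ∘ₗ (ContinuousLinearMap.coeLM ℂ))

theorem trC_apply (a : F →L[ℂ] F) : trC F a = LinearMap.trace ℂ F (a : F →ₗ[ℂ] F) := rfl

theorem trC_comm (a b : F →L[ℂ] F) : trC F (a * b) = trC F (b * a) :=
  LinearMap.trace_mul_comm ℂ (a : F →ₗ[ℂ] F) (b : F →ₗ[ℂ] F)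

omit [FiniteDimensional ℝ S] in
theorem ov_eq (J₀ J : S →L[ℝ] S) :
    ov θ J₀ J = (trC F (vac θ J₀ * vac θ J)).re / (trC F (vac θ J₀)).re := rfl

theorem trC_star_mul (a : F →L[ℂ] F) :
    ∃ r : ℝ, 0 ≤ r ∧ trC F (star a * a) = r ∧ (r = 0 → a = 0) := by
  let b := stdOrthonormalBasis ℂ F
  refine ⟨∑ i, ‖a (b i)‖ ^ 2, Finset.sum_nonneg fun i _ => sq_nonneg _, ?_, fun h0 => ?_⟩
  · rw [trC_apply, LinearMap.trace_eq_sum_inner _ b, ofReal_sum]
    refine Finset.sum_congr rfl fun i _ => ?_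
    change inner ℂ (b i) (ContinuousLinearMap.adjoint a (a (b i))) = _
    rw [ContinuousLinearMap.adjoint_inner_right, inner_self_eq_norm_sq_to_K]
    simp
  · have h1 := (Finset.sum_eq_zero_iff_of_nonneg fun i _ => sq_nonneg ‖a (b i)‖).1 h0
    refine ContinuousLinearMap.coe_injective (b.toBasis.ext fun i => ?_)
    have := h1 i (Finset.mem_univ i)
    simpa using this

theorem trC_vac (J : S →L[ℝ] S) :
    ∃ r : ℝ, 0 ≤ r ∧ trC F (vac θ J) = r ∧ (r = 0 → vac θ J = 0) := by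
  have := trC_star_mul (vac θ J)
  rwa [star_vac, vac_idem] at this

/-- the support of `J` -/
def supp (J : S →L[ℝ] S) : Submodule ℝ S where
  carrier := {u | -(J (J u)) = u}
  add_mem' := by
    intro a b ha hb
    simp only [Set.mem_ofPred_eq] at ha hb ⊢
    rw [map_add, map_add, neg_add, ha, hb]
  zero_mem' := by simp
  smul_mem' := by
    intro c a ha
    simp only [Set.mem_ofPred_eq] at ha ⊢
    rw [map_smul, map_smul, ← smul_neg, ha]

omit [FiniteDimensional ℝ S] in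
theorem mem_supp {J : S →L[ℝ] S} {u : S} : u ∈ supp J ↔ -(J (J u)) = u := Iff.rfl

omit [FiniteDimensional ℝ S] in
theorem J_mem {J : S →L[ℝ] S} (hJ : IsPCS J) (u : S) : J u ∈ supp J := by
  rw [mem_supp, cube hJ, neg_neg]

omit [FiniteDimensional ℝ S] in
theorem sq_eq {J₀ J : S →L[ℝ] S} (hs : J₀ * J₀ = J * J) (u : S) : J₀ (J₀ u) = J (J u) :=
  congrArg (fun a : S →L[ℝ] S => a u) hs

omit [FiniteDimensional ℝ S] in
theorem supp_eq {J₀ J : S →L[ℝ] S} (hs : J₀ * J₀ = J * J) : supp J₀ = supp J := by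
  ext u
  rw [mem_supp, mem_supp, sq_eq hs]

/-- an invariant subspace contains a vacuum vector -/
theorem exists_vac (h : IsCAR θ) {J : S →L[ℝ] S} (hJ : IsPCS J) (K : Submodule ℂ F)
    (hK : ∀ u, ∀ x ∈ K, ann θ J u x ∈ K) (hne : K ≠ ⊥) :
    ∃ x ∈ K, x ≠ 0 ∧ vac θ J x = x := by
  classical
  have h1 : ∀ s : Finset S, ∃ x ∈ K, x ≠ 0 ∧ ∀ u ∈ s, ann θ J u x = 0 := by
    intro s
    induction s using Finset.induction_on with
    | empty => simpa using (Submodule.ne_bot_iff K).1 hne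
    | insert w s _ ih =>
      obtain ⟨x, hxK, hx, h1⟩ := ih
      have e : ∀ u, ann θ J u (ann θ J w x) + ann θ J w (ann θ J u x) = 0 := fun u =>
        congrArg (fun a : F →L[ℂ] F => a x) (ann_anti h hJ u w)
      by_cases k : ann θ J w x = 0
      · exact ⟨x, hxK, hx, Finset.forall_mem_insert _ _ _ |>.2 ⟨k, h1⟩⟩
      · refine ⟨_, hK w x hxK, k, Finset.forall_mem_insert _ _ _ |>.2 ⟨?_, fun u hu => ?_⟩⟩
        · have := e w
          rwa [← two_smul ℂ, smul_eq_zero_iff_right two_ne_zero] at this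
        · simpa only [h1 u hu, map_zero, add_zero] using e u
  obtain ⟨x, hxK, hx, h2⟩ := h1 (Finset.univ.image (stdOrthonormalBasis ℝ S))
  refine ⟨x, hxK, hx, (vac_eq_self_iff (θ := θ) J x).2 fun u => ?_⟩
  rw [← (stdOrthonormalBasis ℝ S).sum_repr u]
  change annL θ J _ x = 0
  rw [map_sum, _root_.sum_apply]
  refine Finset.sum_eq_zero fun j _ => ?_
  rw [map_smul, _root_.smul_apply]
  exact smul_eq_zero_of_right _ (h2 _ (Finset.mem_image_of_mem _ (Finset.mem_univ j)))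

/-- the vacuum space is cyclic -/
theorem cyclic (h : IsCAR θ) {J : S →L[ℝ] S} (hJ : IsPCS J) (K : Submodule ℂ F)
    (hK : ∀ u ∈ supp J, ∀ x ∈ K, θ u x ∈ K) (hv : ∀ x, vac θ J x ∈ K) : K = ⊤ := by
  rw [← Submodule.orthogonal_eq_bot_iff]
  by_contra hne
  have h1 : ∀ u ∈ supp J, ∀ x ∈ Kᗮ, θ u x ∈ Kᗮ := by
    intro u hu x hx
    rw [Submodule.mem_orthogonal] at hx ⊢
    intro y hy
    rw [← h.symm]
    exact hx _ (hK u hu y hy)
  obtain ⟨x, hxK, hx, hv'⟩ := exists_vac h hJ Kᗮ (fun u x hx => by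
    rw [ann, _root_.add_apply, _root_.smul_apply]
    exact Kᗮ.add_mem (h1 _ ((supp J).neg_mem (J_mem hJ _)) x hx)
      (Kᗮ.smul_mem _ (h1 _ (J_mem hJ _) x hx))) hne
  have h2 : x ∈ K := hv' ▸ hv x
  exact hx (inner_self_eq_zero.1 ((Submodule.mem_orthogonal K x).1 hxK x h2))

theorem exists_link [Nontrivial F] (h : IsCAR θ) {J₀ J : S →L[ℝ] S} (h₀ : IsPCS J₀)
    (hJ : IsPCS J) : ∃ a ∈ Cl θ (supp J₀), vac θ J * a * vac θ J₀ ≠ 0 := by
  by_contra hcon
  push Not at hcon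
  let K : Submodule ℂ F :=
    { carrier := {x | ∀ a ∈ Cl θ (supp J₀), vac θ J (a x) = 0}
      add_mem' := by
        intro x y hx hy a ha
        rw [map_add, map_add, hx a ha, hy a ha, add_zero]
      zero_mem' := by intro a _; simp
      smul_mem' := by
        intro c x hx a ha
        rw [map_smul, map_smul, hx a ha, smul_zero] }
  have hK : K = ⊤ := by
    refine cyclic h h₀ K (fun u hu x hx a ha => ?_) fun x a ha => ?_
    · exact hx (a * θ u) ((Cl θ (supp J₀)).mul_mem ha (Algebra.subset_adjoin ⟨u, hu, rfl⟩))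
    · exact congrArg (fun b : F →L[ℂ] F => b x) (hcon a ha)
  refine h.vac_ne_zero hJ (ContinuousLinearMap.ext fun x => ?_)
  have hx : x ∈ K := hK ▸ Submodule.mem_top
  exact hx 1 (Cl θ (supp J₀)).one_mem

theorem trC_vac_eq [Nontrivial F] (h : IsCAR θ) {J₀ J : S →L[ℝ] S} (h₀ : IsPCS J₀)
    (hJ : IsPCS J) (hs : J₀ * J₀ = J * J) : trC F (vac θ J₀) = trC F (vac θ J) := by
  obtain ⟨a, ha, hT⟩ := exists_link h h₀ hJ
  have ha' : star a ∈ Cl θ (supp J₀) := h.star_mem_Cl ha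
  have hv₀ : vac θ J₀ ∈ Cl θ (supp J₀) := h.vac_mem_Cl h₀ (J_mem h₀)
  have hv : vac θ J ∈ Cl θ (supp J₀) := h.vac_mem_Cl hJ (supp_eq hs ▸ J_mem hJ)
  obtain ⟨z, hz⟩ := h.vac_Cl_vac (W := supp J₀) h₀ (fun u hu => hu)
    ((Cl θ _).mul_mem ((Cl θ _).mul_mem ha' hv) ha)
  obtain ⟨z', hz'⟩ := h.vac_Cl_vac (W := supp J₀) hJ (fun u hu => (supp_eq hs ▸ hu : u ∈ supp J))
    ((Cl θ _).mul_mem ((Cl θ _).mul_mem ha hv₀) ha')
  set T := vac θ J * a * vac θ J₀ with hTdef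
  have hsT : star T = vac θ J₀ * star a * vac θ J := by
    rw [hTdef, star_mul, star_mul, star_vac, star_vac, mul_assoc]
  have e1 : star T * T = z • vac θ J₀ := by
    rw [← hz, hsT, hTdef]
    simp only [mul_assoc]
    rw [← mul_assoc (vac θ J) (vac θ J), vac_idem]
  have e2 : T * star T = z' • vac θ J := by
    rw [← hz', hsT, hTdef]
    simp only [mul_assoc]
    rw [← mul_assoc (vac θ J₀) (vac θ J₀), vac_idem]
  have e3 : T * vac θ J₀ = T := by rw [hTdef, mul_assoc, vac_idem]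
  have e4 : vac θ J * T = T := by rw [hTdef, ← mul_assoc, ← mul_assoc, vac_idem]
  have e5 : z • T = z' • T := by
    have := mul_assoc T (star T) T
    rw [e1, e2, smul_mul_assoc, mul_smul_comm, e3, e4] at this
    exact this.symm
  have e6 : z = z' := smul_left_injective ℂ hT e5
  have hz0 : z ≠ 0 := by
    intro h0
    rw [h0, zero_smul] at e1
    exact hT (CStarRing.star_mul_self_eq_zero_iff T |>.1 e1)
  have e7 := trC_comm (star T) T
  rw [e1, e2, map_smul, map_smul, ← e6, smul_eq_mul, smul_eq_mul] at e7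
  exact mul_left_cancel₀ hz0 e7

theorem real_of_vac [Nontrivial F] (h : IsCAR θ) {J₀ J : S →L[ℝ] S} (hJ : IsPCS J) {z : ℂ}
    (hz : vac θ J * vac θ J₀ * vac θ J = z • vac θ J) : (z.re : ℂ) = z := by
  have h1 := congrArg star hz
  rw [star_mul, star_mul, star_vac, star_vac, star_smul, star_vac, ← mul_assoc, hz] at h1
  have h2 := smul_left_injective ℂ (h.vac_ne_zero hJ) h1
  exact Complex.conj_eq_iff_re.1 h2.symm

omit [FiniteDimensional ℝ S] [FiniteDimensional ℂ F] in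
theorem theta_sum {J₀ J : S →L[ℝ] S} (hs : J₀ * J₀ = J * J) (y : S) :
    θ ((J + J₀) y) = I • cre θ J y - I • ann θ J₀ y := by
  simp only [cre, ann, sq_eq hs, _root_.add_apply, map_add, smul_sub, smul_add, smul_smul,
    I_mul_I]
  module

end Car3Aux

open CarAux Car3Aux

theorem IsCAR.vac_vac_vac [Nontrivial F] (h : IsCAR θ) {J₀ J : S →L[ℝ] S} (h₀ : IsPCS J₀)
    (hJ : IsPCS J) (hs : J₀ * J₀ = J * J) :
    vac θ J * vac θ J₀ * vac θ J = (ov θ J₀ J : ℂ) • vac θ J := by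
  have hv₀ : vac θ J₀ ∈ Cl θ (supp J) := h.vac_mem_Cl h₀ (supp_eq hs ▸ J_mem h₀)
  obtain ⟨z, hz⟩ := h.vac_Cl_vac (W := supp J) hJ (fun u hu => hu) hv₀
  obtain ⟨r, _, hr, hr0⟩ := trC_vac (θ := θ) J
  have hr1 : r ≠ 0 := fun k => h.vac_ne_zero hJ (hr0 k)
  have e1 : trC F (vac θ J₀ * vac θ J) = z * r := by
    rw [← hr, ← smul_eq_mul z, ← map_smul, ← hz, mul_assoc, trC_comm (vac θ J), mul_assoc,
      vac_idem]
  rw [hz, ov_eq, e1, trC_vac_eq h h₀ hJ hs, hr, ← real_of_vac h hJ hz]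
  congr 1
  simp [hr1]

theorem IsCAR.vac_vac_vac' [Nontrivial F] (h : IsCAR θ) {J₀ J : S →L[ℝ] S} (h₀ : IsPCS J₀)
    (hJ : IsPCS J) (hs : J₀ * J₀ = J * J) :
    vac θ J₀ * vac θ J * vac θ J₀ = (ov θ J₀ J : ℂ) • vac θ J₀ := by
  rw [h.vac_vac_vac hJ h₀ hs.symm, ov_eq, ov_eq, trC_vac_eq h h₀ hJ hs, trC_comm]

theorem IsCAR.ov_nonneg (h : IsCAR θ) (J₀ J : S →L[ℝ] S) : 0 ≤ ov θ J₀ J := by
  obtain ⟨r, hr0, hr, _⟩ := trC_vac (θ := θ) J₀
  obtain ⟨s, hs0, hs, _⟩ := trC_star_mul (vac θ J * vac θ J₀)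
  rw [star_mul, star_vac, star_vac, mul_assoc, ← mul_assoc (vac θ J), vac_idem, trC_comm,
    mul_assoc, vac_idem, trC_comm] at hs
  rw [ov_eq, hr, hs]
  exact div_nonneg (by simpa using hs0) (by simpa using hr0)

namespace Car3Aux

omit [FiniteDimensional ℝ S] in
/-- algebra of a transversal pair -/
theorem pair_alg {J₀ J : S →L[ℝ] S} (h₀ : IsPCS J₀) (hJ : IsPCS J) (hs : J₀ * J₀ = J * J) :
    (J + J₀ + (1 + J₀ * J₀)) * -(J₀ * J₀) = J + J₀ ∧
      -(J₀ * J₀) * (J + J₀ + (1 + J₀ * J₀)) = J + J₀ ∧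
      (J + J₀) * -(J₀ * J₀) = J + J₀ := by
  have a1 : J₀ * (J₀ * J₀) = -J₀ := by rw [← mul_assoc, h₀.2]
  have a2 : J * (J₀ * J₀) = -J := by rw [hs, ← mul_assoc, hJ.2]
  have a3 : J₀ * J₀ * J = -J := by rw [hs, hJ.2]
  have a4 : J₀ * J₀ * (J₀ * J₀) = -(J₀ * J₀) := by rw [← mul_assoc, h₀.2, neg_mul]
  refine ⟨?_, ?_, ?_⟩
  · simp only [add_mul, mul_neg, one_mul, a1, a2, a4]
    abel
  · simp only [mul_add, neg_mul, mul_one, a3, h₀.2, a4]
    abel
  · simp only [add_mul, mul_neg, a1, a2]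
    abel

omit [FiniteDimensional ℝ S] in
theorem exists_pre {J₀ J : S →L[ℝ] S} (h₀ : IsPCS J₀) (hJ : IsPCS J) (hs : J₀ * J₀ = J * J)
    (ht : IsUnit (J + J₀ + (1 + J₀ * J₀))) {u : S} (hu : u ∈ supp J₀) :
    ∃ y, (J + J₀) y = u := by
  obtain ⟨N, hN⟩ := ht.exists_right_inv
  refine ⟨N u, ?_⟩
  have h1 := congrArg (fun a : S →L[ℝ] S => a (N u)) (pair_alg h₀ hJ hs).2.1
  have h2 : (J + J₀ + (1 + J₀ * J₀)) (N u) = u := congrArg (fun a : S →L[ℝ] S => a u) hN
  simp only [mul_apply_eq_comp (-(J₀ * J₀)), h2] at h1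
  rw [← h1]
  exact hu

end Car3Aux

theorem IsCAR.ov_pos [Nontrivial F] (h : IsCAR θ) {J₀ J : S →L[ℝ] S} (h₀ : IsPCS J₀)
    (hJ : IsPCS J) (hs : J₀ * J₀ = J * J) (ht : IsUnit (J + J₀ + (1 + J₀ * J₀))) :
    0 < ov θ J₀ J := by
  refine lt_of_le_of_ne (h.ov_nonneg J₀ J) fun h0 => ?_
  have e1 := h.vac_vac_vac' h₀ hJ hs
  rw [← h0, ofReal_zero, zero_smul] at e1
  have e2 : vac θ J * vac θ J₀ = 0 := by
    rw [← CStarRing.star_mul_self_eq_zero_iff, star_mul, star_vac, star_vac, mul_assoc,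
      ← mul_assoc (vac θ J), vac_idem, ← mul_assoc, e1]
  let G : Set (Submodule ℂ F) :=
    {U | (∀ x ∈ U, vac θ J x = 0) ∧ ∀ y, ∀ x ∈ U, ann θ J₀ y x ∈ U}
  have hK1 : ∀ x ∈ sSup G, vac θ J x = 0 := by
    have : sSup G ≤ LinearMap.ker (vac θ J : F →ₗ[ℂ] F) := sSup_le fun U hU x hx => hU.1 x hx
    exact fun x hx => this hx
  have hK2 : ∀ y, ∀ x ∈ sSup G, ann θ J₀ y x ∈ sSup G := by
    intro y
    have : sSup G ≤ (sSup G).comap (ann θ J₀ y : F →ₗ[ℂ] F) :=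
      sSup_le fun U hU x hx => le_sSup hU (hU.2 y x hx)
    exact fun x hx => this hx
  have hK : sSup G = ⊤ := by
    refine cyclic h h₀ _ (fun u hu x hx => ?_) fun x => ?_
    · obtain ⟨y, hy⟩ := exists_pre h₀ hJ hs ht hu
      have hU : sSup G ⊔ (sSup G).map (θ u : F →ₗ[ℂ] F) ∈ G := by
        constructor
        · intro x hx
          obtain ⟨a, ha, _, ⟨b, hb, rfl⟩, rfl⟩ := Submodule.mem_sup.1 hx
          have k1 : vac θ J (cre θ J y b) = 0 :=
            congrArg (fun a : F →L[ℂ] F => a b) (vac_cre h J y)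
          change vac θ J (a + θ u b) = 0
          rw [map_add, hK1 a ha, zero_add, ← hy, theta_sum hs, _root_.sub_apply, _root_.smul_apply,
            _root_.smul_apply, map_sub, map_smul, map_smul, k1, hK1 _ (hK2 y b hb)]
          simp
        · intro w x hx
          obtain ⟨a, ha, _, ⟨b, hb, rfl⟩, rfl⟩ := Submodule.mem_sup.1 hx
          change ann θ J₀ w (a + θ u b) ∈ _
          rw [map_add]
          refine Submodule.add_mem _ (Submodule.mem_sup_left (hK2 w a ha)) ?_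
          have k1 := congrArg (fun a : F →L[ℂ] F => a b) (h.anti (-(J₀ (J₀ w))) u)
          have k2 := congrArg (fun a : F →L[ℂ] F => a b) (h.anti (J₀ w) u)
          simp only [_root_.add_apply, mul_apply_eq_comp, _root_.smul_apply,
            one_apply_eq_self] at k1 k2
          have k3 : ann θ J₀ w (θ u b) = (((⟪-(J₀ (J₀ w)), u⟫ : ℝ) : ℂ) + I * (⟪J₀ w, u⟫ : ℝ)) • b
              - θ u (ann θ J₀ w b) := by
            simp only [ann, _root_.add_apply, _root_.smul_apply, map_add, map_smul]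
            linear_combination (norm := module) k1 + I • k2
          rw [k3]
          exact Submodule.sub_mem _ (Submodule.mem_sup_left (Submodule.smul_mem _ _ hb))
            (Submodule.mem_sup_right ⟨_, hK2 w b hb, rfl⟩)
      exact le_sSup hU (Submodule.mem_sup_right ⟨x, hx, rfl⟩)
    · have hU : LinearMap.range (vac θ J₀ : F →ₗ[ℂ] F) ∈ G := by
        constructor
        · rintro _ ⟨x, rfl⟩
          exact congrArg (fun a : F →L[ℂ] F => a x) e2
        · rintro y _ ⟨x, rfl⟩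
          have : ann θ J₀ y (vac θ J₀ x) = 0 :=
            congrArg (fun a : F →L[ℂ] F => a x) (ann_mul_vac J₀ y)
          change ann θ J₀ y (vac θ J₀ x) ∈ _
          rw [this]
          exact Submodule.zero_mem _
      exact le_sSup hU ⟨x, rfl⟩
  exact h.vac_ne_zero hJ (ContinuousLinearMap.ext fun x => hK1 x (hK ▸ Submodule.mem_top))

theorem IsCAR.ov_zero [Nontrivial F] (h : IsCAR θ) : ov θ (0 : S →L[ℝ] S) 0 = 1 := by
  obtain ⟨r, _, hr, hr0⟩ := trC_vac (θ := θ) (0 : S →L[ℝ] S)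
  have hr1 : r ≠ 0 := fun k => h.vac_ne_zero ⟨fun u v => by simp, by simp⟩ (hr0 k)
  rw [ov_eq, vac_idem, hr]
  simp [hr1]

/-- mixed two point function -/
theorem IsCAR.vac_theta_theta_mixed (h : IsCAR θ) {J₀ J : S →L[ℝ] S} (h₀ : IsPCS J₀)
    (hJ : IsPCS J) (hs : J₀ * J₀ = J * J) {u y : S} (hu : -(J (J u)) = u) (hy : -(J (J y)) = y) :
    vac θ J * θ u * θ ((J + J₀) y) * vac θ J₀ =
      (⟪u, J y⟫ + I * ⟪u, y⟫ : ℂ) • (vac θ J * vac θ J₀) := by
  have k1 := h.anti u y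
  have k2 := h.anti u (J y)
  have k3 : θ u * cre θ J y = (((⟪u, y⟫ : ℝ) : ℂ) - I * (⟪u, J y⟫ : ℝ)) • (1 : F →L[ℂ] F)
      - cre θ J y * θ u := by
    simp only [cre, hy, mul_sub, sub_mul, mul_smul_comm, smul_mul_assoc]
    linear_combination (norm := module) k1 - I • k2
  rw [theta_sum hs, mul_sub, sub_mul, mul_smul_comm, mul_smul_comm, smul_mul_assoc, smul_mul_assoc,
    mul_assoc _ (ann θ J₀ y), ann_mul_vac, mul_zero, smul_zero, sub_zero, mul_assoc (vac θ J), k3,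
    mul_sub, ← mul_assoc, vac_cre h, zero_mul, sub_zero, mul_smul_comm, mul_one, smul_mul_assoc,
    smul_smul]
  congr 1
  linear_combination (-(⟪u, J y⟫ : ℝ) : ℂ) * I_mul_I

namespace Car3Aux

theorem vac_theta_vac0 (h : IsCAR θ) {J₀ J : S →L[ℝ] S} (hs : J₀ * J₀ = J * J) (y : S) :
    vac θ J * θ ((J + J₀) y) * vac θ J₀ = 0 := by
  rw [theta_sum hs, mul_sub, sub_mul, mul_smul_comm, mul_smul_comm, smul_mul_assoc, smul_mul_assoc,
    vac_cre h, mul_assoc _ (ann θ J₀ y), ann_mul_vac]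
  simp

theorem mixed' (h : IsCAR θ) {J₀ J : S →L[ℝ] S} (h₀ : IsPCS J₀) (hJ : IsPCS J)
    (hs : J₀ * J₀ = J * J) (ht : IsUnit (J + J₀ + (1 + J₀ * J₀))) {u : S} (hu : u ∈ supp J₀)
    (y : S) : vac θ J * θ u * θ ((J + J₀ + (1 + J₀ * J₀)) y) * vac θ J₀ =
      (⟪u, J y⟫ + I * ⟪u, y⟫ : ℂ) • (vac θ J * vac θ J₀) := by
  have hu' : -(J (J u)) = u := (supp_eq hs ▸ hu : u ∈ supp J)
  have e1 : (J + J₀ + (1 + J₀ * J₀)) y = (J + J₀) (-(J (J y))) + (y + J₀ (J₀ y)) := by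
    have := congrArg (fun a : S →L[ℝ] S => a y) (pair_alg h₀ hJ hs).2.2
    simp only [mul_apply_eq_comp, _root_.neg_apply, sq_eq hs] at this
    rw [this]
    rfl
  have e2 : J₀ (y + J₀ (J₀ y)) = 0 := by rw [map_add, cube h₀, add_neg_cancel]
  obtain ⟨w, hw⟩ := exists_pre h₀ hJ hs ht hu
  have e3 : vac θ J * θ u * θ (y + J₀ (J₀ y)) * vac θ J₀ = 0 := by
    rw [mul_assoc, ← h.vac_theta_comm h₀ e2, ← mul_assoc, ← hw, vac_theta_vac0 h hs, zero_mul]
  have e4 : J (-(J (J y))) = J y := by rw [map_neg, cube hJ, neg_neg]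
  have e5 : ⟪u, -(J (J y))⟫ = ⟪u, y⟫ := by
    have := hJ.supp_sym u y
    simp only [mul_apply_eq_comp, _root_.neg_apply, hu'] at this
    exact this.symm
  rw [e1, map_add, mul_add, add_mul, e3, add_zero,
    h.vac_theta_theta_mixed h₀ hJ hs hu' ((supp J).neg_mem (J_mem hJ _)), e4, e5]

theorem vac_dG_vac0 (h : IsCAR θ) {J₀ J k N : S →L[ℝ] S} (h₀ : IsPCS J₀) (hJ : IsPCS J)
    (hs : J₀ * J₀ = J * J) (ht : IsUnit (J + J₀ + (1 + J₀ * J₀)))
    (hN : (J + J₀ + (1 + J₀ * J₀)) * N = 1) (hk : IsSkew k) (hks : ∀ u, k u ∈ supp J₀)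
    (h0 : trR (k * N) = 0) :
    ∃ l : ℝ, vac θ J * dG θ k * vac θ J₀ = (l : ℂ) • (vac θ J * vac θ J₀) := by
  set b := stdOrthonormalBasis ℝ S with hb
  have e1 : ∀ j, vac θ J * θ (k (b j)) * θ (b j) * vac θ J₀ =
      (⟪k (b j), J (N (b j))⟫ + I * ⟪k (b j), N (b j)⟫ : ℂ) • (vac θ J * vac θ J₀) := by
    intro j
    have h2 : (J + J₀ + (1 + J₀ * J₀)) (N (b j)) = b j :=
      congrArg (fun a : S →L[ℝ] S => a (b j)) hN
    rw [← mixed' h h₀ hJ hs ht (hks _), h2]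
  have e2 : ∑ j, ⟪k (b j), N (b j)⟫ = 0 := by
    rw [trR_eq_sum b] at h0
    simp only [hk _ _, Finset.sum_neg_distrib, neg_eq_zero]
    exact h0
  refine ⟨(∑ j, ⟪k (b j), J (N (b j))⟫) / 2, ?_⟩
  rw [dG, ← hb]
  simp only [mul_smul_comm, smul_mul_assoc, Finset.mul_sum, Finset.sum_mul, ← mul_assoc, e1,
    ← Finset.sum_smul, smul_smul]
  congr 1
  rw [← Finset.mul_sum, Finset.sum_add_distrib, ← Finset.mul_sum, ← ofReal_sum, ← ofReal_sum, e2]
  push_cast
  ring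

omit [FiniteDimensional ℝ S] in
theorem trR_odd {R T : S →L[ℝ] S} (hR : IsUnit R) (h : R * T = -(T * R)) : trR T = 0 := by
  obtain ⟨R', hR'⟩ := hR.exists_right_inv
  obtain ⟨R'', hR''⟩ := hR.exists_left_inv
  have e0 : R'' = R' := by rw [← one_mul R', ← hR'', mul_assoc, hR', mul_one]
  have e1 : trR (R * T * R') = trR T := by
    have := LinearMap.trace_mul_comm ℝ ((R * T : S →L[ℝ] S) : S →ₗ[ℝ] S) (R' : S →ₗ[ℝ] S)
    change trR (R * T * R') = trR (R' * (R * T)) at this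
    rw [this, ← mul_assoc, ← e0, hR'', one_mul]
  rw [h, neg_mul, mul_assoc, hR', mul_one] at e1
  have e2 : trR (-T) = -trR T := map_neg (LinearMap.trace ℝ S) (T : S →ₗ[ℝ] S)
  linarith

end Car3Aux

/-- the section `ov^(-1/2) Π(t) Π₀` is parallel when a symmetry reverses `J₀`, `J` and `J'` -/
theorem IsCAR.flat [Nontrivial F] (h : IsCAR θ) {J₀ : S →L[ℝ] S} {J : ℝ → S →L[ℝ] S}
    {J' R : S →L[ℝ] S} (h₀ : IsPCS J₀) (hJ : ∀ᶠ t in 𝓝 (0 : ℝ), IsPCS (J t) ∧ J₀ * J₀ = J t * J t)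
    (hd : HasDerivAt J J' 0) (ht : IsUnit (J 0 + J₀ + (1 + J₀ * J₀))) (hR : IsUnit R)
    (hR₀ : R * J₀ = -(J₀ * R)) (hR₁ : R * J 0 = -(J 0 * R)) (hR₂ : R * J' = -(J' * R)) :
    vac θ (J 0) * deriv (fun t => (((√(ov θ J₀ (J t)))⁻¹ : ℝ) : ℂ) • (vac θ (J t) * vac θ J₀)) 0
      = 0 := by
  obtain ⟨h₁, hs⟩ := hJ.self_of_nhds
  -- algebra of the derivative
  have f1 : J' * J 0 + J 0 * J' = 0 := by
    refine (hd.mul hd).unique ((hasDerivAt_const (0 : ℝ) (J₀ * J₀)).congr_of_eventuallyEq ?_)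
    filter_upwards [hJ] with t ht using ht.2.symm
  have hdu : ∀ u, HasDerivAt (fun t => J t u) (J' u) 0 := fun u => by
    simpa using hd.clm_apply (hasDerivAt_const (0 : ℝ) u)
  have f2 : IsSkew J' := by
    intro u v
    have a1 := ((hdu u).inner ℝ (hasDerivAt_const (0 : ℝ) v)).add
      ((hasDerivAt_const (0 : ℝ) u).inner ℝ (hdu v))
    have a2 := a1.unique ((hasDerivAt_const (0 : ℝ) (0 : ℝ)).congr_of_eventuallyEq (by
      filter_upwards [hJ] with t ht
      simp only [Pi.add_apply, ht.1.1 u v, neg_add_cancel]))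
    simp only [inner_zero_right, inner_zero_left, zero_add, add_zero] at a2
    linarith
  have f3 : J₀ * J₀ * J' = -J' := by
    refine (hd.const_mul (J₀ * J₀)).unique (hd.neg.congr_of_eventuallyEq ?_)
    filter_upwards [hJ] with t ht
    rw [ht.2, ht.1.2]
    rfl
  have f4 : J' * (J₀ * J₀) = -J' := by
    refine (hd.mul_const (J₀ * J₀)).unique (hd.neg.congr_of_eventuallyEq ?_)
    filter_upwards [hJ] with t ht
    rw [ht.2, ← mul_assoc, ht.1.2]
    rfl
  have f1' : J' * J 0 = -(J 0 * J') := eq_neg_of_add_eq_zero_left f1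
  set k : S →L[ℝ] S := (1 / 2 : ℝ) • (J 0 * J') with hkdef
  have hk : IsSkew k := by
    intro u v
    have a1 : J' (J 0 v) = -(J 0 (J' v)) := congrArg (fun a : S →L[ℝ] S => a v) f1'
    simp only [hkdef, _root_.smul_apply, mul_apply_eq_comp, real_inner_smul_left,
      real_inner_smul_right, h₁.1 _ _, f2 _ _, a1, inner_neg_right]
    ring
  have g1 : J 0 * k = -((1 / 2 : ℝ) • J') := by
    rw [hkdef, mul_smul_comm, ← mul_assoc, ← hs, f3, smul_neg]
  have g2 : k * J 0 = (1 / 2 : ℝ) • J' := by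
    rw [hkdef, smul_mul_assoc, mul_assoc, f1', mul_neg, ← mul_assoc, ← hs, f3, neg_neg]
  have g3 : -(J 0 * J 0) * k = k := by
    rw [hkdef, mul_smul_comm, ← mul_assoc, neg_mul, h₁.2, neg_neg]
  have g4 : k * -(J₀ * J₀) = k := by
    rw [hkdef, smul_mul_assoc, mul_assoc, mul_neg, f4, neg_neg]
  have g5 : R * k = k * R := by
    rw [hkdef, mul_smul_comm, smul_mul_assoc, ← mul_assoc, hR₁, neg_mul, mul_assoc, hR₂, mul_neg,
      neg_neg, mul_assoc]
  -- derivative of the vacuum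
  obtain ⟨Φ, hΦ, hΦv⟩ := h.exists_smooth_vac
  obtain ⟨V, hV⟩ : ∃ V, HasDerivAt (fun t => vac θ (J t)) V 0 := by
    have a1 := ((hΦ.differentiable (by simp)) (J 0)).hasFDerivAt.comp_hasDerivAt (0 : ℝ) hd
    refine ⟨_, a1.congr_of_eventuallyEq ?_⟩
    filter_upwards [hJ] with t ht using hΦv _ ht.1
  set P := vac θ (J 0) with hP
  set P₀ := vac θ J₀ with hP₀
  have hPP : P * P = P := vac_idem _
  have hPP₀ : P₀ * P₀ = P₀ := vac_idem _
  have v1 : V * P + P * V = V :=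
    (hV.mul hV).unique (hV.congr_of_eventuallyEq (Eventually.of_forall fun t => vac_idem _))
  have v2 : star V = V :=
    hV.star.unique (hV.congr_of_eventuallyEq (Eventually.of_forall fun t => star_vac _))
  have v3 : ∀ u, I • θ (J' u) * P + ann θ (J 0) u * V = 0 := by
    intro u
    have a1 : HasDerivAt (fun t => θ (J t u)) (θ (J' u)) 0 :=
      θ.hasFDerivAt.comp_hasDerivAt (0 : ℝ) (hdu u)
    have a2 : HasDerivAt (fun t => ann θ (J t) u) (I • θ (J' u)) 0 := by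
      refine ((a1.const_smul I).const_add (θ (-(J₀ (J₀ u))))).congr_of_eventuallyEq ?_
      filter_upwards [hJ] with t ht
      rw [ann, sq_eq ht.2]
      rfl
    exact (a2.mul hV).unique ((hasDerivAt_const (0 : ℝ) (0 : F →L[ℂ] F)).congr_of_eventuallyEq
      (Eventually.of_forall fun t => ann_mul_vac _ _))
  have v4 : ∀ u, dG θ k * ann θ (J 0) u - ann θ (J 0) u * dG θ k =
      ann θ (J 0) (k u) + I • θ (J' u) := by
    intro u
    have a1 : k (J 0 u) = J 0 (k u) + J' u := by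
      have b1 : J 0 (k u) = -((1 / 2 : ℝ) • J' u) := congrArg (fun a : S →L[ℝ] S => a u) g1
      have b2 : k (J 0 u) = (1 / 2 : ℝ) • J' u := congrArg (fun a : S →L[ℝ] S => a u) g2
      rw [b1, b2]
      module
    have a2 : k (-(J 0 (J 0 u))) = -(J 0 (J 0 (k u))) := by
      have b1 : k (-(J₀ (J₀ u))) = k u := congrArg (fun a : S →L[ℝ] S => a u) g4
      have b2 : -(J 0 (J 0 (k u))) = k u := congrArg (fun a : S →L[ℝ] S => a u) g3
      rw [← sq_eq hs, b1, b2]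
    rw [ann, ann, ← a2, add_assoc, ← smul_add, ← map_add, ← a1, ← h.dG_comm hk, ← h.dG_comm hk]
    simp only [mul_add, add_mul, mul_smul_comm, smul_mul_assoc, smul_sub]
    abel
  set D := V - (dG θ k * P - P * dG θ k) with hD
  have d1 : P * D = D := by
    refine vac_mul fun u => ?_
    have a0 : ann θ (J 0) u * P = 0 := ann_mul_vac _ _
    have a0' : ann θ (J 0) (k u) * P = 0 := ann_mul_vac _ _
    have a1 := congrArg (· * P) (v4 u)
    simp only [sub_mul, add_mul, mul_assoc, a0, a0', mul_zero, zero_sub, zero_add] at a1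
    rw [hD, mul_sub, mul_sub, ← mul_assoc _ P, a0, zero_mul, sub_zero]
    linear_combination (norm := module) v3 u + a1
  have d2 : star D = D := by
    rw [hD, star_sub, star_sub, star_mul, star_mul, v2, star_dG h hk, hP, star_vac]
    simp only [mul_neg, neg_mul]
    abel
  have d3 : D * P = D := by
    have := congrArg star d1
    rwa [star_mul, d2, hP, star_vac] at this
  have d4 : P * V * P = 0 := by
    have := congrArg (P * · * P) v1
    simp only [mul_add, add_mul, ← mul_assoc, hPP] at this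
    rw [mul_assoc _ P P, hPP] at this
    exact add_eq_left.1 this
  have d5 : D = 0 := by
    rw [← d3, ← d1, hD, mul_sub, sub_mul, d4, mul_sub, sub_mul, ← mul_assoc P P, hPP,
      ← mul_assoc P, mul_assoc _ P P, hPP]
    simp
  have hVe : V = dG θ k * P - P * dG θ k := sub_eq_zero.1 d5
  -- the connection is real
  obtain ⟨N, hN⟩ := ht.exists_right_inv
  obtain ⟨N', hN'⟩ := ht.exists_left_inv
  obtain ⟨p1, p2, p3⟩ := pair_alg h₀ h₁ hs
  have hRQ : R * (J₀ * J₀) = J₀ * J₀ * R := by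
    rw [← mul_assoc, hR₀, neg_mul, mul_assoc, hR₀, mul_neg, neg_neg, mul_assoc]
  have hRA : R * (J 0 + J₀) = -((J 0 + J₀) * R) := by
    rw [mul_add, add_mul, hR₀, hR₁, neg_add]
  have n1 : R * (-(J₀ * J₀) * N) = -(-(J₀ * J₀) * N * R) := by
    set M := J 0 + J₀ + (1 + J₀ * J₀) with hM
    set Q := -(J₀ * J₀) with hQ
    have hRQ' : R * Q = Q * R := by rw [hQ, mul_neg, hRQ, neg_mul]
    have a1 : M * (Q * N * R) = Q * R := by
      rw [← mul_assoc, ← mul_assoc, p1, ← p2, mul_assoc Q, hN, mul_one]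
    have a2 : M * (R * (Q * N)) = -(Q * R) := by
      have b1 : (J 0 + J₀) * R = -(R * (J 0 + J₀)) := by rw [hRA, neg_neg]
      have b2 : Q * Q = Q := h₀.supp_idem
      rw [← mul_assoc R, hRQ', ← mul_assoc, ← mul_assoc, p1, b1, ← p2, neg_mul, mul_assoc R,
        mul_assoc Q, hN, mul_one, hRQ']
    have a3 : M * (R * (Q * N) + Q * N * R) = 0 := by rw [mul_add, a1, a2, neg_add_cancel]
    have a4 : R * (Q * N) + Q * N * R = 0 := by
      rw [← one_mul (R * (Q * N) + Q * N * R), ← hN', mul_assoc, a3, mul_zero]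
    exact eq_neg_of_add_eq_zero_left a4
  have n2 : trR (k * N) = 0 := by
    refine trR_odd hR ?_
    rw [← g4, mul_assoc k, ← mul_assoc R, g5, mul_assoc k, n1, mul_neg, mul_assoc k]
  obtain ⟨l, hl⟩ := vac_dG_vac0 h h₀ h₁ hs ht hN hk (fun u => by
    rw [supp_eq hs]
    exact congrArg (fun a : S →L[ℝ] S => a u) g3) n2
  have n3 : P * dG θ k * P = 0 := by
    have a1 : trR (J 0 * k) = 0 := by
      refine trR_odd hR ?_
      rw [← mul_assoc, hR₁, neg_mul, mul_assoc, g5, mul_assoc]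
    rw [hP, h.vac_dG_vac h₁ hk g3, a1]
    simp
  have n4 : P * V * P₀ = ((-l : ℝ) : ℂ) • (P * P₀) := by
    rw [hVe, mul_sub, ← mul_assoc, n3, zero_sub, ← mul_assoc, hPP, neg_mul, hl, ofReal_neg,
      neg_smul]
  have n5 : P₀ * V * P = ((-l : ℝ) : ℂ) • (P₀ * P) := by
    have := congrArg star n4
    rwa [star_mul, star_mul, star_smul, star_mul, v2, hP, hP₀, star_vac, star_vac, ← mul_assoc,
      Complex.star_def, conj_ofReal] at this
  -- derivative of the overlap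
  have o1 : trC F (P₀ * V) = ((-2 * l : ℝ) : ℂ) * trC F (P₀ * P) := by
    have a1 : trC F (P₀ * (V * P)) = ((-l : ℝ) : ℂ) * trC F (P₀ * P) := by
      rw [← mul_assoc, n5, map_smul, smul_eq_mul]
    have a2 : trC F (P₀ * (P * V)) = ((-l : ℝ) : ℂ) * trC F (P₀ * P) := by
      rw [trC_comm, n4, map_smul, smul_eq_mul, trC_comm]
    rw [← v1, mul_add, map_add, a1, a2]
    push_cast
    ring
  have o2 : HasDerivAt (fun t => ov θ J₀ (J t)) (-2 * l * ov θ J₀ (J 0)) 0 := by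
    have a1 := ((reCLM.comp ((trC F).restrictScalars ℝ)).hasFDerivAt.comp_hasDerivAt (0 : ℝ)
      (hV.const_mul P₀)).div_const (trC F P₀).re
    have a2 : -2 * l * ov θ J₀ (J 0) =
        (reCLM.comp ((trC F).restrictScalars ℝ)) (P₀ * V) / (trC F P₀).re := by
      change _ = (trC F (P₀ * V)).re / _
      rw [o1, re_ofReal_mul, ov_eq, mul_div_assoc]
    rw [a2]
    exact a1
  have hpos := h.ov_pos h₀ h₁ hs ht
  have hsq : 0 < √(ov θ J₀ (J 0)) := Real.sqrt_pos.2 hpos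
  have o3 : HasDerivAt (fun t => (√(ov θ J₀ (J t)))⁻¹) (l * (√(ov θ J₀ (J 0)))⁻¹) 0 := by
    have a1 := (o2.sqrt hpos.ne').inv hsq.ne'
    have a2 : l * (√(ov θ J₀ (J 0)))⁻¹ = -(-2 * l * ov θ J₀ (J 0) / (2 * √(ov θ J₀ (J 0)))) /
        √(ov θ J₀ (J 0)) ^ 2 := by
      rw [Real.sq_sqrt hpos.le]
      field_simp
    rw [a2]
    exact a1
  have o4 := o3.ofReal_comp.smul (hV.mul_const P₀)
  have o5 := o4.deriv
  change deriv (fun t => (((√(ov θ J₀ (J t)))⁻¹ : ℝ) : ℂ) • (vac θ (J t) * P₀)) 0 = _ at o5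
  rw [o5, mul_add, mul_smul_comm, mul_smul_comm, ← mul_assoc, ← mul_assoc, n4, ← hP, hPP, smul_smul,
    ← add_smul]
  push_cast
  rw [show ((√(ov θ J₀ (J 0)) : ℝ) : ℂ)⁻¹ * -(l : ℂ) + l * ((√(ov θ J₀ (J 0)) : ℝ) : ℂ)⁻¹ = 0 by
    ring, zero_smul]

end Vale.Agent.P353
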