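import Vale.Agent.P353.Stmts

/-! Covering argument. -/

noncomputable section

open MeasureTheory Filter Topology Complex Matrix
open scoped ContDiff RealInnerProductSpace

namespace Vale.Agent.P353

namespace CcoAux

section Mass

variable {E : Type} [NormedAddCommGroup E] [InnerProductSpace ℝ E] [FiniteDimensional ℝ E]
  [MeasurableSpace E] [BorelSpace E] {F : Type} [NormedAddCommGroup F] [InnerProductSpace ℂ F]
  [FiniteDimensional ℂ F] {U : Submodule ℝ E}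

theorem integrable_sq {ψ : E → F} (h : Sm U ψ) : Integrable fun x : U => ‖ψ x‖ ^ 2 := by
  simpa using h.integrable_wnrm (w := fun _ => 1) continuousOn_const

omit [InnerProductSpace ℂ F] [FiniteDimensional ℂ F] in
theorem mass_eq {ψ : E → F} {A : Set E} (hA : MeasurableSet A) :
    mass U A ψ = ∫ x : U, {x : U | (x : E) ∈ A}.indicator (fun x => ‖ψ x‖ ^ 2) x :=
  (integral_indicator (measurable_subtype_coe hA)).symm

/-- the mass of a set that is covered by finitely many open sets -/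
theorem mass_le_sum {ψ : E → F} (h : Sm U ψ) {ι : Type} (s : Finset ι) (O : ι → Set E)
    (hO : ∀ i ∈ s, IsOpen (O i)) {A : Set E} (hA : MeasurableSet A)
    (hc : ∀ x ∈ U, x ∈ A → ψ x ≠ 0 → ∃ i ∈ s, x ∈ O i) :
    mass U A ψ ≤ ∑ i ∈ s, mass U (O i) ψ := by
  have hi : ∀ B : Set E, MeasurableSet B →
      Integrable fun x : U => {x : U | (x : E) ∈ B}.indicator (fun x => ‖ψ x‖ ^ 2) x :=
    fun B hB => (integrable_sq h).indicator (measurable_subtype_coe hB)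
  rw [mass_eq hA, Finset.sum_congr rfl fun i hi => mass_eq (hO i hi).measurableSet,
    ← integral_finsetSum _ fun i h' => hi _ (hO i h').measurableSet]
  refine integral_mono (hi _ hA)
    (integrable_finsetSum _ fun i h' => hi _ (hO i h').measurableSet) fun x => ?_
  have h0 : ∀ i ∈ s, 0 ≤ {x : U | (x : E) ∈ O i}.indicator (fun x => ‖ψ x‖ ^ 2) x :=
    fun i _ => Set.indicator_nonneg (fun _ _ => sq_nonneg _) _
  by_cases hx : (x : E) ∈ A
  · by_cases hψ : ψ x = 0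
    · refine le_trans ?_ (Finset.sum_nonneg h0)
      simp [Set.indicator, hψ]
    · obtain ⟨i, hi, hxi⟩ := hc x x.2 hx hψ
      refine le_trans ?_ (Finset.single_le_sum h0 hi)
      simp [Set.indicator, hx, hxi]
  · refine le_trans ?_ (Finset.sum_nonneg h0)
    simp [Set.indicator, hx]

/-- Chebyshev inequality -/
theorem mass_le_wnrm {ψ : E → F} (h : Sm U ψ) {w : E → ℝ} (hw : Continuous w)
    (h0 : ∀ x, 0 ≤ w x) {a : ℝ} (ha : 0 < a) : mass U {x | a < w x} ψ ≤ a⁻¹ * wnrm U w ψ := by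
  have hA : MeasurableSet {x | a < w x} := (isOpen_lt continuous_const hw).measurableSet
  rw [mass_eq hA, wnrm, ← integral_const_mul]
  refine integral_mono ((integrable_sq h).indicator (measurable_subtype_coe hA))
    ((h.integrable_wnrm hw.continuousOn).const_mul _) fun x => ?_
  by_cases hx : a < w x
  · have h1 : 1 ≤ a⁻¹ * w x := by
      rw [← div_eq_inv_mul, le_div_iff₀ ha]
      linarith
    have h2 := mul_le_mul_of_nonneg_right h1 (sq_nonneg ‖ψ x‖)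
    simp only [Set.indicator, Set.mem_ofPred_eq, hx, if_true]
    linarith
  · simp only [Set.indicator, Set.mem_ofPred_eq, hx, if_false]
    have := h0 x
    positivity

end Mass

/-- a nonnegative sequence that is eventually bounded by `a n + ε * C` for all `ε` -/
theorem tendsto_of_le {f a : ℕ → ℝ} {C : ℝ} (h0 : ∀ n, 0 ≤ f n) (ha : Tendsto a atTop (𝓝 0))
    (h : ∀ ε > 0, ∀ᶠ n in atTop, f n ≤ a n + ε * C) : Tendsto f atTop (𝓝 0) := by
  refine tendsto_order.2 ⟨fun b hb => Eventually.of_forall fun n => hb.trans_le (h0 n),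
    fun b hb => ?_⟩
  have h1 : 0 < b / 2 / (|C| + 1) := by positivity
  filter_upwards [h _ h1, (tendsto_order.1 ha).2 (b / 2) (by positivity)] with n h2 h3
  have h4 : b / 2 / (|C| + 1) * C ≤ b / 2 := by
    rw [div_mul_eq_mul_div, div_le_iff₀ (by positivity)]
    have := le_abs_self C
    nlinarith
  linarith

end CcoAux

namespace Ctx

variable {N d : ℕ} {F : Type} [NormedAddCommGroup F] [InnerProductSpace ℂ F]
  [FiniteDimensional ℂ F] (c : Ctx N d F)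

namespace CcoAux

open Vale.Agent.P353.CcoAux

variable {c} {π π' : Setoid (Fin N)} {𝔞 : Submodule ℝ (Lg d)} {g : ℕ → ℝ} {ψ : ℕ → Tn 9 d → F}

/-- uniform bounds on the gradient and on the curvature -/
theorem bounds (h_cr : c.S_cr) (h : c.Th π 𝔞) (hb : c.Bdd π 𝔞 g ψ) : ∃ M : ℝ, ∀ n,
    c.NG 𝔞 (g n) (ψ n) ≤ M ∧ wnrm (sub 9 𝔞) c.Fsq (ψ n) ≤ M / g n := by
  obtain ⟨-, hg, hD, ⟨R, hR⟩, C, hC⟩ := hb
  obtain ⟨K, hK, hcr⟩ := h_cr R
  refine ⟨C + K * C, fun n => ?_⟩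
  have h1 := hcr π 𝔞 h (g n) (hg n) (ψ n) (hD n).1 (hR n)
  have h2 := hC n
  have h3 := nrm_nonneg (sub 9 𝔞) (ψ n)
  have h4 : 0 ≤ c.En 𝔞 (g n) 0 (ψ n) := en_nonneg _ _ _ _
  have h5 := grad_nonneg (sub 9 𝔞) (ψ n)
  have h6 : 0 ≤ wnrm (sub 9 𝔞) c.Fsq (ψ n) :=
    integral_nonneg fun x => mul_nonneg (c.Fsq_nonneg _) (sq_nonneg _)
  have h7 := hg n
  have h8 : 0 < g n := by linarith
  have h9 : K * (c.En 𝔞 (g n) 0 (ψ n) + g n * nrm (sub 9 𝔞) (ψ n)) ≤ K * C * g n := by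
    rw [mul_assoc]
    refine mul_le_mul_of_nonneg_left ?_ hK
    nlinarith
  have h10 : 0 ≤ g n ^ 2 * wnrm (sub 9 𝔞) c.Fsq (ψ n) := by positivity
  constructor
  · have : grad (sub 9 𝔞) (ψ n) / g n ≤ K * C := by
      rw [div_le_iff₀ h8]
      linarith
    unfold NG
    linarith
  · rw [le_div_iff₀ h8]
    have h11 : g n * (wnrm (sub 9 𝔞) c.Fsq (ψ n) * g n) ≤ g n * (K * C) := by nlinarith
    have h12 := le_of_mul_le_mul_left h11 h8
    linarith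

/-- no mass where the curvature does not vanish -/
theorem curved (h_cr : c.S_cr) (h : c.Th π 𝔞) (hb : c.Bdd π 𝔞 g ψ) {a : ℝ} (ha : 0 < a) :
    Tendsto (fun n => mass (sub 9 𝔞) {x | a < c.Fsq x} (ψ n)) atTop (𝓝 0) := by
  obtain ⟨M, hM⟩ := bounds h_cr h hb
  have h1 : Tendsto (fun n => a⁻¹ * (M / g n)) atTop (𝓝 0) := by
    simpa using (hb.1.const_div_atTop M).const_mul a⁻¹
  refine squeeze_zero (fun n => mass_nonneg _ _ _) (fun n => ?_) h1
  exact (mass_le_wnrm (hb.2.2.1 n).1 c.contDiff_Fsq.continuous c.Fsq_nonneg ha).trans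
    (mul_le_mul_of_nonneg_left (hM n).2 (inv_pos.2 ha).le)

/-- an invariant cutoff near a point of the centre of mass space -/
theorem exists_cut (h_lm1a : c.S_lm1a) {v : Fin 9 → ℝ} {y : Tn 9 d} (hy : y ∈ sub 9 (c.cen π'))
    (hO : y ∈ c.Ow (c.off π π') v) : ∃ χ, c.Cut π 𝔞 π' v χ ∧ c.InvR π' (c.Sl 𝔞 π') χ ∧
      (∀ᶠ X in 𝓝 y, χ X = 1) ∧ ∃ R, ∀ x, R < ‖x‖ → χ x = 0 := by
  obtain ⟨ρ, hρ, hball⟩ := Metric.nhds_basis_closedBall.mem_iff.1
    ((h_lm1a.isOpen _ v).mem_nhds hO)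
  obtain ⟨K, hK⟩ := exists_cutoff (Tn 9 d)
  obtain ⟨χ, hχ, hrad, h01, h1, h0, -⟩ := hK (ρ / 2) (by positivity)
  refine ⟨fun x => χ (x - y), ⟨⟨hχ.comp (contDiff_id.sub contDiff_const),
    Metric.closedBall y ρ ∩ c.Sl 𝔞 π', (isCompact_closedBall y ρ).inter_right
      (Submodule.closed_of_finiteDimensional _), Set.inter_subset_left.trans hball,
      Set.inter_subset_right, fun x hx hK => h0 _ ?_⟩, fun x => h01 _⟩, fun u hu x _ => hrad _ _ ?_,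
    ?_, ‖y‖ + ρ, fun x hx => h0 _ ?_⟩
  · by_contra hlt
    refine hK ⟨?_, hx⟩
    rw [mem_closedBall_iff_norm]
    linarith
  · have : c.Ad9 u y = y :=
      ext_cmp fun i => by rw [Ad9, cmp_kr_one, c.Ad_cen hu (mem_sub.1 hy i)]
    rw [← c.norm_Ad9 u (x - y), map_sub, this]
  · filter_upwards [Metric.closedBall_mem_nhds y (show 0 < ρ / 2 by positivity)] with X hX
    exact h1 _ (mem_closedBall_iff_norm.1 hX)
  · have := norm_sub_norm_le x y
    linarith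

/-- the localized sequence is bounded -/
theorem bdd_TT (h_tb : c.S_tb) (h_loc2 : c.S_loc2) {v : Fin 9 → ℝ} {χ : Tn 9 d → ℝ}
    (hL : c.Lc π 𝔞 π' v) (hC : c.Cut π 𝔞 π' v χ) (hI : c.InvR π' (c.Sl 𝔞 π') χ)
    (hR : ∃ R, ∀ x, R < ‖x‖ → χ x = 0) (hb : c.Bdd π 𝔞 g ψ) :
    c.Bdd π' (𝔞 ⊓ c.blk π') g fun n => c.TT π 𝔞 π' v χ (g n) (ψ n) := by
  obtain ⟨hg, hg1, hD, ⟨R, hS⟩, C, hB⟩ := hb
  have hg0 : ∀ n, 0 < g n := fun n => one_pos.trans_le (hg1 n)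
  obtain ⟨R', hR'⟩ := hR
  obtain ⟨K, hK, hbd⟩ := h_tb.bd π 𝔞 π' v hL
  obtain ⟨K', hloc⟩ := h_loc2 π 𝔞 π' v χ hL hC R
  refine ⟨hg, hg1, fun n => h_tb.mem π 𝔞 π' v χ hL hC hI _ (hg0 n) _ (hD n),
    ⟨R', fun n x hx hlt => ?_⟩, K * C + |K'| * C, fun n => ?_⟩
  · simp [TT, Tr, kap, Submodule.starProjection_eq_self_iff.2 hx, hR' x hlt]
  · have h1 := hbd χ hC _ (hg0 n) _ (hD n)
    have h2 := hloc _ (hg1 n) _ (hD n) (hS n)
    have h3 := nrm_nonneg (sub 9 𝔞) (ψ n)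
    have h4 : 0 ≤ c.En 𝔞 (g n) 0 (ψ n) := en_nonneg _ _ _ _
    have h5 := hB n
    have h6 : K * nrm (sub 9 𝔞) (ψ n) ≤ K * C := mul_le_mul_of_nonneg_left (by linarith) hK
    have h7 : K' * c.NE 𝔞 (g n) 0 (ψ n) ≤ |K'| * C :=
      mul_le_mul (le_abs_self _) h5 (add_nonneg h3 h4) (abs_nonneg _)
    exact add_le_add (h1.trans h6) (h2.trans h7)

/-- the amplitudes of the localized sequence vanish -/
theorem null_TT (h_cr : c.S_cr) (h_nc : c.S_nc) {v : Fin 9 → ℝ} {χ : Tn 9 d → ℝ}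
    (hL : c.Lc π 𝔞 π' v) (hC : c.Cut π 𝔞 π' v χ) (hb : c.Bdd π 𝔞 g ψ) {π'' : Setoid (Fin N)}
    (hle : π'' ≤ π') (hn : c.Null π 𝔞 π'' g ψ) :
    c.Null π' (𝔞 ⊓ c.blk π') π'' g fun n => c.TT π 𝔞 π' v χ (g n) (ψ n) := by
  intro η hη β hβ
  rw [c.CS_inf hle] at hη
  obtain ⟨h1, h2⟩ := h_nc π 𝔞 π' v χ π'' hL hC hle η hη
  obtain ⟨M, hM⟩ := bounds h_cr hL.1 hb
  have h3 := hn _ h1 β hβ
  have h4 : Tendsto (fun n => ‖c.Lam π' (𝔞 ⊓ c.blk π') π'' (g n) (c.TT π 𝔞 π' v χ (g n) (ψ n)) η β -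
      c.Lam π 𝔞 π'' (g n) (ψ n) (fun x => χ x * η x) β‖ ^ 2) atTop (𝓝 0) := by
    refine tendsto_of_le (C := M) (fun n => sq_nonneg _) tendsto_const_nhds fun ε hε => ?_
    filter_upwards [hb.1.eventually (h2 β ε hε)] with n hn
    rw [zero_add]
    exact (hn _ (hb.2.2.1 n)).trans (mul_le_mul_of_nonneg_left (hM n).1 hε.le)
  have h5 := (Real.continuous_sqrt.tendsto 0).comp h4
  simp only [Function.comp_def, Real.sqrt_sq (norm_nonneg _), Real.sqrt_zero] at h5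
  simpa using (tendsto_zero_iff_norm_tendsto_zero.2 h5).add h3

/-- no mass near a generic point of a proper stratum -/
theorem flat (h_lm1a : c.S_lm1a) (h_orb : c.S_orb) (h_tb : c.S_tb) (h_cr : c.S_cr)
    (h_loc2 : c.S_loc2) (h_loc3 : c.S_loc3) (h_nc : c.S_nc) (h : c.Th π 𝔞) (hle : π' ≤ π)
    (hcc : c.CC π') (hb : c.Bdd π 𝔞 g ψ) (hn : ∀ π'' ≤ π', c.Null π 𝔞 π'' g ψ) {y : Tn 9 d}
    (hy : y ∈ c.CS 𝔞 π') (hG : y ∈ c.Gen π π') :
    ∃ r > 0, Tendsto (fun n => mass (sub 9 𝔞) (Metric.ball y r) (ψ n)) atTop (𝓝 0) := by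
  have hy' : y ∈ sub 9 (c.cen π') := sub_mono inf_le_right hy
  obtain ⟨𝒱, h𝒱, hdir⟩ := h_orb.dir
  obtain ⟨v, hv, hO⟩ := hdir π π' hle y hy' hG
  have hL : c.Lc π 𝔞 π' v := ⟨h, hle, h𝒱 v hv⟩
  obtain ⟨χ, hC, hI, h1, hR⟩ := exists_cut (𝔞 := 𝔞) h_lm1a hy' hO
  have hT : Tendsto (fun n => nrm (c.Sl 𝔞 π') (c.TT π 𝔞 π' v χ (g n) (ψ n))) atTop (𝓝 0) :=
    hcc _ (Th.inf c h hle) g _ (bdd_TT h_tb h_loc2 hL hC hI hR hb)
      fun π'' hle' => null_TT h_cr h_nc hL hC hb hle' (hn π'' hle')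
  obtain ⟨r, hr, K, hK⟩ := h_loc3 π 𝔞 π' v χ hL hC y
    (sub_mono (inf_le_inf_left _ (c.cen_le_blk π')) hy) h1
  obtain ⟨hg, -, hD, ⟨R, hS⟩, C, hB⟩ := hb
  refine ⟨r, hr, tendsto_of_le (C := C) (fun n => mass_nonneg _ _ _)
    (by simpa using hT.const_mul K) fun ε hε => ?_⟩
  filter_upwards [hg.eventually (hK R ε hε)] with n hn
  exact (hn _ (hD n) (hS n)).trans (add_le_add le_rfl (mul_le_mul_of_nonneg_left (hB n) hε.le))

end CcoAux

theorem p_cco (h_lm1a : c.S_lm1a) (h_orb : c.S_orb) (h_tb : c.S_tb) (h_cr : c.S_cr)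
    (h_loc2 : c.S_loc2) (h_loc3 : c.S_loc3) (h_nc : c.S_nc) : c.S_cco := by
  intro π ih 𝔞 h g ψ hb hn r hr
  have key : ∀ x ∈ sub 9 𝔞, r ≤ ‖(sub 9 (c.ss π)).starProjection x‖ → ∃ O : Set (Tn 9 d),
      IsOpen O ∧ x ∈ O ∧ Tendsto (fun n => mass (sub 9 𝔞) O (ψ n)) atTop (𝓝 0) := by
    intro x hx hxr
    rcases (c.Fsq_nonneg x).eq_or_lt with h0 | h0
    · obtain ⟨u, hu, π', hle, hy, hG, hne⟩ := h_orb.diag π 𝔞 h x hx h0.symm
      have hlt : π' < π := lt_of_le_of_ne hle fun he => by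
        rw [hne he, norm_zero] at hxr
        exact absurd hr (not_lt.2 hxr)
      obtain ⟨ρ, hρ, hT⟩ := CcoAux.flat h_lm1a h_orb h_tb h_cr h_loc2 h_loc3 h_nc h hle (ih _ hlt)
        hb (fun π'' hle' => hn _ (hle'.trans_lt hlt)) hy hG
      have hmem : c.Ad9 u x ∈ Metric.ball (c.Ad9 u x) ρ := Metric.mem_ball_self hρ
      refine ⟨c.Ad9 u ⁻¹' Metric.ball (c.Ad9 u x) ρ,
        Metric.isOpen_ball.preimage (c.Ad9 u).continuous, Set.mem_preimage.2 hmem, ?_⟩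
      exact hT.congr fun n => (c.mass_Ad9 h (hb.2.2.1 n) hu _).symm
    · exact ⟨{y | c.Fsq x / 2 < c.Fsq y}, isOpen_lt continuous_const c.contDiff_Fsq.continuous,
        half_lt_self h0, CcoAux.curved h_cr h hb (half_pos h0)⟩
  choose! O hO using key
  obtain ⟨R, hR⟩ := hb.2.2.2.1
  have hA : IsClosed {x : Tn 9 d | r ≤ ‖(sub 9 (c.ss π)).starProjection x‖} :=
    isClosed_le continuous_const (sub 9 (c.ss π)).starProjection.continuous.norm
  have hK : IsCompact ((Metric.closedBall 0 R ∩ (sub 9 𝔞 : Set (Tn 9 d))) ∩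
      {x : Tn 9 d | r ≤ ‖(sub 9 (c.ss π)).starProjection x‖}) :=
    ((isCompact_closedBall 0 R).inter_right (Submodule.closed_of_finiteDimensional _)).inter_right
      hA
  obtain ⟨s, hs, hcov⟩ := hK.elim_nhds_subcover O fun x hx =>
    (hO x hx.1.2 hx.2).1.mem_nhds (hO x hx.1.2 hx.2).2.1
  have hsum : Tendsto (fun n => ∑ x ∈ s, mass (sub 9 𝔞) (O x) (ψ n)) atTop (𝓝 0) := by
    simpa using tendsto_finsetSum s fun x hx => (hO x (hs x hx).1.2 (hs x hx).2).2.2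
  refine squeeze_zero (fun n => mass_nonneg _ _ _) (fun n => ?_) hsum
  refine Vale.Agent.P353.CcoAux.mass_le_sum (hb.2.2.1 n).1 s O
    (fun x hx => (hO x (hs x hx).1.2 (hs x hx).2).1) hA.measurableSet fun x hx hxA hψ => ?_
  have hxR : ‖x‖ ≤ R := not_lt.1 fun hlt => hψ (hR n x hx hlt)
  simpa using hcov ⟨⟨mem_closedBall_zero_iff.2 hxR, hx⟩, hxA⟩

end Ctx

end Vale.Agent.P353
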