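import Vale.Agent.P353.Stmts

/-! The cluster Hardy inequality. -/

noncomputable section

open MeasureTheory Filter Topology Complex Matrix
open scoped ContDiff RealInnerProductSpace

namespace Vale.Agent.P353

namespace ChAux

set_option linter.unusedSectionVars false

variable {E : Type} [NormedAddCommGroup E] [InnerProductSpace ℝ E] [FiniteDimensional ℝ E]

/-- annular cutoffs -/
theorem exists_ann (E : Type) [NormedAddCommGroup E] [InnerProductSpace ℝ E]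
    [FiniteDimensional ℝ E] {a b : ℝ} (ha : 0 < a) (hb : 0 < b) : ∃ f : E → ℝ, ContDiff ℝ ∞ f ∧
      (∀ x y, ‖x‖ = ‖y‖ → f x = f y) ∧ (∀ x, 0 ≤ f x ∧ f x ≤ 1) ∧
      (∀ x, 2 * a ≤ ‖x‖ → ‖x‖ ≤ b → f x = 1) ∧ ∀ x, ‖x‖ ≤ a ∨ 2 * b ≤ ‖x‖ → f x = 0 := by
  obtain ⟨K, hK⟩ := exists_cutoff E
  obtain ⟨p, p1, p2, p3, p4, p5, -⟩ := hK a ha
  obtain ⟨q, q1, q2, q3, q4, q5, -⟩ := hK b hb
  refine ⟨fun x => q x * (1 - p x), q1.mul (contDiff_const.sub p1), fun x y h => ?_,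
    fun x => ?_, fun x h1 h2 => ?_, fun x h => ?_⟩
  · simp only [p2 x y h, q2 x y h]
  · have := p3 x
    have := q3 x
    constructor <;> nlinarith
  · simp only [p5 x h1, q4 x h2, sub_zero, mul_one]
  · rcases h with h | h
    · simp only [p4 x h, sub_self, mul_zero]
    · simp only [q5 x h, zero_mul]

theorem wt_nonneg (x : E) : 0 ≤ wt x := by
  unfold wt
  positivity

theorem continuous_wt : Continuous (wt : E → ℝ) :=
  (continuous_norm.pow 2).div ((continuous_const.add (continuous_norm.pow 2)).pow 2) fun x => by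
    positivity

/-- functions supported in an annulus are dominated by the weight -/
theorem le_wt {h : E → ℝ} (hc : Continuous h) {a R : ℝ} (ha : 0 < a)
    (h0 : ∀ x, ‖x‖ < a ∨ R < ‖x‖ → h x = 0) : ∃ K, 0 ≤ K ∧ ∀ x, h x ≤ K * wt x := by
  obtain ⟨M, hM⟩ := (isCompact_closedBall (0 : E) R).exists_bound_of_continuousOn hc.continuousOn
  refine ⟨|M| * (1 + R ^ 2) ^ 2 / a ^ 2, by positivity, fun x => ?_⟩
  by_cases hx : ‖x‖ < a ∨ R < ‖x‖
  · rw [h0 x hx]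
    exact mul_nonneg (by positivity) (wt_nonneg x)
  · rw [not_or, not_lt, not_lt] at hx
    have h1 : h x ≤ |M| :=
      (le_abs_self _).trans ((hM x (mem_closedBall_zero_iff.2 hx.2)).trans (le_abs_self M))
    have h2 : a ^ 2 ≤ ‖x‖ ^ 2 := pow_le_pow_left₀ ha.le hx.1 2
    have h3 : ‖x‖ ^ 2 ≤ R ^ 2 := pow_le_pow_left₀ (norm_nonneg _) hx.2 2
    have h4 : a ^ 2 / (1 + R ^ 2) ^ 2 ≤ wt x := by
      unfold wt
      gcongr
    calc h x ≤ |M| := h1
      _ = |M| * (1 + R ^ 2) ^ 2 / a ^ 2 * (a ^ 2 / (1 + R ^ 2) ^ 2) := by field_simp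
      _ ≤ _ := mul_le_mul_of_nonneg_left h4 (by positivity)

theorem fderiv_zero {f : E → ℝ} {a R : ℝ} (h0 : ∀ x, ‖x‖ ≤ a ∨ R ≤ ‖x‖ → f x = 0) {x : E}
    (hx : ‖x‖ < a ∨ R < ‖x‖) : fderiv ℝ f x = 0 := by
  have h1 : f =ᶠ[𝓝 x] fun _ => 0 := by
    rcases hx with hx | hx
    · filter_upwards [(continuous_norm.tendsto x).eventually (gt_mem_nhds hx)] with y hy
      exact h0 y (Or.inl hy.le)
    · filter_upwards [(continuous_norm.tendsto x).eventually (lt_mem_nhds hx)] with y hy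
      exact h0 y (Or.inr hy.le)
  rw [h1.fderiv_eq]
  simp

variable [MeasurableSpace E] [BorelSpace E]
variable {F : Type} [NormedAddCommGroup F] [InnerProductSpace ℂ F] [FiniteDimensional ℂ F]
variable {U : Submodule ℝ E}

theorem wnrm_le {ψ : E → F} (hψ : Sm U ψ) {w w' : E → ℝ} (hw : Continuous w) (hw' : Continuous w')
    {K : ℝ} (h : ∀ x, w x ≤ K * w' x) : wnrm U w ψ ≤ K * wnrm U w' ψ := by
  rw [wnrm, wnrm, ← integral_const_mul]
  refine integral_mono (hψ.integrable_wnrm hw.continuousOn)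
    ((hψ.integrable_wnrm hw'.continuousOn).const_mul K) fun x => ?_
  simp only [← mul_assoc]
  exact mul_le_mul_of_nonneg_right (h x) (sq_nonneg _)

theorem nrm_mulR (f : E → ℝ) (ψ : E → F) :
    nrm U (fun x => (f x : ℂ) • ψ x) = wnrm U (fun x => f x ^ 2) ψ := by
  simp only [nrm, wnrm, norm_smul, mul_pow, norm_real, Real.norm_eq_abs, sq_abs]

theorem wnrm_one (ψ : E → F) : wnrm U (fun _ => 1) ψ = nrm U ψ := by
  simp only [nrm, wnrm, one_mul]

theorem wnrm_smul (w : E → ℝ) (z : ℂ) (ψ : E → F) :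
    wnrm U w (z • ψ) = ‖z‖ ^ 2 * wnrm U w ψ := by
  simp only [wnrm, Pi.smul_apply, norm_smul, mul_pow, ← integral_const_mul]
  exact integral_congr_ae (Eventually.of_forall fun x => by ring)

theorem mass_smul (O : Set E) (z : ℂ) (ψ : E → F) :
    mass U O (z • ψ) = ‖z‖ ^ 2 * mass U O ψ := by
  simp only [mass, Pi.smul_apply, norm_smul, mul_pow, integral_const_mul]

theorem wnrm_wt_nonneg (ψ : E → F) : 0 ≤ wnrm U wt ψ :=
  integral_nonneg fun _ => mul_nonneg (wt_nonneg _) (sq_nonneg _)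

theorem mass_le {ψ : E → F} (hψ : Sm U ψ) {f : E → ℝ} (hf : ContDiff ℝ ∞ f)
    (h1 : ∀ x, 1 ≤ ‖x‖ → ‖x‖ ≤ 2 → f x = 1) :
    mass U {x | 1 ≤ ‖x‖ ∧ ‖x‖ ≤ 2} ψ ≤
      mass U {x | 1 ≤ ‖U.starProjection x‖} fun x => (f x : ℂ) • ψ x := by
  have hi : Integrable fun x : U => ‖(f x : ℂ) • ψ x‖ ^ 2 := by
    have := (hψ.mulR hf).integrable_wnrm (w := fun _ => 1) continuousOn_const
    simpa only [one_mul] using this
  have hm : MeasurableSet {x : U | (x : E) ∈ {x : E | 1 ≤ ‖x‖ ∧ ‖x‖ ≤ 2}} := by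
    have hc : Continuous fun x : U => ‖(x : E)‖ := continuous_subtype_val.norm
    exact ((isClosed_le continuous_const hc).inter (isClosed_le hc continuous_const)).measurableSet
  calc mass U {x | 1 ≤ ‖x‖ ∧ ‖x‖ ≤ 2} ψ
      = ∫ x in {x : U | (x : E) ∈ {x : E | 1 ≤ ‖x‖ ∧ ‖x‖ ≤ 2}}, ‖(f x : ℂ) • ψ x‖ ^ 2 := by
        refine setIntegral_congr_fun hm fun x hx => ?_
        simp only [h1 x hx.1 hx.2, ofReal_one, one_smul]
    _ ≤ _ := by
        refine setIntegral_mono_set hi.integrableOn (Eventually.of_forall fun x => sq_nonneg _)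
          (Eventually.of_forall fun x hx => ?_)
        change 1 ≤ ‖U.starProjection x‖
        rw [Submodule.starProjection_eq_self_iff.2 x.2]
        exact hx.1

end ChAux

open ChAux

namespace Ctx

variable {N d : ℕ} {F : Type} [NormedAddCommGroup F] [InnerProductSpace ℂ F]
  [FiniteDimensional ℂ F] (c : Ctx N d F)

theorem ch_seq {π : Setoid (Fin N)} (h : ¬ c.CH π) : ∃ (K : ℝ) (g : ℕ → ℝ) (ψ : ℕ → Tn 9 d → F),
    (∀ n : ℕ, (n : ℝ) + 1 ≤ g n) ∧ (∀ n, ψ n ∈ c.D π (c.ss π)) ∧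
    (∀ n, mass (sub 9 (c.ss π)) {x | 1 ≤ ‖x‖ ∧ ‖x‖ ≤ 2} (ψ n) = 1) ∧
    (∀ n, wnrm (sub 9 (c.ss π)) wt (ψ n) ≤ K) ∧
    ∀ n : ℕ, c.En (c.ss π) (g n) 0 (ψ n) ≤ 1 / ((n : ℝ) + 1) := by
  unfold CH at h
  push Not at h
  obtain ⟨ε, hε, h⟩ := h
  choose g hg φ hφ hlt using fun n : ℕ => h ((n : ℝ) + 1) ((n : ℝ) + 1)
  have hE : ∀ n, 0 ≤ c.En (c.ss π) (g n) 0 (φ n) := fun n => en_nonneg _ _ _ _
  have hw : ∀ n, 0 ≤ wnrm (sub 9 (c.ss π)) wt (φ n) := fun n => wnrm_wt_nonneg _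
  set m : ℕ → ℝ := fun n => mass (sub 9 (c.ss π)) {x | 1 ≤ ‖x‖ ∧ ‖x‖ ≤ 2} (φ n) with hm
  have hn : ∀ n : ℕ, (0 : ℝ) < (n : ℝ) + 1 := fun n => by positivity
  have hm0 : ∀ n, 0 < m n := fun n =>
    lt_of_le_of_lt (add_nonneg (mul_nonneg hε.le (hw n)) (mul_nonneg (hn n).le (hE n))) (hlt n)
  have hz : ∀ n, ‖(((√(m n))⁻¹ : ℝ) : ℂ)‖ ^ 2 = (m n)⁻¹ := fun n => by
    rw [norm_real, Real.norm_eq_abs, sq_abs, inv_pow, Real.sq_sqrt (hm0 n).le]
  refine ⟨1 / ε, g, fun n => (((√(m n))⁻¹ : ℝ) : ℂ) • φ n, hg,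
    fun n => Submodule.smul_mem _ _ (hφ n), fun n => ?_, fun n => ?_, fun n => ?_⟩
  · rw [mass_smul, hz]
    exact inv_mul_cancel₀ (hm0 n).ne'
  · rw [wnrm_smul, hz, inv_mul_le_iff₀ (hm0 n), mul_one_div, le_div_iff₀ hε]
    have h1 := hlt n
    have h2 := mul_nonneg (hn n).le (hE n)
    change _ < m n at h1
    linarith
  · have h3 : c.En (c.ss π) (g n) 0 ((((√(m n))⁻¹ : ℝ) : ℂ) • φ n) =
        (m n)⁻¹ * c.En (c.ss π) (g n) 0 (φ n) := by
      rw [← hz]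
      exact en_smul _ _ _ _ _
    rw [h3, inv_mul_le_iff₀ (hm0 n), mul_one_div, le_div_iff₀ (hn n)]
    have h1 := hlt n
    have h2 := mul_nonneg hε.le (hw n)
    change _ < m n at h1
    linarith

theorem p_ch (h_lm4 : c.S_lm4) (h_lam : c.S_lam) (h_mul : c.S_mul) (h_amp0 : c.S_amp0)
    (h_conv : c.S_conv) : c.S_ch := by
  intro π hcco
  by_contra hch
  obtain ⟨K, g, ψ, hg, hψ, hmass, hK, hE⟩ := c.ch_seq hch
  obtain ⟨f, f1, f2, f3, f4, f5⟩ := exists_ann (Tn 9 d) (a := 1 / 2) (b := 2) (by norm_num)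
    (by norm_num)
  obtain ⟨k, k1, k2, -, k4, k5⟩ := exists_ann (Tn 9 d) (a := 1 / 8) (b := 5) (by norm_num)
    (by norm_num)
  have hTh := c.Th_ss π
  have hgt : Tendsto g atTop atTop :=
    tendsto_atTop_mono hg (tendsto_atTop_add_const_right _ _ tendsto_natCast_atTop_atTop)
  have hE0 : Tendsto (fun n => c.En (c.ss π) (g n) 0 (ψ n)) atTop (𝓝 0) :=
    squeeze_zero (fun n => en_nonneg _ _ _ _) hE tendsto_one_div_add_atTop_nhds_zero_nat
  have hE1 : ∀ n, c.En (c.ss π) (g n) 0 (ψ n) ≤ 1 := fun n =>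
    (hE n).trans (div_le_one_of_le₀ (by linarith [Nat.cast_nonneg (α := ℝ) n]) (by positivity))
  have hinv : ∀ {p : Tn 9 d → ℝ}, (∀ x y, ‖x‖ = ‖y‖ → p x = p y) → c.InvR π (sub 9 (c.ss π)) p :=
    fun hp u _ x _ => hp _ _ (c.norm_Ad9 u x)
  have hsm : ∀ n, Sm (sub 9 (c.ss π)) (ψ n) := fun n => (hψ n).1
  have hfD : ∀ n, (fun x => (f x : ℂ) • ψ n x) ∈ c.D π (c.ss π) := fun n =>
    c.mulR_mem_D (hψ n) f1 (hinv f2)
  have hkD : ∀ n, (fun x => (k x : ℂ) • ψ n x) ∈ c.D π (c.ss π) := fun n =>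
    c.mulR_mem_D (hψ n) k1 (hinv k2)
  have hnrm : ∀ {p : Tn 9 d → ℝ} {a R : ℝ}, Continuous p → 0 < a →
      (∀ x, ‖x‖ ≤ a ∨ R ≤ ‖x‖ → p x = 0) →
      ∃ M, 0 < M ∧ ∀ n, nrm (sub 9 (c.ss π)) (fun x => (p x : ℂ) • ψ n x) ≤ M := by
    intro p a R hp ha h0
    obtain ⟨A, hA0, hA⟩ := le_wt (h := fun x => p x ^ 2) (hp.pow 2) ha (R := R) fun x hx => by
      simp only [h0 x (hx.imp le_of_lt le_of_lt), ne_eq, OfNat.ofNat_ne_zero, not_false_eq_true,
        zero_pow]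
    refine ⟨A * |K| + 1, by positivity, fun n => ?_⟩
    rw [nrm_mulR]
    have h1 := wnrm_le (hsm n) (w := fun x => p x ^ 2) (hp.pow 2) continuous_wt hA
    have h2 := mul_le_mul_of_nonneg_left ((hK n).trans (le_abs_self K)) hA0
    linarith
  obtain ⟨Mf, -, hMf⟩ := hnrm f1.continuous (by norm_num) f5
  obtain ⟨Mk, hMk0, hMk⟩ := hnrm k1.continuous (by norm_num) k5
  have hgU : Continuous (gU (sub 9 (c.ss π)) f) := continuous_finsetSum _ fun j _ =>
    ((f1.continuous_fderiv (by simp)).clm_apply continuous_const).smul continuous_const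
  obtain ⟨A, hA0, hA⟩ := le_wt (h := fun x => ‖gU (sub 9 (c.ss π)) f x‖ ^ 2) (hgU.norm.pow 2)
    (a := 1 / 2) (R := 2 * 2) (by norm_num) fun x hx => by
      have h1 := norm_gU_le (sub 9 (c.ss π)) f x
      rw [fderiv_zero f5 hx, norm_zero] at h1
      simp only [le_antisymm h1 (norm_nonneg _), ne_eq, OfNat.ofNat_ne_zero, not_false_eq_true,
        zero_pow]
  have hEf : ∀ n, c.En (c.ss π) (g n) 0 (fun x => (f x : ℂ) • ψ n x) ≤ 2 + 16 * (A * K) := by
    intro n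
    have h1 := c.car.en_mulR_le 1 (fun α => c.contDiff_beta (g n) 0 (eb α))
      (c.iso (sub 9 (c.ss π)) (g n) 0) (hsm n) f1
    have h2 : ∑ α, wnrm (sub 9 (c.ss π)) (fun x => f x ^ 2)
        (dop c.θ (sub 9 (c.ss π)) 1 (c.sE (eb α)) (c.beta (g n) 0 (eb α)) (ψ n)) ≤
        c.En (c.ss π) (g n) 0 (ψ n) := by
      unfold En en
      refine Finset.sum_le_sum fun α _ => ?_
      have h3 := wnrm_le ((hsm n).dop (θ := c.θ) 1 (c.sE (eb α)) (c.contDiff_beta (g n) 0 (eb α)))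
        (w := fun x => f x ^ 2) (w' := fun _ => 1) (f1.continuous.pow 2) continuous_const (K := 1)
        fun x => by
          have := f3 x
          nlinarith
      rwa [wnrm_one, one_mul] at h3
    have h3 := wnrm_le (hsm n) (w := fun x => ‖gU (sub 9 (c.ss π)) f x‖ ^ 2) (hgU.norm.pow 2)
      continuous_wt hA
    have h4 := mul_le_mul_of_nonneg_left (hK n) hA0
    have h5 := hE1 n
    change c.En (c.ss π) (g n) 0 (fun x => (f x : ℂ) • ψ n x) ≤ _ at h1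
    linarith
  have hbdd : c.Bdd π (c.ss π) g fun n x => (f x : ℂ) • ψ n x := by
    refine ⟨hgt, fun n => ?_, hfD, ⟨2 * 2, fun n x _ hx => ?_⟩,
      ⟨Mf + (2 + 16 * (A * K)), fun n => add_le_add (hMf n) (hEf n)⟩⟩
    · linarith [hg n, Nat.cast_nonneg (α := ℝ) n]
    · simp only [f5 x (Or.inr hx.le), ofReal_zero, zero_smul]
  have hfk : ∀ n, (fun x => (f x : ℂ) • (k x : ℂ) • ψ n x) = fun x => (f x : ℂ) • ψ n x := by
    intro n
    funext x
    by_cases hx : ‖x‖ ≤ 1 / 2 ∨ 2 * 2 ≤ ‖x‖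
    · simp only [f5 x hx, ofReal_zero, zero_smul]
    · rw [not_or, not_le, not_le] at hx
      rw [k4 x (by linarith [hx.1]) (by linarith [hx.2]), ofReal_one, one_smul]
  have hnull : ∀ π' < π, c.Null π (c.ss π) π' g fun n x => (f x : ℂ) • ψ n x := by
    intro π' hπ'
    refine h_conv π _ π' hTh hπ'.le g _ hbdd fun η hη β hβ => ?_
    have hη1 : SmR (c.CS (c.ss π) π') (c.hatη π (c.ss π) π' η) (c.Gen π π') :=
      (h_lm4.hat π (c.ss π) π' hπ'.le η Set.univ (by rwa [Set.inter_univ])).mono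
        fun x _ hx => c.Good_subset_Gen π π' hx.1
    have h0 := h_amp0 π π' hπ' g ψ hgt hψ ⟨K, hK⟩ hE0 (fun x => f x * η x) (hη.mul' f1) β hβ
    have hloc := hgt.eventually (h_lam.loc π (c.ss π) π' {y | 1 / 2 ≤ ‖y‖ ∧ ‖y‖ ≤ 2 * 2} (1 / 4)
      (by norm_num))
    have h1 : ∀ᶠ n in atTop, c.Lam π (c.ss π) π' (g n) (fun x => (k x : ℂ) • ψ n x)
        (fun x => f x * c.hatη π (c.ss π) π' η x) β =
        c.Lamh π (c.ss π) π' (g n) (ψ n) (fun x => f x * η x) β := by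
      filter_upwards [hloc] with n hn
      rw [← (hn (fun x => (k x : ℂ) • ψ n x) (ψ n) (fun x => f x * η x) β (fun y _ hy => ?_)
        fun x _ y hy hxy => ?_).2]
      · refine (h_lam.congrη π (c.ss π) π' (g n) _ _ _ β fun y hy => ?_).1
        simp only [hatη, Submodule.starProjection_eq_self_iff.2 hy, mul_div_assoc]
      · rw [not_and_or, not_le, not_le] at hy
        simp only [f5 y (hy.imp le_of_lt le_of_lt), zero_mul]
      · have a1 := norm_sub_norm_le x y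
        have a2 := norm_sub_norm_le y x
        rw [norm_sub_rev] at a2
        rw [k4 x (by linarith [hy.1]) (by linarith [hy.2]), ofReal_one, one_smul]
    have h2 : Tendsto (fun n => c.Lamh π (c.ss π) π' (g n) (fun x => (f x : ℂ) • ψ n x) η β -
        c.Lamh π (c.ss π) π' (g n) (ψ n) (fun x => f x * η x) β) atTop (𝓝 0) := by
      rw [NormedAddGroup.tendsto_nhds_zero]
      intro ε hε
      have hmul := hgt.eventually (h_mul π (c.ss π) π' hTh hπ'.le _ hη1 β f f1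
        (ε ^ 2 / (2 * Mk)) (by positivity))
      filter_upwards [hmul, h1] with n hn hn1
      have h3 := hn _ (hkD n)
      rw [hfk n, hn1] at h3
      have h4 : ε ^ 2 / (2 * Mk) * nrm (sub 9 (c.ss π)) (fun x => (k x : ℂ) • ψ n x) ≤
          ε ^ 2 / (2 * Mk) * Mk := mul_le_mul_of_nonneg_left (hMk n) (by positivity)
      have h5 : ε ^ 2 / (2 * Mk) * Mk = ε ^ 2 / 2 := by field_simp
      have h6 : 0 < ε ^ 2 := by positivity
      exact lt_of_pow_lt_pow_left₀ 2 hε.le (lt_of_le_of_lt h3 (by linarith))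
    simpa only [sub_add_cancel, add_zero] using h2.add h0
  have hlim := hcco _ hTh g _ hbdd hnull 1 one_pos
  obtain ⟨n, hn⟩ := (hlim.eventually (gt_mem_nhds zero_lt_one)).exists
  have h1 := mass_le (hsm n) f1 fun x h1 h2 => f4 x (by linarith) h2
  rw [hmass n] at h1
  exact absurd hn (not_lt.2 h1)

end Ctx

end Vale.Agent.P353
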