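import Mathlib

/-! Local charts: abstract change of variables and inverse function lemmas. -/

noncomputable section

open MeasureTheory Filter Topology Set Metric
open scoped ContDiff

namespace Vale.Agent.P353.ChartAux

section Cov

variable {P U : Type} [NormedAddCommGroup P] [NormedSpace ℝ P] [FiniteDimensional ℝ P]
  [NormedAddCommGroup U] [NormedSpace ℝ U] [FiniteDimensional ℝ U]

/-- relative Jacobian determinant -/
def jac (e : P ≃L[ℝ] U) (A : P →L[ℝ] U) : ℝ := ((e.symm : U →L[ℝ] P) ∘L A).det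

omit [FiniteDimensional ℝ U] in
theorem contDiff_jac (e : P ≃L[ℝ] U) : ContDiff ℝ ∞ (jac e) := by
  have h : ContDiff ℝ ∞ fun a : P →L[ℝ] P => a.det := by
    simp only [ContinuousLinearMap.det, ← LinearMap.det_toMatrix (Module.finBasis ℝ P),
      Matrix.det_apply', LinearMap.toMatrix_apply]
    refine ContDiff.sum fun σ _ => contDiff_const.mul (contDiff_prod fun i _ => ?_)
    exact (LinearMap.toContinuousLinearMap ((Module.finBasis ℝ P).coord (σ i))).contDiff.comp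
      (ContinuousLinearMap.apply ℝ P (Module.finBasis ℝ P i)).contDiff
  exact h.comp (ContinuousLinearMap.compL ℝ P U P (e.symm : U →L[ℝ] P)).contDiff

omit [FiniteDimensional ℝ U] [FiniteDimensional ℝ P] in
theorem jac_self (e : P ≃L[ℝ] U) : jac e (e : P →L[ℝ] U) = 1 := by
  have : (e.symm : U →L[ℝ] P) ∘L (e : P →L[ℝ] U) = ContinuousLinearMap.id ℝ P := by
    ext x; simp
  rw [jac, this, ContinuousLinearMap.det]
  simp

omit [FiniteDimensional ℝ U] in
theorem exists_equiv_of_jac (e : P ≃L[ℝ] U) {A : P →L[ℝ] U} (h : jac e A ≠ 0) :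
    ∃ A' : P ≃L[ℝ] U, (A' : P →L[ℝ] U) = A := by
  refine ⟨(((e.symm : U →L[ℝ] P) ∘L A).toContinuousLinearEquivOfDetNeZero h).trans e, ?_⟩
  ext x
  exact e.apply_symm_apply (A x)

theorem cov [MeasurableSpace P] [BorelSpace P] [MeasurableSpace U] [BorelSpace U]
    (μ : Measure P) [μ.IsAddHaarMeasure] (ν : Measure U) [ν.IsAddHaarMeasure] (e : P ≃L[ℝ] U) :
    ∃ a > 0, ∀ (Ψ : P → U) (S : Set P), MeasurableSet S → (∀ p ∈ S, DifferentiableAt ℝ Ψ p) →
      InjOn Ψ S → ∀ f : U → ℝ,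
        ∫ x in Ψ '' S, f x ∂ν = ∫ p in S, a * |jac e (fderiv ℝ Ψ p)| * f (Ψ p) ∂μ := by
  refine ⟨(Measure.addHaarScalarFactor ν (μ.map e) : ℝ),
    Measure.addHaarScalarFactor_pos_of_isAddHaarMeasure _ _, fun Ψ S hS hd hi f => ?_⟩
  have h1 := integral_image_eq_integral_abs_det_fderiv_smul μ hS
    (f := fun p => e.symm (Ψ p)) (f' := fun p => (e.symm : U →L[ℝ] P) ∘L fderiv ℝ Ψ p)
    (fun p hp => ((e.symm : U →L[ℝ] P).hasFDerivAt.comp p
      (hd p hp).hasFDerivAt).hasFDerivWithinAt)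
    (fun p hp q hq h => hi hp hq (e.symm.injective h)) (fun p => f (e p))
  have h2 : e.toHomeomorph.toMeasurableEquiv ⁻¹' (Ψ '' S) = (fun p => e.symm (Ψ p)) '' S := by
    ext p
    constructor
    · rintro ⟨q, hq, h⟩
      exact ⟨q, hq, by simp [h]⟩
    · rintro ⟨q, hq, rfl⟩
      exact ⟨q, hq, by simp⟩
  have h3 := setIntegral_map_equiv (μ := μ) e.toHomeomorph.toMeasurableEquiv f (Ψ '' S)
  rw [h2] at h3
  conv_lhs => rw [Measure.isAddLeftInvariant_eq_smul ν (μ.map e)]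
  rw [Measure.restrict_smul, integral_smul_nnreal_measure]
  simp only [mul_assoc]
  rw [integral_const_mul, NNReal.smul_def, smul_eq_mul]
  congr 1
  refine h3.trans (h1.trans ?_)
  simp [jac]

omit [FiniteDimensional ℝ U] in
theorem close {Λ : Type} [NormedAddCommGroup Λ] [NormedSpace ℝ Λ] (e : P ≃L[ℝ] U)
    {Φ : Λ → P → U} (hΦ : ContDiff ℝ 1 (Function.uncurry Φ)) {l₀ : Λ} {p₀ : P}
    (h0 : fderiv ℝ (Φ l₀) p₀ = e) : ∃ δ > 0, ∀ l, ‖l - l₀‖ ≤ δ →
      InjOn (Φ l) (closedBall p₀ δ) ∧ ∀ p ∈ closedBall p₀ δ,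
        1 / 2 ≤ jac e (fderiv ℝ (Φ l) p) ∧ jac e (fderiv ℝ (Φ l) p) ≤ 2 ∧
          ∀ q, ‖q‖ ≤ 2 * ‖e.symm (fderiv ℝ (Φ l) p q)‖ := by
  have hc : Continuous fun z : Λ × P => fderiv ℝ (Φ z.1) z.2 :=
    (ContDiff.fderiv (n := 0) (f := fun z : Λ × P => Φ z.1) (g := Prod.snd)
      (hΦ.comp (contDiff_fst.fst.prodMk contDiff_snd)) contDiff_snd (by simp)).continuous
  have hj : Continuous fun z : Λ × P => jac e (fderiv ℝ (Φ z.1) z.2) :=
    (contDiff_jac e).continuous.comp hc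
  have hn : Continuous fun z : Λ × P =>
      ‖(e.symm : U →L[ℝ] P) ∘L fderiv ℝ (Φ z.1) z.2 - ContinuousLinearMap.id ℝ P‖ := by
    fun_prop
  have e1 : ∀ᶠ z in 𝓝 (l₀, p₀), 1 / 2 < jac e (fderiv ℝ (Φ z.1) z.2) :=
    hj.continuousAt.eventually (lt_mem_nhds (by simp only [h0, jac_self]; norm_num))
  have e2 : ∀ᶠ z in 𝓝 (l₀, p₀), jac e (fderiv ℝ (Φ z.1) z.2) < 2 :=
    hj.continuousAt.eventually (gt_mem_nhds (by simp only [h0, jac_self]; norm_num))
  have e3 : ∀ᶠ z in 𝓝 (l₀, p₀),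
      ‖(e.symm : U →L[ℝ] P) ∘L fderiv ℝ (Φ z.1) z.2 - ContinuousLinearMap.id ℝ P‖ < 1 / 2 := by
    refine hn.continuousAt.eventually (gt_mem_nhds ?_)
    simp [h0]
  obtain ⟨δ, hδ, h⟩ := Metric.nhds_basis_closedBall.eventually_iff.1 (e1.and (e2.and e3))
  have hm : ∀ l p, ‖l - l₀‖ ≤ δ → p ∈ closedBall p₀ δ → (l, p) ∈ closedBall (l₀, p₀) δ := by
    intro l p hl hp
    rw [← closedBall_prod_same]
    exact ⟨mem_closedBall_iff_norm.2 hl, hp⟩
  have hd : ∀ l, Differentiable ℝ (Φ l) := fun l =>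
    (hΦ.differentiable one_ne_zero).comp ((differentiable_const l).prodMk differentiable_id)
  refine ⟨δ, hδ, fun l hl => ⟨fun p hp q hq hpq => ?_, fun p hp =>
    ⟨(h (hm l p hl hp)).1.le, (h (hm l p hl hp)).2.1.le, fun q => ?_⟩⟩⟩
  · have := (convex_closedBall p₀ δ).norm_image_sub_le_of_norm_hasFDerivWithin_le'
      (f := fun p => e.symm (Φ l p)) (f' := fun p => (e.symm : U →L[ℝ] P) ∘L fderiv ℝ (Φ l) p)
      (φ := ContinuousLinearMap.id ℝ P) (C := 1 / 2)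
      (fun x _ => ((e.symm : U →L[ℝ] P).hasFDerivAt.comp x
        (hd l x).hasFDerivAt).hasFDerivWithinAt)
      (fun x hx => (h (hm l x hl hx)).2.2.le) hp hq
    simp only [hpq, sub_self, ContinuousLinearMap.id_apply, zero_sub, norm_neg] at this
    have h0 : ‖q - p‖ = 0 := by linarith [norm_nonneg (q - p)]
    exact (sub_eq_zero.1 (norm_eq_zero.1 h0)).symm
  · have h1 := ((e.symm : U →L[ℝ] P) ∘L fderiv ℝ (Φ l) p - ContinuousLinearMap.id ℝ P).le_of_opNorm_le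
      (h (hm l p hl hp)).2.2.le q
    have h2 : ‖q‖ ≤ ‖e.symm (fderiv ℝ (Φ l) p q)‖ + ‖e.symm (fderiv ℝ (Φ l) p q) - q‖ := by
      simpa using norm_sub_le (e.symm (fderiv ℝ (Φ l) p q)) (e.symm (fderiv ℝ (Φ l) p q) - q)
    simp only [sub_apply, ContinuousLinearMap.comp_apply,
      ContinuousLinearEquiv.coe_coe, ContinuousLinearMap.id_apply] at h1
    linarith

end Cov

section Psi

variable {G E : Type} [NormedAddCommGroup G] [NormedSpace ℝ G] [FiniteDimensional ℝ G]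
  [NormedAddCommGroup E] [InnerProductSpace ℝ E] [FiniteDimensional ℝ E]

theorem contDiff_exp {A : Type} [NormedRing A] [NormedAlgebra ℝ A] [CompleteSpace A] :
    ContDiff ℝ ∞ (NormedSpace.exp : A → A) :=
  contDiff_iff_contDiffAt.2 fun x => (NormedSpace.exp_analytic (𝕂 := ℝ) x).contDiffAt

/-- the deformed chart -/
def Phi (V : G →L[ℝ] E →L[ℝ] E) (U Y : Submodule ℝ E) (l : (E →L[ℝ] E) × E) (p : G × Y) : U :=
  U.orthogonalProjectionOnto (NormedSpace.exp (V p.1) (l.1 p.2 + l.2))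

omit [FiniteDimensional ℝ G] in
theorem contDiff_Phi (V : G →L[ℝ] E →L[ℝ] E) (U Y : Submodule ℝ E) :
    ContDiff ℝ ∞ (Function.uncurry (Phi V U Y)) := by
  refine U.orthogonalProjectionOnto.contDiff.comp (ContDiff.clm_apply ?_ ?_)
  · exact contDiff_exp.comp (V.contDiff.comp contDiff_snd.fst)
  · exact (contDiff_fst.fst.clm_apply (Y.subtypeL.contDiff.comp contDiff_snd.snd)).add
      contDiff_fst.snd

omit [FiniteDimensional ℝ G] in
theorem contDiff_Psi (V : G →L[ℝ] E →L[ℝ] E) (U Y : Submodule ℝ E) (l : (E →L[ℝ] E) × E) :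
    ContDiff ℝ ∞ (Phi V U Y l) :=
  (contDiff_Phi V U Y).comp (contDiff_const.prodMk contDiff_id)

omit [FiniteDimensional ℝ G] in
theorem fderiv_Phi (V : G →L[ℝ] E →L[ℝ] E) (U Y : Submodule ℝ E) (y : Y) (q : G × Y) :
    fderiv ℝ (Phi V U Y (1, 0)) (0, y) q = U.orthogonalProjectionOnto (V q.1 y + q.2) := by
  have h1 : HasFDerivAt (fun p : G × Y => NormedSpace.exp (V p.1))
      (V ∘L ContinuousLinearMap.fst ℝ G Y) (0, y) := by
    have h0 : HasFDerivAt (NormedSpace.exp : (E →L[ℝ] E) → E →L[ℝ] E)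
        (1 : (E →L[ℝ] E) →L[ℝ] E →L[ℝ] E) (V (0, y).1) := by
      simpa using hasFDerivAt_exp_zero (𝕂 := ℝ) (𝔸 := E →L[ℝ] E)
    exact h0.comp (0, y) (V ∘L ContinuousLinearMap.fst ℝ G Y).hasFDerivAt
  have h2 := U.orthogonalProjectionOnto.hasFDerivAt.comp (0, y)
    (h1.clm_apply (Y.subtypeL ∘L ContinuousLinearMap.snd ℝ G Y).hasFDerivAt)
  have h3 : Phi V U Y (1, 0) = U.orthogonalProjectionOnto ∘ fun p : G × Y =>
      NormedSpace.exp (V p.1) ((Y.subtypeL ∘L ContinuousLinearMap.snd ℝ G Y) p) := by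
    ext p; simp [Phi]
  rw [h3, h2.fderiv]
  simp [add_comm]

theorem exists_equiv (V : G →L[ℝ] E →L[ℝ] E) {U Y : Submodule ℝ E} (hY : Y ≤ U) (y₀ : Y)
    (hV : ∀ ξ, V ξ y₀ ∈ U)
    (hd : Module.finrank ℝ G + Module.finrank ℝ Y = Module.finrank ℝ U)
    (ht : ∀ ξ, V ξ y₀ ∈ Y → ξ = 0) :
    ∃ e : (G × Y) ≃L[ℝ] U, fderiv ℝ (Phi V U Y (1, 0)) (0, y₀) = e := by
  have hi : Function.Injective (fderiv ℝ (Phi V U Y (1, 0)) (0, y₀)).toLinearMap := by
    rw [injective_iff_map_eq_zero]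
    intro q hq
    have h1 : V q.1 y₀ + q.2 ∈ U := U.add_mem (hV _) (hY q.2.2)
    have h2 : V q.1 y₀ + q.2 = 0 := by
      have := congrArg Subtype.val ((fderiv_Phi V U Y y₀ q).symm.trans hq)
      rwa [← Submodule.starProjection_apply, Submodule.starProjection_eq_self_iff.2 h1] at this
    have h3 : q.1 = 0 := ht _ (by rw [eq_neg_of_add_eq_zero_left h2]; exact Y.neg_mem q.2.2)
    rw [h3] at h2
    exact Prod.ext h3 (by simpa using h2)
  refine ⟨(LinearMap.linearEquivOfInjective _ hi (by simpa using hd)).toContinuousLinearEquiv, ?_⟩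
  exact ContinuousLinearMap.ext fun q => rfl

/-- the standing assumptions -/
structure Setup (V : G →L[ℝ] E →L[ℝ] E) (U Y : Submodule ℝ E) (y₀ : Y) : Prop where
  le : Y ≤ U
  exp_mem : ∀ ξ, ∀ x ∈ U, NormedSpace.exp (V ξ) x ∈ U
  V_mem : ∀ ξ, ∀ x ∈ U, V ξ x ∈ U
  dim : Module.finrank ℝ G + Module.finrank ℝ Y = Module.finrank ℝ U
  trans : ∀ ξ, V ξ y₀ ∈ Y → ξ = 0

variable {V : G →L[ℝ] E →L[ℝ] E} {U Y : Submodule ℝ E} {y₀ : Y}

theorem Setup.equiv (h : Setup V U Y y₀) :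
    ∃ e : (G × Y) ≃L[ℝ] U, fderiv ℝ (Phi V U Y (1, 0)) (0, y₀) = e :=
  exists_equiv V h.le y₀ (fun ξ => h.V_mem ξ _ (h.le y₀.2)) h.dim h.trans

omit [FiniteDimensional ℝ G] in
theorem Setup.coe_Phi (h : Setup V U Y y₀) {l : (E →L[ℝ] E) × E} {p : G × Y}
    (hp : l.1 p.2 + l.2 ∈ U) : (Phi V U Y l p : E) = NormedSpace.exp (V p.1) (l.1 p.2 + l.2) := by
  rw [Phi, ← Submodule.starProjection_apply, Submodule.starProjection_eq_self_iff.2
    (h.exp_mem _ _ hp)]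

omit [FiniteDimensional ℝ G] in
theorem Setup.coe_Psi (h : Setup V U Y y₀) (p : G × Y) :
    (Phi V U Y (1, 0) p : E) = NormedSpace.exp (V p.1) p.2 := by
  rw [h.coe_Phi (by simpa using h.le p.2.2)]
  simp

/-- uniform decomposition of tangent vectors near the base point -/
theorem Setup.decomp (h : Setup V U Y y₀) : ∃ δ > 0, ∃ K : ℝ, ∀ y : Y, ‖(y : E) - y₀‖ ≤ δ →
    ∀ x ∈ U, ∃ ξ : G, ∃ y' ∈ Y, x = V ξ y + y' ∧ ‖ξ‖ ≤ K * ‖x‖ ∧ ‖y'‖ ≤ K * ‖x‖ := by
  obtain ⟨e, he⟩ := h.equiv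
  obtain ⟨δ, hδ, hc⟩ := close e ((contDiff_Phi V U Y).of_le (by simp)) he
  refine ⟨δ, hδ, 2 * ‖(e.symm : U →L[ℝ] G × Y)‖, fun y hy x hx => ?_⟩
  have hm : ((0 : G), y) ∈ closedBall ((0 : G), y₀) δ := by
    rw [← closedBall_prod_same]
    exact ⟨mem_closedBall_self hδ.le, mem_closedBall_iff_norm.2 hy⟩
  obtain ⟨h1, -, h3⟩ := (hc (1, 0) (by simpa using hδ.le)).2 _ hm
  obtain ⟨A, hA⟩ := exists_equiv_of_jac e (A := fderiv ℝ (Phi V U Y (1, 0)) (0, y))
    (by linarith)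
  obtain ⟨q, hq⟩ := A.surjective ⟨x, hx⟩
  have hq' : fderiv ℝ (Phi V U Y (1, 0)) (0, y) q = ⟨x, hx⟩ := by rw [← hA]; exact hq
  have h4 : ‖q‖ ≤ 2 * ‖(e.symm : U →L[ℝ] G × Y)‖ * ‖x‖ := by
    have h5 := h3 q
    rw [hq'] at h5
    have h6 := (e.symm : U →L[ℝ] G × Y).le_opNorm ⟨x, hx⟩
    rw [mul_assoc]
    exact h5.trans (mul_le_mul_of_nonneg_left h6 zero_le_two)
  refine ⟨q.1, q.2, q.2.2, ?_, (norm_fst_le q).trans h4, (norm_snd_le q).trans h4⟩
  have := congrArg Subtype.val ((fderiv_Phi V U Y y q).symm.trans hq')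
  rw [← Submodule.starProjection_apply, Submodule.starProjection_eq_self_iff.2
    (U.add_mem (h.V_mem _ _ (h.le y.2)) (h.le q.2.2))] at this
  exact this.symm

variable [MeasurableSpace E] [BorelSpace E]

theorem Setup.up (h : Setup V U Y y₀) : ∃ δ > 0, ∃ K : ℝ, ∀ L : E →L[ℝ] E, ‖L - 1‖ ≤ δ →
    (∀ x ∈ U, L x ∈ U) → ∀ t ∈ U, ‖t‖ ≤ δ → ∀ f : E → ℝ, Continuous f → (∀ x, 0 ≤ f x) →
      (∀ ξ, ∀ x ∈ U, f (NormedSpace.exp (V ξ) x) = f x) → Integrable (fun x : U => f x) →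
        ∫ y in {y : Y | ‖(y : E) - y₀‖ ≤ δ}, f (L y + t) ≤ K * ∫ x : U, f x := by
  borelize G
  obtain ⟨e, he⟩ := h.equiv
  obtain ⟨δ, hδ, hc⟩ := close e ((contDiff_Phi V U Y).of_le (by simp)) he
  set μ : Measure G := Measure.addHaar
  obtain ⟨a, ha, hcov⟩ := cov (μ.prod (volume : Measure Y)) (volume : Measure U) e
  have hm : 0 < μ.real (closedBall 0 δ) :=
    ENNReal.toReal_pos (measure_closedBall_pos μ 0 hδ).ne' measure_closedBall_lt_top.ne
  refine ⟨δ, hδ, (a / 2 * μ.real (closedBall 0 δ))⁻¹, fun L hL hLU t ht htδ f hf hf0 hi hI => ?_⟩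
  obtain ⟨hinj, hj⟩ := hc (L, t) (by simp [Prod.norm_def, hL, htδ])
  have hs := contDiff_Psi V U Y (L, t)
  have hfe : ∀ p : G × Y, f (Phi V U Y (L, t) p) = f (L p.2 + t) := fun p => by
    have hp : L p.2 + t ∈ U := U.add_mem (hLU _ (h.le p.2.2)) ht
    rw [h.coe_Phi hp, hi _ _ hp]
  have h1 := hcov (Phi V U Y (L, t)) _ measurableSet_closedBall
    (fun p _ => hs.differentiable (by simp) p) hinj fun x => f x
  have h2 : ∫ x in Phi V U Y (L, t) '' closedBall (0, y₀) δ, f x ≤ ∫ x : U, f x :=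
    setIntegral_le_integral hI (Eventually.of_forall fun x => hf0 x)
  have hg : Continuous fun p : G × Y => f (L p.2 + t) := by fun_prop
  have h3 : ∫ p in closedBall ((0 : G), y₀) δ, a / 2 * f (L p.2 + t) ∂μ.prod volume ≤
      ∫ p in closedBall ((0 : G), y₀) δ,
        a * |jac e (fderiv ℝ (Phi V U Y (L, t)) p)| * f (Phi V U Y (L, t) p) ∂μ.prod volume := by
    simp only [hfe]
    refine setIntegral_mono_on ?_ ?_ measurableSet_closedBall fun p hp => ?_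
    · exact (continuous_const.mul hg).continuousOn.integrableOn_compact (isCompact_closedBall _ _)
    · exact ((continuous_const.mul ((contDiff_jac e).continuous.comp
        (hs.continuous_fderiv (by simp))).abs).mul hg).continuousOn.integrableOn_compact
        (isCompact_closedBall _ _)
    · refine mul_le_mul_of_nonneg_right ?_ (hf0 _)
      have := (hj p hp).1.trans (le_abs_self _)
      nlinarith
  rw [← closedBall_prod_same, setIntegral_prod_mul (fun _ : G => a / 2)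
    (fun y : Y => f (L y + t)), closedBall_prod_same, ← h1] at h3
  have h4 : {y : Y | ‖(y : E) - y₀‖ ≤ δ} = closedBall y₀ δ := by
    ext y; exact mem_closedBall_iff_norm.symm
  rw [h4, le_inv_mul_iff₀ (by positivity)]
  simp only [integral_const, smul_eq_mul, measureReal_restrict_apply_univ] at h3
  linarith

end Psi

end Vale.Agent.P353.ChartAux
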