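import Vale.Agent.P353.ChartAux

/-! Local charts: the chart as a local diffeomorphism, lower bound and exact formula. -/

noncomputable section

open MeasureTheory Filter Topology Set Metric
open scoped ContDiff

namespace Vale.Agent.P353.ChartAux

variable {G E : Type} [NormedAddCommGroup G] [NormedSpace ℝ G] [FiniteDimensional ℝ G]
  [NormedAddCommGroup E] [InnerProductSpace ℝ E] [FiniteDimensional ℝ E]
  {V : G →L[ℝ] E →L[ℝ] E} {U Y : Submodule ℝ E} {y₀ : Y}

/-- the chart as a local diffeomorphism -/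
structure IsChart (V : G →L[ℝ] E →L[ℝ] E) (U Y : Submodule ℝ E) (y₀ : Y) (δ : ℝ)
    (φ : OpenPartialHomeomorph (G × Y) U) : Prop where
  pos : 0 < δ
  coe : ∀ p, (φ p : E) = NormedSpace.exp (V p.1) p.2
  cont : Continuous φ
  source : φ.source = ball (0, y₀) δ
  symm : ∀ x ∈ φ.target, ContDiffAt ℝ ∞ φ.symm x

theorem Setup.chart_aux (h : Setup V U Y y₀) {e : (G × Y) ≃L[ℝ] U}
    (he : fderiv ℝ (Phi V U Y (1, 0)) (0, y₀) = e) :
    ∃ δ φ, IsChart V U Y y₀ δ φ ∧ (φ : G × Y → U) = Phi V U Y (1, 0) ∧ ∀ p ∈ φ.source,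
      1 / 2 ≤ jac e (fderiv ℝ (Phi V U Y (1, 0)) p) ∧
        jac e (fderiv ℝ (Phi V U Y (1, 0)) p) ≤ 2 := by
  obtain ⟨δ, hδ, hc⟩ := close e ((contDiff_Phi V U Y).of_le (by simp)) he
  have hs := contDiff_Psi V U Y (1, 0)
  have hd : HasFDerivAt (Phi V U Y (1, 0)) (e : G × Y →L[ℝ] U) (0, y₀) :=
    he ▸ (hs.differentiable (by simp) _).hasFDerivAt
  set φ₀ := hs.contDiffAt.toOpenPartialHomeomorph _ hd (by simp)
  obtain ⟨δ', hδ', hb⟩ := Metric.isOpen_iff.1 φ₀.open_source _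
    (hs.contDiffAt.mem_toOpenPartialHomeomorph_source hd (by simp))
  have hsrc : (φ₀.restrOpen (ball (0, y₀) (min δ δ')) isOpen_ball).source =
      ball (0, y₀) (min δ δ') := by
    rw [OpenPartialHomeomorph.restrOpen_source]
    exact inter_eq_right.2 ((ball_subset_ball (min_le_right _ _)).trans hb)
  have hj : ∀ p ∈ (φ₀.restrOpen (ball (0, y₀) (min δ δ')) isOpen_ball).source,
      1 / 2 ≤ jac e (fderiv ℝ (Phi V U Y (1, 0)) p) ∧
        jac e (fderiv ℝ (Phi V U Y (1, 0)) p) ≤ 2 := fun p hp => by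
    rw [hsrc] at hp
    have := (hc (1, 0) (by simpa using hδ.le)).2 p
      (ball_subset_closedBall (ball_subset_ball (min_le_left _ _) hp))
    exact ⟨this.1, this.2.1⟩
  refine ⟨min δ δ', φ₀.restrOpen (ball (0, y₀) (min δ δ')) isOpen_ball,
    ⟨lt_min hδ hδ', h.coe_Psi, hs.continuous, hsrc, fun x hx => ?_⟩, rfl, hj⟩
  have hp := OpenPartialHomeomorph.map_target _ hx
  obtain ⟨A, hA⟩ := exists_equiv_of_jac e (ne_of_gt (lt_of_lt_of_le (by norm_num) (hj _ hp).1))
  refine OpenPartialHomeomorph.contDiffAt_symm _ hx (f₀' := A) ?_ hs.contDiffAt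
  rw [hA]
  exact (hs.differentiable (by simp) _).hasFDerivAt

theorem Setup.chart (h : Setup V U Y y₀) : ∃ δ φ, IsChart V U Y y₀ δ φ := by
  obtain ⟨e, he⟩ := h.equiv
  obtain ⟨δ, φ, hφ, -⟩ := h.chart_aux he
  exact ⟨δ, φ, hφ⟩

variable [MeasurableSpace E] [BorelSpace E]

theorem Setup.chart_cov (h : Setup V U Y y₀) [MeasurableSpace G] [BorelSpace G] (μ : Measure G)
    [μ.IsAddHaarMeasure] : ∃ δ φ, IsChart V U Y y₀ δ φ ∧ ∃ J : G × Y → ℝ, ContDiff ℝ ∞ J ∧
      (∀ p ∈ φ.source, 0 < J p) ∧ (∃ K, ∀ p ∈ φ.source, J p ≤ K) ∧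
        ∀ S ⊆ φ.source, MeasurableSet S → ∀ f : U → ℝ,
          ∫ x in φ '' S, f x = ∫ p in S, J p * f (φ p) ∂μ.prod volume := by
  obtain ⟨e, he⟩ := h.equiv
  obtain ⟨δ, φ, hφ, hφe, hj⟩ := h.chart_aux he
  obtain ⟨a, ha, hcov⟩ := cov (μ.prod (volume : Measure Y)) (volume : Measure U) e
  have hs := contDiff_Psi V U Y (1, 0)
  refine ⟨δ, φ, hφ, fun p => a * jac e (fderiv ℝ (Phi V U Y (1, 0)) p), ?_, fun p hp => ?_,
    ⟨a * 2, fun p hp => ?_⟩, fun S hS hSm f => ?_⟩
  · exact contDiff_const.mul ((contDiff_jac e).comp (hs.fderiv_right (by simp)))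
  · exact mul_pos ha (lt_of_lt_of_le (by norm_num) (hj p hp).1)
  · exact mul_le_mul_of_nonneg_left (hj p hp).2 ha.le
  · rw [hcov φ S hSm (fun p _ => hφe ▸ hs.differentiable (by simp) p) (φ.injOn.mono hS) f]
    refine setIntegral_congr_fun hSm fun p hp => ?_
    simp only [hφe]
    rw [abs_of_pos (lt_of_lt_of_le (by norm_num) (hj p (hS hp)).1)]

theorem Setup.low (h : Setup V U Y y₀) {r : ℝ} (hr : 0 < r) : ∃ r' > 0, ∃ K : ℝ, 0 ≤ K ∧
    ∀ f : E → ℝ, Continuous f → (∀ x, 0 ≤ f x) →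
      (∀ ξ, ∀ x ∈ U, f (NormedSpace.exp (V ξ) x) = f x) → Integrable (fun x : U => f x) →
        ∫ x in {x : U | ‖(x : E) - y₀‖ < r'}, f x ≤
          K * ∫ y in {y : Y | ‖(y : E) - y₀‖ < r}, f y := by
  borelize G
  set μ : Measure G := Measure.addHaar
  obtain ⟨δ, φ, hφ, J, hJ, hJ0, ⟨K, hK⟩, hcov⟩ := h.chart_cov μ
  have hρ : 0 < min r δ := lt_min hr hφ.pos
  have hS : ball ((0 : G), y₀) (min r δ) ⊆ φ.source :=
    hφ.source ▸ ball_subset_ball (min_le_right _ _)
  have hK0 : 0 ≤ K := (hJ0 _ (hS (mem_ball_self hρ))).le.trans (hK _ (hS (mem_ball_self hρ)))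
  obtain ⟨r', hr', hb⟩ := Metric.isOpen_iff.1 (φ.isOpen_image_of_subset_source isOpen_ball hS)
    _ (mem_image_of_mem φ (mem_ball_self hρ))
  have h0 : (φ (0, y₀) : E) = y₀ := by rw [hφ.coe]; simp
  refine ⟨r', hr', K * μ.real (ball 0 (min r δ)), by positivity, fun f hf hf0 hi hI => ?_⟩
  have h1 : ∫ x in {x : U | ‖(x : E) - y₀‖ < r'}, f x ≤
      ∫ x in φ '' ball (0, y₀) (min r δ), f x := by
    refine setIntegral_mono_set hI.integrableOn (Eventually.of_forall fun x => hf0 x)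
      (LE.le.eventuallyLE fun x hx => hb ?_)
    rw [mem_ball_iff_norm, Submodule.coe_norm, Submodule.coe_sub, h0]
    exact hx
  have hfe : ∀ p : G × Y, f (φ p) = f p.2 := fun p => by rw [hφ.coe, hi _ _ (h.le p.2.2)]
  have hg : Continuous fun p : G × Y => f p.2 := by fun_prop
  have h2 : ∫ p in ball ((0 : G), y₀) (min r δ), J p * f (φ p) ∂μ.prod volume ≤
      ∫ p in ball ((0 : G), y₀) (min r δ), K * f p.2 ∂μ.prod volume := by
    simp only [hfe]
    refine setIntegral_mono_on ?_ ?_ measurableSet_ball fun p hp =>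
      mul_le_mul_of_nonneg_right (hK p (hS hp)) (hf0 _)
    · exact ((hJ.continuous.mul hg).continuousOn.integrableOn_compact
        (isCompact_closedBall _ _)).mono_set ball_subset_closedBall
    · exact ((continuous_const.mul hg).continuousOn.integrableOn_compact
        (isCompact_closedBall _ _)).mono_set ball_subset_closedBall
  rw [← hcov _ hS measurableSet_ball fun x => f x] at h2
  conv_rhs at h2 => rw [← ball_prod_same, setIntegral_prod_mul (fun _ : G => K) fun y : Y => f y]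
  simp only [integral_const, smul_eq_mul, measureReal_restrict_apply_univ] at h2
  have h4 : {y : Y | ‖(y : E) - y₀‖ < r} = ball y₀ r := by
    ext y; exact mem_ball_iff_norm.symm
  have h3 : ∫ y in ball y₀ (min r δ), f y ≤ ∫ y in ball y₀ r, f y :=
    setIntegral_mono_set (((hf.comp continuous_subtype_val).continuousOn.integrableOn_compact
      (isCompact_closedBall _ _)).mono_set ball_subset_closedBall)
      (Eventually.of_forall fun x => hf0 x)
      (LE.le.eventuallyLE (ball_subset_ball (min_le_left _ _)))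
  rw [h4]
  refine h1.trans (h2.trans ?_)
  rw [mul_comm K]
  exact mul_le_mul_of_nonneg_left h3 (by positivity)

theorem exists_bump [MeasurableSpace G] [BorelSpace G] (μ : Measure G) [μ.IsAddHaarMeasure]
    {r : ℝ} (hr : 0 < r) : ∃ b : G → ℝ, ContDiff ℝ ∞ b ∧ (∀ ξ, r ≤ ‖ξ‖ → b ξ = 0) ∧
      ∫ ξ, b ξ ^ 2 ∂μ = 1 := by
  let β : ContDiffBump (0 : G) := ⟨r / 2, r, half_pos hr, half_lt_self hr⟩
  have hI : 0 < ∫ ξ, β ξ ^ 2 ∂μ := by
    refine Continuous.integral_pos_of_hasCompactSupport_nonneg_nonzero (x := 0)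
      (β.continuous.pow 2) ?_ (fun _ => sq_nonneg _) ?_
    · exact β.hasCompactSupport.comp_left (g := fun t : ℝ => t ^ 2) (by simp)
    · rw [β.one_of_mem_closedBall (mem_closedBall_self β.rIn_pos.le)]; simp
  refine ⟨fun ξ => β ξ / √(∫ ξ, β ξ ^ 2 ∂μ), β.contDiff.div_const _, fun ξ hξ => ?_, ?_⟩
  · simp only
    rw [β.zero_of_le_dist (by simpa using hξ), zero_div]
  · simp only [div_pow, Real.sq_sqrt hI.le, integral_div, div_self hI.ne']

omit [MeasurableSpace E] [BorelSpace E] in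
theorem ambient {χ₀ : U → ℝ} (hs : ContDiff ℝ ∞ χ₀) (hc : HasCompactSupport χ₀) :
    ∃ χ : E → ℝ, ContDiff ℝ ∞ χ ∧ HasCompactSupport χ ∧ ∀ x : U, χ x = χ₀ x := by
  let β : ContDiffBump (0 : E) := ⟨1, 2, one_pos, one_lt_two⟩
  obtain ⟨R, hR⟩ := hc.isCompact.isBounded.exists_norm_le
  refine ⟨fun x => χ₀ (U.orthogonalProjectionOnto x) * β (x - U.starProjection x),
    (hs.comp U.orthogonalProjectionOnto.contDiff).mul
      (β.contDiff.comp (contDiff_id.sub U.starProjection.contDiff)), ?_, fun x => ?_⟩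
  · refine HasCompactSupport.intro (isCompact_closedBall (0 : E) (R + 2)) fun x hx => ?_
    by_contra hne
    obtain ⟨h1, h2⟩ := mul_ne_zero_iff.1 hne
    have h3 : ‖U.starProjection x‖ ≤ R := hR _ (subset_tsupport _ h1)
    have h4 : ‖x - U.starProjection x‖ < 2 := by
      have : x - U.starProjection x ∈ Function.support β := h2
      rw [β.support_eq] at this
      simpa using this
    refine hx (mem_closedBall_zero_iff.2 ?_)
    have := norm_add_le (U.starProjection x) (x - U.starProjection x)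
    rw [add_sub_cancel] at this
    linarith
  · simp only [Submodule.starProjection_eq_self_iff.2 x.2, sub_self,
      β.one_of_mem_closedBall (mem_closedBall_self β.rIn_pos.le), mul_one]
    congr 1
    exact Subtype.ext (Submodule.starProjection_eq_self_iff.2 x.2)

theorem Setup.exact (h : Setup V U Y y₀) : ∃ r > 0, ∀ b : E → ℝ, ContDiff ℝ ∞ b →
    (∀ y ∈ Y, r ≤ ‖y - y₀‖ → b y = 0) → ∃ χ : E → ℝ, ContDiff ℝ ∞ χ ∧ HasCompactSupport χ ∧
      ∀ f : E → ℝ, (∀ ξ, ∀ x ∈ U, f (NormedSpace.exp (V ξ) x) = f x) →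
        ∫ x : U, χ x ^ 2 * f x = ∫ y : Y, b y ^ 2 * f y := by
  borelize G
  set μ : Measure G := Measure.addHaar
  obtain ⟨δ, φ, hφ, J, hJ, hJ0, -, hcov⟩ := h.chart_cov μ
  have hδ := half_pos hφ.pos
  obtain ⟨b₁, hb₁, hb₁0, hb₁1⟩ := exists_bump μ hδ
  refine ⟨δ / 2, hδ, fun b hb hb0 => ?_⟩
  have hK : closedBall ((0 : G), y₀) (δ / 2) ⊆ φ.source :=
    hφ.source ▸ closedBall_subset_ball (half_lt_self hφ.pos)
  have hz : ∀ p : G × Y, p ∉ closedBall ((0 : G), y₀) (δ / 2) → b₁ p.1 * b p.2 = 0 := by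
    intro p hp
    rw [← closedBall_prod_same, mem_prod, not_and_or, mem_closedBall_zero_iff,
      mem_closedBall_iff_norm, not_le, not_le] at hp
    rcases hp with hp | hp
    · rw [hb₁0 _ hp.le, zero_mul]
    · rw [hb0 _ p.2.2 hp.le, mul_zero]
  set w : G × Y → ℝ := fun p => b₁ p.1 * b p.2 / √(J p) with hw
  set χ₀ : U → ℝ := φ.target.indicator (w ∘ φ.symm) with hχ₀
  have hKc : IsCompact (φ '' closedBall ((0 : G), y₀) (δ / 2)) :=
    (isCompact_closedBall _ _).image hφ.cont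
  have hz' : ∀ x, x ∉ φ '' closedBall ((0 : G), y₀) (δ / 2) → χ₀ x = 0 := by
    intro x hx
    by_cases hxt : x ∈ φ.target
    · rw [hχ₀, indicator_of_mem hxt, Function.comp_apply, hw]
      simp only
      rw [hz _ fun hm => hx ⟨_, hm, φ.right_inv hxt⟩, zero_div]
    · exact indicator_of_notMem hxt _
  have hs : ContDiff ℝ ∞ χ₀ := by
    refine contDiff_iff_contDiffAt.2 fun x => ?_
    by_cases hxt : x ∈ φ.target
    · have h1 : ContDiffAt ℝ ∞ w (φ.symm x) := by
        have h2 := hJ0 _ (φ.map_target hxt)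
        exact ((hb₁.comp contDiff_fst).mul (hb.comp (Y.subtypeL.contDiff.comp
          contDiff_snd))).contDiffAt.div (hJ.contDiffAt.sqrt h2.ne') (Real.sqrt_pos.2 h2).ne'
      refine (h1.comp x (hφ.symm x hxt)).congr_of_eventuallyEq ?_
      filter_upwards [φ.open_target.mem_nhds hxt] with z hz using indicator_of_mem hz _
    · have h1 : x ∉ φ '' closedBall ((0 : G), y₀) (δ / 2) := by
        rintro ⟨p, hp, rfl⟩
        exact hxt (φ.map_source (hK hp))
      refine (contDiffAt_const (c := 0)).congr_of_eventuallyEq ?_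
      filter_upwards [hKc.isClosed.isOpen_compl.mem_nhds h1] with z hz using hz' z hz
  obtain ⟨χ, hχ, hχc, hχe⟩ := ambient hs (HasCompactSupport.intro hKc hz')
  refine ⟨χ, hχ, hχc, fun f hi => ?_⟩
  have hfe : ∀ p : G × Y, f (φ p) = f p.2 := fun p => by rw [hφ.coe, hi _ _ (h.le p.2.2)]
  simp only [hχe]
  rw [← setIntegral_eq_integral_of_forall_compl_eq_zero (s := φ.target) fun x hx => by
      rw [hχ₀, indicator_of_notMem hx]; simp,
    ← φ.image_source_eq_target, hcov _ subset_rfl φ.open_source.measurableSet,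
    setIntegral_congr_fun (g := fun p : G × Y => b₁ p.1 ^ 2 * (b p.2 ^ 2 * f p.2))
      φ.open_source.measurableSet fun p hp => ?_,
    setIntegral_eq_integral_of_forall_compl_eq_zero fun p hp => ?_,
    integral_prod_mul (fun ξ => b₁ ξ ^ 2) fun y : Y => b y ^ 2 * f y, hb₁1, one_mul]
  · rw [← mul_assoc, ← mul_pow, hz p fun hm => hp (hK hm)]
    simp
  · have h2 := hJ0 p hp
    simp only [hfe]
    rw [hχ₀, indicator_of_mem (φ.map_source hp), Function.comp_apply, φ.left_inv hp, hw]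
    simp only [div_pow, Real.sq_sqrt h2.le]
    field_simp

end Vale.Agent.P353.ChartAux
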