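import Vale.Agent.P353.Stmts
import Vale.Agent.P353.ChartAuxB

/-! Local charts: the concrete setting. -/

noncomputable section

open MeasureTheory Filter Topology Complex Matrix
open scoped ContDiff RealInnerProductSpace

namespace Vale.Agent.P353.ChartAux

variable {N d : ℕ} {F : Type} [NormedAddCommGroup F] [InnerProductSpace ℂ F]
  [FiniteDimensional ℂ F] (c : Ctx N d F) {π : Setoid (Fin N)} {𝔞 𝔪 : Submodule ℝ (Lg d)}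
  {Y : Submodule ℝ (Tn 9 d)} {y₀ : Tn 9 d}

theorem exists_u {ξ : Lg d} (hξ : ξ ∈ c.blk π) : ∃ u ∈ Grp π,
    c.Ad9 u = NormedSpace.exp (c.vf ξ) ∧ c.U u = NormedSpace.exp (c.Gs ξ) := by
  obtain ⟨u, hu⟩ := c.exists_exp ξ 0
  exact ⟨u, c.exp_mem_Grp hξ hu, by rw [Ctx.Ad9, Ctx.vf, exp_kr_one, c.Ad_exp hu],
    c.Uexp ξ 0 u hu⟩

theorem setup (h : c.Trans π 𝔞 𝔪 Y y₀) : ∃ V : 𝔪 →L[ℝ] Tn 9 d →L[ℝ] Tn 9 d,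
    (∀ ξ, V ξ = c.vf ξ) ∧ Setup V (sub 9 𝔞) Y ⟨y₀, h.2.2.2.1⟩ := by
  obtain ⟨L, hL⟩ := c.exists_vfL
  refine ⟨L ∘L 𝔪.subtypeL, fun ξ => hL ξ, h.2.2.1, fun ξ x hx => ?_, fun ξ x hx => ?_,
    h.2.2.2.2.1, fun ξ hξ => ?_⟩
  · obtain ⟨u, hu, h1, -⟩ := exists_u c (h.2.1 ξ.2)
    rw [show (L ∘L 𝔪.subtypeL) ξ = c.vf ξ from hL ξ, ← h1]
    exact Ctx.Th.Ad9_mem c h.1 hu hx
  · rw [show (L ∘L 𝔪.subtypeL) ξ = c.vf ξ from hL ξ]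
    exact Ctx.Th.vf_mem c h.1 (h.2.1 ξ.2) hx
  · rw [show (L ∘L 𝔪.subtypeL) ξ = c.vf ξ from hL ξ] at hξ
    exact Subtype.ext (h.2.2.2.2.2 ξ ξ.2 hξ)

theorem inv_exp (h : 𝔪 ≤ c.blk π) {V : 𝔪 →L[ℝ] Tn 9 d →L[ℝ] Tn 9 d} (hV : ∀ ξ, V ξ = c.vf ξ)
    {U : Submodule ℝ (Tn 9 d)} {f : Tn 9 d → ℝ} (hf : c.InvR π U f) (ξ : 𝔪) (x : Tn 9 d)
    (hx : x ∈ U) : f (NormedSpace.exp (V ξ) x) = f x := by
  obtain ⟨u, hu, h1, -⟩ := exists_u c (h ξ.2)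
  rw [hV, ← h1, hf u hu x hx]

theorem dens_integrable {f : Tn 9 d → ℝ} (hf : c.Dens π 𝔞 f) :
    Integrable fun x : sub 9 𝔞 => f x :=
  (hf.1.comp continuous_subtype_val).integrable_of_hasCompactSupport hf.2.2.2

end Vale.Agent.P353.ChartAux
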