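import Vale.Agent.P353.Stmts
import Vale.Agent.P353.ChartAuxC

/-! Local charts: comparison of integrals. -/

noncomputable section

open MeasureTheory Filter Topology Complex Matrix
open scoped ContDiff RealInnerProductSpace

namespace Vale.Agent.P353

namespace Ctx

variable {N d : ℕ} {F : Type} [NormedAddCommGroup F] [InnerProductSpace ℂ F]
  [FiniteDimensional ℂ F] (c : Ctx N d F)

theorem p_charta : c.S_charta := by
  refine ⟨fun π 𝔞 𝔪 Y y₀ h => ?_, fun π 𝔞 𝔪 Y y₀ h r hr => ?_⟩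
  · obtain ⟨V, hV, hS⟩ := ChartAux.setup c h
    obtain ⟨δ, hδ, K, hK⟩ := hS.up
    exact ⟨δ, hδ, K, fun L hL hLU t ht htδ f hf => hK L hL hLU t ht htδ f hf.1 hf.2.1
      (ChartAux.inv_exp c h.2.1 hV hf.2.2.1) (ChartAux.dens_integrable c hf)⟩
  · obtain ⟨V, hV, hS⟩ := ChartAux.setup c h
    obtain ⟨r', hr', K, -, hK⟩ := hS.low hr
    exact ⟨r', hr', K, fun f hf => hK f hf.1 hf.2.1
      (ChartAux.inv_exp c h.2.1 hV hf.2.2.1) (ChartAux.dens_integrable c hf)⟩

end Ctx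

end Vale.Agent.P353
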