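import Vale.Agent.P353.Stmts
import Vale.Agent.P353.ChartAuxC

/-! Local charts: exact formula. -/

noncomputable section

open MeasureTheory Filter Topology Complex Matrix
open scoped ContDiff RealInnerProductSpace

namespace Vale.Agent.P353

namespace Ctx

variable {N d : ℕ} {F : Type} [NormedAddCommGroup F] [InnerProductSpace ℂ F]
  [FiniteDimensional ℂ F] (c : Ctx N d F)

theorem p_chartb : c.S_chartb := by
  refine ⟨fun π 𝔞 𝔪 Y y₀ h => ?_⟩
  obtain ⟨V, hV, hS⟩ := ChartAux.setup c h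
  obtain ⟨r, hr, hK⟩ := hS.exact
  refine ⟨r, hr, fun b hb hb0 => ?_⟩
  obtain ⟨χ, h1, h2, h3⟩ := hK b hb hb0
  exact ⟨χ, h1, h2, fun f _ hf => h3 f (ChartAux.inv_exp c h.2.1 hV hf)⟩

end Ctx

end Vale.Agent.P353
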