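import Vale.Agent.P353.Stmts

/-! Constancy of the number of zero modes. -/

noncomputable section

open MeasureTheory Filter Topology Complex Matrix
open scoped ContDiff RealInnerProductSpace

namespace Vale.Agent.P353

namespace ConstAux

variable {N d : ℕ} {F : Type} [NormedAddCommGroup F] [InnerProductSpace ℂ F]
  [FiniteDimensional ℂ F] (c : Ctx N d F)

omit [InnerProductSpace ℂ F] [FiniteDimensional ℂ F] in
theorem wnrm_nonneg {U : Submodule ℝ (Tn 9 d)} {w : Tn 9 d → ℝ} (hw : ∀ x, 0 ≤ w x)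
    (ψ : Tn 9 d → F) : 0 ≤ wnrm U w ψ :=
  integral_nonneg fun x => mul_nonneg (hw x) (sq_nonneg _)

theorem En_g_le (𝔞 : Submodule ℝ (Lg d)) (g g' m : ℝ) {ψ : Tn 9 d → F} (hψ : Sm (sub 9 𝔞) ψ) :
    c.En 𝔞 g' m ψ ≤ 2 * c.En 𝔞 g m ψ + 8 * (g' - g) ^ 2 * wnrm (sub 9 𝔞) c.Fsq ψ := by
  have e1 : ∀ e, c.Q 𝔞 g' m e ψ =
      c.Q 𝔞 g m e ψ + fun x => ((g' - g : ℝ) : ℂ) • c.θ (c.Phi e x) (ψ x) := fun e => by
    funext x
    simp only [Ctx.Q, dop, Ctx.beta, map_add, theta_smul, _root_.add_apply, _root_.smul_apply,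
      Pi.add_apply]
    push_cast
    module
  have i1 : ∀ e, Integrable fun x : sub 9 𝔞 => ‖c.Phi e x‖ ^ 2 * ‖ψ x‖ ^ 2 := fun e =>
    hψ.integrable_wnrm (w := fun x => ‖c.Phi e x‖ ^ 2)
      ((c.contDiff_Phi e).continuous.norm.pow 2).continuousOn
  have e2 : ∀ e, nrm (sub 9 𝔞) (c.Q 𝔞 g' m e ψ) ≤ 2 * nrm (sub 9 𝔞) (c.Q 𝔞 g m e ψ) +
      (g' - g) ^ 2 * ∫ x : sub 9 𝔞, ‖c.Phi e x‖ ^ 2 * ‖ψ x‖ ^ 2 := fun e => by
    have s1 := ((hψ.clm (a := fun x => c.θ (c.Phi e x))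
      (c.θ.contDiff.comp (c.contDiff_Phi e))).smul ((g' - g : ℝ) : ℂ)).memLp
    rw [e1]
    refine (nrm_add_le (hψ.dop 1 _ (c.contDiff_beta g m e)).memLp s1).trans (le_of_eq ?_)
    refine congrArg _ ?_
    rw [nrm, ← integral_const_mul, ← integral_const_mul]
    refine congrArg _ (funext fun x => ?_)
    rw [Pi.smul_apply, norm_smul, mul_pow, c.car.norm_sq, Complex.norm_real, Real.norm_eq_abs,
      sq_abs]
    ring
  have e3 : ∑ α, ∫ x : sub 9 𝔞, ‖c.Phi (eb α) x‖ ^ 2 * ‖ψ x‖ ^ 2 =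
      8 * wnrm (sub 9 𝔞) c.Fsq ψ := by
    rw [← integral_finsetSum _ fun α _ => i1 _, wnrm, ← integral_const_mul]
    refine congrArg _ (funext fun x => ?_)
    rw [← Finset.sum_mul, c.sum_Phi_sq, mul_assoc]
  have e4 := Finset.sum_le_sum fun α (_ : α ∈ Finset.univ) => e2 (eb α)
  rw [Finset.sum_add_distrib, ← Finset.mul_sum, ← Finset.mul_sum, e3] at e4
  change ∑ α, nrm (sub 9 𝔞) (c.Q 𝔞 g' m (eb α) ψ) ≤
    2 * ∑ α, nrm (sub 9 𝔞) (c.Q 𝔞 g m (eb α) ψ) + _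
  linarith

theorem arith {m₀ K K' x y a e ε E E₁ E₂ n gr wF w₂ : ℝ} (hm : 0 < m₀) (hK0 : 0 < K')
    (hK : K ≤ K') (d1 : x ^ 2 ≤ m₀ / (512 * K')) (d2 : y ^ 2 ≤ m₀ / (512 * K')) (ha : 0 ≤ a)
    (e0 : 0 < e) (e1 : e ≤ 1) (e2 : e * (6 + m₀ * (a + 1)) ≤ ε) (h4 : E ≤ e)
    (a1 : E₂ ≤ 2 * E₁ + 64 * y ^ 2 * w₂) (a2 : E₁ ≤ 2 * E + 8 * x ^ 2 * wF)
    (a3 : gr + wF + w₂ ≤ K * (n + E)) (a4 : 0 ≤ gr) (a5 : 0 ≤ wF) (a6 : 0 ≤ w₂)
    (a7 : n ≤ (a + e) ^ 2) (a8 : 0 ≤ n + E) : E₂ ≤ m₀ / 2 * a ^ 2 + ε := by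
  have b1 : K * (n + E) ≤ K' * ((a + e) ^ 2 + e) := mul_le_mul hK (add_le_add a7 h4) a8 hK0.le
  have b2 := mul_le_mul d1 (show wF ≤ K' * ((a + e) ^ 2 + e) by linarith) a5 (by positivity)
  have b3 := mul_le_mul d2 (show w₂ ≤ K' * ((a + e) ^ 2 + e) by linarith) a6 (by positivity)
  have b4 : m₀ / (512 * K') * (K' * ((a + e) ^ 2 + e)) = m₀ * ((a + e) ^ 2 + e) / 512 := by
    field_simp
  rw [b4] at b2 b3
  have b5 : (a + e) ^ 2 + e ≤ a ^ 2 + 2 * e * (a + 1) := by nlinarith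
  have b6 := mul_le_mul_of_nonneg_left b5 hm.le
  have b7 : 0 ≤ m₀ * a ^ 2 := by positivity
  have b8 : 0 ≤ e * (m₀ * (a + 1)) := by positivity
  linarith

theorem loc (h_my1 : c.S_my1) (h_spec : c.S_spec) (π : Setoid (Fin N)) {g₀ g₁ m₀ m₁ : ℝ}
    (hg : 0 < g₀) (hm : 0 < m₀) : ∃ δ > 0, ∀ g ∈ Set.Icc g₀ g₁, ∀ m ∈ Set.Icc m₀ m₁,
      ∀ g' ∈ Set.Icc g₀ g₁, ∀ m' ∈ Set.Icc m₀ m₁, |g' - g| ≤ δ → |m' - m| ≤ δ →
        Module.finrank ℂ (c.V π g m) ≤ Module.finrank ℂ (c.V π g' m') := by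
  obtain ⟨K, hK⟩ := h_my1 g₀ g₁ m₀ m₁ hg hm
  obtain ⟨K', hK0, hK'⟩ : ∃ K', 0 < K' ∧ K ≤ K' :=
    ⟨|K| + 1, by positivity, by linarith [le_abs_self K]⟩
  refine ⟨√(m₀ / (512 * K')), by positivity, fun g hg1 m hm1 g' hg2 m' hm2 h1 h2 => ?_⟩
  have hδ : √(m₀ / (512 * K')) ^ 2 = m₀ / (512 * K') := Real.sq_sqrt (by positivity)
  have d1 : (g' - g) ^ 2 ≤ m₀ / (512 * K') := by
    rw [← hδ, ← sq_abs]
    exact pow_le_pow_left₀ (abs_nonneg _) h1 2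
  have d2 : (m' - m) ^ 2 ≤ m₀ / (512 * K') := by
    rw [← hδ, ← sq_abs]
    exact pow_le_pow_left₀ (abs_nonneg _) h2 2
  have hg' := hg.trans_le hg2.1
  have hm' := hm.trans_le hm2.1
  have : FiniteDimensional ℂ (Ker c.θ (sub 9 (c.ss π)) (c.C0 π) 1 (fun α => c.sE (eb α))
    fun α => c.beta g' m' (eb α)) := h_spec.fin π g' m' hg' hm'
  refine (finrank_le_of_gap (fun α => c.contDiff_beta g' m' (eb α)) hm'
    (h_spec.gap π g' m' hg' hm') (t := m₀ / 2) (by linarith [hm2.1]) fun w hw ε hε => ?_).2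
  have hc : 0 < 6 + m₀ * (‖w‖ + 1) := by positivity
  obtain ⟨e, e0, e1, e2⟩ : ∃ e, 0 < e ∧ e ≤ 1 ∧ e * (6 + m₀ * (‖w‖ + 1)) ≤ ε :=
    ⟨min 1 (ε / (6 + m₀ * (‖w‖ + 1))), by positivity, min_le_left _ _,
      (le_div_iff₀ hc).1 (min_le_right _ _)⟩
  obtain ⟨φ, hφ, h3, h4⟩ := (mem_Ker_iff fun α => c.contDiff_beta g m (eb α)).1 hw e e0
  have e3 : 0 ≤ e * (m₀ * (‖w‖ + 1)) := by positivity
  refine ⟨φ, hφ, h3.trans (by linarith), ?_⟩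
  have a7 : nrm (sub 9 (c.ss π)) φ ≤ (‖w‖ + e) ^ 2 := by
    rw [← norm_L2_sq hφ.1.memLp]
    refine pow_le_pow_left₀ (norm_nonneg _) ?_ 2
    have := norm_sub_norm_le (L2 (sub 9 (c.ss π)) φ) w
    linarith
  exact arith hm hK0 hK' d1 d2 (norm_nonneg w) e0 e1 e2 h4 (c.En_mass_le (c.ss π) g' m m' hφ.1)
    (En_g_le c (c.ss π) g g' m hφ.1) (hK π _ (c.Th_ss π) g hg1 m hm1 φ hφ.1) (grad_nonneg _ φ)
    (wnrm_nonneg c.Fsq_nonneg φ) (wnrm_nonneg (fun x => sq_nonneg ‖x‖) φ) a7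
    (add_nonneg (nrm_nonneg _ _) (en_nonneg _ _ _ _))

theorem near (h_spec : c.S_spec) (π : Setoid (Fin N))
    {w : LL (sub 9 (c.ss π)) F} (hw : w ∈ c.V π 1 0) {ε : ℝ} (hε : 0 < ε) :
    ∀ᶠ R : ℝ in atTop, ∃ u ∈ c.V π 1 (1 / R ^ 2), ‖u - w‖ < ε := by
  have he : 0 < min (ε / 4) (ε ^ 2 / 300) := by positivity
  filter_upwards [c.car.approx (fun α => c.contDiff_beta 1 0 (eb α)) (c.iso _ 1 0) (c.adm_C0 π) hw
    he, eventually_gt_atTop 0] with R hR h0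
  obtain ⟨φ, hφ, -, h1, h2, -, h3⟩ := hR
  have hm : 0 < 1 / R ^ 2 := by positivity
  obtain ⟨u, hu, h4⟩ := h_spec.gap π 1 _ one_pos hm φ hφ
  refine ⟨u, hu, ?_⟩
  set e := min (ε / 4) (ε ^ 2 / 300) with hee
  have e1 : e ≤ ε / 4 := min_le_left _ _
  have e2 : e ≤ ε ^ 2 / 300 := min_le_right _ _
  have a1 := c.En_mass_le (c.ss π) 1 0 (1 / R ^ 2) hφ.1
  change c.En (c.ss π) 1 0 φ ≤ _ at h2
  have a2 := mul_le_mul_of_nonneg_left h3 (sq_nonneg (1 / R ^ 2 - 0))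
  have a3 : (1 / R ^ 2 - 0) ^ 2 * (e * R ^ 2) = 1 / R ^ 2 * e := by
    field_simp
    ring
  have a4 : e / R ^ 2 = 1 / R ^ 2 * e := by ring
  have a5 : ‖L2 (sub 9 (c.ss π)) φ - u‖ ^ 2 ≤ 66 * e :=
    le_of_mul_le_mul_left (by linarith) hm
  have a6 : ‖L2 (sub 9 (c.ss π)) φ - u‖ ≤ ε / 2 :=
    (abs_le_of_sq_le_sq' (by nlinarith) (by positivity)).2
  have a7 := norm_sub_le_norm_sub_add_norm_sub u (L2 (sub 9 (c.ss π)) φ) w
  rw [norm_sub_rev u (L2 _ φ)] at a7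
  linarith

end ConstAux

namespace Ctx

variable {N d : ℕ} {F : Type} [NormedAddCommGroup F] [InnerProductSpace ℂ F]
  [FiniteDimensional ℂ F] (c : Ctx N d F)

theorem p_const (h_my1 : c.S_my1) (h_spec : c.S_spec) : c.S_const := by
  intro π g m g' m' hg hm hg' hm'
  obtain ⟨δ, hδ, h⟩ := ConstAux.loc c h_my1 h_spec π (g₁ := max g g') (m₁ := max m m')
    (lt_min hg hg') (lt_min hm hm')
  have hc : IsPreconnected (Set.Icc (min g g') (max g g') ×ˢ Set.Icc (min m m') (max m m')) :=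
    isPreconnected_Icc.prod isPreconnected_Icc
  refine hc.constant (f := fun p : ℝ × ℝ => Module.finrank ℂ (c.V π p.1 p.2)) (x := (g, m))
    (y := (g', m')) (fun p hp => ?_) ⟨⟨min_le_left _ _, le_max_left _ _⟩,
      min_le_left _ _, le_max_left _ _⟩ ⟨⟨min_le_right _ _, le_max_right _ _⟩,
      min_le_right _ _, le_max_right _ _⟩
  refine tendsto_const_nhds.congr' ?_
  filter_upwards [self_mem_nhdsWithin, nhdsWithin_le_nhds (Metric.closedBall_mem_nhds p hδ)]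
    with q hq hd
  have h1 : |q.1 - p.1| ≤ δ := (le_max_left _ _).trans hd
  have h2 : |q.2 - p.2| ≤ δ := (le_max_right _ _).trans hd
  exact le_antisymm (h _ hp.1 _ hp.2 _ hq.1 _ hq.2 h1 h2)
    (h _ hq.1 _ hq.2 _ hp.1 _ hp.2 (by rwa [abs_sub_comm]) (by rwa [abs_sub_comm]))

theorem p_fd (h_spec : c.S_spec) (h_const : c.S_const) : c.S_fd := by
  intro π
  have key : Module.rank ℂ (c.V π 1 0) ≤ Module.finrank ℂ (c.V π 1 1) := by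
    refine rank_le fun s hs => ?_
    have h1 : LinearIndependent ℂ fun i : s => ((i : c.V π 1 0) : LL (sub 9 (c.ss π)) F) :=
      hs.map' (c.V π 1 0).subtype (Submodule.ker_subtype _)
    obtain ⟨ε, hε, h2⟩ := Metric.isOpen_iff.1
      (isOpen_setOfPred_linearIndependent (𝕜 := ℂ) (E := LL (sub 9 (c.ss π)) F) (ι := s))
      (fun i : s => ((i : c.V π 1 0) : LL (sub 9 (c.ss π)) F)) h1
    obtain ⟨R, h3, h0⟩ := ((eventually_all.2 fun i : s =>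
      ConstAux.near c h_spec π (i : c.V π 1 0).2 hε).and (eventually_gt_atTop 0)).exists
    choose u hu h4 using h3
    have hm : 0 < 1 / R ^ 2 := by positivity
    have h5 : LinearIndependent ℂ u :=
      h2 ((dist_pi_lt_iff hε).2 fun i => by rw [dist_eq_norm]; exact h4 i)
    have h6 : LinearIndependent ℂ fun i : s => (⟨u i, hu i⟩ : c.V π 1 (1 / R ^ 2)) :=
      LinearIndependent.of_comp (c.V π 1 (1 / R ^ 2)).subtype h5
    have := h_spec.fin π 1 _ one_pos hm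
    have h7 := h6.fintype_card_le_finrank
    rwa [Fintype.card_coe, h_const π 1 _ 1 1 one_pos hm one_pos one_pos] at h7
  exact ⟨Module.rank_lt_aleph0_iff.1 (key.trans_lt (Cardinal.natCast_lt_aleph0)),
    Module.finrank_le_of_rank_le key⟩

end Ctx

end Vale.Agent.P353
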