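import Vale.Agent.P353.Ga1
import Vale.Agent.P353.Fub

/-! Cutoffs near subspaces of large codimension. -/

noncomputable section

open MeasureTheory Filter Topology Complex Matrix
open scoped ContDiff RealInnerProductSpace

namespace Vale.Agent.P353

variable {E : Type} [NormedAddCommGroup E] [InnerProductSpace ℝ E] [FiniteDimensional ℝ E]
  [MeasurableSpace E] [BorelSpace E]

namespace Cut6Aux

theorem vol_one {C K : Submodule ℝ E} (h : K ≤ C)
    (h6 : Module.finrank ℝ K + 6 ≤ Module.finrank ℝ C) (ρ : ℝ) :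
    ∃ V : ℝ, 0 ≤ V ∧ ∀ s, 0 ≤ s → s ≤ 1 →
      volume {x : C | ‖(x : E)‖ ≤ ρ ∧ ‖Kᗮ.starProjection (x : E)‖ ≤ s} ≤
        ENNReal.ofReal (V * s ^ 6) := by
  have ho : K ⟂ Kᗮ ⊓ C := (Submodule.isOrtho_orthogonal_right K).mono_right inf_le_left
  obtain ⟨e, he, hm, -⟩ := measurePreserving_sup ho
    (Submodule.sup_orthogonal_inf_of_hasOrthogonalProjection h)
  have hd := Submodule.finrank_add_inf_finrank_orthogonal h
  refine ⟨volume.real (Metric.closedBall (0 : K) ρ) * volume.real (Metric.ball (0 : ↥(Kᗮ ⊓ C)) 1),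
    by positivity, fun s hs0 hs1 => ?_⟩
  rw [← hm.measure_preimage_equiv]
  have hsub : e ⁻¹' {x : C | ‖(x : E)‖ ≤ ρ ∧ ‖Kᗮ.starProjection (x : E)‖ ≤ s} ⊆
      Metric.closedBall (0 : K) ρ ×ˢ Metric.closedBall (0 : ↥(Kᗮ ⊓ C)) s := by
    rintro ⟨a, b⟩ ⟨h1, h2⟩
    rw [he] at h1 h2
    have ha : Kᗮ.starProjection (a : E) = 0 :=
      (Submodule.starProjection_apply_eq_zero_iff _).2 (K.le_orthogonal_orthogonal a.2)
    have hb : Kᗮ.starProjection (b : E) = b := Submodule.starProjection_eq_self_iff.2 b.2.1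
    rw [map_add, ha, hb, zero_add] at h2
    refine ⟨mem_closedBall_zero_iff.2 (le_trans ?_ h1), mem_closedBall_zero_iff.2 h2⟩
    have h3 : ⟪(a : E), (b : E)⟫ = 0 := b.2.1 _ a.2
    have h4 := norm_add_sq_real (a : E) (b : E)
    refine (pow_le_pow_iff_left₀ (norm_nonneg _) (norm_nonneg _) two_ne_zero).1 ?_
    change ‖(a : E)‖ ^ 2 ≤ ‖(a : E) + b‖ ^ 2
    nlinarith [sq_nonneg ‖(b : E)‖]
  refine (measure_mono hsub).trans ?_
  rw [Measure.volume_eq_prod, Measure.prod_prod, Measure.addHaar_closedBall _ _ hs0]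
  have h5 : s ^ Module.finrank ℝ ↥(Kᗮ ⊓ C) ≤ s ^ 6 := pow_le_pow_of_le_one hs0 hs1 (by omega)
  rw [ENNReal.ofReal_mul (by positivity), ENNReal.ofReal_mul (by positivity),
    ofReal_measureReal (isCompact_closedBall _ _).measure_lt_top.ne,
    ofReal_measureReal measure_ball_lt_top.ne, mul_assoc, mul_comm (ENNReal.ofReal _)]
  gcongr

theorem vol_all {C : Submodule ℝ E} (𝒦 : Finset (Submodule ℝ E))
    (h𝒦 : ∀ K ∈ 𝒦, K ≤ C ∧ Module.finrank ℝ K + 6 ≤ Module.finrank ℝ C) (ρ : ℝ) :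
    ∃ V : ℝ, 0 ≤ V ∧ ∀ s, 0 ≤ s → s ≤ 1 →
      volume {x : C | ‖(x : E)‖ ≤ ρ ∧ ∃ K ∈ 𝒦, ‖Kᗮ.starProjection (x : E)‖ ≤ s} ≤
        ENNReal.ofReal (V * s ^ 6) := by
  classical
  induction 𝒦 using Finset.induction_on with
  | empty => exact ⟨0, le_rfl, fun s _ _ => by simp⟩
  | insert K 𝒦 _ ih =>
    obtain ⟨V, hV, h1⟩ := ih fun K' hK' => h𝒦 K' (Finset.mem_insert_of_mem hK')
    obtain ⟨W, hW, h2⟩ := vol_one (h𝒦 K (Finset.mem_insert_self _ _)).1
      (h𝒦 K (Finset.mem_insert_self _ _)).2 ρ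
    refine ⟨W + V, by positivity, fun s hs0 hs1 => ?_⟩
    have hsub : {x : C | ‖(x : E)‖ ≤ ρ ∧ ∃ K' ∈ insert K 𝒦, ‖K'ᗮ.starProjection (x : E)‖ ≤ s} ⊆
        {x : C | ‖(x : E)‖ ≤ ρ ∧ ‖Kᗮ.starProjection (x : E)‖ ≤ s} ∪
        {x : C | ‖(x : E)‖ ≤ ρ ∧ ∃ K ∈ 𝒦, ‖Kᗮ.starProjection (x : E)‖ ≤ s} := by
      rintro x ⟨hx, K', hK', hs⟩
      rcases Finset.mem_insert.1 hK' with rfl | hK'
      · exact Or.inl ⟨hx, hs⟩
      · exact Or.inr ⟨hx, K', hK', hs⟩
    refine (measure_mono hsub).trans ((measure_union_le _ _).trans ?_)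
    rw [add_mul, ENNReal.ofReal_add (by positivity) (by positivity)]
    exact add_le_add (h2 s hs0 hs1) (h1 s hs0 hs1)

omit [FiniteDimensional ℝ E] [MeasurableSpace E] [BorelSpace E] in
theorem norm_fderiv_mul_le {f g : E → ℝ} (hf : ContDiff ℝ ∞ f) (hg : ContDiff ℝ ∞ g)
    (hf1 : ∀ x, 0 ≤ f x ∧ f x ≤ 1) (hg1 : ∀ x, 0 ≤ g x ∧ g x ≤ 1) (x : E) :
    ‖fderiv ℝ (fun y => f y * g y) x‖ ≤ ‖fderiv ℝ f x‖ + ‖fderiv ℝ g x‖ := by
  rw [fderiv_fun_mul (hf.differentiable (by simp) x) (hg.differentiable (by simp) x), add_comm]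
  refine (norm_add_le _ _).trans (add_le_add ?_ ?_)
  · rw [norm_smul, Real.norm_eq_abs, abs_of_nonneg (hg1 x).1]
    exact mul_le_of_le_one_left (norm_nonneg _) (hg1 x).2
  · rw [norm_smul, Real.norm_eq_abs, abs_of_nonneg (hf1 x).1]
    exact mul_le_of_le_one_left (norm_nonneg _) (hf1 x).2

omit [MeasurableSpace E] [BorelSpace E] in
theorem exists_eta (𝒦 : Finset (Submodule ℝ E)) {b : E → ℝ} {δ L : ℝ} (hb : ContDiff ℝ ∞ b)
    (h01 : ∀ x, 0 ≤ b x ∧ b x ≤ 1) (h1 : ∀ x, ‖x‖ ≤ δ → b x = 1)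
    (h0 : ∀ x, 2 * δ ≤ ‖x‖ → b x = 0) (hL : ∀ x, ‖fderiv ℝ b x‖ ≤ L) :
    ∃ η : E → ℝ, ContDiff ℝ ∞ η ∧ (∀ x, 0 ≤ η x ∧ η x ≤ 1) ∧
      (∀ x, (∃ K ∈ 𝒦, ‖Kᗮ.starProjection x‖ ≤ δ) → η x = 0) ∧
      (∀ x, (∀ K ∈ 𝒦, 2 * δ ≤ ‖Kᗮ.starProjection x‖) → η x = 1) ∧
      ∀ x, ‖fderiv ℝ η x‖ ≤ 𝒦.card * L := by
  classical
  induction 𝒦 using Finset.induction_on with
  | empty => exact ⟨fun _ => 1, contDiff_const, by simp, by simp, by simp, by simp⟩
  | insert K 𝒦 hK ih =>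
    obtain ⟨η, e1, e2, e3, e4, e5⟩ := ih
    have hf : ContDiff ℝ ∞ fun x => 1 - b (Kᗮ.starProjection x) :=
      contDiff_const.sub (hb.comp Kᗮ.starProjection.contDiff)
    have hf1 : ∀ x, 0 ≤ 1 - b (Kᗮ.starProjection x) ∧ 1 - b (Kᗮ.starProjection x) ≤ 1 :=
      fun x => ⟨sub_nonneg.2 (h01 _).2, sub_le_self _ (h01 _).1⟩
    refine ⟨fun x => (1 - b (Kᗮ.starProjection x)) * η x, hf.mul e1,
      fun x => ⟨mul_nonneg (hf1 x).1 (e2 x).1, mul_le_one₀ (hf1 x).2 (e2 x).1 (e2 x).2⟩,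
      ?_, ?_, fun x => ?_⟩
    · rintro x ⟨K', hK', hx⟩
      rcases Finset.mem_insert.1 hK' with rfl | hK'
      · simp only [h1 _ hx, sub_self, zero_mul]
      · simp only [e3 x ⟨K', hK', hx⟩, mul_zero]
    · intro x hx
      simp only [h0 _ (hx K (Finset.mem_insert_self _ _)), sub_zero, one_mul,
        e4 x fun K' hK' => hx K' (Finset.mem_insert_of_mem hK')]
    · refine (norm_fderiv_mul_le hf e1 hf1 e2 x).trans ?_
      have h2 : HasFDerivAt (fun x => 1 - b (Kᗮ.starProjection x))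
          (-((fderiv ℝ b (Kᗮ.starProjection x)).comp Kᗮ.starProjection)) x :=
        ((hb.differentiable (by simp) _).hasFDerivAt.comp x
          Kᗮ.starProjection.hasFDerivAt).const_sub 1
      rw [h2.fderiv, norm_neg, Finset.card_insert_of_notMem hK]
      have h3 := (fderiv ℝ b (Kᗮ.starProjection x)).opNorm_comp_le Kᗮ.starProjection
      have h4 := mul_le_of_le_one_right (norm_nonneg (fderiv ℝ b (Kᗮ.starProjection x)))
        Kᗮ.starProjection_norm_le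
      have h5 := hL (Kᗮ.starProjection x)
      have h6 := e5 x
      push_cast
      linarith

omit [MeasurableSpace E] [BorelSpace E] in
theorem exists_dist (𝒦 : Finset (Submodule ℝ E)) {K₀ : Set E} (hK₀ : IsCompact K₀)
    (hd : ∀ x ∈ K₀, ∀ K ∈ 𝒦, x ∉ K) :
    ∃ d > 0, ∀ x ∈ K₀, ∀ K ∈ 𝒦, d ≤ ‖Kᗮ.starProjection x‖ := by
  classical
  induction 𝒦 using Finset.induction_on with
  | empty => exact ⟨1, one_pos, by simp⟩
  | insert K 𝒦 _ ih =>
    obtain ⟨d, hd0, h1⟩ := ih fun x hx K' hK' => hd x hx K' (Finset.mem_insert_of_mem hK')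
    obtain ⟨d', hd', h2⟩ := hK₀.exists_forall_le' (f := fun x => ‖Kᗮ.starProjection x‖)
      Kᗮ.starProjection.continuous.norm.continuousOn (a := 0) fun x hx => by
        refine norm_pos_iff.2 fun h => hd x hx K (Finset.mem_insert_self _ _) ?_
        have := (Submodule.starProjection_apply_eq_zero_iff _).1 h
        rwa [Submodule.orthogonal_orthogonal] at this
    refine ⟨min d d', lt_min hd0 hd', fun x hx K' hK' => ?_⟩
    rcases Finset.mem_insert.1 hK' with rfl | hK'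
    · exact (min_le_right _ _).trans (h2 x hx)
    · exact (min_le_left _ _).trans (h1 x hx K' hK')

theorem tail {C : Submodule ℝ E} {w : E → ℝ} (hi : Integrable fun x : C => w x) {ε : ℝ}
    (hε : 0 < ε) : ∀ᶠ n : ℕ in atTop, ∫ x in {x : C | (n : ℝ) < ‖(x : E)‖}, w x ≤ ε := by
  have h1 := tendsto_setIntegral_of_antitone (μ := (volume : Measure C)) (f := fun x : C => w x)
    (s := fun n : ℕ => {x : C | (n : ℝ) < ‖(x : E)‖})
    (fun n => (isOpen_lt continuous_const continuous_subtype_val.norm).measurableSet)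
    (fun a b hab x (hx : (b : ℝ) < _) => show (a : ℝ) < _ from
      lt_of_le_of_lt (Nat.cast_le.2 hab) hx) ⟨0, hi.integrableOn⟩
  have h2 : (⋂ n : ℕ, {x : C | (n : ℝ) < ‖(x : E)‖}) = ∅ := by
    refine Set.eq_empty_of_forall_notMem fun x hx => ?_
    obtain ⟨n, hn⟩ := exists_nat_gt ‖(x : E)‖
    exact lt_asymm hn (Set.mem_iInter.1 hx n)
  rw [h2, Measure.restrict_empty, integral_zero_measure] at h1
  exact h1.eventually (eventually_le_nhds hε)

theorem int_le {C : Submodule ℝ E} {f a : C → ℝ} {A : Set C} (hA : MeasurableSet A) {L v : ℝ}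
    (hL : 0 ≤ L) (hv : 0 ≤ v) (hvol : volume A ≤ ENNReal.ofReal v) (ha : Integrable a)
    (hf0 : ∀ x, 0 ≤ f x) (hf : ∀ x, f x ≤ a x + A.indicator (fun _ => L) x) :
    ∫ x, f x ≤ (∫ x, a x) + L * v := by
  have hfin : volume A ≠ ⊤ := ne_top_of_le_ne_top ENNReal.ofReal_ne_top hvol
  have hi : Integrable (A.indicator fun _ => L) :=
    (integrable_indicator_iff hA).2 (integrableOn_const hfin)
  refine (integral_mono_of_nonneg (Eventually.of_forall hf0) (ha.add hi)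
    (Eventually.of_forall hf)).trans ?_
  simp only [Pi.add_apply]
  rw [integral_add ha hi, integral_indicator_const _ hA, smul_eq_mul]
  have h1 : volume.real A ≤ v := ENNReal.toReal_le_of_le_ofReal hv hvol
  have h2 := mul_le_mul_of_nonneg_left h1 hL
  linarith

end Cut6Aux

open Cut6Aux in
theorem exists_cut {C : Submodule ℝ E} {𝒦 : Finset (Submodule ℝ E)}
    (h𝒦 : ∀ K ∈ 𝒦, K ≤ C ∧ Module.finrank ℝ K + 6 ≤ Module.finrank ℝ C) {K₀ : Set E}
    (hK₀ : IsCompact K₀) (hd : ∀ x ∈ K₀, ∀ K ∈ 𝒦, x ∉ K) {w : E → ℝ} {M : ℝ}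
    (hw : ∀ x, 0 ≤ w x ∧ w x ≤ M) (hi : Integrable fun x : C => w x) {ε : ℝ} (hε : 0 < ε) :
    ∃ χ : E → ℝ, SmR C χ {x | ∀ K ∈ 𝒦, x ∉ K} ∧ (∀ x, 0 ≤ χ x ∧ χ x ≤ 1) ∧ (∀ x ∈ K₀, χ x = 1) ∧
      ∫ x : C, w x * (1 - χ x) ^ 2 ≤ ε ∧ ∫ x : C, w x * ‖gU C χ x‖ ^ 2 ≤ ε := by
  obtain ⟨K₁, hK₁⟩ := exists_cutoff E
  have hK0 : 0 ≤ K₁ := by
    obtain ⟨χ, -, -, -, -, -, h⟩ := hK₁ 1 one_pos
    simpa using (norm_nonneg _).trans (h 0)
  have hM : 0 ≤ M := (hw 0).1.trans (hw 0).2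
  obtain ⟨d, hd0, hdK⟩ := exists_dist 𝒦 hK₀ hd
  obtain ⟨R₀, hR₀⟩ := hK₀.isBounded.exists_norm_le
  have hI : 0 ≤ ∫ x : C, w x := integral_nonneg fun x => (hw x).1
  obtain ⟨n, hn1, hn2⟩ := ((tail hi (half_pos hε)).and (tendsto_natCast_atTop_atTop.eventually
    (eventually_ge_atTop (max (max R₀ 1) (K₁ ^ 2 * (∫ x : C, w x) / (ε / 2)))))).exists
  generalize (n : ℝ) = R at hn1 hn2
  have hR1 : 1 ≤ R := ((le_max_right _ _).trans (le_max_left _ _)).trans hn2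
  have hR2 : R₀ ≤ R := ((le_max_left _ _).trans (le_max_left _ _)).trans hn2
  have hR3 : (K₁ / R) ^ 2 * ∫ x : C, w x ≤ ε / 2 := by
    have h1 := (div_le_iff₀ (half_pos hε)).1 ((le_max_right _ _).trans hn2)
    rw [div_pow, div_mul_eq_mul_div, div_le_iff₀ (by positivity)]
    have h2 : ε / 2 * R ≤ ε / 2 * R ^ 2 :=
      mul_le_mul_of_nonneg_left (by nlinarith) (half_pos hε).le
    linarith
  obtain ⟨V, hV, hvol⟩ := vol_all 𝒦 h𝒦 (2 * R)
  set T : ℝ := 64 * M * V * ((𝒦.card + 1) ^ 2 * K₁ ^ 2 + 1) with hT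
  have hT0 : 0 ≤ T := by positivity
  obtain ⟨δ, hδ0, hδ1, hδ2, hδ3⟩ : ∃ δ > 0, δ ≤ 1 / 2 ∧ 2 * δ ≤ d ∧ T * δ ≤ ε / 2 := by
    refine ⟨min (min (1 / 2) (d / 2)) (ε / 2 / (T + 1)), by positivity,
      (min_le_left _ _).trans (min_le_left _ _), ?_, ?_⟩
    · have : min (min (1 / 2) (d / 2)) (ε / 2 / (T + 1)) ≤ d / 2 :=
        (min_le_left _ _).trans (min_le_right _ _)
      linarith
    · calc _ ≤ (T + 1) * (ε / 2 / (T + 1)) :=
            mul_le_mul (by linarith) (min_le_right _ _) (by positivity) (by positivity)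
        _ = _ := by field_simp
  obtain ⟨c, c1, -, c2, c3, c4, c5⟩ := hK₁ R (by linarith)
  obtain ⟨b, b1, -, b2, b3, b4, b5⟩ := hK₁ δ hδ0
  obtain ⟨η, e1, e2, e3, e4, e5⟩ := exists_eta 𝒦 b1 b2 b3 b4 b5
  have hχ01 : ∀ x, 0 ≤ c x * η x ∧ c x * η x ≤ 1 := fun x =>
    ⟨mul_nonneg (c2 x).1 (e2 x).1, mul_le_one₀ (c2 x).2 (e2 x).1 (e2 x).2⟩
  set A : Set C := {x : C | ‖(x : E)‖ ≤ 2 * R ∧ ∃ K ∈ 𝒦, ‖Kᗮ.starProjection (x : E)‖ ≤ 2 * δ}
    with hAdef
  have hN : IsClosed {x : E | ∃ K ∈ 𝒦, ‖Kᗮ.starProjection x‖ ≤ 2 * δ} := by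
    have : {x : E | ∃ K ∈ 𝒦, ‖Kᗮ.starProjection x‖ ≤ 2 * δ} =
        ⋃ K ∈ 𝒦, {x : E | ‖Kᗮ.starProjection x‖ ≤ 2 * δ} := by
      ext x; simp
    rw [this]
    exact isClosed_biUnion_finset fun K _ =>
      isClosed_le Kᗮ.starProjection.continuous.norm continuous_const
  have hA : MeasurableSet A :=
    ((isClosed_le continuous_subtype_val.norm continuous_const).inter
      (hN.preimage continuous_subtype_val)).measurableSet
  have hAv := hvol (2 * δ) (by positivity) (by linarith)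
  have hδ4 : δ ^ 4 ≤ δ := by
    calc δ ^ 4 ≤ δ ^ 1 := pow_le_pow_of_le_one hδ0.le (by linarith) (by norm_num)
      _ = δ := pow_one δ
  have hδ6 : δ ^ 6 ≤ δ := by
    calc δ ^ 6 ≤ δ ^ 1 := pow_le_pow_of_le_one hδ0.le (by linarith) (by norm_num)
      _ = δ := pow_one δ
  have hMV : 0 ≤ 64 * M * V := by positivity
  refine ⟨fun x => c x * η x, ⟨c1.mul e1, {x | x ∈ C ∧ ‖x‖ ≤ 2 * R ∧
    ∀ K ∈ 𝒦, δ ≤ ‖Kᗮ.starProjection x‖}, ?_, ?_, fun x hx => hx.1, ?_⟩, hχ01, ?_, ?_, ?_⟩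
  · refine (isCompact_closedBall (0 : E) (2 * R)).of_isClosed_subset ?_
      fun x hx => mem_closedBall_zero_iff.2 hx.2.1
    refine C.closed_of_finiteDimensional.inter
      ((isClosed_le continuous_norm continuous_const).inter ?_)
    have : {x : E | ∀ K ∈ 𝒦, δ ≤ ‖Kᗮ.starProjection x‖} =
        ⋂ K ∈ 𝒦, {x : E | δ ≤ ‖Kᗮ.starProjection x‖} := by
      ext x; simp
    change IsClosed {x : E | ∀ K ∈ 𝒦, δ ≤ ‖Kᗮ.starProjection x‖}
    rw [this]
    exact isClosed_biInter fun K _ =>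
      isClosed_le continuous_const Kᗮ.starProjection.continuous.norm
  · intro x hx K hK hxK
    have h1 := hx.2.2 K hK
    rw [(Submodule.starProjection_apply_eq_zero_iff _).2 (K.le_orthogonal_orthogonal hxK),
      norm_zero] at h1
    linarith
  · intro x hxC hx
    by_cases h1 : ‖x‖ ≤ 2 * R
    · have h2 : ∃ K ∈ 𝒦, ‖Kᗮ.starProjection x‖ ≤ δ := by
        by_contra h3
        push Not at h3
        exact hx ⟨hxC, h1, fun K hK => (h3 K hK).le⟩
      simp [e3 x h2]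
    · simp [c4 x (not_le.1 h1).le]
  · intro x hx
    simp [c3 x ((hR₀ x hx).trans hR2), e4 x fun K hK => hδ2.trans (hdK x hx K hK)]
  · have hS : MeasurableSet {x : C | R < ‖(x : E)‖} :=
      (isOpen_lt continuous_const continuous_subtype_val.norm).measurableSet
    refine (int_le (a := {x : C | R < ‖(x : E)‖}.indicator fun x => w x) hA hM (by positivity) hAv
      (hi.indicator hS) (fun x => mul_nonneg (hw x).1 (sq_nonneg _)) fun x => ?_).trans ?_
    · have h1 : w x * (1 - c x * η x) ^ 2 ≤ w x :=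
        mul_le_of_le_one_right (hw x).1 (by nlinarith [hχ01 x])
      have h2 : 0 ≤ A.indicator (fun _ => M) x := Set.indicator_nonneg (fun _ _ => hM) x
      by_cases hx : R < ‖(x : E)‖
      · rw [Set.indicator_of_mem (show x ∈ {x : C | R < ‖(x : E)‖} from hx)]
        linarith
      · rw [Set.indicator_of_notMem (show x ∉ {x : C | R < ‖(x : E)‖} from hx), zero_add]
        push Not at hx
        by_cases hxA : x ∈ A
        · rw [Set.indicator_of_mem hxA]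
          exact h1.trans (hw x).2
        · have h3 : ∀ K ∈ 𝒦, 2 * δ ≤ ‖Kᗮ.starProjection (x : E)‖ := fun K hK => by
            by_contra h4
            exact hxA ⟨by linarith, K, hK, (not_le.1 h4).le⟩
          simpa [c3 x hx, e4 x h3] using h2
    · rw [integral_indicator hS]
      have h1 : M * (V * (2 * δ) ^ 6) = 64 * M * V * δ ^ 6 := by ring
      have h2 : 64 * M * V * δ ^ 6 ≤ 64 * M * V * δ := mul_le_mul_of_nonneg_left hδ6 hMV
      have h3 : 0 ≤ 64 * M * V * ((𝒦.card + 1) ^ 2 * K₁ ^ 2) * δ := by positivity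
      have h4 : T * δ = 64 * M * V * ((𝒦.card + 1) ^ 2 * K₁ ^ 2) * δ + 64 * M * V * δ := by
        rw [hT]; ring
      linarith
  · have hL : 0 ≤ M * ((𝒦.card + 1) * (K₁ / δ)) ^ 2 := by positivity
    refine (int_le (a := fun x => (K₁ / R) ^ 2 * w x) hA hL (by positivity) hAv
      (hi.const_mul _) (fun x => mul_nonneg (hw x).1 (sq_nonneg _)) fun x => ?_).trans ?_
    · have h0 := norm_gU_le C (fun x => c x * η x) x
      have h2 : 0 ≤ (K₁ / R) ^ 2 * w x := mul_nonneg (sq_nonneg _) (hw x).1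
      by_cases hxA : x ∈ A
      · rw [Set.indicator_of_mem hxA]
        have h3 := norm_fderiv_mul_le c1 e1 c2 e2 (x : E)
        have h4 : K₁ / R ≤ K₁ / δ := div_le_div_of_nonneg_left hK0 hδ0 (by linarith)
        have h5 : ‖gU C (fun x => c x * η x) x‖ ≤ (𝒦.card + 1) * (K₁ / δ) := by
          linarith [c5 x, e5 x]
        have h6 := mul_le_mul (hw x).2 (pow_le_pow_left₀ (norm_nonneg _) h5 2) (sq_nonneg _) hM
        linarith
      · rw [Set.indicator_of_notMem hxA, add_zero, mul_comm]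
        refine mul_le_mul_of_nonneg_right (pow_le_pow_left₀ (norm_nonneg _) (h0.trans ?_) 2)
          (hw x).1
        by_cases hx : ‖(x : E)‖ ≤ 2 * R
        · have h3 : (x : E) ∈ {x : E | ∃ K ∈ 𝒦, ‖Kᗮ.starProjection x‖ ≤ 2 * δ}ᶜ :=
            fun h => hxA ⟨hx, h⟩
          have h4 : (fun x => c x * η x) =ᶠ[𝓝 (x : E)] c := by
            filter_upwards [hN.isOpen_compl.mem_nhds h3] with y hy
            have h5 : ∀ K ∈ 𝒦, 2 * δ ≤ ‖Kᗮ.starProjection y‖ := fun K hK => by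
              by_contra h6
              exact hy ⟨K, hK, (not_le.1 h6).le⟩
            rw [e4 y h5, mul_one]
          rw [h4.fderiv_eq]
          exact c5 x
        · have h4 : (fun x => c x * η x) =ᶠ[𝓝 (x : E)] fun _ => 0 := by
            filter_upwards [(isOpen_lt continuous_const continuous_norm).mem_nhds
              (show (x : E) ∈ {y : E | 2 * R < ‖y‖} from not_le.1 hx)] with y hy
            rw [c4 y (le_of_lt hy), zero_mul]
          rw [h4.fderiv_eq]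
          simp only [fderiv_fun_const, Pi.zero_apply, norm_zero]
          positivity
    · rw [integral_const_mul]
      have h1 : M * ((𝒦.card + 1) * (K₁ / δ)) ^ 2 * (V * (2 * δ) ^ 6) =
          64 * M * V * ((𝒦.card + 1) ^ 2 * K₁ ^ 2) * δ ^ 4 := by
        field_simp
        ring
      have h2 : 64 * M * V * ((𝒦.card + 1) ^ 2 * K₁ ^ 2) * δ ^ 4 ≤
          64 * M * V * ((𝒦.card + 1) ^ 2 * K₁ ^ 2) * δ :=
        mul_le_mul_of_nonneg_left hδ4 (by positivity)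
      have h3 : 0 ≤ 64 * M * V * δ := by positivity
      have h4 : T * δ = 64 * M * V * ((𝒦.card + 1) ^ 2 * K₁ ^ 2) * δ + 64 * M * V * δ := by
        rw [hT]; ring
      linarith

end Vale.Agent.P353
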