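import Vale.Agent.P353.Stmts
import Vale.Agent.P353.Cut6

/-! Change of trivialization. -/

noncomputable section

open MeasureTheory Filter Topology Complex Matrix
open scoped ContDiff RealInnerProductSpace

namespace Vale.Agent.P353

namespace ConvAux

theorem exists_coord {V : Type} [NormedAddCommGroup V] [NormedSpace ℝ V] [FiniteDimensional ℝ V]
    (A : Submodule ℝ V) : ∃ (n : ℕ) (a : Fin n → V) (φ : Fin n → V →L[ℝ] ℝ),
      (∀ j, a j ∈ A) ∧ ∀ x ∈ A, x = ∑ j, φ j x • a j := by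
  obtain ⟨p, hp⟩ := A.subtype.exists_leftInverse_of_injective A.ker_subtype
  let b := Module.finBasis ℝ A
  refine ⟨_, fun j => b j, fun j => (b.coord j ∘ₗ p).toContinuousLinearMap, fun j => (b j).2,
    fun x hx => ?_⟩
  have h1 : p x = ⟨x, hx⟩ := LinearMap.congr_fun hp ⟨x, hx⟩
  have h2 := congrArg Subtype.val (b.sum_repr ⟨x, hx⟩)
  simp only [Submodule.coe_sum, Submodule.coe_smul] at h2
  simp only [LinearMap.coe_toContinuousLinearMap', LinearMap.comp_apply, h1,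
    Module.Basis.coord_apply, h2]

variable {N d : ℕ} {F : Type} [NormedAddCommGroup F] [InnerProductSpace ℂ F]
  [FiniteDimensional ℂ F] (c : Ctx N d F)

/-- operators that map zero modes to zero modes in the reference vacuum -/
def AA (π π' : Setoid (Fin N)) : Submodule ℝ (F →L[ℂ] F) where
  carrier := {a | c.P0 (c.off π π') * a = a ∧ (∀ u ∈ Grp π', a * c.U u = c.U u * a) ∧
    ∀ y ∈ sub 16 (c.ss π'), a * c.θ y = c.θ y * a}
  add_mem' := fun ha hb => ⟨by rw [mul_add, ha.1, hb.1],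
    fun u hu => by rw [mul_add, add_mul, ha.2.1 u hu, hb.2.1 u hu],
    fun u hu => by rw [mul_add, add_mul, ha.2.2 u hu, hb.2.2 u hu]⟩
  zero_mem' := ⟨mul_zero _, fun _ _ => by rw [mul_zero, zero_mul],
    fun _ _ => by rw [mul_zero, zero_mul]⟩
  smul_mem' := fun t a ha => ⟨by rw [mul_smul_comm, ha.1],
    fun u hu => by rw [mul_smul_comm, smul_mul_assoc, ha.2.1 u hu],
    fun u hu => by rw [mul_smul_comm, smul_mul_assoc, ha.2.2 u hu]⟩

variable {π π' : Setoid (Fin N)} {𝔞 : Submodule ℝ (Lg d)}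

theorem mem_BK {a : F →L[ℂ] F} (ha : a ∈ AA c π π') {β : LL (sub 9 (c.ss π')) F}
    (h : β ∈ c.B π') : opL _ a β ∈ c.BK π π' := by
  refine ⟨c.opL_mem_B (σ := 1) (Or.inl rfl) ha.2.1 (fun y hy => ?_) h, ?_⟩
  · rw [one_smul]
    exact ha.2.2 y hy
  · rw [← ContinuousLinearMap.mul_apply, ← opL_mul, ha.1]

theorem mem_AA (h_lm1 : c.S_lm1) (h_lmea : c.S_lmea) (h' : π' ≤ π) {y : Tn 9 d}
    (hy : y ∈ sub 9 (c.cen π')) {v : Fin 9 → ℝ} (hv : y ∈ c.Ow (c.off π π') v) :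
    c.P0 (c.off π π') * c.Pw (c.off π π') y ∈ AA c π π' := by
  refine ⟨?_, fun u hu => ?_, fun z hz => ?_⟩
  · rw [← mul_assoc]
    exact congrArg (· * c.Pw (c.off π π') y) (vac_idem _)
  · have h1 := c.Ad_mem_iff fun x hx => c.Ad_mem_off h' hu hx
    have h2 := h_lmea.P u _ _ h1 y
    have h3 : c.Ad9 u y = y :=
      ext_cmp fun i => by rw [Ctx.Ad9, cmp_kr_one, c.Ad_cen hu (mem_sub.1 hy i)]
    rw [h3] at h2
    rw [mul_assoc, h2, ← mul_assoc, ← c.U_P0 h1, mul_assoc]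
  · have h1 : z ∈ sub 16 (c.off π π')ᗮ :=
      sub_mono (le_trans inf_le_left (c.off_isOrtho_blk π π').symm) hz
    rw [mul_assoc, h_lm1.P_comm _ v y hv z h1, ← mul_assoc, c.P0_theta h1, mul_assoc]

theorem good (h_lm1 : c.S_lm1) (h_lmea : c.S_lmea) (h_lm4 : c.S_lm4) (h_orb : c.S_orb)
    (h_lam : c.S_lam) (hT : c.Th π 𝔞) (h' : π' ≤ π) {g : ℕ → ℝ} {ψ : ℕ → Tn 9 d → F}
    (hB : c.Bdd π 𝔞 g ψ)
    (H : ∀ η, SmR (c.CS 𝔞 π') η (c.Good π π') → ∀ β ∈ c.BK π π',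
      Tendsto (fun n => c.Lamh π 𝔞 π' (g n) (ψ n) η β) atTop (𝓝 0))
    {η : Tn 9 d → ℝ} (hη : SmR (c.CS 𝔞 π') η (c.Good π π')) {β : LL (sub 9 (c.ss π')) F}
    (hβ : β ∈ c.B π') : Tendsto (fun n => c.Lam π 𝔞 π' (g n) (ψ n) η β) atTop (𝓝 0) := by
  obtain ⟨k, a, φ, ha, hφ⟩ := exists_coord (AA c π π')
  obtain ⟨𝒱, -, h𝒱⟩ := h_orb.dir
  have hat : ∀ η, SmR (c.CS 𝔞 π') η (c.Good π π') →
      SmR (c.CS 𝔞 π') (c.hatη π 𝔞 π' η) (c.Good π π') := fun η h => by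
    have := h_lm4.hat π 𝔞 π' h' η Set.univ (by rwa [Set.inter_univ])
    rwa [Set.inter_univ] at this
  have hO : ∀ x ∈ c.CS 𝔞 π', x ∈ c.Good π π' → ∃ v, x ∈ c.Ow (c.off π π') v := fun x hx h => by
    obtain ⟨v, -, hv⟩ := h𝒱 π π' h' x (sub_mono inf_le_right hx) (c.Good_subset_Gen π π' h)
    exact ⟨v, hv⟩
  have hj : ∀ j, SmR (c.CS 𝔞 π') (fun x => c.hatη π 𝔞 π' η ((c.CS 𝔞 π').starProjection x) *
      φ j (c.P0 (c.off π π') * c.Pw (c.off π π') ((c.CS 𝔞 π').starProjection x)))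
      (c.Good π π') := fun j => by
    refine (hat η hη).mul (f := fun x => φ j (c.P0 (c.off π π') * c.Pw (c.off π π') x))
      (O := ⋃ v, c.Ow (c.off π π') v) (isOpen_iUnion fun v => h_lm1.isOpen _ v) (fun x hx => ?_)
      fun x hx h => Set.mem_iUnion.2 (hO x hx h)
    obtain ⟨v, hv⟩ := Set.mem_iUnion.1 hx
    exact ((φ j).contDiff.contDiffAt.comp x
      (contDiffAt_const.mul (h_lm1.sm_P _ v x hv))).contDiffWithinAt
  have lim := tendsto_finsetSum Finset.univ fun j _ => H _ (hj j) _ (mem_BK c (ha j) hβ)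
  rw [Finset.sum_const_zero] at lim
  refine lim.congr fun n => (h_lam.expand π 𝔞 π' hT h' (g n) (one_pos.trans_le (hB.2.1 n)) (ψ n)
    (hB.2.2.1 n).1 η β k _ a
    (fun j => (hat _ (hj j)).mono fun x _ hx => c.Good_subset_Gen π π' hx) fun y hy => ?_).symm
  have hP : (c.CS 𝔞 π').starProjection y = y := Submodule.starProjection_eq_self_iff.2 hy
  simp only [Ctx.hatη, hP]
  by_cases hG : y ∈ c.Good π π'
  · obtain ⟨v, hv⟩ := hO y hy hG
    have h1 := h_lm4.ov_pos π π' h' y (sub_mono inf_le_right hy) hG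
    have h2 := hφ _ (mem_AA c h_lm1 h_lmea h' (sub_mono inf_le_right hy) hv)
    have h4 : ∀ t : ℝ, η y / √(c.ovw (c.off π π') y) * t / √(c.ovw (c.off π π') y) =
        η y / c.ovw (c.off π π') y * t := fun t => by
      rw [mul_div_right_comm, div_div, Real.mul_self_sqrt h1.le]
    simp only [h4, Complex.coe_smul, mul_smul, ← mul_smul_comm]
    simp only [mul_smul_comm (η y / c.ovw (c.off π π') y)]
    rw [← Finset.smul_sum, ← Finset.mul_sum, ← h2, ← mul_assoc, (h_lm4.PP0P _ v y hv).1,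
      Complex.coe_smul, smul_smul, div_mul_cancel₀ _ h1.ne']
  · obtain ⟨-, K, -, hK, -, hz⟩ := hη
    simp [hz y hy fun h => hG (hK h)]

end ConvAux

namespace Ctx

variable {N d : ℕ} {F : Type} [NormedAddCommGroup F] [InnerProductSpace ℂ F]
  [FiniteDimensional ℂ F] (c : Ctx N d F)

theorem p_conv (h_lm1 : c.S_lm1) (h_lmea : c.S_lmea) (h_lm4 : c.S_lm4) (h_orb : c.S_orb)
    (h_lam : c.S_lam) (h_ub : c.S_ub) : c.S_conv := by
  intro π 𝔞 π' hT h' g ψ hB H η hη β hβ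
  obtain ⟨𝒦, h𝒦, hG⟩ := c.exists_bad hT h'
  obtain ⟨K, hK, hub⟩ := h_ub π 𝔞 π' hT h'
  obtain ⟨C, hC⟩ := hB.2.2.2.2
  have hE : ∀ n, 0 ≤ c.En 𝔞 (g n) 0 (ψ n) := fun n => en_nonneg _ _ _ _
  have hC0 : 0 ≤ C := (add_nonneg (nrm_nonneg _ _) (hE 0)).trans (hC 0)
  obtain ⟨hs, S, hS, -, -, hz⟩ := id hη
  obtain ⟨M, hM⟩ := hS.exists_bound_of_continuousOn hs.continuous.continuousOn
  have hw : ∀ x, 0 ≤ η ((c.CS 𝔞 π').starProjection x) ^ 2 ∧
      η ((c.CS 𝔞 π').starProjection x) ^ 2 ≤ M ^ 2 := fun x => by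
    refine ⟨sq_nonneg _, ?_⟩
    by_cases hx : (c.CS 𝔞 π').starProjection x ∈ S
    · rw [← sq_abs]
      exact pow_le_pow_left₀ (abs_nonneg _) (hM _ hx) 2
    · rw [hz _ ((c.CS 𝔞 π').starProjection_apply_mem x) hx, zero_pow two_ne_zero]
      exact sq_nonneg _
  have hP : ∀ x : c.CS 𝔞 π', (c.CS 𝔞 π').starProjection x = x := fun x =>
    Submodule.starProjection_eq_self_iff.2 x.2
  have hi : Integrable fun x : c.CS 𝔞 π' => η ((c.CS 𝔞 π').starProjection x) ^ 2 := by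
    simp only [hP]
    refine ((hs.continuous.comp continuous_subtype_val).pow 2).integrable_of_hasCompactSupport
      (HasCompactSupport.intro (RsAux.compact_pre _ hS) fun x hx => ?_)
    simp [hz x x.2 hx]
  refine Metric.tendsto_nhds.2 fun δ hδ => ?_
  have hε : 0 < (δ / 2) ^ 2 / (K * ‖β‖ ^ 2 * C + C + 1) := by positivity
  obtain ⟨χ, hχ, -, -, h1, -⟩ := exists_cut h𝒦 isCompact_empty (fun _ h => h.elim) hw hi hε
  have s1 : SmR (c.CS 𝔞 π') (fun x => η x * χ x) (c.Good π π') :=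
    (hχ.mul' hs).mono fun x hx h => (hG x hx).2 h
  have s2 : SmR (c.CS 𝔞 π') (fun x => (1 - χ x) * η x) (c.Gen π π') :=
    hη.mul' (contDiff_const.sub hχ.1)
  have l1 := Metric.tendsto_nhds.1
    (ConvAux.good c h_lm1 h_lmea h_lm4 h_orb h_lam hT h' hB H s1 hβ) _ (half_pos hδ)
  have l2 := hB.1.eventually ((hub 0 (by simp)).1 _ s2 β _ hε)
  filter_upwards [l1, l2] with n a1 a2
  have a3 := a2 _ (hB.2.2.1 n)
  have a4 := h_lam.linη π 𝔞 π' hT h' (g n) (one_pos.trans_le (hB.2.1 n)) (ψ n) (hB.2.2.1 n).1 β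
    _ _ (s1.mono fun x _ hx => c.Good_subset_Gen π π' hx) s2 1
  have e : (fun x => η x * χ x + 1 * ((1 - χ x) * η x)) = η := by
    funext x
    ring
  beta_reduce at a4
  rw [e, ofReal_one, one_mul] at a4
  have e2 : ∫ y : c.CS 𝔞 π', ((1 - χ y) * η y) ^ 2 =
      ∫ x : c.CS 𝔞 π', η ((c.CS 𝔞 π').starProjection x) ^ 2 * (1 - χ x) ^ 2 := by
    simp only [hP, mul_pow, mul_comm]
  rw [e2] at a3
  set ε := (δ / 2) ^ 2 / (K * ‖β‖ ^ 2 * C + C + 1) with hεd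
  have b1 : nrm (sub 9 𝔞) (ψ n) ≤ C := by linarith [hC n, hE n]
  have b2 := mul_le_mul (mul_le_mul_of_nonneg_right (mul_le_mul_of_nonneg_left h1 hK)
    (sq_nonneg ‖β‖)) b1 (nrm_nonneg _ _) (by positivity)
  have b3 : ε * c.NE 𝔞 (g n) 0 (ψ n) ≤ ε * C := mul_le_mul_of_nonneg_left (hC n) hε.le
  have b4 : ε * (K * ‖β‖ ^ 2 * C + C + 1) = (δ / 2) ^ 2 := div_mul_cancel₀ _ (by positivity)
  have b5 : ‖c.Lam π 𝔞 π' (g n) (ψ n) (fun x => (1 - χ x) * η x) β‖ ≤ δ / 2 :=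
    (pow_le_pow_iff_left₀ (norm_nonneg _) (half_pos hδ).le two_ne_zero).1 (by linarith)
  rw [dist_zero_right] at a1 ⊢
  rw [a4]
  linarith [norm_add_le (c.Lam π 𝔞 π' (g n) (ψ n) (fun x => η x * χ x) β)
    (c.Lam π 𝔞 π' (g n) (ψ n) (fun x => (1 - χ x) * η x) β)]

end Ctx

end Vale.Agent.P353
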