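import Vale.Agent.P353.CoreAux

/-! No mass at the microscopic scale. -/

noncomputable section

open MeasureTheory Filter Topology Complex Matrix
open scoped ContDiff RealInnerProductSpace

namespace Vale.Agent.P353

namespace Ctx

variable {N d : ℕ} {F : Type} [NormedAddCommGroup F] [InnerProductSpace ℂ F]
  [FiniteDimensional ℂ F] (c : Ctx N d F)

theorem core_mem {π : Setoid (Fin N)} {𝔞 : Submodule ℝ (Lg d)} (h : c.Th π 𝔞) {ψ : Tn 9 d → F}
    (hψ : ψ ∈ c.D π 𝔞) {η : c.CS 𝔞 π → ℝ} (h1 : HasCompactSupport η) (h2 : ContDiff ℝ ∞ η) :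
    CoreAux.avg (c.CS 𝔞 π) η ψ ∈ c.D π (c.ss π) := by
  have hs := (c.mem_D.1 hψ).1
  refine c.mem_D.2 ⟨CoreAux.sm_avg (Cov4Aux.CS_ortho c 𝔞 π).symm
    ((sup_comm _ _).trans (Cov4Aux.CS_sup c h)) h1 h2 hs, fun u hu x hx => ?_⟩
  rw [CoreAux.avg_clm h1 h2 hs.1.continuous, CoreAux.avg]
  refine integral_congr_ae (Eventually.of_forall fun y => ?_)
  have e := (c.mem_D.1 (c.slice_mem_D h hψ y.2)).2 u hu x hx
  simp only [add_comm (y : Tn 9 d)] at e
  simp only [e]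

theorem core_ip {S : Submodule ℝ (Tn 9 d)} {l : ℝ} (hl : 0 < l) (u : LL S F) {f : Tn 9 d → F}
    (hf : MemLp (fun x : S => f x) 2 volume) :
    inner ℂ u (L2 S (dil S l⁻¹ f)) = ip S (dil S l (rep S u)) f := by
  conv_lhs => rw [← L2_rep u]
  rw [inner_L2 (memLp_rep u) (memLp_dil (inv_pos.2 hl) hf), ← ip_dil S hl,
    dil_dil S hl (inv_pos.2 hl), mul_inv_cancel₀ hl.ne', dil_one]

theorem core_en (𝔞 : Submodule ℝ (Lg d)) {g : ℝ} (hg : 0 < g) (f : Tn 9 d → F) :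
    c.En 𝔞 1 0 (dil (sub 9 𝔞) (ell g)⁻¹ f) = ell g ^ 2 * c.En 𝔞 g 0 f := by
  have e : 1 * (ell g)⁻¹ ^ 3 = g := by
    rw [one_mul, inv_pow]
    exact (eq_inv_of_mul_eq_one_left (mul_ell_pow hg)).symm
  rw [c.En_dil 𝔞 (inv_pos.2 (ell_pos hg)), e, zero_mul, inv_pow, div_inv_eq_mul, mul_comm]

theorem p_core (h_lam : c.S_lam) : c.S_core := by
  rintro π 𝔞 h g ψ ⟨hg, hg1, hD, ⟨R0, hR⟩, K, hK⟩ hN R
  have ho := (Cov4Aux.CS_ortho c 𝔞 π).symm
  have hU := (sup_comm _ _).trans (Cov4Aux.CS_sup c h)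
  have hs := fun n => (c.mem_D.1 (hD n)).1
  have hg0 : ∀ n, 0 < g n := fun n => one_pos.trans_le (hg1 n)
  have hE : ∀ n, 0 ≤ c.En 𝔞 (g n) 0 (ψ n) := fun n => en_nonneg _ _ _ _
  have hK1 : ∀ n, nrm (sub 9 𝔞) (ψ n) ≤ K := fun n => by linarith [hK n, hE n]
  have hK0 : 0 ≤ K := (nrm_nonneg _ _).trans (hK1 0)
  have h1 : ∀ n, 0 ≤ ∫ y : c.CS 𝔞 π, c.En (c.ss π) (g n) 0 fun x => ψ n (y + x) := fun n =>
    integral_nonneg fun y => en_nonneg _ _ _ _
  have h2 : ∀ n, 0 ≤ ∫ x : sub 9 𝔞, gsq (c.CS 𝔞 π) (ψ n) x := fun n =>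
    integral_nonneg fun y => gsq_nonneg _ _ _
  have h3 := fun n => (c.En_split h (g n) (hs n)).2
  have h4 := fun n => nrm_nonneg (sub 9 𝔞) (ψ n)
  refine CoreAux.main ho hU hs hR hK1 (fun n => by linarith [hK n, h1 n, h2 n, h3 n, h4 n])
    fun η hη1 hη2 => ?_
  have hη := hη2.continuous.memLp_of_hasCompactSupport (p := 2) (μ := volume) hη1
  have hA : 0 ≤ ∫ y, η y ^ 2 := integral_nonneg fun _ => sq_nonneg _
  have hl := fun n => ell_pos (hg0 n)
  have hm := fun n => c.core_mem h (hD n) hη1 hη2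
  have key := c.car.core (fun α => c.contDiff_beta 1 0 (eb α)) (c.iso (sub 9 (c.ss π)) 1 0)
    (φ := fun n => dil (sub 9 (c.ss π)) (ell (g n))⁻¹ (CoreAux.avg (c.CS 𝔞 π) η (ψ n)))
    (fun n => dil_mem_Tst (inv_pos.2 (hl n)) (hm n)) (K := (∫ y, η y ^ 2) * K)
    (fun n => by
      rw [nrm_dil _ (inv_pos.2 (hl n))]
      exact (CoreAux.memLp_avg ho hU hη (hs n)).2.trans (mul_le_mul_of_nonneg_left (hK1 n) hA))
    ?_ (fun u hu => ?_) R
  · refine key.congr fun n => ?_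
    rw [mass_dil _ (inv_pos.2 (hl n))]
    congr 1
    ext x
    simp only [Set.mem_setOf_eq, norm_smul, norm_inv, Real.norm_of_nonneg (hl n).le]
    rw [inv_mul_le_iff₀ (hl n), mul_comm]
  · have t := (((tendsto_ell.comp hg).pow 2).mul_const ((∫ y, η y ^ 2) * K))
    rw [zero_pow two_ne_zero, zero_mul] at t
    refine squeeze_zero (fun n => en_nonneg _ _ _ _) (fun n => ?_) t
    refine (c.core_en (c.ss π) (hg0 n) _).trans_le (mul_le_mul_of_nonneg_left ?_ (sq_nonneg _))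
    refine (CoreAux.en_avg ho hU hη1 hη2 (hs n) 1 _
      fun α => c.contDiff_beta (g n) 0 (eb α)).trans (mul_le_mul_of_nonneg_left ?_ hA)
    exact (by linarith [hK n, h1 n, h2 n, h3 n, h4 n] :
      (∫ y : c.CS 𝔞 π, c.En (c.ss π) (g n) 0 fun x => ψ n (y + x)) ≤ K)
  · have hP : (fun y : c.CS 𝔞 π => η ((c.CS 𝔞 π).orthogonalProjectionOnto y)) = η :=
      funext fun y => by rw [Submodule.orthogonalProjectionOnto_mem_subspace_eq_self]
    have t1 := hN _ (CoreAux.smR hη1 hη2 fun x a b h h' => absurd h h') u hu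
    have e := fun n => CoreAux.pair ho hU
      (η := fun x => η ((c.CS 𝔞 π).orthogonalProjectionOnto x)) (hP.symm ▸ hη)
      (memLp_dil (hl n) (memLp_rep u)) (hs n)
    simp only [core_ip (hl _) u (CoreAux.memLp_avg ho hU hη (hs _)).1]
    rw [hP] at e
    simp only [← e]
    refine (t1.sub (b := 0) ?_).congr (fun n => sub_sub_cancel _ _) |>.trans_eq (by simp)
    refine Metric.tendsto_nhds.2 fun ε hε => ?_
    refine (hg.eventually (h_lam.self π 𝔞 h _ (CoreAux.smR hη1 hη2 Set.mem_univ) u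
      (ε ^ 2 / (2 * (K + 1))) (by positivity))).mono fun n hn => ?_
    rw [dist_zero_right]
    refine lt_of_pow_lt_pow_left₀ 2 hε.le ((hn _ (hs n)).trans_lt ?_)
    calc _ ≤ ε ^ 2 / (2 * (K + 1)) * (K + 1) := by
          gcongr
          linarith [hK1 n]
      _ = ε ^ 2 / 2 := by field_simp
      _ < ε ^ 2 := half_lt_self (by positivity)

end Ctx

end Vale.Agent.P353
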