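import Vale.Agent.P353.Stmts

/-! Averages over the centre of mass. -/

noncomputable section

open MeasureTheory Filter Topology Complex Metric
open scoped ContDiff RealInnerProductSpace

namespace Vale.Agent.P353.CoreAux

variable {E : Type} [NormedAddCommGroup E] [InnerProductSpace ℝ E] [FiniteDimensional ℝ E]
  [MeasurableSpace E] [BorelSpace E]
variable {F : Type} [NormedAddCommGroup F] [InnerProductSpace ℂ F] [FiniteDimensional ℂ F]
variable {U S C : Submodule ℝ E}

omit [FiniteDimensional ℂ F] in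
theorem cs {X : Type} [MeasurableSpace X] {μ : Measure X} {η : X → ℝ} {h : X → F}
    (hη : MemLp η 2 μ) (hh : MemLp h 2 μ) : Integrable (fun x => (η x : ℂ) • h x) μ ∧
    ‖∫ x, (η x : ℂ) • h x ∂μ‖ ^ 2 ≤ (∫ x, η x ^ 2 ∂μ) * ∫ x, ‖h x‖ ^ 2 ∂μ := by
  have i1 := hη.integrable_sq
  have i2 := (memLp_two_iff_integrable_sq_norm hh.1).1 hh
  have i3 : Integrable (fun x => ‖η x‖ * ‖h x‖) μ := hη.norm.integrable_mul hh.norm
  have e : ∀ x, ‖(η x : ℂ) • h x‖ = ‖η x‖ * ‖h x‖ := fun x => by rw [norm_smul, norm_real]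
  refine ⟨i3.mono' ((continuous_ofReal.comp_aestronglyMeasurable hη.1).smul hh.1)
    (Eventually.of_forall fun x => (e x).le), ?_⟩
  have h1 : ‖∫ x, (η x : ℂ) • h x ∂μ‖ ≤ ∫ x, ‖η x‖ * ‖h x‖ ∂μ := by
    simpa only [e] using norm_integral_le_integral_norm (μ := μ) fun x => (η x : ℂ) • h x
  refine (pow_le_pow_left₀ (norm_nonneg _) h1 2).trans ?_
  have h2 := discrim_le_zero (a := ∫ x, η x ^ 2 ∂μ) (b := -2 * ∫ x, ‖η x‖ * ‖h x‖ ∂μ)
    (c := ∫ x, ‖h x‖ ^ 2 ∂μ) fun t => by
      have h3 : 0 ≤ ∫ x, (t * ‖η x‖ - ‖h x‖) ^ 2 ∂μ := integral_nonneg fun _ => sq_nonneg _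
      have e2 : ∀ x, (t * ‖η x‖ - ‖h x‖) ^ 2 =
          t ^ 2 * η x ^ 2 - 2 * t * (‖η x‖ * ‖h x‖) + ‖h x‖ ^ 2 := fun x => by
        rw [← sq_abs (η x), ← Real.norm_eq_abs]
        ring
      have i4 : Integrable (fun x => t ^ 2 * η x ^ 2 - 2 * t * (‖η x‖ * ‖h x‖)) μ :=
        (i1.const_mul _).sub (i3.const_mul _)
      simp only [e2] at h3
      rw [integral_add i4 i2, integral_sub (i1.const_mul _) (i3.const_mul _), integral_const_mul,
        integral_const_mul] at h3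
      linarith
  rw [discrim] at h2
  linarith

/-- average over `C` with weight `η` -/
def avg (C : Submodule ℝ E) (η : C → ℝ) (ψ : E → F) (x : E) : F :=
  ∫ y : C, (η y : ℂ) • ψ (x + y)

theorem sl (hC : C ≤ U) {ψ : E → F} (hψ : Sm U ψ) {x : E} (hx : x ∈ U) :
    Sm C fun y => ψ (x + y) :=
  ⟨hψ.1.comp (contDiff_const.add contDiff_id), hasCompactSupport_slice hC hψ.2 hx⟩

theorem memLp_avg (h : S ⟂ C) (hU : S ⊔ C = U) {η : C → ℝ} (hη : MemLp η 2 volume) {ψ : E → F}
    (hψ : Sm U ψ) : MemLp (fun x : S => avg C η ψ x) 2 volume ∧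
      nrm S (avg C η ψ) ≤ (∫ y, η y ^ 2) * nrm U ψ := by
  have hS : S ≤ U := hU ▸ le_sup_left
  have hC : C ≤ U := hU ▸ le_sup_right
  have hc := hψ.1.continuous
  have m : AEStronglyMeasurable (fun x : S => avg C η ψ x) volume :=
    AEStronglyMeasurable.integral_prod_right' (f := fun p : S × C => (η p.2 : ℂ) • ψ (p.1 + p.2))
      ((continuous_ofReal.comp_aestronglyMeasurable hη.1.comp_snd).smul
        (Continuous.aestronglyMeasurable (by fun_prop)))
  have i0 := (integrable_integral_sup h hU (f := fun x => ‖ψ x‖ ^ 2)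
    (Ga4Aux.int_sq hψ)).const_mul (∫ y, η y ^ 2)
  have b : ∀ x : S, ‖avg C η ψ x‖ ^ 2 ≤ (∫ y, η y ^ 2) * ∫ y : C, ‖ψ (x + y)‖ ^ 2 := fun x =>
    (cs hη (sl hC hψ (hS x.2)).memLp).2
  have i1 : Integrable fun x : S => ‖avg C η ψ x‖ ^ 2 :=
    i0.mono' (m.norm.pow 2) (Eventually.of_forall fun x => by
      rw [Real.norm_of_nonneg (sq_nonneg _)]
      exact b x)
  refine ⟨(memLp_two_iff_integrable_sq_norm m).2 i1, (integral_mono i1 i0 b).trans_eq ?_⟩
  rw [integral_const_mul, nrm, integral_sup h hU (f := fun x => ‖ψ x‖ ^ 2) (Ga4Aux.int_sq hψ)]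

theorem mass_le (h : S ⟂ C) (hU : S ⊔ C = U) {η η' : C → ℝ} (hη : MemLp η 2 volume)
    (hη' : MemLp η' 2 volume) {ψ : E → F} (hψ : Sm U ψ) (O : Set E) :
    mass S O (avg C η ψ) ≤
      2 * mass S O (avg C η' ψ) + 2 * ((∫ y, (η - η') y ^ 2) * nrm U ψ) := by
  have hS : S ≤ U := hU ▸ le_sup_left
  have hC : C ≤ U := hU ▸ le_sup_right
  have i := fun {η : C → ℝ} (hη : MemLp η 2 volume) =>
    (memLp_two_iff_integrable_sq_norm (memLp_avg h hU hη hψ).1.1).1 (memLp_avg h hU hη hψ).1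
  have e : ∀ x : S, avg C η ψ x = avg C η' ψ x + avg C (η - η') ψ x := fun x => by
    have m := (sl hC hψ (hS x.2)).memLp
    rw [avg, avg, avg, ← integral_add (cs hη' m).1 (cs (hη.sub hη') m).1]
    simp only [← add_smul, Pi.sub_apply, ofReal_sub, add_sub_cancel]
  have i1 := (i hη').const_mul 2
  have i2 := (i (hη.sub hη')).const_mul 2
  refine (setIntegral_mono (i hη).integrableOn (i1.add i2).integrableOn fun x => ?_).trans ?_
  · show ‖avg C η ψ x‖ ^ 2 ≤ 2 * ‖avg C η' ψ x‖ ^ 2 + 2 * ‖avg C (η - η') ψ x‖ ^ 2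
    rw [e x]
    have := pow_le_pow_left₀ (norm_nonneg _) (norm_add_le (avg C η' ψ x) (avg C (η - η') ψ x)) 2
    nlinarith [sq_nonneg (‖avg C η' ψ x‖ - ‖avg C (η - η') ψ x‖)]
  · simp only [Pi.add_apply]
    rw [integral_add i1.integrableOn i2.integrableOn, integral_const_mul, integral_const_mul]
    have h1 := setIntegral_le_integral (s := {x : S | (x : E) ∈ O}) (i (hη.sub hη'))
      (Eventually.of_forall fun _ => sq_nonneg _)
    have h2 := (memLp_avg h hU (hη.sub hη') hψ).2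
    rw [nrm] at h2
    rw [mass]
    linarith

theorem exists_smooth {η : C → ℝ} (hη : MemLp η 2 volume) {ε : ℝ} (hε : 0 < ε) :
    ∃ g : C → ℝ, HasCompactSupport g ∧ ContDiff ℝ ∞ g ∧ ∫ y, (η - g) y ^ 2 ≤ ε := by
  obtain ⟨g, h1, h2, h3⟩ := hη.exist_eLpNorm_sub_le (by simp) (by simp) (Real.sqrt_pos.2 hε)
  refine ⟨g, h1, h2, ?_⟩
  have hm := hη.sub (h2.continuous.memLp_of_hasCompactSupport h1)
  rw [hm.eLpNorm_eq_integral_rpow_norm (by simp) (by simp),
    ENNReal.ofReal_le_ofReal_iff (Real.sqrt_nonneg _)] at h3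
  simp only [ENNReal.toReal_ofNat, Real.rpow_two, Real.norm_eq_abs, sq_abs] at h3
  rw [← one_div, ← Real.sqrt_eq_rpow] at h3
  exact (Real.sqrt_le_sqrt_iff hε.le).1 h3

theorem closure (h : S ⟂ C) (hU : S ⊔ C = U) {ψ : ℕ → E → F} (hψ : ∀ n, Sm U (ψ n)) {K : ℝ}
    (hK : ∀ n, nrm U (ψ n) ≤ K) {O : ℕ → Set E}
    (H : ∀ g : C → ℝ, HasCompactSupport g → ContDiff ℝ ∞ g →
      Tendsto (fun n => mass S (O n) (avg C g (ψ n))) atTop (𝓝 0))
    {η : C → ℝ} (hη : MemLp η 2 volume) :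
    Tendsto (fun n => mass S (O n) (avg C η (ψ n))) atTop (𝓝 0) := by
  have hK0 : 0 ≤ K := (nrm_nonneg _ _).trans (hK 0)
  refine tendsto_order.2 ⟨fun a ha => Eventually.of_forall fun n =>
    ha.trans_le (mass_nonneg _ _ _), fun ε hε => ?_⟩
  obtain ⟨g, h1, h2, h3⟩ := exists_smooth hη (ε := ε / (4 * (K + 1))) (by positivity)
  refine ((H g h1 h2).eventually (gt_mem_nhds (show 0 < ε / 4 by positivity))).mono
    fun n hn => ?_
  have h4 := mass_le h hU hη (h2.continuous.memLp_of_hasCompactSupport h1) (hψ n) (O n)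
  have h5 : (∫ y, (η - g) y ^ 2) * nrm U (ψ n) ≤ ε / (4 * (K + 1)) * (K + 1) :=
    mul_le_mul h3 ((hK n).trans (by linarith)) (nrm_nonneg _ _) (by positivity)
  have h6 : ε / (4 * (K + 1)) * (K + 1) = ε / 4 := by field_simp
  linarith

omit [MeasurableSpace E] [BorelSpace E] in
theorem projS (h : S ⟂ C) (x : S) (y : C) : S.starProjection ((x : E) + y) = x := by
  rw [map_add, Submodule.starProjection_eq_self_iff.2 x.2,
    (Submodule.starProjection_apply_eq_zero_iff S).2 (h.symm y.2), add_zero]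

omit [MeasurableSpace E] [BorelSpace E] in
theorem projC (h : S ⟂ C) (x : S) (y : C) : C.starProjection ((x : E) + y) = y := by
  rw [add_comm, projS h.symm]

omit [FiniteDimensional ℝ E] [MeasurableSpace E] [BorelSpace E] in
theorem norm_le (h : S ⟂ C) (x : S) (y : C) : ‖(y : E)‖ ≤ ‖(x : E) + y‖ := by
  refine (pow_le_pow_iff_left₀ (norm_nonneg _) (norm_nonneg _) two_ne_zero).1 ?_
  rw [norm_add_sq_real, h.inner_eq x.2 y.2]
  nlinarith [sq_nonneg ‖(x : E)‖]

theorem pair (h : S ⟂ C) (hU : S ⊔ C = U) {η : E → ℝ} (hη : MemLp (fun y : C => η y) 2 volume)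
    {b : E → F} (hb : MemLp (fun x : S => b x) 2 volume) {ψ : E → F} (hψ : Sm U ψ) :
    ip U (fun x => (η (C.starProjection x) : ℂ) • b (S.starProjection x)) ψ =
      ip S b (avg C (fun y => η y) ψ) := by
  have hS : S ≤ U := hU ▸ le_sup_left
  have hC : C ≤ U := hU ▸ le_sup_right
  have hc := hψ.1.continuous
  haveI := FiniteDimensional.complete ℂ F
  have m1 : AEStronglyMeasurable (fun p : S × C => (η p.2 : ℂ) • b p.1) volume :=
    (continuous_ofReal.comp_aestronglyMeasurable hη.1.comp_snd).smul hb.1.comp_fst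
  have m2 : AEStronglyMeasurable (fun p : S × C => ψ (p.1 + p.2)) volume :=
    Continuous.aestronglyMeasurable (by fun_prop)
  have l1 : MemLp (fun p : S × C => (η p.2 : ℂ) • b p.1) 2 volume := by
    refine (memLp_two_iff_integrable_sq_norm m1).2 ?_
    have := ((memLp_two_iff_integrable_sq_norm hb.1).1 hb).mul_prod hη.integrable_sq
    refine this.congr (Eventually.of_forall fun p => ?_)
    simp only [norm_smul, norm_real, Real.norm_eq_abs, mul_pow, sq_abs, mul_comm]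
  have l2 : MemLp (fun p : S × C => ψ (p.1 + p.2)) 2 volume :=
    (memLp_two_iff_integrable_sq_norm m2).2
      ((integrable_sup h hU (f := fun x => ‖ψ x‖ ^ 2)).1 (Ga4Aux.int_sq hψ))
  have i : Integrable fun p : S × C => inner ℂ ((η p.2 : ℂ) • b p.1) (ψ (p.1 + p.2)) :=
    (l1.norm.integrable_mul l2.norm).mono' (m1.inner m2)
      (Eventually.of_forall fun p => norm_inner_le_norm _ _)
  rw [ip, integral_sup h hU (f := fun x => inner ℂ
    ((η (C.starProjection x) : ℂ) • b (S.starProjection x)) (ψ x))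
    ((integrable_sup h hU (f := fun x => inner ℂ ((η (C.starProjection x) : ℂ) •
      b (S.starProjection x)) (ψ x))).2 (by simpa only [projS h, projC h] using i))]
  refine integral_congr_ae (Eventually.of_forall fun x => ?_)
  simp only [projS h, projC h, avg]
  rw [← integral_inner (cs hη (sl hC hψ (hS x.2)).memLp).1]
  simp only [inner_smul_left, inner_smul_right, conj_ofReal]

omit [InnerProductSpace ℂ F] [FiniteDimensional ℂ F] in
theorem mass_eq (U : Submodule ℝ E) {O : Set E} (hO : MeasurableSet O) (ψ : E → F) :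
    mass U O ψ = ∫ x : U, O.indicator (fun x => ‖ψ x‖ ^ 2) x :=
  (integral_indicator (measurable_subtype_coe hO)).symm

theorem est2 (h : S ⟂ C) (hU : S ⊔ C = U) {ψ : E → F} (hψ : Sm U ψ) {R : ℝ}
    (hR : ∀ x ∈ U, R < ‖x‖ → ψ x = 0) {δ : ℝ} (hδ : 0 < δ) (hδ' : 2 * δ ≤ 1) {t : Finset C}
    (ht : ∀ x ∈ closedBall (0 : C) R, ∃ c ∈ t, x ∈ closedBall c δ) (r : ℝ) :
    mass U {x | ‖S.starProjection x‖ ≤ r} ψ ≤
      8 * 2 ^ Module.finrank ℝ C * (∫ x : U, gsq C ψ x) * δ ^ 2 +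
      2 * volume.real (closedBall (0 : C) R) / volume.real (closedBall (0 : C) δ) ^ 2 *
        ∑ c ∈ t, mass S {x | ‖x‖ ≤ r} (avg C ((closedBall c δ).indicator 1) ψ) := by
  have hS : S ≤ U := hU ▸ le_sup_left
  have hC : C ≤ U := hU ▸ le_sup_right
  haveI := FiniteDimensional.complete ℂ F
  have hO : MeasurableSet {x : E | ‖S.starProjection x‖ ≤ r} :=
    (isClosed_le (by fun_prop) continuous_const).measurableSet
  have hO' : MeasurableSet {x : S | (x : E) ∈ {x : E | ‖x‖ ≤ r}} :=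
    (isClosed_le (f := fun x : S => ‖(x : E)‖) (by fun_prop) continuous_const).measurableSet
  have e1 : mass U {x | ‖S.starProjection x‖ ≤ r} ψ =
      ∫ x in {x : S | (x : E) ∈ {x : E | ‖x‖ ≤ r}}, ∫ y : C, ‖ψ (x + y)‖ ^ 2 := by
    rw [mass_eq U hO, integral_sup h hU
      (f := {x : E | ‖S.starProjection x‖ ≤ r}.indicator fun x => ‖ψ x‖ ^ 2)
      ((Ga4Aux.int_sq hψ).indicator (measurable_subtype_coe hO)), ← integral_indicator hO']
    refine integral_congr_ae (Eventually.of_forall fun x => ?_)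
    by_cases hx : ‖(x : E)‖ ≤ r <;> simp [Set.indicator, projS h, hx]
  have hη : ∀ c : C, MemLp ((closedBall c δ).indicator (1 : C → ℝ)) 2 volume := fun c =>
    memLp_indicator_const 2 measurableSet_closedBall 1
      (Or.inr (isCompact_closedBall c δ).measure_lt_top.ne)
  have i0 := integrable_integral_sup h hU (f := fun x => ‖ψ x‖ ^ 2) (Ga4Aux.int_sq hψ)
  have ig := Cov4Aux.integrable_gsq hC hψ
  have i1 := integrable_integral_sup h hU (f := gsq C ψ) ig
  have i2 := fun c => (memLp_two_iff_integrable_sq_norm (memLp_avg h hU (hη c) hψ).1.1).1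
    (memLp_avg h hU (hη c) hψ).1
  set M := 2 * volume.real (closedBall (0 : C) R) / volume.real (closedBall (0 : C) δ) ^ 2
  have i3 := (i1.const_mul (8 * 2 ^ Module.finrank ℝ C)).mul_const (δ ^ 2)
  have i4 := (integrable_finsetSum t fun c _ => i2 c).const_mul M
  rw [e1]
  refine (setIntegral_mono i0.integrableOn (i3.add i4).integrableOn fun x => ?_).trans ?_
  · have hs := sl hC hψ (hS x.2)
    have h1 := Ga4Aux.est (μ := volume) (Ga4Aux.cd hs)
      (hs.gsq_support.1.comp continuous_subtype_val) (fun y => gsq_nonneg _ _ _) (Ga4Aux.fd_le hs)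
      (setIntegral_le_integral (s := closedBall 0 (R + 1)) (Ga4Aux.int_gsq hs)
        (Eventually.of_forall fun y => gsq_nonneg _ _ _)) hδ hδ' ht
    rw [setIntegral_eq_integral_of_forall_compl_eq_zero fun y hy => by
      rw [hR _ (U.add_mem (hS x.2) (hC y.2))
        ((not_le.1 (mt mem_closedBall_zero_iff.2 hy)).trans_le (norm_le h x y))]
      simp] at h1
    refine h1.trans_eq (congrArg₂ (· + ·) ?_ (congrArg _ (Finset.sum_congr rfl fun c _ => ?_)))
    · simp only [Function.comp_apply, gsq, fderiv_comp_add_left]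
    · rw [avg, ← integral_indicator measurableSet_closedBall]
      refine congrArg (‖·‖ ^ 2) (integral_congr_ae (Eventually.of_forall fun y => ?_))
      by_cases hy : y ∈ closedBall c δ <;> simp [hy]
  · simp only [Pi.add_apply]
    rw [integral_add i3.integrableOn i4.integrableOn, integral_mul_const, integral_const_mul,
      integral_const_mul, integral_finsetSum t fun c _ => (i2 c).integrableOn,
      integral_sup h hU (f := gsq C ψ) ig]
    have h1 := setIntegral_le_integral (s := {x : S | (x : E) ∈ {x : E | ‖x‖ ≤ r}}) i1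
      (Eventually.of_forall fun _ => integral_nonneg fun _ => gsq_nonneg _ _ _)
    refine add_le_add ?_ le_rfl
    gcongr

theorem main (h : S ⟂ C) (hU : S ⊔ C = U) {ψ : ℕ → E → F} (hψ : ∀ n, Sm U (ψ n)) {R K : ℝ}
    (hR : ∀ n, ∀ x ∈ U, R < ‖x‖ → ψ n x = 0) (hK : ∀ n, nrm U (ψ n) ≤ K)
    (hK' : ∀ n, ∫ x : U, gsq C (ψ n) x ≤ K) {r : ℕ → ℝ}
    (H : ∀ g : C → ℝ, HasCompactSupport g → ContDiff ℝ ∞ g →
      Tendsto (fun n => mass S {x | ‖x‖ ≤ r n} (avg C g (ψ n))) atTop (𝓝 0)) :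
    Tendsto (fun n => mass U {x | ‖S.starProjection x‖ ≤ r n} (ψ n)) atTop (𝓝 0) := by
  refine tendsto_order.2 ⟨fun a ha => Eventually.of_forall fun n =>
    ha.trans_le (mass_nonneg _ _ _), fun ε hε => ?_⟩
  obtain ⟨δ, ⟨hδ1, hδ2⟩, hδ⟩ : ∃ δ : ℝ, (8 * 2 ^ Module.finrank ℝ C * K * δ ^ 2 < ε ∧ 2 * δ < 1) ∧
      δ ∈ Set.Ioi (0 : ℝ) := by
    have c1 : Continuous fun δ : ℝ => 8 * 2 ^ Module.finrank ℝ C * K * δ ^ 2 := by fun_prop
    have c2 : Continuous fun δ : ℝ => 2 * δ := by fun_prop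
    have e1 := (c1.tendsto' 0 0 (by simp)).eventually (gt_mem_nhds hε)
    have e2 := (c2.tendsto' 0 0 (by simp)).eventually (gt_mem_nhds one_pos)
    exact (((e1.and e2).filter_mono nhdsWithin_le_nhds).and
      (self_mem_nhdsWithin (a := (0 : ℝ)) (s := Set.Ioi 0))).exists
  obtain ⟨t, -, htf, ht⟩ := (isCompact_closedBall (0 : C) R).finite_cover_balls hδ
  have h1 := ((tendsto_finsetSum htf.toFinset fun c _ => closure h hU hψ hK H
    (memLp_indicator_const 2 measurableSet_closedBall (1 : ℝ)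
      (Or.inr (isCompact_closedBall c δ).measure_lt_top.ne))).const_mul
    (2 * volume.real (closedBall (0 : C) R) / volume.real (closedBall (0 : C) δ) ^ 2)).const_add
    (8 * 2 ^ Module.finrank ℝ C * K * δ ^ 2)
  rw [Finset.sum_const_zero, mul_zero, add_zero] at h1
  refine (h1.eventually (gt_mem_nhds hδ1)).mono fun n hn => lt_of_le_of_lt ?_ hn
  refine (est2 h hU (hψ n) (hR n) hδ hδ2.le (t := htf.toFinset) (fun x hx => ?_) (r n)).trans
    (add_le_add ?_ le_rfl)
  · obtain ⟨c, hc, hxc⟩ := Set.mem_iUnion₂.1 (ht hx)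
    exact ⟨c, htf.mem_toFinset.2 hc, ball_subset_closedBall hxc⟩
  · have := hK' n
    gcongr

/-! Smooth weights. -/

variable {η : C → ℝ}

omit [FiniteDimensional ℂ F] in
theorem int_avg (h1 : HasCompactSupport η) (h2 : ContDiff ℝ ∞ η) {G : E → F} (hG : Continuous G)
    (x : E) : Integrable fun y : C => (η y : ℂ) • G (x + y) := by
  have := h2.continuous
  refine Continuous.integrable_of_hasCompactSupport (by fun_prop) ?_
  exact (h1.comp_left (g := fun t : ℝ => (t : ℂ)) ofReal_zero).smul_right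

theorem avg_clm (h1 : HasCompactSupport η) (h2 : ContDiff ℝ ∞ η) {G : E → F} (hG : Continuous G)
    (a : F →L[ℂ] F) (x : E) : a (avg C η G x) = ∫ y : C, (η y : ℂ) • a (G (x + y)) := by
  haveI := FiniteDimensional.complete ℂ F
  rw [avg, ← a.integral_comp_comm (int_avg h1 h2 hG x)]
  simp only [map_smul]

theorem smooth_avg (h1 : HasCompactSupport η) (h2 : ContDiff ℝ ∞ η) {ψ : E → F}
    (hψ : ContDiff ℝ ∞ ψ) : ContDiff ℝ ∞ (avg C η ψ) ∧
      ∀ x v, fderiv ℝ (avg C η ψ) x v = avg C η (fun z => fderiv ℝ ψ z v) x := by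
  haveI := FiniteDimensional.complete ℂ F
  obtain ⟨R, hR⟩ := h1.isCompact.isBounded.subset_closedBall 0
  have hc : ContDiff ℝ ∞ fun p : E × C => (η p.2 : ℂ) • ψ (p.1 + p.2) :=
    (ofRealCLM.contDiff.comp (h2.comp contDiff_snd)).smul
      (hψ.comp (contDiff_fst.add (C.subtypeL.contDiff.comp contDiff_snd)))
  obtain ⟨h3, h4⟩ := Ga1dAux.main (g := fun (x : E) (y : C) => (η y : ℂ) • ψ (x + y)) isOpen_univ
    hc.contDiffOn (R := R) fun x _ w hw => by
      rw [image_eq_zero_of_notMem_tsupport fun hw' =>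
        not_le.2 hw (mem_closedBall_zero_iff.1 (hR hw')), ofReal_zero, zero_smul]
  refine ⟨contDiffOn_univ.1 h3, fun x v => (h4 x trivial v).trans ?_⟩
  refine integral_congr_ae (Eventually.of_forall fun y => ?_)
  have hd : DifferentiableAt ℝ (fun x : E => ψ (x + y)) x :=
    ((hψ.differentiable (by simp)).comp (differentiable_id.add_const _)) x
  dsimp only
  rw [fderiv_fun_const_smul hd, fderiv_comp_add_right, ContinuousLinearMap.smul_apply]

variable {T : Type} [NormedAddCommGroup T] [InnerProductSpace ℝ T] [FiniteDimensional ℝ T]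
  {θ : T →L[ℝ] F →L[ℂ] F}

theorem sm_dop (hS : S ≤ U) {ψ : E → F} (h : Sm U ψ) (p : ℝ) (s : E →L[ℝ] T) {β : E → T}
    (hβ : ContDiff ℝ ∞ β) : Sm U (dop θ S p s β ψ) := by
  have h1 : Sm U (∑ k, (-I * (p : ℂ)) • fun x => θ (s (onb S k)) (fderiv ℝ ψ x (onb S k))) :=
    Finset.sum_induction _ (Sm U) (fun _ _ => Sm.add) ⟨contDiff_const, HasCompactSupport.zero⟩
      fun k _ => ((h.fderiv contDiff_const fun _ _ => hS (onb_mem S k)).clm
        (a := fun _ => θ (s (onb S k))) contDiff_const).smul _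
  have h2 := h1.add (h.clm (θ.contDiff.comp hβ))
  refine (funext fun x => ?_ : _ = dop θ S p s β ψ) ▸ h2
  simp [dop]

theorem dop_avg (h : S ⟂ C) (h1 : HasCompactSupport η) (h2 : ContDiff ℝ ∞ η) {ψ : E → F}
    (hψ : ContDiff ℝ ∞ ψ) (p : ℝ) (s : E →L[ℝ] T) (β : E → T) (x : S) :
    dop θ S p s β (avg C η ψ) x =
      avg C η (dop θ S p s (fun z => β (S.starProjection z)) ψ) x := by
  have hD : ∀ v, Continuous fun z => fderiv ℝ ψ z v := fun v =>
    (hψ.continuous_fderiv (by simp)).clm_apply continuous_const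
  have i1 := fun k => int_avg h1 h2 (G := fun z => ((-I * (p : ℂ)) • θ (s (onb S k)))
    (fderiv ℝ ψ z (onb S k))) ((ContinuousLinearMap.continuous _).comp (hD _)) x
  have i2 := int_avg h1 h2 (G := fun z => θ (β x) (ψ z))
    ((ContinuousLinearMap.continuous _).comp hψ.continuous) x
  have e := fun k => avg_clm h1 h2 (hD (onb S k)) ((-I * (p : ℂ)) • θ (s (onb S k))) x
  simp only [ContinuousLinearMap.smul_apply] at e i1
  rw [dop, avg_clm h1 h2 hψ.continuous]
  simp only [(smooth_avg h1 h2 hψ).2, e]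
  rw [← integral_finsetSum _ fun k _ => i1 k,
    ← integral_add (integrable_finsetSum _ fun k _ => i1 k) i2, avg]
  simp only [dop, projS h, smul_add, Finset.smul_sum]

theorem en_avg (h : S ⟂ C) (hU : S ⊔ C = U) (h1 : HasCompactSupport η) (h2 : ContDiff ℝ ∞ η)
    {ψ : E → F} (hψ : Sm U ψ) (p : ℝ) (s : Fin 16 → E →L[ℝ] T) {β : Fin 16 → E → T}
    (hβ : ∀ α, ContDiff ℝ ∞ (β α)) : en θ S p s β (avg C η ψ) ≤
      (∫ y, η y ^ 2) * ∫ y : C, en θ S p s β fun x => ψ (y + x) := by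
  have hS : S ≤ U := hU ▸ le_sup_left
  have hm := fun α => sm_dop (θ := θ) hS hψ p (s α)
    ((hβ α).comp S.starProjection.contDiff)
  have hU' : C ⊔ S = U := (sup_comm _ _).trans hU
  have e : ∀ α (y : C), nrm S (dop θ S p (s α) (β α) fun x => ψ (y + x)) =
      ∫ x : S, ‖dop θ S p (s α) (β α ∘ S.starProjection) ψ (y + x)‖ ^ 2 := fun α y => by
    simp only [nrm, dop, fderiv_comp_add_left, Function.comp_apply, projC h.symm]
  simp only [en, e]
  rw [integral_finsetSum _ fun α _ => integrable_integral_sup h.symm hU'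
    (f := fun x => ‖dop θ S p (s α) (β α ∘ S.starProjection) ψ x‖ ^ 2) (Ga4Aux.int_sq (hm α)),
    Finset.mul_sum]
  refine Finset.sum_le_sum fun α _ => ?_
  rw [← integral_sup h.symm hU'
    (f := fun x => ‖dop θ S p (s α) (β α ∘ S.starProjection) ψ x‖ ^ 2) (Ga4Aux.int_sq (hm α))]
  refine le_of_eq_of_le ?_
    (memLp_avg h hU (h2.continuous.memLp_of_hasCompactSupport h1) (hm α)).2
  simp only [nrm, dop_avg h h1 h2 hψ.1]
  rfl

theorem sm_avg (h : S ⟂ C) (hU : S ⊔ C = U) (h1 : HasCompactSupport η) (h2 : ContDiff ℝ ∞ η)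
    {ψ : E → F} (hψ : Sm U ψ) : Sm S (avg C η ψ) := by
  have hS : S ≤ U := hU ▸ le_sup_left
  have hC : C ≤ U := hU ▸ le_sup_right
  obtain ⟨R, hR⟩ := hψ.exists_bound
  refine sm_of_bound (smooth_avg h1 h2 hψ.1).1 (R := R) fun x hx hlt => ?_
  refine integral_eq_zero_of_ae (Eventually.of_forall fun y => ?_)
  have h3 := norm_le h.symm y ⟨x, hx⟩
  rw [add_comm] at h3
  simp [hR _ (U.add_mem (hS hx) (hC y.2)) (hlt.trans_le h3)]

theorem smR (h1 : HasCompactSupport η) (h2 : ContDiff ℝ ∞ η) {Z : Set E} (hZ : ∀ x, x ∈ Z) :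
    SmR C (fun x => η (C.orthogonalProjectionOnto x)) Z := by
  refine ⟨h2.comp C.orthogonalProjectionOnto.contDiff, Subtype.val '' tsupport η,
    h1.isCompact.image continuous_subtype_val, fun x _ => hZ x, ?_, fun x hx hK => ?_⟩
  · rintro _ ⟨x, -, rfl⟩
    exact x.2
  · have e := Submodule.orthogonalProjectionOnto_mem_subspace_eq_self (K := C) ⟨x, hx⟩
    exact (congrArg η e).trans (image_eq_zero_of_notMem_tsupport fun h => hK ⟨_, h, rfl⟩)

end Vale.Agent.P353.CoreAux
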