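import Vale.Agent.P353.Ctx

/-! Gamma matrix identities. -/

noncomputable section

open MeasureTheory Filter Topology Complex Matrix
open scoped ContDiff RealInnerProductSpace

namespace Vale.Agent.P353

variable {γ : Fin 9 → M16}

namespace Gam1Aux

/-- the sign in the commutation with `Γ` -/
def sg (i : Fin 9) : ℝ := if i.val < 3 then 1 else -1

/-- Kronecker symbol -/
def dl (i j : Fin 9) : ℝ := if i = j then 1 else 0

/-- the coefficient in `rho` -/
def cf (k i : Fin 9) : ℝ := if k = i then 0 else kk i * (1 + sg k * sg i)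

lemma sg_sq (i : Fin 9) : sg i * sg i = 1 := by unfold sg; split_ifs <;> norm_num

lemma cf_comm (k i : Fin 9) : cf i k = cf k i := by
  unfold cf kk sg
  by_cases h : k = i
  · simp [h]
  · rw [if_neg h, if_neg (Ne.symm h)]
    split_ifs <;> norm_num

lemma cf_sg (k i : Fin 9) : cf k i * (sg k * sg i) = cf k i := by
  unfold cf sg
  split_ifs <;> norm_num

lemma cf_of_ne {k i : Fin 9} (h : kk k ≠ kk i) : cf k i = 0 := by
  unfold cf sg
  unfold kk at h
  split_ifs at h ⊢ <;> simp_all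

lemma sg_of_eq {k i : Fin 9} (h : kk k = kk i) : sg k * sg i = 1 := by
  unfold sg
  unfold kk at h
  split_ifs at h ⊢ <;> first | (norm_num; done) | norm_num at h

lemma sq' (h : IsGam γ) (i : Fin 9) (X : M16) : γ i * (γ i * X) = X := by
  rw [← mul_assoc, h.sq, one_mul]

lemma anti' (h : IsGam γ) {i j : Fin 9} (hij : i ≠ j) (X : M16) :
    γ i * (γ j * X) = -(γ j * (γ i * X)) := by
  rw [← mul_assoc, h.anti i j hij, neg_mul, mul_assoc]

lemma swap (h : IsGam γ) (i j : Fin 9) : γ i * γ j = (2 * dl i j) • (1 : M16) - γ j * γ i := by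
  unfold dl
  split_ifs with hij
  · rw [hij, h.sq, mul_one, two_smul, add_sub_cancel_right]
  · rw [h.anti i j hij, mul_zero, zero_smul, zero_sub]

lemma swap' (h : IsGam γ) (i j : Fin 9) (X : M16) :
    γ i * (γ j * X) = (2 * dl i j) • X - γ j * (γ i * X) := by
  rw [← mul_assoc, swap h i j, sub_mul, smul_mul_assoc, one_mul, mul_assoc]

lemma pass2 (h : IsGam γ) {m i j : Fin 9} (hi : m ≠ i) (hj : m ≠ j) :
    γ m * (γ i * γ j) = γ i * γ j * γ m := by
  rw [anti' h hi, h.anti m j hj, mul_neg, neg_neg, mul_assoc]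

lemma pass3 (h : IsGam γ) {m i j k : Fin 9} (hi : m ≠ i) (hj : m ≠ j) (hk : m ≠ k) :
    γ m * (γ i * γ j * γ k) = -(γ i * γ j * γ k * γ m) := by
  rw [← mul_assoc, pass2 h hi hj, mul_assoc _ (γ m), h.anti m k hk, mul_neg, ← mul_assoc]

end Gam1Aux

open Gam1Aux

theorem IsGam.anticomm (h : IsGam γ) (i j : Fin 9) :
    γ i * γ j + γ j * γ i = if i = j then (2 : ℝ) • (1 : M16) else 0 := by
  rw [swap h i j, sub_add_cancel, dl]
  split_ifs <;> simp

theorem IsGam.gamma2_self (h : IsGam γ) (i : Fin 9) : gamma2 γ i i = 0 := by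
  simp [gamma2]

theorem IsGam.gamma2_ne (h : IsGam γ) {i j : Fin 9} (hij : i ≠ j) : gamma2 γ i j = γ i * γ j := by
  rw [gamma2, h.anti j i hij.symm]
  module

theorem gamma2_swap (i j : Fin 9) : gamma2 γ j i = -gamma2 γ i j := by
  unfold gamma2
  module

theorem IsGam.gamma2_transpose (h : IsGam γ) (i j : Fin 9) : (gamma2 γ i j)ᵀ = gamma2 γ j i := by
  simp only [gamma2, transpose_smul, transpose_sub, transpose_mul, h.symm]

theorem IsGam.mul_eq (h : IsGam γ) (i j : Fin 9) :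
    γ i * γ j = (if i = j then (1 : M16) else 0) + gamma2 γ i j := by
  split_ifs with hij
  · rw [hij, h.sq, h.gamma2_self, add_zero]
  · rw [h.gamma2_ne hij, zero_add]

theorem IsGam.Gm_transpose (h : IsGam γ) : (Gm γ)ᵀ = -Gm γ := by
  simp only [Gm, transpose_mul, h.symm]
  rw [h.anti 1 0 (by decide), mul_neg, pass2 h (by decide) (by decide)]

theorem IsGam.Gm_comm (h : IsGam γ) (i : Fin 9) :
    Gm γ * γ i = (if i.val < 3 then (1 : ℝ) else -1) • (γ i * Gm γ) := by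
  split_ifs with hi
  · rw [one_smul, Gm]
    obtain rfl | rfl | rfl : i = 0 ∨ i = 1 ∨ i = 2 := by omega
    · rw [mul_assoc (γ 0) (γ 1), mul_assoc, ← pass2 h (by decide) (by decide)]
    · rw [mul_assoc _ (γ 2), h.anti 2 1 (by decide), mul_assoc (γ 0) (γ 1) (γ 2),
        anti' h (i := 1) (j := 0) (by decide), mul_neg, mul_assoc]
    · rw [← mul_assoc (γ 2), pass2 h (by decide) (by decide)]
  · rw [Gm, pass3 h (by omega) (by omega) (by omega), neg_one_smul, neg_neg]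

lemma Gam1Aux.Gm_mul (h : IsGam γ) (i : Fin 9) : Gm γ * γ i = sg i • (γ i * Gm γ) := h.Gm_comm i

lemma Gam1Aux.Gm_mul2 (h : IsGam γ) (k i : Fin 9) :
    Gm γ * (γ k * γ i) = (sg k * sg i) • (γ k * γ i * Gm γ) := by
  rw [← mul_assoc, Gm_mul h, smul_mul_assoc, mul_assoc, Gm_mul h, mul_smul_comm, smul_smul,
    mul_assoc]

theorem IsGam.Gm_sq (h : IsGam γ) : Gm γ * Gm γ = -1 := by
  have e : (Gm γ)ᵀ * Gm γ = 1 := by
    simp only [Gm, transpose_mul, h.symm, mul_assoc, sq' h, h.sq]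
  rw [h.Gm_transpose, neg_mul] at e
  rw [← e, neg_neg]

theorem IsGam.kk_Gm (h : IsGam γ) (i : Fin 9) : kk i • (γ i * Gm γ) = -(|kk i| • (Gm γ * γ i)) := by
  rw [h.Gm_comm, kk, smul_smul, ← neg_smul]
  split_ifs <;> norm_num

/-- a matrix that is reversed by conjugation with a gamma matrix is traceless -/
theorem IsGam.trace_of_anti (h : IsGam γ) {M : M16} {i : Fin 9} (hM : γ i * M = -(M * γ i)) :
    M.trace = 0 := by
  have e : (γ i * M * γ i).trace = M.trace := by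
    rw [trace_mul_comm, sq' h]
  rw [hM, neg_mul, mul_assoc, h.sq, mul_one, trace_neg] at e
  linarith

theorem IsGam.trace_gamma (h : IsGam γ) (i : Fin 9) : (γ i).trace = 0 := by
  obtain ⟨m, hm⟩ := exists_ne i
  exact h.trace_of_anti (h.anti m i hm)

theorem IsGam.trace_gamma_mul (h : IsGam γ) (i j : Fin 9) :
    (γ i * γ j).trace = if i = j then 16 else 0 := by
  split_ifs with hij
  · rw [hij, h.sq, trace_one]
    simp
  · refine h.trace_of_anti (i := i) ?_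
    rw [mul_assoc, h.anti j i (Ne.symm hij), mul_neg, neg_neg]

theorem IsGam.trace_three (h : IsGam γ) (i j k : Fin 9) : (γ i * γ j * γ k).trace = 0 := by
  obtain ⟨m, h1, h2, h3⟩ : ∃ m : Fin 9, m ≠ i ∧ m ≠ j ∧ m ≠ k := by
    revert i j k
    decide
  exact h.trace_of_anti (pass3 h h1 h2 h3)

theorem IsGam.trace_Gm (h : IsGam γ) : (Gm γ).trace = 0 := h.trace_three 0 1 2

theorem IsGam.trace_Gm_one (h : IsGam γ) (i : Fin 9) : (Gm γ * γ i).trace = 0 := by
  by_cases hi : i.val < 3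
  · obtain ⟨m, h1, h2⟩ : ∃ m : Fin 9, m.val < 3 ∧ m ≠ i := by
      revert i
      decide
    refine h.trace_of_anti (i := m) ?_
    have e := h.Gm_comm m
    rw [if_pos h1, one_smul] at e
    rw [← mul_assoc, ← e, mul_assoc, h.anti m i h2, mul_neg, mul_assoc]
  · refine h.trace_of_anti (i := i) ?_
    have e := h.Gm_comm i
    rw [if_neg hi, neg_one_smul] at e
    rw [← neg_mul, e, neg_neg, mul_assoc, ← e, e]

theorem IsGam.trace_Gm_two (h : IsGam γ) (i j : Fin 9) : (Gm γ * γ i * γ j).trace = 0 := by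
  obtain ⟨m, h1, h2, h3⟩ : ∃ m : Fin 9, ¬ m.val < 3 ∧ m ≠ i ∧ m ≠ j := by
    revert i j
    decide
  refine h.trace_of_anti (i := m) ?_
  have e := h.Gm_comm m
  rw [if_neg h1, neg_one_smul] at e
  rw [mul_assoc (Gm γ) (γ i), mul_assoc (Gm γ), ← pass2 h h2 h3, ← mul_assoc (Gm γ) (γ m), e,
    neg_mul, neg_neg, mul_assoc]

theorem IsGam.trace_Gm_hat (h : IsGam γ) (ρ : Matrix (Fin 9) (Fin 9) ℝ) :
    (Gm γ * hat γ ρ).trace = 0 := by
  simp only [hat, Finset.mul_sum, trace_sum, mul_smul_comm, trace_smul, ← mul_assoc,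
    h.trace_Gm_two, smul_zero, Finset.sum_const_zero]

lemma Gam1Aux.trace_two (h : IsGam γ) (i j : Fin 9) : (γ i * γ j).trace = 16 * dl i j := by
  rw [h.trace_gamma_mul, dl]
  split_ifs <;> simp

lemma Gam1Aux.trace_four (h : IsGam γ) (i j l k : Fin 9) : (γ i * (γ j * (γ l * γ k))).trace =
    16 * (dl i j * dl l k - dl i l * dl j k + dl i k * dl j l) := by
  have e : (γ j * (γ l * (γ k * γ i))).trace = (γ i * (γ j * (γ l * γ k))).trace := by
    rw [trace_mul_comm (γ i)]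
    simp only [mul_assoc]
  have e2 := congrArg trace (swap' h i j (γ l * γ k))
  rw [swap' h i l, swap h i k] at e2
  simp only [mul_sub, mul_smul_comm, mul_one, trace_sub, trace_smul, trace_two h, e,
    smul_eq_mul] at e2
  linarith

theorem IsGam.trace_gamma2_mul (h : IsGam γ) (i j k l : Fin 9) :
    (gamma2 γ i j * gamma2 γ l k).trace =
      16 * ((if i = k ∧ j = l then 1 else 0) - if i = l ∧ j = k then 1 else 0) := by
  have e : ∀ a b c d : Fin 9, (if a = b ∧ c = d then (1 : ℝ) else 0) = dl a b * dl c d := by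
    intro a b c d
    unfold dl
    by_cases h1 : a = b <;> by_cases h2 : c = d <;> simp [h1, h2]
  have s : ∀ a b : Fin 9, dl a b = dl b a := fun a b => by simp only [dl, eq_comm]
  simp only [gamma2, mul_smul_comm, smul_mul_assoc, mul_sub, sub_mul, mul_assoc, trace_smul,
    trace_sub, trace_four h, smul_eq_mul, e]
  rw [s j i, s k l]
  ring

theorem sum_eb_dot (A B : M16) : ∑ α, (A *ᵥ eb α) ⬝ᵥ (B *ᵥ eb α) = (Aᵀ * B).trace := by
  simp [eb, dotProduct, trace, mul_apply]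

theorem sum_eb_vecMulVec (A B : M16) : ∑ α, vecMulVec (A *ᵥ eb α) (B *ᵥ eb α) = A * Bᵀ := by
  ext i j
  simp [eb, vecMulVec_apply, Matrix.sum_apply, mul_apply]

theorem sum_eb_smul (e : Fin 16 → ℝ) : ∑ α, e α • eb α = e := by
  ext i
  simp [eb, Pi.single_apply]

lemma Gam1Aux.dot_mul (A : M16) (u v : Fin 16 → ℝ) : (A *ᵥ u) ⬝ᵥ v = u ⬝ᵥ (Aᵀ *ᵥ v) := by
  rw [dotProduct_mulVec, vecMul_transpose]

lemma Gam1Aux.rho_eq (h : IsGam γ) (e e' : Fin 16 → ℝ) (k i : Fin 9) :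
    rho γ e e' k i = cf k i * e ⬝ᵥ ((γ k * γ i * Gm γ) *ᵥ e') := by
  have e1 : (γ k *ᵥ e') ⬝ᵥ ((γ i * Gm γ) *ᵥ e) =
      -(sg i * sg k) * e ⬝ᵥ ((γ i * γ k * Gm γ) *ᵥ e') := by
    rw [dotProduct_comm, dot_mul, mulVec_mulVec, transpose_mul, h.symm, h.Gm_transpose, neg_mul,
      neg_mul, mul_assoc, Gm_mul2 h, neg_mulVec, smul_mulVec, dotProduct_neg, dotProduct_smul,
      smul_eq_mul, neg_mul]
  rw [rho, e1, dot_mul, h.symm, mulVec_mulVec, ← mul_assoc, cf]
  split_ifs with hki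
  · rw [hki, sg_sq]
    ring
  · rw [h.anti i k (Ne.symm hki), neg_mul (γ k * γ i), neg_mulVec, dotProduct_neg]
    ring

theorem IsGam.rho_isRot (h : IsGam γ) (e e' : Fin 16 → ℝ) : IsRot (rho γ e e') := by
  refine ⟨?_, fun k i hki => by rw [rho_eq h, cf_of_ne hki, zero_mul]⟩
  ext k i
  rw [transpose_apply, Matrix.neg_apply, rho_eq h, rho_eq h, cf_comm]
  by_cases hki : k = i
  · simp [cf, hki]
  · rw [h.anti i k (Ne.symm hki), neg_mul, neg_mulVec, dotProduct_neg, mul_neg]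

theorem rho_comm (e e' : Fin 16 → ℝ) : rho γ e e' = rho γ e' e := by
  ext k i
  simp only [rho, add_comm]

theorem IsGam.rho_Gm (h : IsGam γ) (e : Fin 16 → ℝ) :
    rho γ (Gm γ *ᵥ e) (Gm γ *ᵥ e) = rho γ e e := by
  ext k i
  rw [rho_eq h, rho_eq h, dot_mul, mulVec_mulVec, mulVec_mulVec, h.Gm_transpose, mul_assoc,
    mul_assoc _ (Gm γ), h.Gm_sq, mul_neg_one, neg_mul_neg, Gm_mul2 h, smul_mulVec, dotProduct_smul,
    smul_eq_mul, ← mul_assoc, cf_sg]

theorem IsGam.hat_transpose (h : IsGam γ) {ρ : Matrix (Fin 9) (Fin 9) ℝ} (hρ : ρᵀ = -ρ) :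
    (hat γ ρ)ᵀ = -hat γ ρ := by
  have e : ∀ k i, ρ i k = -ρ k i := fun k i => congrFun (congrFun hρ k) i
  simp only [hat, transpose_sum, transpose_smul, transpose_mul, h.symm]
  rw [Finset.sum_comm]
  simp only [← Finset.sum_neg_distrib]
  refine Finset.sum_congr rfl fun k _ => Finset.sum_congr rfl fun i _ => ?_
  rw [e k i, neg_div, neg_smul]

theorem IsGam.hat_comm_gamma (h : IsGam γ) {ρ : Matrix (Fin 9) (Fin 9) ℝ} (hρ : ρᵀ = -ρ)
    (i : Fin 9) : hat γ ρ * γ i - γ i * hat γ ρ = ∑ k, ρ k i • γ k := by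
  have e : ∀ k i, ρ i k = -ρ k i := fun k i => congrFun (congrFun hρ k) i
  have e2 : ∀ k l, (ρ k l / 4) • (γ k * γ l) * γ i - γ i * (ρ k l / 4) • (γ k * γ l) =
      (if i = l then (ρ k l / 2) • γ k else 0) - if i = k then (ρ k l / 2) • γ l else 0 := by
    intro k l
    rw [mul_smul_comm, smul_mul_assoc, swap' h i k, swap h i l, mul_sub, mul_smul_comm, mul_one,
      mul_assoc, dl, dl]
    split_ifs <;> module
  simp only [hat, Finset.sum_mul, Finset.mul_sum, ← Finset.sum_sub_distrib, e2]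
  simp only [Finset.sum_sub_distrib]
  rw [Finset.sum_comm (f := fun k l => if i = k then (ρ k l / 2) • γ l else 0)]
  simp only [Finset.sum_ite_eq, Finset.mem_univ, if_true, ← Finset.sum_sub_distrib]
  refine Finset.sum_congr rfl fun k _ => ?_
  rw [e k i]
  module

theorem IsGam.hat_comm_Gm (h : IsGam γ) {ρ : Matrix (Fin 9) (Fin 9) ℝ} (hρ : IsRot ρ) :
    hat γ ρ * Gm γ = Gm γ * hat γ ρ := by
  simp only [hat, Finset.sum_mul, Finset.mul_sum, mul_smul_comm, smul_mul_assoc]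
  refine Finset.sum_congr rfl fun k _ => Finset.sum_congr rfl fun i _ => ?_
  by_cases hk : kk k = kk i
  · rw [Gm_mul2 h, sg_of_eq hk, one_smul]
  · simp [hρ.2 k i hk]

lemma Gam1Aux.sum_cf : ∑ k, ∑ i, cf k i = 36 := by
  simp [Fin.sum_univ_succ, cf, kk, sg]
  norm_num

theorem IsGam.sum_hat_rho (h : IsGam γ) (e : Fin 16 → ℝ) :
    ∑ α, hat γ (rho γ (eb α) e) *ᵥ eb α = (-9 : ℝ) • (Gm γ *ᵥ e) := by
  have e1 : ∀ k i, ∑ α, (rho γ (eb α) e k i / 4) • ((γ k * γ i) *ᵥ eb α) =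
      (-(cf k i / 4)) • (Gm γ *ᵥ e) := by
    intro k i
    by_cases hki : k = i
    · simp [rho_eq h, cf, hki]
    have e2 : γ k * γ i * (γ k * γ i * Gm γ) = -Gm γ := by
      rw [mul_assoc, mul_assoc, anti' h (Ne.symm hki), mul_neg, sq' h, sq' h]
    have e3 := congrArg (fun v => (cf k i / 4) • ((γ k * γ i) *ᵥ v))
      (sum_eb_smul ((γ k * γ i * Gm γ) *ᵥ e))
    simp only [mulVec_mulVec, e2, neg_mulVec, smul_neg, mulVec_sum, mulVec_smul, Finset.smul_sum,
      smul_smul] at e3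
    rw [neg_smul, ← e3]
    refine Finset.sum_congr rfl fun α _ => ?_
    rw [rho_eq h, eb, single_dotProduct, one_mul, mul_div_right_comm]
  simp only [hat, sum_mulVec, smul_mulVec]
  rw [Finset.sum_comm]
  simp only [Finset.sum_comm (s := (Finset.univ : Finset (Fin 16))), e1, ← Finset.sum_smul,
    Finset.sum_neg_distrib, ← Finset.sum_div, sum_cf]
  norm_num

namespace Gam1Aux

/-- the partner of an index -/
def pr : Fin 9 → Fin 9 := ![1, 0, 2, 4, 3, 6, 5, 8, 7]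

/-- the commuting involutions -/
def PP (γ : Fin 9 → M16) (k : Fin 9) : M16 := γ k * γ (pr k) * Gm γ

lemma pr_ne : ∀ k : Fin 9, k ≠ 2 → k ≠ pr k := by decide

lemma sg_pr (k : Fin 9) : sg k * sg (pr k) = 1 := by
  have : ∀ k : Fin 9, (pr k).val < 3 ↔ k.val < 3 := by decide
  have e : sg (pr k) = sg k := by simp only [sg, this]
  rw [e, sg_sq]

lemma Gm_pair (h : IsGam γ) (k : Fin 9) : Commute (Gm γ) (γ k * γ (pr k)) := by
  rw [Commute, SemiconjBy, Gm_mul2 h, sg_pr, one_smul]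

lemma pair_sq (h : IsGam γ) {k i : Fin 9} (hki : k ≠ i) : γ k * γ i * (γ k * γ i) = -1 := by
  rw [mul_assoc, anti' h hki.symm, mul_neg, sq' h, h.sq]

lemma PP_sq (h : IsGam γ) {k : Fin 9} (hk : k ≠ 2) : PP γ k * PP γ k = 1 := by
  rw [PP, mul_assoc, ← mul_assoc (Gm γ), (Gm_pair h k).eq, mul_assoc _ (Gm γ), h.Gm_sq, mul_neg_one,
    mul_neg, pair_sq h (pr_ne k hk), neg_neg]

lemma PP_symm (h : IsGam γ) {k : Fin 9} (hk : k ≠ 2) : (PP γ k)ᵀ = PP γ k := by
  rw [PP, transpose_mul, transpose_mul, h.symm, h.symm, h.Gm_transpose,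
    h.anti _ _ (pr_ne k hk).symm, neg_mul_neg, (Gm_pair h k).eq]

lemma pair_comm (h : IsGam γ) (k l : Fin 9) : Commute (γ k * γ (pr k)) (γ l * γ (pr l)) := by
  have hc : ∀ k l : Fin 9, l = k ∨ (l = pr k ∧ pr l = k) ∨
      (k ≠ l ∧ k ≠ pr l ∧ pr k ≠ l ∧ pr k ≠ pr l) := by decide
  rcases hc k l with rfl | ⟨h1, h2⟩ | ⟨h1, h2, h3, h4⟩
  · exact Commute.refl _
  · rw [h2, h1, Commute, SemiconjBy]
    simp only [mul_assoc, sq' h, h.sq]
  · exact Commute.mul_left (pass2 h h1 h2) (pass2 h h3 h4)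

lemma PP_comm (h : IsGam γ) (k l : Fin 9) : Commute (PP γ k) (PP γ l) :=
  Commute.mul_left ((pair_comm h k l).mul_right (Gm_pair h k).symm)
    ((Gm_pair h l).mul_right (Commute.refl _))

lemma PP_anti (h : IsGam γ) {k i : Fin 9} (h1 : k ≠ pr k) (h2 : i ≠ k) (h3 : i ≠ pr k)
    (hs : sg k * sg i = 1) :
    PP γ k * (γ k * γ i * Gm γ) = -(γ k * γ i * Gm γ * PP γ k) := by
  have e1 : Gm γ * (γ k * γ i) = γ k * γ i * Gm γ := by rw [Gm_mul2 h, hs, one_smul]
  have e2 : γ k * γ (pr k) * (γ k * γ i) = -(γ k * γ i * (γ k * γ (pr k))) := by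
    rw [mul_assoc (γ k) (γ i), pass2 h h2 h3, mul_assoc (γ k) (γ (pr k)), anti' h h1.symm, mul_neg,
      mul_assoc]
  calc PP γ k * (γ k * γ i * Gm γ)
      = γ k * γ (pr k) * (Gm γ * (γ k * γ i)) * Gm γ := by simp only [PP, mul_assoc]
    _ = -(γ k * γ i * (γ k * γ (pr k) * Gm γ) * Gm γ) := by
      rw [e1, ← mul_assoc, e2]
      simp only [neg_mul, mul_assoc]
    _ = _ := by
      rw [← (Gm_pair h k).eq, PP]
      simp only [mul_assoc]

lemma dot_zero {P M : M16} (hP : Pᵀ = P) (hPM : P * M = -(M * P)) {e : Fin 16 → ℝ} {t : ℝ}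
    (ht : t * t = 1) (he : P *ᵥ e = t • e) : e ⬝ᵥ (M *ᵥ e) = 0 := by
  have e1 := dot_mul P e (M *ᵥ e)
  rw [hP, mulVec_mulVec, hPM, neg_mulVec, ← mulVec_mulVec, he, mulVec_smul, smul_dotProduct,
    dotProduct_neg, dotProduct_smul, smul_eq_mul] at e1
  have e2 : t * e ⬝ᵥ (M *ᵥ e) = 0 := by linarith
  rw [← one_mul (e ⬝ᵥ _), ← ht, mul_assoc, e2, mul_zero]

lemma rho_off (h : IsGam γ) {e : Fin 16 → ℝ} {t : Fin 9 → ℝ}
    (he : ∀ k, k ≠ 2 → t k * t k = 1 ∧ PP γ k *ᵥ e = t k • e) {k i : Fin 9} (hi : i ≠ pr k) :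
    rho γ e e k i = 0 := by
  have key : ∀ k i, k ≠ 2 → i ≠ pr k → rho γ e e k i = 0 := by
    intro k i hk hi
    by_cases h1 : kk k = kk i
    · by_cases h2 : i = k
      · simp [rho_eq h, cf, h2]
      · rw [rho_eq h, dot_zero (PP_symm h hk) (PP_anti h (pr_ne k hk) h2 hi (sg_of_eq h1))
          (he k hk).1 (he k hk).2, mul_zero]
    · exact (h.rho_isRot e e).2 k i h1
  by_cases hk : k = 2
  · have hc : ∀ i : Fin 9, i ≠ pr 2 → i ≠ 2 ∧ 2 ≠ pr i := by decide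
    subst hk
    have e1 : rho γ e e 2 i = -rho γ e e i 2 := congrFun (congrFun (h.rho_isRot e e).1 i) 2
    rw [e1, key i 2 (hc i hi).1 (hc i hi).2, neg_zero]
  · exact key k i hk hi

lemma PP_gamma0 (h : IsGam γ) {k : Fin 9} (hk : k ≠ 2) :
    PP γ k * γ 0 = (-sg k) • (γ 0 * PP γ k) := by
  have e0 : Gm γ * γ 0 = γ 0 * Gm γ := by rw [Gm_mul h, sg, if_pos (by decide), one_smul]
  have hc : ∀ k : Fin 9, k ≠ 2 → k = 0 ∨ k = 1 ∨ (¬ k.val < 3 ∧ 0 ≠ k ∧ 0 ≠ pr k) := by decide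
  rw [PP, mul_assoc, e0, ← mul_assoc, ← mul_assoc (γ 0), ← smul_mul_assoc]
  congr 1
  rcases hc k hk with rfl | rfl | ⟨h1, h2, h3⟩
  · rw [sg, if_pos (by decide), neg_one_smul, mul_assoc, h.anti (pr 0) 0 (by decide), mul_neg]
  · rw [sg, if_pos (by decide), neg_one_smul, show pr 1 = 0 from rfl,
      anti' h (i := 0) (j := 1) (by decide), neg_neg, mul_assoc]
  · rw [sg, if_neg h1, neg_neg, one_smul, pass2 h h2 h3]

lemma sum_cf_pr : ∑ k, cf k (pr k) * sg k / 4 = -5 := by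
  simp [Fin.sum_univ_succ, cf, kk, sg, pr]
  norm_num

lemma raising (h : IsGam γ) {a : Fin 16 → ℝ}
    (ha : ∀ k, k ≠ 2 → ∃ s : ℝ, s * s = 1 ∧ PP γ k *ᵥ a = s • a) :
    ∃ e : Fin 16 → ℝ, e ⬝ᵥ e = 1 ∧ hat γ (rho γ e e) *ᵥ a = (-5 : ℝ) • (Gm γ *ᵥ a) := by
  by_cases ha0 : a = 0
  · exact ⟨eb 0, by simp [eb], by simp [ha0]⟩
  choose! s hs1 hs2 using ha
  have hpos : 0 < a ⬝ᵥ a := lt_of_le_of_ne (Finset.sum_nonneg fun i _ => mul_self_nonneg _)
    fun e => ha0 (dotProduct_self_eq_zero.1 e.symm)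
  obtain ⟨e, he⟩ : ∃ e, e = (√(a ⬝ᵥ a))⁻¹ • (γ 0 *ᵥ a) := ⟨_, rfl⟩
  have e1 : e ⬝ᵥ e = 1 := by
    rw [he, smul_dotProduct, dotProduct_smul, dot_mul, h.symm, mulVec_mulVec, h.sq, one_mulVec,
      smul_eq_mul, smul_eq_mul, ← mul_assoc, ← mul_inv, Real.mul_self_sqrt hpos.le,
      inv_mul_cancel₀ hpos.ne']
  have e2 : ∀ k, k ≠ 2 → (-sg k * s k) * (-sg k * s k) = 1 ∧ PP γ k *ᵥ e = (-sg k * s k) • e := by
    intro k hk
    constructor
    · linear_combination (s k * s k) * sg_sq k + hs1 k hk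
    · rw [he, mulVec_smul, mulVec_mulVec, PP_gamma0 h hk, smul_mulVec, ← mulVec_mulVec, hs2 k hk,
        mulVec_smul, smul_smul (-sg k), smul_comm]
  refine ⟨e, e1, ?_⟩
  rw [hat, sum_mulVec, ← sum_cf_pr, Finset.sum_smul]
  refine Finset.sum_congr rfl fun k _ => ?_
  rw [Finset.sum_eq_single (pr k) (fun i _ hi => by rw [rho_off h e2 hi, zero_div, zero_smul])
    (by simp), rho_eq h]
  by_cases hk : k = 2
  · simp [hk, cf, show pr 2 = 2 from rfl]
  have e3 : (γ k * γ (pr k)) *ᵥ a = -(s k • (Gm γ *ᵥ a)) := by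
    rw [← mulVec_smul, ← hs2 k hk, mulVec_mulVec, PP, ← mul_assoc, (Gm_pair h k).eq, mul_assoc,
      h.Gm_sq, mul_neg_one, neg_mulVec, neg_neg]
  have e4 := (e2 k hk).2
  rw [PP] at e4
  rw [e4, dotProduct_smul, e1, smul_mulVec, e3, smul_neg, smul_smul, ← neg_smul, smul_eq_mul]
  congr 1
  linear_combination (cf k (pr k) * sg k / 4) * hs1 k hk

lemma span_joint (h : IsGam γ) (K : Finset (Fin 9)) : ⊤ ≤ Submodule.span ℝ {a : Fin 16 → ℝ |
    ∀ k ∈ K, k ≠ 2 → ∃ s : ℝ, s * s = 1 ∧ PP γ k *ᵥ a = s • a} := by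
  induction K using Finset.induction_on with
  | empty => exact fun a _ => Submodule.subset_span fun k hk => absurd hk (Finset.notMem_empty k)
  | insert l K _ ih =>
    refine ih.trans (Submodule.span_le.2 fun a ha => ?_)
    by_cases hl : l = 2
    · refine Submodule.subset_span fun k hk hk2 => ha k ?_ hk2
      exact (Finset.mem_insert.1 hk).resolve_left (hl ▸ hk2)
    have key : ∀ t : ℝ, t * t = 1 → ∀ k ∈ insert l K, k ≠ 2 → ∃ s : ℝ, s * s = 1 ∧
        PP γ k *ᵥ (a + t • (PP γ l *ᵥ a)) = s • (a + t • (PP γ l *ᵥ a)) := by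
      intro t ht k hk hk2
      rcases Finset.mem_insert.1 hk with rfl | hk
      · refine ⟨t, ht, ?_⟩
        rw [mulVec_add, mulVec_smul, mulVec_mulVec, PP_sq h hl, one_mulVec, smul_add, smul_smul, ht,
          one_smul, add_comm]
      · obtain ⟨s, hs, hs'⟩ := ha k hk hk2
        refine ⟨s, hs, ?_⟩
        rw [mulVec_add, mulVec_smul, mulVec_mulVec, (PP_comm h k l).eq, ← mulVec_mulVec, hs',
          mulVec_smul, smul_add, smul_comm]
    have e : a = (1 / 2 : ℝ) • (a + (1 : ℝ) • (PP γ l *ᵥ a)) +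
        (1 / 2 : ℝ) • (a + (-1 : ℝ) • (PP γ l *ᵥ a)) := by module
    rw [e]
    exact Submodule.add_mem _
      (Submodule.smul_mem _ _ (Submodule.subset_span (key 1 (by norm_num))))
      (Submodule.smul_mem _ _ (Submodule.subset_span (key (-1) (by norm_num))))

end Gam1Aux

theorem IsGam.exists_raising (h : IsGam γ) : ⊤ ≤ Submodule.span ℝ {a : Fin 16 → ℝ |
    ∃ e : Fin 16 → ℝ, e ⬝ᵥ e = 1 ∧ hat γ (rho γ e e) *ᵥ a = (-5 : ℝ) • (Gm γ *ᵥ a)} :=
  (span_joint h Finset.univ).trans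
    (Submodule.span_mono fun _ ha => raising h fun k => ha k (Finset.mem_univ k))

/-- the generator of rotations in the `(7,8)` plane -/
def rot78 : Matrix (Fin 9) (Fin 9) ℝ := Matrix.single 7 8 1 - Matrix.single 8 7 1

theorem IsGam.sum_rho_78 (h : IsGam γ) :
    ∑ α, rho γ (eb α) ((Gm γ * γ 7 * γ 8) *ᵥ eb α) = (32 : ℝ) • rot78 := by
  ext k i
  have e := sum_eb_dot 1 (γ k * γ i * Gm γ * (Gm γ * γ 7 * γ 8))
  have e2 : γ k * γ i * Gm γ * (Gm γ * γ 7 * γ 8) = -(γ k * (γ i * (γ 7 * γ 8))) := by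
    rw [mul_assoc (Gm γ), mul_assoc, ← mul_assoc (Gm γ), h.Gm_sq, neg_one_mul, mul_neg, mul_assoc]
  simp only [one_mulVec, transpose_one, one_mul] at e
  simp only [Matrix.sum_apply, rho_eq h, mulVec_mulVec, ← Finset.mul_sum]
  rw [e, e2, trace_neg, trace_four h]
  simp only [rot78, Matrix.smul_apply, Matrix.sub_apply, single_apply, dl, cf, kk, sg, smul_eq_mul]
  fin_cases k <;> fin_cases i <;> simp <;> norm_num

theorem IsGam.hat_rot78 (h : IsGam γ) : hat γ rot78 = (1 / 2 : ℝ) • (γ 7 * γ 8) := by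
  simp only [hat, rot78, Matrix.sub_apply, single_apply, sub_div, sub_smul, Finset.sum_sub_distrib,
    ite_and, ite_div, zero_div, ite_smul, zero_smul, Finset.sum_ite_irrel, Finset.sum_const_zero,
    Finset.sum_ite_eq, Finset.mem_univ, if_true]
  rw [h.anti 8 7 (by decide)]
  module

theorem rot78_isRot : IsRot rot78 := by
  refine ⟨by simp [rot78], fun k i hki => ?_⟩
  have e : kk 7 = kk 8 := by simp [kk]
  rw [rot78, Matrix.sub_apply, single_apply, single_apply, if_neg, if_neg, sub_zero]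
  · rintro ⟨rfl, rfl⟩
    exact hki e.symm
  · rintro ⟨rfl, rfl⟩
    exact hki e

end Vale.Agent.P353
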