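import Vale.Agent.P353.Bas3
import Vale.Agent.P353.Gam1
import Vale.Agent.P353.Car2

/-! Gauge action on the fermions. -/

noncomputable section

open MeasureTheory Filter Topology Complex Matrix
open scoped ContDiff RealInnerProductSpace

namespace Vale.Agent.P353

namespace Cov1Aux

theorem exp_fix {F : Type} [NormedAddCommGroup F] [InnerProductSpace ℂ F] [FiniteDimensional ℂ F]
    {A : F →L[ℂ] F} {x : F} (h : A x = 0) : NormedSpace.exp A x = x := by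
  have h1 := (NormedSpace.exp_series_hasSum_exp' (𝕂 := ℂ) A).mapL
    (ContinuousLinearMap.apply ℂ F x)
  have h2 : HasSum (fun n : ℕ => ContinuousLinearMap.apply ℂ F x ((n.factorial⁻¹ : ℂ) • A ^ n))
      (ContinuousLinearMap.apply ℂ F x (((0 : ℕ).factorial⁻¹ : ℂ) • A ^ 0)) := by
    refine hasSum_single 0 fun n hn => ?_
    obtain ⟨k, rfl⟩ := Nat.exists_eq_succ_of_ne_zero hn
    simp [pow_succ, h]
  simpa using h1.unique h2

theorem exp_pi {A : Type} [NormedRing A] [NormedAlgebra ℝ A] [CompleteSpace A] {K : A}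
    (h : K * K = -1) : NormedSpace.exp (Real.pi • K) = -1 := by
  let f : ℂ →ₐ[ℝ] A := Complex.lift ⟨K, h⟩
  have hf : Continuous f := f.toLinearMap.continuous_of_finiteDimensional
  have h1 := NormedSpace.map_exp_of_mem_ball (𝕂 := ℝ) f hf (Real.pi * I)
    ((NormedSpace.expSeries_radius_eq_top ℝ ℂ).symm ▸ edist_lt_top _ _)
  have h2 : f (Real.pi * I) = Real.pi • K := by simp [f, Complex.liftAux_apply]
  rw [← Complex.exp_eq_exp_ℂ, Complex.exp_pi_mul_I, h2] at h1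
  rw [← h1, map_neg, map_one]

theorem sup_proj {V : Type} [NormedAddCommGroup V] [InnerProductSpace ℝ V] [FiniteDimensional ℝ V]
    {𝔟 𝔟' : Submodule ℝ V} (h : 𝔟 ⟂ 𝔟') :
    (𝔟 ⊔ 𝔟').starProjection = 𝔟.starProjection + 𝔟'.starProjection := by
  ext1 x
  refine Submodule.eq_starProjection_of_mem_orthogonal
    (Submodule.add_mem_sup (𝔟.starProjection_apply_mem x) (𝔟'.starProjection_apply_mem x)) ?_
  rw [← Submodule.inf_orthogonal]
  constructor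
  · have := sub_mem (𝔟.sub_starProjection_mem_orthogonal x)
      (h.symm.le (𝔟'.starProjection_apply_mem x))
    rwa [sub_sub] at this
  · have := sub_mem (𝔟'.sub_starProjection_mem_orthogonal x) (h.le (𝔟.starProjection_apply_mem x))
    rwa [sub_sub, add_comm] at this

theorem skew_kr {d : ℕ} {M : M16} {a : Lg d →L[ℝ] Lg d} (hM : Mᵀ = -M) (ha : IsSym a) :
    IsSkew (kr M a) := fun x y => by
  rw [inner_kr M a a ha, hM, kr_neg_left, ContinuousLinearMap.neg_apply, inner_neg_right]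

theorem skew_kr_one {d : ℕ} {a : Lg d →L[ℝ] Lg d} (ha : IsSkew a) :
    IsSkew (kr (1 : M16) a) := fun x y => by
  rw [inner_kr 1 a (-a) (fun u v => by
    rw [ha u v, ContinuousLinearMap.neg_apply, inner_neg_right]), Matrix.transpose_one,
    kr_neg_right, ContinuousLinearMap.neg_apply, inner_neg_right]

theorem g78_skew {γ : Fin 9 → M16} (h : IsGam γ) :
    (Real.pi • (γ 7 * γ 8))ᵀ = -(Real.pi • (γ 7 * γ 8)) := by
  rw [Matrix.transpose_smul, Matrix.transpose_mul, h.symm, h.symm, h.anti 8 7 (by decide), smul_neg]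

theorem g78_comm {γ : Fin 9 → M16} (h : IsGam γ) :
    Real.pi • (γ 7 * γ 8) * Gm γ = Gm γ * Real.pi • (γ 7 * γ 8) := by
  have h7 : Gm γ * γ 7 = -(γ 7 * Gm γ) := by simpa using h.Gm_comm 7
  have h8 : Gm γ * γ 8 = -(γ 8 * Gm γ) := by simpa using h.Gm_comm 8
  rw [Matrix.smul_mul, Matrix.mul_smul, ← Matrix.mul_assoc, h7, Matrix.neg_mul, Matrix.mul_assoc,
    Matrix.mul_assoc, h8, Matrix.mul_neg, neg_neg]

theorem g78_sq {γ : Fin 9 → M16} (h : IsGam γ) : γ 7 * γ 8 * (γ 7 * γ 8) = -1 := by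
  rw [Matrix.mul_assoc, ← Matrix.mul_assoc (γ 8), h.anti 8 7 (by decide), Matrix.neg_mul,
    Matrix.mul_assoc, h.sq, Matrix.mul_one, Matrix.mul_neg, h.sq]

end Cov1Aux

open Cov1Aux

namespace Ctx

variable {N d : ℕ} {F : Type} [NormedAddCommGroup F] [InnerProductSpace ℂ F]
  [FiniteDimensional ℂ F] (c : Ctx N d F)

variable {π π' π'' : Setoid (Fin N)} {𝔞 𝔴 : Submodule ℝ (Lg d)}

theorem U_inv_mul (u : UN N) : c.U u⁻¹ * c.U u = 1 := by
  rw [← map_mul, inv_mul_cancel, map_one]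

theorem U_mul_inv (u : UN N) : c.U u * c.U u⁻¹ = 1 := by
  rw [← map_mul, mul_inv_cancel, map_one]

theorem inner_U (u : UN N) (a b : F) : inner ℂ (c.U u a) (c.U u b) = inner ℂ a b := 
  (⟨(c.U u : F →ₗ[ℂ] F), c.Uiso u⟩ : F →ₗᵢ[ℂ] F).inner_map_map a b

theorem inner_U_left (u : UN N) (a b : F) : inner ℂ (c.U u a) b = inner ℂ a (c.U u⁻¹ b) := by
  rw [← c.inner_U u a, ← ContinuousLinearMap.mul_apply, c.U_mul_inv, ContinuousLinearMap.one_apply]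

theorem kr_Ad_mul_inv (u : UN N) : kr (1 : M16) (c.Ad u) * kr 1 (c.Ad u⁻¹) = 1 := by
  rw [kr_mul, ← c.Ad_mul, mul_inv_cancel, c.Ad_one, Matrix.one_mul, kr_one]

theorem kr_Ad_inv_mul (u : UN N) : kr (1 : M16) (c.Ad u⁻¹) * kr 1 (c.Ad u) = 1 := by
  rw [kr_mul, ← c.Ad_mul, inv_mul_cancel, c.Ad_one, Matrix.one_mul, kr_one]

theorem U_dG (u : UN N) (a : Tn 16 d →L[ℝ] Tn 16 d) :
    c.U u * dG c.θ a = dG c.θ (kr 1 (c.Ad u) * a * kr 1 (c.Ad u⁻¹)) * c.U u := 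
  dG_conj (fun x y => by rw [inner_kr 1 _ _ (c.inner_Ad_left u), Matrix.transpose_one])
    (c.kr_Ad_mul_inv u) (c.Uθ u) a

theorem U_vac (u : UN N) (J : Tn 16 d →L[ℝ] Tn 16 d) :
    c.U u * vac c.θ J = vac c.θ (kr 1 (c.Ad u) * J * kr 1 (c.Ad u⁻¹)) * c.U u := 
  vac_conj (c.kr_Ad_mul_inv u) (c.kr_Ad_inv_mul u) (c.Uiso u) (c.Uθ u) J

theorem U_P0 {u : UN N} {𝔟 𝔟' : Submodule ℝ (Lg d)} (h : ∀ x, c.Ad u x ∈ 𝔟' ↔ x ∈ 𝔟) :
    c.U u * c.P0 𝔟 = c.P0 𝔟' * c.U u := by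
  rw [P0, P0, U_vac, kr_mul, kr_mul, c.Ad_starProjection h, mul_assoc, mul_assoc, ← c.Ad_mul,
    mul_inv_cancel, c.Ad_one, mul_one, mul_one, one_mul]

theorem isPCS_Gm (𝔴 : Submodule ℝ (Lg d)) : IsPCS (kr (Gm c.γ) 𝔴.starProjection) := by
  refine ⟨skew_kr c.gam.Gm_transpose 𝔴.inner_starProjection_left_eq_right, ?_⟩
  rw [kr_mul, kr_mul, c.gam.Gm_sq, 𝔴.isIdempotentElem_starProjection.eq,
    𝔴.isIdempotentElem_starProjection.eq, neg_one_mul, kr_neg_left]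

theorem Gm_supp (𝔴 : Submodule ℝ (Lg d)) :
    -(kr (Gm c.γ) 𝔴.starProjection * kr (Gm c.γ) 𝔴.starProjection) = kr 1 𝔴.starProjection := by
  rw [kr_mul, c.gam.Gm_sq, 𝔴.isIdempotentElem_starProjection.eq, kr_neg_left, neg_neg]

theorem P0_sup {𝔟 𝔟' : Submodule ℝ (Lg d)} (h : 𝔟 ⟂ 𝔟') : c.P0 (𝔟 ⊔ 𝔟') = c.P0 𝔟 * c.P0 𝔟' := by
  rw [P0, sup_proj h, kr_add_right]
  refine c.car.vac_add (c.isPCS_Gm _) (c.isPCS_Gm _) ?_
  have : 𝔟.starProjection * 𝔟'.starProjection = 0 := h.starProjection_comp_starProjection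
  rw [kr_mul, this, kr_zero_right]

theorem P0_bot : c.P0 ⊥ = 1 := by
  rw [P0, Submodule.starProjection_bot, kr_zero_right, vac_zero]

theorem P0_theta {y : Tn 16 d} (hy : y ∈ sub 16 𝔴ᗮ) : c.P0 𝔴 * c.θ y = c.θ y * c.P0 𝔴 := by
  refine c.car.vac_theta_comm (c.isPCS_Gm _) (ext_cmp fun i => ?_)
  rw [cmp_kr, map_zero]
  refine Finset.sum_eq_zero fun j _ => ?_
  rw [(Submodule.starProjection_apply_eq_zero_iff _).2 (mem_sub.1 hy j), smul_zero]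

theorem dG_P0 {a : Lg d →L[ℝ] Lg d} (ha : IsSkew a) (h1 : 𝔴.starProjection * a = a)
    (h2 : a * 𝔴.starProjection = a) : dG c.θ (kr 1 a) * c.P0 𝔴 = 0 := by
  rw [P0, c.car.dG_vac (c.isPCS_Gm _) (skew_kr_one ha), kr_mul, trR_kr, mul_one, c.gam.trace_Gm]
  · simp
  · rw [kr_mul, kr_mul, h1, h2, one_mul, mul_one]
  · rw [Gm_supp, kr_mul, h1, one_mul]

/-- the gauge generators of `blk π` act on the constrained space through `ss π` only -/
theorem Gs_P0 {ξ : Lg d} (hξ : ξ ∈ c.blk π) : c.Gs ξ * c.P0 (c.ss π)ᗮ =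
    dG c.θ (kr 1 (c.adw (c.ss π) ξ)) * c.P0 (c.ss π)ᗮ := by
  have h1 := c.ad_starProjection (y := ξ) (𝔟 := c.ss π) fun x hx => c.ad_mem_ss hξ hx.1
  have h2 := (c.ss π).isIdempotentElem_starProjection.eq
  have h3 := (c.ss π).starProjection_orthogonal'
  have h4 := (c.ss π)ᗮ.isIdempotentElem_starProjection.eq
  have e : c.ad ξ = c.adw (c.ss π) ξ + c.adw (c.ss π)ᗮ ξ := by
    rw [adw, adw, h3, sub_mul, one_mul, ← h1, mul_sub, mul_one, sub_mul, mul_assoc _ _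
      (c.ss π).starProjection, h2]
    abel
  have h5 : dG c.θ (kr 1 (c.adw (c.ss π)ᗮ ξ)) * c.P0 (c.ss π)ᗮ = 0 := by
    refine c.dG_P0 (fun u v => ?_) ?_ ?_
    · simp only [adw, ContinuousLinearMap.mul_apply]
      rw [Submodule.inner_starProjection_left_eq_right, c.ad_skew,
        Submodule.inner_starProjection_left_eq_right]
    · rw [adw, ← mul_assoc, ← mul_assoc, h4]
    · rw [adw, mul_assoc, h4]
  rw [Gs, e, kr_add_right, dG_add, add_mul, h5, add_zero]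

theorem Gs_skew (ξ : Lg d) (a b : F) : inner ℂ (c.Gs ξ a) b = -inner ℂ a (c.Gs ξ b) := 
  c.car.dG_skew (skew_kr_one (c.ad_skew ξ)) a b

theorem Gs_theta (ξ : Lg d) (y : Tn 16 d) :
    c.Gs ξ * c.θ y - c.θ y * c.Gs ξ = c.θ (kr 1 (c.ad ξ) y) := 
  c.car.dG_comm (skew_kr_one (c.ad_skew ξ)) y

theorem exists_GsL : ∃ L : Lg d →L[ℝ] F →L[ℂ] F, ∀ ξ, L ξ = c.Gs ξ := by
  obtain ⟨L1, h1⟩ := c.exists_adL
  obtain ⟨L2, h2⟩ := exists_krL (d := d) (1 : M16)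
  obtain ⟨L3, h3⟩ := exists_dGL c.θ
  exact ⟨L3 ∘L L2 ∘L L1, fun ξ => by simp [h1, h2, h3, Gs]⟩

theorem exists_vfL : ∃ L : Lg d →L[ℝ] Tn 9 d →L[ℝ] Tn 9 d, ∀ ξ, L ξ = c.vf ξ := by
  obtain ⟨L1, h1⟩ := c.exists_adL
  obtain ⟨L2, h2⟩ := exists_krL (d := d) (1 : Matrix (Fin 9) (Fin 9) ℝ)
  exact ⟨L2 ∘L L1, fun ξ => by simp [h1, h2, vf]⟩

theorem par_skew : IsSkew (kr (Real.pi • (c.γ 7 * c.γ 8)) (1 : Lg d →L[ℝ] Lg d)) :=
  skew_kr (g78_skew c.gam) fun _ _ => rfl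

theorem par_comm (𝔴 : Submodule ℝ (Lg d)) :
    kr (Real.pi • (c.γ 7 * c.γ 8)) (1 : Lg d →L[ℝ] Lg d) * kr (Gm c.γ) 𝔴.starProjection =
      kr (Gm c.γ) 𝔴.starProjection * kr (Real.pi • (c.γ 7 * c.γ 8)) 1 := by
  rw [kr_mul, kr_mul, g78_comm c.gam, one_mul, mul_one]

/-- the full Fock vacuum -/
theorem exists_fock : ∃ Ω : F, ‖Ω‖ = 1 ∧ (∀ x, c.P0 ⊤ x = inner ℂ Ω x • Ω) ∧
    (∀ u, c.U u Ω = Ω) ∧ c.Par Ω = Ω := by
  have := c.ntriv
  have ht : (⊤ : Submodule ℝ (Lg d)).starProjection = 1 := Submodule.starProjection_top'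
  have hs := (c.Gm_supp ⊤).trans ((congrArg (kr 1) ht).trans kr_one)
  obtain ⟨Ω, h1, h2⟩ := c.car.rank_one c.irr (c.isPCS_Gm ⊤).1 (neg_eq_iff_eq_neg.1 hs)
  have h3 : c.P0 ⊤ Ω = Ω := by
    rw [P0, h2, inner_self_eq_norm_sq_to_K, h1]; simp
  refine ⟨Ω, h1, h2, fun u => ?_, exp_fix ?_⟩
  · obtain ⟨y, t, h, -⟩ := c.exists_log u
    rw [c.Uexp y t u h]
    refine exp_fix ?_
    rw [← h3, ← ContinuousLinearMap.mul_apply, c.dG_P0 (c.ad_skew y), ContinuousLinearMap.zero_apply]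
    · rw [ht, one_mul]
    · rw [ht, mul_one]
  · rw [← h3, ← ContinuousLinearMap.mul_apply, P0,
      c.car.dG_vac (c.isPCS_Gm ⊤) c.par_skew (c.par_comm ⊤), kr_mul, trR_kr, Matrix.mul_smul,
      Matrix.trace_smul, ← Matrix.mul_assoc, c.gam.trace_Gm_two]
    · simp
    · rw [hs, one_mul]

theorem Par_theta (y : Tn 16 d) : c.Par * c.θ y = -(c.θ y * c.Par) := by
  have h : NormedSpace.exp (kr (Real.pi • (c.γ 7 * c.γ 8)) (1 : Lg d →L[ℝ] Lg d)) = -1 := by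
    rw [kr_smul_left]
    refine exp_pi (A := Tn 16 d →L[ℝ] Tn 16 d) ?_
    rw [kr_mul, g78_sq c.gam, mul_one, kr_neg_left, kr_one]
  rw [Par, c.car.exp_dG_theta c.par_skew, h]
  simp

theorem Par_sq : c.Par * c.Par = 1 := by
  obtain ⟨z, hz⟩ := c.car.schur c.irr (a := c.Par * c.Par) fun y => by
    rw [mul_assoc, Par_theta, mul_neg, ← mul_assoc, Par_theta, neg_mul, neg_neg, mul_assoc]
  obtain ⟨Ω, h1, -, -, h2⟩ := c.exists_fock
  have h3 : (c.Par * c.Par) Ω = Ω := by rw [ContinuousLinearMap.mul_apply, h2, h2]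
  have h4 : Ω ≠ 0 := by rintro rfl; simp at h1
  rw [hz] at h3
  have h5 : z • Ω = (1 : ℂ) • Ω := by simpa using h3
  rw [hz, smul_left_injective ℂ h4 h5, one_smul]

theorem Par_U (u : UN N) : c.Par * c.U u = c.U u * c.Par := by
  have h := c.U_dG u (kr (Real.pi • (c.γ 7 * c.γ 8)) 1)
  rw [kr_mul, kr_mul, mul_one, mul_one, one_mul, ← c.Ad_mul, mul_inv_cancel, c.Ad_one] at h
  exact (Commute.exp_right h).eq.symm

theorem Par_P0 (𝔴 : Submodule ℝ (Lg d)) : c.Par * c.P0 𝔴 = c.P0 𝔴 * c.Par := 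
  (Commute.exp_left (c.car.dG_vac_comm (c.isPCS_Gm 𝔴) c.par_skew (c.par_comm 𝔴))).eq

theorem norm_Par (a : F) : ‖c.Par a‖ = ‖a‖ := c.car.norm_exp_dG c.par_skew a

end Ctx

end Vale.Agent.P353
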