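import Vale.Agent.P353.Bas3
import Vale.Agent.P353.Gam1
import Vale.Agent.P353.Ga1

/-! Symbols, commutator term and potential. -/

noncomputable section

open MeasureTheory Filter Topology Complex Matrix
open scoped ContDiff RealInnerProductSpace

namespace Vale.Agent.P353

namespace Ctx

variable {N d : ℕ} {F : Type} [NormedAddCommGroup F] [InnerProductSpace ℂ F]
  [FiniteDimensional ℂ F] (c : Ctx N d F)

variable {π π' π'' : Setoid (Fin N)} {𝔞 𝔴 : Submodule ℝ (Lg d)}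

theorem sE_apply (e : Fin 16 → ℝ) (x : Tn 9 d) :
    c.sE e x = ∑ i, tens (c.γ i *ᵥ e) (cmp i x) := by
  unfold sE
  rw [_root_.sum_apply]
  rfl

theorem Km_apply (e : Fin 16 → ℝ) (x : Tn 9 d) :
    c.Km e x = ∑ i, kk i • tens ((c.γ i * Gm c.γ) *ᵥ e) (cmp i x) := by
  unfold Km
  rw [_root_.sum_apply]
  rfl

theorem sE_tens (e : Fin 16 → ℝ) (v : Fin 9 → ℝ) (y : Lg d) :
    c.sE e (tens v y) = tens ((∑ i, v i • c.γ i) *ᵥ e) y := by
  rw [sE_apply, Matrix.sum_mulVec, tens_sum]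
  refine Finset.sum_congr rfl fun i _ => ?_
  rw [cmp_tens, map_smul, Matrix.smul_mulVec, tens_smul]

private theorem kr_one_tens {n : ℕ} (a : Lg d →L[ℝ] Lg d) (v : Fin n → ℝ) (y : Lg d) :
    kr 1 a (tens v y) = tens v (a y) := by
  rw [kr_tens, Matrix.one_mulVec]

theorem sE_kr (e : Fin 16 → ℝ) (a : Lg d →L[ℝ] Lg d) (x : Tn 9 d) :
    c.sE e (kr 1 a x) = kr 1 a (c.sE e x) := by
  rw [sE_apply, sE_apply, map_sum]
  refine Finset.sum_congr rfl fun i _ => ?_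
  rw [cmp_kr_one, kr_one_tens]

theorem Km_kr (e : Fin 16 → ℝ) (a : Lg d →L[ℝ] Lg d) (x : Tn 9 d) :
    c.Km e (kr 1 a x) = kr 1 a (c.Km e x) := by
  rw [Km_apply, Km_apply, map_sum]
  refine Finset.sum_congr rfl fun i _ => ?_
  rw [cmp_kr_one, map_smul, kr_one_tens]

private theorem cmp_Afree (i : Fin 9) (x : Tn 9 d) : cmp i (Afree d x) = |kk i| • cmp i x := by
  unfold Afree
  rw [cmp_kr, Finset.sum_eq_single i]
  · rw [Matrix.diagonal_apply_eq]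
    rfl
  · intro j _ hj
    rw [Matrix.diagonal_apply_ne _ hj.symm, zero_smul]
  · intro h
    exact absurd (Finset.mem_univ i) h

theorem Km_eq (e : Fin 16 → ℝ) (x : Tn 9 d) :
    c.Km e x = -kr (Gm c.γ) 1 (c.sE e (Afree d x)) := by
  rw [Km_apply, sE_apply, map_sum, ← Finset.sum_neg_distrib]
  refine Finset.sum_congr rfl fun i _ => ?_
  rw [cmp_Afree, map_smul, map_smul, kr_tens, Matrix.mulVec_mulVec, ← tens_smul, ← tens_smul,
    ← Matrix.smul_mulVec, ← Matrix.smul_mulVec, c.gam.kk_Gm, Matrix.neg_mulVec, tens_neg]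
  rfl

/-- the symmetric bilinear map behind `Phi` -/
private def Bl (e : Fin 16 → ℝ) (y x : Tn 9 d) : Tn 16 d :=
  ∑ i, ∑ j, tens (gamma2 c.γ j i *ᵥ e) (c.ad (cmp i y) (cmp j x))

private theorem Phi_eq_Bl (e : Fin 16 → ℝ) (x : Tn 9 d) :
    c.Phi e x = (1 / 2 : ℝ) • c.Bl e x x := rfl

private theorem Bl_symm (e : Fin 16 → ℝ) (y x : Tn 9 d) : c.Bl e y x = c.Bl e x y := by
  unfold Bl
  rw [Finset.sum_comm]
  refine Finset.sum_congr rfl fun i _ => Finset.sum_congr rfl fun j _ => ?_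
  rw [gamma2_swap j i, c.ad_anti, map_neg, Matrix.neg_mulVec, tens_neg, neg_neg]

private theorem exists_BlL (e : Fin 16 → ℝ) :
    ∃ L : Tn 9 d →L[ℝ] Tn 9 d →L[ℝ] Tn 16 d, ∀ y x, L y x = c.Bl e y x := by
  obtain ⟨A, hA⟩ := c.exists_adL
  refine ⟨∑ i, ∑ j, ((ContinuousLinearMap.compL ℝ (Tn 9 d) (Lg d) (Tn 16 d)
    (tens (gamma2 c.γ j i *ᵥ e))) ∘L (A.bilinearComp (cmp i) (cmp j))), fun y x => ?_⟩
  unfold Bl
  simp only [_root_.sum_apply, ContinuousLinearMap.comp_apply,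
    ContinuousLinearMap.compL_apply, ContinuousLinearMap.bilinearComp_apply, hA]

private theorem Bl_add_left (e : Fin 16 → ℝ) (y z x : Tn 9 d) :
    c.Bl e (y + z) x = c.Bl e y x + c.Bl e z x := by
  obtain ⟨L, hL⟩ := c.exists_BlL e
  rw [← hL, ← hL, ← hL, map_add, _root_.add_apply]

private theorem Bl_add_right (e : Fin 16 → ℝ) (x y z : Tn 9 d) :
    c.Bl e x (y + z) = c.Bl e x y + c.Bl e x z := by
  obtain ⟨L, hL⟩ := c.exists_BlL e
  rw [← hL, ← hL, ← hL, map_add]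

theorem Phi_Ad9 (e : Fin 16 → ℝ) (u : UN N) (x : Tn 9 d) :
    c.Phi e (c.Ad9 u x) = kr 1 (c.Ad u) (c.Phi e x) := by
  unfold Phi Ad9
  rw [map_smul, map_sum]
  refine congrArg _ (Finset.sum_congr rfl fun i _ => ?_)
  rw [map_sum]
  refine Finset.sum_congr rfl fun j _ => ?_
  rw [cmp_kr_one, cmp_kr_one, kr_one_tens, c.Ad_ad]

theorem beta_Ad9 (g m : ℝ) (e : Fin 16 → ℝ) (u : UN N) (x : Tn 9 d) :
    c.beta g m e (c.Ad9 u x) = kr 1 (c.Ad u) (c.beta g m e x) := by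
  unfold beta
  rw [Phi_Ad9, map_add, map_smul, map_smul, ← Km_kr]
  rfl

theorem sE_add (e e' : Fin 16 → ℝ) : c.sE (e + e') = c.sE e + c.sE e' := by
  refine ContinuousLinearMap.ext fun x => ?_
  rw [_root_.add_apply, sE_apply, sE_apply, sE_apply, ← Finset.sum_add_distrib]
  refine Finset.sum_congr rfl fun i _ => ?_
  rw [Matrix.mulVec_add, tens_add]

theorem sE_smul (t : ℝ) (e : Fin 16 → ℝ) : c.sE (t • e) = t • c.sE e := by
  refine ContinuousLinearMap.ext fun x => ?_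
  rw [_root_.smul_apply, sE_apply, sE_apply, Finset.smul_sum]
  refine Finset.sum_congr rfl fun i _ => ?_
  rw [Matrix.mulVec_smul, tens_smul]

private theorem Phi_add_e (e e' : Fin 16 → ℝ) (x : Tn 9 d) :
    c.Phi (e + e') x = c.Phi e x + c.Phi e' x := by
  unfold Phi
  rw [← smul_add, ← Finset.sum_add_distrib]
  refine congrArg _ (Finset.sum_congr rfl fun i _ => ?_)
  rw [← Finset.sum_add_distrib]
  refine Finset.sum_congr rfl fun j _ => ?_
  rw [Matrix.mulVec_add, tens_add]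

private theorem Phi_smul_e (t : ℝ) (e : Fin 16 → ℝ) (x : Tn 9 d) :
    c.Phi (t • e) x = t • c.Phi e x := by
  unfold Phi
  rw [smul_comm t, Finset.smul_sum (r := t)]
  refine congrArg _ (Finset.sum_congr rfl fun i _ => ?_)
  rw [Finset.smul_sum]
  refine Finset.sum_congr rfl fun j _ => ?_
  rw [Matrix.mulVec_smul, tens_smul]

private theorem Km_add_e (e e' : Fin 16 → ℝ) (x : Tn 9 d) :
    c.Km (e + e') x = c.Km e x + c.Km e' x := by
  rw [Km_eq, Km_eq, Km_eq, sE_add, _root_.add_apply, map_add, neg_add]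

private theorem Km_smul_e (t : ℝ) (e : Fin 16 → ℝ) (x : Tn 9 d) :
    c.Km (t • e) x = t • c.Km e x := by
  rw [Km_eq, Km_eq, sE_smul, _root_.smul_apply, map_smul, smul_neg]

theorem beta_add (g m : ℝ) (e e' : Fin 16 → ℝ) (x : Tn 9 d) :
    c.beta g m (e + e') x = c.beta g m e x + c.beta g m e' x := by
  unfold beta
  rw [Phi_add_e, Km_add_e, smul_add, smul_add, add_add_add_comm]

theorem beta_smul (g m t : ℝ) (e : Fin 16 → ℝ) (x : Tn 9 d) :
    c.beta g m (t • e) x = t • c.beta g m e x := by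
  unfold beta
  rw [Phi_smul_e, Km_smul_e, smul_add, smul_comm g t, smul_comm m t]

theorem sE_mem (e : Fin 16 → ℝ) {x : Tn 9 d} (hx : x ∈ sub 9 𝔞) : c.sE e x ∈ sub 16 𝔞 := by
  rw [sE_apply]
  exact Submodule.sum_mem _ fun i _ => tens_mem_sub _ (mem_sub.1 hx i)

theorem Km_mem (e : Fin 16 → ℝ) {x : Tn 9 d} (hx : x ∈ sub 9 𝔞) : c.Km e x ∈ sub 16 𝔞 := by
  rw [Km_apply]
  exact Submodule.sum_mem _ fun i _ => Submodule.smul_mem _ _ (tens_mem_sub _ (mem_sub.1 hx i))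

theorem Phi_mem (e : Fin 16 → ℝ) {x : Tn 9 d} (hx : x ∈ sub 9 (c.blk π)) :
    c.Phi e x ∈ sub 16 (c.ss π) := by
  unfold Phi
  exact Submodule.smul_mem _ _ (Submodule.sum_mem _ fun i _ => Submodule.sum_mem _ fun j _ =>
    tens_mem_sub _ (c.ad_mem_ss (mem_sub.1 hx i) (mem_sub.1 hx j)))

private theorem ad_add_cen {x y : Tn 9 d} (hx : x ∈ sub 9 (c.blk π))
    (hy : y ∈ sub 9 (c.cen π)) (i j : Fin 9) :
    c.ad (cmp i (y + x)) (cmp j (y + x)) = c.ad (cmp i x) (cmp j x) := by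
  have h1 : c.ad (cmp i y) (cmp j y) = 0 :=
    (c.mem_cen_iff _).1 (mem_sub.1 hy i) _ (c.cen_le_blk π (mem_sub.1 hy j))
  have h2 : c.ad (cmp i y) (cmp j x) = 0 :=
    (c.mem_cen_iff _).1 (mem_sub.1 hy i) _ (mem_sub.1 hx j)
  have h3 : c.ad (cmp i x) (cmp j y) = 0 := by
    rw [c.ad_anti, (c.mem_cen_iff _).1 (mem_sub.1 hy j) _ (mem_sub.1 hx i), neg_zero]
  rw [map_add, map_add, c.ad_add, _root_.add_apply, map_add, map_add, h1, h2, h3,
    zero_add, zero_add, zero_add]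

theorem Phi_add_cen (e : Fin 16 → ℝ) {x y : Tn 9 d} (hx : x ∈ sub 9 (c.blk π))
    (hy : y ∈ sub 9 (c.cen π)) : c.Phi e (y + x) = c.Phi e x := by
  unfold Phi
  simp only [c.ad_add_cen hx hy]

theorem Phi_smul (e : Fin 16 → ℝ) (t : ℝ) (x : Tn 9 d) :
    c.Phi e (t • x) = t ^ 2 • c.Phi e x := by
  obtain ⟨L, hL⟩ := c.exists_BlL e
  rw [Phi_eq_Bl, Phi_eq_Bl, ← hL, ← hL, map_smul, map_smul, _root_.smul_apply,
    smul_smul, smul_smul, smul_smul]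
  refine congrArg (· • L x x) ?_
  ring

theorem contDiff_Phi (e : Fin 16 → ℝ) : ContDiff ℝ ∞ (c.Phi e) := by
  obtain ⟨L, hL⟩ := c.exists_BlL e
  have h : c.Phi e = fun x => (1 / 2 : ℝ) • L x x := funext fun x => by rw [Phi_eq_Bl, hL]
  rw [h]
  exact (L.contDiff.clm_apply contDiff_id).const_smul _

theorem contDiff_beta (g m : ℝ) (e : Fin 16 → ℝ) : ContDiff ℝ ∞ (c.beta g m e) :=
  ((c.contDiff_Phi e).const_smul g).add ((c.Km e).contDiff.const_smul m)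

private theorem fderiv_Phi_Bl (e : Fin 16 → ℝ) (x y : Tn 9 d) :
    fderiv ℝ (c.Phi e) x y = c.Bl e y x := by
  obtain ⟨L, hL⟩ := c.exists_BlL e
  have h : c.Phi e = fun x => (1 / 2 : ℝ) • L x x := funext fun x => by rw [Phi_eq_Bl, hL]
  have h1 := ((L.hasFDerivAt (x := x)).clm_apply (hasFDerivAt_id x)).const_smul (1 / 2 : ℝ)
  have h2 : c.Phi e = (1 / 2 : ℝ) • fun y => L y (id y) := h
  rw [h2, h1.fderiv]
  simp only [_root_.smul_apply, _root_.add_apply,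
    ContinuousLinearMap.comp_apply, ContinuousLinearMap.flip_apply, ContinuousLinearMap.id_apply,
    id, hL]
  rw [c.Bl_symm e x y, ← two_smul ℝ, smul_smul]
  norm_num

theorem fderiv_Phi (e : Fin 16 → ℝ) (x y : Tn 9 d) : fderiv ℝ (c.Phi e) x y =
    ∑ i, ∑ j, tens (gamma2 c.γ j i *ᵥ e) (c.ad (cmp i y) (cmp j x)) := c.fderiv_Phi_Bl e x y

theorem Phi_add (e : Fin 16 → ℝ) (x y : Tn 9 d) :
    c.Phi e (x + y) = c.Phi e x + fderiv ℝ (c.Phi e) x y + c.Phi e y := by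
  rw [fderiv_Phi_Bl, Phi_eq_Bl, Phi_eq_Bl, Phi_eq_Bl, Bl_add_left, Bl_add_right, Bl_add_right,
    c.Bl_symm e x y]
  module

private theorem adw_top (y : Lg d) : c.adw ⊤ y = c.ad y := by
  refine ContinuousLinearMap.ext fun z => ?_
  unfold adw
  rw [mul_apply_eq_comp, mul_apply_eq_comp,
    Submodule.starProjection_eq_self_iff.2 Submodule.mem_top,
    Submodule.starProjection_eq_self_iff.2 Submodule.mem_top]

/-- linearization: `-D s(y) + e ⊗ div y` -/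
theorem fderiv_Phi_eq (e : Fin 16 → ℝ) (x y : Tn 9 d) : fderiv ℝ (c.Phi e) x y =
    -c.Dw ⊤ x (c.sE e y) + tens e (c.dv ⊤ x y) := by
  have h1 : c.Dw ⊤ x (c.sE e y) =
      ∑ j, ∑ i, tens ((c.γ j * c.γ i) *ᵥ e) (c.ad (cmp j x) (cmp i y)) := by
    unfold Dw
    rw [_root_.sum_apply]
    refine Finset.sum_congr rfl fun j _ => ?_
    rw [sE_apply, map_sum]
    refine Finset.sum_congr rfl fun i _ => ?_
    rw [kr_tens, Matrix.mulVec_mulVec, adw_top]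
  have h2 : tens e (c.dv ⊤ x y) = ∑ j, tens e (c.ad (cmp j x) (cmp j y)) := by
    unfold dv
    rw [_root_.sum_apply, map_sum]
    refine Finset.sum_congr rfl fun j _ => ?_
    rw [ContinuousLinearMap.comp_apply, adw_top]
  rw [fderiv_Phi, h1, h2, Finset.sum_comm, ← Finset.sum_neg_distrib, ← Finset.sum_add_distrib]
  refine Finset.sum_congr rfl fun j _ => ?_
  have h3 : ∀ i, tens ((c.γ j * c.γ i) *ᵥ e) (c.ad (cmp j x) (cmp i y)) =
      (if j = i then tens e (c.ad (cmp j x) (cmp i y)) else 0) -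
        tens (gamma2 c.γ j i *ᵥ e) (c.ad (cmp i y) (cmp j x)) := by
    intro i
    rw [c.gam.mul_eq, Matrix.add_mulVec, tens_add, c.ad_anti (cmp i y), map_neg, sub_neg_eq_add]
    refine congrArg (· + _) ?_
    split_ifs
    · rw [Matrix.one_mulVec]
    · rw [Matrix.zero_mulVec, ← zero_smul ℝ (0 : Fin 16 → ℝ), tens_smul, zero_smul]
  rw [Finset.sum_congr rfl fun i _ => h3 i, Finset.sum_sub_distrib, Finset.sum_ite_eq,
    if_pos (Finset.mem_univ j)]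
  abel

theorem fderiv_Phi_vf (e : Fin 16 → ℝ) (ξ : Lg d) (x : Tn 9 d) :
    fderiv ℝ (c.Phi e) x (c.vf ξ x) = kr 1 (c.ad ξ) (c.Phi e x) := by
  have h : kr 1 (c.ad ξ) (c.Bl e x x) = c.Bl e (c.vf ξ x) x + c.Bl e x (c.vf ξ x) := by
    unfold Bl vf
    rw [map_sum, ← Finset.sum_add_distrib]
    refine Finset.sum_congr rfl fun i _ => ?_
    rw [map_sum, ← Finset.sum_add_distrib]
    refine Finset.sum_congr rfl fun j _ => ?_
    rw [kr_one_tens, cmp_kr_one, cmp_kr_one, ← map_add, c.jacobi, _root_.sub_apply,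
      mul_apply_eq_comp, mul_apply_eq_comp, sub_add_cancel]
  rw [fderiv_Phi_Bl, Phi_eq_Bl, map_smul, h, c.Bl_symm e x (c.vf ξ x), ← two_smul ℝ, smul_smul]
  norm_num

private theorem sum_inner_tens {ι κ : Type} [Fintype ι] [Fintype κ] (A : ι → M16) (B : κ → M16)
    (u : ι → Lg d) (w : κ → Lg d) :
    ∑ α, ⟪∑ i, tens (A i *ᵥ eb α) (u i), ∑ j, tens (B j *ᵥ eb α) (w j)⟫ =
      ∑ i, ∑ j, ((A i)ᵀ * B j).trace * ⟪u i, w j⟫ := by
  have h : ∀ α, ⟪∑ i, tens (A i *ᵥ eb α) (u i), ∑ j, tens (B j *ᵥ eb α) (w j)⟫ =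
      ∑ i, ∑ j, ((A i *ᵥ eb α) ⬝ᵥ (B j *ᵥ eb α)) * ⟪u i, w j⟫ := by
    intro α
    rw [sum_inner]
    refine Finset.sum_congr rfl fun i _ => ?_
    rw [inner_sum]
    refine Finset.sum_congr rfl fun j _ => ?_
    rw [inner_tens]
  rw [Finset.sum_congr rfl fun α _ => h α, Finset.sum_comm]
  refine Finset.sum_congr rfl fun i _ => ?_
  rw [Finset.sum_comm]
  refine Finset.sum_congr rfl fun j _ => ?_
  rw [← Finset.sum_mul, sum_eb_dot]

private theorem Phi_eq_prod (e : Fin 16 → ℝ) (x : Tn 9 d) : c.Phi e x = (1 / 2 : ℝ) •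
    ∑ p : Fin 9 × Fin 9, tens (gamma2 c.γ p.2 p.1 *ᵥ e) (c.ad (cmp p.1 x) (cmp p.2 x)) := by
  rw [Fintype.sum_prod_type]
  rfl

private theorem Km_eq_sum (e : Fin 16 → ℝ) (x : Tn 9 d) :
    c.Km e x = ∑ i, tens ((c.γ i * Gm c.γ) *ᵥ e) (kk i • cmp i x) := by
  rw [Km_apply]
  refine Finset.sum_congr rfl fun i _ => ?_
  rw [map_smul]

theorem sum_Phi_sq (x : Tn 9 d) : ∑ α, ‖c.Phi (eb α) x‖ ^ 2 = 8 * c.Fsq x := by
  obtain ⟨f, hf⟩ : ∃ f : Fin 9 × Fin 9 → Lg d, ∀ p, f p = c.ad (cmp p.1 x) (cmp p.2 x) :=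
    ⟨_, fun _ => rfl⟩
  have h1 : ∀ α, ‖c.Phi (eb α) x‖ ^ 2 = 1 / 4 *
      ⟪∑ p : Fin 9 × Fin 9, tens (gamma2 c.γ p.2 p.1 *ᵥ eb α) (f p),
        ∑ p : Fin 9 × Fin 9, tens (gamma2 c.γ p.2 p.1 *ᵥ eb α) (f p)⟫ := by
    intro α
    rw [← real_inner_self_eq_norm_sq, Phi_eq_prod, real_inner_smul_left, real_inner_smul_right]
    simp only [hf]
    ring
  have h2 : c.Fsq x = ∑ p : Fin 9 × Fin 9, ‖f p‖ ^ 2 := by
    rw [Fintype.sum_prod_type]
    simp only [hf]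
    rfl
  have h3 : ∀ p : Fin 9 × Fin 9, ∑ q : Fin 9 × Fin 9,
      ((gamma2 c.γ p.2 p.1)ᵀ * gamma2 c.γ q.2 q.1).trace * ⟪f p, f q⟫ = 32 * ‖f p‖ ^ 2 := by
    intro p
    have h4 : ∀ q : Fin 9 × Fin 9,
        ((gamma2 c.γ p.2 p.1)ᵀ * gamma2 c.γ q.2 q.1).trace * ⟪f p, f q⟫ =
          (if p = q then 16 * ⟪f p, f q⟫ else 0) -
            if p.swap = q then 16 * ⟪f p, f q⟫ else 0 := by
      intro q
      have e1 : (p.1 = q.1 ∧ p.2 = q.2) ↔ p = q := Prod.ext_iff.symm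
      have e2 : (p.1 = q.2 ∧ p.2 = q.1) ↔ p.swap = q := by
        rw [Prod.ext_iff, Prod.fst_swap, Prod.snd_swap, and_comm]
      rw [c.gam.gamma2_transpose, c.gam.trace_gamma2_mul]
      simp only [e1, e2]
      split_ifs <;> ring
    have h5 : f p.swap = -f p := by
      rw [hf, hf, Prod.fst_swap, Prod.snd_swap, c.ad_anti]
    rw [Finset.sum_congr rfl fun q _ => h4 q, Finset.sum_sub_distrib, Finset.sum_ite_eq,
      Finset.sum_ite_eq, if_pos (Finset.mem_univ _), if_pos (Finset.mem_univ _), h5,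
      inner_neg_right, real_inner_self_eq_norm_sq]
    ring
  rw [Finset.sum_congr rfl fun α _ => h1 α, ← Finset.mul_sum,
    sum_inner_tens (fun p : Fin 9 × Fin 9 => gamma2 c.γ p.2 p.1)
      (fun p : Fin 9 × Fin 9 => gamma2 c.γ p.2 p.1) f f,
    Finset.sum_congr rfl fun p _ => h3 p, ← Finset.mul_sum, h2]
  ring

theorem norm_Phi_le (α : Fin 16) (x : Tn 9 d) : ‖c.Phi (eb α) x‖ ^ 2 ≤ 8 * c.Fsq x := by
  rw [← sum_Phi_sq]
  exact Finset.single_le_sum (f := fun α => ‖c.Phi (eb α) x‖ ^ 2) (fun _ _ => sq_nonneg _)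
    (Finset.mem_univ α)

private theorem gam_dot (i j : Fin 9) (e e' : Fin 16 → ℝ) :
    (c.γ i *ᵥ e) ⬝ᵥ (c.γ j *ᵥ e') = e ⬝ᵥ ((c.γ i * c.γ j) *ᵥ e') := by
  rw [← Matrix.mulVec_mulVec, Matrix.dotProduct_mulVec e, ← Matrix.mulVec_transpose, c.gam.symm]

theorem inner_sE (e e' : Fin 16 → ℝ) (y z : Tn 9 d) :
    ⟪c.sE e y, c.sE e' z⟫ + ⟪c.sE e z, c.sE e' y⟫ = 2 * (e ⬝ᵥ e') * ⟪y, z⟫ := by
  have h : ∀ y z : Tn 9 d, ⟪c.sE e y, c.sE e' z⟫ =
      ∑ i, ∑ j, (e ⬝ᵥ ((c.γ i * c.γ j) *ᵥ e')) * ⟪cmp i y, cmp j z⟫ := by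
    intro y z
    rw [sE_apply, sE_apply, sum_inner]
    refine Finset.sum_congr rfl fun i _ => ?_
    rw [inner_sum]
    refine Finset.sum_congr rfl fun j _ => ?_
    rw [inner_tens, gam_dot]
  rw [h y z, h z y, Finset.sum_comm (f := fun i j =>
    (e ⬝ᵥ ((c.γ i * c.γ j) *ᵥ e')) * ⟪cmp i z, cmp j y⟫), ← Finset.sum_add_distrib,
    inner_eq_sum_cmp y z, Finset.mul_sum]
  refine Finset.sum_congr rfl fun i _ => ?_
  have h1 : ∀ j, (e ⬝ᵥ ((c.γ i * c.γ j) *ᵥ e')) * ⟪cmp i y, cmp j z⟫ +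
      (e ⬝ᵥ ((c.γ j * c.γ i) *ᵥ e')) * ⟪cmp j z, cmp i y⟫ =
      if i = j then 2 * (e ⬝ᵥ e') * ⟪cmp i y, cmp j z⟫ else 0 := by
    intro j
    rw [real_inner_comm (cmp i y), ← add_mul, ← dotProduct_add, ← Matrix.add_mulVec,
      c.gam.anticomm]
    split_ifs
    · rw [Matrix.smul_mulVec, Matrix.one_mulVec, dotProduct_smul, smul_eq_mul]
    · rw [Matrix.zero_mulVec, dotProduct_zero, zero_mul]
  rw [← Finset.sum_add_distrib, Finset.sum_congr rfl fun j _ => h1 j, Finset.sum_ite_eq,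
    if_pos (Finset.mem_univ i)]

private theorem sum_inner_sE (x y : Tn 9 d) :
    ∑ α, ⟪c.sE (eb α) x, c.sE (eb α) y⟫ = 16 * ⟪x, y⟫ := by
  simp only [sE_apply]
  rw [sum_inner_tens c.γ c.γ (fun i => cmp i x) (fun i => cmp i y), inner_eq_sum_cmp x y,
    Finset.mul_sum]
  refine Finset.sum_congr rfl fun i _ => ?_
  simp only [c.gam.symm, c.gam.trace_gamma_mul, ite_mul, zero_mul]
  rw [Finset.sum_ite_eq, if_pos (Finset.mem_univ i)]

private theorem trace_gam_gamma2 (k i j : Fin 9) : (c.γ k * gamma2 c.γ i j).trace = 0 := by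
  by_cases h : i = j
  · rw [h, c.gam.gamma2_self, Matrix.mul_zero, Matrix.trace_zero]
  · rw [c.gam.gamma2_ne h, ← Matrix.mul_assoc, c.gam.trace_three]

theorem iso (U : Submodule ℝ (Tn 9 d)) (g m : ℝ) :
    Iso U (fun α => c.sE (eb α)) (fun α => c.beta g m (eb α)) := by
  refine ⟨fun x _ y _ => c.sum_inner_sE x y, fun x _ y _ => ?_⟩
  have h1 : ∑ α, ⟪c.sE (eb α) y, c.Phi (eb α) x⟫ = 0 := by
    simp only [sE_apply, Phi_eq_prod, real_inner_smul_right]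
    rw [← Finset.mul_sum, sum_inner_tens c.γ (fun p : Fin 9 × Fin 9 => gamma2 c.γ p.2 p.1)
      (fun i => cmp i y) (fun p => c.ad (cmp p.1 x) (cmp p.2 x))]
    simp only [c.gam.symm, trace_gam_gamma2, zero_mul, Finset.sum_const_zero, mul_zero]
  have h2 : ∑ α, ⟪c.sE (eb α) y, c.Km (eb α) x⟫ = 0 := by
    simp only [sE_apply, Km_eq_sum]
    rw [sum_inner_tens c.γ (fun i => c.γ i * Gm c.γ) (fun i => cmp i y)
      (fun i => kk i • cmp i x)]
    refine Finset.sum_eq_zero fun i _ => Finset.sum_eq_zero fun j _ => ?_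
    rw [c.gam.symm, ← Matrix.mul_assoc, Matrix.trace_mul_comm, ← Matrix.mul_assoc,
      c.gam.trace_Gm_two, zero_mul]
  simp only [beta, inner_add_right, real_inner_smul_right]
  rw [Finset.sum_add_distrib, ← Finset.mul_sum, ← Finset.mul_sum, h1, h2, mul_zero, mul_zero,
    add_zero]

private theorem norm_kr_Gm (v : Tn 16 d) : ‖kr (Gm c.γ) 1 v‖ ^ 2 = ‖v‖ ^ 2 := by
  have h : kr (Gm c.γ)ᵀ 1 (kr (Gm c.γ) 1 v) = v := by
    rw [← mul_apply_eq_comp, kr_mul, c.gam.Gm_transpose, Matrix.neg_mul, c.gam.Gm_sq, neg_neg,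
      mul_one, kr_one]
    rfl
  rw [← real_inner_self_eq_norm_sq, ← real_inner_self_eq_norm_sq,
    inner_kr (Gm c.γ) 1 1 (fun _ _ => rfl), h]

theorem sum_Km_sq (x : Tn 9 d) : ∑ α, ‖c.Km (eb α) x‖ ^ 2 = 16 * ‖Afree d x‖ ^ 2 := by
  rw [← real_inner_self_eq_norm_sq (Afree d x), ← c.sum_inner_sE]
  refine Finset.sum_congr rfl fun α _ => ?_
  rw [Km_eq, norm_neg, norm_kr_Gm, real_inner_self_eq_norm_sq]

private theorem sum_tr (x : Tn 9 d) (a b : Fin 9) (v : Lg d) : ∑ p : Fin 9 × Fin 9,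
    ((gamma2 c.γ p.2 p.1)ᵀ * gamma2 c.γ a b).trace * ⟪c.ad (cmp p.1 x) (cmp p.2 x), v⟫ =
      -32 * ⟪c.ad (cmp a x) (cmp b x), v⟫ := by
  have h4 : ∀ p : Fin 9 × Fin 9,
      ((gamma2 c.γ p.2 p.1)ᵀ * gamma2 c.γ a b).trace * ⟪c.ad (cmp p.1 x) (cmp p.2 x), v⟫ =
        (if p = (b, a) then 16 * ⟪c.ad (cmp p.1 x) (cmp p.2 x), v⟫ else 0) -
          if p = (a, b) then 16 * ⟪c.ad (cmp p.1 x) (cmp p.2 x), v⟫ else 0 := by
    intro p
    have e1 : (p.1 = b ∧ p.2 = a) ↔ p = (b, a) := (Prod.ext_iff (x := p) (y := (b, a))).symm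
    have e2 : (p.1 = a ∧ p.2 = b) ↔ p = (a, b) := (Prod.ext_iff (x := p) (y := (a, b))).symm
    rw [c.gam.gamma2_transpose, c.gam.trace_gamma2_mul]
    simp only [e1, e2]
    split_ifs <;> ring
  rw [Finset.sum_congr rfl fun p _ => h4 p, Finset.sum_sub_distrib, Finset.sum_ite_eq',
    Finset.sum_ite_eq', if_pos (Finset.mem_univ _), if_pos (Finset.mem_univ _),
    c.ad_anti (cmp (b, a).1 x), inner_neg_left]
  ring

private theorem g0_Gm : c.γ 0 * Gm c.γ = gamma2 c.γ 1 2 := by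
  rw [c.gam.gamma2_ne (by decide), Gm, ← Matrix.mul_assoc, ← Matrix.mul_assoc, c.gam.sq,
    Matrix.one_mul]

private theorem g1_Gm : c.γ 1 * Gm c.γ = gamma2 c.γ 2 0 := by
  rw [c.gam.gamma2_ne (by decide), Gm, c.gam.anti 0 1 (by decide), Matrix.neg_mul, Matrix.mul_neg,
    ← Matrix.mul_assoc, ← Matrix.mul_assoc, c.gam.sq, Matrix.one_mul, c.gam.anti 2 0 (by decide)]

private theorem g2_Gm : c.γ 2 * Gm c.γ = gamma2 c.γ 0 1 := by
  have h := c.gam.Gm_comm 2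
  rw [if_pos (by decide), one_smul] at h
  rw [c.gam.gamma2_ne (by decide), ← h, Gm, Matrix.mul_assoc, c.gam.sq, Matrix.mul_one]

private theorem exists_third (i j : Fin 9) : ∃ l : Fin 9, l.val < 3 ∧ l ≠ i ∧ l ≠ j := by
  revert i j
  decide

private theorem trace_big (i j k : Fin 9) (hk : 3 ≤ k.val) :
    (gamma2 c.γ i j * (c.γ k * Gm c.γ)).trace = 0 := by
  by_cases h : i = j
  · rw [h, c.gam.gamma2_self, Matrix.zero_mul, Matrix.trace_zero]
  obtain ⟨l, hl, hi, hj⟩ := exists_third i j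
  have hlk : l ≠ k := fun e => by rw [e] at hl; omega
  have hG := c.gam.Gm_comm l
  rw [if_pos hl, one_smul] at hG
  refine c.gam.trace_of_anti (i := l) ?_
  rw [c.gam.gamma2_ne h]
  calc c.γ l * (c.γ i * c.γ j * (c.γ k * Gm c.γ))
      = (c.γ l * c.γ i) * c.γ j * (c.γ k * Gm c.γ) := by simp only [Matrix.mul_assoc]
    _ = -(c.γ i * (c.γ l * c.γ j) * (c.γ k * Gm c.γ)) := by
        rw [c.gam.anti l i hi]
        simp only [Matrix.mul_assoc, Matrix.neg_mul]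
    _ = c.γ i * c.γ j * ((c.γ l * c.γ k) * Gm c.γ) := by
        rw [c.gam.anti l j hj]
        simp only [Matrix.mul_assoc, Matrix.neg_mul, Matrix.mul_neg, neg_neg]
    _ = -(c.γ i * c.γ j * (c.γ k * (c.γ l * Gm c.γ))) := by
        rw [c.gam.anti l k hlk]
        simp only [Matrix.mul_assoc, Matrix.neg_mul, Matrix.mul_neg]
    _ = -(c.γ i * c.γ j * (c.γ k * Gm c.γ) * c.γ l) := by
        rw [← hG]
        simp only [Matrix.mul_assoc]

private theorem sum_split (f : Fin 9 → ℝ) :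
    ∑ i, f i = f 0 + f 1 + f 2 + ∑ i, if 3 ≤ i.val then f i else 0 := by
  simp only [Fin.sum_univ_succ, Fin.sum_univ_zero]
  norm_num
  simp only [add_assoc]

private theorem kk_lt {i : Fin 9} (h : i.val < 3) : kk i = -2 := if_pos h

private theorem kk_ge {i : Fin 9} (h : 3 ≤ i.val) : kk i = 1 := if_neg (not_lt.2 h)

private theorem sum_Phi_Km (x : Tn 9 d) : ∑ α, ⟪c.Phi (eb α) x, c.Km (eb α) x⟫ =
    96 * ⟪cmp 0 x, c.ad (cmp 1 x) (cmp 2 x)⟫ := by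
  simp only [Phi_eq_prod, Km_eq_sum, real_inner_smul_left]
  rw [← Finset.mul_sum, sum_inner_tens (fun p : Fin 9 × Fin 9 => gamma2 c.γ p.2 p.1)
    (fun i => c.γ i * Gm c.γ) (fun p => c.ad (cmp p.1 x) (cmp p.2 x)) (fun i => kk i • cmp i x),
    Finset.sum_comm, sum_split, g0_Gm, g1_Gm, g2_Gm, sum_tr, sum_tr, sum_tr, Finset.sum_eq_zero]
  · rw [kk_lt (by decide), kk_lt (by decide), kk_lt (by decide), real_inner_smul_right,
      real_inner_smul_right, real_inner_smul_right, c.inner_ad_cyc (cmp 0 x),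
      c.inner_ad_cyc (cmp 2 x), ← real_inner_comm (cmp 2 x), c.inner_ad_cyc (cmp 0 x),
      real_inner_comm (cmp 0 x)]
    ring
  · intro k _
    split_ifs with hk
    · refine Finset.sum_eq_zero fun p _ => ?_
      rw [c.gam.gamma2_transpose, c.trace_big _ _ _ hk, zero_mul]
    · rfl

theorem Pot_eq (g m : ℝ) (x : Tn 9 d) : c.Pot g m x = 8 * g ^ 2 * c.Fsq x +
    16 * m ^ 2 * ‖Afree d x‖ ^ 2 + 192 * g * m * ⟪cmp 0 x, c.ad (cmp 1 x) (cmp 2 x)⟫ := by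
  have h : ∀ α, ‖c.beta g m (eb α) x‖ ^ 2 = g ^ 2 * ‖c.Phi (eb α) x‖ ^ 2 +
      2 * g * m * ⟪c.Phi (eb α) x, c.Km (eb α) x⟫ + m ^ 2 * ‖c.Km (eb α) x‖ ^ 2 := by
    intro α
    unfold beta
    rw [norm_add_sq_real, norm_smul, norm_smul, mul_pow, mul_pow, Real.norm_eq_abs,
      Real.norm_eq_abs, sq_abs, sq_abs, real_inner_smul_left, real_inner_smul_right]
    ring
  unfold Pot
  rw [Finset.sum_congr rfl fun α _ => h α, Finset.sum_add_distrib, Finset.sum_add_distrib,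
    ← Finset.mul_sum, ← Finset.mul_sum, ← Finset.mul_sum, sum_Phi_sq, sum_Km_sq, sum_Phi_Km]
  ring

private theorem norm_Afree_sq (x : Tn 9 d) :
    ‖Afree d x‖ ^ 2 = ∑ i, kk i ^ 2 * ‖cmp i x‖ ^ 2 := by
  rw [norm_sq_eq_sum_cmp]
  refine Finset.sum_congr rfl fun i _ => ?_
  rw [cmp_Afree, norm_smul, mul_pow, Real.norm_eq_abs, abs_abs, sq_abs]

/-- the squares in the potential that vanish when the last six coordinates vanish -/
private def rest (x : Tn 9 d) : ℝ :=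
  (∑ j, if 3 ≤ j.val then ‖c.ad (cmp 0 x) (cmp j x)‖ ^ 2 else 0) +
    (∑ j, if 3 ≤ j.val then ‖c.ad (cmp 1 x) (cmp j x)‖ ^ 2 else 0) +
    (∑ j, if 3 ≤ j.val then ‖c.ad (cmp 2 x) (cmp j x)‖ ^ 2 else 0) +
    ∑ i, if 3 ≤ i.val then ∑ j, ‖c.ad (cmp i x) (cmp j x)‖ ^ 2 else 0

private theorem ite_nonneg' {p : Prop} [Decidable p] {a : ℝ} (h : 0 ≤ a) :
    0 ≤ if p then a else 0 := by
  split_ifs
  · exact h
  · exact le_rfl

private theorem rest_nonneg (x : Tn 9 d) : 0 ≤ c.rest x :=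
  add_nonneg (add_nonneg (add_nonneg
    (Finset.sum_nonneg fun _ _ => ite_nonneg' (sq_nonneg _))
    (Finset.sum_nonneg fun _ _ => ite_nonneg' (sq_nonneg _)))
    (Finset.sum_nonneg fun _ _ => ite_nonneg' (sq_nonneg _)))
    (Finset.sum_nonneg fun _ _ => ite_nonneg' (Finset.sum_nonneg fun _ _ => sq_nonneg _))

private theorem rest_eq_zero {x : Tn 9 d} (h : ∀ i : Fin 9, 3 ≤ i.val → cmp i x = 0) :
    c.rest x = 0 := by
  have h1 : ∀ y : Lg d, (∑ j : Fin 9, if 3 ≤ j.val then ‖c.ad y (cmp j x)‖ ^ 2 else 0) = 0 := by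
    intro y
    refine Finset.sum_eq_zero fun j _ => ?_
    split_ifs with hj
    · rw [h j hj, map_zero, norm_zero, zero_pow two_ne_zero]
    · rfl
  unfold rest
  rw [h1, h1, h1, Finset.sum_eq_zero, add_zero, add_zero, add_zero]
  intro i _
  split_ifs with hi
  · refine Finset.sum_eq_zero fun j _ => ?_
    rw [h i hi, c.ad_anti, map_zero, neg_zero, norm_zero, zero_pow two_ne_zero]
  · rfl

private theorem Pot_squares (x : Tn 9 d) : c.Pot 1 1 x =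
    16 * ‖c.ad (cmp 0 x) (cmp 1 x) + (2 : ℝ) • cmp 2 x‖ ^ 2 +
      16 * ‖c.ad (cmp 1 x) (cmp 2 x) + (2 : ℝ) • cmp 0 x‖ ^ 2 +
      16 * ‖c.ad (cmp 2 x) (cmp 0 x) + (2 : ℝ) • cmp 1 x‖ ^ 2 + 8 * c.rest x +
      16 * ∑ i : Fin 9, if 3 ≤ i.val then ‖cmp i x‖ ^ 2 else 0 := by
  have h1 : c.Fsq x = 2 * ‖c.ad (cmp 0 x) (cmp 1 x)‖ ^ 2 + 2 * ‖c.ad (cmp 1 x) (cmp 2 x)‖ ^ 2 +
      2 * ‖c.ad (cmp 2 x) (cmp 0 x)‖ ^ 2 + c.rest x := by
    unfold Fsq rest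
    rw [sum_split, sum_split fun j => ‖c.ad (cmp 0 x) (cmp j x)‖ ^ 2,
      sum_split fun j => ‖c.ad (cmp 1 x) (cmp j x)‖ ^ 2,
      sum_split fun j => ‖c.ad (cmp 2 x) (cmp j x)‖ ^ 2, c.ad_self, c.ad_self, c.ad_self,
      c.ad_anti (cmp 1 x) (cmp 0 x), c.ad_anti (cmp 0 x) (cmp 2 x), c.ad_anti (cmp 2 x) (cmp 1 x),
      norm_neg, norm_neg, norm_neg, norm_zero]
    ring
  have h2 : ‖Afree d x‖ ^ 2 = 4 * ‖cmp 0 x‖ ^ 2 + 4 * ‖cmp 1 x‖ ^ 2 + 4 * ‖cmp 2 x‖ ^ 2 +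
      ∑ i : Fin 9, if 3 ≤ i.val then ‖cmp i x‖ ^ 2 else 0 := by
    have h3 : ∀ i : Fin 9, (if 3 ≤ i.val then kk i ^ 2 * ‖cmp i x‖ ^ 2 else 0) =
        if 3 ≤ i.val then ‖cmp i x‖ ^ 2 else 0 := by
      intro i
      split_ifs with hi
      · rw [kk_ge hi, one_pow, one_mul]
      · rfl
    rw [norm_Afree_sq, sum_split, kk_lt (by decide), kk_lt (by decide), kk_lt (by decide),
      Finset.sum_congr rfl fun i _ => h3 i]
    ring
  have h4 : ∀ a b : Lg d, ‖a + (2 : ℝ) • b‖ ^ 2 = ‖a‖ ^ 2 + 4 * ⟪a, b⟫ + 4 * ‖b‖ ^ 2 := by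
    intro a b
    rw [norm_add_sq_real, real_inner_smul_right, norm_smul, mul_pow, Real.norm_eq_abs, sq_abs]
    ring
  rw [Pot_eq, h1, h2, h4, h4, h4, c.inner_ad_cyc (cmp 0 x), c.inner_ad_cyc (cmp 2 x),
    ← real_inner_comm (cmp 2 x), c.inner_ad_cyc (cmp 0 x), real_inner_comm (cmp 0 x)]
  ring

theorem Pot_eq_zero_iff (x : Tn 9 d) : c.Pot 1 1 x = 0 ↔ c.IsVac x := by
  have h4 : ∀ a b : Lg d, ‖a + (2 : ℝ) • b‖ ^ 2 = 0 ↔ a = (-2 : ℝ) • b := by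
    intro a b
    rw [pow_eq_zero_iff two_ne_zero, norm_eq_zero, neg_smul, add_eq_zero_iff_eq_neg]
  have h5 : (∑ i : Fin 9, if 3 ≤ i.val then ‖cmp i x‖ ^ 2 else 0) = 0 ↔
      ∀ i : Fin 9, 3 ≤ i.val → cmp i x = 0 := by
    rw [Finset.sum_eq_zero_iff_of_nonneg fun _ _ => ite_nonneg' (sq_nonneg _)]
    constructor
    · intro h i hi
      have h6 := h i (Finset.mem_univ i)
      rwa [if_pos hi, pow_eq_zero_iff two_ne_zero, norm_eq_zero] at h6
    · intro h i _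
      split_ifs with hi
      · rw [h i hi, norm_zero, zero_pow two_ne_zero]
      · rfl
  have p1 := sq_nonneg ‖c.ad (cmp 0 x) (cmp 1 x) + (2 : ℝ) • cmp 2 x‖
  have p2 := sq_nonneg ‖c.ad (cmp 1 x) (cmp 2 x) + (2 : ℝ) • cmp 0 x‖
  have p3 := sq_nonneg ‖c.ad (cmp 2 x) (cmp 0 x) + (2 : ℝ) • cmp 1 x‖
  have p4 := c.rest_nonneg x
  have p5 : 0 ≤ ∑ i : Fin 9, if 3 ≤ i.val then ‖cmp i x‖ ^ 2 else 0 :=
    Finset.sum_nonneg fun _ _ => ite_nonneg' (sq_nonneg _)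
  rw [Pot_squares]
  constructor
  · intro h
    exact ⟨h5.1 (by linarith), (h4 _ _).1 (by linarith), (h4 _ _).1 (by linarith),
      (h4 _ _).1 (by linarith)⟩
  · rintro ⟨a1, a2, a3, a4⟩
    rw [(h4 _ _).2 a2, (h4 _ _).2 a3, (h4 _ _).2 a4, c.rest_eq_zero a1, h5.2 a1]
    ring

theorem Pot_gg (g : ℝ) (x : Tn 9 d) : c.Pot g g x = g ^ 2 * c.Pot 1 1 x := by
  rw [Pot_eq, Pot_eq]
  ring

private theorem abs_kk (i : Fin 9) : 1 ≤ |kk i| ∧ |kk i| ≤ 2 := by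
  unfold kk
  split_ifs <;> norm_num

theorem Afree_bounds (x : Tn 9 d) : ‖x‖ ≤ ‖Afree d x‖ ∧ ‖Afree d x‖ ≤ 2 * ‖x‖ ∧
    ‖x‖ ^ 2 ≤ ⟪x, Afree d x⟫ := by
  refine ⟨?_, ?_, ?_⟩
  · refine abs_le_of_sq_le_sq' ?_ (norm_nonneg _) |>.2
    rw [norm_Afree_sq, norm_sq_eq_sum_cmp]
    refine Finset.sum_le_sum fun i _ => le_mul_of_one_le_left (sq_nonneg _) ?_
    rw [← sq_abs]
    nlinarith [(abs_kk i).1]
  · refine abs_le_of_sq_le_sq' ?_ (by positivity) |>.2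
    rw [norm_Afree_sq, mul_pow, norm_sq_eq_sum_cmp x, Finset.mul_sum]
    refine Finset.sum_le_sum fun i _ => mul_le_mul_of_nonneg_right ?_ (sq_nonneg _)
    rw [← sq_abs]
    nlinarith [(abs_kk i).1, (abs_kk i).2]
  · rw [inner_eq_sum_cmp, norm_sq_eq_sum_cmp]
    refine Finset.sum_le_sum fun i _ => ?_
    rw [cmp_Afree, real_inner_smul_right, real_inner_self_eq_norm_sq]
    exact le_mul_of_one_le_left (sq_nonneg _) (abs_kk i).1

theorem Afree_sym : IsSym (Afree d) := by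
  intro u v
  rw [inner_eq_sum_cmp, inner_eq_sum_cmp]
  refine Finset.sum_congr rfl fun i _ => ?_
  rw [cmp_Afree, cmp_Afree, real_inner_smul_left, real_inner_smul_right]

theorem Afree_mem {x : Tn 9 d} (hx : x ∈ sub 9 𝔞) : Afree d x ∈ sub 9 𝔞 := by
  refine mem_sub.2 fun i => ?_
  rw [cmp_Afree]
  exact Submodule.smul_mem _ _ (mem_sub.1 hx i)

theorem trR_Afree (𝔞 : Submodule ℝ (Lg d)) :
    trR ((sub 9 𝔞).starProjection * Afree d) = 12 * Module.finrank ℝ 𝔞 := by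
  have h1 : trR 𝔞.starProjection = Module.finrank ℝ 𝔞 := by
    unfold trR
    refine LinearMap.IsProj.trace ⟨fun x => 𝔞.starProjection_apply_mem x, fun x hx => ?_⟩
    exact Submodule.starProjection_eq_self_iff.2 hx
  have h2 : ∑ i : Fin 9, |kk i| = 12 := by
    have h3 : ∀ i : Fin 9, (if 3 ≤ i.val then |kk i| else 0) = if 3 ≤ i.val then 1 else 0 := by
      intro i
      split_ifs with hi
      · rw [kk_ge hi, abs_one]
      · rfl
    rw [sum_split, kk_lt (by decide), kk_lt (by decide), kk_lt (by decide),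
      Finset.sum_congr rfl fun i _ => h3 i]
    simp only [Fin.sum_univ_succ, Fin.sum_univ_zero]
    norm_num
  unfold Afree
  rw [sub_starProjection, kr_mul, trR_kr, Matrix.one_mul, mul_one, Matrix.trace_diagonal, h1, h2]

theorem contDiff_Fsq : ContDiff ℝ ∞ c.Fsq := by
  obtain ⟨A, hA⟩ := c.exists_adL
  have h : c.Fsq = fun x => ∑ i, ∑ j, ‖A (cmp i x) (cmp j x)‖ ^ 2 := by
    funext x
    simp only [hA]
    rfl
  rw [h]
  refine ContDiff.sum fun i _ => ContDiff.sum fun j _ => ContDiff.norm_sq ℝ ?_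
  exact (A.contDiff.comp (cmp i).contDiff).clm_apply (cmp j).contDiff

theorem contDiff_Pot (g m : ℝ) : ContDiff ℝ ∞ (c.Pot g m) :=
  ContDiff.sum fun α _ => (c.contDiff_beta g m (eb α)).norm_sq ℝ

theorem Fsq_nonneg (x : Tn 9 d) : 0 ≤ c.Fsq x :=
  Finset.sum_nonneg fun _ _ => Finset.sum_nonneg fun _ _ => sq_nonneg _

theorem Fsq_Ad9 (u : UN N) (x : Tn 9 d) : c.Fsq (c.Ad9 u x) = c.Fsq x := by
  unfold Fsq Ad9
  refine Finset.sum_congr rfl fun i _ => Finset.sum_congr rfl fun j _ => ?_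
  rw [cmp_kr_one, cmp_kr_one, ← c.Ad_ad, c.norm_Ad]

theorem Pot_Ad9 (g m : ℝ) (u : UN N) (x : Tn 9 d) : c.Pot g m (c.Ad9 u x) = c.Pot g m x := by
  unfold Pot
  refine Finset.sum_congr rfl fun α _ => ?_
  rw [beta_Ad9, norm_sq_eq_sum_cmp, norm_sq_eq_sum_cmp]
  refine Finset.sum_congr rfl fun i _ => ?_
  rw [cmp_kr_one, c.norm_Ad]

theorem Fsq_add_cen {x y : Tn 9 d} (hx : x ∈ sub 9 (c.blk π)) (hy : y ∈ sub 9 (c.cen π)) :
    c.Fsq (y + x) = c.Fsq x := by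
  unfold Fsq
  simp only [c.ad_add_cen hx hy]

theorem Fsq_smul (t : ℝ) (x : Tn 9 d) : c.Fsq (t • x) = t ^ 4 * c.Fsq x := by
  unfold Fsq
  rw [Finset.mul_sum]
  refine Finset.sum_congr rfl fun i _ => ?_
  rw [Finset.mul_sum]
  refine Finset.sum_congr rfl fun j _ => ?_
  rw [map_smul, map_smul, c.ad_smul, _root_.smul_apply, map_smul, smul_smul, norm_smul, mul_pow,
    Real.norm_eq_abs, sq_abs]
  ring

private theorem adw_skew (𝔴 : Submodule ℝ (Lg d)) (y u v : Lg d) :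
    ⟪c.adw 𝔴 y u, v⟫ = ⟪u, (-c.adw 𝔴 y) v⟫ := by
  unfold adw
  rw [_root_.neg_apply, inner_neg_right, mul_apply_eq_comp, mul_apply_eq_comp, mul_apply_eq_comp,
    mul_apply_eq_comp, 𝔴.inner_starProjection_left_eq_right, c.ad_skew y,
    𝔴.inner_starProjection_left_eq_right]

theorem Dw_skew (𝔴 : Submodule ℝ (Lg d)) (x : Tn 9 d) : IsSkew (c.Dw 𝔴 x) := by
  intro u v
  unfold Dw
  rw [_root_.sum_apply, _root_.sum_apply, sum_inner, inner_sum, ← Finset.sum_neg_distrib]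
  refine Finset.sum_congr rfl fun i _ => ?_
  rw [inner_kr _ _ _ (c.adw_skew 𝔴 (cmp i x)), c.gam.symm, kr_neg_right, _root_.neg_apply,
    inner_neg_right]

theorem exists_DwL (𝔴 : Submodule ℝ (Lg d)) :
    ∃ L : Tn 9 d →L[ℝ] Tn 16 d →L[ℝ] Tn 16 d, ∀ x, L x = c.Dw 𝔴 x := by
  refine ⟨LinearMap.toContinuousLinearMap
    { toFun := c.Dw 𝔴, map_add' := fun x y => ?_, map_smul' := fun t x => ?_ }, fun _ => rfl⟩
  · unfold Dw adw
    rw [← Finset.sum_add_distrib]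
    refine Finset.sum_congr rfl fun i _ => ?_
    rw [map_add, c.ad_add, mul_add, add_mul, kr_add_right]
  · unfold Dw adw
    rw [RingHom.id_apply, Finset.smul_sum]
    refine Finset.sum_congr rfl fun i _ => ?_
    rw [map_smul, c.ad_smul, mul_smul_comm, smul_mul_assoc, kr_smul_right]

end Ctx

end Vale.Agent.P353
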