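import Vale.Agent.P353.Ga2Aux

/-! Anticommutator and energy formula. -/

noncomputable section

open MeasureTheory Filter Topology Complex Matrix
open scoped ContDiff RealInnerProductSpace

namespace Vale.Agent.P353

open Ga2Aux

variable {E : Type} [NormedAddCommGroup E] [InnerProductSpace ℝ E] [FiniteDimensional ℝ E]
  [MeasurableSpace E] [BorelSpace E]
variable {S : Type} [NormedAddCommGroup S] [InnerProductSpace ℝ S] [FiniteDimensional ℝ S]
variable {F : Type} [NormedAddCommGroup F] [InnerProductSpace ℂ F] [FiniteDimensional ℂ F]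
variable {θ : S →L[ℝ] F →L[ℂ] F} {U : Submodule ℝ E} {C : Set ((E →L[ℝ] E) × (F →L[ℂ] F))}

theorem IsCAR.dop_anti (h : IsCAR θ) (p : ℝ) {s s' : E →L[ℝ] S} {β β' : E → S}
    (hβ : ContDiff ℝ ∞ β) (hβ' : ContDiff ℝ ∞ β') {t : ℝ}
    (hs : ∀ y ∈ U, ∀ z ∈ U, ⟪s y, s' z⟫ + ⟪s z, s' y⟫ = 2 * t * ⟪y, z⟫) {ψ : E → F}
    (hψ : ContDiff ℝ ∞ ψ) (x : E) :
    dop θ U p s β (dop θ U p s' β' ψ) x + dop θ U p s' β' (dop θ U p s β ψ) x =
      ((-(p ^ 2 * t) : ℝ) : ℂ) • lapF U ψ x +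
        (-I * p) • fderiv ℝ ψ x (∑ k, (⟪s (onb U k), β' x⟫ + ⟪s' (onb U k), β x⟫) • onb U k) +
        (-I * p) • (∑ k, (θ (s (onb U k)) * θ (fderiv ℝ β' x (onb U k)) +
          θ (s' (onb U k)) * θ (fderiv ℝ β x (onb U k)))) (ψ x) +
        ((⟪β x, β' x⟫ : ℝ) : ℂ) • ψ x := by
  rw [dop_anti0 h p s s' hβ hβ' hψ x]
  have e1 : ∑ k, ∑ l, ((⟪s (onb U k), s' (onb U l)⟫ : ℝ) : ℂ) •
      fderiv ℝ (fun y => fderiv ℝ ψ y (onb U l)) x (onb U k) = (t : ℂ) • lapF U ψ x := by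
    have e2 : ∑ k, ∑ l, ((⟪s (onb U k), s' (onb U l)⟫ : ℝ) : ℂ) •
        fderiv ℝ (fun y => fderiv ℝ ψ y (onb U l)) x (onb U k) =
        ∑ k, ∑ l, ((⟪s (onb U l), s' (onb U k)⟫ : ℝ) : ℂ) •
        fderiv ℝ (fun y => fderiv ℝ ψ y (onb U l)) x (onb U k) := by
      rw [Finset.sum_comm]
      exact Finset.sum_congr rfl fun k _ => Finset.sum_congr rfl fun l _ => by
        rw [dir_symm hψ x]
    have e3 : ∑ k, ∑ l, ((⟪s (onb U k), s' (onb U l)⟫ : ℝ) : ℂ) •
        fderiv ℝ (fun y => fderiv ℝ ψ y (onb U l)) x (onb U k) +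
        ∑ k, ∑ l, ((⟪s (onb U l), s' (onb U k)⟫ : ℝ) : ℂ) •
        fderiv ℝ (fun y => fderiv ℝ ψ y (onb U l)) x (onb U k) =
        (2 : ℂ) • (t : ℂ) • lapF U ψ x := by
      rw [← Finset.sum_add_distrib, lapF, smul_smul, Finset.smul_sum]
      refine Finset.sum_congr rfl fun k _ => ?_
      rw [← Finset.sum_add_distrib, Finset.sum_eq_single k]
      · rw [← add_smul, ← ofReal_add, hs _ (onb_mem U k) _ (onb_mem U k), inner_onb, if_pos rfl]
        push_cast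
        rw [mul_one]
      · intro l _ hl
        rw [← add_smul, ← ofReal_add, hs _ (onb_mem U k) _ (onb_mem U l), inner_onb,
          if_neg hl.symm, mul_zero, ofReal_zero, zero_smul]
      · exact fun hk => absurd (Finset.mem_univ k) hk
    rw [← e2, ← two_smul ℂ] at e3
    exact smul_right_injective F two_ne_zero e3
  rw [e1, smul_smul, _root_.map_sum, _root_.sum_apply, ← ofReal_mul, neg_mul (p ^ 2)]
  simp only [map_smul, coe_smul]
  rfl

theorem IsCAR.sum_dop_sq (h : IsCAR θ) (p : ℝ) {s : Fin 16 → E →L[ℝ] S} {β : Fin 16 → E → S}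
    (hβ : ∀ α, ContDiff ℝ ∞ (β α)) (hI : Iso U s β) {ψ : E → F} (hψ : ContDiff ℝ ∞ ψ) {x : E}
    (hx : x ∈ U) : ∑ α, dop θ U p (s α) (β α) (dop θ U p (s α) (β α) ψ) x =
      ((-(8 * p ^ 2) : ℝ) : ℂ) • lapF U ψ x + (((∑ α, ‖β α x‖ ^ 2) / 2 : ℝ) : ℂ) • ψ x +
        (p : ℂ) • bil θ U s β x (ψ x) := by
  have e0 := Finset.sum_congr (s₁ := Finset.univ) rfl fun α _ =>
    dop_anti0 (U := U) h p (s α) (s α) (hβ α) (hβ α) hψ x
  have e1 : ∑ α, ∑ k, ∑ l, ((⟪s α (onb U k), s α (onb U l)⟫ : ℝ) : ℂ) •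
      fderiv ℝ (fun y => fderiv ℝ ψ y (onb U l)) x (onb U k) = (16 : ℂ) • lapF U ψ x := by
    rw [Finset.sum_comm, lapF, Finset.smul_sum]
    refine Finset.sum_congr rfl fun k _ => ?_
    rw [Finset.sum_comm, Finset.sum_eq_single k]
    · rw [← Finset.sum_smul, ← ofReal_sum, hI.1 _ (onb_mem U k) _ (onb_mem U k), inner_onb,
        if_pos rfl]
      push_cast
      rw [mul_one]
    · intro l _ hl
      rw [← Finset.sum_smul, ← ofReal_sum, hI.1 _ (onb_mem U k) _ (onb_mem U l), inner_onb,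
        if_neg hl.symm, mul_zero, ofReal_zero, zero_smul]
    · exact fun hk => absurd (Finset.mem_univ k) hk
  have e2 : ∑ α, ∑ k, ((⟪s α (onb U k), β α x⟫ + ⟪s α (onb U k), β α x⟫ : ℝ) : ℂ) •
      fderiv ℝ ψ x (onb U k) = 0 := by
    rw [Finset.sum_comm]
    refine Finset.sum_eq_zero fun k _ => ?_
    rw [← Finset.sum_smul, ← ofReal_sum, Finset.sum_add_distrib, hI.2 _ hx _ (onb_mem U k),
      add_zero, ofReal_zero, zero_smul]
  have e3 : bil θ U s β x (ψ x) =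
      (-I) • ∑ α, ∑ k, θ (s α (onb U k)) (θ (fderiv ℝ (β α) x (onb U k)) (ψ x)) := by
    simp only [bil, _root_.sum_apply, Finset.smul_sum]
    rfl
  have e4 : ∑ α, ((⟪β α x, β α x⟫ : ℝ) : ℂ) • ψ x = ((∑ α, ‖β α x‖ ^ 2 : ℝ) : ℂ) • ψ x := by
    simp only [real_inner_self_eq_norm_sq, ← Finset.sum_smul, ← ofReal_sum]
  simp only [Finset.sum_add_distrib, ← Finset.smul_sum] at e0
  rw [e1, e2, e4] at e0
  rw [e3]
  refine smul_right_injective F (two_ne_zero (α := ℂ)) ?_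
  simp only [two_smul]
  rw [e0]
  push_cast
  module

theorem IsCAR.energy (h : IsCAR θ) (p : ℝ) {s : Fin 16 → E →L[ℝ] S} {β : Fin 16 → E → S}
    (hβ : ∀ α, ContDiff ℝ ∞ (β α)) (hI : Iso U s β) {ψ : E → F} (hψ : Sm U ψ) :
    en θ U p s β ψ = 8 * p ^ 2 * grad U ψ + wnrm U (fun x => ∑ α, ‖β α x‖ ^ 2) ψ / 2 +
      p * ∫ x : U, (inner ℂ (ψ x) (bil θ U s β x (ψ x))).re := by
  have hQ := fun α => contDiff_dop θ U p (s α) (hβ α) hψ.1
  have hQQ := fun α => contDiff_dop θ U p (s α) (hβ α) (hQ α)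
  have hc := hψ.1.continuous
  have e1 : ∀ α, nrm U (dop θ U p (s α) (β α) ψ) =
      ∫ x : U, (inner ℂ (ψ x) (dop θ U p (s α) (β α) (dop θ U p (s α) (β α) ψ) x)).re := by
    intro α
    rw [← ip_re hψ.2 hc (hQQ α).continuous, ← h.dop_symm p (s α) (hβ α).continuous hψ
      ((hQ α).of_le (by exact_mod_cast le_top)),
      ip_re (hψ.dop p (s α) (hβ α)).2 (hQ α).continuous (hQ α).continuous]
    simp only [re_self, nrm]
  have hi : ∀ {φ : E → F}, ContDiff ℝ ∞ φ → Integrable fun x : U => (inner ℂ (ψ x) (φ x)).re :=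
    fun {φ} hφ => integrable_of (g := fun x => (inner ℂ (ψ x) (φ x)).re) hψ.2
      (contDiff_re hψ.1 hφ).continuous fun x hx => by simp [hx]
  have hw : Continuous fun x => ∑ α, ‖β α x‖ ^ 2 :=
    continuous_finsetSum _ fun α _ => (hβ α).continuous.norm.pow 2
  have e2 : ∀ x : U, ∑ α,
      (inner ℂ (ψ x) (dop θ U p (s α) (β α) (dop θ U p (s α) (β α) ψ) x)).re =
      -(8 * p ^ 2) * (inner ℂ (ψ x) (lapF U ψ x)).re + (∑ α, ‖β α x‖ ^ 2) * ‖ψ x‖ ^ 2 / 2 +
        p * (inner ℂ (ψ x) (bil θ U s β x (ψ x))).re := by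
    intro x
    rw [← re_sum, ← inner_sum, h.sum_dop_sq p hβ hI hψ.1 x.2, inner_add_right, inner_add_right,
      add_re, add_re, re_smul_right, re_smul_right, re_smul_right, re_self]
    ring
  have i1 := (hi (contDiff_lapF U hψ.1)).const_mul (-(8 * p ^ 2))
  have i2 := (hψ.integrable_wnrm hw.continuousOn).div_const 2
  have i3 := (hi (hψ.clm (contDiff_bil' (θ := θ) (U := U) s hβ)).1).const_mul p
  simp only [en, e1]
  rw [← integral_finsetSum _ fun α _ => hi (hQQ α)]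
  simp only [e2]
  rw [integral_add (i1.fun_add i2) i3, integral_add i1 i2, integral_const_mul, integral_const_mul,
    integral_div, integral_lapF hψ, wnrm]
  ring

theorem contDiff_bil (s : Fin 16 → E →L[ℝ] S) {β : Fin 16 → E → S}
    (hβ : ∀ α, ContDiff ℝ ∞ (β α)) : ContDiff ℝ ∞ (bil θ U s β) := contDiff_bil' s hβ

/-- the energy density against a smooth weight -/
theorem IsCAR.energy_weight (h : IsCAR θ) (p : ℝ) {s : Fin 16 → E →L[ℝ] S} {β : Fin 16 → E → S}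
    (hβ : ∀ α, ContDiff ℝ ∞ (β α)) (hI : Iso U s β) {ψ : E → F} (hψ : ContDiff ℝ ∞ ψ) {f : E → ℝ}
    (hf : ContDiff ℝ ∞ f) (hs : HasCompactSupport fun x : U => (f x : ℂ) • ψ x) :
    ∫ x : U, f x ^ 2 * (8 * p ^ 2 * gsq U ψ x + (∑ α, ‖β α x‖ ^ 2) / 2 * ‖ψ x‖ ^ 2 +
        p * (inner ℂ (ψ x) (bil θ U s β x (ψ x))).re) =
      en θ U p s β (fun x => (f x : ℂ) • ψ x) +
        8 * p ^ 2 * ∫ x : U, f x * lap U f x * ‖ψ x‖ ^ 2 := by
  have hφ : Sm U fun x => (f x : ℂ) • ψ x := ⟨contDiff_mulR hψ hf, hs⟩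
  have hz : ∀ x, (f x : ℂ) • ψ x = 0 → f x = 0 ∨ ψ x = 0 := fun x hx => by
    simpa only [smul_eq_zero, ofReal_eq_zero] using hx
  have hg : ∀ k, ContDiff ℝ ∞ fun y => f y * fderiv ℝ f y (onb U k) * (inner ℂ (ψ y) (ψ y)).re :=
    fun k => (hf.mul (contDiff_dir hf _)).mul (contDiff_re hψ hψ)
  have hgs : ∀ k, HasCompactSupport fun y : U =>
      f y * fderiv ℝ f y (onb U k) * (inner ℂ (ψ y) (ψ y)).re := fun k =>
    hcs_of (ψ := fun x => (f x : ℂ) • ψ x)
      (g := fun y => f y * fderiv ℝ f y (onb U k) * (inner ℂ (ψ y) (ψ y)).re) hs fun x hx => by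
        rcases hz x hx with h0 | h0 <;> simp [h0]
  have hw : Continuous fun x => ∑ α, ‖β α x‖ ^ 2 :=
    continuous_finsetSum _ fun α _ => (hβ α).continuous.norm.pow 2
  have i0 := fun k => integrable_fderiv (hg k) (hgs k) (onb_mem U k)
  have i1 := integrable_gsq hφ
  have i2 := integrable_finsetSum Finset.univ fun k _ => i0 k
  have i3 : Integrable fun x : U => f x * lap U f x * ‖ψ x‖ ^ 2 :=
    integrable_of (ψ := fun x => (f x : ℂ) • ψ x) (g := fun x => f x * lap U f x * ‖ψ x‖ ^ 2) hs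
      ((hf.continuous.mul (contDiff_lap U hf).continuous).mul (hψ.continuous.norm.pow 2))
      fun x hx => by rcases hz x hx with h0 | h0 <;> simp [h0]
  have i4 := (hφ.integrable_wnrm hw.continuousOn).div_const 2
  have i5 : Integrable fun x : U =>
      (inner ℂ ((f x : ℂ) • ψ x) (bil θ U s β x ((f x : ℂ) • ψ x))).re :=
    integrable_of (ψ := fun x => (f x : ℂ) • ψ x)
      (g := fun x => (inner ℂ ((f x : ℂ) • ψ x) (bil θ U s β x ((f x : ℂ) • ψ x))).re) hs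
      (contDiff_re hφ.1 (hφ.clm (contDiff_bil s hβ)).1).continuous fun x hx => by simp [hx]
  have e1 : ∀ x : E, f x ^ 2 * (8 * p ^ 2 * gsq U ψ x + (∑ α, ‖β α x‖ ^ 2) / 2 * ‖ψ x‖ ^ 2 +
        p * (inner ℂ (ψ x) (bil θ U s β x (ψ x))).re) =
      8 * p ^ 2 * (gsq U (fun x => (f x : ℂ) • ψ x) x - ∑ k, fderiv ℝ
        (fun y => f y * fderiv ℝ f y (onb U k) * (inner ℂ (ψ y) (ψ y)).re) x (onb U k) +
          f x * lap U f x * ‖ψ x‖ ^ 2) + (∑ α, ‖β α x‖ ^ 2) * ‖(f x : ℂ) • ψ x‖ ^ 2 / 2 +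
        p * (inner ℂ ((f x : ℂ) • ψ x) (bil θ U s β x ((f x : ℂ) • ψ x))).re := by
    intro x
    rw [← gsq_mulR hψ hf x, map_smul, re_smul_left, re_smul_right, norm_smul, mul_pow,
      norm_real, Real.norm_eq_abs, sq_abs]
    ring
  have i6 := (i1.sub' i2).fun_add i3
  simp only [e1]
  rw [integral_add ((i6.const_mul _).fun_add i4) (i5.const_mul p),
    integral_add (i6.const_mul _) i4, integral_const_mul, integral_const_mul,
    integral_add (i1.sub' i2) i3, integral_sub i1 i2, integral_finsetSum _ fun k _ => i0 k,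
    Finset.sum_eq_zero fun k _ => integral_fderiv_eq_zero
      ((hg k).of_le (by exact_mod_cast le_top)) (hgs k) (onb_mem U k),
    h.energy p hβ hI hφ, integral_div, wnrm, grad]
  ring

/-- local gradient bound -/
theorem IsCAR.local_grad (h : IsCAR θ) {s : Fin 16 → E →L[ℝ] S} {β : Fin 16 → E → S}
    (hβ : ∀ α, ContDiff ℝ ∞ (β α)) (hI : Iso U s β) (R : ℝ) : ∃ K, ∀ ψ : E → F, Sm U ψ →
      ∫ x in {x : U | ‖x‖ ≤ R}, gsq U ψ x ≤ K * (nrm U ψ + en θ U 1 s β ψ) := by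
  obtain ⟨K₀, hK₀⟩ := exists_cutoff E
  have hR : 0 < |R| + 1 := by positivity
  obtain ⟨χ, hχ, -, h01, h1, h0, hd⟩ := hK₀ _ hR
  obtain ⟨B, hB⟩ := (isCompact_closedBall (0 : E) (2 * (|R| + 1))).exists_bound_of_continuousOn
    (contDiff_bil (θ := θ) (U := U) s hβ).continuous.continuousOn
  have hB0 : 0 ≤ B := (norm_nonneg _).trans (hB 0 (Metric.mem_closedBall_self (by positivity)))
  obtain ⟨M, hM⟩ : ∃ M, M = max 1 (K₀ / (|R| + 1)) := ⟨_, rfl⟩
  refine ⟨2 * M ^ 2 + B, fun ψ hψ => ?_⟩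
  have hφ := hψ.mulR hχ
  have e1 := h.energy 1 hβ hI hφ
  have e2 := h.en_mulR_le' 1 hβ hI hψ hχ (M := M) fun x _ _ =>
    ⟨by rw [abs_of_nonneg (h01 x).1, hM]; exact (h01 x).2.trans (le_max_left _ _),
      by rw [hM]; exact (hd x).trans (le_max_right _ _)⟩
  have e3 : 0 ≤ wnrm U (fun x => ∑ α, ‖β α x‖ ^ 2) fun x => (χ x : ℂ) • ψ x :=
    integral_nonneg fun x => by positivity
  have i1 : Integrable fun x : U => ‖ψ x‖ ^ 2 := by
    simpa only [one_mul] using hψ.integrable_wnrm (w := fun _ => 1) continuousOn_const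
  have e4 : ‖∫ x : U, (inner ℂ ((χ x : ℂ) • ψ x) (bil θ U s β x ((χ x : ℂ) • ψ x))).re‖ ≤
      B * nrm U ψ := by
    rw [nrm, ← integral_const_mul]
    refine norm_integral_le_of_norm_le (i1.const_mul B) (Eventually.of_forall fun x => ?_)
    by_cases hx : 2 * (|R| + 1) ≤ ‖(x : E)‖
    · simp only [h0 x hx, ofReal_zero, zero_smul, inner_zero_left, zero_re, norm_zero]
      positivity
    · have hb := hB x (mem_closedBall_zero_iff.2 (not_le.1 hx).le)
      have hn : ‖(χ x : ℂ) • ψ x‖ ≤ ‖ψ x‖ := by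
        rw [norm_smul, norm_real, Real.norm_of_nonneg (h01 x).1]
        exact mul_le_of_le_one_left (norm_nonneg _) (h01 x).2
      refine (abs_re_le_norm _).trans ((norm_inner_le_norm _ _).trans ?_)
      calc ‖(χ x : ℂ) • ψ x‖ * ‖bil θ U s β x ((χ x : ℂ) • ψ x)‖ ≤ ‖ψ x‖ * (B * ‖ψ x‖) :=
            mul_le_mul hn ((ContinuousLinearMap.le_opNorm _ _).trans
              (mul_le_mul hb hn (norm_nonneg _) hB0)) (norm_nonneg _) (norm_nonneg _)
        _ = B * ‖ψ x‖ ^ 2 := by ring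
  have e5 : ∫ x in {x : U | ‖x‖ ≤ R}, gsq U ψ x ≤ grad U fun x => (χ x : ℂ) • ψ x := by
    have hm : MeasurableSet {x : U | ‖x‖ ≤ R} :=
      (isClosed_le continuous_norm continuous_const).measurableSet
    rw [setIntegral_congr_fun (g := fun x : U => gsq U (fun x => (χ x : ℂ) • ψ x) x) hm]
    · exact setIntegral_le_integral (integrable_gsq hφ)
        (Eventually.of_forall fun x => gsq_nonneg _ _ _)
    · intro x hx
      have hx' : ‖(x : E)‖ < |R| + 1 := by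
        have : ‖(x : E)‖ ≤ R := hx
        linarith [le_abs_self R]
      have he : (fun y => (χ y : ℂ) • ψ y) =ᶠ[𝓝 (x : E)] ψ := by
        filter_upwards [(isOpen_lt continuous_norm continuous_const).mem_nhds hx'] with y hy
        rw [h1 y (le_of_lt hy), ofReal_one, one_smul]
      simp only [gsq, he.fderiv_eq]
  have e6 := nrm_nonneg U ψ
  have e7 := en_nonneg (θ := θ) (U := U) 1 s β ψ
  have e8 := grad_nonneg U fun x => (χ x : ℂ) • ψ x
  have e9 := (abs_le.1 e4).1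
  have := mul_nonneg hB0 e7
  have := mul_nonneg hB0 e6
  have := mul_nonneg (sq_nonneg M) e7
  nlinarith

/-- pairing of the potential with a Lipschitz field -/
theorem IsCAR.lipschitz_pair (h : IsCAR θ) (U : Submodule ℝ E) (s : Fin 16 → E →L[ℝ] S) :
    ∃ K : ℝ, ∀ (β u : Fin 16 → E → S) (L : NNReal), (∀ α, ContDiff ℝ ∞ (β α)) →
      (∀ α, LipschitzWith L (u α)) → (∀ x ∈ U, ∀ y ∈ U, ∑ α, ⟪s α y, u α x⟫ = 0) →
      ∀ ψ : E → F, Sm U ψ → ∀ t > 0,
        |wnrm U (fun x => ∑ α, ⟪u α x, β α x⟫) ψ| ≤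
          t * en θ U 1 s β ψ + wnrm U (fun x => ∑ α, ‖u α x‖ ^ 2) ψ / t + K * L * nrm U ψ := by
  obtain ⟨b, hb⟩ : ∃ b, b = stdOrthonormalBasis ℝ S := ⟨_, rfl⟩
  refine ⟨∑ k, ∑ α, ∑ _j : Fin (Module.finrank ℝ S), ‖s α (onb U k)‖,
    fun β u L hβ hu ho ψ hψ t ht => ?_⟩
  have hth : ∀ w : S, ContDiff ℝ ∞ fun y => θ w (ψ y) := fun w =>
    ((θ w).restrictScalars ℝ).contDiff.comp hψ.1
  obtain ⟨g, hg⟩ : ∃ g : Fin (Module.finrank ℝ U) → Fin 16 → Fin (Module.finrank ℝ S) → E → ℝ,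
      g = fun k α j y => (inner ℂ (θ (b j) (ψ y)) (θ (s α (onb U k)) (ψ y))).im := ⟨_, rfl⟩
  have g1 : ∀ k α j, ContDiff ℝ ∞ (g k α j) := fun k α j => by
    rw [hg]; exact contDiff_im (hth _) (hth _)
  have g2 : ∀ k α j, HasCompactSupport fun x : U => g k α j x := fun k α j =>
    hcs_of hψ.2 fun x hx => by simp [hg, hx]
  have a1 : ∀ α j, LipschitzWith L fun x => ⟪b j, u α x⟫ := fun α j => by
    refine LipschitzWith.of_dist_le_mul fun x y => ?_
    rw [Real.dist_eq, ← inner_sub_right]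
    refine (abs_real_inner_le_norm _ _).trans ?_
    rw [b.orthonormal.1 j, one_mul, ← dist_eq_norm]
    exact (hu α).dist_le_mul x y
  have hQ := fun α => hψ.dop (θ := θ) 1 (s α) (hβ α)
  have i0 : ∀ {φ : E → F}, Sm U φ → Integrable fun x : U => ‖φ x‖ ^ 2 := fun {φ} hφ => by
    simpa only [one_mul] using hφ.integrable_wnrm (w := fun _ => 1) continuousOn_const
  have i1 : ∀ k α j, Integrable fun x : U => ⟪b j, u α x⟫ * fderiv ℝ (g k α j) x (onb U k) :=
    fun k α j => Continuous.integrable_of_hasCompactSupport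
      (((a1 α j).continuous.mul (contDiff_dir (g1 k α j) _).continuous).comp
        continuous_subtype_val)
      (hcs_fderiv ((g1 k α j).differentiable (by simp)) (g2 k α j) (onb_mem U k)).mul_left
  have i2 : ∀ α, Integrable fun x : U =>
      2 * (inner ℂ (θ (u α x) (ψ x)) (dop θ U 1 (s α) (β α) ψ x)).re := fun α =>
    integrable_of (g := fun x => 2 * (inner ℂ (θ (u α x) (ψ x)) (dop θ U 1 (s α) (β α) ψ x)).re)
      hψ.2 (continuous_const.mul (continuous_re.comp (((θ.continuous.comp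
        (hu α).continuous).clm_apply hψ.1.continuous).inner (hQ α).1.continuous)))
      fun x hx => by simp [hx]
  have i3 : ∀ α, Integrable fun x : U => ‖u α x‖ ^ 2 * ‖ψ x‖ ^ 2 := fun α =>
    hψ.integrable_wnrm (w := fun x => ‖u α x‖ ^ 2) ((hu α).continuous.norm.pow 2).continuousOn
  have e1 : ∀ x : U, (∑ α, ⟪u α x, β α x⟫) * ‖ψ x‖ ^ 2 =
      ∑ α, 2 * (inner ℂ (θ (u α x) (ψ x)) (dop θ U 1 (s α) (β α) ψ x)).re -
        ∑ k, ∑ α, ∑ j, ⟪b j, u α x⟫ * fderiv ℝ (g k α j) x (onb U k) := fun x => by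
    rw [hg, hb]
    exact pair_point h s β (fun α => u α x) (ho x x.2) (hψ.1.differentiable (by simp) x)
  have e2 : ∀ α, |∫ x : U, 2 * (inner ℂ (θ (u α x) (ψ x)) (dop θ U 1 (s α) (β α) ψ x)).re| ≤
      t * nrm U (dop θ U 1 (s α) (β α) ψ) + (∫ x : U, ‖u α x‖ ^ 2 * ‖ψ x‖ ^ 2) / t := by
    intro α
    rw [nrm, ← integral_const_mul, ← integral_div,
      ← integral_add ((i0 (hQ α)).const_mul t) ((i3 α).div_const t), ← Real.norm_eq_abs]
    exact norm_integral_le_of_norm_le (((i0 (hQ α)).const_mul t).fun_add ((i3 α).div_const t))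
      (Eventually.of_forall fun x => pair_bound h _ _ _ ht)
  have e3 : ∀ k α j, |∫ x : U, ⟪b j, u α x⟫ * fderiv ℝ (g k α j) x (onb U k)| ≤
      ‖s α (onb U k)‖ * L * nrm U ψ := by
    intro k α j
    refine (ibp_lip (a1 α j) (g1 k α j) (g2 k α j) (onb_mem U k)).trans ?_
    have n1 : ‖onb U k‖ = 1 := (stdOrthonormalBasis ℝ U).orthonormal.1 k
    rw [n1, mul_one, mul_comm _ (L : ℝ), mul_assoc, nrm, ← integral_const_mul ‖s α (onb U k)‖]
    refine mul_le_mul_of_nonneg_left (integral_mono_of_nonneg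
      (Eventually.of_forall fun x => abs_nonneg _) ((i0 hψ).const_mul _)
      (Eventually.of_forall fun x => ?_)) L.coe_nonneg
    have := im_bound h (b j) (s α (onb U k)) (ψ x)
    rw [b.orthonormal.1 j, one_mul] at this
    rw [hg]
    exact this
  have i4 := fun k α => integrable_finsetSum Finset.univ fun j _ => i1 k α j
  have i5 := fun k => integrable_finsetSum Finset.univ fun α _ => i4 k α
  have e4 : wnrm U (fun x => ∑ α, ‖u α x‖ ^ 2) ψ = ∑ α, ∫ x : U, ‖u α x‖ ^ 2 * ‖ψ x‖ ^ 2 := by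
    simp only [wnrm, Finset.sum_mul]
    exact integral_finsetSum _ fun α _ => i3 α
  rw [e4, wnrm]
  simp only [e1]
  rw [integral_sub (integrable_finsetSum _ fun α _ => i2 α) (integrable_finsetSum _ fun k _ => i5 k),
    integral_finsetSum _ fun α _ => i2 α, integral_finsetSum _ fun k _ => i5 k]
  refine (abs_sub _ _).trans (add_le_add ?_ ?_)
  · rw [en, Finset.mul_sum, Finset.sum_div, ← Finset.sum_add_distrib]
    exact (Finset.abs_sum_le_sum_abs _ _).trans (Finset.sum_le_sum fun α _ => e2 α)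
  · simp only [Finset.sum_mul]
    refine (Finset.abs_sum_le_sum_abs _ _).trans (Finset.sum_le_sum fun k _ => ?_)
    rw [integral_finsetSum _ fun α _ => i4 k α]
    refine (Finset.abs_sum_le_sum_abs _ _).trans (Finset.sum_le_sum fun α _ => ?_)
    rw [integral_finsetSum _ fun j _ => i1 k α j]
    exact (Finset.abs_sum_le_sum_abs _ _).trans (Finset.sum_le_sum fun j _ => e3 k α j)

end Vale.Agent.P353
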