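import Vale.Agent.P353.Cov1
import Vale.Agent.P353.Cov2
import Vale.Agent.P353.Ga2
import Vale.Agent.P353.Fub

/-! Fermion bilinear, invariant test functions, scaling. -/

noncomputable section

open MeasureTheory Filter Topology Complex Matrix
open scoped ContDiff RealInnerProductSpace

namespace Vale.Agent.P353

namespace Cov3Aux

variable {d : ℕ} {F : Type} [NormedAddCommGroup F] [InnerProductSpace ℂ F] [FiniteDimensional ℂ F]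
  {θ : Tn 16 d →L[ℝ] F →L[ℂ] F}

theorem theta_mul (u w : Tn 16 d) :
    θ u * θ w = (2 : ℂ) • dG θ ((innerSL ℝ w).smulRight u) := by
  have h := (stdOrthonormalBasis ℝ (Tn 16 d)).sum_repr' w
  rw [dG, smul_smul, show (2 : ℂ) * (1 / 2) = 1 by norm_num, one_smul]
  conv_lhs => rw [← h]
  rw [map_sum, Finset.mul_sum]
  refine Finset.sum_congr rfl fun j _ => ?_
  rw [ContinuousLinearMap.smulRight_apply, innerSL_apply_apply, theta_smul, theta_smul,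
    mul_smul_comm, smul_mul_assoc, real_inner_comm]

theorem sum_rank (𝔞 : Submodule ℝ (Lg d)) (A B : M16) {b b' : Lg d →L[ℝ] Lg d}
    (h : ∀ u v, ⟪b u, v⟫ = ⟪u, b' v⟫) :
    ∑ α, ∑ a, (innerSL ℝ (tens (B *ᵥ eb α) (b (onb 𝔞 a)) : Tn 16 d)).smulRight
      (tens (A *ᵥ eb α) (onb 𝔞 a) : Tn 16 d) = kr (A * Bᵀ) (𝔞.starProjection * b') := by
  refine ContinuousLinearMap.ext fun v => ext_cmp fun i => ?_
  simp only [_root_.sum_apply, ContinuousLinearMap.smulRight_apply,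
    innerSL_apply_apply, inner_tens_left, h, ← map_smul, ← map_sum, sum_inner_onb_smul]
  rw [cmp_kr, ← sum_eb_vecMulVec, map_sum]
  simp only [cmp_tens, cv_apply, map_sum, map_smul, smul_smul,
    Matrix.sum_apply, vecMulVec_apply, Finset.sum_smul, mul_apply_eq_comp]
  rw [Finset.sum_comm]
  simp only [mul_comm]

theorem sum_theta (𝔞 : Submodule ℝ (Lg d)) (A B : M16) {b b' : Lg d →L[ℝ] Lg d}
    (h : ∀ u v, ⟪b u, v⟫ = ⟪u, b' v⟫) :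
    ∑ α, ∑ a, θ (tens (A *ᵥ eb α) (onb 𝔞 a)) * θ (tens (B *ᵥ eb α) (b (onb 𝔞 a))) =
      (2 : ℂ) • dG θ (kr (A * Bᵀ) (𝔞.starProjection * b')) := by
  simp only [theta_mul, ← sum_rank 𝔞 A B h, dG_sum, Finset.smul_sum]

theorem sum_basis (𝔞 : Submodule ℝ (Lg d)) (s L : Tn 9 d →L[ℝ] Tn 16 d) :
    ∑ k, θ (s (onb (sub 9 𝔞) k)) * θ (L (onb (sub 9 𝔞) k)) = ∑ i, ∑ a,
      θ (s (tens (Pi.single i 1) (onb 𝔞 a))) * θ (L (tens (Pi.single i 1) (onb 𝔞 a))) :=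
  sum_onb_sub 𝔞 ((ContinuousLinearMap.mul ℝ (F →L[ℂ] F)).bilinearComp (θ ∘L s) (θ ∘L L))

theorem sum_gamma2 {γ : Fin 9 → M16} (h : IsGam γ) (j : Fin 9) :
    ∑ i, γ i * (gamma2 γ j i)ᵀ = (8 : ℝ) • γ j := by
  have e : ∀ i, γ i * (gamma2 γ j i)ᵀ = γ j - if i = j then γ j else 0 := fun i => by
    rw [h.gamma2_transpose]
    split_ifs with hi
    · rw [hi, h.gamma2_self, mul_zero, sub_self]
    · rw [h.gamma2_ne hi, ← mul_assoc, h.sq, one_mul, sub_zero]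
  simp only [e, Finset.sum_sub_distrib, Finset.sum_const, Finset.card_univ, Fintype.card_fin,
    Finset.sum_ite_eq', Finset.mem_univ, if_true]
  module

theorem sum_kk {γ : Fin 9 → M16} (h : IsGam γ) :
    ∑ i, γ i * (kk i • (γ i * Gm γ))ᵀ = (12 : ℝ) • Gm γ := by
  have e : ∀ i, γ i * (kk i • (γ i * Gm γ))ᵀ = |kk i| • Gm γ := fun i => by
    rw [h.kk_Gm, transpose_neg, transpose_smul, transpose_mul, h.symm, h.Gm_transpose,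
      mul_neg (γ i) (Gm γ), smul_neg, neg_neg, mul_smul_comm, ← mul_assoc, h.sq, one_mul]
  simp only [e, ← Finset.sum_smul]
  refine congrArg (· • Gm γ) ?_
  simp [Fin.sum_univ_succ, kk]
  norm_num

theorem num {a b s t g m x : ℝ} (h1 : a ≤ s * (2 * x)) (h2 : b ≤ t) (s0 : 0 ≤ s) (t0 : 0 ≤ t)
    (x0 : 0 ≤ x) : ‖2 * g‖ * a + ‖3 * m‖ * b ≤ (4 * s + 3 * t) * (|g| * x + |m|) := by
  rw [norm_mul, norm_mul, Real.norm_eq_abs g, Real.norm_eq_abs m, Real.norm_ofNat, Real.norm_ofNat]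
  have a1 := mul_le_mul_of_nonneg_left h1 (by positivity : 0 ≤ 2 * |g|)
  have a2 := mul_le_mul_of_nonneg_left h2 (by positivity : 0 ≤ 3 * |m|)
  have a3 : 0 ≤ s * |m| := by positivity
  have a4 : 0 ≤ t * (|g| * x) := by positivity
  linarith

end Cov3Aux

open Cov3Aux

namespace Ctx

variable {N d : ℕ} {F : Type} [NormedAddCommGroup F] [InnerProductSpace ℂ F]
  [FiniteDimensional ℂ F] (c : Ctx N d F)

variable {π π' π'' : Setoid (Fin N)} {𝔞 𝔴 : Submodule ℝ (Lg d)}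

theorem cov3_sE (e : Fin 16 → ℝ) (i : Fin 9) (y : Lg d) :
    c.sE e (tens (Pi.single i 1) y) = tens (c.γ i *ᵥ e) y := by
  rw [sE_tens, Finset.sum_eq_single i (fun j _ hj => by simp [hj]) (by simp)]
  simp

theorem cov3_Km (e : Fin 16 → ℝ) (i : Fin 9) (y : Lg d) :
    c.Km e (tens (Pi.single i 1) y) = tens ((kk i • (c.γ i * Gm c.γ)) *ᵥ e) y := by
  rw [Km_apply, Finset.sum_eq_single i (fun j _ hj => by simp [cmp_tens, hj]) (by simp),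
    cmp_tens, smul_mulVec, tens_smul]
  simp

theorem cov3_Phi (e : Fin 16 → ℝ) (x : Tn 9 d) (i : Fin 9) (y : Lg d) :
    fderiv ℝ (c.Phi e) x (tens (Pi.single i 1) y) =
      ∑ j, tens (gamma2 c.γ j i *ᵥ e) ((-c.ad (cmp j x)) y) := by
  rw [fderiv_Phi, Finset.sum_eq_single i (fun j _ hj => by simp [cmp_tens, hj, ad_zero]) (by simp)]
  refine Finset.sum_congr rfl fun j _ => ?_
  rw [cmp_tens, Pi.single_eq_same, one_smul, ad_anti, _root_.neg_apply]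

theorem cov3_mass (𝔠 : Submodule ℝ (Lg d)) :
    ∑ α, ∑ k, c.θ (c.sE (eb α) (onb (sub 9 𝔠) k)) * c.θ (c.Km (eb α) (onb (sub 9 𝔠) k)) =
      (24 : ℂ) • dG c.θ (kr (Gm c.γ) 𝔠.starProjection) := by
  simp only [sum_basis, cov3_sE, cov3_Km]
  rw [Finset.sum_comm]
  have e := fun i => sum_theta (θ := c.θ) 𝔠 (c.γ i) (kk i • (c.γ i * Gm c.γ)) (b := 1) (b' := 1)
    fun _ _ => rfl
  simp only [one_apply_eq_self, mul_one] at e
  simp only [e]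
  rw [← Finset.smul_sum, ← dG_sum, ← kr_sum_left, sum_kk c.gam, kr_smul_left, dG_smul, smul_smul]
  norm_num

theorem cov3_adw (h : c.Th π 𝔞) {y : Lg d} (hy : y ∈ 𝔞) :
    𝔞.starProjection * c.ad y = c.adw 𝔞 y := by
  rw [adw, mul_assoc, c.ad_starProjection fun z hz => h.1 (c.ad_mem_ss (h.2 hy) (h.2 hz)),
    ← mul_assoc, 𝔞.isIdempotentElem_starProjection.eq]

theorem cov3_comm (h : c.Th π 𝔞) {x : Tn 9 d} (hx : x ∈ sub 9 𝔞) :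
    ∑ α, ∑ k, c.θ (c.sE (eb α) (onb (sub 9 𝔞) k)) *
      c.θ (fderiv ℝ (c.Phi (eb α)) x (onb (sub 9 𝔞) k)) = (16 : ℂ) • dG c.θ (c.Dw 𝔞 x) := by
  simp only [sum_basis, cov3_sE, cov3_Phi, map_sum, Finset.mul_sum]
  have e : ∀ i j, ∑ α, ∑ a, c.θ (tens (c.γ i *ᵥ eb α) (onb 𝔞 a)) *
      c.θ (tens (gamma2 c.γ j i *ᵥ eb α) ((-c.ad (cmp j x)) (onb 𝔞 a))) =
      (2 : ℂ) • dG c.θ (kr (c.γ i * (gamma2 c.γ j i)ᵀ) (c.adw 𝔞 (cmp j x))) := fun i j => by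
    rw [← c.cov3_adw h (mem_sub.1 hx j)]
    exact sum_theta 𝔞 _ _ fun u v => by rw [_root_.neg_apply, inner_neg_left, c.ad_skew, neg_neg]
  have e2 : ∀ j, ∑ i, (2 : ℂ) • dG c.θ (kr (c.γ i * (gamma2 c.γ j i)ᵀ) (c.adw 𝔞 (cmp j x))) =
      (16 : ℂ) • dG c.θ (kr (c.γ j) (c.adw 𝔞 (cmp j x))) := fun j => by
    rw [← Finset.smul_sum, ← dG_sum, ← kr_sum_left, sum_gamma2 c.gam, kr_smul_left, dG_smul,
      smul_smul]
    norm_num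
  rw [Dw, dG_sum, Finset.smul_sum]
  simp only [← e2, ← e]
  rw [Finset.sum_comm]
  refine Eq.trans ?_ Finset.sum_comm
  refine Finset.sum_congr rfl fun i _ => ?_
  refine Eq.trans ?_ Finset.sum_comm
  exact Finset.sum_congr rfl fun α _ => Finset.sum_comm

theorem cov3_fderiv (g m : ℝ) (e : Fin 16 → ℝ) (x y : Tn 9 d) :
    fderiv ℝ (c.beta g m e) x y = g • fderiv ℝ (c.Phi e) x y + m • c.Km e y := by
  have h1 := (((c.contDiff_Phi e).differentiable (by simp)) x).hasFDerivAt.const_smul g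
  have h2 := (c.Km e).hasFDerivAt.const_smul m (x := x)
  exact congrArg (fun L : Tn 9 d →L[ℝ] Tn 16 d => L y) (h1.add h2).fderiv

/-- the fermion bilinear -/
theorem bil_eq (h : c.Th π 𝔞) (g m : ℝ) {x : Tn 9 d} (hx : x ∈ sub 9 𝔞) :
    bil c.θ (sub 9 𝔞) (fun α => c.sE (eb α)) (fun α => c.beta g m (eb α)) x =
      (-8 * I) • dG c.θ ((2 * g) • c.Dw 𝔞 x + (3 * m) • kr (Gm c.γ) 𝔞.starProjection) := by
  simp only [bil, cov3_fderiv, map_add, theta_smul, mul_add, mul_smul_comm,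
    Finset.sum_add_distrib, ← Finset.smul_sum]
  rw [c.cov3_comm h hx, cov3_mass, dG_add, dG_smul, dG_smul]
  push_cast
  module

/-- the bilinear of the free theory -/
theorem free_bil (𝔠 : Submodule ℝ (Lg d)) :
    ∑ α, ∑ k, (-I) • (c.θ (c.sE (eb α) (onb (sub 9 𝔠) k)) * c.θ (c.Km (eb α) (onb (sub 9 𝔠) k))) =
      (-24 * I) • dG c.θ (kr (Gm c.γ) 𝔠.starProjection) := by
  simp only [← Finset.smul_sum]
  rw [cov3_mass]
  module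

theorem free_ann (𝔠 : Submodule ℝ (Lg d)) (e : Fin 16 → ℝ) {y : Tn 9 d} (hy : y ∈ sub 9 𝔠) :
    (I • c.θ (c.sE e (Afree d y)) + c.θ (c.Km e y)) * c.P0 𝔠 = 0 := by
  have h1 : kr 1 𝔠.starProjection (c.sE e (Afree d y)) = c.sE e (Afree d y) := by
    rw [← sub_starProjection]
    exact Submodule.starProjection_eq_self_iff.2 (c.sE_mem e (Afree_mem hy))
  have h2 : kr (Gm c.γ) 1 (c.sE e (Afree d y)) =
      kr (Gm c.γ) 𝔠.starProjection (c.sE e (Afree d y)) := by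
    conv_lhs => rw [← h1, ← mul_apply_eq_comp, kr_mul, mul_one, one_mul]
  have h3 := theta_J_vac (θ := c.θ) (J := kr (Gm c.γ) 𝔠.starProjection)
    (u := c.sE e (Afree d y)) (by rw [← mul_apply_eq_comp, ← _root_.neg_apply, Gm_supp, h1])
  rw [Km_eq, h2, map_neg, add_mul, neg_mul, P0, h3, smul_mul_assoc, add_neg_cancel]

theorem norm_bil_le : ∃ K, ∀ (π : Setoid (Fin N)) 𝔞, c.Th π 𝔞 → ∀ g m : ℝ, ∀ x ∈ sub 9 𝔞,
    ‖bil c.θ (sub 9 𝔞) (fun α => c.sE (eb α)) (fun α => c.beta g m (eb α)) x‖ ≤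
      K * (|g| * ‖x‖ + |m|) := by
  obtain ⟨L, hL⟩ := exists_dGL c.θ
  choose M hM using fun i => exists_krL (d := d) (c.γ i)
  obtain ⟨M', hM'⟩ := exists_krL (d := d) (Gm c.γ)
  refine ⟨8 * ‖L‖ * (4 * ∑ i, ‖M i‖ + 3 * ‖M'‖), fun π 𝔞 h g m x hx => ?_⟩
  have p1 := 𝔞.starProjection_norm_le
  have h1 : ‖c.Dw 𝔞 x‖ ≤ (∑ i, ‖M i‖) * (2 * ‖x‖) := by
    rw [Dw, Finset.sum_mul]
    refine norm_sum_le_of_le _ fun i _ => ?_
    rw [← hM, ← c.cov3_adw h (mem_sub.1 hx i)]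
    refine ((M i).le_opNorm _).trans (mul_le_mul_of_nonneg_left ?_ (norm_nonneg _))
    refine (norm_mul_le _ _).trans ((mul_le_of_le_one_left (norm_nonneg _) p1).trans ?_)
    exact ContinuousLinearMap.opNorm_le_bound _ (by positivity) fun y =>
      (c.norm_ad_le _ y).trans (by gcongr; exact norm_cmp_le i x)
  have h2 : ‖kr (Gm c.γ) 𝔞.starProjection‖ ≤ ‖M'‖ := by
    rw [← hM']
    exact (M'.le_opNorm _).trans (mul_le_of_le_one_right (norm_nonneg _) p1)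
  have h3 : ‖(2 * g) • c.Dw 𝔞 x + (3 * m) • kr (Gm c.γ) 𝔞.starProjection‖ ≤
      (4 * ∑ i, ‖M i‖ + 3 * ‖M'‖) * (|g| * ‖x‖ + |m|) := by
    refine (norm_add_le _ _).trans ?_
    rw [norm_smul, norm_smul]
    exact num h1 h2 (Finset.sum_nonneg fun i _ => norm_nonneg (M i)) (norm_nonneg M') (norm_nonneg _)
  have h4 := (L.le_opNorm _).trans (mul_le_mul_of_nonneg_left h3 (norm_nonneg L))
  rw [c.bil_eq h g m hx, ← hL, norm_smul, show ‖-8 * I‖ = 8 by simp]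
  linarith

theorem bil_Ad9 (h : c.Th π 𝔞) (g m : ℝ) {u : UN N} (hu : u ∈ Grp π) {x : Tn 9 d}
    (hx : x ∈ sub 9 𝔞) :
    c.U u * bil c.θ (sub 9 𝔞) (fun α => c.sE (eb α)) (fun α => c.beta g m (eb α)) x =
      bil c.θ (sub 9 𝔞) (fun α => c.sE (eb α)) (fun α => c.beta g m (eb α)) (c.Ad9 u x) * c.U u := by
  have h1 : c.Ad u * 𝔞.starProjection = 𝔞.starProjection * c.Ad u :=
    c.Ad_starProjection (c.Ad_mem_iff fun y hy => h.Ad_mem c hu hy)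
  have h2 : c.Ad u * c.Ad u⁻¹ = 1 := by rw [← Ad_mul, mul_inv_cancel, Ad_one]
  have h3 : ∀ y, c.Ad u * c.ad y = c.ad (c.Ad u y) * c.Ad u := fun y =>
    ContinuousLinearMap.ext fun z => c.Ad_ad u y z
  have h4 : ∀ y, c.Ad u * c.adw 𝔞 y * c.Ad u⁻¹ = c.adw 𝔞 (c.Ad u y) := fun y => by
    rw [adw, adw, ← mul_assoc, ← mul_assoc, h1, mul_assoc _ (c.Ad u), h3, ← mul_assoc,
      mul_assoc _ (c.Ad u), h1, ← mul_assoc, mul_assoc _ (c.Ad u), h2, mul_one]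
  have h5 : ∀ (M : M16) b v, kr 1 (c.Ad u) (kr M b (kr 1 (c.Ad u⁻¹) v)) =
      kr M (c.Ad u * b * c.Ad u⁻¹) v := fun M b v => by
    rw [← mul_apply_eq_comp, ← mul_apply_eq_comp, kr_mul, kr_mul, one_mul, mul_one]
  rw [c.bil_eq h g m hx, c.bil_eq h g m (h.Ad9_mem c hu hx), mul_smul_comm, smul_mul_assoc, U_dG]
  refine congrArg (fun a => (-8 * I) • (dG c.θ a * c.U u)) (ContinuousLinearMap.ext fun v => ?_)
  simp only [Dw, mul_apply_eq_comp, _root_.add_apply, _root_.smul_apply, _root_.sum_apply, map_add,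
    map_smul, map_sum, h5, h4, Ad9, cmp_kr_one]
  rw [h1, mul_assoc, h2, mul_one]

theorem adm_Cinv (h : c.Th π 𝔞) : Adm (sub 9 𝔞) (c.Cinv π) := by
  rintro _ ⟨u, hu, rfl⟩ x hx
  exact ⟨h.Ad9_mem c hu hx, c.norm_Ad9 u x⟩

theorem adm_C0 (π : Setoid (Fin N)) : Adm (sub 9 (c.ss π)) (c.C0 π) := by
  rintro p (rfl | hp) x hx
  · exact ⟨hx, rfl⟩
  · exact c.adm_Cinv (c.Th_ss π) p hp x hx

theorem cov_Cinv (h : c.Th π 𝔞) (g m : ℝ) (e : Fin 16 → ℝ) :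
    Cov c.θ (sub 9 𝔞) (c.Cinv π) (c.sE e) (c.beta g m e) := by
  rintro _ ⟨u, -, rfl⟩ x -
  have _ := h
  refine ⟨?_, ?_⟩
  · rw [Ad9, sE_kr]
    exact c.Uθ u _
  · rw [beta_Ad9]
    exact c.Uθ u _

theorem cov_C0 (π : Setoid (Fin N)) (g m : ℝ) (e : Fin 16 → ℝ) :
    Cov c.θ (sub 9 (c.ss π)) (c.C0 π) (c.sE e) (c.beta g m e) := by
  rintro p (rfl | hp) x hx
  · refine ⟨c.P0_theta ?_, c.P0_theta ?_⟩ <;> rw [Submodule.orthogonal_orthogonal]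
    · exact c.sE_mem e hx
    · exact add_mem (Submodule.smul_mem _ _ (c.Phi_mem e (sub_mono (c.Th_ss π).2 hx)))
        (Submodule.smul_mem _ _ (c.Km_mem e hx))
  · exact c.cov_Cinv (c.Th_ss π) g m e p hp x hx

theorem mem_D {ψ : Tn 9 d → F} : ψ ∈ c.D π 𝔞 ↔
    Sm (sub 9 𝔞) ψ ∧ ∀ u ∈ Grp π, ∀ x ∈ sub 9 𝔞, ψ (c.Ad9 u x) = c.U u (ψ x) :=
  ⟨fun h => ⟨h.1, fun u hu => h.2 _ ⟨u, hu, rfl⟩⟩,
    fun h => ⟨h.1, by rintro _ ⟨u, hu, rfl⟩; exact h.2 u hu⟩⟩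

theorem mem_D0 {ψ : Tn 9 d → F} : ψ ∈ c.D0 π ↔
    ψ ∈ c.D π (c.ss π) ∧ ∀ x ∈ sub 9 (c.ss π), c.P0 (c.ss π)ᗮ (ψ x) = ψ x := by
  refine ⟨fun h => ⟨⟨h.1, fun p hp => h.2 p (Or.inr hp)⟩,
    fun x hx => (h.2 _ (Or.inl rfl) x hx).symm⟩, fun h => ⟨h.1.1, ?_⟩⟩
  rintro p (rfl | hp) x hx
  · exact (h.2 x hx).symm
  · exact h.1.2 p hp x hx

theorem Q_mem_D (h : c.Th π 𝔞) (g m : ℝ) (e : Fin 16 → ℝ) {ψ : Tn 9 d → F} (hψ : ψ ∈ c.D π 𝔞) :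
    c.Q 𝔞 g m e ψ ∈ c.D π 𝔞 :=
  dop_mem_Tst (c.adm_Cinv h) 1 (c.contDiff_beta g m e) (c.cov_Cinv h g m e) hψ

theorem Q_mem_D0 (g m : ℝ) (e : Fin 16 → ℝ) {ψ : Tn 9 d → F} (hψ : ψ ∈ c.D0 π) :
    c.Q (c.ss π) g m e ψ ∈ c.D0 π :=
  dop_mem_Tst (c.adm_C0 π) 1 (c.contDiff_beta g m e) (c.cov_C0 π g m e) hψ

theorem mulR_mem_D {ψ : Tn 9 d → F} (hψ : ψ ∈ c.D π 𝔞) {f : Tn 9 d → ℝ} (hf : ContDiff ℝ ∞ f)
    (hi : c.InvR π (sub 9 𝔞) f) : (fun x => (f x : ℂ) • ψ x) ∈ c.D π 𝔞 :=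
  mulR_mem_Tst hψ hf (by rintro _ ⟨u, hu, rfl⟩; exact hi u hu)

theorem mulR_mem_D0 {ψ : Tn 9 d → F} (hψ : ψ ∈ c.D0 π) {f : Tn 9 d → ℝ} (hf : ContDiff ℝ ∞ f)
    (hi : c.InvR π (sub 9 (c.ss π)) f) : (fun x => (f x : ℂ) • ψ x) ∈ c.D0 π :=
  mulR_mem_Tst hψ hf (by
    rintro _ (rfl | ⟨u, hu, rfl⟩)
    · exact fun _ _ => rfl
    · exact hi u hu)

/-- the Gauss law -/
theorem gauss_law (h : c.Th π 𝔞) {ψ : Tn 9 d → F} (hψ : Differentiable ℝ ψ)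
    (hi : ∀ u ∈ Grp π, ∀ x ∈ sub 9 𝔞, ψ (c.Ad9 u x) = c.U u (ψ x)) {ξ : Lg d} (hξ : ξ ∈ c.blk π)
    {x : Tn 9 d} (hx : x ∈ sub 9 𝔞) : fderiv ℝ ψ x (c.vf ξ x) = c.Gs ξ (ψ x) := by
  have _ := h
  have key : ∀ t : ℝ, ψ (NormedSpace.exp (t • c.vf ξ) x) =
      NormedSpace.exp ((t : ℂ) • c.Gs ξ) (ψ x) := fun t => by
    obtain ⟨u, hu⟩ := c.exists_exp (t • ξ) 0
    have h1 := hi u (c.exp_mem_Grp (Submodule.smul_mem _ t hξ) hu) x hx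
    have h2 : c.U u = NormedSpace.exp (dG c.θ (kr 1 (c.ad (t • ξ)))) := c.Uexp _ _ u hu
    rw [ad_smul, kr_smul_right, dG_smul] at h2
    rwa [h2, Ad9, c.Ad_exp hu, ← exp_kr_one, ad_smul, kr_smul_right] at h1
  have h1 := (hasDerivAt_exp_smul_const (c.vf ξ) (0 : ℝ)).clm_apply (hasDerivAt_const 0 x)
  have h2 := ((hasDerivAt_exp_smul_const (c.Gs ξ) (0 : ℂ)).clm_apply
    (hasDerivAt_const 0 (ψ x)))
  simp only [zero_smul, NormedSpace.exp_zero, one_mul, map_zero, add_zero] at h1 h2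
  have h3 := (hψ (NormedSpace.exp ((0 : ℝ) • c.vf ξ) x)).hasFDerivAt.comp_hasDerivAt 0 h1
  have h4 := (h2.hasFDerivAt.restrictScalars ℝ).comp_hasDerivAt_of_eq (0 : ℝ)
    ofRealCLM.hasDerivAt rfl
  have h5 := h3.unique (h4.congr_of_eventuallyEq (Eventually.of_forall key))
  have h6 : (0 : ℝ) • c.vf ξ = 0 := ContinuousLinearMap.ext fun v => by simp
  simpa [h6] using h5

theorem invR_normsq {ψ : Tn 9 d → F} (hψ : ψ ∈ c.D π 𝔞) :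
    c.InvR π (sub 9 𝔞) fun x => ‖ψ x‖ ^ 2 := fun u hu x hx => by
  dsimp only
  rw [(c.mem_D.1 hψ).2 u hu x hx, c.Uiso]

theorem invR_gsq (h : c.Th π 𝔞) {ψ : Tn 9 d → F} (hψ : ψ ∈ c.D π 𝔞) :
    c.InvR π (sub 9 𝔞) (gsq (sub 9 𝔞) ψ) := fun u hu _ hx =>
  gsq_inv (hψ.1.1.differentiable (by simp)) (c.adm_Cinv h _ ⟨u, hu, rfl⟩) (c.Uiso u)
    ((c.mem_D.1 hψ).2 u hu) hx

theorem mass_Ad9 (h : c.Th π 𝔞) {ψ : Tn 9 d → F} (hψ : ψ ∈ c.D π 𝔞) {u : UN N} (hu : u ∈ Grp π)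
    (O : Set (Tn 9 d)) : mass (sub 9 𝔞) (c.Ad9 u ⁻¹' O) ψ = mass (sub 9 𝔞) O ψ := by
  obtain ⟨e, h1, h2⟩ := measurePreserving_isometry (fun x _ => c.norm_Ad9 u x)
    (map_eq_of_isometry (c.adm_Cinv h _ ⟨u, hu, rfl⟩))
  have h3 := h2.setIntegral_preimage_emb e.toHomeomorph.measurableEmbedding
    (fun x => ‖ψ x‖ ^ 2) {x : sub 9 𝔞 | (x : Tn 9 d) ∈ O}
  simp only [Set.preimage_ofPred_eq, h1] at h3
  rw [mass, mass, ← h3]
  refine congrArg _ (funext fun x => ?_)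
  exact (c.invR_normsq hψ u hu x x.2).symm

theorem Q_mass (𝔞 : Submodule ℝ (Lg d)) (g m : ℝ) (e : Fin 16 → ℝ) (ψ : Tn 9 d → F) (x : Tn 9 d) :
    c.Q 𝔞 g m e ψ x = c.Q 𝔞 g 0 e ψ x + (m : ℂ) • c.θ (c.Km e x) (ψ x) := by
  simp only [Q, dop, beta, zero_smul, add_zero, map_add, theta_smul, _root_.add_apply, _root_.smul_apply,
    add_assoc]

/-- on bounded regions the mass term is a bounded perturbation -/
theorem En_mass_le (𝔞 : Submodule ℝ (Lg d)) (g m m' : ℝ) {ψ : Tn 9 d → F} (hψ : Sm (sub 9 𝔞) ψ) :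
    c.En 𝔞 g m' ψ ≤ 2 * c.En 𝔞 g m ψ + 64 * (m' - m) ^ 2 * wnrm (sub 9 𝔞) (fun x => ‖x‖ ^ 2) ψ := by
  have e1 : ∀ e, c.Q 𝔞 g m' e ψ =
      c.Q 𝔞 g m e ψ + fun x => ((m' - m : ℝ) : ℂ) • c.θ (c.Km e x) (ψ x) := fun e => by
    funext x
    rw [Pi.add_apply, c.Q_mass 𝔞 g m', c.Q_mass 𝔞 g m]
    push_cast
    module
  have i1 : ∀ e, Integrable fun x : sub 9 𝔞 => ‖c.Km e x‖ ^ 2 * ‖ψ x‖ ^ 2 := fun e =>
    hψ.integrable_wnrm (w := fun x => ‖c.Km e x‖ ^ 2) (by fun_prop)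
  have e2 : ∀ e, nrm (sub 9 𝔞) (c.Q 𝔞 g m' e ψ) ≤ 2 * nrm (sub 9 𝔞) (c.Q 𝔞 g m e ψ) +
      (m' - m) ^ 2 * ∫ x : sub 9 𝔞, ‖c.Km e x‖ ^ 2 * ‖ψ x‖ ^ 2 := fun e => by
    have s1 := ((hψ.clm (a := fun x => c.θ (c.Km e x)) (by fun_prop)).smul ((m' - m : ℝ) : ℂ)).memLp
    rw [e1]
    refine (nrm_add_le (hψ.dop 1 _ (c.contDiff_beta g m e)).memLp s1).trans (le_of_eq ?_)
    refine congrArg _ ?_
    rw [nrm, ← integral_const_mul, ← integral_const_mul]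
    refine congrArg _ (funext fun x => ?_)
    rw [Pi.smul_apply, norm_smul, mul_pow, c.car.norm_sq, Complex.norm_real, Real.norm_eq_abs,
      sq_abs]
    ring
  have e3 : ∑ α, ∫ x : sub 9 𝔞, ‖c.Km (eb α) x‖ ^ 2 * ‖ψ x‖ ^ 2 ≤
      64 * wnrm (sub 9 𝔞) (fun x => ‖x‖ ^ 2) ψ := by
    rw [← integral_finsetSum _ fun α _ => i1 _, wnrm, ← integral_const_mul]
    refine integral_mono (integrable_finsetSum _ fun α _ => i1 _)
      ((hψ.integrable_wnrm (w := fun x => ‖x‖ ^ 2) (by fun_prop)).const_mul _) fun x => ?_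
    have a1 := pow_le_pow_left₀ (norm_nonneg _) (Afree_bounds (x : Tn 9 d)).2.1 2
    have a2 := mul_le_mul_of_nonneg_right a1 (sq_nonneg ‖ψ x‖)
    dsimp only
    rw [← Finset.sum_mul, sum_Km_sq]
    linarith
  have e4 := Finset.sum_le_sum fun α (_ : α ∈ Finset.univ) => e2 (eb α)
  rw [Finset.sum_add_distrib, ← Finset.mul_sum, ← Finset.mul_sum] at e4
  have e5 := mul_le_mul_of_nonneg_left e3 (sq_nonneg (m' - m))
  change ∑ α, nrm (sub 9 𝔞) (c.Q 𝔞 g m' (eb α) ψ) ≤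
    2 * ∑ α, nrm (sub 9 𝔞) (c.Q 𝔞 g m (eb α) ψ) + _
  linarith

theorem Q_dil (𝔞 : Submodule ℝ (Lg d)) (U : Submodule ℝ (Tn 9 d)) {l : ℝ} (hl : 0 < l) (g m : ℝ)
    (e : Fin 16 → ℝ) (ψ : Tn 9 d → F) :
    c.Q 𝔞 g m e (dil U l ψ) = ((l⁻¹ : ℝ) : ℂ) • dil U l (c.Q 𝔞 (g * l ^ 3) (m * l ^ 2) e ψ) := by
  funext x
  have h1 : fderiv ℝ (dil U l ψ) x = ((l ^ (-(Module.finrank ℝ U : ℝ) / 2) : ℝ) : ℂ) •
      l⁻¹ • fderiv ℝ ψ (l⁻¹ • x) := by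
    rw [← fderiv_comp_smul]
    exact congrFun (fderiv_const_smul_field (f := fun x => ψ (l⁻¹ • x)) _) x
  have h2 : c.beta (g * l ^ 3) (m * l ^ 2) e (l⁻¹ • x) = l • c.beta g m e x := by
    rw [beta, beta, Phi_smul, map_smul]
    match_scalars <;> field_simp
  have h3 : (l : ℂ) ≠ 0 := by exact_mod_cast hl.ne'
  simp only [Q, dop, h1, Pi.smul_apply, dil, h2, _root_.smul_apply, map_smul, smul_add,
    Finset.smul_sum, ← Complex.coe_smul]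
  refine congrArg₂ _ (Finset.sum_congr rfl fun k _ => by module) ?_
  push_cast
  match_scalars
  field_simp

theorem En_dil (𝔞 : Submodule ℝ (Lg d)) {l : ℝ} (hl : 0 < l) (g m : ℝ) (ψ : Tn 9 d → F) :
    c.En 𝔞 g m (dil (sub 9 𝔞) l ψ) = c.En 𝔞 (g * l ^ 3) (m * l ^ 2) ψ / l ^ 2 := by
  change ∑ α, nrm (sub 9 𝔞) (c.Q 𝔞 g m (eb α) _) =
    (∑ α, nrm (sub 9 𝔞) (c.Q 𝔞 (g * l ^ 3) (m * l ^ 2) (eb α) ψ)) / l ^ 2
  rw [Finset.sum_div]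
  refine Finset.sum_congr rfl fun α _ => ?_
  rw [c.Q_dil 𝔞 _ hl, ← nrm_dil (sub 9 𝔞) hl (c.Q 𝔞 (g * l ^ 3) (m * l ^ 2) (eb α) ψ), nrm, nrm,
    ← integral_div]
  refine congrArg _ (funext fun x => ?_)
  rw [Pi.smul_apply, norm_smul, mul_pow, Complex.norm_real, Real.norm_eq_abs, sq_abs, inv_pow,
    div_eq_inv_mul]

end Ctx

end Vale.Agent.P353
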