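import Mathlib

/-! Local compactness estimate behind the Rellich theorem. -/

noncomputable section

open MeasureTheory Filter Topology Metric

namespace Vale.Agent.P353.Ga4Aux

variable {F : Type} [NormedAddCommGroup F] [NormedSpace ℝ F]

/-- Cauchy-Schwarz for a finite measure -/
theorem sq_norm_integral_le {X : Type} [MeasurableSpace X] {μ : Measure X} [IsFiniteMeasure μ]
    {g : X → F} (h1 : Integrable g μ) (h2 : Integrable (fun x => ‖g x‖ ^ 2) μ) :
    ‖∫ x, g x ∂μ‖ ^ 2 ≤ μ.real Set.univ * ∫ x, ‖g x‖ ^ 2 ∂μ := by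
  have h3 : ‖∫ x, g x ∂μ‖ ≤ ∫ x, ‖g x‖ ∂μ := norm_integral_le_integral_norm g
  refine (pow_le_pow_left₀ (norm_nonneg _) h3 2).trans ?_
  set m := μ.real Set.univ with hm
  set I := ∫ x, ‖g x‖ ∂μ with hI
  rcases (measureReal_nonneg : 0 ≤ m).eq_or_lt with h0 | h0
  · have : μ = 0 := by
      rw [← Measure.measure_univ_eq_zero]
      exact (measureReal_eq_zero_iff (measure_ne_top μ _)).1 h0.symm
    simp [hI, this]
  · have h4 : 0 ≤ ∫ x, (m * ‖g x‖ - I) ^ 2 ∂μ := integral_nonneg fun x => sq_nonneg _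
    have h5 : ∫ x, (m * ‖g x‖ - I) ^ 2 ∂μ =
        m ^ 2 * ∫ x, ‖g x‖ ^ 2 ∂μ - 2 * m * I * I + m * I ^ 2 := by
      have e : ∀ x, (m * ‖g x‖ - I) ^ 2 = m ^ 2 * ‖g x‖ ^ 2 - 2 * m * I * ‖g x‖ + I ^ 2 :=
        fun x => by ring
      simp only [e]
      have i1 := h2.const_mul (m ^ 2)
      have i2 := h1.norm.const_mul (2 * m * I)
      have i3 : Integrable (fun x => m ^ 2 * ‖g x‖ ^ 2 - 2 * m * I * ‖g x‖) μ := i1.sub i2
      rw [integral_add i3 (integrable_const _), integral_sub i1 i2, integral_const_mul,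
        integral_const_mul, integral_const, smul_eq_mul]
    rw [h5] at h4
    have h6 : 0 ≤ m * (m * ∫ x, ‖g x‖ ^ 2 ∂μ - I ^ 2) := by nlinarith
    have := nonneg_of_mul_nonneg_right h6 h0
    linarith

variable {V : Type} [NormedAddCommGroup V] [NormedSpace ℝ V] [FiniteDimensional ℝ V]
  [MeasurableSpace V] [BorelSpace V] {μ : Measure V} [μ.IsAddHaarMeasure]

theorem sq_norm_setIntegral_le {X : Type} [TopologicalSpace X] [T2Space X] [MeasurableSpace X]
    [OpensMeasurableSpace X] {ν : Measure X} [IsFiniteMeasureOnCompacts ν] {s : Set X}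
    (hs : IsCompact s) {g : X → F} (hg : Continuous g) :
    ‖∫ x in s, g x ∂ν‖ ^ 2 ≤ ν.real s * ∫ x in s, ‖g x‖ ^ 2 ∂ν := by
  have : IsFiniteMeasure (ν.restrict s) := isFiniteMeasure_restrict.2 hs.measure_lt_top.ne
  have h := sq_norm_integral_le (μ := ν.restrict s) (hg.continuousOn.integrableOn_compact hs)
    ((hg.norm.pow 2).continuousOn.integrableOn_compact hs)
  rwa [measureReal_restrict_apply_univ] at h

theorem integrable_prod {Y : Type} [NormedAddCommGroup Y] [SecondCountableTopology Y]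
    [MeasurableSpace Y] [BorelSpace Y] {ν : Measure Y} [IsFiniteMeasureOnCompacts ν] [SFinite ν]
    {s : Set V} {t : Set Y} (hs : IsCompact s) (ht : IsCompact t) {H : V → Y → ℝ}
    (hH : Continuous (Function.uncurry H)) :
    Integrable (Function.uncurry H) ((μ.restrict s).prod (ν.restrict t)) := by
  rw [Measure.prod_restrict]
  exact hH.continuousOn.integrableOn_compact (hs.prod ht)

theorem shift_le {G : V → ℝ} (hG : Continuous G) (h0 : ∀ x, 0 ≤ G x) (R : ℝ) {z : V}
    (hz : ‖z‖ ≤ 1) :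
    ∫ x in closedBall 0 R, G (x + z) ∂μ ≤ ∫ x in closedBall 0 (R + 1), G x ∂μ := by
  have e : closedBall (0 : V) R = (fun x => x + z) ⁻¹' closedBall z R := by
    ext x
    simp
  rw [e, (measurePreserving_add_right μ z).setIntegral_preimage_emb
    (measurableEmbedding_addRight z) G]
  refine setIntegral_mono_set (hG.continuousOn.integrableOn_compact (isCompact_closedBall _ _))
    (Eventually.of_forall h0) (LE.le.eventuallyLE fun x hx => ?_)
  rw [mem_closedBall, dist_eq_norm] at hx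
  rw [mem_closedBall_zero_iff]
  have := norm_add_le (x - z) z
  rw [sub_add_cancel] at this
  linarith

variable [CompleteSpace F] {f : V → F} {G : V → ℝ}

omit [FiniteDimensional ℝ V] [MeasurableSpace V] [BorelSpace V] in
theorem point_le (hf : ContDiff ℝ 1 f) (hG : Continuous G)
    (hD : ∀ x y, ‖fderiv ℝ f x y‖ ^ 2 ≤ ‖y‖ ^ 2 * G x) (x y : V) :
    ‖f (x + y) - f x‖ ^ 2 ≤ ‖y‖ ^ 2 * ∫ t in Set.Icc (0 : ℝ) 1, G (x + t • y) := by
  have hc : Continuous fun t : ℝ => x + t • y := by fun_prop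
  have hc' : Continuous fun t : ℝ => fderiv ℝ f (x + t • y) y :=
    ((hf.continuous_fderiv one_ne_zero).comp hc).clm_apply continuous_const
  have h1 : ∫ t in (0 : ℝ)..1, fderiv ℝ f (x + t • y) y =
      f (x + (1 : ℝ) • y) - f (x + (0 : ℝ) • y) := by
    refine intervalIntegral.integral_eq_sub_of_hasDerivAt (f := fun t : ℝ => f (x + t • y))
      (fun t _ => ?_) (hc'.intervalIntegrable _ _)
    have h2 : HasDerivAt (fun t : ℝ => x + t • y) y t := by
      simpa using ((hasDerivAt_id t).smul_const y).const_add x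
    exact (hf.differentiable one_ne_zero _).hasFDerivAt.comp_hasDerivAt t h2
  rw [one_smul, zero_smul, add_zero, intervalIntegral.integral_of_le zero_le_one,
    ← integral_Icc_eq_integral_Ioc] at h1
  have h3 := sq_norm_setIntegral_le (ν := volume) (isCompact_Icc (a := (0 : ℝ)) (b := 1)) hc'
  rw [h1, Real.volume_real_Icc_of_le zero_le_one, sub_zero, one_mul] at h3
  refine h3.trans ?_
  rw [← integral_const_mul]
  exact setIntegral_mono_on ((hc'.norm.pow 2).continuousOn.integrableOn_compact isCompact_Icc)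
    ((continuous_const.mul (hG.comp hc)).continuousOn.integrableOn_compact isCompact_Icc)
    measurableSet_Icc fun t _ => hD _ _

theorem trans_le (hf : ContDiff ℝ 1 f) (hG : Continuous G) (h0 : ∀ x, 0 ≤ G x)
    (hD : ∀ x y, ‖fderiv ℝ f x y‖ ^ 2 ≤ ‖y‖ ^ 2 * G x) {R K : ℝ}
    (hK : ∫ x in closedBall 0 (R + 1), G x ∂μ ≤ K) {y : V} (hy : ‖y‖ ≤ 1) :
    ∫ x in closedBall 0 R, ‖f (x + y) - f x‖ ^ 2 ∂μ ≤ ‖y‖ ^ 2 * K := by
  have hc := hf.continuous
  have hi := integrable_prod (μ := μ) (ν := volume) (isCompact_closedBall (0 : V) R)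
    (isCompact_Icc (a := (0 : ℝ)) (b := 1)) (H := fun x t => G (x + t • y))
    (hG.comp (by fun_prop))
  have h1 : ∫ x in closedBall 0 R, ‖f (x + y) - f x‖ ^ 2 ∂μ ≤
      ∫ x in closedBall 0 R, ‖y‖ ^ 2 * (∫ t in Set.Icc (0 : ℝ) 1, G (x + t • y)) ∂μ :=
    setIntegral_mono_on
      (Continuous.continuousOn (by fun_prop) |>.integrableOn_compact (isCompact_closedBall _ _))
      (hi.integral_prod_left.const_mul _) measurableSet_closedBall
      fun x _ => point_le hf hG hD x y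
  rw [integral_const_mul, integral_integral_swap hi] at h1
  refine h1.trans (mul_le_mul_of_nonneg_left ?_ (sq_nonneg _))
  have h2 : ∫ t in Set.Icc (0 : ℝ) 1, ∫ x in closedBall 0 R, G (x + t • y) ∂μ ≤
      ∫ _t in Set.Icc (0 : ℝ) 1, K :=
    setIntegral_mono_on hi.integral_prod_right (integrableOn_const (by simp)) measurableSet_Icc
      fun t ht => (shift_le hG h0 R (by
        rw [norm_smul, Real.norm_of_nonneg ht.1]
        exact mul_le_one₀ ht.2 (norm_nonneg _) hy)).trans hK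
  simpa using h2

theorem avg_le (hc : Continuous f) {δ : ℝ} {c x : V} (hx : x ∈ closedBall c δ) :
    μ.real (closedBall 0 δ) ^ 2 * ‖f x‖ ^ 2 ≤
      2 * (μ.real (closedBall 0 δ) * ∫ y in closedBall 0 (2 * δ), ‖f (x + y) - f x‖ ^ 2 ∂μ) +
        2 * ‖∫ z in closedBall c δ, f z ∂μ‖ ^ 2 := by
  have hk := isCompact_closedBall c δ
  have hv : μ.real (closedBall c δ) = μ.real (closedBall 0 δ) :=
    Measure.addHaar_real_closedBall_center μ c δ
  have h1 := sq_norm_setIntegral_le (ν := μ) hk (g := fun z => f z - f x) (by fun_prop)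
  rw [integral_sub (hc.continuousOn.integrableOn_compact hk)
    (integrableOn_const hk.measure_lt_top.ne), setIntegral_const, hv] at h1
  have h2 : ∫ z in closedBall c δ, ‖f z - f x‖ ^ 2 ∂μ ≤
      ∫ y in closedBall 0 (2 * δ), ‖f (x + y) - f x‖ ^ 2 ∂μ := by
    have e : closedBall (0 : V) (2 * δ) = (fun y => x + y) ⁻¹' closedBall x (2 * δ) := by
      ext y
      simp
    rw [e, (measurePreserving_add_left μ x).setIntegral_preimage_emb
      (measurableEmbedding_addLeft x) fun z => ‖f z - f x‖ ^ 2]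
    refine setIntegral_mono_set
      (Continuous.continuousOn (by fun_prop) |>.integrableOn_compact (isCompact_closedBall _ _))
      (Eventually.of_forall fun _ => sq_nonneg _) (LE.le.eventuallyLE fun z hz => ?_)
    rw [mem_closedBall] at hx hz ⊢
    have := dist_triangle_right z x c
    linarith
  have h3 := mul_le_mul_of_nonneg_left h2 (measureReal_nonneg (μ := μ) (s := closedBall 0 δ))
  set I := ∫ z in closedBall c δ, f z ∂μ
  set v := μ.real (closedBall (0 : V) δ)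
  have h4 : ‖v • f x‖ ≤ ‖I - v • f x‖ + ‖I‖ := by
    have := norm_sub_le I (I - v • f x)
    rw [sub_sub_cancel] at this
    linarith
  have h5 : ‖v • f x‖ ^ 2 = v ^ 2 * ‖f x‖ ^ 2 := by
    rw [norm_smul, mul_pow, Real.norm_eq_abs, sq_abs]
  have h6 := pow_le_pow_left₀ (norm_nonneg _) h4 2
  nlinarith [sq_nonneg (‖I - v • f x‖ - ‖I‖)]

theorem est (hf : ContDiff ℝ 1 f) (hG : Continuous G) (h0 : ∀ x, 0 ≤ G x)
    (hD : ∀ x y, ‖fderiv ℝ f x y‖ ^ 2 ≤ ‖y‖ ^ 2 * G x) {R K : ℝ}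
    (hK : ∫ x in closedBall 0 (R + 1), G x ∂μ ≤ K) {δ : ℝ} (hδ : 0 < δ) (hδ' : 2 * δ ≤ 1)
    {t : Finset V} (ht : ∀ x ∈ closedBall (0 : V) R, ∃ c ∈ t, x ∈ closedBall c δ) :
    ∫ x in closedBall 0 R, ‖f x‖ ^ 2 ∂μ ≤ 8 * 2 ^ Module.finrank ℝ V * K * δ ^ 2 +
      2 * μ.real (closedBall 0 R) / μ.real (closedBall 0 δ) ^ 2 *
        ∑ c ∈ t, ‖∫ z in closedBall c δ, f z ∂μ‖ ^ 2 := by
  have hc := hf.continuous
  have hk := isCompact_closedBall (0 : V) R
  have hk2 := isCompact_closedBall (0 : V) (2 * δ)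
  have hK0 : 0 ≤ K := (integral_nonneg fun x => h0 x).trans hK
  have hv : 0 < μ.real (closedBall (0 : V) δ) :=
    ENNReal.toReal_pos (measure_closedBall_pos μ 0 hδ).ne'
      (isCompact_closedBall _ _).measure_lt_top.ne
  have hv2 : μ.real (closedBall (0 : V) (2 * δ)) =
      2 ^ Module.finrank ℝ V * μ.real (closedBall (0 : V) δ) := by
    rw [measureReal_def, Measure.addHaar_closedBall_mul μ 0 zero_le_two hδ.le, ENNReal.toReal_mul,
      ENNReal.toReal_ofReal (by positivity), measureReal_def]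
  have hi := integrable_prod (μ := μ) (ν := μ) hk hk2 (H := fun x y => ‖f (x + y) - f x‖ ^ 2)
    (by unfold Function.uncurry; fun_prop)
  set v := μ.real (closedBall (0 : V) δ)
  set T := ∑ c ∈ t, ‖∫ z in closedBall c δ, f z ∂μ‖ ^ 2
  have i1 : Integrable (fun x => 2 * (v * ∫ y in closedBall 0 (2 * δ), ‖f (x + y) - f x‖ ^ 2 ∂μ))
      (μ.restrict (closedBall 0 R)) := (hi.integral_prod_left.const_mul v).const_mul 2
  have h1 : ∫ x in closedBall 0 R, v ^ 2 * ‖f x‖ ^ 2 ∂μ ≤ ∫ x in closedBall 0 R,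
      (2 * (v * ∫ y in closedBall 0 (2 * δ), ‖f (x + y) - f x‖ ^ 2 ∂μ) + 2 * T) ∂μ := by
    refine setIntegral_mono_on
      (Continuous.continuousOn (by fun_prop) |>.integrableOn_compact hk)
      (i1.add (integrableOn_const hk.measure_lt_top.ne)) measurableSet_closedBall fun x hx => ?_
    obtain ⟨c, hct, hxc⟩ := ht x hx
    have h2 := avg_le (μ := μ) hc hxc
    have h3 : ‖∫ z in closedBall c δ, f z ∂μ‖ ^ 2 ≤ T :=
      Finset.single_le_sum (f := fun c => ‖∫ z in closedBall c δ, f z ∂μ‖ ^ 2)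
        (fun _ _ => sq_nonneg _) hct
    linarith
  rw [integral_const_mul, integral_add i1 (integrableOn_const hk.measure_lt_top.ne),
    integral_const_mul, integral_const_mul, setIntegral_const, smul_eq_mul] at h1
  have h4 : ∫ x in closedBall 0 R, ∫ y in closedBall 0 (2 * δ), ‖f (x + y) - f x‖ ^ 2 ∂μ ∂μ ≤
      2 ^ Module.finrank ℝ V * v * ((2 * δ) ^ 2 * K) := by
    rw [integral_integral_swap hi, ← hv2, ← smul_eq_mul (μ.real _), ← setIntegral_const]
    refine setIntegral_mono_on hi.integral_prod_right (integrableOn_const hk2.measure_lt_top.ne)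
      measurableSet_closedBall fun y hy => ?_
    rw [mem_closedBall_zero_iff] at hy
    exact (trans_le hf hG h0 hD hK (hy.trans hδ')).trans
      (mul_le_mul_of_nonneg_right (pow_le_pow_left₀ (norm_nonneg _) hy 2) hK0)
  have h5 := mul_le_mul_of_nonneg_left h4 hv.le
  refine le_of_mul_le_mul_left ?_ (pow_pos hv 2)
  have e : v ^ 2 * (8 * 2 ^ Module.finrank ℝ V * K * δ ^ 2 +
      2 * μ.real (closedBall 0 R) / v ^ 2 * T) =
      2 * (v * (2 ^ Module.finrank ℝ V * v * ((2 * δ) ^ 2 * K))) +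
        μ.real (closedBall 0 R) * (2 * T) := by
    field_simp
    ring
  rw [e]
  exact h1.trans (by linarith)

/-- functions with bounded gradients whose averages over balls tend to zero -/
theorem core {ι : Type} {l : Filter ι} {f : ι → V → F} {G : ι → V → ℝ}
    (hf : ∀ n, ContDiff ℝ 1 (f n)) (hG : ∀ n, Continuous (G n)) (h0 : ∀ n x, 0 ≤ G n x)
    (hD : ∀ n x y, ‖fderiv ℝ (f n) x y‖ ^ 2 ≤ ‖y‖ ^ 2 * G n x) {R K : ℝ}
    (hK : ∀ n, ∫ x in closedBall 0 (R + 1), G n x ∂μ ≤ K)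
    (hw : ∀ c δ, Tendsto (fun n => ∫ x in closedBall c δ, f n x ∂μ) l (𝓝 0)) :
    Tendsto (fun n => ∫ x in closedBall 0 R, ‖f n x‖ ^ 2 ∂μ) l (𝓝 0) := by
  refine tendsto_order.2 ⟨fun a ha => Eventually.of_forall fun n =>
    ha.trans_le (integral_nonneg fun _ => sq_nonneg _), fun ε hε => ?_⟩
  obtain ⟨δ, ⟨hδ1, hδ2⟩, hδ⟩ : ∃ δ : ℝ, (8 * 2 ^ Module.finrank ℝ V * K * δ ^ 2 < ε ∧ 2 * δ < 1) ∧
      δ ∈ Set.Ioi (0 : ℝ) := by
    have c1 : Continuous fun δ : ℝ => 8 * 2 ^ Module.finrank ℝ V * K * δ ^ 2 := by fun_prop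
    have c2 : Continuous fun δ : ℝ => 2 * δ := by fun_prop
    have e1 := (c1.tendsto' 0 0 (by simp)).eventually (gt_mem_nhds hε)
    have e2 := (c2.tendsto' 0 0 (by simp)).eventually (gt_mem_nhds one_pos)
    exact (((e1.and e2).filter_mono nhdsWithin_le_nhds).and
      (self_mem_nhdsWithin (a := (0 : ℝ)) (s := Set.Ioi 0))).exists
  obtain ⟨t, -, htf, ht⟩ := (isCompact_closedBall (0 : V) R).finite_cover_balls hδ
  have h1 : Tendsto (fun n => 8 * 2 ^ Module.finrank ℝ V * K * δ ^ 2 +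
      2 * μ.real (closedBall 0 R) / μ.real (closedBall 0 δ) ^ 2 *
        ∑ c ∈ htf.toFinset, ‖∫ z in closedBall c δ, f n z ∂μ‖ ^ 2) l
      (𝓝 (8 * 2 ^ Module.finrank ℝ V * K * δ ^ 2)) := by
    have := (tendsto_finsetSum htf.toFinset fun c _ => (hw c δ).norm.pow 2).const_mul
      (2 * μ.real (closedBall 0 R) / μ.real (closedBall 0 δ) ^ 2) |>.const_add
      (8 * 2 ^ Module.finrank ℝ V * K * δ ^ 2)
    simpa using this
  refine (h1.eventually (gt_mem_nhds hδ1)).mono fun n hn => lt_of_le_of_lt ?_ hn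
  refine est (hf n) (hG n) (h0 n) (hD n) (hK n) hδ hδ2.le fun x hx => ?_
  obtain ⟨c, hc, hxc⟩ := Set.mem_iUnion₂.1 (ht hx)
  exact ⟨c, htf.mem_toFinset.2 hc, ball_subset_closedBall hxc⟩

end Vale.Agent.P353.Ga4Aux
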