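import Vale.Agent.P353.Ga1
import Vale.Agent.P353.Ga4Aux

/-! Rellich compactness. -/

noncomputable section

open MeasureTheory Filter Topology Complex Matrix
open scoped ContDiff RealInnerProductSpace

namespace Vale.Agent.P353

variable {E : Type} [NormedAddCommGroup E] [InnerProductSpace ℝ E] [FiniteDimensional ℝ E]
  [MeasurableSpace E] [BorelSpace E]
variable {S : Type} [NormedAddCommGroup S] [InnerProductSpace ℝ S] [FiniteDimensional ℝ S]
variable {F : Type} [NormedAddCommGroup F] [InnerProductSpace ℂ F] [FiniteDimensional ℂ F]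
variable {θ : S →L[ℝ] F →L[ℂ] F} {U : Submodule ℝ E} {C : Set ((E →L[ℝ] E) × (F →L[ℂ] F))}

namespace Ga4Aux

omit [FiniteDimensional ℝ E] [MeasurableSpace E] [BorelSpace E] [FiniteDimensional ℂ F] in
theorem cd {ψ : E → F} (h : Sm U ψ) : ContDiff ℝ 1 fun x : U => ψ x :=
  (h.1.of_le (by simp)).comp U.subtypeL.contDiff

theorem fd_le {ψ : E → F} (h : Sm U ψ) (x y : U) :
    ‖fderiv ℝ (fun x : U => ψ x) x y‖ ^ 2 ≤ ‖y‖ ^ 2 * gsq U ψ x := by
  have h1 := ((h.1.differentiable (by simp)) (x : E)).hasFDerivAt.comp x U.subtypeL.hasFDerivAt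
  have h2 : fderiv ℝ (fun x : U => ψ x) x = _ := h1.fderiv
  rw [h2]
  exact norm_fderiv_sq_le ψ x y.2

theorem int_sq {ψ : E → F} (h : Sm U ψ) : Integrable fun x : U => ‖ψ x‖ ^ 2 := by
  simpa using h.integrable_wnrm (w := fun _ => 1) continuousOn_const

theorem int_gsq {ψ : E → F} (h : Sm U ψ) : Integrable fun x : U => gsq U ψ x := by
  simpa using h.integrable_wgsq (w := fun _ => 1) continuousOn_const

theorem int_w {ψ : E → F} (h : Sm U ψ) : Integrable fun x : U => ‖(x : E)‖ ^ 2 * ‖ψ x‖ ^ 2 :=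
  h.integrable_wnrm (w := fun x => ‖x‖ ^ 2) (by fun_prop)

omit [InnerProductSpace ℂ F] [FiniteDimensional ℂ F] in
theorem sq_sub_le (a b : F) : ‖a - b‖ ^ 2 ≤ 2 * ‖a‖ ^ 2 + 2 * ‖b‖ ^ 2 := by
  have := pow_le_pow_left₀ (norm_nonneg _) (norm_sub_le a b) 2
  nlinarith [sq_nonneg (‖a‖ - ‖b‖)]

/-- the tail estimate -/
theorem tail {φ ψ : E → F} (h : Sm U φ) (h' : Sm U ψ) {K R : ℝ} (hR : 0 < R)
    (hK : wnrm U (fun x => ‖x‖ ^ 2) φ ≤ K) (hK' : wnrm U (fun x => ‖x‖ ^ 2) ψ ≤ K) :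
    nrm U (φ - ψ) ≤ (∫ x in Metric.closedBall (0 : U) R, ‖φ x - ψ x‖ ^ 2) + 4 * K / R ^ 2 := by
  have i0 : Integrable fun x : U => ‖φ x - ψ x‖ ^ 2 := int_sq (h.sub h')
  have i1 := (int_w h).const_mul 2
  have i2 := (int_w h').const_mul 2
  have i3 : Integrable fun x : U =>
      (2 * (‖(x : E)‖ ^ 2 * ‖φ x‖ ^ 2) + 2 * (‖(x : E)‖ ^ 2 * ‖ψ x‖ ^ 2)) / R ^ 2 :=
    (i1.add i2).div_const _
  have h1 : nrm U (φ - ψ) = _ :=
    (integral_add_compl (s := Metric.closedBall (0 : U) R) measurableSet_closedBall i0).symm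
  have h2 : ∫ x in (Metric.closedBall (0 : U) R)ᶜ, ‖φ x - ψ x‖ ^ 2 ≤
      ∫ x in (Metric.closedBall (0 : U) R)ᶜ,
        (2 * (‖(x : E)‖ ^ 2 * ‖φ x‖ ^ 2) + 2 * (‖(x : E)‖ ^ 2 * ‖ψ x‖ ^ 2)) / R ^ 2 := by
    refine setIntegral_mono_on i0.integrableOn i3.integrableOn measurableSet_closedBall.compl
      fun x hx => ?_
    have h3 : R ≤ ‖(x : E)‖ := (not_le.1 fun h4 => hx (mem_closedBall_zero_iff.2 h4)).le
    have h4 := pow_le_pow_left₀ hR.le h3 2
    rw [le_div_iff₀ (pow_pos hR 2)]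
    have h5 := mul_le_mul (sq_sub_le (φ x) (ψ x)) h4 (sq_nonneg _) (by positivity)
    linarith
  have h6 := h2.trans (setIntegral_le_integral i3 (Eventually.of_forall fun x => by positivity))
  rw [integral_div, integral_add i1 i2, integral_const_mul, integral_const_mul] at h6
  have h7 : (2 * wnrm U (fun x => ‖x‖ ^ 2) φ + 2 * wnrm U (fun x => ‖x‖ ^ 2) ψ) / R ^ 2 ≤
      4 * K / R ^ 2 := div_le_div_of_nonneg_right (by linarith) (sq_nonneg _)
  rw [h1]
  exact add_le_add le_rfl (h6.trans h7)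

theorem cauchy {φ : ℕ → E → F} (h : ∀ n, Sm U (φ n)) {K : ℝ}
    (hK : ∀ n, nrm U (φ n) + grad U (φ n) + wnrm U (fun x => ‖x‖ ^ 2) (φ n) ≤ K)
    (l : Ultrafilter ℕ) : Cauchy (map (fun n => L2 U (φ n)) l) := by
  have : ProperSpace F := FiniteDimensional.proper ℂ F
  have w0 : ∀ n, 0 ≤ wnrm U (fun x => ‖x‖ ^ 2) (φ n) := fun n =>
    integral_nonneg fun x => by positivity
  have k1 : ∀ n, nrm U (φ n) ≤ K := fun n => by linarith [hK n, w0 n, grad_nonneg U (φ n)]
  have k2 : ∀ n, grad U (φ n) ≤ K := fun n => by linarith [hK n, w0 n, nrm_nonneg U (φ n)]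
  have k3 : ∀ n, wnrm U (fun x => ‖x‖ ^ 2) (φ n) ≤ K := fun n => by
    linarith [hK n, grad_nonneg U (φ n), nrm_nonneg U (φ n)]
  have hw : ∀ (c : U) (δ : ℝ), Tendsto (fun p : ℕ × ℕ =>
      ∫ x in Metric.closedBall c δ, (φ p.1 x - φ p.2 x)) ((l : Filter ℕ) ×ˢ (l : Filter ℕ))
      (𝓝 0) := by
    intro c δ
    have hk := isCompact_closedBall c δ
    have hb : ∀ n, ∫ x in Metric.closedBall c δ, φ n x ∈
        Metric.closedBall (0 : F) √(volume.real (Metric.closedBall c δ) * K) := by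
      intro n
      rw [mem_closedBall_zero_iff]
      refine Real.le_sqrt_of_sq_le ((sq_norm_setIntegral_le hk (cd (h n)).continuous).trans
        (mul_le_mul_of_nonneg_left ?_ measureReal_nonneg))
      exact (setIntegral_le_integral (int_sq (h n))
        (Eventually.of_forall fun x => sq_nonneg _)).trans (k1 n)
    obtain ⟨a, -, ha⟩ := (isCompact_closedBall _ _).ultrafilter_le_nhds
      (l.map fun n => ∫ x in Metric.closedBall c δ, φ n x)
      (le_principal_iff.2 (mem_map.2 (Eventually.of_forall hb)))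
    have ha' : Tendsto (fun n => ∫ x in Metric.closedBall c δ, φ n x) l (𝓝 a) := ha
    have := (ha'.comp (tendsto_fst (g := (l : Filter ℕ)))).sub
      (ha'.comp (tendsto_snd (f := (l : Filter ℕ))))
    rw [sub_self] at this
    refine this.congr fun p => ?_
    exact (integral_sub ((cd (h p.1)).continuous.continuousOn.integrableOn_compact hk)
      ((cd (h p.2)).continuous.continuousOn.integrableOn_compact hk)).symm
  have hloc : ∀ R : ℝ, Tendsto (fun p : ℕ × ℕ =>
      ∫ x in Metric.closedBall (0 : U) R, ‖φ p.1 x - φ p.2 x‖ ^ 2)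
      ((l : Filter ℕ) ×ˢ (l : Filter ℕ)) (𝓝 0) := by
    intro R
    refine core (f := fun (p : ℕ × ℕ) (x : U) => φ p.1 x - φ p.2 x)
      (G := fun (p : ℕ × ℕ) (x : U) => 2 * gsq U (φ p.1) x + 2 * gsq U (φ p.2) x) (K := 4 * K)
      (fun p => (cd (h p.1)).sub (cd (h p.2))) (fun p => ?_) (fun p x => ?_) (fun p x y => ?_)
      (fun p => ?_) hw
    · have c1 := (h p.1).gsq_support.1
      have c2 := (h p.2).gsq_support.1
      fun_prop
    · linarith [gsq_nonneg U (φ p.1) x, gsq_nonneg U (φ p.2) x]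
    · rw [fderiv_fun_sub ((cd (h p.1)).differentiable one_ne_zero x)
        ((cd (h p.2)).differentiable one_ne_zero x)]
      have := sq_sub_le (fderiv ℝ (fun x : U => φ p.1 x) x y) (fderiv ℝ (fun x : U => φ p.2 x) x y)
      have f1 := fd_le (h p.1) x y
      have f2 := fd_le (h p.2) x y
      rw [_root_.sub_apply]
      linarith
    · have i1 := (int_gsq (h p.1)).const_mul 2
      have i2 := (int_gsq (h p.2)).const_mul 2
      have i3 : Integrable fun x : U => 2 * gsq U (φ p.1) x + 2 * gsq U (φ p.2) x := i1.add i2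
      refine (setIntegral_le_integral i3 (Eventually.of_forall fun x => ?_)).trans ?_
      · exact add_nonneg (mul_nonneg zero_le_two (gsq_nonneg U _ _))
          (mul_nonneg zero_le_two (gsq_nonneg U _ _))
      · rw [integral_add i1 i2, integral_const_mul, integral_const_mul]
        have e1 := k2 p.1
        have e2 := k2 p.2
        unfold grad at e1 e2
        linarith
  have hn : Tendsto (fun p : ℕ × ℕ => nrm U (φ p.1 - φ p.2)) ((l : Filter ℕ) ×ˢ (l : Filter ℕ))
      (𝓝 0) := by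
    refine tendsto_order.2 ⟨fun a ha => Eventually.of_forall fun p =>
      ha.trans_le (nrm_nonneg U _), fun ε hε => ?_⟩
    have t1 : Tendsto (fun R : ℝ => 4 * K / R ^ 2) atTop (𝓝 0) :=
      tendsto_const_nhds.div_atTop (tendsto_pow_atTop two_ne_zero)
    obtain ⟨R, hR1, hR⟩ :=
      ((t1.eventually (gt_mem_nhds (half_pos hε))).and (eventually_gt_atTop 0)).exists
    refine ((hloc R).eventually (gt_mem_nhds (half_pos hε))).mono fun p hp => ?_
    have := tail (h p.1) (h p.2) hR (k3 p.1) (k3 p.2)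
    linarith
  rw [cauchy_map_iff', tendsto_uniformity_iff_dist_tendsto_zero]
  have := hn.sqrt
  rw [Real.sqrt_zero] at this
  refine this.congr fun p => ?_
  rw [← norm_L2_sq ((h p.1).sub (h p.2)).memLp, Real.sqrt_sq (norm_nonneg _),
    L2_sub (h p.1).memLp (h p.2).memLp, dist_eq_norm]

end Ga4Aux

theorem rellich {φ : ℕ → E → F} (h : ∀ n, Sm U (φ n)) {K : ℝ}
    (hK : ∀ n, nrm U (φ n) + grad U (φ n) + wnrm U (fun x => ‖x‖ ^ 2) (φ n) ≤ K) :
    ∃ (k : ℕ → ℕ) (u : LL U F), StrictMono k ∧ Tendsto (fun n => L2 U (φ (k n))) atTop (𝓝 u) := by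
  have h1 : TotallyBounded (Set.range fun n => L2 U (φ n)) := by
    refine totallyBounded_iff_ultrafilter.2 fun f hf => ?_
    have h2 := Ga4Aux.cauchy h hK (f.map (Function.invFun fun n => L2 U (φ n)))
    rw [Ultrafilter.coe_map, Filter.map_map, Filter.map_congr (m₂ := id), Filter.map_id] at h2
    · exact h2
    · exact mem_of_superset (le_principal_iff.1 hf) fun y hy => Function.invFun_eq hy
  obtain ⟨u, -, k, hk, hu⟩ := (h1.closure.isCompact_of_isClosed isClosed_closure).tendsto_subseq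
    (x := fun n => L2 U (φ n)) fun n => subset_closure ⟨n, rfl⟩
  exact ⟨k, u, hk, hu⟩

theorem rellich_local {ι : Type} {l : Filter ι} {φ : ι → E → F} (h : ∀ n, Sm U (φ n)) {K R : ℝ}
    (hK : ∀ n, nrm U (φ n) + ∫ x in {x : U | ‖x‖ ≤ R + 1}, gsq U (φ n) x ≤ K)
    (hw : ∀ u : LL U F, Tendsto (fun n => inner ℂ u (L2 U (φ n))) l (𝓝 0)) :
    Tendsto (fun n => mass U {x | ‖x‖ ≤ R} (φ n)) l (𝓝 0) := by
  have e : ∀ r : ℝ, {x : U | ‖x‖ ≤ r} = Metric.closedBall 0 r := fun r => by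
    ext x
    exact mem_closedBall_zero_iff.symm
  have e' : ∀ n, mass U {x | ‖x‖ ≤ R} (φ n) = ∫ x in Metric.closedBall (0 : U) R, ‖φ n x‖ ^ 2 :=
    fun n => by
      rw [← e]
      rfl
  simp only [e']
  refine Ga4Aux.core (f := fun n (x : U) => φ n x) (G := fun n (x : U) => gsq U (φ n) x) (K := K)
    (fun n => Ga4Aux.cd (h n)) (fun n => (h n).gsq_support.1.comp continuous_subtype_val)
    (fun n x => gsq_nonneg U _ _) (fun n => Ga4Aux.fd_le (h n)) (fun n => ?_) fun c δ => ?_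
  · have := hK n
    rw [e] at this
    linarith [nrm_nonneg U (φ n)]
  · have hfin : volume (Metric.closedBall c δ) ≠ ⊤ := (isCompact_closedBall c δ).measure_lt_top.ne
    have h1 : ∀ v : F, Tendsto (fun n => inner ℂ v (∫ x in Metric.closedBall c δ, φ n x)) l
        (𝓝 0) := fun v => by
      refine (hw (indicatorConstLp 2 measurableSet_closedBall hfin v)).congr fun n => ?_
      rw [L2.inner_indicatorConstLp_eq_inner_setIntegral,
        integral_congr_ae (ae_restrict_of_ae (coe_L2 (h n).memLp))]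
    have h2 := (tendsto_finsetSum Finset.univ fun i _ =>
      (h1 (stdOrthonormalBasis ℂ F i)).norm.pow 2).sqrt
    simp only [OrthonormalBasis.sum_sq_norm_inner_right, Real.sqrt_sq (norm_nonneg _)] at h2
    rw [tendsto_zero_iff_norm_tendsto_zero]
    simpa using h2

end Vale.Agent.P353
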