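import Mathlib

/-! Abstract facts on approximate zero modes of a seminorm. -/

noncomputable section

open Filter Topology

namespace Vale.Agent.P353.Ga5Aux

variable {D H : Type} [AddCommGroup D] [Module ℂ D] [NormedAddCommGroup H] [InnerProductSpace ℂ H]

/-- limits of sequences with small seminorm -/
def K0 (ι : D →ₗ[ℂ] H) (q : Seminorm ℂ D) : Submodule ℂ H where
  carrier := {u | ∀ ε > 0, ∃ φ, ‖ι φ - u‖ ≤ ε ∧ q φ ≤ ε}
  add_mem' := by
    intro a b ha hb ε hε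
    obtain ⟨φ, h1, h2⟩ := ha (ε / 2) (half_pos hε)
    obtain ⟨ψ, h3, h4⟩ := hb (ε / 2) (half_pos hε)
    refine ⟨φ + ψ, ?_, (map_add_le_add q φ ψ).trans (by linarith)⟩
    rw [map_add, add_sub_add_comm]
    exact (norm_add_le _ _).trans (by linarith)
  zero_mem' := fun ε hε => ⟨0, by simp [hε.le], by simp [hε.le]⟩
  smul_mem' := by
    intro z a ha ε hε
    have hz : 0 < ‖z‖ + 1 := by positivity
    obtain ⟨φ, h1, h2⟩ := ha (ε / (‖z‖ + 1)) (by positivity)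
    have h3 : ‖z‖ * (ε / (‖z‖ + 1)) ≤ ε := by
      rw [← mul_div_assoc, div_le_iff₀ hz]
      nlinarith
    refine ⟨z • φ, ?_, ?_⟩
    · rw [map_smul, ← smul_sub, norm_smul]
      exact (mul_le_mul_of_nonneg_left h1 (norm_nonneg _)).trans h3
    · rw [map_smul_eq_mul]
      exact (mul_le_mul_of_nonneg_left h2 (norm_nonneg _)).trans h3

theorem mem_K0 {ι : D →ₗ[ℂ] H} {q : Seminorm ℂ D} {u : H} :
    u ∈ K0 ι q ↔ ∀ ε > 0, ∃ φ, ‖ι φ - u‖ ≤ ε ∧ q φ ≤ ε := Iff.rfl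

theorem isClosed_K0 (ι : D →ₗ[ℂ] H) (q : Seminorm ℂ D) : IsClosed (K0 ι q : Set H) := by
  refine isClosed_of_closure_subset fun u hu ε hε => ?_
  obtain ⟨v, hv, huv⟩ := Metric.mem_closure_iff.1 hu (ε / 2) (half_pos hε)
  obtain ⟨φ, h1, h2⟩ := hv (ε / 2) (half_pos hε)
  refine ⟨φ, ?_, by linarith⟩
  rw [dist_comm, dist_eq_norm] at huv
  have := norm_add_le (ι φ - v) (v - u)
  rw [sub_add_sub_cancel] at this
  linarith

theorem mem_K0_of_weak [CompleteSpace H] (ι : D →ₗ[ℂ] H) (q : Seminorm ℂ D) {κ : Type}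
    {l : Filter κ} [l.NeBot] {φ : κ → D} (he : Tendsto (fun n => q (φ n)) l (𝓝 0)) {u : H}
    (hw : ∀ w : H, Tendsto (fun n => inner ℂ w (ι (φ n))) l (𝓝 (inner ℂ w u))) :
    u ∈ K0 ι q := by
  intro ε hε
  letI : NormedSpace ℝ H := NormedSpace.restrictScalars ℝ ℂ H
  haveI : IsScalarTower ℝ ℂ H := RestrictScalars.isScalarTower ℝ ℂ H
  let A : Set H := {v | ∃ ψ, ι ψ = v ∧ q ψ ≤ ε}
  have hA : Convex ℝ A := by
    rintro _ ⟨a, rfl, ha⟩ _ ⟨b, rfl, hb⟩ s t hs ht hst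
    refine ⟨(s : ℂ) • a + (t : ℂ) • b, ?_, ?_⟩
    · rw [map_add, map_smul, map_smul]
      rfl
    · refine (map_add_le_add q _ _).trans ?_
      rw [map_smul_eq_mul, map_smul_eq_mul, Complex.norm_real, Complex.norm_real,
        Real.norm_of_nonneg hs, Real.norm_of_nonneg ht]
      calc s * q a + t * q b ≤ s * ε + t * ε := by gcongr
        _ = ε := by rw [← add_mul, hst, one_mul]
  have hu : u ∈ closure A := by
    by_contra hn
    obtain ⟨f, c, h1, h2⟩ := RCLike.geometric_hahn_banach_point_closed (𝕜 := ℂ) hA.closure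
      isClosed_closure hn
    obtain ⟨w, rfl⟩ := (InnerProductSpace.toDual ℂ H).surjective f
    simp only [InnerProductSpace.toDual_apply_apply] at h1 h2
    have h3 : Tendsto (fun n => RCLike.re (inner ℂ w (ι (φ n)))) l (𝓝 (RCLike.re (inner ℂ w u))) :=
      (RCLike.continuous_re.tendsto _).comp (hw w)
    have h4 : ∀ᶠ n in l, c ≤ RCLike.re (inner ℂ w (ι (φ n))) := by
      filter_upwards [he.eventually (ge_mem_nhds hε)] with n hn
      exact (h2 _ (subset_closure ⟨φ n, rfl, hn⟩)).le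
    exact absurd (ge_of_tendsto h3 h4) (not_le.2 h1)
  obtain ⟨_, ⟨ψ, rfl, h2⟩, h1⟩ := Metric.mem_closure_iff.1 hu ε hε
  rw [dist_comm, dist_eq_norm] at h1
  exact ⟨ψ, h1.le, h2⟩

theorem exists_weak_lim [CompleteSpace H] {κ : Type} (g : Ultrafilter κ) (v : κ → H) {M : ℝ}
    (hM : ∀ n, ‖v n‖ ≤ M) :
    ∃ u : H, ∀ w : H, Tendsto (fun n => inner ℂ w (v n)) g (𝓝 (inner ℂ w u)) := by
  let V : κ → WeakDual ℂ H := fun n => StrongDual.toWeakDual (InnerProductSpace.toDual ℂ H (v n))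
  have hc := WeakDual.isCompact_closedBall (𝕜 := ℂ) (E := H) 0 M
  obtain ⟨f, -, hf⟩ := hc.ultrafilter_le_nhds (g.map V) (by
    rw [Ultrafilter.coe_map, le_principal_iff, mem_map]
    refine Filter.univ_mem' fun n => ?_
    simpa [V] using hM n)
  refine ⟨(InnerProductSpace.toDual ℂ H).symm (WeakDual.toStrongDual f), fun w => ?_⟩
  have h1 : Tendsto (fun n => V n w) g (𝓝 (f w)) :=
    ((WeakDual.eval_continuous w).tendsto f).comp hf
  have h2 := (Complex.continuous_conj.tendsto _).comp h1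
  have e1 : (starRingEnd ℂ) (f w) =
      inner ℂ w ((InnerProductSpace.toDual ℂ H).symm (WeakDual.toStrongDual f)) := by
    rw [← inner_conj_symm, InnerProductSpace.toDual_symm_apply]
    rfl
  rw [e1] at h2
  refine h2.congr fun n => ?_
  exact inner_conj_symm w (v n)

theorem weak_null [CompleteSpace H] (ι : D →ₗ[ℂ] H) (q : Seminorm ℂ D) {φ : ℕ → D} {M : ℝ}
    (hM : ∀ n, ‖ι (φ n)‖ ≤ M) (he : Tendsto (fun n => q (φ n)) atTop (𝓝 0))
    (ho : ∀ u ∈ K0 ι q, Tendsto (fun n => inner ℂ u (ι (φ n))) atTop (𝓝 0)) (w : H) :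
    Tendsto (fun n => inner ℂ w (ι (φ n))) atTop (𝓝 0) := by
  rw [tendsto_iff_ultrafilter]
  intro g hg
  obtain ⟨u, hu⟩ := exists_weak_lim g (fun n => ι (φ n)) hM
  have h1 : u ∈ K0 ι q := mem_K0_of_weak ι q (he.mono_left hg) hu
  have h2 : inner ℂ u u = 0 := tendsto_nhds_unique (hu u) ((ho u h1).mono_left hg)
  have h3 := hu w
  rwa [inner_self_eq_zero.1 h2, inner_zero_right] at h3

theorem exists_ext (ι : D →ₗ[ℂ] H) (L : D →ₗ[ℂ] ℂ) {B : ℝ} (hB : ∀ φ, ‖L φ‖ ≤ B * ‖ι φ‖) :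
    ∃ g : H →L[ℂ] ℂ, ∀ φ, g (ι φ) = L φ := by
  have hk : LinearMap.ker ι ≤ LinearMap.ker L := by
    intro φ hφ
    have := hB φ
    rw [LinearMap.mem_ker.1 hφ, norm_zero, mul_zero] at this
    exact norm_le_zero_iff.1 this
  let f0 : LinearMap.range ι →ₗ[ℂ] ℂ :=
    ((LinearMap.ker ι).liftQ L hk).comp ι.quotKerEquivRange.symm.toLinearMap
  have hf0 : ∀ φ, f0 ⟨ι φ, LinearMap.mem_range_self ι φ⟩ = L φ := by
    intro φ
    simp [f0, LinearMap.quotKerEquivRange_symm_apply_image]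
  obtain ⟨g, hg, -⟩ := exists_extension_norm_eq (LinearMap.range ι) (f0.mkContinuous B (by
    rintro ⟨_, φ, rfl⟩
    rw [hf0]
    exact hB φ))
  exact ⟨g, fun φ => (hg ⟨ι φ, LinearMap.mem_range_self ι φ⟩).trans (hf0 φ)⟩

theorem crit (ι : D →ₗ[ℂ] H) (q : Seminorm ℂ D) {κ : Type} [Fintype κ] (L : κ → D →ₗ[ℂ] ℂ)
    (hb : ∀ i, ∃ B, ∀ φ, ‖L i φ‖ ≤ B * ‖ι φ‖)
    (hd : Fintype.card κ < Module.finrank ℂ (K0 ι q)) {ε : ℝ} (hε : 0 < ε) :
    ∃ φ, ‖ι φ‖ = 1 ∧ q φ ≤ ε ∧ ∀ i, ‖L i φ‖ ≤ ε := by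
  choose B hB using hb
  choose g hg using fun i => exists_ext ι (L i) (hB i)
  haveI : FiniteDimensional ℂ (K0 ι q) := Module.finite_of_finrank_pos (by omega)
  let G : K0 ι q →ₗ[ℂ] (κ → ℂ) := LinearMap.pi fun i => (g i).toLinearMap.comp (K0 ι q).subtype
  obtain ⟨v, hv, hv0⟩ := (Submodule.ne_bot_iff _).1
    (G.ker_ne_bot_of_finrank_lt (by simpa using hd))
  let u : K0 ι q := ((‖v‖⁻¹ : ℝ) : ℂ) • v
  have hu1 : ‖(u : H)‖ = 1 := by
    have : ‖v‖ ≠ 0 := norm_ne_zero_iff.2 hv0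
    rw [← Submodule.coe_norm, norm_smul, Complex.norm_real, norm_inv, norm_norm,
      inv_mul_cancel₀ this]
  have hu0 : ∀ i, g i u = 0 := by
    intro i
    have : G u = 0 := by rw [map_smul, LinearMap.mem_ker.1 hv, smul_zero]
    exact congrFun this i
  let M : ℝ := ∑ i, ‖g i‖ + 1
  have hM : ∀ i, ‖g i‖ ≤ M := fun i =>
    (Finset.single_le_sum (f := fun i => ‖g i‖) (fun _ _ => norm_nonneg _)
      (Finset.mem_univ i)).trans (by simp [M])
  have hM1 : 1 ≤ M := le_add_of_nonneg_left (Finset.sum_nonneg fun _ _ => norm_nonneg _)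
  obtain ⟨φ, h1, h2⟩ := u.2 (min (1 / 2) (ε / (2 * M))) (by positivity)
  have h3 : 1 / 2 ≤ ‖ι φ‖ := by
    have := norm_sub_norm_le (u : H) (ι φ)
    rw [norm_sub_rev, hu1] at this
    linarith [min_le_left (1 / 2 : ℝ) (ε / (2 * M))]
  have h4 : ‖ι φ‖⁻¹ ≤ 2 := by
    rw [inv_le_comm₀ (by linarith) (by norm_num)]
    linarith
  have h5 : M * (ε / (2 * M)) = ε / 2 := by field_simp
  have h6 : ε / (2 * M) ≤ ε / 2 := by gcongr; linarith
  have h7 := min_le_right (1 / 2 : ℝ) (ε / (2 * M))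
  have hn : ‖((‖ι φ‖⁻¹ : ℝ) : ℂ)‖ = ‖ι φ‖⁻¹ := by rw [Complex.norm_real, norm_inv, norm_norm]
  refine ⟨((‖ι φ‖⁻¹ : ℝ) : ℂ) • φ, ?_, ?_, fun i => ?_⟩
  · rw [map_smul, norm_smul, hn, inv_mul_cancel₀ (by linarith)]
  · rw [map_smul_eq_mul, hn]
    calc _ ≤ 2 * (ε / 2) := by gcongr; linarith
      _ = ε := by ring
  · rw [map_smul, norm_smul, hn, ← hg, ← sub_zero (g i (ι φ)), ← hu0 i, ← map_sub]
    have h8 : ‖g i (ι φ - u)‖ ≤ ε / 2 := by
      refine ((g i).le_opNorm _).trans ?_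
      rw [← h5]
      exact mul_le_mul (hM i) (h1.trans h7) (norm_nonneg _) (by linarith)
    calc _ ≤ 2 * (ε / 2) := by gcongr
      _ = ε := by ring

theorem finrank_le (K W : Submodule ℂ H) [FiniteDimensional ℂ K] {κ t : ℝ} (hκ : 0 < κ)
    (ht : t < κ) (h : ∀ w ∈ W, ∀ ε > 0, ∃ v : H, ∃ u ∈ K, ‖v - w‖ ≤ ε ∧
      κ * ‖v - u‖ ^ 2 ≤ t * ‖w‖ ^ 2 + ε) :
    FiniteDimensional ℂ W ∧ Module.finrank ℂ W ≤ Module.finrank ℂ K := by
  let P : W →ₗ[ℂ] K := K.orthogonalProjectionOnto.toLinearMap.comp W.subtype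
  have hP : Function.Injective P := by
    rw [injective_iff_map_eq_zero]
    rintro ⟨w, hw⟩ h0
    have ho : w ∈ Kᗮ := Submodule.orthogonalProjectionOnto_eq_zero_iff.1 h0
    by_contra hne
    have hw0 : 0 < ‖w‖ := norm_pos_iff.2 fun e => hne (Subtype.ext e)
    have hp : 0 < κ - t := by linarith
    obtain ⟨ε, hε, e1, e2⟩ : ∃ ε > 0, ε ≤ ‖w‖ ∧ ε * (1 + 2 * κ * ‖w‖) < (κ - t) * ‖w‖ ^ 2 := by
      refine ⟨min ‖w‖ ((κ - t) * ‖w‖ ^ 2 / (2 * (1 + 2 * κ * ‖w‖))), by positivity,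
        min_le_left _ _, ?_⟩
      calc _ ≤ (κ - t) * ‖w‖ ^ 2 / (2 * (1 + 2 * κ * ‖w‖)) * (1 + 2 * κ * ‖w‖) := by
            gcongr
            exact min_le_right _ _
        _ = (κ - t) * ‖w‖ ^ 2 / 2 := by field_simp
        _ < _ := half_lt_self (by positivity)
    obtain ⟨v, u, hu, h1, h2⟩ := h w hw ε hε
    have h3 : ‖w‖ ≤ ‖w - u‖ := by
      have a1 : inner ℂ u w = 0 := Submodule.inner_right_of_mem_orthogonal hu ho
      have a2 := norm_sub_sq (𝕜 := ℂ) u w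
      rw [a1, map_zero, norm_sub_rev] at a2
      refine abs_le_of_sq_le_sq' (by nlinarith [sq_nonneg ‖u‖]) (norm_nonneg _) |>.2
    have h4 : ‖w‖ - ε ≤ ‖v - u‖ := by
      have := norm_add_le (w - v) (v - u)
      rw [sub_add_sub_cancel, norm_sub_rev w v] at this
      linarith
    have h5 : (‖w‖ - ε) ^ 2 ≤ ‖v - u‖ ^ 2 := pow_le_pow_left₀ (by linarith) h4 2
    have h6 := mul_le_mul_of_nonneg_left h5 hκ.le
    nlinarith [mul_nonneg hκ.le (sq_nonneg ε)]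
  exact ⟨FiniteDimensional.of_injective P hP, LinearMap.finrank_le_finrank_of_injective hP⟩

end Vale.Agent.P353.Ga5Aux
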