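import Vale.Agent.P353.Ga2
import Vale.Agent.P353.Ga4
import Vale.Agent.P353.Ga5Aux

/-! The space of zero modes. -/

noncomputable section

open MeasureTheory Filter Topology Complex Matrix
open scoped ContDiff RealInnerProductSpace

namespace Vale.Agent.P353

variable {E : Type} [NormedAddCommGroup E] [InnerProductSpace ℝ E] [FiniteDimensional ℝ E]
  [MeasurableSpace E] [BorelSpace E]
variable {S : Type} [NormedAddCommGroup S] [InnerProductSpace ℝ S] [FiniteDimensional ℝ S]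
variable {F : Type} [NormedAddCommGroup F] [InnerProductSpace ℂ F] [FiniteDimensional ℂ F]
variable {θ : S →L[ℝ] F →L[ℂ] F} {U : Submodule ℝ E} {C : Set ((E →L[ℝ] E) × (F →L[ℂ] F))}

variable {s : Fin 16 → E →L[ℝ] S} {β : Fin 16 → E → S}

namespace Ga5Aux

/-- the class map on test functions -/
def iota (U : Submodule ℝ E) (C : Set ((E →L[ℝ] E) × (F →L[ℂ] F))) : Tst U C →ₗ[ℂ] LL U F where
  toFun φ := L2 U φ.1
  map_add' φ ψ := L2_add φ.2.1.memLp ψ.2.1.memLp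
  map_smul' z φ := L2_smul z φ.1

/-- the energy seminorm -/
def qs (θ : S →L[ℝ] F →L[ℂ] F) (U : Submodule ℝ E) (C : Set ((E →L[ℝ] E) × (F →L[ℂ] F))) (p : ℝ)
    (s : Fin 16 → E →L[ℝ] S) {β : Fin 16 → E → S} (hβ : ∀ α, ContDiff ℝ ∞ (β α)) :
    Seminorm ℂ (Tst U C) :=
  Seminorm.of (fun φ => √(en θ U p s β φ.1))
    (fun φ ψ => IsCAR.en_add_le p s hβ φ.2.1 ψ.2.1)
    (fun z φ => by
      rw [Submodule.coe_smul, en_smul, Real.sqrt_mul (sq_nonneg _), Real.sqrt_sq (norm_nonneg _)])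

theorem kerS_eq (hβ : ∀ α, ContDiff ℝ ∞ (β α)) (p : ℝ) :
    KerS θ U C p s β = (K0 (iota U C) (qs θ U C p s hβ) : Set (LL U F)) := by
  ext u
  constructor
  · intro hu ε hε
    obtain ⟨φ, hφ, h1, h2⟩ := hu (min ε (ε ^ 2)) (by positivity)
    exact ⟨⟨φ, hφ⟩, h1.trans (min_le_left _ _),
      Real.sqrt_le_iff.2 ⟨hε.le, h2.trans (min_le_right _ _)⟩⟩
  · intro hu ε hε
    obtain ⟨φ, h1, h2⟩ := hu (min ε √ε) (by positivity)
    exact ⟨φ.1, φ.2, h1.trans (min_le_left _ _),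
      (Real.sqrt_le_sqrt_iff hε.le).1 (h2.trans (min_le_right _ _))⟩

theorem ker_eq (hβ : ∀ α, ContDiff ℝ ∞ (β α)) (p : ℝ) :
    Ker θ U C p s β = K0 (iota U C) (qs θ U C p s hβ) := by
  rw [Ker, kerS_eq hβ, Submodule.span_eq]

theorem tendsto_qs (hβ : ∀ α, ContDiff ℝ ∞ (β α)) {p : ℝ} {ι : Type} {l : Filter ι}
    {φ : ι → E → F} (h : ∀ n, φ n ∈ Tst U C)
    (he : Tendsto (fun n => en θ U p s β (φ n)) l (𝓝 0)) :
    Tendsto (fun n => qs θ U C p s hβ ⟨φ n, h n⟩) l (𝓝 0) := by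
  have := he.sqrt
  rwa [Real.sqrt_zero] at this

theorem dop_clm {p : ℝ} {a : F →L[ℂ] F} {σ : ℂ} (hσ : σ * σ = 1) {s : E →L[ℝ] S} {β : E → S}
    (hs : ∀ x ∈ U, a * θ (s x) = σ • (θ (s x) * a) ∧ a * θ (β x) = σ • (θ (β x) * a))
    {φ : E → F} (hφ : Differentiable ℝ φ) {x : E} (hx : x ∈ U) :
    dop θ U p s β (fun y => a (φ y)) x = σ • a (dop θ U p s β φ x) := by
  have key : ∀ b : F →L[ℂ] F, a * b = σ • (b * a) → ∀ v, b (a v) = σ • a (b v) := by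
    intro b hb v
    have : a (b v) = σ • b (a v) := congrArg (fun T : F →L[ℂ] F => T v) hb
    rw [this, smul_smul, hσ, one_smul]
  have hd : ∀ y, fderiv ℝ (fun y => a (φ y)) x y = a (fderiv ℝ φ x y) := by
    intro y
    have := ((a.restrictScalars ℝ).hasFDerivAt.comp x (hφ x).hasFDerivAt).fderiv
    exact congrArg (fun T : E →L[ℝ] F => T y) this
  unfold dop
  rw [map_add, map_sum, smul_add, Finset.smul_sum, key _ (hs x hx).2]
  congr 1
  refine Finset.sum_congr rfl fun k _ => ?_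
  rw [hd, key _ (hs _ (onb_mem U k)).1, map_smul, smul_comm]

theorem en_clm (hβ : ∀ α, ContDiff ℝ ∞ (β α)) {p : ℝ} {a : F →L[ℂ] F} {σ : ℂ}
    (hσ : σ = 1 ∨ σ = -1)
    (hs : ∀ α, ∀ x ∈ U, a * θ (s α x) = σ • (θ (s α x) * a) ∧
      a * θ (β α x) = σ • (θ (β α x) * a)) {φ : E → F} (hφ : Sm U φ) :
    en θ U p s β (fun y => a (φ y)) ≤ ‖a‖ ^ 2 * en θ U p s β φ := by
  have h1 : σ * σ = 1 := by rcases hσ with rfl | rfl <;> simp
  have h2 : ‖σ‖ = 1 := by rcases hσ with rfl | rfl <;> simp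
  unfold en
  rw [Finset.mul_sum]
  refine Finset.sum_le_sum fun α _ => ?_
  unfold nrm
  rw [← integral_const_mul]
  refine integral_mono_of_nonneg (Eventually.of_forall fun x => by positivity)
    ((hφ.dop p (s α) (hβ α)).integrable_wnrm (w := fun _ => ‖a‖ ^ 2) continuousOn_const)
    (Eventually.of_forall fun x => ?_)
  dsimp only
  rw [dop_clm h1 (hs α) (hφ.1.differentiable (by simp)) x.2, norm_smul, h2, one_mul, ← mul_pow]
  gcongr
  exact a.le_opNorm _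

theorem kerS_map (hβ : ∀ α, ContDiff ℝ ∞ (β α)) {p : ℝ} {a : F →L[ℂ] F} {σ : ℂ}
    (hσ : σ = 1 ∨ σ = -1) {C' : Set ((E →L[ℝ] E) × (F →L[ℂ] F))}
    (ha : ∀ φ ∈ Tst U C, (fun x => a (φ x)) ∈ Tst U C')
    (hs : ∀ α, ∀ x ∈ U, a * θ (s α x) = σ • (θ (s α x) * a) ∧
      a * θ (β α x) = σ • (θ (β α x) * a)) {u : LL U F} (hu : u ∈ KerS θ U C p s β) :
    opL U a u ∈ KerS θ U C' p s β := by
  intro ε hε
  have hM : 0 < ‖a‖ ^ 2 + ‖a‖ + 1 := by positivity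
  obtain ⟨φ, hφ, h1, h2⟩ := hu (ε / (‖a‖ ^ 2 + ‖a‖ + 1)) (by positivity)
  have h3 : ∀ b, b ≤ ‖a‖ ^ 2 + ‖a‖ + 1 → b * (ε / (‖a‖ ^ 2 + ‖a‖ + 1)) ≤ ε := by
    intro b hb
    rw [← mul_div_assoc, div_le_iff₀ hM]
    nlinarith
  refine ⟨_, ha φ hφ, ?_, ?_⟩
  · rw [← opL_L2 a hφ.1.memLp, ← map_sub]
    refine ((opL U a).le_opNorm _).trans (le_trans ?_ (h3 ‖a‖ (by nlinarith [sq_nonneg ‖a‖])))
    exact mul_le_mul (norm_opL_le a) h1 (norm_nonneg _) (norm_nonneg _)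
  · refine (en_clm hβ hσ hs hφ.1).trans (le_trans ?_ (h3 (‖a‖ ^ 2) (by linarith [norm_nonneg a])))
    gcongr

theorem integrable_sq {ψ : E → F} (h : MemLp (fun x : U => ψ x) 2 volume) :
    Integrable fun x : U => ‖ψ x‖ ^ 2 :=
  (memLp_two_iff_integrable_sq_norm h.1).1 h

theorem meas_out (U : Submodule ℝ E) (r : ℝ) :
    MeasurableSet {x : U | (x : E) ∈ {y : E | r ≤ ‖y‖}} :=
  (isClosed_le continuous_const (continuous_norm.comp continuous_subtype_val)).measurableSet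

theorem bound_int {ψ : E → F} (h : MemLp (fun x : U => ψ x) 2 volume) {f : U → ℝ} {a b r : ℝ}
    (h0 : ∀ x, 0 ≤ f x) (h1 : ∀ x : U, ‖(x : E)‖ < r → f x ≤ a * ‖ψ x‖ ^ 2)
    (h2 : ∀ x : U, r ≤ ‖(x : E)‖ → f x ≤ (a + b) * ‖ψ x‖ ^ 2) :
    ∫ x, f x ≤ a * nrm U ψ + b * mass U {y | r ≤ ‖y‖} ψ := by
  have hi := integrable_sq h
  have hm := meas_out U r
  unfold nrm mass
  rw [← integral_indicator hm, ← integral_const_mul, ← integral_const_mul,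
    ← integral_add (hi.const_mul a) ((hi.indicator hm).const_mul b)]
  refine integral_mono_of_nonneg (Eventually.of_forall h0)
    ((hi.const_mul a).add ((hi.indicator hm).const_mul b)) (Eventually.of_forall fun x => ?_)
  by_cases hx : r ≤ ‖(x : E)‖
  · have : x ∈ {x : U | (x : E) ∈ {y : E | r ≤ ‖y‖}} := hx
    simp only [Set.indicator_of_mem this]
    linarith [h2 x hx]
  · have : x ∉ {x : U | (x : E) ∈ {y : E | r ≤ ‖y‖}} := hx
    simp only [Set.indicator_of_notMem this]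
    linarith [h1 x (not_le.1 hx)]

theorem tail_small (u : LL U F) {τ : ℝ} (hτ : 0 < τ) : ∀ᶠ r : ℝ in atTop, ∀ ψ : E → F,
    MemLp (fun x : U => ψ x) 2 volume → mass U {y | r ≤ ‖y‖} ψ ≤ τ + 2 * ‖L2 U ψ - u‖ ^ 2 := by
  have hi := integrable_sq (memLp_rep u)
  have h1 := tendsto_setIntegral_of_antitone (μ := (volume : Measure U))
    (f := fun x : U => ‖rep U u x‖ ^ 2) (s := fun r : ℝ => {x : U | (x : E) ∈ {y : E | r ≤ ‖y‖}})
    (meas_out U) (fun r r' h x hx => le_trans h hx) ⟨0, hi.integrableOn⟩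
  have h2 : (⋂ r : ℝ, {x : U | (x : E) ∈ {y : E | r ≤ ‖y‖}}) = ∅ := by
    refine Set.eq_empty_of_forall_notMem fun x hx => ?_
    have : ‖(x : E)‖ + 1 ≤ ‖(x : E)‖ := Set.mem_iInter.1 hx (‖(x : E)‖ + 1)
    linarith
  rw [h2, setIntegral_empty] at h1
  filter_upwards [h1.eventually (ge_mem_nhds (half_pos hτ))] with r hr ψ hψ
  have hd : MemLp (fun x : U => (ψ - rep U u) x) 2 volume := hψ.sub (memLp_rep u)
  have hi2 := integrable_sq hd
  have e1 : ‖L2 U ψ - u‖ ^ 2 = nrm U (ψ - rep U u) := by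
    rw [← norm_L2_sq hd, L2_sub hψ (memLp_rep u), L2_rep]
  calc mass U {y | r ≤ ‖y‖} ψ ≤ ∫ x in {x : U | (x : E) ∈ {y : E | r ≤ ‖y‖}},
        (2 * ‖rep U u x‖ ^ 2 + 2 * ‖(ψ - rep U u) x‖ ^ 2) := by
        refine integral_mono (integrable_sq hψ).integrableOn
          ((hi.const_mul 2).add (hi2.const_mul 2)).integrableOn fun x => ?_
        have := norm_add_le (rep U u x) ((ψ - rep U u) x)
        rw [Pi.sub_apply, add_sub_cancel] at this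
        dsimp only
        rw [Pi.sub_apply]
        nlinarith [norm_nonneg (ψ x), sq_nonneg (‖rep U u x‖ - ‖ψ x - rep U u x‖),
          pow_le_pow_left₀ (norm_nonneg _) this 2]
    _ = 2 * (∫ x in {x : U | (x : E) ∈ {y : E | r ≤ ‖y‖}}, ‖rep U u x‖ ^ 2) +
        2 * ∫ x in {x : U | (x : E) ∈ {y : E | r ≤ ‖y‖}}, ‖(ψ - rep U u) x‖ ^ 2 := by
        rw [integral_add (hi.const_mul 2).integrableOn (hi2.const_mul 2).integrableOn,
          integral_const_mul, integral_const_mul]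
    _ ≤ 2 * (τ / 2) + 2 * nrm U (ψ - rep U u) := by
        gcongr
        · exact hr
        · exact setIntegral_le_integral hi2 (Eventually.of_forall fun x => by positivity)
    _ = _ := by rw [e1]; ring

theorem cut_facts (h : IsCAR θ) (hβ : ∀ α, ContDiff ℝ ∞ (β α)) (hI : Iso U s β) {ψ : E → F}
    (hψ : Sm U ψ) {χ : E → ℝ} (hχ : ContDiff ℝ ∞ χ) {R η M : ℝ} (hR : 0 < R) (hη : 0 < η)
    (hη2 : η ≤ 1 / 2) (h01 : ∀ x, 0 ≤ χ x ∧ χ x ≤ 1) (h1 : ∀ x, ‖x‖ ≤ R / 2 → χ x = 1)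
    (h0 : ∀ x, R ≤ ‖x‖ → χ x = 0) (hd : ∀ x, ‖fderiv ℝ χ x‖ ≤ M) :
    ‖L2 U (fun x => (χ x : ℂ) • ψ x) - L2 U ψ‖ ^ 2 ≤ mass U {y | η * R ≤ ‖y‖} ψ ∧
    en θ U 1 s β (fun x => (χ x : ℂ) • ψ x) ≤
      2 * en θ U 1 s β ψ + 16 * M ^ 2 * mass U {y | η * R ≤ ‖y‖} ψ ∧
    wnrm U (fun x => ‖x‖) (fun x => (χ x : ℂ) • ψ x) ≤
      η * R * nrm U ψ + R * mass U {y | η * R ≤ ‖y‖} ψ ∧
    wnrm U (fun x => ‖x‖ ^ 2) (fun x => (χ x : ℂ) • ψ x) ≤
      (η * R) ^ 2 * nrm U ψ + R ^ 2 * mass U {y | η * R ≤ ‖y‖} ψ := by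
  have hm := hψ.memLp
  have hm' := (hψ.mulR hχ).memLp
  have hηR : η * R ≤ R / 2 := by nlinarith
  have hηR0 : 0 < η * R := by positivity
  have hn : ∀ x, ‖(χ x : ℂ) • ψ x‖ ^ 2 ≤ ‖ψ x‖ ^ 2 := by
    intro x
    rw [norm_smul, Complex.norm_real, Real.norm_of_nonneg (h01 x).1]
    exact pow_le_pow_left₀ (mul_nonneg (h01 x).1 (norm_nonneg _))
      (mul_le_of_le_one_left (norm_nonneg _) (h01 x).2) 2
  have hw : ∀ (w : E → ℝ) (a b : ℝ), (∀ x, 0 ≤ w x) → (∀ x : E, ‖x‖ < η * R → w x ≤ a) →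
      (∀ x : E, ‖x‖ < R → w x ≤ b) → 0 ≤ a → 0 ≤ b → wnrm U w (fun x => (χ x : ℂ) • ψ x) ≤
        a * nrm U ψ + b * mass U {y | η * R ≤ ‖y‖} ψ := by
    intro w a b w0 wa wb ha hb
    refine bound_int hm (f := fun x : U => w x * ‖(χ x : ℂ) • ψ x‖ ^ 2)
      (fun x => mul_nonneg (w0 _) (sq_nonneg _)) (fun x hx => ?_) fun x _ => ?_
    · exact mul_le_mul (wa _ hx) (hn _) (sq_nonneg _) ha
    · by_cases hx : ‖(x : E)‖ < R
      · exact mul_le_mul ((wb _ hx).trans (by linarith)) (hn _) (sq_nonneg _) (by linarith)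
      · simp only [h0 _ (not_lt.1 hx), Complex.ofReal_zero, zero_smul, norm_zero]
        have : 0 ≤ (a + b) * ‖ψ x‖ ^ 2 := by positivity
        simpa using this
  refine ⟨?_, ?_, hw _ _ _ (fun x => norm_nonneg x) (fun x hx => hx.le) (fun x hx => hx.le)
    hηR0.le hR.le, hw _ _ _ (fun x => sq_nonneg _)
    (fun x hx => pow_le_pow_left₀ (norm_nonneg _) hx.le 2)
    (fun x hx => pow_le_pow_left₀ (norm_nonneg _) hx.le 2) (sq_nonneg _) (sq_nonneg _)⟩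
  · rw [← L2_sub hm' hm, norm_L2_sq (hm'.sub hm)]
    have := bound_int hm (f := fun x : U => ‖((fun x => (χ x : ℂ) • ψ x) - ψ) x‖ ^ 2) (a := 0)
      (b := 1) (r := η * R) (fun x => sq_nonneg _)
      (fun x hx => by simp [h1 x (by linarith)])
      (fun x _ => by
        have e : ((fun x => (χ x : ℂ) • ψ x) - ψ) x = ((χ x - 1 : ℝ) : ℂ) • ψ x := by
          simp [sub_smul]
        rw [e, norm_smul, Complex.norm_real, zero_add, one_mul]
        gcongr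
        refine mul_le_of_le_one_left (norm_nonneg _) ?_
        rw [Real.norm_eq_abs, abs_le]
        constructor <;> linarith [(h01 x).1, (h01 x).2])
    rw [zero_mul, zero_add, one_mul] at this
    exact this
  · refine (h.en_mulR_le 1 hβ hI hψ hχ).trans (add_le_add ?_ ?_)
    · unfold en
      gcongr with α
      refine integral_mono_of_nonneg (Eventually.of_forall fun x => by positivity)
        (integrable_sq (hψ.dop 1 (s α) (hβ α)).memLp) (Eventually.of_forall fun x => ?_)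
      exact mul_le_of_le_one_left (sq_nonneg _) (pow_le_one₀ (h01 _).1 (h01 _).2)
    · have := bound_int hm (f := fun x : U => ‖gU U χ x‖ ^ 2 * ‖ψ x‖ ^ 2) (a := 0)
        (b := M ^ 2) (r := η * R) (fun x => by positivity)
        (fun x hx => by
          have e : χ =ᶠ[𝓝 (x : E)] fun _ => 1 := by
            have : ∀ᶠ y : E in 𝓝 (x : E), ‖y‖ < R / 2 :=
              continuous_norm.continuousAt.eventually_lt continuousAt_const (by linarith)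
            filter_upwards [this] with y hy using h1 y hy.le
          have e2 := norm_gU_le U χ x
          rw [e.fderiv_eq, fderiv_const_apply, norm_zero] at e2
          simp [norm_le_zero_iff.1 e2])
        (fun x _ => by
          rw [zero_add]
          gcongr
          exact (norm_gU_le U χ x).trans (hd x))
      rw [zero_mul, zero_add] at this
      unfold wnrm
      nlinarith

end Ga5Aux

open Ga5Aux

theorem mem_Ker_iff (hβ : ∀ α, ContDiff ℝ ∞ (β α)) {p : ℝ} {u : LL U F} :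
    u ∈ Ker θ U C p s β ↔ u ∈ KerS θ U C p s β := by
  rw [ker_eq hβ, kerS_eq hβ, SetLike.mem_coe]

theorem isClosed_Ker (hβ : ∀ α, ContDiff ℝ ∞ (β α)) (p : ℝ) :
    IsClosed (Ker θ U C p s β : Set (LL U F)) := by
  rw [ker_eq hβ]
  exact isClosed_K0 _ _

theorem Ker_subset_Hil (hβ : ∀ α, ContDiff ℝ ∞ (β α)) (p : ℝ) :
    (Ker θ U C p s β : Set (LL U F)) ⊆ Hil U C := by
  intro u hu
  refine Metric.mem_closure_iff.2 fun ε hε => ?_
  obtain ⟨φ, hφ, h1, -⟩ := (mem_Ker_iff hβ).1 hu (ε / 2) (half_pos hε)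
  refine ⟨_, ⟨φ, hφ, rfl⟩, ?_⟩
  rw [dist_comm, dist_eq_norm]
  linarith

theorem exists_Hil_submodule (U : Submodule ℝ E) (C : Set ((E →L[ℝ] E) × (F →L[ℂ] F))) :
    ∃ H : Submodule ℂ (LL U F), (H : Set (LL U F)) = Hil U C := by
  refine ⟨(LinearMap.range (iota U C)).topologicalClosure, ?_⟩
  rw [Submodule.topologicalClosure_coe, Hil]
  congr 1
  ext u
  exact ⟨fun ⟨φ, h⟩ => ⟨φ.1, φ.2, h⟩, fun ⟨φ, hφ, h⟩ => ⟨⟨φ, hφ⟩, h⟩⟩

theorem Hil.constraint {u : LL U F} (hu : u ∈ Hil U C) {a : F →L[ℂ] F} (ha : (1, a) ∈ C) :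
    opL U a u = u := by
  have hc : IsClosed {u : LL U F | opL U a u = u} :=
    isClosed_eq (opL U a).continuous continuous_id
  refine closure_minimal ?_ hc hu
  rintro _ ⟨φ, hφ, rfl⟩
  change opL U a (L2 U φ) = L2 U φ
  rw [opL_L2 a hφ.1.memLp]
  exact L2_congr (Eventually.of_forall fun x => (hφ.2 _ ha x x.2).symm)

theorem mem_Ker_of_weak (hβ : ∀ α, ContDiff ℝ ∞ (β α)) {p : ℝ} {ι : Type} {l : Filter ι} [l.NeBot]
    {φ : ι → E → F} (h : ∀ n, φ n ∈ Tst U C) (he : Tendsto (fun n => en θ U p s β (φ n)) l (𝓝 0))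
    {u : LL U F} (hw : ∀ w : LL U F, Tendsto (fun n => inner ℂ w (L2 U (φ n))) l (𝓝 (inner ℂ w u))) :
    u ∈ Ker θ U C p s β := by
  haveI := FiniteDimensional.complete ℂ F
  rw [ker_eq hβ]
  exact mem_K0_of_weak (iota U C) (qs θ U C p s hβ) (φ := fun n => ⟨φ n, h n⟩)
    (tendsto_qs hβ h he) hw

/-- low energy sequences orthogonal to the zero modes leave every bounded region -/
theorem IsCAR.core (h : IsCAR θ) (hβ : ∀ α, ContDiff ℝ ∞ (β α)) (hI : Iso U s β)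
    {φ : ℕ → E → F} (hφ : ∀ n, φ n ∈ Tst U C) {K : ℝ} (hK : ∀ n, nrm U (φ n) ≤ K)
    (he : Tendsto (fun n => en θ U 1 s β (φ n)) atTop (𝓝 0))
    (ho : ∀ u ∈ Ker θ U C 1 s β, Tendsto (fun n => inner ℂ u (L2 U (φ n))) atTop (𝓝 0)) (R : ℝ) :
    Tendsto (fun n => mass U {x | ‖x‖ ≤ R} (φ n)) atTop (𝓝 0) := by
  haveI := FiniteDimensional.complete ℂ F
  rw [ker_eq hβ] at ho
  have hw := weak_null (iota U C) (qs θ U C 1 s hβ) (φ := fun n => ⟨φ n, hφ n⟩) (M := √K)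
    (fun n => Real.le_sqrt_of_sq_le ((norm_L2_sq (hφ n).1.memLp).le.trans (hK n)))
    (tendsto_qs hβ hφ he) ho
  obtain ⟨K', hK'⟩ := h.local_grad hβ hI (R + 1)
  obtain ⟨M, hM⟩ := he.bddAbove_range
  refine rellich_local (fun n => (hφ n).1) (K := K + |K'| * (K + M)) (fun n => ?_) hw
  refine add_le_add (hK n) ((hK' _ (hφ n).1).trans ?_)
  exact mul_le_mul (le_abs_self _) (add_le_add (hK n) (hM ⟨n, rfl⟩))
    (add_nonneg (nrm_nonneg _ _) (en_nonneg _ _ _ _)) (abs_nonneg _)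

theorem opL_mem_Ker (hβ : ∀ α, ContDiff ℝ ∞ (β α)) {p : ℝ} {a : F →L[ℂ] F} {σ : ℂ}
    (hσ : σ = 1 ∨ σ = -1) (ha : ∀ c ∈ C, a * c.2 = c.2 * a)
    (hs : ∀ α, ∀ x ∈ U, a * θ (s α x) = σ • (θ (s α x) * a) ∧
      a * θ (β α x) = σ • (θ (β α x) * a)) {u : LL U F} (hu : u ∈ Ker θ U C p s β) :
    opL U a u ∈ Ker θ U C p s β :=
  (mem_Ker_iff hβ).2 (kerS_map hβ hσ (fun _ hφ => clm_mem_Tst hφ ha) hs ((mem_Ker_iff hβ).1 hu))

theorem mem_Ker_insert (hβ : ∀ α, ContDiff ℝ ∞ (β α)) {p : ℝ} {a : F →L[ℂ] F} (haa : a * a = a)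
    (ha : ∀ c ∈ C, a * c.2 = c.2 * a)
    (hs : ∀ α, ∀ x ∈ U, a * θ (s α x) = θ (s α x) * a ∧ a * θ (β α x) = θ (β α x) * a)
    {u : LL U F} :
    u ∈ Ker θ U (insert (1, a) C) p s β ↔ u ∈ Ker θ U C p s β ∧ opL U a u = u := by
  constructor
  · intro hu
    refine ⟨(mem_Ker_iff hβ).2 fun ε hε => ?_,
      Hil.constraint (Ker_subset_Hil hβ p hu) (Set.mem_insert _ _)⟩
    obtain ⟨φ, hφ, h⟩ := (mem_Ker_iff hβ).1 hu ε hε
    exact ⟨φ, ⟨hφ.1, fun c hc => hφ.2 c (Set.mem_insert_of_mem _ hc)⟩, h⟩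
  · rintro ⟨hu, he⟩
    rw [← he]
    refine (mem_Ker_iff hβ).2 (kerS_map hβ (σ := 1) (Or.inl rfl) (fun φ hφ => ?_)
      (fun α x hx => by simpa using hs α x hx) ((mem_Ker_iff hβ).1 hu))
    have := clm_mem_Tst hφ ha
    refine ⟨this.1, fun c hc x hx => ?_⟩
    rcases hc with rfl | hc
    · exact (congrArg (fun T : F →L[ℂ] F => T (φ x)) haa).symm
    · exact this.2 c hc x hx

/-- cut off approximants of a zero mode -/
theorem IsCAR.approx (h : IsCAR θ) (hβ : ∀ α, ContDiff ℝ ∞ (β α)) (hI : Iso U s β) (hA : Adm U C)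
    {u : LL U F} (hu : u ∈ Ker θ U C 1 s β) {ε : ℝ} (hε : 0 < ε) :
    ∀ᶠ R : ℝ in atTop, ∃ φ ∈ Tst U C, (∀ x ∈ U, R < ‖x‖ → φ x = 0) ∧ ‖L2 U φ - u‖ ≤ ε ∧
      en θ U 1 s β φ ≤ ε / R ^ 2 ∧ wnrm U (fun x => ‖x‖) φ ≤ ε * R ∧
      wnrm U (fun x => ‖x‖ ^ 2) φ ≤ ε * R ^ 2 := by
  obtain ⟨K, hK⟩ := exists_cutoff E
  obtain ⟨N, hN⟩ : ∃ N, N = (‖u‖ + 1) ^ 2 := ⟨_, rfl⟩
  have hN0 : 0 < N := by rw [hN]; positivity
  obtain ⟨η, hη0, hη1, hη2⟩ : ∃ η > 0, η ≤ 1 / 2 ∧ η * N ≤ ε / 2 := by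
    refine ⟨min (1 / 2) (ε / (2 * N)), by positivity, min_le_left _ _, ?_⟩
    calc _ ≤ ε / (2 * N) * N := by gcongr; exact min_le_right _ _
      _ = _ := by field_simp
  obtain ⟨t, ht0, ht1, ht2, ht3⟩ : ∃ t > 0, t ≤ (ε / 2) ^ 2 ∧ t ≤ ε / 2 ∧
      64 * K ^ 2 * t ≤ ε / 2 := by
    refine ⟨min ((ε / 2) ^ 2) (ε / (2 * (64 * K ^ 2 + 1))), by positivity, min_le_left _ _, ?_, ?_⟩
    · refine (min_le_right _ _).trans ?_
      gcongr
      nlinarith [sq_nonneg K]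
    · calc _ ≤ (64 * K ^ 2 + 1) * (ε / (2 * (64 * K ^ 2 + 1))) := by
            gcongr
            · linarith
            · exact min_le_right _ _
        _ = _ := by field_simp
  have hev := (tendsto_id.const_mul_atTop hη0).eventually (tail_small u (half_pos ht0))
  filter_upwards [hev, eventually_gt_atTop 0] with R hR hR0
  obtain ⟨δ, hδ0, hδ1, hδ2, hδ3, hδ4⟩ : ∃ δ > 0, δ ≤ 1 ∧ δ ≤ ε / 2 ∧ δ ≤ t / 4 ∧
      δ ≤ ε / (4 * R ^ 2) :=
    ⟨min (min 1 (ε / 2)) (min (t / 4) (ε / (4 * R ^ 2))), by positivity,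
      (min_le_left _ _).trans (min_le_left _ _), (min_le_left _ _).trans (min_le_right _ _),
      (min_le_right _ _).trans (min_le_left _ _), (min_le_right _ _).trans (min_le_right _ _)⟩
  obtain ⟨ψ, hψ, h1, h2⟩ := (mem_Ker_iff hβ).1 hu δ hδ0
  obtain ⟨χ, c1, c2, c3, c4, c5, c6⟩ := hK (R / 2) (half_pos hR0)
  have c5' : ∀ x, R ≤ ‖x‖ → χ x = 0 := fun x hx => c5 x (by linarith)
  obtain ⟨f1, f2, f3, f4⟩ := cut_facts h hβ hI hψ.1 c1 hR0 hη0 hη1 c3 c4 c5' c6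
  have hm : mass U {y | η * R ≤ ‖y‖} ψ ≤ t := by
    refine (hR ψ hψ.1.memLp).trans ?_
    have := pow_le_pow_left₀ (norm_nonneg _) h1 2
    nlinarith
  have hn : nrm U ψ ≤ N := by
    rw [← norm_L2_sq hψ.1.memLp, hN]
    gcongr
    linarith [norm_sub_norm_le (L2 U ψ) u]
  have hn0 := nrm_nonneg U ψ
  have hηn : η * nrm U ψ ≤ ε / 2 := (mul_le_mul_of_nonneg_left hn hη0.le).trans hη2
  refine ⟨_, mulR_mem_Tst hψ c1 (fun c hc x hx => c2 _ _ (hA c hc x hx).2),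
    fun x _ hx => by simp [c5' x hx.le], ?_, f2.trans ?_, f3.trans ?_, f4.trans ?_⟩
  · have a1 := (abs_le_of_sq_le_sq' (f1.trans (hm.trans ht1)) (half_pos hε).le).2
    have a2 := norm_add_le (L2 U (fun x => (χ x : ℂ) • ψ x) - L2 U ψ) (L2 U ψ - u)
    rw [sub_add_sub_cancel] at a2
    linarith
  · calc _ ≤ 2 * (ε / (4 * R ^ 2)) + 16 * (K / (R / 2)) ^ 2 * t := by gcongr; linarith
      _ = (ε / 2 + 64 * K ^ 2 * t) / R ^ 2 := by field_simp; ring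
      _ ≤ _ := by gcongr; linarith
  · calc _ = R * (η * nrm U ψ + mass U {y | η * R ≤ ‖y‖} ψ) := by ring
      _ ≤ R * ε := by gcongr; linarith
      _ = _ := by ring
  · calc _ = R ^ 2 * (η * (η * nrm U ψ) + mass U {y | η * R ≤ ‖y‖} ψ) := by ring
      _ ≤ R ^ 2 * ε := by
          gcongr
          have : η * (η * nrm U ψ) ≤ η * nrm U ψ :=
            mul_le_of_le_one_left (by positivity) (by linarith)
          linarith
      _ = _ := by ring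

/-- if there are more zero modes than functionals, some unit zero mode is killed by all -/
theorem crit_upper (hβ : ∀ α, ContDiff ℝ ∞ (β α)) {p : ℝ} {ι : Type} [Fintype ι]
    {L : ι → (E → F) → ℂ} (hL : ∀ i, LinOn (Tst U C) (L i))
    (hb : ∀ i, ∃ B, ∀ φ ∈ Tst U C, ‖L i φ‖ ^ 2 ≤ B * nrm U φ)
    (hd : Fintype.card ι < Module.finrank ℂ (Ker θ U C p s β)) {ε : ℝ} (hε : 0 < ε) :
    ∃ φ ∈ Tst U C, nrm U φ = 1 ∧ en θ U p s β φ ≤ ε ∧ ∀ i, ‖L i φ‖ ≤ ε := by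
  have h0 : ∀ i, L i 0 = 0 := fun i => by
    have := hL i 0 (zero_mem _) 0 (zero_mem _) 1
    simpa using this
  let L' : ι → Tst U C →ₗ[ℂ] ℂ := fun i =>
    { toFun := fun φ => L i φ.1
      map_add' := fun φ ψ => by simpa using hL i φ φ.2 ψ ψ.2 1
      map_smul' := fun z φ => by simpa [h0] using hL i 0 (zero_mem _) φ φ.2 z }
  rw [ker_eq hβ] at hd
  obtain ⟨φ, h1, h2, h3⟩ := crit (iota U C) (qs θ U C p s hβ) L' (fun i => by
    obtain ⟨B, hB⟩ := hb i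
    refine ⟨√|B|, fun φ => (abs_le_of_sq_le_sq' ?_ (by positivity)).2⟩
    rw [mul_pow, Real.sq_sqrt (abs_nonneg _)]
    refine (hB φ φ.2).trans ?_
    rw [← norm_L2_sq φ.2.1.memLp]
    exact mul_le_mul_of_nonneg_right (le_abs_self _) (sq_nonneg _)) hd
    (ε := min ε √ε) (by positivity)
  refine ⟨φ.1, φ.2, ?_, (Real.sqrt_le_sqrt_iff hε.le).1 (h2.trans (min_le_right _ _)),
    fun i => (h3 i).trans (min_le_left _ _)⟩
  rw [← norm_L2_sq φ.2.1.memLp]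
  change ‖iota U C φ‖ ^ 2 = 1
  rw [h1, one_pow]

/-- low energy on approximants of a space bounds its dimension -/
theorem finrank_le_of_gap (hβ : ∀ α, ContDiff ℝ ∞ (β α)) {p : ℝ}
    [FiniteDimensional ℂ (Ker θ U C p s β)] {κ : ℝ} (hκ : 0 < κ)
    (hgap : ∀ φ ∈ Tst U C, ∃ u ∈ Ker θ U C p s β, κ * ‖L2 U φ - u‖ ^ 2 ≤ en θ U p s β φ)
    {W : Submodule ℂ (LL U F)} {t : ℝ} (ht : t < κ)
    (hW : ∀ w ∈ W, ∀ ε > 0, ∃ φ ∈ Tst U C, ‖L2 U φ - w‖ ≤ ε ∧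
      en θ U p s β φ ≤ t * ‖w‖ ^ 2 + ε) :
    FiniteDimensional ℂ W ∧ Module.finrank ℂ W ≤ Module.finrank ℂ (Ker θ U C p s β) := by
  refine finrank_le _ W hκ ht fun w hw ε hε => ?_
  obtain ⟨φ, hφ, h1, h2⟩ := hW w hw ε hε
  obtain ⟨u, hu, h3⟩ := hgap φ hφ
  exact ⟨_, u, hu, h1, h3.trans h2⟩

end Vale.Agent.P353
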