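import Vale.Agent.P353.Cov3
import Vale.Agent.P353.Ga5

/-! Zero modes: stability and transport. -/

noncomputable section

open MeasureTheory Filter Topology Complex Matrix
open scoped ContDiff RealInnerProductSpace

namespace Vale.Agent.P353

namespace Cov4Aux

section Gen

variable {E : Type} [NormedAddCommGroup E] [InnerProductSpace ℝ E] [FiniteDimensional ℝ E]
  [MeasurableSpace E] [BorelSpace E]
variable {S : Type} [NormedAddCommGroup S] [InnerProductSpace ℝ S] [FiniteDimensional ℝ S]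
variable {F : Type} [NormedAddCommGroup F] [InnerProductSpace ℂ F] [FiniteDimensional ℂ F]
variable {θ : S →L[ℝ] F →L[ℂ] F} {U : Submodule ℝ E}

omit [FiniteDimensional ℝ E] [MeasurableSpace E] [BorelSpace E] [FiniteDimensional ℝ S]
  [FiniteDimensional ℂ F] in
theorem exists_bil (θ : S →L[ℝ] F →L[ℂ] F) (z : ℂ) (s : E →L[ℝ] S) (D : E →L[ℝ] F) :
    ∃ f : E →L[ℝ] E →L[ℝ] F, ∀ y y', f y y' = z • θ (s y) (D y') := by
  refine ⟨((ContinuousLinearMap.restrictScalarsL ℂ F F ℝ ℝ).comp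
    (z • (θ.comp s))).bilinearComp (ContinuousLinearMap.id ℝ E) D, fun y y' => ?_⟩
  simp

omit [FiniteDimensional ℝ E] [MeasurableSpace E] [BorelSpace E] [FiniteDimensional ℝ S] in
theorem exists_bil2 (θ : S →L[ℝ] F →L[ℂ] F) (z : ℂ) (s D : E →L[ℝ] S) :
    ∃ f : E →L[ℝ] E →L[ℝ] (F →L[ℂ] F), ∀ y y', f y y' = z • (θ (s y) * θ (D y')) := by
  refine ⟨(ContinuousLinearMap.mul ℝ (F →L[ℂ] F)).bilinearComp (z • (θ.comp s)) (θ.comp D),
    fun y y' => ?_⟩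
  simp

omit [MeasurableSpace E] [BorelSpace E] [FiniteDimensional ℂ F] in
theorem continuous_gsq (W : Submodule ℝ E) {ψ : E → F} (hψ : ContDiff ℝ ∞ ψ) :
    Continuous (gsq W ψ) := by
  unfold gsq
  refine continuous_finsetSum _ fun k _ => ?_
  exact (((hψ.continuous_fderiv (by simp)).clm_apply continuous_const).norm).pow 2

theorem integrable_gsq {W : Submodule ℝ E} (hW : W ≤ U) {ψ : E → F} (hψ : Sm U ψ) :
    Integrable fun x : U => gsq W ψ x := by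
  have h1 : Integrable fun x : U => gsq U ψ x := by
    simpa using hψ.integrable_wgsq (w := fun _ => 1) continuousOn_const
  refine h1.mono' ((continuous_gsq W hψ.1).comp continuous_subtype_val).aestronglyMeasurable
    (Eventually.of_forall fun x => ?_)
  rw [Real.norm_of_nonneg (gsq_nonneg W ψ x)]
  exact gsq_mono ψ x hW

/-- energy density -/
def dens (θ : S →L[ℝ] F →L[ℂ] F) (U : Submodule ℝ E) (s : Fin 16 → E →L[ℝ] S)
    (β : Fin 16 → E → S) (ψ : E → F) (x : E) : ℝ :=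
  8 * gsq U ψ x + (∑ α, ‖β α x‖ ^ 2) * ‖ψ x‖ ^ 2 / 2 +
    (inner ℂ (ψ x) (bil θ U s β x (ψ x))).re

theorem energy' (h : IsCAR θ) {s : Fin 16 → E →L[ℝ] S} {β : Fin 16 → E → S}
    (hβ : ∀ α, ContDiff ℝ ∞ (β α)) (hI : Iso U s β) {ψ : E → F} (hψ : Sm U ψ) :
    (Integrable fun x : U => dens θ U s β ψ x) ∧
      en θ U 1 s β ψ = ∫ x : U, dens θ U s β ψ x := by
  have h1 : Integrable fun x : U => 8 * gsq U ψ x := (integrable_gsq le_rfl hψ).const_mul 8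
  have h2 : Integrable fun x : U => (∑ α, ‖β α x‖ ^ 2) * ‖ψ x‖ ^ 2 / 2 :=
    (hψ.integrable_wnrm (w := fun x => ∑ α, ‖β α x‖ ^ 2)
      (continuous_finsetSum _ fun α _ => ((hβ α).continuous.norm).pow 2).continuousOn).div_const 2
  have h3 : Integrable fun x : U => (inner ℂ (ψ x) (bil θ U s β x (ψ x))).re := by
    refine Continuous.integrable_of_hasCompactSupport ?_ (hψ.2.mono fun x hx h0 => hx ?_)
    · have hc : Continuous fun x : E => (inner ℂ (ψ x) (bil θ U s β x (ψ x))).re :=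
        Complex.continuous_re.comp (hψ.1.continuous.inner
          (((contDiff_bil s hβ).continuous).clm_apply hψ.1.continuous))
      exact hc.comp continuous_subtype_val
    · simp only [h0, inner_zero_left, Complex.zero_re]
  refine ⟨(h1.add h2).add h3, ?_⟩
  rw [h.energy 1 hβ hI hψ]
  unfold dens
  have h12 : Integrable fun x : U => 8 * gsq U ψ x + (∑ α, ‖β α x‖ ^ 2) * ‖ψ x‖ ^ 2 / 2 :=
    h1.add h2
  rw [integral_add h12 h3, integral_add h1 h2, integral_const_mul, integral_div]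
  simp only [grad, wnrm, one_pow, mul_one, one_mul]

end Gen

variable {N d : ℕ} {F : Type} [NormedAddCommGroup F] [InnerProductSpace ℂ F]
  [FiniteDimensional ℂ F] (c : Ctx N d F)

variable {π π' π'' : Setoid (Fin N)} {𝔞 𝔟 𝔟' : Submodule ℝ (Lg d)}

theorem Ad9_mem_iff {u : UN N} (h : ∀ x, c.Ad u x ∈ 𝔟' ↔ x ∈ 𝔟) (x : Tn 9 d) :
    c.Ad9 u x ∈ sub 9 𝔟' ↔ x ∈ sub 9 𝔟 := by
  simp only [mem_sub, Ctx.Ad9, cmp_kr_one, h]

theorem inv_mem {u : UN N} (h : ∀ x, c.Ad u x ∈ 𝔟' ↔ x ∈ 𝔟) {x : Tn 9 d} (hx : x ∈ sub 9 𝔟') :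
    c.Ad9 u⁻¹ x ∈ sub 9 𝔟 := by
  rw [← Ad9_mem_iff c h, c.Ad9_apply_inv]
  exact hx

theorem map_Ad9 {u : UN N} (h : ∀ x, c.Ad u x ∈ 𝔟' ↔ x ∈ 𝔟) :
    (sub 9 𝔟).map (c.Ad9 u : Tn 9 d →ₗ[ℝ] Tn 9 d) = sub 9 𝔟' := by
  ext x
  constructor
  · rintro ⟨y, hy, rfl⟩
    exact (Ad9_mem_iff c h y).2 hy
  · intro hx
    exact ⟨c.Ad9 u⁻¹ x, inv_mem c h hx, c.Ad9_apply_inv u x⟩

theorem map_Ad9_inv {u : UN N} (h : ∀ x, c.Ad u x ∈ 𝔟' ↔ x ∈ 𝔟) :
    (sub 9 𝔟').map (c.Ad9 u⁻¹ : Tn 9 d →ₗ[ℝ] Tn 9 d) = sub 9 𝔟 := by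
  ext x
  constructor
  · rintro ⟨y, hy, rfl⟩
    exact inv_mem c h hy
  · intro hx
    exact ⟨c.Ad9 u x, (Ad9_mem_iff c h x).2 hx, c.Ad9_inv_apply u x⟩

theorem orth_iff {u : UN N} (h : ∀ x, c.Ad u x ∈ 𝔟' ↔ x ∈ 𝔟) (x : Lg d) :
    c.Ad u x ∈ 𝔟'ᗮ ↔ x ∈ 𝔟ᗮ := by
  have hi : ∀ y, c.Ad u (c.Ad u⁻¹ y) = y := fun y => by
    rw [← mul_apply_eq_comp, ← c.Ad_mul, mul_inv_cancel, c.Ad_one]; rfl
  simp only [Submodule.mem_orthogonal]
  constructor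
  · intro H y hy
    rw [← c.inner_Ad u]
    exact H _ ((h y).2 hy)
  · intro H y hy
    rw [← hi y, c.inner_Ad u]
    exact H _ ((h _).1 (by rw [hi]; exact hy))

theorem ss_iff {u : UN N} (hu : u ∈ Grp π) (x : Lg d) : c.Ad u x ∈ c.ss π ↔ x ∈ c.ss π :=
  c.Ad_mem_iff (fun _ hx => (c.Th_ss π).Ad_mem c hu hx) x

theorem kr_cen {n : ℕ} {u : UN N} (hu : u ∈ Grp π) {y : Tn n d} (hy : y ∈ sub n (c.cen π)) :
    kr 1 (c.Ad u) y = y :=
  ext_cmp fun i => by rw [cmp_kr_one, c.Ad_cen hu (mem_sub.1 hy i)]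

theorem beta_mem (g m : ℝ) (e : Fin 16 → ℝ) {x : Tn 9 d} (hx : x ∈ sub 9 (c.ss π)) :
    c.beta g m e x ∈ sub 16 (c.ss π) :=
  Submodule.add_mem _ (Submodule.smul_mem _ _ (c.Phi_mem e (sub_mono inf_le_left hx)))
    (Submodule.smul_mem _ _ (c.Km_mem e hx))

theorem P0_U {u : UN N} (hu : u ∈ Grp π) :
    c.P0 (c.ss π)ᗮ * c.U u = c.U u * c.P0 (c.ss π)ᗮ :=
  (c.U_P0 (orth_iff c (ss_iff c hu))).symm

theorem P0_th {y : Tn 16 d} (hy : y ∈ sub 16 (c.ss π)) :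
    c.P0 (c.ss π)ᗮ * c.θ y = c.θ y * c.P0 (c.ss π)ᗮ :=
  c.P0_theta (sub_mono (Submodule.le_orthogonal_orthogonal _) hy)

theorem contDiff_actF (u : UN N) {ψ : Tn 9 d → F} (hψ : ContDiff ℝ ∞ ψ) :
    ContDiff ℝ ∞ (c.actF u ψ) :=
  ((c.U u).restrictScalars ℝ).contDiff.comp (hψ.comp (c.Ad9 u⁻¹).contDiff)

theorem fderiv_actF (u : UN N) {ψ : Tn 9 d → F} (hψ : Differentiable ℝ ψ) (x y : Tn 9 d) :
    fderiv ℝ (c.actF u ψ) x y = c.U u (fderiv ℝ ψ (c.Ad9 u⁻¹ x) (c.Ad9 u⁻¹ y)) := by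
  have h : HasFDerivAt (c.actF u ψ) (((c.U u).restrictScalars ℝ).comp
      ((fderiv ℝ ψ (c.Ad9 u⁻¹ x)).comp (c.Ad9 u⁻¹))) x :=
    ((c.U u).restrictScalars ℝ).hasFDerivAt.comp x
      ((hψ _).hasFDerivAt.comp x (c.Ad9 u⁻¹).hasFDerivAt)
  rw [h.fderiv]
  rfl

theorem U_theta (u : UN N) (y : Tn 16 d) (a : F) :
    c.θ (kr 1 (c.Ad u) y) (c.U u a) = c.U u (c.θ y a) := by
  rw [← mul_apply_eq_comp, ← c.Uθ]
  rfl

theorem dop_actF {u : UN N} (h : ∀ x, c.Ad u x ∈ 𝔟' ↔ x ∈ 𝔟) (g m : ℝ) (e : Fin 16 → ℝ)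
    {ψ : Tn 9 d → F} (hψ : Differentiable ℝ ψ) :
    dop c.θ (sub 9 𝔟') 1 (c.sE e) (c.beta g m e) (c.actF u ψ) =
      c.actF u (dop c.θ (sub 9 𝔟) 1 (c.sE e) (c.beta g m e) ψ) := by
  funext x
  obtain ⟨f, hf⟩ := exists_bil c.θ (-I * ((1 : ℝ) : ℂ)) (c.sE e) (fderiv ℝ (c.actF u ψ) x)
  have h1 := sum_onb_map f (U₁ := sub 9 𝔟) (R := c.Ad9 u) (fun y _ => c.norm_Ad9 u y)
    (map_Ad9 c h)
  simp only [hf] at h1
  have h2 : c.beta g m e x = kr 1 (c.Ad u) (c.beta g m e (c.Ad9 u⁻¹ x)) := by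
    rw [← c.beta_Ad9, c.Ad9_apply_inv]
  unfold dop
  rw [h1, h2]
  simp only [Ctx.actF, map_add, map_sum, map_smul, U_theta]
  congr 1
  refine Finset.sum_congr rfl fun k _ => ?_
  rw [fderiv_actF c u hψ, c.Ad9_inv_apply, ← U_theta, ← c.sE_kr]
  rfl

theorem nrm_actF' {u : UN N} (h : ∀ x, c.Ad u x ∈ 𝔟' ↔ x ∈ 𝔟) (ψ : Tn 9 d → F) :
    nrm (sub 9 𝔟') (c.actF u ψ) = nrm (sub 9 𝔟) ψ := by
  unfold nrm
  simp only [Ctx.actF, c.Uiso]
  exact integral_isometry (fun y _ => c.norm_Ad9 u⁻¹ y) (map_Ad9_inv c h) fun x => ‖ψ x‖ ^ 2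

theorem memLp_actF {u : UN N} (h : ∀ x, c.Ad u x ∈ 𝔟' ↔ x ∈ 𝔟) {ψ : Tn 9 d → F}
    (hψ : MemLp (fun x : sub 9 𝔟 => ψ x) 2 volume) :
    MemLp (fun x : sub 9 𝔟' => c.actF u ψ x) 2 volume := by
  obtain ⟨e, he, hm⟩ := measurePreserving_isometry (fun y _ => c.norm_Ad9 u⁻¹ y)
    (map_Ad9_inv c h)
  have h1 := (c.U u).comp_memLp' (hψ.comp_measurePreserving hm)
  have h2 : (fun x : sub 9 𝔟' => c.actF u ψ x) =
      (c.U u) ∘ ((fun x : sub 9 𝔟 => ψ x) ∘ e) := by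
    funext x
    simp only [Ctx.actF, Function.comp, he]
  rw [h2]
  exact h1

theorem L2_actF_congr {u : UN N} (h : ∀ x, c.Ad u x ∈ 𝔟' ↔ x ∈ 𝔟) {φ ψ : Tn 9 d → F}
    (H : ∀ᵐ x : sub 9 𝔟, φ x = ψ x) :
    L2 (sub 9 𝔟') (c.actF u φ) = L2 (sub 9 𝔟') (c.actF u ψ) := by
  obtain ⟨e, he, hm⟩ := measurePreserving_isometry (fun y _ => c.norm_Ad9 u⁻¹ y)
    (map_Ad9_inv c h)
  refine L2_congr ?_
  filter_upwards [hm.quasiMeasurePreserving.ae H] with x hx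
  simp only [Ctx.actF, ← he, hx]

theorem actF_sub (u : UN N) (φ ψ : Tn 9 d → F) :
    c.actF u (φ - ψ) = c.actF u φ - c.actF u ψ := by
  funext x
  simp [Ctx.actF]

theorem actF_smul (u : UN N) (z : ℂ) (ψ : Tn 9 d → F) : c.actF u (z • ψ) = z • c.actF u ψ := by
  funext x
  simp [Ctx.actF]

theorem actF_actF (u u' : UN N) (ψ : Tn 9 d → F) :
    c.actF u' (c.actF u ψ) = c.actF (u' * u) ψ := by
  funext x
  simp only [Ctx.actF, _root_.mul_inv_rev, c.Ad9_mul, map_mul, mul_apply_eq_comp]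

theorem actF_one (ψ : Tn 9 d → F) : c.actF 1 ψ = ψ := by
  funext x
  simp [Ctx.actF, c.Ad9_one]

theorem CS_sup (h : c.Th π 𝔞) : c.CS 𝔞 π ⊔ sub 9 (c.ss π) = sub 9 𝔞 := by
  rw [Ctx.CS, ← sub_sup, h.cen_sup_ss c le_rfl, inf_eq_left.2 h.2]

theorem CS_ortho (𝔞 : Submodule ℝ (Lg d)) (π : Setoid (Fin N)) : c.CS 𝔞 π ⟂ sub 9 (c.ss π) :=
  sub_isOrtho ((c.ss_isOrtho_cen π).symm.mono_left inf_le_right)

theorem fderiv_beta0 (g : ℝ) (e : Fin 16 → ℝ) (x y : Tn 9 d) : fderiv ℝ (c.beta g 0 e) x y =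
    g • ∑ i, ∑ j, tens (gamma2 c.γ j i *ᵥ e) (c.ad (cmp i y) (cmp j x)) := by
  have h1 : c.beta g 0 e = g • c.Phi e := by
    funext z
    simp [Ctx.beta]
  rw [h1, fderiv_const_smul ((c.contDiff_Phi e).differentiable (by simp) x), ← c.fderiv_Phi]
  rfl

theorem bil_slice (h : c.Th π 𝔞) (g : ℝ) {x y : Tn 9 d} (hx : x ∈ sub 9 (c.ss π))
    (hy : y ∈ c.CS 𝔞 π) :
    bil c.θ (sub 9 𝔞) (fun α => c.sE (eb α)) (fun α => c.beta g 0 (eb α)) (y + x) =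
      bil c.θ (sub 9 (c.ss π)) (fun α => c.sE (eb α)) (fun α => c.beta g 0 (eb α)) x := by
  have hyc : ∀ i, cmp i y ∈ c.cen π := fun i => (mem_sub.1 hy i).2
  have hb : ∀ i, cmp i (y + x) ∈ c.blk π := fun i => by
    rw [map_add]
    exact Submodule.add_mem _ (c.cen_le_blk π (hyc i)) (mem_sub.1 hx i).1
  unfold bil
  refine Finset.sum_congr rfl fun α _ => ?_
  obtain ⟨f, hf⟩ := exists_bil2 c.θ (-I) (c.sE (eb α)) (fderiv ℝ (c.beta g 0 (eb α)) (y + x))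
  have h1 := sum_onb_sup f (CS_ortho c 𝔞 π) (CS_sup c h)
  simp only [hf] at h1
  rw [h1]
  have h2 : ∀ k, fderiv ℝ (c.beta g 0 (eb α)) (y + x) (onb (c.CS 𝔞 π) k) = 0 := fun k => by
    have : ∀ i j, c.ad (cmp i (onb (c.CS 𝔞 π) k)) (cmp j (y + x)) = 0 := fun i j =>
      (c.mem_cen_iff _).1 (mem_sub.1 (onb_mem (c.CS 𝔞 π) k) i).2 _ (hb j)
    simp only [fderiv_beta0, this, map_zero, Finset.sum_const_zero, smul_zero]
  have h3 : ∀ k, fderiv ℝ (c.beta g 0 (eb α)) (y + x) (onb (sub 9 (c.ss π)) k) =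
      fderiv ℝ (c.beta g 0 (eb α)) x (onb (sub 9 (c.ss π)) k) := fun k => by
    have : ∀ i j, c.ad (cmp i (onb (sub 9 (c.ss π)) k)) (cmp j y) = 0 := fun i j => by
      rw [c.ad_anti, (c.mem_cen_iff _).1 (hyc j) _ (mem_sub.1 (onb_mem (sub 9 (c.ss π)) k) i).1,
        neg_zero]
    simp only [fderiv_beta0, map_add, this, zero_add]
  simp only [h2, h3, map_zero, mul_zero, smul_zero, Finset.sum_const_zero, zero_add]

end Cov4Aux

open Cov4Aux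

namespace Ctx

variable {N d : ℕ} {F : Type} [NormedAddCommGroup F] [InnerProductSpace ℂ F]
  [FiniteDimensional ℂ F] (c : Ctx N d F)

variable {π π' π'' : Setoid (Fin N)} {𝔞 𝔴 : Submodule ℝ (Lg d)}

theorem mem_V_iff {β : LL (sub 9 (c.ss π)) F} :
    β ∈ c.V π 1 0 ↔ β ∈ c.B π ∧ opL _ (c.P0 (c.ss π)ᗮ) β = β := by
  refine mem_Ker_insert (fun α => c.contDiff_beta 1 0 (eb α)) (vac_idem _) ?_ ?_
  · rintro _ ⟨u, hu, rfl⟩
    exact P0_U c hu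
  · intro α x hx
    exact ⟨P0_th c (c.sE_mem _ hx), P0_th c (beta_mem c _ _ _ hx)⟩

theorem P0_mem_V {β : LL (sub 9 (c.ss π)) F} (h : β ∈ c.B π) :
    opL _ (c.P0 (c.ss π)ᗮ) β ∈ c.V π 1 0 := by
  refine c.mem_V_iff.2 ⟨?_, ?_⟩
  · refine opL_mem_Ker (σ := 1) (fun α => c.contDiff_beta 1 0 (eb α)) (Or.inl rfl) ?_ ?_ h
    · rintro _ ⟨u, hu, rfl⟩
      exact P0_U c hu
    · intro α x hx
      rw [one_smul, one_smul]
      exact ⟨P0_th c (c.sE_mem _ hx), P0_th c (beta_mem c _ _ _ hx)⟩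
  · rw [← mul_apply_eq_comp, ← opL_mul]
    unfold Ctx.P0
    rw [vac_idem]

/-- invariant operators that commute or anticommute with the fermions of `ss π` act on `B π` -/
theorem opL_mem_B {a : F →L[ℂ] F} {σ : ℂ} (hσ : σ = 1 ∨ σ = -1)
    (hU : ∀ u ∈ Grp π, a * c.U u = c.U u * a)
    (hθ : ∀ y ∈ sub 16 (c.ss π), a * c.θ y = σ • (c.θ y * a)) {β : LL (sub 9 (c.ss π)) F}
    (h : β ∈ c.B π) : opL _ a β ∈ c.B π := by
  refine opL_mem_Ker (fun α => c.contDiff_beta 1 0 (eb α)) hσ ?_ ?_ h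
  · rintro _ ⟨u, hu, rfl⟩
    exact hU u hu
  · intro α x hx
    exact ⟨hθ _ (c.sE_mem _ hx), hθ _ (beta_mem c _ _ _ hx)⟩

theorem theta_cen_mem_B {y : Tn 16 d} (hy : y ∈ sub 16 (c.cen π)) {β : LL (sub 9 (c.ss π)) F}
    (h : β ∈ c.B π) : opL _ (c.θ y) β ∈ c.B π := by
  refine c.opL_mem_B (σ := -1) (Or.inr rfl) (fun u hu => ?_) (fun z hz => ?_) h
  · rw [c.Uθ]
    exact congrArg (fun t => c.θ t * c.U u) (kr_cen c hu hy).symm
  · rw [neg_one_smul]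
    exact c.car.anti_of_orth
      ((sub_isOrtho (n := 16) (c.ss_isOrtho_cen π).symm).inner_eq hy hz)

theorem actF_mem_D {w : Equiv.Perm (Fin N)} (h : Maps π π' π'' w) {ψ : Tn 9 d → F}
    (hψ : ψ ∈ c.D π' (c.ss π')) : c.actF (permU w) ψ ∈ c.D π'' (c.ss π'') := by
  have hp := c.perm_mem_ss h
  obtain ⟨hs, hi⟩ := c.mem_D.1 hψ
  obtain ⟨R, hR⟩ := hs.exists_bound
  refine c.mem_D.2 ⟨sm_of_bound (contDiff_actF c _ hs.1) (R := R) fun x hx hxR => ?_,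
    fun v hv x hx => ?_⟩
  · rw [Ctx.actF, hR _ (inv_mem c hp hx) (by rw [c.norm_Ad9]; exact hxR), map_zero]
  · have hv' : (permU w)⁻¹ * v * permU w ∈ Grp π' := by
      have := conj_mem_Grp h.symm hv
      rwa [permU_inv, inv_inv] at this
    have h1 : c.Ad9 (permU w)⁻¹ (c.Ad9 v x) =
        c.Ad9 ((permU w)⁻¹ * v * permU w) (c.Ad9 (permU w)⁻¹ x) := by
      rw [c.Ad9_mul, c.Ad9_mul, mul_apply_eq_comp, mul_apply_eq_comp,
        c.Ad9_apply_inv]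
    rw [Ctx.actF, Ctx.actF, h1, hi _ hv' _ (inv_mem c hp hx), ← mul_apply_eq_comp,
      ← map_mul, ← mul_assoc, ← mul_assoc, mul_inv_cancel, one_mul, map_mul,
      mul_apply_eq_comp]

theorem actF_mem_D0 {w : Equiv.Perm (Fin N)} (h : Maps π π' π'' w) {ψ : Tn 9 d → F}
    (hψ : ψ ∈ c.D0 π') : c.actF (permU w) ψ ∈ c.D0 π'' := by
  have hp := c.perm_mem_ss h
  obtain ⟨h1, h2⟩ := c.mem_D0.1 hψ
  refine c.mem_D0.2 ⟨c.actF_mem_D h h1, fun x hx => ?_⟩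
  rw [Ctx.actF, ← mul_apply_eq_comp, ← c.U_P0 (orth_iff c hp),
    mul_apply_eq_comp, h2 _ (inv_mem c hp hx)]

theorem nrm_actF {w : Equiv.Perm (Fin N)} (h : Maps π π' π'' w) (ψ : Tn 9 d → F) :
    nrm (sub 9 (c.ss π'')) (c.actF (permU w) ψ) = nrm (sub 9 (c.ss π')) ψ :=
  nrm_actF' c (c.perm_mem_ss h) ψ

theorem En_actF {w : Equiv.Perm (Fin N)} (h : Maps π π' π'' w) (g m : ℝ) {ψ : Tn 9 d → F}
    (hψ : Differentiable ℝ ψ) :
    c.En (c.ss π'') g m (c.actF (permU w) ψ) = c.En (c.ss π') g m ψ := by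
  unfold Ctx.En en
  refine Finset.sum_congr rfl fun α _ => ?_
  rw [dop_actF c (c.perm_mem_ss h) g m _ hψ, c.nrm_actF h]

theorem act_L2 {w : Equiv.Perm (Fin N)} (h : Maps π π' π'' w) {ψ : Tn 9 d → F}
    (hψ : MemLp (fun x : sub 9 (c.ss π') => ψ x) 2 volume) :
    c.act (permU w) π' π'' (L2 _ ψ) = L2 _ (c.actF (permU w) ψ) := by
  refine L2_actF_congr c (c.perm_mem_ss h) ?_
  filter_upwards [coe_L2 hψ] with x hx
  rw [rep_coe, hx]

theorem act_sub {w : Equiv.Perm (Fin N)} (h : Maps π π' π'' w) (β β' : LL (sub 9 (c.ss π')) F) :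
    c.act (permU w) π' π'' (β - β') = c.act (permU w) π' π'' β - c.act (permU w) π' π'' β' := by
  have hp := c.perm_mem_ss h
  have h1 : β - β' = L2 _ (rep _ β - rep _ β') := by
    rw [L2_sub (memLp_rep β) (memLp_rep β'), L2_rep, L2_rep]
  rw [h1, c.act_L2 h (ψ := rep _ β - rep _ β') ((memLp_rep β).sub (memLp_rep β')), actF_sub,
    L2_sub (memLp_actF c hp (memLp_rep β)) (memLp_actF c hp (memLp_rep β'))]
  rfl

theorem act_smul {w : Equiv.Perm (Fin N)} (h : Maps π π' π'' w) (z : ℂ)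
    (β : LL (sub 9 (c.ss π')) F) :
    c.act (permU w) π' π'' (z • β) = z • c.act (permU w) π' π'' β := by
  have h1 : z • β = L2 _ (z • rep _ β) := by rw [L2_smul, L2_rep]
  rw [h1, c.act_L2 h (ψ := z • rep _ β) ((memLp_rep β).const_smul z), actF_smul, L2_smul]
  rfl

theorem norm_act {w : Equiv.Perm (Fin N)} (h : Maps π π' π'' w) (β : LL (sub 9 (c.ss π')) F) :
    ‖c.act (permU w) π' π'' β‖ = ‖β‖ := by
  have h1 : ‖c.act (permU w) π' π'' β‖ ^ 2 = ‖β‖ ^ 2 := by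
    rw [Ctx.act, norm_L2_sq (memLp_actF c (c.perm_mem_ss h) (memLp_rep β)), c.nrm_actF h,
      ← norm_L2_sq (memLp_rep β), L2_rep]
  exact (pow_left_inj₀ (norm_nonneg _) (norm_nonneg _) two_ne_zero).1 h1

theorem act_act {π₁ π₂ π₃ : Setoid (Fin N)} {w w' : Equiv.Perm (Fin N)} (h : Maps π π₁ π₂ w)
    (h' : Maps π π₂ π₃ w') (β : LL (sub 9 (c.ss π₁)) F) :
    c.act (permU w') π₂ π₃ (c.act (permU w) π₁ π₂ β) = c.act (permU (w' * w)) π₁ π₃ β := by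
  rw [show c.act (permU w) π₁ π₂ β = L2 _ (c.actF (permU w) (rep _ β)) from rfl,
    c.act_L2 h' (memLp_actF c (c.perm_mem_ss h) (memLp_rep β)), actF_actF, permU_mul]
  rfl

theorem act_one (β : LL (sub 9 (c.ss π')) F) : c.act (permU 1) π' π' β = β := by
  rw [Ctx.act, permU_one, actF_one, L2_rep]

theorem act_mem_B {w : Equiv.Perm (Fin N)} (h : Maps π π' π'' w) {β : LL (sub 9 (c.ss π')) F}
    (hβ : β ∈ c.B π') : c.act (permU w) π' π'' β ∈ c.B π'' := by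
  have hb := (mem_Ker_iff (fun α => c.contDiff_beta 1 0 (eb α))).1 hβ
  refine (mem_Ker_iff (fun α => c.contDiff_beta 1 0 (eb α))).2 fun ε hε => ?_
  obtain ⟨φ, hφ, h1, h2⟩ := hb ε hε
  refine ⟨_, c.actF_mem_D h hφ, ?_, ?_⟩
  · rw [← c.act_L2 h hφ.1.memLp, ← c.act_sub h, c.norm_act h]
    exact h1
  · exact (c.En_actF h 1 0 (hφ.1.1.differentiable (by simp))).trans_le h2

theorem act_mem_V {w : Equiv.Perm (Fin N)} (h : Maps π π' π'' w) {β : LL (sub 9 (c.ss π')) F}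
    (hβ : β ∈ c.V π' 1 0) : c.act (permU w) π' π'' β ∈ c.V π'' 1 0 := by
  have hb := (mem_Ker_iff (fun α => c.contDiff_beta 1 0 (eb α))).1 hβ
  refine (mem_Ker_iff (fun α => c.contDiff_beta 1 0 (eb α))).2 fun ε hε => ?_
  obtain ⟨φ, hφ, h1, h2⟩ := hb ε hε
  refine ⟨_, c.actF_mem_D0 h hφ, ?_, ?_⟩
  · rw [← c.act_L2 h hφ.1.memLp, ← c.act_sub h, c.norm_act h]
    exact h1
  · exact (c.En_actF h 1 0 (hφ.1.1.differentiable (by simp))).trans_le h2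

theorem act_of_mem_Grp {w : Equiv.Perm (Fin N)} (h : ∀ a, π' (w a) a) {β : LL (sub 9 (c.ss π')) F}
    (hβ : β ∈ c.B π') : c.act (permU w) π' π' β = β := by
  have hm : Maps π' π' π' w := ⟨h, fun a b =>
    ⟨fun H => π'.trans' (π'.symm' (h a)) (π'.trans' H (h b)),
      fun H => π'.trans' (h a) (π'.trans' H (π'.symm' (h b)))⟩⟩
  have hb := (mem_Ker_iff (fun α => c.contDiff_beta 1 0 (eb α))).1 hβ
  have key : ∀ ε > 0, ‖c.act (permU w) π' π' β - β‖ ≤ 0 + ε := fun ε hε => by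
    obtain ⟨φ, hφ, h1, -⟩ := hb (ε / 2) (half_pos hε)
    have h2 : c.act (permU w) π' π' (L2 _ φ) = L2 _ φ := by
      rw [c.act_L2 hm hφ.1.memLp]
      refine L2_congr (Eventually.of_forall fun x => ?_)
      rw [Ctx.actF, ← (c.mem_D.1 hφ).2 _ (permU_mem_Grp h) _
        (inv_mem c (c.perm_mem_ss hm) x.2), c.Ad9_apply_inv]
    have h3 : c.act (permU w) π' π' β - β =
        (L2 _ φ - β) - c.act (permU w) π' π' (L2 _ φ - β) := by
      rw [c.act_sub hm, h2]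
      abel
    rw [h3]
    refine (norm_sub_le _ _).trans ?_
    rw [c.norm_act hm]
    linarith
  exact sub_eq_zero.1 (norm_le_zero_iff.1 (le_of_forall_pos_le_add key))

/-- splitting of the massless energy into the centre of mass and the relative part -/
theorem En_split (h : c.Th π 𝔞) (g : ℝ) {ψ : Tn 9 d → F} (hψ : Sm (sub 9 𝔞) ψ) :
    (Integrable fun y : c.CS 𝔞 π => c.En (c.ss π) g 0 fun x => ψ (y + x)) ∧
    c.En 𝔞 g 0 ψ = (∫ y : c.CS 𝔞 π, c.En (c.ss π) g 0 fun x => ψ (y + x)) +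
      8 * ∫ x : sub 9 𝔞, gsq (c.CS 𝔞 π) ψ x := by
  have hβ := fun α => c.contDiff_beta g 0 (eb α)
  have hC : c.CS 𝔞 π ≤ sub 9 𝔞 := sub_mono inf_le_left
  have hW : sub 9 (c.ss π) ≤ sub 9 𝔞 := sub_mono h.1
  obtain ⟨hi, he⟩ := energy' c.car hβ (c.iso (sub 9 𝔞) g 0) hψ
  have hg : Integrable fun x : sub 9 𝔞 => 8 * gsq (c.CS 𝔞 π) ψ x :=
    (integrable_gsq hC hψ).const_mul 8
  set f : Tn 9 d → ℝ := fun x => dens c.θ (sub 9 𝔞) (fun α => c.sE (eb α))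
    (fun α => c.beta g 0 (eb α)) ψ x - 8 * gsq (c.CS 𝔞 π) ψ x with hf
  have hfi : Integrable fun x : sub 9 𝔞 => f x := hi.sub hg
  have hs : (fun y : c.CS 𝔞 π => c.En (c.ss π) g 0 fun x => ψ (y + x)) =
      fun y : c.CS 𝔞 π => ∫ x : sub 9 (c.ss π), f (y + x) := by
    funext y
    have hsm : Sm (sub 9 (c.ss π)) fun x => ψ (y + x) :=
      ⟨hψ.1.comp (contDiff_const.add contDiff_id), hasCompactSupport_slice hW hψ.2 (hC y.2)⟩
    rw [Ctx.En, (energy' c.car hβ (c.iso _ g 0) hsm).2]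
    refine integral_congr_ae (Eventually.of_forall fun x => ?_)
    have h1 : gsq (sub 9 (c.ss π)) (fun z => ψ (y + z)) x = gsq (sub 9 (c.ss π)) ψ (y + x) := by
      simp only [gsq, fderiv_comp_add_left]
    have h2 : ∀ α, c.beta g 0 (eb α) (y + x) = c.beta g 0 (eb α) x := fun α => by
      simp only [Ctx.beta, zero_smul,
        c.Phi_add_cen (eb α) (sub_mono inf_le_left x.2) (sub_mono inf_le_right y.2)]
    simp only [hf, dens, h1, h2, bil_slice c h g x.2 y.2,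
      gsq_sup ψ _ (CS_ortho c 𝔞 π) (CS_sup c h)]
    ring
  rw [hs]
  refine ⟨integrable_integral_sup (CS_ortho c 𝔞 π) (CS_sup c h) hfi, ?_⟩
  rw [← integral_sup (CS_ortho c 𝔞 π) (CS_sup c h) hfi, Ctx.En, he, hf]
  simp only []
  rw [integral_sub hi hg, integral_const_mul]
  ring

theorem slice_mem_D (h : c.Th π 𝔞) {ψ : Tn 9 d → F} (hψ : ψ ∈ c.D π 𝔞) {y : Tn 9 d}
    (hy : y ∈ c.CS 𝔞 π) : (fun x => ψ (y + x)) ∈ c.D π (c.ss π) := by
  obtain ⟨hs, hi⟩ := c.mem_D.1 hψ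
  have hy' : y ∈ sub 9 𝔞 := sub_mono inf_le_left hy
  refine c.mem_D.2 ⟨⟨hs.1.comp (contDiff_const.add contDiff_id),
    hasCompactSupport_slice (sub_mono h.1) hs.2 hy'⟩, fun u hu x hx => ?_⟩
  have h1 : c.Ad9 u y = y := kr_cen c hu (sub_mono inf_le_right hy)
  have h2 := hi u hu (y + x) (Submodule.add_mem _ hy' (sub_mono h.1 hx))
  rw [map_add, h1] at h2
  exact h2

end Ctx

end Vale.Agent.P353
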