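import Vale.Agent.P353.Gen

/-! The BFSS / BMN setting: Lie algebra coordinates, tensors, partitions, theories. -/

noncomputable section

open MeasureTheory Filter Topology Complex Matrix
open scoped ContDiff RealInnerProductSpace

namespace Vale.Agent.P353

/-- coordinates of traceless Hermitian matrices -/
abbrev Lg (d : ℕ) : Type := EuclideanSpace ℝ (Fin d)

/-- `ℝ^n ⊗ 𝔤` -/
abbrev Tn (n d : ℕ) : Type := EuclideanSpace ℝ (Fin n × Fin d)

/-- unitary group -/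
abbrev UN (N : ℕ) : Type := Matrix.unitaryGroup (Fin N) ℂ

/-- real `16 × 16` matrices -/
abbrev M16 : Type := Matrix (Fin 16) (Fin 16) ℝ

section Tensor

variable {n n' d : ℕ}

/-- the `i`-th component of a tensor -/
def cmp (i : Fin n) : Tn n d →L[ℝ] Lg d :=
  LinearMap.toContinuousLinearMap
    { toFun := fun x => WithLp.toLp 2 fun A => x (i, A)
      map_add' := fun _ _ => rfl
      map_smul' := fun _ _ => rfl }

/-- `y ↦ a ⊗ y` -/
def tens (a : Fin n → ℝ) : Lg d →L[ℝ] Tn n d :=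
  LinearMap.toContinuousLinearMap
    { toFun := fun y => WithLp.toLp 2 fun p => a p.1 * y p.2
      map_add' := fun _ _ => by ext p; simp [mul_add]
      map_smul' := fun c y => by ext p; simp [mul_left_comm] }

/-- Kronecker product `M ⊗ a` -/
def kr (M : Matrix (Fin n') (Fin n) ℝ) (a : Lg d →L[ℝ] Lg d) : Tn n d →L[ℝ] Tn n' d :=
  ∑ i, tens (fun i' => M i' i) ∘L a ∘L cmp i

/-- contraction `x ↦ ∑ v i • x i` -/
def cv (v : Fin n → ℝ) : Tn n d →L[ℝ] Lg d := ∑ i, v i • cmp i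

/-- `ℝ^n ⊗ 𝔞` -/
def sub (n : ℕ) (𝔞 : Submodule ℝ (Lg d)) : Submodule ℝ (Tn n d) :=
  ⨅ i, 𝔞.comap (cmp i : Tn n d →L[ℝ] Lg d).toLinearMap

end Tensor

section Mat

variable {N d : ℕ} (T : Fin d → Matrix (Fin N) (Fin N) ℂ)

/-- the matrix with coordinates `x` -/
def matT : Lg d →ₗ[ℝ] Matrix (Fin N) (Fin N) ℂ where
  toFun x := ∑ A, x A • T A
  map_add' x y := by simp [add_smul, Finset.sum_add_distrib]
  map_smul' c x := by simp [Finset.smul_sum, smul_smul]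

/-- the coordinates of a matrix -/
def coT : Matrix (Fin N) (Fin N) ℂ →ₗ[ℝ] Lg d where
  toFun M := WithLp.toLp 2 fun A => (Matrix.trace (T A * M)).re
  map_add' x y := by ext A; simp [Matrix.mul_add]
  map_smul' c x := by ext A; simp

/-- `ad x y = -i [x, y]` -/
def adT (x : Lg d) : Lg d →L[ℝ] Lg d :=
  LinearMap.toContinuousLinearMap
    { toFun := fun y => coT T ((-I) • (matT T x * matT T y - matT T y * matT T x))
      map_add' := fun y z => by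
        rw [← map_add, ← smul_add, map_add]; congr 2; noncomm_ring
      map_smul' := fun c y => by
        rw [RingHom.id_apply, ← (coT T).map_smul, (matT T).map_smul, smul_comm c (-I),
          smul_sub c, Matrix.mul_smul, Matrix.smul_mul] }

/-- `Ad u y = u y u⋆` -/
def AdT (u : UN N) : Lg d →L[ℝ] Lg d :=
  LinearMap.toContinuousLinearMap
    { toFun := fun y => coT T ((u : Matrix (Fin N) (Fin N) ℂ) * matT T y *
        star (u : Matrix (Fin N) (Fin N) ℂ))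
      map_add' := fun y z => by rw [← map_add, map_add, Matrix.mul_add, Matrix.add_mul]
      map_smul' := fun c y => by
        rw [RingHom.id_apply, ← map_smul, map_smul, Matrix.mul_smul, Matrix.smul_mul] }

end Mat

/-- real symmetric gamma matrices -/
structure IsGam (γ : Fin 9 → M16) : Prop where
  symm : ∀ i, (γ i)ᵀ = γ i
  sq : ∀ i, γ i * γ i = 1
  anti : ∀ i j, i ≠ j → γ i * γ j = -(γ j * γ i)

/-- `Γ = γ⁰ γ¹ γ²` -/
def Gm (γ : Fin 9 → M16) : M16 := γ 0 * γ 1 * γ 2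

/-- BMN mass coefficients -/
def kk (i : Fin 9) : ℝ := if i.val < 3 then -2 else 1

/-- spinor basis -/
def eb (α : Fin 16) : Fin 16 → ℝ := Pi.single α 1

/-- the rotation in the anticommutator of two supercharges -/
def rho (γ : Fin 9 → M16) (e e' : Fin 16 → ℝ) : Matrix (Fin 9) (Fin 9) ℝ := fun k i =>
  kk i * ((γ k *ᵥ e) ⬝ᵥ ((γ i * Gm γ) *ᵥ e') + (γ k *ᵥ e') ⬝ᵥ ((γ i * Gm γ) *ᵥ e))

/-- spinor representation of a rotation -/
def hat (γ : Fin 9 → M16) (ρ : Matrix (Fin 9) (Fin 9) ℝ) : M16 :=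
  ∑ k, ∑ i, (ρ k i / 4) • (γ k * γ i)

/-- rotations in `so(3) ⊕ so(6)` -/
def IsRot (ρ : Matrix (Fin 9) (Fin 9) ℝ) : Prop := ρᵀ = -ρ ∧ ∀ k i, kk k ≠ kk i → ρ k i = 0

/-- all the data of the model -/
structure Ctx (N d : ℕ) (F : Type) [NormedAddCommGroup F] [InnerProductSpace ℂ F]
    [FiniteDimensional ℂ F] where
  T : Fin d → Matrix (Fin N) (Fin N) ℂ
  γ : Fin 9 → M16
  θ : Tn 16 d →L[ℝ] F →L[ℂ] F
  U : UN N →* (F →L[ℂ] F)
  herm : ∀ A, (T A).IsHermitian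
  trace0 : ∀ A, (T A).trace = 0
  orth : ∀ A B, (T A * T B).trace = if A = B then 1 else 0
  span : ∀ M : Matrix (Fin N) (Fin N) ℂ, M.IsHermitian → M.trace = 0 → matT T (coT T M) = M
  gam : IsGam γ
  car : IsCAR θ
  irr : Irred θ
  ntriv : Nontrivial F
  Uiso : ∀ u a, ‖U u a‖ = ‖a‖
  Uθ : ∀ u y, U u * θ y = θ (kr 1 (AdT T u) y) * U u
  Uexp : ∀ (y : Lg d) (t : ℝ) (u : UN N),
    (u : Matrix (Fin N) (Fin N) ℂ) = NormedSpace.exp ((-I) • (matT T y + (t : ℂ) • 1)) →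
      U u = NormedSpace.exp (dG θ (kr 1 (adT T y)))

section Real

variable {E : Type} [NormedAddCommGroup E] [InnerProductSpace ℝ E] [FiniteDimensional ℝ E]
  [MeasurableSpace E] [BorelSpace E]

/-- smooth real functions whose restriction to `C` is supported in a compact subset of `Z` -/
def SmR (C : Submodule ℝ E) (η : E → ℝ) (Z : Set E) : Prop :=
  ContDiff ℝ ∞ η ∧ ∃ K : Set E, IsCompact K ∧ K ⊆ Z ∧ K ⊆ C ∧ ∀ x ∈ C, x ∉ K → η x = 0

/-- Laplacian along `C` -/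
def lap (C : Submodule ℝ E) (η : E → ℝ) (x : E) : ℝ :=
  ∑ k, fderiv ℝ (fun y => fderiv ℝ η y (onb C k)) x (onb C k)

/-- the weight `r² / (1 + r²)²` -/
def wt (x : E) : ℝ := ‖x‖ ^ 2 / (1 + ‖x‖ ^ 2) ^ 2

/-- mass in a region -/
def mass {F : Type} [NormedAddCommGroup F] (U : Submodule ℝ E) (O : Set E) (ψ : E → F) : ℝ :=
  ∫ x in {x : U | (x : E) ∈ O}, ‖ψ x‖ ^ 2

/-- a function representing a class in `L²(U)` -/
def rep {F : Type} [NormedAddCommGroup F] (U : Submodule ℝ E) (u : LL U F) (x : E) : F :=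
  u (U.orthogonalProjectionOnto x)

/-- functionals that are linear on a subspace of functions -/
def LinOn {F : Type} [NormedAddCommGroup F] [InnerProductSpace ℂ F] (D : Submodule ℂ (E → F))
    (L : (E → F) → ℂ) : Prop :=
  ∀ φ ∈ D, ∀ ψ ∈ D, ∀ z : ℂ, L (φ + z • ψ) = L φ + z * L ψ

end Real

/-- block diagonal unitary matrices -/
def Grp {N : ℕ} (π : Setoid (Fin N)) : Set (UN N) :=
  {u | ∀ a b, ¬ π a b → (u : Matrix (Fin N) (Fin N) ℂ) a b = 0}

/-- the permutation matrix with `perm w * E a b * (perm w)⁻¹ = E (w a) (w b)` -/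
def permU {N : ℕ} (w : Equiv.Perm (Fin N)) : UN N :=
  ⟨(w⁻¹).permMatrix ℂ, by
    rw [Matrix.mem_unitaryGroup_iff, Matrix.star_eq_conjTranspose,
      Matrix.conjTranspose_permMatrix, ← Matrix.permMatrix_mul]
    simp⟩

/-- `w` preserves the blocks of `π` and maps the blocks of `π'` to those of `π''` -/
def Maps {N : ℕ} (π π' π'' : Setoid (Fin N)) (w : Equiv.Perm (Fin N)) : Prop :=
  (∀ a, π (w a) a) ∧ ∀ a b, π'' (w a) (w b) ↔ π' a b

/-- representatives of the refinements of `π` up to permutations preserving the blocks of `π` -/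
def IsRep {N : ℕ} (π : Setoid (Fin N)) (R : Finset (Setoid (Fin N))) : Prop :=
  (∀ π' ∈ R, π' ≤ π) ∧ (∀ π' ≤ π, ∃ π'' ∈ R, ∃ w, Maps π π'' π' w) ∧
    ∀ π' ∈ R, ∀ π'' ∈ R, ∀ w, Maps π π' π'' w → π' = π''

namespace Ctx

variable {N d : ℕ} {F : Type} [NormedAddCommGroup F] [InnerProductSpace ℂ F]
  [FiniteDimensional ℂ F] (c : Ctx N d F)

/-- matrix of a coordinate vector -/
abbrev mat : Lg d →ₗ[ℝ] Matrix (Fin N) (Fin N) ℂ := matT c.T

/-- coordinates of a matrix -/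
abbrev co : Matrix (Fin N) (Fin N) ℂ →ₗ[ℝ] Lg d := coT c.T

/-- `c.ad x y` is the bracket `-i [x, y]` -/
abbrev ad (x : Lg d) : Lg d →L[ℝ] Lg d := adT c.T x

/-- adjoint action -/
abbrev Ad (u : UN N) : Lg d →L[ℝ] Lg d := AdT c.T u

/-- adjoint action on the bosons -/
def Ad9 (u : UN N) : Tn 9 d →L[ℝ] Tn 9 d := kr 1 (c.Ad u)

/-- gauge vector field `x ↦ (br ξ (x i))_i` -/
def vf (ξ : Lg d) : Tn 9 d →L[ℝ] Tn 9 d := kr 1 (c.ad ξ)

/-- gauge generator on the fermions -/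
def Gs (ξ : Lg d) : F →L[ℂ] F := dG c.θ (kr 1 (c.ad ξ))

/-- symbol of `Q(e)` -/
def sE (e : Fin 16 → ℝ) : Tn 9 d →L[ℝ] Tn 16 d := ∑ i, tens (c.γ i *ᵥ e) ∘L cmp i

/-- commutator term of `Q(e)` -/
def Phi (e : Fin 16 → ℝ) (x : Tn 9 d) : Tn 16 d :=
  (1 / 2 : ℝ) • ∑ i, ∑ j, tens (gamma2 c.γ j i *ᵥ e) (c.ad (cmp i x) (cmp j x))

/-- mass term of `Q(e)` -/
def Km (e : Fin 16 → ℝ) : Tn 9 d →L[ℝ] Tn 16 d :=
  ∑ i, kk i • tens ((c.γ i * Gm c.γ) *ᵥ e) ∘L cmp i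

/-- zero order term of `Q(e)` -/
def beta (g m : ℝ) (e : Fin 16 → ℝ) (x : Tn 9 d) : Tn 16 d := g • c.Phi e x + m • c.Km e x

/-- squared curvature -/
def Fsq (x : Tn 9 d) : ℝ := ∑ i, ∑ j, ‖c.ad (cmp i x) (cmp j x)‖ ^ 2

/-- `32` times the potential -/
def Pot (g m : ℝ) (x : Tn 9 d) : ℝ := ∑ α, ‖c.beta g m (eb α) x‖ ^ 2

/-- block diagonal elements -/
def blk (π : Setoid (Fin N)) : Submodule ℝ (Lg d) where
  carrier := {x | ∀ a b, ¬ π a b → c.mat x a b = 0}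
  add_mem' := fun hx hy a b h => by simp [hx a b h, hy a b h]
  zero_mem' := fun a b _ => by simp
  smul_mem' := fun t x hx a b h => by simp [hx a b h]

/-- block scalar elements -/
def cen (π : Setoid (Fin N)) : Submodule ℝ (Lg d) where
  carrier := {x | (∀ a b, a ≠ b → c.mat x a b = 0) ∧ ∀ a b, π a b → c.mat x a a = c.mat x b b}
  add_mem' := fun hx hy => ⟨fun a b h => by simp [hx.1 a b h, hy.1 a b h],
    fun a b h => by simp [hx.2 a b h, hy.2 a b h]⟩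
  zero_mem' := ⟨fun a b _ => by simp, fun a b _ => by simp⟩
  smul_mem' := fun t x hx => ⟨fun a b h => by simp [hx.1 a b h],
    fun a b h => by simp [hx.2 a b h]⟩

/-- block diagonal elements with traceless blocks -/
def ss (π : Setoid (Fin N)) : Submodule ℝ (Lg d) := c.blk π ⊓ (c.cen π)ᗮ

/-- elements of `blk π` that are off diagonal for `π'` -/
def off (π π' : Setoid (Fin N)) : Submodule ℝ (Lg d) := c.blk π ⊓ (c.blk π')ᗮ

/-- a theory: bosons in `ℝ⁹ ⊗ 𝔞`, gauge group `Grp π` -/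
def Th (π : Setoid (Fin N)) (𝔞 : Submodule ℝ (Lg d)) : Prop := c.ss π ≤ 𝔞 ∧ 𝔞 ≤ c.blk π

/-- reference vacuum of the fermions in `𝔴` -/
def P0 (𝔴 : Submodule ℝ (Lg d)) : F →L[ℂ] F := vac c.θ (kr (Gm c.γ) 𝔴.starProjection)

/-- gauge invariance -/
def Cinv (π : Setoid (Fin N)) : Set ((Tn 9 d →L[ℝ] Tn 9 d) × (F →L[ℂ] F)) :=
  {p | ∃ u ∈ Grp π, p = (c.Ad9 u, c.U u)}

/-- gauge invariance, and the other fermions in the reference vacuum -/
def C0 (π : Setoid (Fin N)) : Set ((Tn 9 d →L[ℝ] Tn 9 d) × (F →L[ℂ] F)) :=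
  insert (1, c.P0 (c.ss π)ᗮ) (c.Cinv π)

/-- invariant test functions -/
def D (π : Setoid (Fin N)) (𝔞 : Submodule ℝ (Lg d)) : Submodule ℂ (Tn 9 d → F) :=
  Tst (sub 9 𝔞) (c.Cinv π)

/-- test functions of the constrained theory -/
def D0 (π : Setoid (Fin N)) : Submodule ℂ (Tn 9 d → F) := Tst (sub 9 (c.ss π)) (c.C0 π)

/-- the supercharge -/
def Q (𝔞 : Submodule ℝ (Lg d)) (g m : ℝ) (e : Fin 16 → ℝ) (ψ : Tn 9 d → F) : Tn 9 d → F :=
  dop c.θ (sub 9 𝔞) 1 (c.sE e) (c.beta g m e) ψ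

/-- `16` times the energy -/
def En (𝔞 : Submodule ℝ (Lg d)) (g m : ℝ) (ψ : Tn 9 d → F) : ℝ :=
  en c.θ (sub 9 𝔞) 1 (fun α => c.sE (eb α)) (fun α => c.beta g m (eb α)) ψ

/-- the Hamiltonian -/
def Ham (𝔞 : Submodule ℝ (Lg d)) (g m : ℝ) (ψ : Tn 9 d → F) : Tn 9 d → F :=
  (1 / 16 : ℂ) • ∑ α, c.Q 𝔞 g m (eb α) (c.Q 𝔞 g m (eb α) ψ)

/-- rotation generator -/
def Rot (ρ : Matrix (Fin 9) (Fin 9) ℝ) (ψ : Tn 9 d → F) (x : Tn 9 d) : F :=
  fderiv ℝ ψ x (kr ρ 1 x) - dG c.θ (kr (hat c.γ ρ) 1) (ψ x)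

/-- BFSS zero modes of the unconstrained theory -/
def B (π : Setoid (Fin N)) : Submodule ℂ (LL (sub 9 (c.ss π)) F) :=
  Ker c.θ (sub 9 (c.ss π)) (c.Cinv π) 1 (fun α => c.sE (eb α)) (fun α => c.beta 1 0 (eb α))

/-- zero modes of the constrained theory; `V π 1 0` are the BFSS bound states -/
def V (π : Setoid (Fin N)) (g m : ℝ) : Submodule ℂ (LL (sub 9 (c.ss π)) F) :=
  Ker c.θ (sub 9 (c.ss π)) (c.C0 π) 1 (fun α => c.sE (eb α)) (fun α => c.beta g m (eb α))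

/-- fermion parity -/
def Par : F →L[ℂ] F := NormedSpace.exp (dG c.θ (kr (Real.pi • (c.γ 7 * c.γ 8)) 1))

/-- action of a unitary matrix on functions -/
def actF (u : UN N) (ψ : Tn 9 d → F) (x : Tn 9 d) : F := c.U u (ψ (c.Ad9 u⁻¹ x))

/-- action of a unitary matrix on `L²` classes -/
def act (u : UN N) (π' π'' : Setoid (Fin N)) (β : LL (sub 9 (c.ss π')) F) :
    LL (sub 9 (c.ss π'')) F :=
  L2 (sub 9 (c.ss π'')) (c.actF u (rep (sub 9 (c.ss π')) β))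

/-- centre of mass space -/
def CS (𝔞 : Submodule ℝ (Lg d)) (π' : Setoid (Fin N)) : Submodule ℝ (Tn 9 d) :=
  sub 9 (𝔞 ⊓ c.cen π')

/-- the blocks of `π'` inside a block of `π` are separated -/
def Gen (π π' : Setoid (Fin N)) : Set (Tn 9 d) :=
  {x | ∀ a b, π a b → ¬ π' a b → ∃ i, c.mat (cmp i x) a a ≠ c.mat (cmp i x) b b}

/-- the blocks are separated by one of the last six coordinates -/
def Good (π π' : Setoid (Fin N)) : Set (Tn 9 d) :=
  {x | ∀ a b, π a b → ¬ π' a b → ∃ i : Fin 9, 3 ≤ i.val ∧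
    c.mat (cmp i x) a a ≠ c.mat (cmp i x) b b}

/-- classical BMN vacua -/
def IsVac (x : Tn 9 d) : Prop :=
  (∀ i : Fin 9, 3 ≤ i.val → cmp i x = 0) ∧ c.ad (cmp 0 x) (cmp 1 x) = (-2 : ℝ) • cmp 2 x ∧
    c.ad (cmp 1 x) (cmp 2 x) = (-2 : ℝ) • cmp 0 x ∧ c.ad (cmp 2 x) (cmp 0 x) = (-2 : ℝ) • cmp 1 x

/-- functions invariant under the gauge group -/
def InvR (π : Setoid (Fin N)) (U : Submodule ℝ (Tn 9 d)) (f : Tn 9 d → ℝ) : Prop :=
  ∀ u ∈ Grp π, ∀ x ∈ U, f (c.Ad9 u x) = f x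

end Ctx

/-- frequency matrix of the free BMN oscillator -/
def Afree (d : ℕ) : Tn 9 d →L[ℝ] Tn 9 d := kr (Matrix.diagonal fun i => |kk i|) 1

end Vale.Agent.P353
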