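import Vale.Agent.P353.D2Aux1
import Vale.Agent.P353.Bas3

/-! Standard raising matrices attached to ranked partitions. -/

noncomputable section

open Complex Matrix

namespace Vale.Agent.P353.D2Aux

open Bas3Aux

variable {N : ℕ}

/-- `r` is a bijection of each class of `σ` onto `{0, …, n - 1}` -/
structure Rk (σ : Setoid (Fin N)) (r n : Fin N → ℕ) : Prop where
  eqn : ∀ {a b}, σ a b → n a = n b
  lt : ∀ a, r a < n a
  inj : ∀ {a b}, σ a b → r a = r b → a = b
  surj : ∀ a k, k < n a → ∃ b, σ b a ∧ r b = k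

open Classical in
/-- the standard raising matrix -/
def Es (σ : Setoid (Fin N)) (r n : Fin N → ℕ) : Matrix (Fin N) (Fin N) ℂ := of fun a b =>
  if σ a b ∧ r b = r a + 1 then ((√(r b * (n b - r b)) : ℝ) : ℂ) else 0

/-- `E` is the raising operator of a unitary `sl₂` triple -/
def Sl2 (E : Matrix (Fin N) (Fin N) ℂ) : Prop :=
  (E * Eᴴ - Eᴴ * E) * E - E * (E * Eᴴ - Eᴴ * E) = (2 : ℂ) • E

variable {σ σ' π : Setoid (Fin N)} {r n r' n' : Fin N → ℕ}

open Classical in
theorem Rk.card (h : Rk σ r n) (a : Fin N) : n a = (Finset.univ.filter fun b => σ b a).card := by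
  rw [← Finset.card_range (n a)]
  refine (Finset.card_nbij r (fun b hb => ?_) (fun b hb b' hb' he => ?_) fun k hk => ?_).symm
  · have hb' : σ b a := by simpa using hb
    simpa [← h.eqn hb'] using h.lt b
  · have h1 : σ b a := by simpa using hb
    have h2 : σ b' a := by simpa using hb'
    exact h.inj (σ.trans' h1 (σ.symm' h2)) he
  · obtain ⟨b, hb, he⟩ := h.surj a k (by simpa using hk)
    exact ⟨b, by simpa using hb, he⟩

theorem exists_rk (σ : Setoid (Fin N)) : ∃ r n, Rk σ r n := by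
  classical
  obtain ⟨r, hr⟩ : ∃ r : Fin N → ℕ,
      r = fun a => (Finset.univ.filter fun b => σ b a ∧ b < a).card := ⟨_, rfl⟩
  obtain ⟨n, hn⟩ : ∃ n : Fin N → ℕ, n = fun a => (Finset.univ.filter fun b => σ b a).card :=
    ⟨_, rfl⟩
  have h1 : ∀ {a b}, σ a b → n a = n b := fun {a b} h => by
    simp only [hn]
    exact congrArg _ (Finset.filter_congr fun c _ =>
      ⟨fun hc => σ.trans' hc h, fun hc => σ.trans' hc (σ.symm' h)⟩)
  have h2 : ∀ a, r a < n a := fun a => by
    simp only [hr, hn]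
    refine Finset.card_lt_card ⟨fun b hb => ?_, fun hs => ?_⟩
    · simp only [Finset.mem_filter] at hb ⊢
      exact ⟨hb.1, hb.2.1⟩
    · simpa using hs (show a ∈ Finset.univ.filter fun b => σ b a by simp)
  have h3 : ∀ {a b}, σ a b → a < b → r a < r b := fun {a b} h hab => by
    simp only [hr]
    refine Finset.card_lt_card ⟨fun c hc => ?_, fun hs => ?_⟩
    · simp only [Finset.mem_filter] at hc ⊢
      exact ⟨hc.1, σ.trans' hc.2.1 h, hc.2.2.trans hab⟩
    · simpa using hs (show a ∈ Finset.univ.filter fun c => σ c b ∧ c < b by simpa using ⟨h, hab⟩)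
  have h4 : ∀ {a b}, σ a b → r a = r b → a = b := fun {a b} h he =>
    le_antisymm (not_lt.1 fun hl => (h3 (σ.symm' h) hl).ne' he) (not_lt.1 fun hl => (h3 h hl).ne he)
  refine ⟨r, n, h1, h2, h4, fun a k hk => ?_⟩
  obtain ⟨b, hb, he⟩ := Finset.surj_on_of_inj_on_of_card_le
    (s := Finset.univ.filter fun b => σ b a) (t := Finset.range (n a)) (fun b _ => r b)
    (fun b hb => by
      have hb' : σ b a := by simpa using hb
      simpa [← h1 hb'] using h2 b)
    (fun b b' hb hb' he => h4 (σ.trans' (by simpa using hb) (σ.symm' (by simpa using hb'))) he)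
    (by simp [hn]) k (Finset.mem_range.2 hk)
  exact ⟨b, by simpa using hb, he.symm⟩

theorem Es_ne {a b : Fin N} (h : Es σ r n a b ≠ 0) : σ a b ∧ r b = r a + 1 := by
  by_contra h0
  exact h (if_neg h0)

theorem Es_eq {a b : Fin N} (h : σ a b) (h' : r b = r a + 1) :
    Es σ r n a b = ((√(r b * (n b - r b)) : ℝ) : ℂ) := if_pos ⟨h, h'⟩

theorem BD_Es (h : σ ≤ π) : BD π (Es σ r n) := fun _ _ hab =>
  of_not_not fun h0 => hab (h (Es_ne h0).1)

theorem Rk.sq (h : Rk σ r n) (b : Fin N) :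
    (((√(r b * (n b - r b)) : ℝ) : ℂ)) * star ((√(r b * (n b - r b)) : ℝ) : ℂ) =
      r b * (n b - r b) := by
  have h1 : (0 : ℝ) ≤ r b * (n b - r b) :=
    mul_nonneg (Nat.cast_nonneg _) (sub_nonneg.2 (by exact_mod_cast (h.lt b).le))
  rw [star_def, conj_ofReal, ← ofReal_mul, Real.mul_self_sqrt h1]
  push_cast
  rfl

theorem Rk.fe (h : Rk σ r n) :
    (Es σ r n)ᴴ * Es σ r n = diagonal fun a => (r a * (n a - r a) : ℂ) := by
  ext a b
  rw [mul_apply]
  by_cases hab : a = b
  · subst hab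
    rw [diagonal_apply_eq]
    rcases Nat.eq_zero_or_pos (r a) with h0 | h0
    · rw [h0, Nat.cast_zero, zero_mul]
      exact Finset.sum_eq_zero fun c _ =>
        mul_eq_zero_of_right _ (of_not_not fun h1 => by have := (Es_ne h1).2; omega)
    · obtain ⟨c, hc, hc'⟩ := h.surj a (r a - 1) (by have := h.lt a; omega)
      rw [Finset.sum_eq_single c, conjTranspose_apply, Es_eq hc (by omega), mul_comm, h.sq]
      · refine fun c' _ hne => mul_eq_zero_of_right _ (of_not_not fun h1 => hne ?_)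
        exact h.inj (σ.trans' (Es_ne h1).1 (σ.symm' hc)) (by have := (Es_ne h1).2; omega)
      · simp
  · rw [diagonal_apply_ne _ hab]
    refine Finset.sum_eq_zero fun c _ => of_not_not fun h1 => hab ?_
    have h2 := Es_ne (star_ne_zero.1 (left_ne_zero_of_mul h1))
    have h3 := Es_ne (right_ne_zero_of_mul h1)
    exact h.inj (σ.trans' (σ.symm' h2.1) h3.1) (by omega)

theorem Rk.ef (h : Rk σ r n) :
    Es σ r n * (Es σ r n)ᴴ = diagonal fun a => ((r a + 1) * (n a - (r a + 1)) : ℂ) := by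
  ext a b
  rw [mul_apply]
  by_cases hab : a = b
  · subst hab
    rw [diagonal_apply_eq]
    rcases (Nat.succ_le_of_lt (h.lt a)).eq_or_lt with h0 | h0
    · rw [← h0, Nat.cast_succ, sub_self, mul_zero]
      refine Finset.sum_eq_zero fun c _ => mul_eq_zero_of_left (of_not_not fun h1 => ?_) _
      have := (Es_ne h1).2
      have := h.eqn (Es_ne h1).1
      have := h.lt c
      omega
    · obtain ⟨c, hc, hc'⟩ := h.surj a (r a + 1) h0
      rw [Finset.sum_eq_single c, conjTranspose_apply, Es_eq (σ.symm' hc) hc', h.sq, hc', h.eqn hc,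
        Nat.cast_succ]
      · refine fun c' _ hne => mul_eq_zero_of_left (of_not_not fun h1 => hne ?_) _
        exact h.inj (σ.symm' (σ.trans' hc (Es_ne h1).1)) (by have := (Es_ne h1).2; omega)
      · simp
  · rw [diagonal_apply_ne _ hab]
    refine Finset.sum_eq_zero fun c _ => of_not_not fun h1 => hab ?_
    have h2 := Es_ne (left_ne_zero_of_mul h1)
    have h3 := Es_ne (star_ne_zero.1 (right_ne_zero_of_mul h1))
    exact h.inj (σ.trans' h2.1 (σ.symm' h3.1)) (by omega)

theorem Rk.sl2 (h : Rk σ r n) : Sl2 (Es σ r n) := by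
  rw [Sl2, h.ef, h.fe, diagonal_sub]
  ext a b
  rw [Matrix.sub_apply, diagonal_mul, mul_diagonal, Matrix.smul_apply, smul_eq_mul]
  by_cases h0 : Es σ r n a b = 0
  · simp [h0]
  · rw [(Es_ne h0).2, h.eqn (Es_ne h0).1]
    push_cast
    ring

theorem Rk.exists_perm (h : Rk σ r n) (h' : Rk σ' r' n') (hπ : σ' ≤ π) {f : Fin N → Fin N}
    (h1 : ∀ a b, σ' (f a) (f b) ↔ σ a b) (h2 : ∀ a, n' (f a) = n a) (h3 : ∀ a, π (f a) a) :
    ∃ w, Maps π σ σ' w ∧ ∀ a b, Es σ' r' n' (w a) (w b) = Es σ r n a b := by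
  choose g hg hg' using fun a => h'.surj (f a) (r a) (h2 a ▸ h.lt a)
  have h4 : ∀ a b, σ' (g a) (g b) ↔ σ a b := fun a b => Iff.trans
    ⟨fun hh => σ'.trans' (σ'.symm' (hg a)) (σ'.trans' hh (hg b)),
      fun hh => σ'.trans' (hg a) (σ'.trans' hh (σ'.symm' (hg b)))⟩ (h1 a b)
  have hi : Function.Injective g := fun a b hab =>
    h.inj ((h4 a b).1 (hab ▸ σ'.refl' _)) (by rw [← hg', ← hg', hab])
  refine ⟨Equiv.ofBijective g (Finite.injective_iff_bijective.1 hi),
    ⟨fun a => π.trans' (hπ (hg a)) (h3 a), h4⟩, fun a b => ?_⟩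
  change Es σ' r' n' (g a) (g b) = _
  by_cases h5 : σ a b ∧ r b = r a + 1
  · rw [Es_eq h5.1 h5.2, Es_eq ((h4 a b).2 h5.1) (by rw [hg', hg', h5.2]), hg', h'.eqn (hg b), h2]
  · rw [of_not_not fun h0 => h5 (Es_ne h0), of_not_not fun h0 =>
      h5 ⟨(h4 a b).1 (Es_ne h0).1, by rw [← hg', ← hg', (Es_ne h0).2]⟩]

theorem Rk.of_maps (h : Rk σ r n) (h' : Rk σ' r' n') (hπ : σ' ≤ π) {w : Equiv.Perm (Fin N)}
    (hw : Maps π σ σ' w) : ∃ w, Maps π σ σ' w ∧ ∀ a b, Es σ' r' n' (w a) (w b) = Es σ r n a b := by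
  classical
  refine h.exists_perm h' hπ hw.2 (fun a => ?_) hw.1
  rw [h.card, h'.card]
  exact (Finset.card_equiv w fun b => by simp [hw.2]).symm

theorem exists_perm_of_det {U : Matrix (Fin N) (Fin N) ℂ} (h : U.det ≠ 0) :
    ∃ τ : Equiv.Perm (Fin N), ∀ b, U (τ b) b ≠ 0 := by
  rw [det_apply] at h
  obtain ⟨τ, -, hτ⟩ := Finset.exists_ne_zero_of_sum_ne_zero h
  exact ⟨τ, fun b => Finset.prod_ne_zero_iff.1 (right_ne_zero_of_smul hτ) b (Finset.mem_univ b)⟩

theorem exists_perm_of_unitary (u : UN N) : ∃ τ : Equiv.Perm (Fin N), ∀ b, u.1 (τ b) b ≠ 0 :=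
  exists_perm_of_det (Matrix.UnitaryGroup.det_isUnit u).ne_zero

theorem conj_mul (u : UN N) (A B : Matrix (Fin N) (Fin N) ℂ) :
    u.1 * A * star u.1 * (u.1 * B * star u.1) = u.1 * (A * B) * star u.1 := by
  have h : star u.1 * u.1 = 1 := u.2.1
  calc _ = u.1 * A * (star u.1 * u.1) * B * star u.1 := by simp only [Matrix.mul_assoc]
    _ = _ := by rw [h, Matrix.mul_one, Matrix.mul_assoc u.1]

theorem conj_star (u : UN N) (A : Matrix (Fin N) (Fin N) ℂ) :
    (u.1 * A * star u.1)ᴴ = u.1 * Aᴴ * star u.1 := by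
  simp only [star_eq_conjTranspose, conjTranspose_mul, conjTranspose_conjTranspose,
    Matrix.mul_assoc]

theorem diag_eq (u : UN N) {x y : Fin N → ℂ} (h : diagonal y = u.1 * diagonal x * star u.1)
    {a b : Fin N} (hab : u.1 a b ≠ 0) : y a = x b := by
  have h1 : diagonal y * u.1 = u.1 * diagonal x := by
    rw [h, Matrix.mul_assoc, show star u.1 * u.1 = 1 from u.2.1, Matrix.mul_one]
  have h2 := congrFun (congrFun h1 a) b
  rw [diagonal_mul, mul_diagonal, mul_comm] at h2
  exact mul_left_cancel₀ hab h2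

theorem Rk.of_conj (h : Rk σ r n) (h' : Rk σ' r' n') (hπ : σ ≤ π) (hπ' : σ' ≤ π) {u : UN N}
    (hu : u ∈ Grp π) (he : Es σ' r' n' = u.1 * Es σ r n * star u.1) : ∃ w, Maps π σ σ' w := by
  obtain ⟨τ, hτ⟩ := exists_perm_of_unitary u
  have e1 := fun b => diag_eq u (h'.fe.symm.trans (by rw [he, conj_star, conj_mul, h.fe])) (hτ b)
  have e2 := fun b => diag_eq u (h'.ef.symm.trans (by rw [he, conj_star, conj_mul, h.ef])) (hτ b)
  choose t ht ht' using fun a => h.surj a 0 ((Nat.zero_le _).trans_lt (h.lt a))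
  have e3 : ∀ a, r' (τ (t a)) = 0 := fun a => by
    have := e1 (t a)
    rw [ht', Nat.cast_zero, zero_mul, mul_eq_zero, sub_eq_zero, Nat.cast_eq_zero,
      Nat.cast_inj] at this
    exact this.resolve_right (h'.lt _).ne'
  refine (h.exists_perm h' hπ' (f := fun a => τ (t a)) (fun a b => ⟨fun hab => ?_, fun hab => ?_⟩)
    (fun a => ?_) fun a => ?_).imp fun _ hw => hw.1
  · have := τ.injective (h'.inj hab (by rw [e3, e3]))
    exact σ.trans' (σ.symm' (ht a)) (this ▸ ht b)
  · rw [h.inj (σ.trans' (ht a) (σ.trans' hab (σ.symm' (ht b)))) (by rw [ht', ht'])]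
  · have := e2 (t a)
    rw [ht', e3, h.eqn (ht a)] at this
    simpa using this
  · exact π.trans' (of_not_not fun h0 => hτ _ (hu _ _ h0)) (hπ (ht a))

theorem Sl2.tri {E : Matrix (Fin N) (Fin N) ℂ} (h : Sl2 E) :
    Tri (toEuclideanLin E) (toEuclideanLin Eᴴ) (toEuclideanLin (E * Eᴴ - Eᴴ * E)) where
  adj x y := by rw [toEuclideanLin_conjTranspose_eq_adjoint, LinearMap.adjoint_inner_right]
  ef := by rw [map_sub, toLpLin_mul 2 2 2, toLpLin_mul 2 2 2]; rfl
  he := by
    have := congrArg toEuclideanLin h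
    rwa [map_sub, map_smul, toLpLin_mul 2 2 2, toLpLin_mul 2 2 2] at this

/-- vectors supported in a block -/
def Bl (π : Setoid (Fin N)) (q : Quotient π) : Submodule ℂ (EuclideanSpace ℂ (Fin N)) where
  carrier := {x | ∀ a, Quotient.mk π a ≠ q → x a = 0}
  add_mem' := fun hx hy a h => by simp [hx a h, hy a h]
  zero_mem' := fun a _ => rfl
  smul_mem' := fun t x hx a h => by simp [hx a h]

theorem mem_Bl {M : Matrix (Fin N) (Fin N) ℂ} (hM : BD π M) (q : Quotient π) :
    ∀ x ∈ Bl π q, toEuclideanLin M x ∈ Bl π q := by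
  intro x hx a ha
  change ∑ b, M a b * x b = 0
  refine Finset.sum_eq_zero fun b _ => ?_
  by_cases hab : π a b
  · rw [hx b (Quotient.sound hab ▸ ha), mul_zero]
  · rw [hM a b hab, zero_mul]

theorem Sl2.classify {E : Matrix (Fin N) (Fin N) ℂ} (h : Sl2 E) (hE : BD π E) :
    ∃ σ r n, Rk σ r n ∧ σ ≤ π ∧ ∃ u ∈ Grp π, E = u.1 * Es σ r n * star u.1 := by
  classical
  obtain ⟨S, _, β, m, v, hv, hv'⟩ := h.tri.blocks (Bl π) (fun q q' hq x hx y hy => by
      rw [PiLp.inner_apply]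
      refine Finset.sum_eq_zero fun a _ => ?_
      by_cases ha : Quotient.mk π a = q
      · rw [hy a (ha ▸ hq), inner_zero_right]
      · rw [hx a ha, inner_zero_left])
    (mem_Bl hE.star)
    (mem_Bl fun a b hab => by
      rw [Matrix.sub_apply, ← star_eq_conjTranspose, hE.mul hE.star a b hab, hE.star.mul hE a b hab, sub_zero])
    fun x hx => ⟨fun q => WithLp.toLp 2 fun a => if Quotient.mk π a = q then x a else 0,
      fun q => ⟨fun a ha => if_neg ha, by
        ext a
        change ∑ b, E a b * (if Quotient.mk π b = q then x b else 0) = 0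
        by_cases ha : Quotient.mk π a = q
        · have hx' : ∑ b, E a b * x b = 0 := congrArg (fun y => y a) hx
          refine Eq.trans (Finset.sum_congr rfl fun b _ => ?_) hx'
          by_cases hab : π a b
          · rw [if_pos (Quotient.sound hab ▸ ha)]
          · rw [hE a b hab, zero_mul, zero_mul]
        · refine Finset.sum_eq_zero fun b _ => ?_
          by_cases hab : π a b
          · rw [if_neg (Quotient.sound hab ▸ ha), mul_zero]
          · rw [hE a b hab, zero_mul]⟩, by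
        ext a
        simp⟩
  have hU : ∀ ε : Fin N ≃ Σ s, Fin (m s + 1), ∃ u : UN N, ∀ a b, u.1 a b = v (ε b) a := fun ε =>
    ⟨⟨_, (EuclideanSpace.basisFun (Fin N) ℂ).toMatrix_orthonormalBasis_mem_unitary
      (v.reindex ε.symm)⟩, fun a b => by simp [Module.Basis.toMatrix_apply]⟩
  obtain ⟨ε₀⟩ : Nonempty (Fin N ≃ Σ s, Fin (m s + 1)) := Fintype.card_eq.1 (by
    rw [← Module.finrank_eq_card_basis v.toBasis, finrank_euclideanSpace])
  obtain ⟨u₀, hu₀⟩ := hU ε₀
  obtain ⟨τ, hτ⟩ := exists_perm_of_unitary u₀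
  obtain ⟨ε, hε⟩ : ∃ ε : Fin N ≃ Σ s, Fin (m s + 1), ∀ a, Quotient.mk π a = β (ε a).1 :=
    ⟨τ.symm.trans ε₀, fun a => of_not_not fun h0 => hτ (τ.symm a) (by
      rw [hu₀, τ.apply_symm_apply]
      exact hv _ a h0)⟩
  obtain ⟨u, hu⟩ := hU ε
  refine ⟨Setoid.ker fun a => (ε a).1, fun a => (ε a).2.val, fun a => m (ε a).1 + 1,
    ⟨fun {a b} hab => ?_, fun a => (ε a).2.2, fun {a b} hab he => ε.injective ?_, fun a k hk => ?_⟩,
    fun a b hab => Quotient.exact (s := π) ?_, u, fun a b hab => ?_, ?_⟩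
  · rw [show (ε a).1 = (ε b).1 from hab]
  · have h1 : (ε a).1 = (ε b).1 := hab
    generalize ε a = i at h1 he
    generalize ε b = j at h1 he
    obtain ⟨s, k⟩ := i
    obtain ⟨t, l⟩ := j
    obtain rfl : s = t := h1
    exact congrArg _ (Fin.ext he)
  · refine ⟨ε.symm ⟨(ε a).1, k, hk⟩, ?_, ?_⟩
    · change (ε (ε.symm _)).1 = _
      rw [ε.apply_symm_apply]
    · rw [ε.apply_symm_apply]
  · rw [hε, hε, show (ε a).1 = (ε b).1 from hab]
  · rw [hu]
    exact hv _ a fun h0 => hab (Quotient.exact (h0.trans (hε b).symm))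
  · have h1 : star u.1 * E * u.1 = Es (Setoid.ker fun a => (ε a).1) (fun a => (ε a).2.val)
        fun a => m (ε a).1 + 1 := by
      ext a b
      refine Eq.trans ?_ ((hv' (ε a) (ε b)).trans (if_congr Iff.rfl rfl rfl))
      rw [Matrix.mul_assoc, mul_apply, PiLp.inner_apply]
      refine Finset.sum_congr rfl fun c _ => ?_
      rw [star_apply, hu, RCLike.inner_apply, mul_comm, mul_apply]
      simp only [hu]
      rfl
    have h2 : u.1 * star u.1 = 1 := u.2.2
    rw [← h1]
    calc E = (u.1 * star u.1) * E * (u.1 * star u.1) := by rw [h2, Matrix.one_mul, Matrix.mul_one]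
      _ = _ := by simp only [Matrix.mul_assoc]

end Vale.Agent.P353.D2Aux
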