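import Vale.Agent.P353.Stmts
import Vale.Agent.P353.D2Aux2

/-! Classification of the classical vacua. -/

noncomputable section

open MeasureTheory Filter Topology Complex Matrix
open scoped ContDiff RealInnerProductSpace

namespace Vale.Agent.P353

namespace D2Aux

open Bas3Aux

variable {N d : ℕ} {F : Type} [NormedAddCommGroup F] [InnerProductSpace ℂ F]
  [FiniteDimensional ℂ F] (c : Ctx N d F) {π : Setoid (Fin N)}

/-- the raising operator of a configuration -/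
def Em (x : Tn 9 d) : Matrix (Fin N) (Fin N) ℂ :=
  (1 / 2 : ℂ) • (c.mat (cmp 0 x) - I • c.mat (cmp 1 x))

theorem ad_iff (x y z : Lg d) : c.ad x y = (-2 : ℝ) • z ↔
    c.mat x * c.mat y - c.mat y * c.mat x = (-2 * I) • c.mat z := by
  rw [← c.mat_injective.eq_iff, c.mat_ad, map_smul,
    ← (smul_right_injective _ (neg_ne_zero.2 I_ne_zero)).eq_iff (b := (-2 * I) • c.mat z)]
  refine Eq.congr_right ?_
  rw [smul_smul, ← coe_smul]
  congr 1
  push_cast
  linear_combination (-2 : ℂ) * I_mul_I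

theorem Em_star (x : Tn 9 d) :
    (Em c x)ᴴ = (1 / 2 : ℂ) • (c.mat (cmp 0 x) + I • c.mat (cmp 1 x)) := by
  rw [Em, conjTranspose_smul, conjTranspose_sub, conjTranspose_smul, (c.mat_herm _).eq,
    (c.mat_herm _).eq]
  simp

theorem mat_zero (x : Tn 9 d) : c.mat (cmp 0 x) = Em c x + (Em c x)ᴴ := by
  rw [Em_star, Em]
  module

theorem mat_one (x : Tn 9 d) : c.mat (cmp 1 x) = I • (Em c x - (Em c x)ᴴ) := by
  rw [Em_star, Em]
  match_scalars
  · linear_combination I_mul_I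
  · ring

variable {c}

theorem mat_two {x : Tn 9 d} (h : c.IsVac x) :
    c.mat (cmp 2 x) = Em c x * (Em c x)ᴴ - (Em c x)ᴴ * Em c x := by
  have h1 := eq_add_of_sub_eq ((ad_iff c _ _ _).1 h.2.1)
  rw [Em_star, Em]
  simp only [Matrix.mul_add, Matrix.add_mul, Matrix.mul_sub, Matrix.sub_mul, smul_mul_assoc,
    mul_smul_comm, h1]
  match_scalars
  · linear_combination I_mul_I
  all_goals ring

theorem sl2_Em {x : Tn 9 d} (h : c.IsVac x) : Sl2 (Em c x) := by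
  have h1 := eq_add_of_sub_eq ((ad_iff c _ _ _).1 h.2.2.1)
  have h2 := eq_add_of_sub_eq ((ad_iff c _ _ _).1 h.2.2.2)
  rw [Sl2, ← mat_two h, Em]
  simp only [Matrix.mul_sub, Matrix.sub_mul, smul_mul_assoc, mul_smul_comm, h1, h2]
  match_scalars
  · ring
  · ring
  · ring
  · linear_combination (-1 : ℂ) * I_mul_I

theorem eq_of_Em {x y : Tn 9 d} (hx : c.IsVac x) (hy : c.IsVac y) (h : Em c x = Em c y) :
    x = y := by
  refine ext_cmp fun i => ?_
  by_cases hi : 3 ≤ i.val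
  · rw [hx.1 i hi, hy.1 i hi]
  · apply c.mat_injective
    obtain rfl | rfl | rfl : i = 0 ∨ i = 1 ∨ i = 2 := by omega
    · rw [mat_zero, mat_zero, h]
    · rw [mat_one, mat_one, h]
    · rw [mat_two hx, mat_two hy, h]

variable (c) in
theorem exists_vac {E : Matrix (Fin N) (Fin N) ℂ} (h : Sl2 E) : ∃ z, c.IsVac z ∧ Em c z = E := by
  obtain ⟨H, hH⟩ : ∃ H, H = E * Eᴴ - Eᴴ * E := ⟨_, rfl⟩
  have h1 : H * E - E * H = (2 : ℂ) • E := hH ▸ h
  have hs : Hᴴ = H := by simp [hH]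
  have h2 : Eᴴ * H - H * Eᴴ = (2 : ℂ) • Eᴴ := by
    simpa [hs] using congrArg conjTranspose h1
  have t1 : E.trace = 0 := by
    have := congrArg trace h1
    rw [trace_sub, trace_mul_comm, sub_self, trace_smul, eq_comm, smul_eq_zero] at this
    exact this.resolve_left two_ne_zero
  have t2 : Eᴴ.trace = 0 := by rw [trace_conjTranspose, t1, star_zero]
  have m0 : c.mat (c.co (E + Eᴴ)) = E + Eᴴ :=
    c.span _ (isHermitian_add_transpose_self E) (by rw [trace_add, t1, t2, add_zero])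
  have m1 : c.mat (c.co (I • (E - Eᴴ))) = I • (E - Eᴴ) :=
    c.span _ (by simp [IsHermitian, sub_eq_neg_add, add_comm])
      (by rw [trace_smul, trace_sub, t1, t2, sub_zero, smul_zero])
  have m2 : c.mat (c.co H) = H := c.span _ hs (by rw [hH, trace_sub, trace_mul_comm, sub_self])
  obtain ⟨y, hy⟩ : ∃ y : Fin 9 → Lg d, y = ![c.co (E + Eᴴ), c.co (I • (E - Eᴴ)), c.co H,
    0, 0, 0, 0, 0, 0] := ⟨_, rfl⟩
  obtain ⟨z, hz⟩ : ∃ z : Tn 9 d, ∀ i, cmp i z = y i :=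
    ⟨WithLp.toLp 2 fun p => y p.1 p.2, fun _ => rfl⟩
  have z0 : c.mat (cmp 0 z) = E + Eᴴ := by rw [hz, hy]; exact m0
  have z1 : c.mat (cmp 1 z) = I • (E - Eᴴ) := by rw [hz, hy]; exact m1
  have z2 : c.mat (cmp 2 z) = H := by rw [hz, hy]; exact m2
  have h3 := eq_add_of_sub_eq h1
  have h4 := eq_add_of_sub_eq h2
  refine ⟨z, ⟨fun i hi => ?_, ?_, ?_, ?_⟩, ?_⟩
  · rw [hz, hy]
    fin_cases i <;> simp at hi ⊢
  · rw [ad_iff, z0, z1, z2, hH]
    simp only [Matrix.mul_add, Matrix.add_mul, Matrix.mul_sub, Matrix.sub_mul, smul_mul_assoc,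
      mul_smul_comm]
    module
  · rw [ad_iff, z0, z1, z2]
    simp only [Matrix.mul_sub, Matrix.sub_mul, smul_mul_assoc, mul_smul_comm, h3, h4]
    module
  · rw [ad_iff, z0, z1, z2]
    simp only [Matrix.mul_add, Matrix.add_mul, h3, h4]
    match_scalars
    · linear_combination (2 : ℂ) * I_mul_I
    · ring
    · ring
    · linear_combination (-2 : ℂ) * I_mul_I
  · rw [Em, z0, z1]
    match_scalars
    · linear_combination (-1 / 2 : ℂ) * I_mul_I
    · linear_combination (1 / 2 : ℂ) * I_mul_I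

theorem cmp_Ad9 (u : UN N) (x : Tn 9 d) (i : Fin 9) : cmp i (c.Ad9 u x) = c.Ad u (cmp i x) :=
  cmp_kr_one _ _ _

theorem Em_Ad9 (u : UN N) (x : Tn 9 d) : Em c (c.Ad9 u x) = u.1 * Em c x * star u.1 := by
  simp only [Em, cmp_Ad9, c.mat_Ad, Matrix.mul_sub, Matrix.sub_mul, smul_mul_assoc, mul_smul_comm]

theorem vac_Ad9 (u : UN N) {x : Tn 9 d} (h : c.IsVac x) : c.IsVac (c.Ad9 u x) := by
  simp only [Ctx.IsVac, cmp_Ad9, ← c.Ad_ad, h.2.1, h.2.2.1, h.2.2.2, map_smul, and_true]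
  exact fun i hi => by rw [h.1 i hi, map_zero]

theorem BD_Em {x : Tn 9 d} (hx : x ∈ sub 9 (c.ss π)) : BD π (Em c x) := fun a b hab => by
  have h0 : c.mat (cmp 0 x) a b = 0 := (mem_sub.1 hx 0).1 a b hab
  have h1 : c.mat (cmp 1 x) a b = 0 := (mem_sub.1 hx 1).1 a b hab
  simp [Em, h0, h1]

theorem mem_ss {x : Tn 9 d} (h : c.IsVac x) (hx : BD π (Em c x)) : x ∈ sub 9 (c.ss π) := by
  have hs : BD π (Em c x)ᴴ := hx.star
  have h0 : cmp 0 x ∈ c.blk π := fun a b hab => by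
    rw [mat_zero, Matrix.add_apply, hx a b hab, hs a b hab, add_zero]
  have h1 : cmp 1 x ∈ c.blk π := fun a b hab => by
    rw [mat_one, Matrix.smul_apply, Matrix.sub_apply, hx a b hab, hs a b hab, sub_zero, smul_zero]
  have key : ∀ {p q r : Lg d}, p ∈ c.blk π → q ∈ c.blk π → c.ad p q = (-2 : ℝ) • r →
      r ∈ c.ss π := fun hp hq he =>
    (Submodule.smul_mem_iff _ (by norm_num)).1 (he ▸ c.ad_mem_ss hp hq)
  have h2 := key h0 h1 h.2.1
  refine mem_sub.2 fun i => ?_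
  by_cases hi : 3 ≤ i.val
  · rw [h.1 i hi]
    exact Submodule.zero_mem _
  · obtain rfl | rfl | rfl : i = 0 ∨ i = 1 ∨ i = 2 := by omega
    · exact key h1 h2.1 h.2.2.1
    · exact key h2.1 h0 h.2.2.2
    · exact h2

theorem Em_perm (w : Equiv.Perm (Fin N)) (x : Tn 9 d) (a b : Fin N) :
    Em c (c.Ad9 (permU w) x) (w a) (w b) = Em c x a b := by
  simp only [Em, cmp_Ad9, Matrix.smul_apply, Matrix.sub_apply, c.mat_Ad_permU]

end D2Aux

namespace Ctx

variable {N d : ℕ} {F : Type} [NormedAddCommGroup F] [InnerProductSpace ℂ F]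
  [FiniteDimensional ℂ F] (c : Ctx N d F)

open D2Aux in
theorem p_d2 : c.S_d2 := by
  classical
  intro π R hR
  choose r n hrn using fun σ : Setoid (Fin N) => exists_rk σ
  choose J hJ hJ' using fun σ : Setoid (Fin N) => exists_vac c (hrn σ).sl2
  have hc : ∀ σ ∈ R, ∀ σ' ∈ R, ∀ u ∈ Grp π, J σ' = c.Ad9 u (J σ) → σ = σ' := by
    intro σ hσ σ' hσ' u hu he
    obtain ⟨w, hw⟩ := (hrn σ).of_conj (hrn σ') (hR.1 σ hσ) (hR.1 σ' hσ') hu
      (by rw [← hJ', ← hJ', he, Em_Ad9])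
    exact hR.2.2 σ hσ σ' hσ' w hw
  refine ⟨R.image J, Finset.card_image_of_injOn fun σ hσ σ' hσ' he =>
    hc σ hσ σ' hσ' 1 (one_mem_Grp π) (by rw [c.Ad9_one, he]; rfl), fun z hz => ?_,
    fun x hx hv => ?_, fun z hz z' hz' u hu he => ?_⟩
  · obtain ⟨σ, hσ, rfl⟩ := Finset.mem_image.1 hz
    exact ⟨D2Aux.mem_ss (hJ σ) (hJ' σ ▸ BD_Es (hR.1 σ hσ)), hJ σ⟩
  · obtain ⟨σ, r', n', hk, hσ, u, hu, he⟩ := (sl2_Em hv).classify (BD_Em hx)
    obtain ⟨σ', hσ', w, hw⟩ := hR.2.1 σ hσ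
    obtain ⟨w', hw', hE⟩ := (hrn σ').of_maps hk hσ hw
    refine ⟨J σ', Finset.mem_image_of_mem J hσ', u * permU w',
      mul_mem_Grp hu (permU_mem_Grp hw'.1), eq_of_Em hv (vac_Ad9 _ (hJ σ')) ?_⟩
    have h1 : Em c (c.Ad9 (permU w') (J σ')) = Es σ r' n' := by
      ext a b
      obtain ⟨a, rfl⟩ := w'.surjective a
      obtain ⟨b, rfl⟩ := w'.surjective b
      rw [Em_perm, hJ', hE]
    rw [c.Ad9_mul, mul_apply_eq_comp, Em_Ad9, h1, he]
  · obtain ⟨σ, hσ, rfl⟩ := Finset.mem_image.1 hz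
    obtain ⟨σ', hσ', rfl⟩ := Finset.mem_image.1 hz'
    rw [hc σ hσ σ' hσ' u hu he]

end Ctx

end Vale.Agent.P353
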