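import Mathlib

/-! Unitary representations of `sl₂`: highest weight strings. -/

noncomputable section

open Complex

namespace Vale.Agent.P353.D2Aux

section Nil

variable {V : Type} [AddCommGroup V] [Module ℂ V] [FiniteDimensional ℂ V]

theorem nil {h e : Module.End ℂ V} (he : h * e - e * h = (2 : ℂ) • e) : ∃ k, e ^ k = 0 := by
  by_contra h0
  push Not at h0
  have h1 : ∀ k : ℕ, h * e ^ k - e ^ k * h = (2 * k : ℂ) • e ^ k := by
    intro k
    induction k with
    | zero => simp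
    | succ k ih =>
      have : h * e ^ (k + 1) - e ^ (k + 1) * h =
          (h * e ^ k - e ^ k * h) * e + e ^ k * (h * e - e * h) := by
        rw [pow_succ]
        noncomm_ring
      rw [this, ih, he, smul_mul_assoc, mul_smul_comm, ← pow_succ, ← add_smul]
      push_cast
      rw [mul_add, mul_one]
  refine Module.Finite.not_linearIndependent_of_infinite (R := ℂ) (fun k : ℕ => e ^ k)
    (Module.End.eigenvectors_linearIndependent'
      (LinearMap.mulLeft ℂ h - LinearMap.mulRight ℂ h) (fun k : ℕ => (2 * k : ℂ))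
      (fun k l hkl => ?_) _ fun k => ⟨Module.End.mem_eigenspace_iff.2 (h1 k), h0 k⟩)
  simpa using hkl

end Nil

variable {V : Type} [NormedAddCommGroup V] [InnerProductSpace ℂ V] [FiniteDimensional ℂ V]

/-- a unitary `sl₂` triple -/
structure Tri (e f h : Module.End ℂ V) : Prop where
  adj : ∀ x y, inner ℂ (e x) y = inner ℂ x (f y)
  ef : e * f - f * e = h
  he : h * e - e * h = (2 : ℂ) • e

variable {e f h : Module.End ℂ V}

omit [FiniteDimensional ℂ V] in
theorem Tri.adj' (T : Tri e f h) (x y : V) : inner ℂ (f x) y = inner ℂ x (e y) := by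
  rw [← inner_conj_symm, ← T.adj, inner_conj_symm]

omit [FiniteDimensional ℂ V] in
theorem Tri.h_apply (T : Tri e f h) (x : V) : h x = e (f x) - f (e x) := by
  rw [← T.ef]; rfl

omit [FiniteDimensional ℂ V] in
theorem Tri.he_apply (T : Tri e f h) (x : V) : h (e x) - e (h x) = (2 : ℂ) • e x :=
  DFunLike.congr_fun T.he x

omit [FiniteDimensional ℂ V] in
theorem Tri.symm (T : Tri e f h) : h.IsSymmetric := fun x y => by
  rw [T.h_apply, T.h_apply, inner_sub_left, inner_sub_right, T.adj, T.adj', T.adj', T.adj]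

omit [FiniteDimensional ℂ V] in
theorem Tri.hf_apply (T : Tri e f h) (x : V) : h (f x) = f (h x) - (2 : ℂ) • f x := by
  refine ext_inner_right ℂ fun y => ?_
  have := congrArg (inner ℂ x) (T.he_apply y)
  rw [inner_sub_right, inner_smul_right] at this
  rw [inner_sub_left, inner_smul_left, T.symm, T.adj', T.adj', T.adj', T.symm, map_ofNat]
  linear_combination -this

theorem Tri.nil_f (T : Tri e f h) : ∃ k, f ^ k = 0 :=
  nil (h := -h) (LinearMap.ext fun x => by
    change -h (f x) - f (-h x) = (2 : ℂ) • f x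
    rw [T.hf_apply, map_neg]
    abel)

omit [FiniteDimensional ℂ V] in
theorem Tri.h_pow (T : Tri e f h) {u : V} {μ : ℂ} (hu : h u = μ • u) (k : ℕ) :
    h ((f ^ k) u) = (μ - 2 * k) • (f ^ k) u := by
  induction k with
  | zero => simpa using hu
  | succ k ih =>
    rw [pow_succ', Module.End.mul_apply, T.hf_apply, ih, map_smul, ← sub_smul]
    push_cast
    rw [mul_add, mul_one, sub_sub]

omit [FiniteDimensional ℂ V] in
theorem Tri.e_pow (T : Tri e f h) {u : V} {μ : ℂ} (hu : h u = μ • u) (h0 : e u = 0) (k : ℕ) :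
    e ((f ^ (k + 1)) u) = ((k + 1) * (μ - k)) • (f ^ k) u := by
  induction k with
  | zero =>
    have := T.h_apply u
    rw [h0, map_zero, sub_zero, hu] at this
    simpa using this.symm
  | succ k ih =>
    have := T.h_apply ((f ^ (k + 1)) u)
    rw [T.h_pow hu, ih, map_smul, ← Module.End.mul_apply f, ← Module.End.mul_apply f,
      ← pow_succ', ← pow_succ', eq_sub_iff_add_eq, ← add_smul] at this
    rw [← this]
    push_cast
    ring_nf

theorem Tri.exists_nat (T : Tri e f h) {u : V} {μ : ℂ} (hu : h u = μ • u) (h0 : e u = 0)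
    (hne : u ≠ 0) : ∃ m : ℕ, μ = m ∧ (∀ k ≤ m, (f ^ k) u ≠ 0) ∧ ∀ k, m < k → (f ^ k) u = 0 := by
  classical
  have h1 : ∃ k, (f ^ k) u = 0 := T.nil_f.imp fun k hk => by rw [hk]; rfl
  obtain ⟨m, hm⟩ : ∃ m, Nat.find h1 = m + 1 := Nat.exists_eq_succ_of_ne_zero fun h2 => by
    have := Nat.find_spec h1
    rw [h2] at this
    exact hne this
  have h2 : ∀ k ≤ m, (f ^ k) u ≠ 0 := fun k hk => Nat.find_min h1 (by omega)
  have h3 : (f ^ (m + 1)) u = 0 := hm ▸ Nat.find_spec h1
  refine ⟨m, ?_, h2, fun k hk => ?_⟩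
  · have h4 := T.e_pow hu h0 m
    rw [h3, map_zero, eq_comm, smul_eq_zero, mul_eq_zero] at h4
    exact sub_eq_zero.1 ((h4.resolve_right (h2 m le_rfl)).resolve_left
      (by exact_mod_cast Nat.succ_ne_zero m))
  · obtain ⟨l, rfl⟩ := Nat.exists_eq_add_of_lt hk
    rw [show m + l + 1 = l + (m + 1) by omega, pow_add, Module.End.mul_apply, h3, map_zero]

omit [FiniteDimensional ℂ V] in
theorem Tri.inner_pow (T : Tri e f h) {u u' : V} {μ : ℂ} (hu : h u = μ • u) (h0 : e u = 0)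
    (h0' : e u' = 0) {k l : ℕ} (hkl : inner ℂ u u' = 0 ∨ k ≠ l) :
    inner ℂ ((f ^ k) u) ((f ^ l) u') = 0 := by
  induction l generalizing k with
  | zero =>
    cases k with
    | zero => simpa using hkl
    | succ k => rw [pow_succ', Module.End.mul_apply, T.adj', pow_zero, Module.End.one_apply, h0',
        inner_zero_right]
  | succ l ih =>
    rw [pow_succ', Module.End.mul_apply, ← T.adj]
    cases k with
    | zero => rw [pow_zero, Module.End.one_apply, h0, inner_zero_left]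
    | succ k => rw [T.e_pow hu h0, inner_smul_left, ih (hkl.imp_right fun h => by omega), mul_zero]

omit [FiniteDimensional ℂ V] in
theorem Tri.norm_pow (T : Tri e f h) {u : V} {m k : ℕ} (hu : h u = (m : ℂ) • u) (h0 : e u = 0)
    (hk : k ≤ m) : ‖(f ^ (k + 1)) u‖ = √((k + 1) * (m - k)) * ‖(f ^ k) u‖ := by
  have h1 : inner ℂ ((f ^ (k + 1)) u) ((f ^ (k + 1)) u) =
      ((k + 1) * (m - k)) * inner ℂ ((f ^ k) u) ((f ^ k) u) := by
    conv_lhs => rw [pow_succ' f k, Module.End.mul_apply, T.adj', ← Module.End.mul_apply f,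
      ← pow_succ', T.e_pow hu h0, inner_smul_right]
  rw [inner_self_eq_norm_sq_to_K, inner_self_eq_norm_sq_to_K] at h1
  have h2 : ‖(f ^ (k + 1)) u‖ ^ 2 = ((k + 1) * (m - k)) * ‖(f ^ k) u‖ ^ 2 := by
    have := congrArg Complex.re h1
    simp only [coe_algebraMap] at this
    exact_mod_cast this
  have h3 : (0 : ℝ) ≤ (k + 1) * (m - k) :=
    mul_nonneg (by positivity) (sub_nonneg.2 (by exact_mod_cast hk))
  rw [← Real.sqrt_sq (norm_nonneg ((f ^ (k + 1)) u)), h2, Real.sqrt_mul h3,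
    Real.sqrt_sq (norm_nonneg _)]

open Classical in
theorem Tri.strings (T : Tri e f h) {S : Type} [Fintype S] {u : S → V} (hu : Orthonormal ℂ u)
    (h0 : ∀ s, e (u s) = 0) (hμ : ∀ s, ∃ μ : ℂ, h (u s) = μ • u s)
    (hsp : ∀ x, e x = 0 → (∀ s, inner ℂ (u s) x = 0) → x = 0) :
    ∃ (m : S → ℕ) (v : OrthonormalBasis (Σ s, Fin (m s + 1)) ℂ V),
      (∀ i, ∃ c : ℂ, v i = c • (f ^ i.2.val) (u i.1)) ∧ ∀ i j, inner ℂ (v i) (e (v j)) =
        if i.1 = j.1 ∧ j.2.val = i.2.val + 1 then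
          ((√(j.2.val * ((m j.1 + 1 : ℕ) - j.2.val)) : ℝ) : ℂ) else 0 := by
  choose μ hμ using hμ
  choose m hm h1 h2 using fun s => T.exists_nat (hμ s) (h0 s) (hu.ne_zero s)
  simp only [hm] at hμ
  obtain ⟨v, hv⟩ : ∃ v : (Σ s, Fin (m s + 1)) → V,
      v = fun i => ((‖(f ^ i.2.val) (u i.1)‖⁻¹ : ℝ) : ℂ) • (f ^ i.2.val) (u i.1) := ⟨_, rfl⟩
  have hne : ∀ i : Σ s, Fin (m s + 1), ‖(f ^ i.2.val) (u i.1)‖ ≠ 0 := fun i =>
    norm_ne_zero_iff.2 (h1 _ _ (Nat.lt_succ_iff.1 i.2.2))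
  have hon : Orthonormal ℂ v := by
    refine ⟨fun i => ?_, fun i j hij => ?_⟩
    · rw [hv, norm_smul, norm_real, norm_inv, norm_norm, inv_mul_cancel₀ (hne i)]
    · change inner ℂ (v i) (v j) = 0
      rw [hv, inner_smul_left, inner_smul_right, T.inner_pow (hμ _) (h0 _) (h0 _), mul_zero,
        mul_zero]
      by_cases h3 : i.1 = j.1
      · refine Or.inr fun h4 => hij ?_
        obtain ⟨s, k⟩ := i
        obtain ⟨t, l⟩ := j
        obtain rfl : s = t := h3
        exact congrArg _ (Fin.ext h4)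
      · exact Or.inl (hu.2 h3)
  have hZ : ∀ k, ∀ x, (∀ s l, inner ℂ ((f ^ l) (u s)) x = 0) → (e ^ k) x = 0 → x = 0 := by
    intro k
    induction k with
    | zero => exact fun x _ hx => hx
    | succ k ih =>
      refine fun x hx hk => hsp x (ih (e x) (fun s l => ?_) ?_) fun s => hx s 0
      · rw [← T.adj', ← Module.End.mul_apply, ← pow_succ', hx]
      · rwa [pow_succ] at hk
  have hbot : (Submodule.span ℂ (Set.range v))ᗮ = ⊥ := by
    refine (Submodule.eq_bot_iff _).2 fun x hx => ?_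
    obtain ⟨k, hk⟩ := nil T.he
    refine hZ k x (fun s l => ?_) (by rw [hk]; rfl)
    rcases le_or_gt l (m s) with hl | hl
    · have := Submodule.inner_right_of_mem_orthogonal (Submodule.subset_span
        (Set.mem_range_self (f := v) ⟨s, ⟨l, Nat.lt_succ_of_le hl⟩⟩)) hx
      rw [hv, inner_smul_left, conj_ofReal, mul_eq_zero] at this
      exact this.resolve_left
        (ofReal_ne_zero.2 (inv_ne_zero (hne ⟨s, ⟨l, Nat.lt_succ_of_le hl⟩⟩)))
    · rw [h2 s l hl, inner_zero_left]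
  refine ⟨m, OrthonormalBasis.mkOfOrthogonalEqBot hon hbot, fun i => ?_, fun i j => ?_⟩
  · rw [OrthonormalBasis.coe_of_orthogonal_eq_bot_mk, hv]
    exact ⟨_, rfl⟩
  rw [OrthonormalBasis.coe_of_orthogonal_eq_bot_mk]
  obtain ⟨t, l, hl⟩ := j
  cases l with
  | zero =>
    rw [if_neg fun h => Nat.succ_ne_zero _ h.2.symm, hv]
    simp [h0]
  | succ l =>
    have hl' : l < m t := by omega
    have h3 : e (v ⟨t, l + 1, hl⟩) =
        ((√((l + 1) * (m t - l)) : ℝ) : ℂ) • v ⟨t, l, by omega⟩ := by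
      have h4 : (0 : ℝ) < (l + 1) * (m t - l) :=
        mul_pos (by positivity) (sub_pos.2 (by exact_mod_cast hl'))
      have h5 := hne ⟨t, l, by omega⟩
      have h6 := Real.sqrt_pos.2 h4
      rw [hv]
      simp only [map_smul]
      rw [T.e_pow (hμ t) (h0 t), T.norm_pow (hμ t) (h0 t) hl'.le, smul_smul, smul_smul]
      congr 1
      have h7 : ((l + 1) * (m t - l) : ℂ) = ((√((l + 1) * (m t - l)) ^ 2 : ℝ) : ℂ) := by
        rw [Real.sq_sqrt h4.le]
        push_cast
        rfl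
      rw [h7, ← ofReal_mul, ← ofReal_mul]
      congr 1
      simp only at h5
      field_simp
    rw [h3, inner_smul_right, orthonormal_iff_ite.1 hon]
    obtain ⟨s, k⟩ := i
    by_cases h4 : s = t ∧ l = k.val
    · obtain ⟨rfl, rfl⟩ := h4
      rw [if_pos rfl, if_pos ⟨rfl, rfl⟩, mul_one]
      push_cast
      rw [add_sub_add_right_eq_sub]
    · rw [if_neg, if_neg, mul_zero]
      · exact fun h => h4 ⟨h.1, Nat.succ_injective h.2⟩
      · intro h
        obtain ⟨rfl, h5⟩ := Sigma.mk.inj h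
        exact h4 ⟨rfl, by rw [eq_of_heq h5]⟩

open Classical in
theorem Tri.blocks (T : Tri e f h) {Q : Type} [Fintype Q] (P : Q → Submodule ℂ V)
    (hP : ∀ q q', q ≠ q' → ∀ x ∈ P q, ∀ y ∈ P q', inner ℂ x y = 0)
    (hf : ∀ q, ∀ x ∈ P q, f x ∈ P q) (hh : ∀ q, ∀ x ∈ P q, h x ∈ P q)
    (hd : ∀ x, e x = 0 → ∃ y : Q → V, (∀ q, y q ∈ P q ∧ e (y q) = 0) ∧ x = ∑ q, y q) :
    ∃ (S : Type) (_ : Fintype S) (b : S → Q) (m : S → ℕ)
      (v : OrthonormalBasis (Σ s, Fin (m s + 1)) ℂ V), (∀ i, v i ∈ P (b i.1)) ∧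
      ∀ i j, inner ℂ (v i) (e (v j)) = if i.1 = j.1 ∧ j.2.val = i.2.val + 1 then
        ((√(j.2.val * ((m j.1 + 1 : ℕ) - j.2.val)) : ℝ) : ℂ) else 0 := by
  have hK : ∀ q, ∀ x ∈ P q ⊓ LinearMap.ker e, h x ∈ P q ⊓ LinearMap.ker e := fun q x hx =>
    ⟨hh q x hx.1, by
      have h1 := T.he_apply x
      have h2 : e x = 0 := hx.2
      rw [h2, map_zero, smul_zero, zero_sub, neg_eq_zero] at h1
      exact h1⟩
  have hs := fun q => T.symm.restrict_invariant (hK q)
  obtain ⟨u, hu⟩ : ∃ u : (Σ q, Fin (Module.finrank ℂ ↥(P q ⊓ LinearMap.ker e))) → V,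
      u = fun s => ((hs s.1).eigenvectorBasis rfl s.2 : V) := ⟨_, rfl⟩
  have hmem : ∀ s, u s ∈ P s.1 ⊓ LinearMap.ker e := fun s => by
    rw [hu]; exact ((hs s.1).eigenvectorBasis rfl s.2).2
  have hon : Orthonormal ℂ u := by
    refine ⟨fun s => ?_, fun s t hst => ?_⟩
    · rw [hu]
      exact ((hs s.1).eigenvectorBasis rfl).orthonormal.1 s.2
    · by_cases h1 : s.1 = t.1
      · obtain ⟨q, k⟩ := s
        obtain ⟨q', l⟩ := t
        obtain rfl : q = q' := h1
        rw [hu]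
        exact ((hs q).eigenvectorBasis rfl).orthonormal.2 fun hkl => hst (congrArg _ hkl)
      · exact hP _ _ h1 _ (hmem s).1 _ (hmem t).1
  obtain ⟨m, v, hv, hv'⟩ := T.strings hon (fun s => (hmem s).2) (fun s => ⟨_, by
    rw [hu]
    exact congrArg Subtype.val ((hs s.1).apply_eigenvectorBasis rfl s.2)⟩) fun x hx h0 => by
      obtain ⟨y, hy, rfl⟩ := hd x hx
      refine Finset.sum_eq_zero fun q _ => ?_
      have h1 : (⟨y q, (hy q).1, (hy q).2⟩ : ↥(P q ⊓ LinearMap.ker e)) = 0 := by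
        rw [← ((hs q).eigenvectorBasis rfl).sum_repr' ⟨y q, (hy q).1, (hy q).2⟩]
        refine Finset.sum_eq_zero fun k _ => ?_
        have h2 := h0 ⟨q, k⟩
        rw [inner_sum, Finset.sum_eq_single q (fun q' _ hq' =>
          hP _ _ hq'.symm _ (hmem ⟨q, k⟩).1 _ (hy q').1) (by simp), hu] at h2
        exact smul_eq_zero_of_left h2 _
      exact congrArg Subtype.val h1
  refine ⟨_, inferInstance, fun s => s.1, m, v, fun i => ?_, hv'⟩
  obtain ⟨c, hc⟩ := hv i
  rw [hc]
  refine Submodule.smul_mem _ _ ?_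
  generalize i.2.val = k
  induction k with
  | zero => exact (hmem i.1).1
  | succ k ih => rw [pow_succ']; exact hf _ _ ih

end Vale.Agent.P353.D2Aux
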