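import Vale.Agent.P353.Gen

/-! Positive square roots. -/

noncomputable section

open MeasureTheory Filter Topology Complex Matrix
open scoped ContDiff RealInnerProductSpace

namespace Vale.Agent.P353

variable {V V' : Type} [NormedAddCommGroup V] [InnerProductSpace ℝ V] [FiniteDimensional ℝ V]
  [NormedAddCommGroup V'] [InnerProductSpace ℝ V'] [FiniteDimensional ℝ V']

namespace PsqAux

theorem lower {X : Type} [TopologicalSpace X] {K : X → V →L[ℝ] V} {Z : Set X}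
    (hZ : IsCompact Z) (hK : ContinuousOn K Z) (W : Submodule ℝ V)
    (h : ∀ x ∈ Z, ∀ u ∈ W, u ≠ 0 → 0 < ⟪u, K x u⟫) :
    ∃ k > 0, ∀ x ∈ Z, ∀ u ∈ W, k * ‖u‖ ^ 2 ≤ ⟪u, K x u⟫ := by
  obtain ⟨k, k0, hk⟩ := (hZ.prod ((isCompact_sphere (0 : V) 1).inter_right
    W.closed_of_finiteDimensional)).exists_forall_le' (f := fun p : X × V => ⟪p.2, K p.1 p.2⟫)
    (continuousOn_snd.inner ((hK.comp continuousOn_fst fun p hp => (Set.mem_prod.1 hp).1).clm_apply
      continuousOn_snd))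
    (a := 0) fun p hp => h p.1 hp.1 p.2 hp.2.2 (Metric.ne_of_mem_sphere hp.2.1 one_ne_zero)
  refine ⟨k, k0, fun x hx u hu => ?_⟩
  rcases eq_or_ne u 0 with rfl | u0
  · simp
  have h1 := hk (x, ‖u‖⁻¹ • u) ⟨hx, mem_sphere_zero_iff_norm.2 (norm_smul_inv_norm u0),
    W.smul_mem _ hu⟩
  have h2 := norm_pos_iff.2 u0
  simp only [map_smul, real_inner_smul_left, real_inner_smul_right] at h1
  rwa [← mul_assoc, ← mul_inv, le_inv_mul_iff₀' (by positivity), ← sq] at h1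

theorem eig {B : V →ₗ[ℝ] V} (hB : B.IsSymmetric) :
    ∃ (n : ℕ) (e : OrthonormalBasis (Fin n) ℝ V) (β : Fin n → ℝ), ∀ i, B (e i) = β i • e i :=
  ⟨_, hB.eigenvectorBasis rfl, hB.eigenvalues rfl, hB.apply_eigenvectorBasis rfl⟩

omit [FiniteDimensional ℝ V] in
theorem quad {B : V →ₗ[ℝ] V} {n : ℕ} {e : OrthonormalBasis (Fin n) ℝ V} {β : Fin n → ℝ}
    (h : ∀ i, B (e i) = β i • e i) (u v : V) : ⟪u, B v⟫ = ∑ i, β i * (⟪u, e i⟫ * ⟪e i, v⟫) := by
  conv_lhs => rw [← e.sum_repr' v]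
  simp only [map_sum, map_smul, h, inner_sum, real_inner_smul_right]
  exact Finset.sum_congr rfl fun i _ => by ring

omit [FiniteDimensional ℝ V] in
theorem quad_le {B : V →ₗ[ℝ] V} {n : ℕ} {e : OrthonormalBasis (Fin n) ℝ V} {β : Fin n → ℝ}
    (h : ∀ i, B (e i) = β i • e i) {k : ℝ} (hk : ∀ i, k ≤ β i) (u : V) :
    k * ‖u‖ ^ 2 ≤ ⟪u, B u⟫ := by
  rw [quad h, ← real_inner_self_eq_norm_sq, ← e.sum_inner_mul_inner, Finset.mul_sum]
  exact Finset.sum_le_sum fun i _ => mul_le_mul_of_nonneg_right (hk i)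
    (real_inner_comm u (e i) ▸ mul_self_nonneg _)

omit [FiniteDimensional ℝ V] in
theorem inner_eig {B : V →ₗ[ℝ] V} {n : ℕ} {e : OrthonormalBasis (Fin n) ℝ V} {β : Fin n → ℝ}
    (h : ∀ i, B (e i) = β i • e i) (i : Fin n) : ⟪e i, B (e i)⟫ = β i := by
  rw [h, real_inner_smul_right, real_inner_self_eq_norm_sq, e.orthonormal.1, one_pow, mul_one]

theorem exists_sqrt {K : V →L[ℝ] V} (h : IsPD K) : ∃ B : V →L[ℝ] V, IsPD B ∧ B * B = K := by
  obtain ⟨n, e, β, hβ⟩ := eig (B := (K : V →ₗ[ℝ] V)) h.1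
  have h0 : ∀ i, 0 < β i := fun i => inner_eig hβ i ▸ h.2 _ (e.orthonormal.ne_zero i)
  obtain ⟨B, hB⟩ : ∃ B : V →L[ℝ] V, ∀ i, (B : V →ₗ[ℝ] V) (e i) = √(β i) • e i :=
    ⟨(e.toBasis.constr ℝ fun i => √(β i) • e i).toContinuousLinearMap, fun i =>
      e.toBasis.constr_basis ℝ _ i⟩
  obtain ⟨k, k0, hk⟩ := (Set.toFinite (Set.univ : Set (Fin n))).isCompact.exists_forall_le'
    (f := fun i => √(β i)) continuous_of_discreteTopology.continuousOn
    fun i _ => Real.sqrt_pos.2 (h0 i)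
  refine ⟨B, ⟨fun u v => ?_, fun u hu => (mul_pos k0 (pow_pos (norm_pos_iff.2 hu) 2)).trans_le
    (quad_le hB (fun i => hk i trivial) u)⟩, ContinuousLinearMap.coe_injective
    (e.toBasis.ext fun i => ?_)⟩
  · refine (real_inner_comm _ _).trans ((quad hB v u).trans (Eq.trans ?_ (quad hB u v).symm))
    exact Finset.sum_congr rfl fun i _ => by
      rw [real_inner_comm u, real_inner_comm v, mul_comm ⟪v, e i⟫]
  · refine Eq.trans (b := (B : V →ₗ[ℝ] V) ((B : V →ₗ[ℝ] V) (e i))) rfl ?_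
    rw [hB, map_smul, hB, smul_smul, Real.mul_self_sqrt (h0 i).le]
    exact (hβ i).symm

theorem sylv {B : V →L[ℝ] V} {B' : V' →L[ℝ] V'} {b : ℝ}
    (h : ∀ u, b * ‖u‖ ^ 2 ≤ ⟪u, B u⟫) (h' : ∀ u, b * ‖u‖ ^ 2 ≤ ⟪u, B' u⟫)
    (T : V →L[ℝ] V') : 2 * b * ‖T‖ ≤ ‖B' ∘L T + T ∘L B‖ := by
  rcases (norm_nonneg T).eq_or_lt with T0 | T0
  · rw [← T0, mul_zero]
    exact norm_nonneg _
  obtain ⟨u, hu, hm⟩ := (isCompact_closedBall (0 : V) 1).exists_isMaxOn
    ⟨0, Metric.mem_closedBall_self zero_le_one⟩ (f := fun u => ‖T u‖) (by fun_prop)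
  have u1 := mem_closedBall_zero_iff.1 hu
  have h1 : ‖T u‖ = ‖T‖ := (T.unit_le_opNorm u u1).antisymm (T.opNorm_le_of_unit_norm
    (norm_nonneg _) fun v hv => hm (mem_closedBall_zero_iff.2 hv.le))
  have u2 : ‖u‖ = 1 := u1.antisymm (le_of_mul_le_mul_left
    (((mul_one _).trans h1.symm).trans_le (T.le_opNorm u)) T0)
  have h2 : T.adjoint (T u) = ‖T‖ ^ 2 • u := by
    have k1 := norm_sub_sq_real (T.adjoint (T u)) (‖T‖ ^ 2 • u)
    have k2 := pow_le_pow_left₀ (norm_nonneg _) (T.adjoint.le_opNorm (T u)) 2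
    rw [real_inner_smul_right, T.adjoint_inner_left, real_inner_self_eq_norm_sq, norm_smul, u2, h1,
      Real.norm_of_nonneg (sq_nonneg _)] at k1
    rw [LinearIsometryEquiv.norm_map, h1] at k2
    exact sub_eq_zero.1 (norm_eq_zero.1 (pow_eq_zero_iff two_ne_zero |>.1
      ((sq_nonneg _).antisymm' (by linarith))))
  have h3 := (real_inner_le_norm (T u) _).trans (mul_le_mul_of_nonneg_left
    ((B' ∘L T + T ∘L B).unit_le_opNorm u u1) (norm_nonneg _))
  have h4 := h' (T u)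
  have h5 := mul_le_mul_of_nonneg_left (h u) (sq_nonneg ‖T‖)
  rw [_root_.add_apply, inner_add_right, ContinuousLinearMap.comp_apply, ContinuousLinearMap.comp_apply,
    ← T.adjoint_inner_left, h2, real_inner_smul_left, h1] at h3
  rw [u2] at h5
  rw [h1] at h4
  exact le_of_mul_le_mul_left (by linarith) T0

theorem low {K : V →L[ℝ] V} (h : IsPD K) : ∃ k > 0, ∀ u, k * ‖u‖ ^ 2 ≤ ⟪u, K u⟫ := by
  obtain ⟨k, k0, hk⟩ := lower (K := fun _ : Unit => K) isCompact_univ continuousOn_const ⊤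
    fun _ _ u _ => h.2 u
  exact ⟨k, k0, fun u => hk () trivial u trivial⟩

theorem sylv0 {B : V →L[ℝ] V} {B' : V' →L[ℝ] V'} (h : IsPD B) (h' : IsPD B') {T : V →L[ℝ] V'}
    (hT : B' ∘L T + T ∘L B = 0) : T = 0 := by
  obtain ⟨k, k0, hk⟩ := low h
  obtain ⟨k', k0', hk'⟩ := low h'
  have h1 := sylv (b := min k k')
    (fun u => (mul_le_mul_of_nonneg_right (min_le_left _ _) (sq_nonneg _)).trans (hk u))
    (fun u => (mul_le_mul_of_nonneg_right (min_le_right _ _) (sq_nonneg _)).trans (hk' u)) T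
  rw [hT, norm_zero] at h1
  exact norm_le_zero_iff.1 (nonpos_of_mul_nonpos_right h1 (by positivity))

theorem intw {B : V →L[ℝ] V} {B' : V' →L[ℝ] V'} (h : IsPD B) (h' : IsPD B') {T : V →L[ℝ] V'}
    (hT : T ∘L (B * B) = (B' * B') ∘L T) : T ∘L B = B' ∘L T := by
  refine sub_eq_zero.1 (sylv0 h h' (ContinuousLinearMap.ext fun u => ?_))
  simpa [sub_eq_zero] using DFunLike.congr_fun hT u

omit [FiniteDimensional ℝ V] in
theorem spec {K : V →L[ℝ] V} (h : ∃ B : V →L[ℝ] V, IsPD B ∧ B * B = K) :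
    IsPD (psq K) ∧ psq K * psq K = K := by
  rw [psq, dif_pos h]
  exact h.choose_spec

end PsqAux

open PsqAux

theorem IsPD.exists_lower {K : V →L[ℝ] V} (h : IsPD K) : ∃ k > 0, ∀ u, k * ‖u‖ ^ 2 ≤ ⟪u, K u⟫ :=
  low h

theorem IsPD.isUnit {K : V →L[ℝ] V} (h : IsPD K) : IsUnit K := by
  refine ContinuousLinearMap.isUnit_iff_isUnit_toLinearMap.2 ((LinearMap.isUnit_iff_ker_eq_bot _).2
    (LinearMap.ker_eq_bot'.2 fun u hu => by_contra fun h0 => (h.2 u h0).ne' ?_))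
  rw [show K u = 0 from hu, inner_zero_right]

theorem IsPD.inverse {K : V →L[ℝ] V} (h : IsPD K) : IsPD (Ring.inverse K) := by
  have e : ∀ u, K (Ring.inverse K u) = u := fun u =>
    DFunLike.congr_fun (Ring.mul_inverse_cancel K h.isUnit) u
  refine ⟨fun u v => ?_, fun u hu => ?_⟩
  · conv_lhs => rw [← e v, ← h.1, e]
  · have k := h.2 (Ring.inverse K u) fun h0 => hu (by rw [← e u, h0, map_zero])
    rwa [e, real_inner_comm] at k

theorem isUnit_iff_det_ne_zero (K : V →L[ℝ] V) : IsUnit K ↔ K.det ≠ 0 :=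
  ContinuousLinearMap.isUnit_iff_isUnit_toLinearMap.trans
    ((LinearMap.isUnit_iff_isUnit_det _).trans isUnit_iff_ne_zero)

theorem psq_pd {K : V →L[ℝ] V} (h : IsPD K) : IsPD (psq K) := (spec (exists_sqrt h)).1

theorem psq_mul_self {K : V →L[ℝ] V} (h : IsPD K) : psq K * psq K = K := (spec (exists_sqrt h)).2

theorem psq_unique {B K : V →L[ℝ] V} (h : IsPD B) (hK : B * B = K) : psq K = B :=
  intw (T := 1) (spec ⟨B, h, hK⟩).1 h ((spec ⟨B, h, hK⟩).2.trans hK.symm)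

theorem psq_intertwine {K : V →L[ℝ] V} {K' : V' →L[ℝ] V'} (h : IsPD K) (h' : IsPD K')
    {T : V →L[ℝ] V'} (hT : T ∘L K = K' ∘L T) : T ∘L psq K = psq K' ∘L T :=
  intw (psq_pd h) (psq_pd h') (by rw [psq_mul_self h, psq_mul_self h', hT])

theorem psq_comm {K a : V →L[ℝ] V} (h : IsPD K) (ha : a * K = K * a) : a * psq K = psq K * a :=
  psq_intertwine h h ha

theorem psq_lower {K : V →L[ℝ] V} (h : IsPD K) {W : Submodule ℝ V} (hW : ∀ u ∈ W, K u ∈ W)
    {k : ℝ} (hk0 : 0 ≤ k) (hk : ∀ u ∈ W, k ^ 2 * ‖u‖ ^ 2 ≤ ⟪u, K u⟫) :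
    ∀ u ∈ W, k * ‖u‖ ^ 2 ≤ ⟪u, psq K u⟫ := by
  have h1 : W.starProjection * K = K * W.starProjection := ContinuousLinearMap.ext fun u =>
    Submodule.eq_starProjection_of_mem_of_inner_eq_zero (hW _ (W.starProjection_apply_mem u))
      fun w hw => by
        refine Eq.trans ?_ ((h.1 _ _).trans (W.starProjection_inner_eq_zero u _ (hW w hw)))
        rw [map_sub]
        rfl
  have h2 : ∀ u ∈ W, (psq K : V →ₗ[ℝ] V) u ∈ W := fun u hu => by
    have k := DFunLike.congr_fun (psq_comm h h1) u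
    rw [mul_apply_eq_comp, mul_apply_eq_comp, Submodule.starProjection_eq_self_iff.2 hu] at k
    exact Submodule.starProjection_eq_self_iff.1 k
  obtain ⟨n, e, β, hβ⟩ := eig (LinearMap.IsSymmetric.restrict_invariant (psq_pd h).1 h2)
  refine fun u hu => quad_le hβ (fun i => ?_) ⟨u, hu⟩
  have e0 : ‖(e i : V)‖ = 1 := e.orthonormal.1 i
  have e1 : psq K (e i) = β i • (e i : V) := congrArg Subtype.val (hβ i)
  have e2 := (psq_pd h).2 (e i) (norm_ne_zero_iff.1 (e0 ▸ one_ne_zero))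
  have e3 := hk _ (e i).2
  rw [← psq_mul_self h, mul_apply_eq_comp, e1, map_smul, e1] at e3
  simp only [e1, real_inner_smul_right, real_inner_self_eq_norm_sq, e0, one_pow, mul_one] at e2 e3
  exact (sq_le_sq₀ hk0 e2.le).1 (e3.trans_eq (sq _).symm)

/-- Sylvester estimate -/
theorem sylvester {B : V →L[ℝ] V} {B' : V' →L[ℝ] V'} (hB : IsSym B) (hB' : IsSym B') {b : ℝ}
    (hb : 0 < b) (h : ∀ u, b * ‖u‖ ^ 2 ≤ ⟪u, B u⟫) (h' : ∀ u, b * ‖u‖ ^ 2 ≤ ⟪u, B' u⟫)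
    (T : V →L[ℝ] V') : 2 * b * ‖T‖ ≤ ‖B' ∘L T + T ∘L B‖ :=
  (fun _ _ _ => sylv h h' T) hB hB' hb

theorem PsqAux.ev_pd {X : Type} [TopologicalSpace X] {K : X → V →L[ℝ] V} {x : X}
    (hK : ContinuousAt K x) (hs : ∀ᶠ y in 𝓝 x, IsSym (K y)) (h : IsPD (K x)) :
    ∀ᶠ y in 𝓝 x, IsPD (K y) := by
  obtain ⟨k, k0, hk⟩ := low h
  filter_upwards [hs, Metric.tendsto_nhds.1 hK k k0] with y h1 h2
  refine ⟨h1, fun u hu => ?_⟩
  have h3 := (real_inner_le_norm u _).trans (mul_le_mul_of_nonneg_left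
    ((K x - K y).le_opNorm u) (norm_nonneg _))
  rw [dist_comm, dist_eq_norm] at h2
  rw [_root_.sub_apply, inner_sub_right] at h3
  linarith [hk u, mul_lt_mul_of_pos_right h2 (pow_pos (norm_pos_iff.2 hu) 2)]

theorem contDiffAt_psq {X : Type} [NormedAddCommGroup X] [NormedSpace ℝ X] {K : X → V →L[ℝ] V}
    {x : X} (hK : ContDiffAt ℝ ∞ K x) (hs : ∀ᶠ y in 𝓝 x, IsSym (K y)) (h : IsPD (K x)) :
    ContDiffAt ℝ ∞ (fun y => psq (K y)) x := by
  obtain ⟨L, h0, hL⟩ : ∃ L : (V →L[ℝ] V) →L[ℝ] V →L[ℝ] V,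
      HasFDerivAt (fun B : V →L[ℝ] V => B * B) L (psq (K x)) ∧
        ∀ T, L T = psq (K x) ∘L T + T ∘L psq (K x) :=
    ⟨_, (hasFDerivAt_id (psq (K x))).fun_mul' (hasFDerivAt_id (psq (K x))), fun _ => rfl⟩
  obtain ⟨L, hL⟩ : ∃ L : (V →L[ℝ] V) ≃L[ℝ] V →L[ℝ] V,
      HasFDerivAt (fun B : V →L[ℝ] V => B * B) (L : (V →L[ℝ] V) →L[ℝ] V →L[ℝ] V) (psq (K x)) :=
    ⟨ContinuousLinearEquiv.ofUnit ((L.isUnit_iff_isUnit_toLinearMap).2
      ((LinearMap.isUnit_iff_ker_eq_bot _).2 (LinearMap.ker_eq_bot'.2 fun T hT =>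
        sylv0 (psq_pd h) (psq_pd h) ((hL T).symm.trans hT)))).unit, h0⟩
  have h1 : ContDiffAt ℝ ∞ (fun B : V →L[ℝ] V => B * B) (psq (K x)) :=
    contDiffAt_id.mul contDiffAt_id
  have hn : (∞ : WithTop ℕ∞) ≠ 0 := by simp
  have h2 := h1.to_localInverse hL hn
  have h3 := h1.localInverse_apply_image hL hn
  have h4 := (h1.hasStrictFDerivAt' hL hn).eventually_right_inverse
  have h5 := (h1.hasStrictFDerivAt' hL hn).eventually_left_inverse
  change ∀ᶠ y in _, h1.localInverse hL hn y * h1.localInverse hL hn y = y at h4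
  change ∀ᶠ y in _, h1.localInverse hL hn (y * y) = y at h5
  generalize h1.localInverse hL hn = g at h2 h3 h4 h5
  simp only [psq_mul_self h] at h2 h3 h4
  have h6 := h2.comp x hK
  have hsa : ∀ {B : V →L[ℝ] V}, IsSym B ↔ star B = B :=
    ContinuousLinearMap.isSelfAdjoint_iff_isSymmetric.symm
  have h7 : Tendsto (fun y => star (g (K y))) (𝓝 x) (𝓝 (psq (K x))) := by
    have k := h6.continuousAt.star
    rwa [ContinuousAt, Function.comp_apply, h3, hsa.1 (psq_pd h).1] at k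
  have h8 := hK.continuousAt.eventually h4
  have h9 : ∀ᶠ y in 𝓝 x, IsSym ((g ∘ K) y) := by
    filter_upwards [hs, h8, h7.eventually h5] with y k1 k2 k3
    rw [← star_mul, k2, hsa.1 k1] at k3
    exact hsa.2 k3.symm
  refine h6.congr_of_eventuallyEq ?_
  filter_upwards [h8, ev_pd h6.continuousAt h9 (h3.symm ▸ psq_pd h : IsPD (g (K x)))] with y k1 k2
  exact psq_unique k2 k1

theorem eventually_isPD {X : Type} [TopologicalSpace X] {K : X → V →L[ℝ] V} {x : X}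
    (hK : ContinuousAt K x) (hs : ∀ᶠ y in 𝓝 x, IsSym (K y)) (h : IsPD (K x)) :
    ∀ᶠ y in 𝓝 x, IsPD (K y) := ev_pd hK hs h

/-- uniform lower bound on a compact set -/
theorem exists_lower_compact {X : Type} [TopologicalSpace X] {K : X → V →L[ℝ] V} {Z : Set X}
    (hZ : IsCompact Z) (hK : ContinuousOn K Z) (W : Submodule ℝ V)
    (h : ∀ x ∈ Z, ∀ u ∈ W, u ≠ 0 → 0 < ⟪u, K x u⟫) :
    ∃ k > 0, ∀ x ∈ Z, ∀ u ∈ W, k * ‖u‖ ^ 2 ≤ ⟪u, K x u⟫ := lower hZ hK W h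

theorem contDiff_det : ContDiff ℝ ∞ fun a : V →L[ℝ] V => a.det := by
  simp only [ContinuousLinearMap.det, ← LinearMap.det_toMatrix (stdOrthonormalBasis ℝ V).toBasis,
    Matrix.det_apply', LinearMap.toMatrix_apply, OrthonormalBasis.coe_toBasis_repr_apply,
    OrthonormalBasis.repr_apply_apply, ContinuousLinearMap.coe_coe]
  exact ContDiff.sum fun σ _ => contDiff_const.mul (contDiff_prod fun i _ =>
    contDiff_const.inner ℝ (contDiff_id.clm_apply contDiff_const))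

/-- derivative of the determinant -/
theorem hasFDerivAt_det {a : V →L[ℝ] V} (ha : a.det ≠ 0) : ∃ L : (V →L[ℝ] V) →L[ℝ] ℝ,
    HasFDerivAt (fun b : V →L[ℝ] V => b.det) L a ∧
      ∀ b, L b = a.det * trR (Ring.inverse a * b) := by
  have h := (contDiff_det.differentiable (by simp) a).hasFDerivAt
  refine ⟨_, h, fun b => (h.hasLineDerivAt b).unique ?_⟩
  obtain ⟨p, hp⟩ : ∃ p : Polynomial ℝ, ∀ t : ℝ, (a + t • b).det =
      a.det * (1 + trR (Ring.inverse a * b) * t + p.eval t * t ^ 2) := ⟨_, fun t => by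
    rw [trR, LinearMap.trace_eq_matrix_trace ℝ (Module.finBasis ℝ V), ← Matrix.det_one_add_smul,
      ← LinearMap.toMatrix_one (Module.finBasis ℝ V), ← map_smul, ← map_add,
      LinearMap.det_toMatrix, ContinuousLinearMap.det, ContinuousLinearMap.det, ← map_mul]
    refine congrArg _ (congrArg ContinuousLinearMap.toLinearMap
      (show _ = a * (1 + t • (Ring.inverse a * b)) from ?_))
    rw [mul_add, mul_one, mul_smul_comm,
      Ring.mul_inverse_cancel_left _ _ ((isUnit_iff_det_ne_zero a).2 ha)]⟩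
  simp only [HasLineDerivAt, hp]
  simpa using ((((hasDerivAt_id' (0 : ℝ)).const_mul (trR (Ring.inverse a * b))).const_add 1).fun_add
    ((p.hasDerivAt 0).fun_mul (hasDerivAt_pow 2 0))).const_mul a.det

end Vale.Agent.P353
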