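import Vale.Agent.P353.Cov
import Vale.Agent.P353.Psq

/-! Algebra at a fuzzy sphere vacuum. -/

noncomputable section

open MeasureTheory Filter Topology Complex
open scoped ContDiff RealInnerProductSpace Matrix

namespace Vale.Agent.P353.D3Aux

section Gen

variable {V : Type} [NormedAddCommGroup V] [InnerProductSpace ℝ V] [FiniteDimensional ℝ V]

theorem sum3 {M : Type} [AddCommMonoid M] (f : Fin 9 → M) (h : ∀ i : Fin 9, 3 ≤ i.val → f i = 0) :
    ∑ i, f i = f 0 + f 1 + f 2 := by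
  rw [← Finset.sum_subset (Finset.subset_univ ({0, 1, 2} : Finset (Fin 9)))]
  · rw [Finset.sum_insert (by decide), Finset.sum_insert (by decide), Finset.sum_singleton,
      add_assoc]
  · intro i _ hi
    apply h
    revert i
    decide

/-- an operator that preserves a subspace together with its adjoint commutes with the
projection -/
theorem proj_comm {Y : Submodule ℝ V} {R R' : V →L[ℝ] V} (h : ∀ x y, ⟪R x, y⟫ = ⟪x, R' y⟫)
    (h1 : ∀ x ∈ Y, R x ∈ Y) (h2 : ∀ x ∈ Y, R' x ∈ Y) (x : V) :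
    Y.starProjection (R x) = R (Y.starProjection x) := by
  apply Submodule.eq_starProjection_of_mem_orthogonal (h1 _ (Y.starProjection_apply_mem x))
  rw [← map_sub, Submodule.mem_orthogonal']
  intro y hy
  rw [h]
  exact Submodule.inner_left_of_mem_orthogonal (h2 y hy) (Y.sub_starProjection_mem_orthogonal x)

omit [FiniteDimensional ℝ V] in
theorem norm_of_sq {J : V →L[ℝ] V} (h : IsSkew J) (h2 : J * J = -1) (x : V) : ‖J x‖ = ‖x‖ := by
  have h3 : J (J x) = -x := by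
    have := congrArg (fun T : V →L[ℝ] V => T x) h2
    simpa using this
  have : ‖J x‖ ^ 2 = ‖x‖ ^ 2 := by
    rw [← real_inner_self_eq_norm_sq, h, h3, inner_neg_right, neg_neg, real_inner_self_eq_norm_sq]
  exact (pow_left_inj₀ (norm_nonneg _) (norm_nonneg _) two_ne_zero).1 this

omit [FiniteDimensional ℝ V] in
theorem eq_of_form {T : V →L[ℝ] V} (h : IsSym T) (h0 : ∀ u, ‖u‖ ^ 2 ≤ ⟪u, T u⟫) {u : V}
    (hu : ⟪u, T u⟫ ≤ ‖u‖ ^ 2) : T u = u := by
  set w := T u - u with hw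
  by_contra hne
  have hw0 : 0 < ‖w‖ ^ 2 := by
    have : w ≠ 0 := fun h' => hne (sub_eq_zero.1 h')
    positivity
  set q := ⟪w, T w⟫ - ‖w‖ ^ 2 with hq
  have hq0 : 0 ≤ q := sub_nonneg.2 (h0 w)
  have key : ∀ t : ℝ, 0 ≤ -2 * t * ‖w‖ ^ 2 + t ^ 2 * q := by
    intro t
    have h1 := h0 (u - t • w)
    have e1 : ⟪w, T u⟫ = ‖w‖ ^ 2 + ⟪w, u⟫ := by
      rw [← real_inner_self_eq_norm_sq, ← inner_add_right, hw]; congr 1; abel
    have e2 : ⟪u, T w⟫ = ‖w‖ ^ 2 + ⟪w, u⟫ := by rw [← h, real_inner_comm, e1]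
    rw [← real_inner_self_eq_norm_sq] at h1
    simp only [map_sub, map_smul, inner_sub_left, inner_sub_right, inner_smul_left,
      inner_smul_right, e1, e2, real_inner_self_eq_norm_sq, real_inner_comm u w,
      conj_trivial] at h1
    have e3 : ⟪w, T w⟫ = q + ‖w‖ ^ 2 := by rw [hq]; ring
    rw [e3] at h1
    nlinarith
  have := key (‖w‖ ^ 2 / (q + 1))
  have e : -2 * (‖w‖ ^ 2 / (q + 1)) * ‖w‖ ^ 2 + (‖w‖ ^ 2 / (q + 1)) ^ 2 * q =
      -((‖w‖ ^ 2) ^ 2 * (q + 2) / (q + 1) ^ 2) := by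
    field_simp
    ring
  rw [e] at this
  have : 0 < (‖w‖ ^ 2) ^ 2 * (q + 2) / (q + 1) ^ 2 := by positivity
  linarith

omit [FiniteDimensional ℝ V] in
theorem trR_add [FiniteDimensional ℝ V] (a b : V →L[ℝ] V) : trR (a + b) = trR a + trR b := by
  simp [trR]

theorem casimir {R : Type} [Ring R] {x y z : R} (h1 : x * y = y * x - (z + z))
    (h2 : z * x = x * z - (y + y)) : Commute (1 - (x * x + y * y + z * z)) x := by
  have h3 : x * z = z * x + (y + y) := by rw [h2]; abel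
  unfold Commute SemiconjBy
  rw [← sub_eq_zero]
  have : (1 - (x * x + y * y + z * z)) * x - x * (1 - (x * x + y * y + z * z)) =
      (x * y - y * x) * y + y * (x * y - y * x) + (x * z - z * x) * z + z * (x * z - z * x) := by
    noncomm_ring
  rw [this, h1, h3]
  noncomm_ring

theorem ring_sq {R : Type} [Ring R] {D w o : R} (h1 : Commute w D) (h2 : D * D = -(o * o))
    (h3 : o * w = 1) : D * w * (D * w) = -1 := by
  calc D * w * (D * w) = D * (w * D) * w := by simp only [mul_assoc]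
    _ = -1 := by rw [h1.eq, ← mul_assoc, h2, neg_mul, neg_mul, mul_assoc o, h3, mul_one, h3]

theorem ring_key {R : Type} [Ring R] {D w G : R} (h1 : Commute w D) (h2 : Commute w G)
    (h3 : Commute G (D * w)) (h4 : D * w * (D * w) = -1) : D * w * w * (G * D) = -G := by
  rw [mul_assoc, ← mul_assoc w, h2.eq, mul_assoc G, h1.eq, ← mul_assoc (D * w), ← h3.eq,
    mul_assoc G, h4, mul_neg, mul_one]

end Gen

variable {d : ℕ}

/-- three skew operators with the commutation relations of `su(2)` -/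
structure Su (a : Fin 9 → Lg d →L[ℝ] Lg d) : Prop where
  skew : ∀ i, IsSkew (a i)
  r01 : a 0 * a 1 = a 1 * a 0 - (a 2 + a 2)
  r12 : a 1 * a 2 = a 2 * a 1 - (a 0 + a 0)
  r20 : a 2 * a 0 = a 0 * a 2 - (a 1 + a 1)

variable (γ : Fin 9 → M16) (a : Fin 9 → Lg d →L[ℝ] Lg d)

/-- one plus the Casimir -/
def KK : Lg d →L[ℝ] Lg d := 1 - (a 0 * a 0 + a 1 * a 1 + a 2 * a 2)

/-- frequencies -/
def om : Lg d →L[ℝ] Lg d := psq (KK a)

/-- inverse frequencies -/
def oi : Lg d →L[ℝ] Lg d := Ring.inverse (om a)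

/-- fermion mass operator -/
def DD : Tn 16 d →L[ℝ] Tn 16 d := kr (γ 0) (a 0) + kr (γ 1) (a 1) + kr (γ 2) (a 2)

/-- complex structure -/
def JJ : Tn 16 d →L[ℝ] Tn 16 d := (DD γ a + kr (Gm γ) 1) * kr 1 (oi a)

/-- divergence -/
def dv (W : Tn 9 d) : Lg d := a 0 (cmp 0 W) + a 1 (cmp 1 W) + a 2 (cmp 2 W)

/-- projection on the first three coordinates -/
def P3 : Tn 9 d →L[ℝ] Tn 9 d := tens (Pi.single 0 1) ∘L cmp 0 + tens (Pi.single 1 1) ∘L cmp 1 +
  tens (Pi.single 2 1) ∘L cmp 2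

/-- curl -/
def curl : Tn 9 d →L[ℝ] Tn 9 d :=
  tens (Pi.single 0 1) ∘L (a 1 ∘L cmp 2 - a 2 ∘L cmp 1) +
    tens (Pi.single 1 1) ∘L (a 2 ∘L cmp 0 - a 0 ∘L cmp 2) +
    tens (Pi.single 2 1) ∘L (a 0 ∘L cmp 1 - a 1 ∘L cmp 0)

/-- boson frequency form -/
def AA : Tn 9 d →L[ℝ] Tn 9 d := kr 1 (om a) + kr 1 (oi a) * (P3 + curl a)

/-- commutant -/
def Cm (b : Lg d →L[ℝ] Lg d) : Prop := ∀ i : Fin 9, i.val < 3 → Commute b (a i)

variable {γ a}

theorem inner_KK (h : Su a) (u : Lg d) :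
    ⟪u, KK a u⟫ = ‖u‖ ^ 2 + (‖a 0 u‖ ^ 2 + ‖a 1 u‖ ^ 2 + ‖a 2 u‖ ^ 2) := by
  have e : ∀ i, ⟪u, a i (a i u)⟫ = -‖a i u‖ ^ 2 := fun i => by
    rw [← real_inner_self_eq_norm_sq, h.skew i, neg_neg]
  simp only [KK, sub_apply, add_apply, mul_apply_eq_comp, one_apply_eq_self, inner_sub_right,
    inner_add_right, e, real_inner_self_eq_norm_sq]
  ring

theorem KK_pd (h : Su a) : IsPD (KK a) := by
  refine ⟨fun u v => ?_, fun u hu => ?_⟩
  · have e : ∀ i, ⟪a i (a i u), v⟫ = ⟪u, a i (a i v)⟫ := fun i => by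
      rw [h.skew i, h.skew i, neg_neg]
    simp only [KK, sub_apply, add_apply, mul_apply_eq_comp, one_apply_eq_self, inner_sub_right,
      inner_add_right, inner_sub_left, inner_add_left, e]
  · rw [inner_KK h]
    positivity

theorem om_pd (h : Su a) : IsPD (om a) := psq_pd (KK_pd h)

theorem om_sq (h : Su a) : om a * om a = KK a := psq_mul_self (KK_pd h)

theorem om_lower (h : Su a) (u : Lg d) : ‖u‖ ^ 2 ≤ ⟪u, om a u⟫ := by
  have := psq_lower (KK_pd h) (W := ⊤) (fun _ _ => trivial) zero_le_one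
    (fun u _ => by
      rw [inner_KK h, one_pow, one_mul]
      exact le_add_of_nonneg_right (by positivity)) u trivial
  rwa [one_mul] at this

theorem oi_sym (h : Su a) : IsSym (oi a) := (om_pd h).inverse.1

theorem om_oi (h : Su a) : om a * oi a = 1 := Ring.mul_inverse_cancel _ (om_pd h).isUnit

theorem oi_om (h : Su a) : oi a * om a = 1 := Ring.inverse_mul_cancel _ (om_pd h).isUnit

theorem Cm.om (h : Su a) {b : Lg d →L[ℝ] Lg d} (hb : Cm a b) : Commute b (om a) := by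
  have h0 := hb 0 (by decide)
  have h1 := hb 1 (by decide)
  have h2 := hb 2 (by decide)
  exact psq_comm (KK_pd h) ((Commute.one_right b).sub_right
    (((h0.mul_right h0).add_right (h1.mul_right h1)).add_right (h2.mul_right h2)))

theorem Cm.oi (h : Su a) {b : Lg d →L[ℝ] Lg d} (hb : Cm a b) : Commute b (oi a) := by
  have := hb.om h
  calc b * D3Aux.oi a = D3Aux.oi a * (D3Aux.om a * b) * D3Aux.oi a := by
        rw [← mul_assoc, oi_om h, one_mul]
    _ = D3Aux.oi a * b := by rw [← this.eq, mul_assoc, mul_assoc, om_oi h, mul_one]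

theorem Cm_KK (h : Su a) : Cm a (KK a) := by
  intro i hi
  have : i = 0 ∨ i = 1 ∨ i = 2 := by revert i; decide
  rcases this with rfl | rfl | rfl
  · exact casimir h.r01 h.r20
  · have := casimir h.r12 h.r01
    rwa [add_comm _ (a 0 * a 0), ← add_assoc] at this
  · have := casimir h.r20 h.r12
    rwa [add_assoc, add_comm (a 2 * a 2)] at this

theorem Cm_om (h : Su a) : Cm a (om a) := fun i hi =>
  (show Commute (a i) (om a) from psq_comm (KK_pd h) (Cm_KK h i hi).symm).symm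

theorem Cm_oi (h : Su a) : Cm a (oi a) := fun i hi => by
  have := Cm_om h i hi
  calc oi a * a i = oi a * (a i * om a) * oi a := by
        rw [mul_assoc, mul_assoc, om_oi h, mul_one]
    _ = a i * oi a := by rw [← this.eq, ← mul_assoc, oi_om h, one_mul]

theorem comm_kr (M : M16) {b b' : Lg d →L[ℝ] Lg d} (hb : Commute b b') :
    Commute (kr (1 : M16) b) (kr M b') := by
  unfold Commute SemiconjBy
  rw [kr_mul, kr_mul, Matrix.one_mul, Matrix.mul_one, hb.eq]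

theorem Cm.DD {b : Lg d →L[ℝ] Lg d} (hb : Cm a b) :
    Commute (kr (1 : M16) b) (DD γ a + kr (Gm γ) 1) :=
  ((((comm_kr _ (hb 0 (by decide))).add_right (comm_kr _ (hb 1 (by decide)))).add_right
    (comm_kr _ (hb 2 (by decide)))).add_right (comm_kr _ (Commute.one_right b)))

theorem Cm.JJ (h : Su a) {b : Lg d →L[ℝ] Lg d} (hb : Cm a b) :
    Commute (kr (1 : M16) b) (JJ γ a) := hb.DD.mul_right (comm_kr _ (hb.oi h))

theorem G0 (hγ : IsGam γ) : Gm γ * γ 0 = γ 1 * γ 2 := by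
  rw [hγ.Gm_comm, if_pos (by decide), one_smul, Gm, ← mul_assoc, ← mul_assoc, hγ.sq, one_mul]

theorem G1 (hγ : IsGam γ) : Gm γ * γ 1 = γ 2 * γ 0 := by
  rw [Gm, mul_assoc, hγ.anti 2 1 (by decide), mul_neg, ← mul_assoc, mul_assoc (γ 0), hγ.sq,
    mul_one, hγ.anti 2 0 (by decide)]

theorem G2 (hγ : IsGam γ) : Gm γ * γ 2 = γ 0 * γ 1 := by
  rw [Gm, mul_assoc, hγ.sq, mul_one]

theorem G_comm (hγ : IsGam γ) {i : Fin 9} (hi : i.val < 3) : Gm γ * γ i = γ i * Gm γ := by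
  rw [hγ.Gm_comm, if_pos hi, one_smul]

theorem G_DD (hγ : IsGam γ) : Commute (kr (Gm γ) (1 : Lg d →L[ℝ] Lg d)) (DD γ a) := by
  have e : ∀ i : Fin 9, i.val < 3 →
      Commute (kr (Gm γ) (1 : Lg d →L[ℝ] Lg d)) (kr (γ i) (a i)) := fun i hi => by
    unfold Commute SemiconjBy
    rw [kr_mul, kr_mul, G_comm hγ hi, one_mul, mul_one]
  exact ((e 0 (by decide)).add_right (e 1 (by decide))).add_right (e 2 (by decide))

theorem G_JJ (hγ : IsGam γ) : Commute (kr (Gm γ) (1 : Lg d →L[ℝ] Lg d)) (JJ γ a) :=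
  ((G_DD hγ).add_right (Commute.refl _)).mul_right (comm_kr _ (Commute.one_right _)).symm

theorem G_sq (hγ : IsGam γ) :
    kr (Gm γ) (1 : Lg d →L[ℝ] Lg d) * kr (Gm γ) 1 = -1 := by
  rw [kr_mul, hγ.Gm_sq, kr_neg_left, mul_one, kr_one]

theorem G_skew (hγ : IsGam γ) : IsSkew (kr (Gm γ) (1 : Lg d →L[ℝ] Lg d)) :=
  Cov1Aux.skew_kr hγ.Gm_transpose fun _ _ => rfl

theorem DD_sq (hγ : IsGam γ) (h : Su a) :
    (DD γ a + kr (Gm γ) 1) * (DD γ a + kr (Gm γ) 1) = -kr 1 (KK a) := by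
  have g10 : γ 1 * γ 0 = -(γ 0 * γ 1) := hγ.anti 1 0 (by decide)
  have g21 : γ 2 * γ 1 = -(γ 1 * γ 2) := hγ.anti 2 1 (by decide)
  have g02 : γ 0 * γ 2 = -(γ 2 * γ 0) := hγ.anti 0 2 (by decide)
  simp only [DD, KK, add_mul, mul_add, kr_mul, hγ.sq, hγ.Gm_sq, ← G_comm hγ (i := 0) (by decide),
    ← G_comm hγ (i := 1) (by decide), ← G_comm hγ (i := 2) (by decide), G0 hγ, G1 hγ, G2 hγ,
    g10, g21, g02, kr_neg_left, mul_one, one_mul, kr_sub_right, kr_add_right]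
  rw [h.r01, h.r12, h.r20]
  simp only [kr_sub_right, kr_add_right]
  abel

theorem DD_skew (hγ : IsGam γ) (h : Su a) : IsSkew (DD γ a + kr (Gm γ) 1) := by
  intro u v
  have e : ∀ i, ⟪kr (γ i) (a i) u, v⟫ = -⟪u, kr (γ i) (a i) v⟫ := fun i => by
    rw [inner_kr (γ i) (a i) (-a i) (fun x y => by rw [h.skew i]; simp), hγ.symm, kr_neg_right,
      neg_apply, inner_neg_right]
  simp only [DD, add_apply, inner_add_left, inner_add_right, e, G_skew hγ u v]
  ring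

theorem sym_kr {n : ℕ} {b : Lg d →L[ℝ] Lg d} (hb : IsSym b) :
    IsSym (kr (1 : Matrix (Fin n) (Fin n) ℝ) b) := fun u v => by
  rw [inner_kr 1 b b hb, Matrix.transpose_one]

theorem JJ_skew (hγ : IsGam γ) (h : Su a) : IsSkew (JJ γ a) := fun u v => by
  have e := congrArg (fun T : Tn 16 d →L[ℝ] Tn 16 d => T v) ((Cm_oi h).DD (γ := γ)).eq
  simp only [mul_apply_eq_comp] at e
  rw [JJ, mul_apply_eq_comp, mul_apply_eq_comp, DD_skew hγ h, sym_kr (oi_sym h), e]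

theorem JJ_om (h : Su a) : JJ γ a * kr 1 (om a) = DD γ a + kr (Gm γ) 1 := by
  rw [JJ, mul_assoc, kr_mul, oi_om h, Matrix.mul_one, kr_one, mul_one]

theorem JJ_sq (hγ : IsGam γ) (h : Su a) : JJ γ a * JJ γ a = -1 :=
  ring_sq (o := kr 1 (om a)) (Cm_oi h).DD
    (by rw [DD_sq hγ h, kr_mul, om_sq h, Matrix.mul_one])
    (by rw [kr_mul, om_oi h, Matrix.mul_one, kr_one])

theorem JJ_key (hγ : IsGam γ) (h : Su a) {x y : Tn 16 d}
    (hx : kr (Gm γ) 1 x = DD γ a y + kr (Gm γ) 1 y) :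
    JJ γ a (kr 1 (oi a) x) = kr (Gm γ) 1 y := by
  have e0 := congrArg (fun T : Tn 16 d →L[ℝ] Tn 16 d => T x) (G_sq hγ)
  simp only [mul_apply_eq_comp, neg_apply, one_apply_eq_self] at e0
  have e1 : x = -kr (Gm γ) 1 (DD γ a y + kr (Gm γ) 1 y) := by rw [← hx, e0, neg_neg]
  have e2 : JJ γ a * kr 1 (oi a) * (kr (Gm γ) 1 * (DD γ a + kr (Gm γ) 1)) = -kr (Gm γ) 1 :=
    ring_key (Cm_oi h).DD (comm_kr _ (Commute.one_right _)) (G_JJ hγ) (JJ_sq hγ h)
  have := congrArg (fun T : Tn 16 d →L[ℝ] Tn 16 d => T y) e2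
  simp only [mul_apply_eq_comp, neg_apply, add_apply] at this
  rw [e1, map_neg, map_neg, this, neg_neg]

theorem tr_JJ (hγ : IsGam γ) (b : Lg d →L[ℝ] Lg d) : trR (JJ γ a * kr 1 b) = 0 := by
  simp only [JJ, DD, add_mul, kr_mul, Matrix.mul_one, trR_add, trR_kr, hγ.trace_gamma,
    hγ.trace_Gm, zero_mul, add_zero]

theorem P3_apply (W : Tn 9 d) : P3 W = tens (Pi.single 0 1) (cmp 0 W) +
    tens (Pi.single 1 1) (cmp 1 W) + tens (Pi.single 2 1) (cmp 2 W) := rfl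

theorem curl_apply (W : Tn 9 d) : curl a W =
    tens (Pi.single 0 1) (a 1 (cmp 2 W) - a 2 (cmp 1 W)) +
      tens (Pi.single 1 1) (a 2 (cmp 0 W) - a 0 (cmp 2 W)) +
      tens (Pi.single 2 1) (a 0 (cmp 1 W) - a 1 (cmp 0 W)) := rfl

theorem AA_apply (W : Tn 9 d) : AA a W = kr 1 (om a) W + kr 1 (oi a) (P3 W + curl a W) := rfl

theorem inner_three (x y z : Lg d) (W : Tn 9 d) :
    ⟪(tens (Pi.single 0 1) x + tens (Pi.single 1 1) y + tens (Pi.single 2 1) z : Tn 9 d), W⟫ =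
      ⟪x, cmp 0 W⟫ + ⟪y, cmp 1 W⟫ + ⟪z, cmp 2 W⟫ := by
  simp only [inner_add_left, inner_tens_left, Bas1Aux.cv_single]

theorem dv_three (x y z : Lg d) :
    dv a (tens (Pi.single 0 1) x + tens (Pi.single 1 1) y + tens (Pi.single 2 1) z) =
      a 0 x + a 1 y + a 2 z := by
  simp [dv, cmp_tens]

theorem kr_three (b : Lg d →L[ℝ] Lg d) (x y z : Lg d) :
    kr 1 b (tens (Pi.single 0 1) x + tens (Pi.single 1 1) y + tens (Pi.single 2 1) z : Tn 9 d) =
      (tens (Pi.single 0 1) (b x) + tens (Pi.single 1 1) (b y) + tens (Pi.single 2 1) (b z) :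
        Tn 9 d) := by
  simp only [map_add, kr_tens, Matrix.one_mulVec]

theorem C_sym (h : Su a) : IsSym (P3 + curl a) := fun u v => by
  rw [add_apply, add_apply, inner_add_left, inner_add_right, real_inner_comm (P3 v),
    real_inner_comm (curl a v), P3_apply, P3_apply, curl_apply, curl_apply]
  simp only [inner_three, inner_sub_left, h.skew _ (cmp _ v)]
  simp only [real_inner_comm _ (cmp _ v)]
  ring

theorem comm_apply {b b' : Lg d →L[ℝ] Lg d} (h : Commute b b') (x : Lg d) :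
    b (b' x) = b' (b x) := congrArg (fun T : Lg d →L[ℝ] Lg d => T x) h.eq

theorem Cm.C {b : Lg d →L[ℝ] Lg d} (hb : Cm a b) (W : Tn 9 d) :
    kr 1 b (P3 W + curl a W) = P3 (kr 1 b W) + curl a (kr 1 b W) := by
  rw [map_add, P3_apply, curl_apply, kr_three, kr_three]
  simp only [P3_apply, curl_apply, cmp_kr_one, map_sub,
    comm_apply (hb 0 (by decide)), comm_apply (hb 1 (by decide)), comm_apply (hb 2 (by decide))]

theorem kr_kr {n : ℕ} {b b' : Lg d →L[ℝ] Lg d} (h : Commute b b') (W : Tn n d) :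
    kr 1 b (kr 1 b' W : Tn n d) = (kr 1 b' (kr 1 b W : Tn n d) : Tn n d) :=
  ext_cmp fun i => by simp only [cmp_kr_one, comm_apply h]

theorem Cm.AA (h : Su a) {b : Lg d →L[ℝ] Lg d} (hb : Cm a b) (W : Tn 9 d) :
    kr 1 b (AA a W) = AA a (kr 1 b W) := by
  rw [AA_apply, AA_apply, map_add, kr_kr (hb.om h), kr_kr (hb.oi h), hb.C]

theorem AA_sym (h : Su a) : IsSym (AA a) := fun u v => by
  have := C_sym h u (kr 1 (oi a) v)
  rw [add_apply, add_apply, ← (Cm_oi h).C] at this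
  rw [AA_apply, AA_apply, inner_add_left, inner_add_right, sym_kr (om_pd h).1, sym_kr (oi_sym h),
    this]

theorem Cm.dv {b : Lg d →L[ℝ] Lg d} (hb : Cm a b) (W : Tn 9 d) :
    dv a (kr 1 b W) = b (dv a W) := by
  simp only [D3Aux.dv, cmp_kr_one, map_add, comm_apply (hb 0 (by decide)),
    comm_apply (hb 1 (by decide)), comm_apply (hb 2 (by decide))]

theorem dv_add (W W' : Tn 9 d) : dv a (W + W') = dv a W + dv a W' := by
  simp only [dv, map_add]
  abel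

theorem dv_C (h : Su a) (W : Tn 9 d) : dv a (P3 W + curl a W) = -dv a W := by
  have e1 := congrArg (fun T : Lg d →L[ℝ] Lg d => T (cmp 2 W)) h.r01
  have e2 := congrArg (fun T : Lg d →L[ℝ] Lg d => T (cmp 0 W)) h.r12
  have e3 := congrArg (fun T : Lg d →L[ℝ] Lg d => T (cmp 1 W)) h.r20
  simp only [mul_apply_eq_comp, sub_apply, add_apply] at e1 e2 e3
  rw [dv_add, P3_apply, curl_apply, dv_three, dv_three, dv]
  simp only [map_sub, e1, e2, e3]
  abel

theorem dv_AA (h : Su a) {W : Tn 9 d} (hW : dv a W = 0) : dv a (AA a W) = 0 := by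
  rw [AA_apply, dv_add, (Cm_om h).dv, (Cm_oi h).dv, dv_C h, hW]
  simp

theorem norm_P3_le (W : Tn 9 d) : ‖P3 W‖ ≤ ‖W‖ ∧ ⟪P3 W, W⟫ = ‖P3 W‖ ^ 2 := by
  have e : ⟪P3 W, W⟫ = ‖P3 W‖ ^ 2 := by
    rw [← real_inner_self_eq_norm_sq]
    conv_lhs => rw [P3_apply, inner_three]
    conv_rhs => rw [P3_apply, inner_three]
    simp [cmp_tens]
  refine ⟨?_, e⟩
  have := real_inner_le_norm (P3 W) W
  rw [e] at this
  by_contra hlt
  have := norm_nonneg W
  nlinarith

theorem inner_C (b : Lg d →L[ℝ] Lg d) (W W' : Tn 9 d) :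
    ⟪kr 1 b (P3 W + curl a W), W'⟫ = ⟪kr 1 b (P3 W + curl a W), P3 W'⟫ := by
  have e : ∀ i : Fin 9, i = 0 ∨ i = 1 ∨ i = 2 → cmp i (P3 W') = cmp i W' := by
    rintro i (rfl | rfl | rfl) <;> simp [P3_apply, cmp_tens]
  rw [map_add, P3_apply W, curl_apply, kr_three, kr_three, inner_add_left, inner_add_left _ _ (P3 W')]
  simp only [inner_three, e 0 (by simp), e 1 (by simp), e 2 (by simp)]

theorem kr_lower {n : ℕ} (h : Su a) (W : Tn n d) : ‖W‖ ^ 2 ≤ ⟪W, kr 1 (om a) W⟫ := by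
  rw [norm_sq_eq_sum_cmp, inner_eq_sum_cmp]
  exact Finset.sum_le_sum fun i _ => by rw [cmp_kr_one]; exact om_lower h _

theorem AA_pos (h : Su a) {W : Tn 9 d} (hW : W ≠ 0)
    (hn : ‖(kr 1 (oi a) (P3 W + curl a W) : Tn 9 d)‖ = ‖P3 W‖) : 0 < ⟪W, AA a W⟫ := by
  by_contra hle
  rw [not_lt, AA_apply, inner_add_right, real_inner_comm (kr 1 (oi a) _)] at hle
  obtain ⟨h1, h2⟩ := norm_P3_le W
  have h3 : -‖P3 W‖ ^ 2 ≤ ⟪kr 1 (oi a) (P3 W + curl a W), W⟫ := by
    rw [inner_C]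
    have := (abs_le.1 (abs_real_inner_le_norm (kr 1 (oi a) (P3 W + curl a W)) (P3 W))).1
    rwa [hn, ← sq] at this
  have h4 : ‖P3 W‖ ^ 2 ≤ ‖W‖ ^ 2 := pow_le_pow_left₀ (norm_nonneg _) h1 2
  have h5 : kr 1 (om a) W = W := eq_of_form (sym_kr (om_pd h).1) (kr_lower h) (by linarith)
  have h6 : ∀ i, om a (cmp i W) = cmp i W := fun i => by rw [← cmp_kr_one, h5]
  have h7 : ∀ i, oi a (cmp i W) = cmp i W := fun i => by
    conv_lhs => rw [← h6 i, ← mul_apply_eq_comp, oi_om h, one_apply_eq_self]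
  have h8 : ∀ i, a 0 (cmp i W) = 0 ∧ a 1 (cmp i W) = 0 ∧ a 2 (cmp i W) = 0 := fun i => by
    have := inner_KK h (cmp i W)
    rw [← om_sq h, mul_apply_eq_comp, h6, h6, real_inner_self_eq_norm_sq] at this
    have p0 := sq_nonneg ‖a 0 (cmp i W)‖
    have p1 := sq_nonneg ‖a 1 (cmp i W)‖
    have p2 := sq_nonneg ‖a 2 (cmp i W)‖
    refine ⟨norm_eq_zero.1 (pow_eq_zero_iff two_ne_zero |>.1 ?_),
      norm_eq_zero.1 (pow_eq_zero_iff two_ne_zero |>.1 ?_),
      norm_eq_zero.1 (pow_eq_zero_iff two_ne_zero |>.1 ?_)⟩ <;> linarith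
  have h9 : kr 1 (oi a) (P3 W + curl a W) = P3 W := by
    rw [curl_apply, (h8 2).2.1, (h8 1).2.2, (h8 0).2.2, (h8 2).1, (h8 1).1, (h8 0).2.1, sub_self]
    simp only [map_zero, add_zero]
    rw [P3_apply, kr_three, h7, h7, h7]
  rw [h5, h9, h2, real_inner_self_eq_norm_sq] at hle
  have : 0 < ‖W‖ ^ 2 := by positivity
  nlinarith [sq_nonneg ‖P3 W‖]

end Vale.Agent.P353.D3Aux
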