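import Vale.Agent.P353.Stmts
import Vale.Agent.P353.Psq
import Vale.Agent.P353.D3Aux

/-! Semiclassical data at a vacuum. -/

noncomputable section

open MeasureTheory Filter Topology Complex
open scoped ContDiff RealInnerProductSpace Matrix

namespace Vale.Agent.P353

attribute [local irreducible] kr

namespace D3Aux

variable {N d : ℕ} {F : Type} [NormedAddCommGroup F] [InnerProductSpace ℂ F]
  [FiniteDimensional ℂ F] (c : Ctx N d F) {π : Setoid (Fin N)} {z : Tn 9 d}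

/-- the adjoint action of the components of the vacuum -/
def az (z : Tn 9 d) (i : Fin 9) : Lg d →L[ℝ] Lg d := c.ad (cmp i z)

theorem rel {x y w : Lg d} (h : c.ad x y = (-2 : ℝ) • w) :
    c.ad x * c.ad y = c.ad y * c.ad x - (c.ad w + c.ad w) := by
  have := c.jacobi x y
  rw [h, c.ad_smul] at this
  rw [eq_add_of_sub_eq this.symm]
  module

theorem su (hz : c.IsVac z) : Su (az c z) :=
  ⟨fun _ => c.ad_skew _, rel c hz.2.1, rel c hz.2.2.1, rel c hz.2.2.2⟩

theorem az_zero (hz : c.IsVac z) {i : Fin 9} (hi : 3 ≤ i.val) : az c z i = 0 := by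
  rw [az, hz.1 i hi, c.ad_zero]

theorem adw_top (y : Lg d) : c.adw ⊤ y = c.ad y := by
  ext1 x
  simp [Ctx.adw, Submodule.starProjection_top]

theorem Dw_top (hz : c.IsVac z) : c.Dw ⊤ z = DD c.γ (az c z) := by
  simp only [Ctx.Dw, adw_top]
  exact sum3 (fun i => kr (c.γ i) (az c z i)) fun i hi => by rw [az_zero c hz hi, kr_zero_right]

theorem dv_sum (hz : c.IsVac z) (W : Tn 9 d) :
    ∑ i, c.ad (cmp i z) (cmp i W) = dv (az c z) W :=
  sum3 (fun i => az c z i (cmp i W)) fun i hi => by rw [az_zero c hz hi, zero_apply]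

theorem dv_top (hz : c.IsVac z) (W : Tn 9 d) : c.dv ⊤ z W = dv (az c z) W := by
  simp only [Ctx.dv, adw_top, sum_apply, ContinuousLinearMap.comp_apply]
  exact dv_sum c hz W

theorem Afree_eq (W : Tn 9 d) : Afree d W = W + P3 W := by
  refine ext_cmp fun i => ?_
  rw [Afree, cmp_kr, Finset.sum_eq_single i (fun j _ hj => by
    rw [Matrix.diagonal_apply_ne _ hj.symm, zero_smul]) (by simp), Matrix.diagonal_apply_eq]
  fin_cases i <;> simp [P3_apply, cmp_tens, kk, two_smul]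

theorem curl_id (a : Fin 9 → Lg d →L[ℝ] Lg d) (e : Fin 16 → ℝ) (W : Tn 9 d) :
    kr (Gm c.γ) 1 (c.sE e (P3 W + curl a W)) + tens e (dv a W) =
      DD c.γ a (c.sE e (P3 W)) + kr (Gm c.γ) 1 (c.sE e (P3 W)) := by
  have hγ := c.gam
  have g10 : c.γ 1 * c.γ 0 = -(c.γ 0 * c.γ 1) := hγ.anti 1 0 (by decide)
  have g21 : c.γ 2 * c.γ 1 = -(c.γ 1 * c.γ 2) := hγ.anti 2 1 (by decide)
  have g02 : c.γ 0 * c.γ 2 = -(c.γ 2 * c.γ 0) := hγ.anti 0 2 (by decide)
  simp only [P3_apply, curl_apply, DD, dv, map_add, map_sub, add_apply, c.cov3_sE, kr_tens,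
    Matrix.mulVec_mulVec, one_apply_eq_self, hγ.sq, G0 hγ, G1 hγ, G2 hγ, g10, g21, g02,
    Matrix.neg_mulVec, tens_neg, Matrix.one_mulVec]
  abel

theorem key3 {a : Fin 9 → Lg d →L[ℝ] Lg d} (h : Su a) (e : Fin 16 → ℝ) {W : Tn 9 d}
    (hW : dv a W = 0) :
    JJ c.γ a (c.sE e (kr 1 (oi a) (P3 W + curl a W))) = kr (Gm c.γ) 1 (c.sE e (P3 W)) := by
  rw [c.sE_kr]
  apply JJ_key c.gam h
  rw [← curl_id, hW, map_zero, add_zero]

theorem sum_sE_sq (W : Tn 9 d) : ∑ α, ‖c.sE (eb α) W‖ ^ 2 = 16 * ‖W‖ ^ 2 := by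
  have := (c.iso ⊤ 0 0).1 W trivial W trivial
  simpa only [real_inner_self_eq_norm_sq] using this

include c in
theorem norm3 {a : Fin 9 → Lg d →L[ℝ] Lg d} (h : Su a) {W : Tn 9 d} (hW : dv a W = 0) :
    ‖(kr 1 (oi a) (P3 W + curl a W) : Tn 9 d)‖ = ‖P3 W‖ := by
  have h1 := sum_sE_sq c (kr 1 (oi a) (P3 W + curl a W))
  have h2 := sum_sE_sq c (P3 W)
  have h3 : ∀ α, ‖c.sE (eb α) (kr 1 (oi a) (P3 W + curl a W))‖ = ‖c.sE (eb α) (P3 W)‖ := fun α => by
    rw [← norm_of_sq (JJ_skew c.gam h) (JJ_sq c.gam h), key3 c h _ hW,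
      norm_of_sq (G_skew c.gam) (G_sq c.gam)]
  simp only [h3, h2] at h1
  exact (pow_left_inj₀ (norm_nonneg _) (norm_nonneg _) two_ne_zero).1 (by linarith)

theorem fderiv_eq (hz : c.IsVac z) (e : Fin 16 → ℝ) {W : Tn 9 d} (hW : dv (az c z) W = 0) :
    fderiv ℝ (c.beta 1 1 e) z W = -JJ c.γ (az c z) (c.sE e (AA (az c z) W)) := by
  have e1 := congrArg (fun T : Tn 16 d →L[ℝ] Tn 16 d => T (c.sE e W)) (JJ_om (γ := c.γ) (su c hz))
  simp only [mul_apply_eq_comp, add_apply] at e1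
  rw [c.cov3_fderiv, one_smul, one_smul, c.fderiv_Phi_eq, c.Km_eq, Dw_top c hz, dv_top c hz, hW,
    AA_apply, Afree_eq, map_add (c.sE e), map_add (c.sE e), map_add (JJ _ _),
    key3 c (su c hz) e hW, c.sE_kr, e1, map_add, map_zero]
  abel

theorem inner_vf (hz : c.IsVac z) (ξ : Lg d) (W : Tn 9 d) :
    ⟪c.vf ξ z, W⟫ = ⟪ξ, dv (az c z) W⟫ := by
  rw [inner_eq_sum_cmp, ← dv_sum c hz, inner_sum]
  exact Finset.sum_congr rfl fun i _ => by rw [Ctx.vf, cmp_kr_one, c.inner_ad_cyc]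

theorem ss_le : c.ss π ≤ c.blk π := inf_le_left

theorem mem_Yz' (W : Tn 9 d) :
    W ∈ c.Yz π z ↔ W ∈ sub 9 (c.ss π) ∧ ∀ ξ ∈ c.blk π, ⟪c.vf ξ z, W⟫ = 0 := by
  simp only [Ctx.Yz, Submodule.mem_inf, Submodule.mem_iInf,
    Submodule.mem_orthogonal_singleton_iff_inner_right]

theorem mem_Yz (hz : c.IsVac z) (hs : z ∈ sub 9 (c.ss π)) (W : Tn 9 d) :
    W ∈ c.Yz π z ↔ W ∈ sub 9 (c.ss π) ∧ dv (az c z) W = 0 := by
  rw [mem_Yz']
  refine and_congr_right fun hW => ⟨fun h => ?_, fun h ξ _ => by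
    rw [inner_vf c hz, h, inner_zero_right]⟩
  have hm : dv (az c z) W ∈ c.blk π := by
    rw [← dv_sum c hz]
    exact Submodule.sum_mem _ fun i _ => ss_le c
      (c.ad_mem_ss (ss_le c (mem_sub.1 hs i)) (ss_le c (mem_sub.1 hW i)))
  have := h _ hm
  rwa [inner_vf c hz, inner_self_eq_zero] at this

theorem ad_P {y : Lg d} (hy : y ∈ c.blk π) : Commute (c.ad y) (c.ss π).starProjection :=
  c.ad_starProjection fun _ hx => c.ad_mem_ss hy (ss_le c hx)

theorem Cm_P (hs : z ∈ sub 9 (c.ss π)) : Cm (az c z) (c.ss π).starProjection :=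
  fun i _ => (ad_P c (ss_le c (mem_sub.1 hs i))).symm

theorem mem_iff_kr {n : ℕ} {𝔞 : Submodule ℝ (Lg d)} {W : Tn n d} :
    W ∈ sub n 𝔞 ↔ kr 1 𝔞.starProjection W = W := by
  rw [← sub_starProjection, Submodule.starProjection_eq_self_iff]

theorem AA_mem (hz : c.IsVac z) (hs : z ∈ sub 9 (c.ss π)) {W : Tn 9 d} (hW : W ∈ c.Yz π z) :
    AA (az c z) W ∈ c.Yz π z := by
  rw [mem_Yz c hz hs] at hW ⊢
  refine ⟨?_, dv_AA (su c hz) hW.2⟩
  rw [mem_iff_kr, (Cm_P c hs).AA (su c hz), mem_iff_kr.1 hW.1]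

theorem fderiv_vf (hz : c.IsVac z) (α : Fin 16) (ξ : Lg d) :
    fderiv ℝ (c.beta 1 1 (eb α)) z (c.vf ξ z) = 0 := by
  have h0 : c.beta 1 1 (eb α) z = 0 := by
    have := (c.Pot_eq_zero_iff z).2 hz
    rw [Ctx.Pot, Finset.sum_eq_zero_iff_of_nonneg fun _ _ => sq_nonneg _] at this
    exact norm_eq_zero.1 (pow_eq_zero_iff two_ne_zero |>.1 (this α (Finset.mem_univ _)))
  rw [Ctx.beta] at h0
  rw [c.cov3_fderiv, c.fderiv_Phi_vf, Ctx.vf, c.Km_kr, ← map_smul, ← map_smul, ← map_add, h0,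
    map_zero]

theorem exists_vf (hs : z ∈ sub 9 (c.ss π)) {W : Tn 9 d} (hW : W ∈ sub 9 (c.ss π)) :
    ∃ ξ, W = (c.Yz π z).starProjection W + c.vf ξ z := by
  obtain ⟨L, hL⟩ := c.exists_vfL
  set 𝒩 : Submodule ℝ (Tn 9 d) := (c.blk π).map (L.flip z).toLinearMap with h𝒩
  have hm : ∀ x, x ∈ 𝒩 ↔ ∃ ξ ∈ c.blk π, c.vf ξ z = x := fun x => by
    simp [h𝒩, hL]
  obtain ⟨ξ, hξ, he⟩ := (hm _).1 (𝒩.starProjection_apply_mem W)
  refine ⟨ξ, ?_⟩
  have : (c.Yz π z).starProjection W = W - c.vf ξ z := by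
    apply Submodule.eq_starProjection_of_mem_orthogonal
    · rw [mem_Yz']
      refine ⟨Submodule.sub_mem _ hW ((c.Th_ss π).vf_mem c hξ hs), fun ζ hζ => ?_⟩
      rw [he]
      exact Submodule.inner_right_of_mem_orthogonal ((hm _).2 ⟨ζ, hζ, rfl⟩)
        (𝒩.sub_starProjection_mem_orthogonal W)
    · rw [sub_sub_cancel, Submodule.mem_orthogonal']
      exact fun y hy => ((mem_Yz' c y).1 hy).2 ξ hξ
  rw [this, sub_add_cancel]

theorem ring_pcs {R : Type} [Ring R] {J p : R} (h1 : Commute p J) (h2 : J * J = -1)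
    (h3 : p * p = p) : J * p * (J * p) = -p ∧ J * p * (J * p) * (J * p) = -(J * p) := by
  have e : J * p * (J * p) = -p := by
    rw [mul_assoc, ← mul_assoc p, h1.eq, mul_assoc, h3, ← mul_assoc, h2, neg_mul, one_mul]
  refine ⟨e, ?_⟩
  rw [e, neg_mul, ← mul_assoc, h1.eq, mul_assoc, h3]

theorem ring_tot {R : Type} [Ring R] {x y p p' : R} (h1 : x * x = -p) (h2 : -(y * y) = p')
    (h3 : x * y = 0) (h4 : y * x = 0) (h5 : p' = 1 - p) : (x + y) * (x + y) = -1 := by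
  rw [add_mul, mul_add, mul_add, h1, h3, h4, ← neg_neg (y * y), h2, h5]
  abel

theorem ring_B {R : Type} [Ring R] {J p o G D : R} (h1 : Commute p J) (h2 : J * J = -1)
    (h3 : J * o = D + G) :
    J * p * (o + o - J * G) = p * D + p * D + (p * G + p * G + p * G) := by
  rw [← h1.eq, mul_assoc, mul_sub, mul_add, h3, ← mul_assoc J, h2]
  noncomm_ring

/-- complex structure of the fermions in `ss π` -/
def JP (π : Setoid (Fin N)) (z : Tn 9 d) : Tn 16 d →L[ℝ] Tn 16 d :=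
  JJ c.γ (az c z) * kr 1 (c.ss π).starProjection

/-- complex structure of all the fermions -/
def JT (π : Setoid (Fin N)) (z : Tn 9 d) : Tn 16 d →L[ℝ] Tn 16 d :=
  JP c π z + kr (Gm c.γ) (c.ss π)ᗮ.starProjection

/-- twice the fermion frequencies -/
def BB (z : Tn 9 d) : Tn 16 d →L[ℝ] Tn 16 d :=
  kr 1 (om (az c z)) + kr 1 (om (az c z)) - JJ c.γ (az c z) * kr (Gm c.γ) 1

theorem p_sq (𝔞 : Submodule ℝ (Lg d)) :
    kr (1 : M16) 𝔞.starProjection * kr 1 𝔞.starProjection = kr 1 𝔞.starProjection := by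
  rw [kr_mul, Matrix.mul_one, 𝔞.isIdempotentElem_starProjection.eq]

theorem JP_pcs (hz : c.IsVac z) (hs : z ∈ sub 9 (c.ss π)) : IsPCS (JP c π z) := by
  have h1 := (Cm_P c hs).JJ (γ := c.γ) (su c hz)
  have h2 := (ring_pcs h1 (JJ_sq c.gam (su c hz)) (p_sq _)).2
  refine ⟨fun u v => ?_, by rw [JP]; exact h2⟩
  have e := congrArg (fun T : Tn 16 d →L[ℝ] Tn 16 d => T v) h1.eq
  simp only [mul_apply_eq_comp] at e
  rw [JP, mul_apply_eq_comp, mul_apply_eq_comp, JJ_skew c.gam (su c hz),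
    sym_kr (Submodule.inner_starProjection_left_eq_right _), e]

theorem JP_q (π : Setoid (Fin N)) (z : Tn 9 d) :
    JP c π z * kr (Gm c.γ) (c.ss π)ᗮ.starProjection = 0 := by
  have : (c.ss π).starProjection * (c.ss π)ᗮ.starProjection = 0 := by
    ext1 x
    simp [Submodule.starProjection_eq_self_iff.2 ((c.ss π).starProjection_apply_mem x)]
  rw [JP, mul_assoc, kr_mul, this, kr_zero_right, mul_zero]

theorem JT_pcs (hz : c.IsVac z) (hs : z ∈ sub 9 (c.ss π)) : IsPCS (JT c π z) :=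
  (JP_pcs c hz hs).add (c.isPCS_Gm _) (JP_q c π z)

theorem JT_sq (hz : c.IsVac z) (hs : z ∈ sub 9 (c.ss π)) : JT c π z * JT c π z = -1 :=
  ring_tot (ring_pcs ((Cm_P c hs).JJ (su c hz)) (JJ_sq c.gam (su c hz)) (p_sq _)).1 (c.Gm_supp _)
    (JP_q c π z) (CarAux.mul_swap (JP_pcs c hz hs) (c.isPCS_Gm _) (JP_q c π z))
    (by rw [Submodule.starProjection_orthogonal', kr_sub_right, kr_one])

theorem JT_apply {u : Tn 16 d} (hu : u ∈ sub 16 (c.ss π)) : JT c π z u = JJ c.γ (az c z) u := by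
  have e : kr (Gm c.γ) (c.ss π)ᗮ.starProjection u = 0 := ext_cmp fun i => by
    rw [cmp_kr, map_zero]
    refine Finset.sum_eq_zero fun j _ => ?_
    rw [Submodule.starProjection_orthogonal_apply_eq_zero (mem_sub.1 hu j), smul_zero]
  rw [JT, JP, add_apply, mul_apply_eq_comp, mem_iff_kr.1 hu, e, add_zero]

theorem BB_sym (hz : c.IsVac z) : IsSym (BB c z) := fun u v => by
  have e := congrArg (fun T : Tn 16 d →L[ℝ] Tn 16 d => T v) (G_JJ (a := az c z) c.gam).eq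
  simp only [mul_apply_eq_comp] at e
  simp only [BB, sub_apply, add_apply, mul_apply_eq_comp, inner_sub_left, inner_add_left,
    inner_sub_right, inner_add_right]
  rw [sym_kr (om_pd (su c hz)).1, JJ_skew c.gam (su c hz), G_skew c.gam, neg_neg, e]

theorem BB_comm (hz : c.IsVac z) (hs : z ∈ sub 9 (c.ss π)) : Commute (BB c z) (JP c π z) := by
  have h1 : Commute (kr (1 : M16) (om (az c z))) (JP c π z) :=
    ((Cm_om (su c hz)).JJ (su c hz)).mul_right (comm_kr _ ((Cm_P c hs).om (su c hz)).symm)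
  exact (h1.add_left h1).sub_left
    (((Commute.refl _).mul_right ((Cm_P c hs).JJ (su c hz)).symm).mul_left
      ((G_JJ c.gam).mul_right (comm_kr _ (Commute.one_right _)).symm))

theorem BB_lower (hz : c.IsVac z) (v : Tn 16 d) : ‖v‖ ^ 2 ≤ ⟪v, BB c z v⟫ := by
  have h1 := kr_lower (su c hz) v
  have h2 := real_inner_le_norm v (JJ c.γ (az c z) (kr (Gm c.γ) 1 v))
  rw [norm_of_sq (JJ_skew c.gam (su c hz)) (JJ_sq c.gam (su c hz)),
    norm_of_sq (G_skew c.gam) (G_sq c.gam), ← sq] at h2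
  simp only [BB, sub_apply, add_apply, mul_apply_eq_comp, inner_sub_right, inner_add_right]
  linarith

theorem bil_JB (hz : c.IsVac z) (hs : z ∈ sub 9 (c.ss π)) :
    bil c.θ (sub 9 (c.ss π)) (fun α => c.sE (eb α)) (fun α => c.beta 1 1 (eb α)) z =
      (8 : ℂ) • (-I) • dG c.θ (JP c π z * BB c z) := by
  have e1 : kr 1 (c.ss π).starProjection * DD c.γ (az c z) = c.Dw (c.ss π) z := by
    rw [← Dw_top c hz]
    simp only [Ctx.Dw, Finset.mul_sum, kr_mul, adw_top, Matrix.one_mul]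
    exact Finset.sum_congr rfl fun i _ => by rw [c.cov3_adw (c.Th_ss π) (mem_sub.1 hs i)]
  have e2 := ring_B ((Cm_P c hs).JJ (γ := c.γ) (su c hz)) (JJ_sq c.gam (su c hz)) (JJ_om (su c hz))
  rw [e1, kr_mul, Matrix.one_mul, mul_one] at e2
  rw [c.bil_eq (c.Th_ss π) 1 1 hs, JP, BB, e2, smul_smul]
  congr 1
  · ring
  · congr 1
    module

theorem JT_trace (b : Lg d →L[ℝ] Lg d) : trR (JT c π z * kr 1 b) = 0 := by
  rw [JT, JP, add_mul, mul_assoc, kr_mul, kr_mul, trR_add, Matrix.mul_one, tr_JJ c.gam, trR_kr,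
    Matrix.mul_one, c.gam.trace_Gm, zero_mul, add_zero]

theorem U_fix (hz : c.IsVac z) (hs : z ∈ sub 9 (c.ss π)) {u : UN N} (hu : u ∈ Grp π)
    (hf : c.Ad9 u z = z) {Ω : F} (hΩ : vac c.θ (JT c π z) Ω = Ω) : c.U u Ω = Ω := by
  obtain ⟨y, hy, t, h1, h2⟩ := c.exists_log_Grp hu
  have hc : Cm (az c z) (c.ad y) := fun i _ => by
    have := c.jacobi y (cmp i z)
    rw [h2 _ (by rw [← cmp_kr_one]; exact congrArg _ hf), c.ad_zero] at this
    exact sub_eq_zero.1 this.symm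
  have hJ : Commute (kr (1 : M16) (c.ad y)) (JT c π z) := by
    rw [JT, JP]
    refine ((hc.JJ (su c hz)).mul_right (comm_kr _ (ad_P c hy))).add_right (comm_kr _ ?_)
    rw [Submodule.starProjection_orthogonal']
    exact (Commute.one_right _).sub_right (ad_P c hy)
  have := c.car.dG_vac (JT_pcs c hz hs) (Cov1Aux.skew_kr_one (c.ad_skew y)) hJ.eq
    (by rw [JT_sq c hz hs, neg_neg, one_mul])
  rw [JT_trace] at this
  have := congrArg (fun T : F →L[ℂ] F => T Ω) this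
  simp only [mul_apply_eq_comp, hΩ, ofReal_zero, mul_zero, zero_smul, zero_apply] at this
  rw [c.Uexp y t u h1]
  exact Cov1Aux.exp_fix this

theorem Cm_Ad {u : UN N} (hf : c.Ad9 u z = z) : Cm (az c z) (c.Ad u) := fun i _ => by
  ext1 x
  have : c.Ad u (cmp i z) = cmp i z := by rw [← cmp_kr_one]; exact congrArg _ hf
  rw [mul_apply_eq_comp, mul_apply_eq_comp, az, c.Ad_ad, this]

theorem Ad9_mem (hz : c.IsVac z) (hs : z ∈ sub 9 (c.ss π)) {u : UN N} (hu : u ∈ Grp π)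
    (hf : c.Ad9 u z = z) {W : Tn 9 d} (hW : W ∈ c.Yz π z) : c.Ad9 u W ∈ c.Yz π z := by
  rw [mem_Yz c hz hs] at hW ⊢
  refine ⟨(c.Th_ss π).Ad9_mem c hu hW.1, ?_⟩
  rw [Ctx.Ad9, (Cm_Ad c hf).dv, hW.2, map_zero]

end D3Aux

open D3Aux

namespace Ctx

variable {N d : ℕ} {F : Type} [NormedAddCommGroup F] [InnerProductSpace ℂ F]
  [FiniteDimensional ℂ F] (c : Ctx N d F)

theorem p_d3 : c.S_d3 := by
  intro π z hs hz
  have := c.ntriv
  have h := su c hz
  obtain ⟨Ω, h1, hΩ⟩ := c.car.rank_one c.irr (JT_pcs c hz hs).1 (JT_sq c hz hs)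
  have hv : vac c.θ (JT c π z) Ω = Ω := by
    rw [hΩ, inner_self_eq_norm_sq_to_K, h1]
    simp
  have hadd : ∀ a, vac c.θ (JT c π z) a = vac c.θ (JP c π z) (c.P0 (c.ss π)ᗮ a) := fun a => by
    rw [JT, c.car.vac_add (JP_pcs c hz hs) (c.isPCS_Gm _) (JP_q c π z)]
    rfl
  have hP0 : c.P0 (c.ss π)ᗮ Ω = Ω := by
    have e := c.car.vac_comm (JP_pcs c hz hs) (c.isPCS_Gm _) (JP_q c π z)
    have e' : ∀ a, vac c.θ (JT c π z) a = c.P0 (c.ss π)ᗮ (vac c.θ (JP c π z) a) := fun a => by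
      rw [hadd]
      exact congrArg (fun T : F →L[ℂ] F => T a) e
    rw [← hv, e']
    exact congrArg (fun T : F →L[ℂ] F => T _) (vac_idem _)
  set Y := c.Yz π z with hY
  set A := AA (az c z) * Y.starProjection with hA
  have hAY : ∀ W ∈ Y, A W = AA (az c z) W := fun W hW => by
    rw [hA, mul_apply_eq_comp, Submodule.starProjection_eq_self_iff.2 hW]
  have hrange : ∀ W, A W ∈ Y := fun W => AA_mem c hz hs (Y.starProjection_apply_mem W)
  have hU : ∀ W ∈ Y, W ∈ sub 9 (c.ss π) := fun W hW => ((mem_Yz c hz hs W).1 hW).1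
  have hd : ∀ W ∈ Y, D3Aux.dv (az c z) W = 0 := fun W hW => ((mem_Yz c hz hs W).1 hW).2
  have hann : ∀ e, ∀ W ∈ Y,
      I • c.θ (c.sE e (A W)) Ω + c.θ (fderiv ℝ (c.beta 1 1 e) z W) Ω = 0 := fun e W hW => by
    have e0 := congrArg (fun T : Tn 16 d →L[ℝ] Tn 16 d => T (c.sE e (A W))) (JT_sq c hz hs)
    simp only [mul_apply_eq_comp, neg_apply, one_apply_eq_self] at e0
    have e1 := congrArg (fun T : F →L[ℂ] F => T Ω)
      (theta_J_vac (θ := c.θ) (J := JT c π z) (u := c.sE e (A W)) (by rw [e0, neg_neg]))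
    simp only [mul_apply_eq_comp, smul_apply, hv] at e1
    rw [fderiv_eq c hz e (hd W hW), ← hAY W hW, ← JT_apply c (c.sE_mem e (hU _ (hrange W))),
      map_neg, neg_apply, e1, add_neg_cancel]
  refine ⟨A, Ω, h1, hP0, fun x y => ?_, hrange, ?_, fun u hu hf => ⟨U_fix c hz hs hu hf hv,
    fun W => ?_⟩, hann, fun W hW => ?_, 8, by norm_num, fun a ha => ?_⟩
  · rw [hA, mul_apply_eq_comp, mul_apply_eq_comp, AA_sym h,
      Submodule.inner_starProjection_left_eq_right,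
      proj_comm (AA_sym h) (fun _ => AA_mem c hz hs) fun _ => AA_mem c hz hs]
  · obtain ⟨k, hk, hk'⟩ := exists_lower_compact (K := fun _ : Unit => A) isCompact_univ
      continuousOn_const Y fun _ _ W hW hne => by
        rw [hAY W hW]
        exact AA_pos h hne (norm3 c h (hd W hW))
    exact ⟨k, hk, hk' () trivial⟩
  · have hf' : c.Ad9 u⁻¹ z = z := by
      conv_lhs => rw [← hf, c.Ad9_inv_apply]
    rw [hA, mul_apply_eq_comp, mul_apply_eq_comp, proj_comm (R' := c.Ad9 u⁻¹) (fun x y => by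
      rw [← c.inner_Ad9 u x, c.Ad9_apply_inv]) (fun _ => Ad9_mem c hz hs hu hf)
      fun _ => Ad9_mem c hz hs (inv_mem_Grp hu) hf']
    rw [Ctx.Ad9, (Cm_Ad c hf).AA h]
  · rw [← sum_sE_sq c]
    refine Finset.sum_congr rfl fun α _ => ?_
    rw [fderiv_eq c hz _ (hd W hW), norm_neg, norm_of_sq (JJ_skew c.gam h) (JJ_sq c.gam h),
      hAY W hW]
  · have g1 := c.car.gap (JP_pcs c hz hs) (BB_sym c hz) (BB_comm c hz hs).eq (b := 1)
      (fun u => by rw [one_mul]; exact BB_lower c hz _) zero_le_one a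
    have g2 := congrArg (fun T : F →L[ℂ] F => (inner ℂ Ω (T Ω)).re)
      (c.car.ground (JP_pcs c hz hs) (BB_sym c hz) (BB_comm c hz hs).eq)
    have hv' : vac c.θ (JP c π z) Ω = Ω := by rw [← hP0, ← hadd, hv, hP0]
    have h8 : ∀ x y : F, (inner ℂ x ((8 : ℂ) • y)).re = 8 * (inner ℂ x y).re := fun x y => by
      rw [inner_smul_right]
      simp
    have hΩΩ : inner ℂ Ω Ω = 1 := by
      rw [inner_self_eq_norm_sq_to_K, h1]
      simp
    simp only [mul_apply_eq_comp, hv', smul_apply] at g2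
    rw [inner_smul_right _ Ω, hΩΩ, mul_one, ofReal_re] at g2
    have g3 : (inner ℂ Ω (bil c.θ (sub 9 (c.ss π)) (fun α => c.sE (eb α))
        (fun α => c.beta 1 1 (eb α)) z Ω)).re = -(8 * trR A) := by
      have e1 : ∀ α, ∀ W ∈ sub 9 (c.ss π), (inner ℂ Ω (((-I) • (c.θ (c.sE (eb α) W) *
          c.θ (fderiv ℝ (c.beta 1 1 (eb α)) z W))) Ω)).re =
          -(⟪c.sE (eb α) W, c.sE (eb α) (A W)⟫ / 2) := fun α W hW => by
        obtain ⟨ξ, hξ⟩ := exists_vf c hs hW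
        have e2 := hann (eb α) _ (Y.starProjection_apply_mem W)
        have e3 : A (Y.starProjection W) = A W := hAY _ (Y.starProjection_apply_mem W)
        have e4 : fderiv ℝ (c.beta 1 1 (eb α)) z W =
            fderiv ℝ (c.beta 1 1 (eb α)) z (Y.starProjection W) := by
          conv_lhs => rw [hξ, map_add, fderiv_vf c hz, add_zero]
        rw [e3, ← e4] at e2
        have e5 := c.car.re_inner (c.sE (eb α) W) (c.sE (eb α) (A W)) Ω
        rw [h1, one_pow, mul_one] at e5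
        rw [smul_apply, mul_apply_eq_comp, eq_neg_of_add_eq_zero_right e2, map_neg, map_smul,
          smul_neg, smul_smul, neg_mul, I_mul_I, neg_neg, one_smul, inner_neg_right,
          ← c.car.symm, neg_re, e5]
      have e6 : (sub 9 (c.ss π)).starProjection * A = A := by
        ext1 W
        exact Submodule.starProjection_eq_self_iff.2 (hU _ (hrange W))
      simp only [bil, sum_apply, inner_sum, re_sum, fun α k => e1 α _ (onb_mem _ k)]
      rw [Finset.sum_comm, ← e6, ← sum_onb_trR, Finset.mul_sum, ← Finset.sum_neg_distrib]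
      refine Finset.sum_congr rfl fun k _ => ?_
      have := (c.iso ⊤ 0 0).1 (onb (sub 9 (c.ss π)) k) trivial (A (onb (sub 9 (c.ss π)) k)) trivial
      rw [Finset.sum_neg_distrib, ← Finset.sum_div, e6, this]
      ring
    rw [bil_JB c hz hs] at g3 ⊢
    have g4 := hadd a
    rw [ha, hΩ] at g4
    rw [← g4] at g1
    rw [smul_apply, h8, smul_apply] at g3 ⊢
    rw [← g3, g2]
    linarith

end Ctx

end Vale.Agent.P353
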