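import Mathlib

/-! The BFSS matrix model: supercharges, gauge invariant test functions, zero energy states. -/

noncomputable section

open MeasureTheory Filter Topology
open scoped ContDiff

namespace Vale.Agent.P353

/-- The bosonic configuration space: coordinates `x (i, A)`. -/
abbrev Bos (d : ℕ) : Type := EuclideanSpace ℝ (Fin 9 × Fin d)

/-- `γ^{ij} = (γ^i γ^j - γ^j γ^i) / 2`. -/
def gamma2 (γ : Fin 9 → Matrix (Fin 16) (Fin 16) ℝ) (i j : Fin 9) : Matrix (Fin 16) (Fin 16) ℝ :=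
  (1 / 2 : ℝ) • (γ i * γ j - γ j * γ i)

variable {N d : ℕ} {F : Type} [NormedAddCommGroup F] [InnerProductSpace ℂ F]

/-- The supercharge `Q_α` applied to `Ψ`, evaluated at `x`. -/
def supercharge (γ : Fin 9 → Matrix (Fin 16) (Fin 16) ℝ) (θ : Fin 16 → Fin d → F →L[ℂ] F)
    (f : Fin d → Fin d → Fin d → ℝ) (α : Fin 16) (Ψ : Bos d → F) (x : Bos d) : F :=
  ∑ i, ∑ β, ∑ A, (-Complex.I * (γ i α β : ℝ)) •
      θ β A (fderiv ℝ Ψ x (EuclideanSpace.single (i, A) 1)) +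
    ∑ i, ∑ j, ∑ β, ∑ A, ∑ B, ∑ C,
      ((1 / 2 * f A B C * x (i, B) * x (j, C) * gamma2 γ i j α β : ℝ) : ℂ) • θ β A (Ψ x)

/-- Matrix of the adjoint action of `g` in the basis `T`: `g T_B g⁻¹ = ∑_A adMat T g A B T_A`. -/
def adMat (T : Fin d → Matrix (Fin N) (Fin N) ℂ) (g : Matrix.specialUnitaryGroup (Fin N) ℂ)
    (A B : Fin d) : ℝ :=
  (Matrix.trace (T A * ((g : Matrix (Fin N) (Fin N) ℂ) * T B * star (g : Matrix (Fin N) (Fin N) ℂ)))).re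

/-- The adjoint action on the index `A` of `x`. -/
def adBos (T : Fin d → Matrix (Fin N) (Fin N) ℂ) (g : Matrix.specialUnitaryGroup (Fin N) ℂ)
    (x : Bos d) : Bos d :=
  WithLp.toLp 2 fun p => ∑ B, adMat T g p.2 B * x (p.1, B)

/-- Smooth, compactly supported, gauge invariant wave functions. -/
def IsTest (T : Fin d → Matrix (Fin N) (Fin N) ℂ)
    (U : Matrix.specialUnitaryGroup (Fin N) ℂ →* (F ≃ₗᵢ[ℂ] F)) (Ψ : Bos d → F) : Prop :=
  ContDiff ℝ ∞ Ψ ∧ HasCompactSupport Ψ ∧ ∀ g x, Ψ (adBos T g x) = U g (Ψ x)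

/-- The kernel of the operator of the closure of the form `q = (1/16) ∑ ‖Q_α Ψ‖²`:
the `L²` limits of test functions `φ n` with `q (φ n) → 0`. -/
def zeroModes (γ : Fin 9 → Matrix (Fin 16) (Fin 16) ℝ) (θ : Fin 16 → Fin d → F →L[ℂ] F)
    (f : Fin d → Fin d → Fin d → ℝ) (T : Fin d → Matrix (Fin N) (Fin N) ℂ)
    (U : Matrix.specialUnitaryGroup (Fin N) ℂ →* (F ≃ₗᵢ[ℂ] F)) :
    Set (Lp F 2 (volume : Measure (Bos d))) :=
  {Ψ | ∃ φ : ℕ → Bos d → F, (∀ n, IsTest T U (φ n)) ∧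
    Tendsto (fun n => ∫ x, ‖φ n x - Ψ x‖ ^ 2) atTop (𝓝 0) ∧
    Tendsto (fun n => (1 / 16 : ℝ) * ∑ α, ∫ x, ‖supercharge γ θ f α (φ n) x‖ ^ 2) atTop (𝓝 0)}

end Vale.Agent.P353
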