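import Vale.Agent.P353.Stmts

/-! The number of zero modes at weak coupling. -/

noncomputable section

open MeasureTheory Filter Topology Complex Matrix
open scoped ContDiff RealInnerProductSpace

namespace Vale.Agent.P353

namespace DgAux

theorem cover {X ι : Type} [TopologicalSpace X] {S : Set X} {P : X → ℝ} (hP : Continuous P)
    (hS : IsCompact {x | x ∈ S ∧ P x ≤ 1}) (h0 : ∀ x, 0 ≤ P x) (O : ι → Set X)
    (hO : ∀ i, IsOpen (O i)) (hc : ∀ x ∈ S, P x = 0 → ∃ i, x ∈ O i) :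
    ∃ δ > 0, ∃ T : Finset ι, ∀ x ∈ S, P x < δ → ∃ i ∈ T, x ∈ O i := by
  have hK0 : IsCompact ({x | x ∈ S ∧ P x ≤ 1} ∩ P ⁻¹' {0}) :=
    hS.inter_right (isClosed_singleton.preimage hP)
  obtain ⟨T, hT⟩ := hK0.elim_finite_subcover O hO (fun x hx => by
    obtain ⟨i, hi⟩ := hc x hx.1.1 hx.2
    exact Set.mem_iUnion.2 ⟨i, hi⟩)
  have hK1 : IsCompact ({x | x ∈ S ∧ P x ≤ 1} \ ⋃ i ∈ T, O i) :=
    hS.diff (isOpen_biUnion fun i _ => hO i)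
  obtain ⟨a, ha, ha'⟩ := hK1.exists_forall_le' hP.continuousOn (a := 0) (fun x hx =>
    lt_of_le_of_ne (h0 x) fun h => hx.2 (hT ⟨hx.1, h.symm⟩))
  refine ⟨min a 1, lt_min ha one_pos, T, fun x hx hlt => ?_⟩
  by_contra hne
  have h1 : a ≤ P x := ha' x ⟨⟨hx, (hlt.trans_le (min_le_right _ _)).le⟩, fun h => by
    obtain ⟨i, hi, hxi⟩ := Set.mem_iUnion₂.1 h
    exact hne ⟨i, hi, hxi⟩⟩
  exact absurd (hlt.trans_le (min_le_left _ _)) (not_lt.2 h1)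

theorem exists_pos_le {ι : Type} [Finite ι] (f : ι → ℝ) (hf : ∀ i, 0 < f i) :
    ∃ ρ > 0, ∀ i, ρ ≤ f i := by
  cases isEmpty_or_nonempty ι with
  | inl h => exact ⟨1, one_pos, fun i => (h.false i).elim⟩
  | inr h =>
    obtain ⟨i, hi⟩ := Finite.exists_min f
    exact ⟨f i, hf i, hi⟩

theorem num_dl {l K n e a b ε g : ℝ} (ha : 0 ≤ a) (hb : 0 ≤ b) (hε : 0 < ε) (hg : 1 ≤ g)
    (hn : 0 ≤ n) (h1 : l ^ 2 ≤ K * n) (h2 : n ≤ e) (h3 : e ≤ 16 * (a * b))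
    (h4 : 16 * |K| / ε ^ 2 ≤ g) : l ≤ ε * (g * a + b) := by
  have hab : 0 ≤ a * b := mul_nonneg ha hb
  have h5 : 16 * |K| ≤ g * ε ^ 2 := (div_le_iff₀ (by positivity)).1 h4
  have h6 : K * n ≤ |K| * (16 * (a * b)) :=
    (mul_le_mul_of_nonneg_right (le_abs_self K) hn).trans
      (mul_le_mul_of_nonneg_left (h2.trans h3) (abs_nonneg K))
  have h7 : |K| * (16 * (a * b)) ≤ g * ε ^ 2 * (a * b) := by
    have := mul_le_mul_of_nonneg_right h5 hab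
    linarith
  have h8 : g * (a * b) ≤ (g * a + b) ^ 2 := by
    have := mul_nonneg (zero_le_one.trans hg) hab
    nlinarith [sq_nonneg (g * a), sq_nonneg b]
  have h9 : g * ε ^ 2 * (a * b) ≤ (ε * (g * a + b)) ^ 2 := by
    have := mul_le_mul_of_nonneg_left h8 (sq_nonneg ε)
    nlinarith
  refine (abs_le_of_sq_le_sq' (h1.trans (h6.trans (h7.trans h9))) ?_).2
  have := mul_nonneg (zero_le_one.trans hg) ha
  positivity

theorem num_mass {m K l η ε e : ℝ} (hη1 : η ≤ 1) (hε : 0 < ε) (hl0 : 0 ≤ l) (hl : l ≤ η)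
    (he : e ≤ η) (h : m ≤ K * l ^ 2 + ε * (1 + e)) : m ≤ |K| * η + 2 * ε := by
  have h1 : l ^ 2 ≤ η := by nlinarith
  have h2 : K * l ^ 2 ≤ |K| * η :=
    (mul_le_mul_of_nonneg_right (le_abs_self K) (sq_nonneg l)).trans
      (mul_le_mul_of_nonneg_left h1 (abs_nonneg K))
  have h3 : ε * (1 + e) ≤ ε * 2 := mul_le_mul_of_nonneg_left (by linarith) hε.le
  linarith

theorem num_pot {w G K e g δ : ℝ} (hδ : 0 < δ) (hK : 0 ≤ K) (hg : 1 ≤ g) (hG : 0 ≤ G)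
    (he : e ≤ 1) (h : G + g ^ 2 * w ≤ K * (e + g * 1)) (hgK : 8 * K / δ ≤ g) : w / δ ≤ 1 / 4 := by
  have h1 : 8 * K ≤ g * δ := (div_le_iff₀ hδ).1 hgK
  have h2 : K * (e + g * 1) ≤ K * (2 * g) := mul_le_mul_of_nonneg_left (by linarith) hK
  have hg0 : 0 < g := one_pos.trans_le hg
  have h3 : g * (g * w) ≤ g * (2 * K) := by nlinarith
  have h4 : g * w ≤ 2 * K := le_of_mul_le_mul_left h3 hg0
  have h5 : g * w ≤ g * (δ / 4) := by linarith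
  have h6 : w ≤ δ / 4 := le_of_mul_le_mul_left h5 hg0
  rw [div_le_iff₀ hδ]
  linarith

section Gen

variable {E : Type} [NormedAddCommGroup E] [InnerProductSpace ℝ E] [FiniteDimensional ℝ E]
  [MeasurableSpace E] [BorelSpace E]
variable {F : Type} [NormedAddCommGroup F] [InnerProductSpace ℂ F] [FiniteDimensional ℂ F]
variable {U : Submodule ℝ E}

theorem split {ι : Type} {ψ : E → F} (hψ : Sm U ψ) {P : E → ℝ} (hP : Continuous P)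
    (h0 : ∀ x, 0 ≤ P x) {δ : ℝ} (hδ : 0 < δ) (T : Finset ι) (O : ι → Set E)
    (hO : ∀ i, IsOpen (O i)) (hc : ∀ x ∈ U, P x < δ → ∃ i ∈ T, x ∈ O i) :
    nrm U ψ ≤ ∑ i ∈ T, mass U (O i) ψ + wnrm U P ψ / δ := by
  have hI : Integrable fun x : U => ‖ψ x‖ ^ 2 := Ga5Aux.integrable_sq hψ.memLp
  have hW : Integrable fun x : U => P x * ‖ψ x‖ ^ 2 := hψ.integrable_wnrm hP.continuousOn
  have hm : ∀ i, MeasurableSet {x : U | (x : E) ∈ O i} := fun i =>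
    ((hO i).preimage continuous_subtype_val).measurableSet
  have e1 : ∀ i, mass U (O i) ψ =
      ∫ x : U, {x : U | (x : E) ∈ O i}.indicator (fun x : U => ‖ψ x‖ ^ 2) x := fun i =>
    (integral_indicator (hm i)).symm
  have hs : Integrable fun x : U =>
      ∑ i ∈ T, {x : U | (x : E) ∈ O i}.indicator (fun x : U => ‖ψ x‖ ^ 2) x :=
    integrable_finsetSum _ fun i _ => hI.indicator (hm i)
  simp only [e1]
  rw [← integral_finsetSum _ fun i _ => hI.indicator (hm i), wnrm, ← integral_div,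
    ← integral_add hs (hW.div_const δ), nrm]
  refine integral_mono hI (hs.add (hW.div_const δ)) fun x => ?_
  have hn : ∀ i ∈ T, 0 ≤ {x : U | (x : E) ∈ O i}.indicator (fun x : U => ‖ψ x‖ ^ 2) x :=
    fun i _ => Set.indicator_nonneg (fun _ _ => sq_nonneg _) x
  dsimp only
  by_cases h : P x < δ
  · obtain ⟨i, hi, hx⟩ := hc x x.2 h
    have h1 := Finset.single_le_sum hn hi
    rw [Set.indicator_of_mem (show x ∈ {x : U | (x : E) ∈ O i} from hx)] at h1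
    have h2 : 0 ≤ P x * ‖ψ x‖ ^ 2 / δ := div_nonneg (mul_nonneg (h0 _) (sq_nonneg _)) hδ.le
    linarith
  · have h1 := Finset.sum_nonneg hn
    have h2 : ‖ψ x‖ ^ 2 ≤ P x * ‖ψ x‖ ^ 2 / δ := by
      rw [le_div_iff₀ hδ, mul_comm]
      exact mul_le_mul_of_nonneg_right (not_lt.1 h) (sq_nonneg _)
    linarith

omit [NormedAddCommGroup E] [InnerProductSpace ℝ E] [FiniteDimensional ℝ E]
  [MeasurableSpace E] [BorelSpace E] [FiniteDimensional ℂ F] in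
theorem lin_avg {D : Submodule ℂ (E → F)} {L : (E → F) → ℂ} (hL : LinOn D L)
    {f : Fin 16 → E → F} (hf : ∀ α, f α ∈ D) {t : ℝ} (ht : ∀ α, ‖L (f α)‖ ≤ t) :
    ‖L ((1 / 16 : ℂ) • ∑ α, f α)‖ ≤ t := by
  have h0 : L 0 = 0 := by
    have := hL 0 D.zero_mem 0 D.zero_mem 1
    simpa using this
  have hs : ∀ s : Finset (Fin 16), L (∑ α ∈ s, f α) = ∑ α ∈ s, L (f α) := by
    intro s
    induction s using Finset.induction_on with
    | empty => simpa using h0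
    | insert a s ha ih =>
      have := hL (f a) (hf a) (∑ α ∈ s, f α) (D.sum_mem fun α _ => hf α) 1
      rw [one_smul, one_mul] at this
      rw [Finset.sum_insert ha, Finset.sum_insert ha, this, ih]
  have h1 := hL 0 D.zero_mem (∑ α, f α) (D.sum_mem fun α _ => hf α) (1 / 16)
  rw [zero_add, h0, zero_add, hs] at h1
  rw [h1, norm_mul]
  have h2 : ‖∑ α, L (f α)‖ ≤ 16 * t := by
    refine (norm_sum_le _ _).trans ((Finset.sum_le_sum fun α _ => ht α).trans ?_)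
    simp
  have h3 : ‖(1 / 16 : ℂ)‖ = 1 / 16 := by simp
  rw [h3]
  linarith

end Gen

variable {N d : ℕ} {F : Type} [NormedAddCommGroup F] [InnerProductSpace ℂ F]
  [FiniteDimensional ℂ F] (c : Ctx N d F)

theorem exists_bump {ρ : ℝ} (hρ : 0 < ρ) : ∃ ϑ, c.Bump ϑ ρ := by
  obtain ⟨K, hK⟩ := exists_cutoff (Tn 9 d)
  obtain ⟨χ, h1, h2, h3, h4, h5, -⟩ := hK (ρ / 2) (half_pos hρ)
  exact ⟨χ, h1, h2, h3, h4, fun x hx => h5 x (by linarith)⟩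

theorem pot_nonneg (x : Tn 9 d) : 0 ≤ c.Pot 1 1 x := Finset.sum_nonneg fun _ _ => sq_nonneg _

theorem compact_pot (h_myp : c.S_myp) (U : Submodule ℝ (Tn 9 d)) :
    IsCompact {x | x ∈ (U : Set (Tn 9 d)) ∧ c.Pot 1 1 x ≤ 1} := by
  obtain ⟨k, hk, K, hK⟩ := h_myp 1 1 1 1 one_pos one_pos
  refine Metric.isCompact_of_isClosed_isBounded
    (U.closed_of_finiteDimensional.inter (isClosed_le (c.contDiff_Pot 1 1).continuous
      continuous_const)) ?_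
  refine (Metric.isBounded_closedBall (x := (0 : Tn 9 d)) (r := √((1 + K) / k))).subset ?_
  intro x hx
  rw [mem_closedBall_zero_iff]
  refine Real.le_sqrt_of_sq_le ?_
  have h1 := hK 1 ⟨le_rfl, le_rfl⟩ 1 ⟨le_rfl, le_rfl⟩ x
  have h2 := mul_nonneg hk.le (c.Fsq_nonneg x)
  have h3 := hx.2
  rw [le_div_iff₀ hk]
  linarith

theorem sep (π : Setoid (Fin N)) {z z' : Tn 9 d} (h : ∀ u ∈ Grp π, z ≠ c.Ad9 u z') :
    ∃ δ > 0, ∀ u ∈ Grp π, δ ≤ ‖z - c.Ad9 u z'‖ := by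
  have hc : Continuous fun u : UN N => ‖z - c.Ad9 u z'‖ :=
    (continuous_const.sub (c.continuous_Ad9.comp (continuous_id.prodMk continuous_const))).norm
  exact (isCompact_Grp π).exists_forall_le' hc.continuousOn (a := 0) fun u hu =>
    norm_pos_iff.2 (sub_ne_zero.2 (h u hu))

theorem Lz_zero {π : Setoid (Fin N)} {z z' : Tn 9 d} (hz : z ∈ sub 9 (c.ss π))
    (A : Tn 9 d →L[ℝ] Tn 9 d) (Ω : F) {ϑ : Tn 9 d → ℝ} {ρ : ℝ} (hϑ : c.Bump ϑ ρ) (g : ℝ)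
    {φ : Tn 9 d → F} (hφ : ∀ x ∈ sub 9 (c.ss π), φ x ≠ 0 → ∃ u ∈ Grp π, ‖x - c.Ad9 u z'‖ ≤ ρ)
    (hs : ∀ u ∈ Grp π, 2 * ρ ≤ ‖z - c.Ad9 u z'‖) : c.Lz π z A Ω ϑ g φ = 0 := by
  rw [Ctx.Lz]
  refine integral_eq_zero_of_ae (Eventually.of_forall fun W => ?_)
  by_cases hW : ρ ≤ ‖(W : Tn 9 d)‖
  · simp [hϑ.2.2.2.2 W hW]
  · have h0 : φ (z + W) = 0 := by
      by_contra hne
      obtain ⟨u, hu, hle⟩ := hφ _ ((sub 9 (c.ss π)).add_mem hz W.2.1) hne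
      have h1 := hs u hu
      have h2 : ‖z - c.Ad9 u z'‖ ≤ ‖z + W - c.Ad9 u z'‖ + ‖(W : Tn 9 d)‖ := by
        have : z - c.Ad9 u z' = (z + W - c.Ad9 u z') - W := by abel
        rw [this]
        exact norm_sub_le _ _
      linarith [not_le.1 hW]
    simp [h0]

theorem crit {π : Setoid (Fin N)} {g m : ℝ} {ι : Type} [Fintype ι] {L : ι → (Tn 9 d → F) → ℂ}
    (hL : ∀ i, LinOn (c.D0 π) (L i))
    (hb : ∀ i, ∃ B, ∀ φ ∈ c.D0 π, ‖L i φ‖ ^ 2 ≤ B * nrm (sub 9 (c.ss π)) φ)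
    (hd : Fintype.card ι < Module.finrank ℂ (c.V π g m)) {ε : ℝ} (hε : 0 < ε) :
    ∃ φ ∈ c.D0 π, nrm (sub 9 (c.ss π)) φ = 1 ∧ c.En (c.ss π) g m φ ≤ ε ∧ ∀ i, ‖L i φ‖ ≤ ε := by
  unfold Ctx.V at hd
  unfold Ctx.D0 at hL hb ⊢
  unfold Ctx.En
  exact crit_upper (fun α => c.contDiff_beta g m (eb α)) hL hb hd hε

theorem cover_orb (h_myp : c.S_myp) {π : Setoid (Fin N)} {Z : Finset (Tn 9 d)}
    (hcov : ∀ x ∈ sub 9 (c.ss π), c.IsVac x → ∃ z ∈ Z, ∃ u ∈ Grp π, x = c.Ad9 u z)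
    {r : Z → ℝ} (hr : ∀ z, 0 < r z) : ∃ δ > 0, ∃ T : Finset (Grp π × Z), ∀ ψ ∈ c.D0 π,
      nrm (sub 9 (c.ss π)) ψ ≤ ∑ t ∈ T, mass (sub 9 (c.ss π)) (Metric.ball t.2 (r t.2)) ψ +
        wnrm (sub 9 (c.ss π)) (c.Pot 1 1) ψ / δ := by
  have hO : ∀ p : Grp π × Z, IsOpen (c.Ad9 p.1 ⁻¹' Metric.ball (p.2 : Tn 9 d) (r p.2)) :=
    fun p => Metric.isOpen_ball.preimage (c.Ad9 p.1).continuous
  obtain ⟨δ, hδ, T, hT⟩ := cover (c.contDiff_Pot 1 1).continuous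
    (compact_pot c h_myp (sub 9 (c.ss π))) (pot_nonneg c) _ hO (fun x hx h0 => by
      obtain ⟨z, hz, u, hu, he⟩ := hcov x hx ((c.Pot_eq_zero_iff x).1 h0)
      refine ⟨(⟨u⁻¹, inv_mem_Grp hu⟩, ⟨z, hz⟩), ?_⟩
      rw [Set.mem_preimage, he, c.Ad9_inv_apply]
      exact Metric.mem_ball_self (hr _))
  refine ⟨δ, hδ, T, fun ψ hψ => ?_⟩
  have hD := (c.mem_D0.1 hψ).1
  have h := split (c.mem_D.1 hD).1 (c.contDiff_Pot 1 1).continuous (pot_nonneg c) hδ T _ hO hT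
  rwa [Finset.sum_congr rfl fun t _ => c.mass_Ad9 (c.Th_ss π) hD t.1.2 _] at h

end DgAux

namespace Ctx

variable {N d : ℕ} {F : Type} [NormedAddCommGroup F] [InnerProductSpace ℂ F]
  [FiniteDimensional ℂ F] (c : Ctx N d F)

theorem p_du (h_myp : c.S_myp) (h_crd : c.S_crd) (h_d2 : c.S_d2) (h_d3 : c.S_d3)
    (h_du1 : c.S_du1) (h_dl1 : c.S_dl1) : c.S_du := by
  intro π R hR
  obtain ⟨Z, hcard, hZ, hcov, -⟩ := h_d2 π R hR
  choose A Ω hV using fun z : Z => h_d3 π z (hZ z z.2).1 (hZ z z.2).2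
  choose ρ₁ hρ₁ h₁ using fun z : Z => h_du1 π z (hZ z z.2).1 (hZ z z.2).2 _ _ (hV z)
  choose ρ₂ hρ₂ h₂ using fun z : Z => h_dl1 π z (hZ z z.2).1 (hZ z z.2).2 _ _ (hV z)
  have hρ : ∀ z, 0 < min (ρ₁ z) (ρ₂ z) := fun z => lt_min (hρ₁ z) (hρ₂ z)
  choose ϑ hϑ using fun z : Z => DgAux.exists_bump c (hρ z)
  choose r hr K hK using fun z : Z => h₁ z _ (hρ z) (min_le_left _ _) _ (hϑ z)
  choose K₁ hK₁ using fun z : Z => h₂ z _ (hρ z) (min_le_right _ _) _ (hϑ z)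
  obtain ⟨δ, hδ, T, hT⟩ := DgAux.cover_orb c h_myp hcov hr
  obtain ⟨Kc, hKc0, hKc⟩ := h_crd
  obtain ⟨ε, hε, hεT⟩ := exists_pos_mul_lt (show (0 : ℝ) < 1 / 4 by norm_num) (2 * T.card)
  obtain ⟨η, hη, hηT⟩ := exists_pos_mul_lt (show (0 : ℝ) < 1 / 4 by norm_num)
    (∑ t ∈ T, |K t.2|)
  filter_upwards [hKc, eventually_all.2 fun z : Z => hK z ε hε, eventually_ge_atTop 1,
    eventually_ge_atTop (8 * Kc / δ)] with g hg1 hg2 hg3 hg4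
  by_contra hlt
  have hlt' : Fintype.card Z < Module.finrank ℂ (c.V π g g) := by
    rw [Fintype.card_coe, hcard]
    exact not_le.1 hlt
  obtain ⟨φ, hφ, hn, he, hL⟩ := DgAux.crit c
    (L := fun z : Z => c.Lz π z (A z) (Ω z) (ϑ z) g) (fun z => (hK₁ z g hg3).1)
    (fun z => ⟨K₁ z, fun φ hφ => ((hK₁ z g hg3).2 φ hφ).1⟩) hlt' (lt_min hη one_pos)
  have hsm : Sm (sub 9 (c.ss π)) φ := (c.mem_D.1 (c.mem_D0.1 hφ).1).1
  have h3 := hT φ hφ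
  have h4 : ∀ t ∈ T, mass (sub 9 (c.ss π)) (Metric.ball (t.2 : Tn 9 d) (r t.2)) φ ≤
      |K t.2| * min η 1 + 2 * ε := by
    intro t _
    have h5 := hg2 t.2 φ hφ
    rw [Ctx.NE, hn] at h5
    exact DgAux.num_mass (min_le_right _ _) hε (norm_nonneg _) (hL t.2) he h5
  have h5 := hg1 π _ (c.Th_ss π) φ hsm
  rw [hn] at h5
  have h6 := DgAux.num_pot hδ hKc0 hg3 (grad_nonneg _ _) (he.trans (min_le_right _ _)) h5 hg4
  have h7 := Finset.sum_le_sum h4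
  rw [Finset.sum_add_distrib, ← Finset.sum_mul, Finset.sum_const, nsmul_eq_mul] at h7
  have h8 : (∑ t ∈ T, |K t.2|) * min η 1 ≤ (∑ t ∈ T, |K t.2|) * η :=
    mul_le_mul_of_nonneg_left (min_le_left _ _) (Finset.sum_nonneg fun _ _ => abs_nonneg _)
  rw [hn] at h3
  linarith

theorem p_dl (h_spec : c.S_spec) (h_d2 : c.S_d2) (h_d3 : c.S_d3) (h_dl1 : c.S_dl1)
    (h_dl2 : c.S_dl2) : c.S_dl := by
  intro π R hR
  obtain ⟨Z, hcard, hZ, -, hsep⟩ := h_d2 π R hR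
  choose A Ω hV using fun z : Z => h_d3 π z (hZ z z.2).1 (hZ z z.2).2
  choose ρ₁ hρ₁ h₁ using fun z : Z => h_dl1 π z (hZ z z.2).1 (hZ z z.2).2 _ _ (hV z)
  choose ρ₂ hρ₂ K₂ h₂ using fun z : Z => h_dl2 π z (hZ z z.2).1 (hZ z z.2).2 _ _ (hV z)
  have hd : ∀ p : Z × Z, ∃ δ > 0, p.1 ≠ p.2 → ∀ u ∈ Grp π,
      δ ≤ ‖(p.1 : Tn 9 d) - c.Ad9 u p.2‖ := by
    intro p
    by_cases h : p.1 = p.2
    · exact ⟨1, one_pos, fun h' => (h' h).elim⟩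
    · obtain ⟨δ, hδ, hδ'⟩ := DgAux.sep c π (z := p.1) (z' := p.2) fun u hu he =>
        h (Subtype.ext (hsep _ p.2.2 _ p.1.2 u hu he).symm)
      exact ⟨δ, hδ, fun _ => hδ'⟩
  choose δ hδ hδ' using hd
  obtain ⟨a, ha, ha'⟩ := DgAux.exists_pos_le δ hδ
  obtain ⟨b₁, hb₁, hb₁'⟩ := DgAux.exists_pos_le ρ₁ hρ₁
  obtain ⟨b₂, hb₂, hb₂'⟩ := DgAux.exists_pos_le ρ₂ hρ₂
  obtain ⟨ρ, hρ, hρa, hρ1, hρ2⟩ : ∃ ρ > 0, 2 * ρ ≤ a ∧ ρ ≤ b₁ ∧ ρ ≤ b₂ :=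
    ⟨min (a / 2) (min b₁ b₂), lt_min (half_pos ha) (lt_min hb₁ hb₂),
      by linarith [min_le_left (a / 2) (min b₁ b₂)], (min_le_right _ _).trans (min_le_left _ _),
      (min_le_right _ _).trans (min_le_right _ _)⟩
  obtain ⟨ϑ, hϑ⟩ := DgAux.exists_bump c hρ
  choose K₁ hK₁ using fun z : Z => h₁ z ρ hρ (hρ1.trans (hb₁' z)) ϑ hϑ
  obtain ⟨M, hM⟩ := Finite.exists_le K₂
  obtain ⟨ε, hε, hεM⟩ := exists_pos_mul_lt (show (0 : ℝ) < 1 / 2 by norm_num)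
    (Fintype.card Z * (1 + 17 * √M))
  filter_upwards [eventually_all.2 fun z : Z => h₂ z ρ hρ (hρ2.trans (hb₂' z)) ϑ hϑ,
    eventually_ge_atTop 1, eventually_all.2 fun z : Z => eventually_ge_atTop (16 * |K₁ z| / ε ^ 2)]
    with g hg1 hg2 hg3
  choose φ hφ hn hL hs using hg1
  have hg0 : 0 < g := one_pos.trans_le hg2
  have key := h_spec.crit π g g hg0 hg0 Z (fun z => c.Lz π z (A z) (Ω z) ϑ g)
    (fun z => (hK₁ z g hg2).1) (fun z => ⟨K₁ z, fun ψ hψ => ((hK₁ z g hg2).2 ψ hψ).1⟩)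
    ε (1 / 2) (√M) hε.le (Real.sqrt_nonneg _) (fun z ψ hψ => ?_) φ hφ
    (fun z => (hn z).trans ((hM z).trans ?_)) hL (fun i j hij => ?_) (by linarith)
  · rwa [Fintype.card_coe, hcard] at key
  · refine DgAux.lin_avg (hK₁ z g hg2).1
      (fun α => c.Q_mem_D0 g g _ (c.Q_mem_D0 g g _ hψ)) fun α => ?_
    refine DgAux.num_dl (Real.sqrt_nonneg _) (Real.sqrt_nonneg _) hε hg2 (nrm_nonneg _ _)
      (((hK₁ z g hg2).2 _ (c.Q_mem_D0 g g _ hψ)).2 α) ?_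
      (h_spec.second π g g hg0 hg0 ψ hψ).1 (hg3 z)
    exact Finset.single_le_sum (f := fun α => nrm (sub 9 (c.ss π)) (c.Q (c.ss π) g g (eb α) ψ))
      (fun _ _ => nrm_nonneg _ _) (Finset.mem_univ α)
  · rw [Real.sq_sqrt']
    exact le_max_left _ _
  · rw [DgAux.Lz_zero c (hZ i i.2).1 _ _ hϑ g (hs j) fun u hu =>
      hρa.trans ((ha' (i, j)).trans (hδ' (i, j) hij u hu)), norm_zero]
    exact hε.le

end Ctx

end Vale.Agent.P353
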