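import Vale.Agent.P353.Ga1b

/-! Basic calculus of Dirac type operators. -/

noncomputable section

open MeasureTheory Filter Topology Complex Matrix
open scoped ContDiff RealInnerProductSpace

namespace Vale.Agent.P353

variable {E : Type} [NormedAddCommGroup E] [InnerProductSpace ℝ E] [FiniteDimensional ℝ E]
  [MeasurableSpace E] [BorelSpace E]
variable {S : Type} [NormedAddCommGroup S] [InnerProductSpace ℝ S] [FiniteDimensional ℝ S]
variable {F : Type} [NormedAddCommGroup F] [InnerProductSpace ℂ F] [FiniteDimensional ℂ F]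
variable {θ : S →L[ℝ] F →L[ℂ] F} {U : Submodule ℝ E} {C : Set ((E →L[ℝ] E) × (F →L[ℂ] F))}

namespace Ga1cAux

variable {V : Type} [NormedAddCommGroup V] [NormedSpace ℝ V] {f : E → V} {c : E → ℝ}

theorem hasF (hf : ContDiff ℝ 1 f) (x : U) :
    HasFDerivAt (fun x : U => f x) ((fderiv ℝ f x).comp U.subtypeL) x :=
  (hf.differentiable one_ne_zero _).hasFDerivAt.comp x U.subtypeL.hasFDerivAt

theorem int1 (hf : ContDiff ℝ 1 f) (hs : HasCompactSupport fun x : U => f x) (hc : Continuous c)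
    {y : E} (hy : y ∈ U) : Integrable fun x : U => c x • fderiv ℝ f x y := by
  refine Continuous.integrable_of_hasCompactSupport
    ((hc.smul ((hf.continuous_fderiv one_ne_zero).clm_apply continuous_const)).comp
      continuous_subtype_val) ?_
  refine (hs.fderiv_apply ℝ ⟨y, hy⟩).mono fun x hx h0 => hx ?_
  simp only [(hasF hf x).fderiv] at h0
  exact smul_eq_zero_of_right _ h0

theorem int2 (hf : Continuous f) (hs : HasCompactSupport fun x : U => f x) (hc : Continuous c) :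
    Integrable fun x : U => c x • f x :=
  Continuous.integrable_of_hasCompactSupport ((hc.smul hf).comp continuous_subtype_val)
    (hs.mono fun _ hx h0 => hx (smul_eq_zero_of_right _ h0))

theorem ibp (hf : ContDiff ℝ 1 f) (hs : HasCompactSupport fun x : U => f x)
    (hc : ContDiff ℝ 1 c) {y : E} (hy : y ∈ U) :
    ∫ x : U, c x • fderiv ℝ f x y = -∫ x : U, fderiv ℝ c x y • f x :=
  integral_bilinear_hasFDerivAt_right_eq_neg_left_of_integrable
    (B := ContinuousLinearMap.lsmul ℝ ℝ) (v := (⟨y, hy⟩ : U))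
    (f := fun x : U => c x) (g := fun x : U => f x)
    (f' := fun x : U => (fderiv ℝ c x).comp U.subtypeL)
    (g' := fun x : U => (fderiv ℝ f x).comp U.subtypeL)
    (int2 hf.continuous hs (c := fun x => fderiv ℝ c x y)
      ((hc.continuous_fderiv one_ne_zero).clm_apply continuous_const))
    (int1 hf hs hc.continuous hy) (int2 hf.continuous hs hc.continuous)
    (fun x _ => hasF hc x) fun x _ => hasF hf x

theorem map_eq {R : E →L[ℝ] E} (h : ∀ x ∈ U, R x ∈ U ∧ ‖R x‖ = ‖x‖) :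
    U.map (R : E →ₗ[ℝ] E) = U := by
  have h1 : Function.Injective
      ((R : E →ₗ[ℝ] E).restrict (p := U) (q := U) fun x hx => (h x hx).1) := by
    rw [injective_iff_map_eq_zero]
    intro x hx
    have h2 : R x = 0 := congrArg Subtype.val hx
    have h3 := (h x x.2).2
    rw [h2, norm_zero] at h3
    exact Subtype.ext (norm_eq_zero.1 h3.symm)
  refine le_antisymm ?_ fun y hy => ?_
  · rintro _ ⟨x, hx, rfl⟩
    exact (h x hx).1
  · obtain ⟨x, hx⟩ := LinearMap.injective_iff_surjective.1 h1 ⟨y, hy⟩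
    exact ⟨x, x.2, congrArg Subtype.val hx⟩

theorem norm_add_sq_le (a b : F) : ‖a + b‖ ^ 2 ≤ 2 * ‖a‖ ^ 2 + 2 * ‖b‖ ^ 2 := by
  have h1 := pow_le_pow_left₀ (norm_nonneg _) (norm_add_le a b) 2
  have h2 := sq_nonneg (‖a‖ - ‖b‖)
  linarith

end Ga1cAux

theorem dop_add (p : ℝ) (s : E →L[ℝ] S) (β : E → S) {φ ψ : E → F} (h : Differentiable ℝ φ)
    (h' : Differentiable ℝ ψ) : dop θ U p s β (φ + ψ) = dop θ U p s β φ + dop θ U p s β ψ := by
  funext x
  simp only [dop, Pi.add_apply, fderiv_add (h x) (h' x), _root_.add_apply, map_add,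
    smul_add, Finset.sum_add_distrib]
  abel

theorem dop_smul (p : ℝ) (s : E →L[ℝ] S) (β : E → S) (z : ℂ) (ψ : E → F) :
    dop θ U p s β (z • ψ) = z • dop θ U p s β ψ := by
  funext x
  simp only [dop, Pi.smul_apply, fderiv_const_smul_field, _root_.smul_apply, map_smul,
    smul_add, Finset.smul_sum, smul_comm z]

theorem dop_congr (p : ℝ) (s : E →L[ℝ] S) (β : E → S) {φ ψ : E → F} (h : Differentiable ℝ φ)
    (h' : Differentiable ℝ ψ) (he : ∀ x ∈ U, φ x = ψ x) {x : E} (hx : x ∈ U) :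
    dop θ U p s β φ x = dop θ U p s β ψ x := by
  simp only [dop, he x hx]
  congr 1
  refine Finset.sum_congr rfl fun k _ => ?_
  rw [fderiv_congr_on (h x) (h' x) hx (onb_mem U k) (Eventually.of_forall he)]

theorem dop_mulR (p : ℝ) (s : E →L[ℝ] S) (β : E → S) {ψ : E → F} {f : E → ℝ} {x : E}
    (h : DifferentiableAt ℝ ψ x) (hf : DifferentiableAt ℝ f x) :
    dop θ U p s β (fun y => (f y : ℂ) • ψ y) x =
      (f x : ℂ) • dop θ U p s β ψ x + (-I * p) • θ (s (gU U f x)) (ψ x) := by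
  have h1 : HasFDerivAt (fun y => (f y : ℂ)) (ofRealCLM.comp (fderiv ℝ f x)) x :=
    ofRealCLM.hasFDerivAt.comp x hf.hasFDerivAt
  have h2 := (h1.fun_smul h.hasFDerivAt).fderiv
  simp only [dop, h2, gU, _root_.add_apply, _root_.smul_apply,
    ContinuousLinearMap.smulRight_apply, ContinuousLinearMap.comp_apply, ofRealCLM_apply, map_add,
    map_smul, map_sum, smul_add, Finset.sum_add_distrib, Finset.smul_sum,
    _root_.sum_apply, smul_comm (f x : ℂ), ← coe_smul]
  abel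

/-- integration by parts along a vector field -/
theorem integral_fderiv_field {V : Type} [NormedAddCommGroup V] [NormedSpace ℝ V] {f : E → V}
    (hf : ContDiff ℝ 1 f) (hs : HasCompactSupport fun x : U => f x) {τ : E → E}
    (hτ : ContDiff ℝ 1 τ) (hU : ∀ x ∈ U, τ x ∈ U) :
    ∫ x : U, fderiv ℝ f x (τ x) =
      -∫ x : U, (∑ k, ⟪onb U k, fderiv ℝ τ x (onb U k)⟫) • f x := by
  have hc : ∀ k, ContDiff ℝ 1 fun x => ⟪onb U k, τ x⟫ := fun k => contDiff_const.inner ℝ hτ
  have hd : ∀ k x y, fderiv ℝ (fun x => ⟪onb U k, τ x⟫) x y = ⟪onb U k, fderiv ℝ τ x y⟫ := by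
    intro k x y
    have h1 : HasFDerivAt (fun x => ⟪onb U k, τ x⟫)
        ((innerSL ℝ (onb U k)).comp (fderiv ℝ τ x)) x :=
      (innerSL ℝ (onb U k)).hasFDerivAt.comp x (hτ.differentiable one_ne_zero x).hasFDerivAt
    rw [h1.fderiv]
    rfl
  have h1 : ∀ x : U, fderiv ℝ f x (τ x) = ∑ k, ⟪onb U k, τ x⟫ • fderiv ℝ f x (onb U k) := by
    intro x
    have h2 := sum_inner_onb_smul U (τ x)
    rw [Submodule.starProjection_eq_self_iff.2 (hU x x.2)] at h2
    conv_lhs => rw [← h2]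
    simp only [map_sum, map_smul]
  simp_rw [h1, Finset.sum_smul]
  rw [integral_finsetSum _ fun k _ => Ga1cAux.int1 hf hs (hc k).continuous (onb_mem U k),
    integral_finsetSum _ fun k _ => ?_, ← Finset.sum_neg_distrib]
  · refine Finset.sum_congr rfl fun k _ => ?_
    rw [Ga1cAux.ibp hf hs (hc k) (onb_mem U k)]
    simp_rw [hd]
  · exact Ga1cAux.int2 hf.continuous hs (c := fun x => ⟪onb U k, fderiv ℝ τ x (onb U k)⟫)
      (continuous_const.inner ((hτ.continuous_fderiv one_ne_zero).clm_apply continuous_const))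

theorem integral_fderiv_eq_zero {V : Type} [NormedAddCommGroup V] [NormedSpace ℝ V] {f : E → V}
    (hf : ContDiff ℝ 1 f) (hs : HasCompactSupport fun x : U => f x) {y : E} (hy : y ∈ U) :
    ∫ x : U, fderiv ℝ f x y = 0 := by
  simpa using Ga1cAux.ibp hf hs (c := fun _ => 1) contDiff_const hy

theorem IsCAR.dop_symm (h : IsCAR θ) (p : ℝ) (s : E →L[ℝ] S) {β : E → S} (hβ : Continuous β)
    {φ ψ : E → F} (hφ : Sm U φ) (hψ : ContDiff ℝ 1 ψ) :
    ip U (dop θ U p s β φ) ψ = ip U φ (dop θ U p s β ψ) := by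
  have hφ1 : ContDiff ℝ 1 φ := hφ.1.of_le (by simp)
  let G : Fin (Module.finrank ℝ U) → E → ℂ := fun k x => inner ℂ (φ x) (θ (s (onb U k)) (ψ x))
  have hG : ∀ k, ContDiff ℝ 1 (G k) := fun k =>
    hφ1.inner ℂ (((θ (s (onb U k))).restrictScalars ℝ).contDiff.comp hψ)
  have hGs : ∀ k, HasCompactSupport fun x : U => G k x := fun k =>
    hφ.2.mono fun x hx h0 => hx (by simp [G, show φ x = 0 from h0])
  have hd : ∀ k x y, fderiv ℝ (G k) x y = inner ℂ (φ x) (θ (s (onb U k)) (fderiv ℝ ψ x y)) +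
      inner ℂ (fderiv ℝ φ x y) (θ (s (onb U k)) (ψ x)) := by
    intro k x y
    have h1 : HasFDerivAt (fun x => θ (s (onb U k)) (ψ x))
        (((θ (s (onb U k))).restrictScalars ℝ).comp (fderiv ℝ ψ x)) x :=
      ((θ (s (onb U k))).restrictScalars ℝ).hasFDerivAt.comp x
        (hψ.differentiable one_ne_zero x).hasFDerivAt
    rw [((hφ1.differentiable one_ne_zero x).hasFDerivAt.inner ℂ h1).fderiv]
    simp
  have h1 : ∀ x : E, inner ℂ (dop θ U p s β φ x) (ψ x) = inner ℂ (φ x) (dop θ U p s β ψ x) +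
      ∑ k, (I * p) • ((1 : ℝ) • fderiv ℝ (G k) x (onb U k)) := by
    intro x
    simp only [dop, hd, inner_add_left, inner_add_right, sum_inner, inner_sum, inner_smul_left,
      inner_smul_right, h.symm, one_smul, smul_eq_mul, map_mul, map_neg, conj_I, conj_ofReal]
    rw [add_right_comm, ← Finset.sum_add_distrib]
    congr 1
    refine Finset.sum_congr rfl fun k _ => ?_
    ring
  have h2 : ∀ k, Integrable fun x : U => (I * p) • ((1 : ℝ) • fderiv ℝ (G k) x (onb U k)) :=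
    fun k => (Ga1cAux.int1 (hG k) (hGs k) (c := fun _ => 1) continuous_const (onb_mem U k)).smul
      (I * p)
  have h3 : Continuous (dop θ U p s β ψ) := by
    refine (continuous_finsetSum _ fun k _ => ?_).add
      ((θ.continuous.comp hβ).clm_apply hψ.continuous)
    exact ((θ (s (onb U k))).continuous.comp
      ((hψ.continuous_fderiv one_ne_zero).clm_apply continuous_const)).const_smul _
  have h4 : Integrable fun x : U => inner ℂ (φ x) (dop θ U p s β ψ x) := by
    refine Continuous.integrable_of_hasCompactSupport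
      ((hφ1.continuous.inner h3).comp continuous_subtype_val) ?_
    exact hφ.2.mono fun x hx h0 => hx (by simp [show φ x = 0 from h0])
  simp only [ip]
  simp_rw [h1]
  rw [integral_add h4 (integrable_finsetSum _ fun k _ => h2 k),
    integral_finsetSum _ fun k _ => h2 k, Finset.sum_eq_zero fun k _ => ?_, add_zero]
  simp only [one_smul]
  rw [integral_smul, integral_fderiv_eq_zero (hG k) (hGs k) (onb_mem U k), smul_zero]

theorem dop_mem_Tst (hA : Adm U C) (p : ℝ) {s : E →L[ℝ] S} {β : E → S} (hβ : ContDiff ℝ ∞ β)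
    (hC : Cov θ U C s β) {ψ : E → F} (h : ψ ∈ Tst U C) : dop θ U p s β ψ ∈ Tst U C := by
  refine ⟨h.1.dop p s hβ, fun c hc x hx => ?_⟩
  have hd : Differentiable ℝ ψ := h.1.1.differentiable (by simp)
  have hm : U.map (c.1 : E →ₗ[ℝ] E) = U := Ga1cAux.map_eq (hA c hc)
  have h1 : ∀ y ∈ U, fderiv ℝ ψ (c.1 x) (c.1 y) = c.2 (fderiv ℝ ψ x y) := by
    intro y hy
    have h2 : HasFDerivAt (fun z => ψ (c.1 z)) ((fderiv ℝ ψ (c.1 x)).comp c.1) x :=
      (hd _).hasFDerivAt.comp x c.1.hasFDerivAt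
    have h3 : HasFDerivAt (fun z => c.2 (ψ z)) ((c.2.restrictScalars ℝ).comp (fderiv ℝ ψ x)) x :=
      (c.2.restrictScalars ℝ).hasFDerivAt.comp x (hd x).hasFDerivAt
    have h4 := fderiv_congr_on h2.differentiableAt h3.differentiableAt hx hy
      (Eventually.of_forall (h.2 c hc))
    rwa [h2.fderiv, h3.fderiv] at h4
  have h2 := sum_onb_map (((ContinuousLinearMap.restrictScalarsL ℂ F F ℝ ℝ).comp
    (θ.comp s)).bilinearComp (ContinuousLinearMap.id ℝ E) (fderiv ℝ ψ (c.1 x)))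
    (fun y hy => (hA c hc y hy).2) hm
  have h3 : ∑ k, θ (s (onb U k)) (fderiv ℝ ψ (c.1 x) (onb U k)) =
      ∑ k, c.2 (θ (s (onb U k)) (fderiv ℝ ψ x (onb U k))) := by
    refine h2.trans (Finset.sum_congr rfl fun k _ => ?_)
    have h4 := DFunLike.congr_fun (hC c hc _ (onb_mem U k)).1 (fderiv ℝ ψ x (onb U k))
    simp only [mul_apply_eq_comp] at h4
    rw [h4, ← h1 _ (onb_mem U k)]
    rfl
  have h4 := DFunLike.congr_fun (hC c hc x hx).2 (ψ x)
  simp only [mul_apply_eq_comp] at h4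
  simp only [dop, map_add, map_sum, map_smul]
  rw [← Finset.smul_sum, ← Finset.smul_sum, h3, h4, h.2 c hc x hx]

theorem mulR_mem_Tst {ψ : E → F} (h : ψ ∈ Tst U C) {f : E → ℝ} (hf : ContDiff ℝ ∞ f)
    (hi : ∀ c ∈ C, ∀ x ∈ U, f (c.1 x) = f x) : (fun x => (f x : ℂ) • ψ x) ∈ Tst U C :=
  ⟨h.1.mulR hf, fun c hc x hx => by
    simp only [map_smul]
    rw [hi c hc x hx, h.2 c hc x hx]⟩

theorem clm_mem_Tst {ψ : E → F} (h : ψ ∈ Tst U C) {a : F →L[ℂ] F}
    (ha : ∀ c ∈ C, a * c.2 = c.2 * a) : (fun x => a (ψ x)) ∈ Tst U C :=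
  ⟨h.1.clm (a := fun _ => a) contDiff_const, fun c hc x hx => by
    have h1 := DFunLike.congr_fun (ha c hc) (ψ x)
    simp only [mul_apply_eq_comp] at h1
    simp only
    rw [h.2 c hc x hx, h1]⟩

/-- radial cutoff functions -/
theorem exists_cutoff (E : Type) [NormedAddCommGroup E] [InnerProductSpace ℝ E]
    [FiniteDimensional ℝ E] : ∃ K : ℝ, ∀ R > 0, ∃ χ : E → ℝ, ContDiff ℝ ∞ χ ∧
      (∀ x y, ‖x‖ = ‖y‖ → χ x = χ y) ∧ (∀ x, 0 ≤ χ x ∧ χ x ≤ 1) ∧ (∀ x, ‖x‖ ≤ R → χ x = 1) ∧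
      (∀ x, 2 * R ≤ ‖x‖ → χ x = 0) ∧ ∀ x, ‖fderiv ℝ χ x‖ ≤ K / R := by
  let b : E → ℝ := fun x => Real.smoothTransition ((4 - ‖x‖ ^ 2) / 3)
  have hb : ContDiff ℝ ∞ b := Real.smoothTransition.contDiff.comp
    ((contDiff_const.sub (contDiff_norm_sq ℝ)).div_const 3)
  have hb1 : ∀ x, ‖x‖ ≤ 1 → b x = 1 := fun x hx => by
    refine Real.smoothTransition.one_of_one_le ?_
    have := pow_le_one₀ (n := 2) (norm_nonneg x) hx
    linarith
  have hb0 : ∀ x, 2 ≤ ‖x‖ → b x = 0 := fun x hx => by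
    refine Real.smoothTransition.zero_of_nonpos ?_
    have := pow_le_pow_left₀ zero_le_two hx 2
    linarith
  have hbs : HasCompactSupport b := by
    refine HasCompactSupport.intro (isCompact_closedBall (0 : E) 2) fun x hx => hb0 x ?_
    rw [mem_closedBall_zero_iff, not_le] at hx
    exact hx.le
  obtain ⟨K, hK⟩ := (hb.continuous_fderiv (by simp)).bounded_above_of_compact_support
    (hbs.fderiv ℝ)
  refine ⟨K, fun R hR => ⟨fun x => b (R⁻¹ • x), hb.comp (contDiff_const_smul _), ?_, ?_, ?_, ?_,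
    ?_⟩⟩
  · intro x y hxy
    simp only [b, norm_smul, hxy]
  · exact fun x => ⟨Real.smoothTransition.nonneg _, Real.smoothTransition.le_one _⟩
  · intro x hx
    refine hb1 _ ?_
    rw [norm_smul, norm_inv, Real.norm_of_nonneg hR.le, inv_mul_le_iff₀ hR]
    linarith
  · intro x hx
    refine hb0 _ ?_
    rw [norm_smul, norm_inv, Real.norm_of_nonneg hR.le, le_inv_mul_iff₀ hR]
    linarith
  · intro x
    rw [fderiv_comp_smul, norm_smul, norm_inv, Real.norm_of_nonneg hR.le, div_eq_inv_mul]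
    exact mul_le_mul_of_nonneg_left (hK _) (inv_nonneg.2 hR.le)

theorem IsCAR.en_add_le (p : ℝ) (s : Fin 16 → E →L[ℝ] S) {β : Fin 16 → E → S}
    (hβ : ∀ α, ContDiff ℝ ∞ (β α)) {φ ψ : E → F} (h : Sm U φ) (h' : Sm U ψ) :
    √(en θ U p s β (φ + ψ)) ≤ √(en θ U p s β φ) + √(en θ U p s β ψ) := by
  have h1 : ∀ {χ : E → F}, Sm U χ → √(en θ U p s β χ) =
      ‖(WithLp.toLp 2 fun α => L2 U (dop θ U p (s α) (β α) χ) :
        PiLp 2 fun _ : Fin 16 => LL U F)‖ := by
    intro χ hχ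
    rw [PiLp.norm_eq_of_L2, en]
    congr 1
    exact Finset.sum_congr rfl fun α _ => (norm_L2_sq (hχ.dop p (s α) (hβ α)).memLp).symm
  rw [h1 h, h1 h', h1 (h.add h')]
  refine le_of_eq_of_le ?_ (norm_add_le _ _)
  congr 1
  ext α : 1
  rw [PiLp.add_apply]
  simp only
  rw [dop_add _ _ _ (h.1.differentiable (by simp)) (h'.1.differentiable (by simp)),
    L2_add (h.dop p (s α) (hβ α)).memLp (h'.dop p (s α) (hβ α)).memLp]

theorem en_smul (p : ℝ) (s : Fin 16 → E →L[ℝ] S) (β : Fin 16 → E → S) (z : ℂ) (ψ : E → F) :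
    en θ U p s β (z • ψ) = ‖z‖ ^ 2 * en θ U p s β ψ := by
  simp only [en, nrm, dop_smul, Pi.smul_apply, norm_smul, mul_pow, integral_const_mul,
    Finset.mul_sum]

theorem IsCAR.en_mulR_le (h : IsCAR θ) (p : ℝ) {s : Fin 16 → E →L[ℝ] S} {β : Fin 16 → E → S}
    (hβ : ∀ α, ContDiff ℝ ∞ (β α)) (hI : Iso U s β) {ψ : E → F} (hψ : Sm U ψ) {f : E → ℝ}
    (hf : ContDiff ℝ ∞ f) : en θ U p s β (fun x => (f x : ℂ) • ψ x) ≤
      2 * ∑ α, wnrm U (fun x => f x ^ 2) (dop θ U p (s α) (β α) ψ) +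
        16 * p ^ 2 * wnrm U (fun x => ‖gU U f x‖ ^ 2) ψ := by
  have hg : Continuous (gU U f) := continuous_finsetSum _ fun k _ =>
    ((hf.continuous_fderiv (by simp)).clm_apply continuous_const).smul continuous_const
  have i1 : ∀ α, Integrable fun x : U => f x ^ 2 * ‖dop θ U p (s α) (β α) ψ x‖ ^ 2 := fun α =>
    (hψ.dop p (s α) (hβ α)).integrable_wnrm (w := fun x => f x ^ 2)
      (hf.continuous.pow 2).continuousOn
  have i2 : ∀ α, Integrable fun x : U => ‖s α (gU U f x)‖ ^ 2 * ‖ψ x‖ ^ 2 := fun α =>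
    hψ.integrable_wnrm (w := fun x => ‖s α (gU U f x)‖ ^ 2)
      (((s α).continuous.comp hg).norm.pow 2).continuousOn
  have h1 : ∀ α, nrm U (dop θ U p (s α) (β α) fun x => (f x : ℂ) • ψ x) ≤
      2 * wnrm U (fun x => f x ^ 2) (dop θ U p (s α) (β α) ψ) +
        p ^ 2 * ∫ x : U, ‖s α (gU U f x)‖ ^ 2 * ‖ψ x‖ ^ 2 := by
    intro α
    rw [wnrm, ← integral_const_mul, ← integral_const_mul,
      ← integral_add ((i1 α).const_mul 2) ((i2 α).const_mul _)]
    refine integral_mono_of_nonneg (Eventually.of_forall fun x => sq_nonneg _)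
      (((i1 α).const_mul 2).add ((i2 α).const_mul _)) (Eventually.of_forall fun x => ?_)
    simp only
    rw [dop_mulR _ _ _ (hψ.1.differentiable (by simp) _) (hf.differentiable (by simp) _)]
    refine (Ga1cAux.norm_add_sq_le _ _).trans (le_of_eq ?_)
    rw [norm_smul, norm_smul, mul_pow, mul_pow, h.norm_sq, norm_mul, norm_neg, norm_I, one_mul,
      norm_real, norm_real, Real.norm_eq_abs, Real.norm_eq_abs, sq_abs, sq_abs]
    ring
  have h2 : ∑ α, ∫ x : U, ‖s α (gU U f x)‖ ^ 2 * ‖ψ x‖ ^ 2 =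
      16 * wnrm U (fun x => ‖gU U f x‖ ^ 2) ψ := by
    rw [← integral_finsetSum _ fun α _ => i2 α, wnrm, ← integral_const_mul]
    refine integral_congr_ae (Eventually.of_forall fun x => ?_)
    have h3 := hI.1 _ (gU_mem U f x) _ (gU_mem U f x)
    simp only [real_inner_self_eq_norm_sq] at h3
    simp only
    rw [← Finset.sum_mul, h3, mul_assoc]
  refine (Finset.sum_le_sum fun α _ => h1 α).trans (le_of_eq ?_)
  rw [Finset.sum_add_distrib, ← Finset.mul_sum, ← Finset.mul_sum, h2]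
  ring

theorem IsCAR.en_mulR_le' (h : IsCAR θ) (p : ℝ) {s : Fin 16 → E →L[ℝ] S} {β : Fin 16 → E → S}
    (hβ : ∀ α, ContDiff ℝ ∞ (β α)) (hI : Iso U s β) {ψ : E → F} (hψ : Sm U ψ) {f : E → ℝ}
    (hf : ContDiff ℝ ∞ f) {M : ℝ} (hM : ∀ x ∈ U, ψ x ≠ 0 → |f x| ≤ M ∧ ‖fderiv ℝ f x‖ ≤ M) :
    en θ U p s β (fun x => (f x : ℂ) • ψ x) ≤
      2 * M ^ 2 * en θ U p s β ψ + 16 * p ^ 2 * M ^ 2 * nrm U ψ := by
  have hg : Continuous (gU U f) := continuous_finsetSum _ fun k _ =>
    ((hf.continuous_fderiv (by simp)).clm_apply continuous_const).smul continuous_const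
  have key : ∀ {χ : E → F} {w : E → ℝ}, Sm U χ → Continuous w →
      (∀ x ∈ U, χ x ≠ 0 → w x ≤ M ^ 2) → wnrm U w χ ≤ M ^ 2 * nrm U χ := by
    intro χ w hχ hw hle
    rw [wnrm, nrm, ← integral_const_mul]
    refine integral_mono (hχ.integrable_wnrm hw.continuousOn)
      (hχ.integrable_wnrm (w := fun _ => M ^ 2) continuousOn_const) fun x => ?_
    by_cases h0 : χ x = 0
    · simp [h0]
    · exact mul_le_mul_of_nonneg_right (hle x x.2 h0) (sq_nonneg _)
  have h1 : ∀ α, wnrm U (fun x => f x ^ 2) (dop θ U p (s α) (β α) ψ) ≤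
      M ^ 2 * nrm U (dop θ U p (s α) (β α) ψ) := by
    intro α
    refine key (hψ.dop p (s α) (hβ α)) (hf.continuous.pow 2) fun x hx h0 => ?_
    rw [← sq_abs]
    refine pow_le_pow_left₀ (abs_nonneg _) (not_lt.1 fun hlt => h0 ?_) 2
    have h2 : ∀ᶠ z in 𝓝 x, z ∈ U → ψ z = (fun _ => 0) z := by
      filter_upwards [(hf.continuous.abs.tendsto x).eventually (lt_mem_nhds hlt)] with z hz hzU
      by_contra hne
      exact absurd (hM z hzU hne).1 (not_le.2 hz)
    have h3 : ∀ k, fderiv ℝ ψ x (onb U k) = 0 := fun k => by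
      rw [fderiv_congr_on (hψ.1.differentiable (by simp) x) (differentiableAt_const _) hx
        (onb_mem U k) h2]
      simp
    have h4 : ψ x = 0 := h2.self_of_nhds hx
    simp [dop, h3, h4]
  have h2 : wnrm U (fun x => ‖gU U f x‖ ^ 2) ψ ≤ M ^ 2 * nrm U ψ :=
    key hψ (hg.norm.pow 2) fun x hx h0 =>
      pow_le_pow_left₀ (norm_nonneg _) ((norm_gU_le U f x).trans (hM x hx h0).2) 2
  have h3 := Finset.sum_le_sum fun α (_ : α ∈ Finset.univ) => h1 α
  rw [← Finset.mul_sum] at h3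
  have h4 := mul_le_mul_of_nonneg_left h2 (sq_nonneg p)
  have h5 := h.en_mulR_le p hβ hI hψ hf
  change _ ≤ M ^ 2 * en θ U p s β ψ at h3
  linarith

end Vale.Agent.P353
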