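import Vale.Agent.P353.Gau
import Vale.Agent.P353.Ga1c
import Vale.Agent.P353.Car1a

/-! Generic estimates for a Gaussian amplitude on a slice. -/

noncomputable section

open MeasureTheory Filter Topology Complex
open scoped ContDiff RealInnerProductSpace

namespace Vale.Agent.P353.Dl1Aux

variable {E : Type} [NormedAddCommGroup E] [InnerProductSpace ℝ E] [FiniteDimensional ℝ E]
  [MeasurableSpace E] [BorelSpace E]

theorem integrable_ball {V : Type} [NormedAddCommGroup V] (Y : Submodule ℝ E) {φ : E → V}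
    (hφ : Continuous φ) {ρ : ℝ} (h : ∀ W ∈ Y, ρ < ‖W‖ → φ W = 0) :
    Integrable fun W : Y => φ W := by
  refine Continuous.integrable_of_hasCompactSupport (hφ.comp continuous_subtype_val) ?_
  refine HasCompactSupport.intro (isCompact_closedBall (0 : Y) ρ) fun x hx => h x x.2 ?_
  simpa using hx

omit [MeasurableSpace E] [BorelSpace E] in
theorem exists_inv (B : E →L[ℝ] E →L[ℝ] E) : ∃ R > 0, ∃ M : E → E →L[ℝ] E, ContDiff ℝ ∞ M ∧
    ∀ W, ‖W‖ ≤ R → ∀ e, M W e + B W (M W e) = e := by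
  obtain ⟨K, hK⟩ := exists_cutoff E
  have hB : 0 < ‖B‖ + 1 := by positivity
  have hR : 0 < 1 / (4 * (‖B‖ + 1)) := by positivity
  obtain ⟨χ, h1, -, h2, h3, h4, -⟩ := hK _ hR
  have hu : ∀ W, IsUnit (1 + B (χ W • W)) := fun W => by
    have h5 : ‖χ W • W‖ ≤ 2 * (1 / (4 * (‖B‖ + 1))) := by
      rcases le_total (2 * (1 / (4 * (‖B‖ + 1)))) ‖W‖ with h | h
      · rw [h4 W h, zero_smul, norm_zero]; positivity
      · rw [norm_smul, Real.norm_of_nonneg (h2 W).1]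
        exact (mul_le_of_le_one_left (norm_nonneg _) (h2 W).2).trans h
    have h6 : ‖-B (χ W • W)‖ < 1 := by
      rw [norm_neg]
      refine (B.le_of_opNorm_le_of_le (le_add_of_nonneg_right zero_le_one) h5).trans_lt ?_
      rw [show (‖B‖ + 1) * (2 * (1 / (4 * (‖B‖ + 1)))) = 1 / 2 by field_simp; norm_num]
      norm_num
    have h7 := (Units.oneSub _ h6).isUnit
    rwa [Units.val_oneSub, sub_neg_eq_add] at h7
  refine ⟨_, hR, fun W => Ring.inverse (1 + B (χ W • W)), ?_, fun W hW e => ?_⟩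
  · refine contDiff_iff_contDiffAt.2 fun W => ?_
    have h5 : ContDiff ℝ ∞ fun W => 1 + B (χ W • W) :=
      contDiff_const.add (B.contDiff.comp (h1.smul contDiff_id))
    have h6 := contDiffAt_ringInverse ℝ (n := ∞) (hu W).unit
    rw [IsUnit.unit_spec] at h6
    exact h6.comp W h5.contDiffAt
  · have h5 := Ring.mul_inverse_cancel _ (hu W)
    have h6 := congrArg (fun a : E →L[ℝ] E => a e) h5
    simp only [h3 W hW, one_smul] at h6 ⊢
    exact h6

omit [MeasurableSpace E] [BorelSpace E] in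
theorem exists_zeta {L : Type} [NormedAddCommGroup L] [NormedSpace ℝ L]
    (vf : L →L[ℝ] E →L[ℝ] E) (𝔟 : Submodule ℝ L) (z : E) : ∃ R > 0, ∃ ζ : E → E →L[ℝ] L,
      ContDiff ℝ ∞ ζ ∧ (∀ W e, ζ W e ∈ 𝔟) ∧ ∀ W, ‖W‖ ≤ R → ∀ e, ∀ ξ ∈ 𝔟,
        ⟪vf ξ z, e - vf (ζ W e) (z + W)⟫ = 0 := by
  obtain ⟨T, hT⟩ : ∃ T : 𝔟 →ₗ[ℝ] E, ∀ ξ, T ξ = vf ξ z :=
    ⟨(vf.flip z : L →ₗ[ℝ] E) ∘ₗ 𝔟.subtype, fun _ => rfl⟩
  obtain ⟨σ, hσ⟩ := T.rangeRestrict.exists_rightInverse_of_surjective T.range_rangeRestrict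
  obtain ⟨S, hS1, hS2⟩ : ∃ S : E →L[ℝ] L, (∀ e, S e ∈ 𝔟) ∧
      ∀ e, vf (S e) z = (LinearMap.range T).starProjection e := by
    refine ⟨LinearMap.toContinuousLinearMap (𝔟.subtype ∘ₗ σ ∘ₗ
      ((LinearMap.range T).orthogonalProjectionOnto : E →ₗ[ℝ] LinearMap.range T)),
      fun e => (σ _).2, fun e => ?_⟩
    have h := congrArg Subtype.val
      (LinearMap.congr_fun hσ ((LinearMap.range T).orthogonalProjectionOnto e))
    exact (hT _).symm.trans h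
  obtain ⟨B, hB⟩ : ∃ B : E →L[ℝ] E →L[ℝ] E,
      ∀ W e, B W e = (LinearMap.range T).starProjection (vf (S e) W) :=
    ⟨(ContinuousLinearMap.compL ℝ E E E (LinearMap.range T).starProjection).comp (vf.comp S).flip,
      fun _ _ => rfl⟩
  obtain ⟨R, hR, M, hM, hM'⟩ := exists_inv B
  refine ⟨R, hR, fun W => S.comp (M W), contDiff_const.clm_comp hM, fun W e => hS1 _,
    fun W hW e ξ hξ => ?_⟩
  have hP : ∀ x, ⟪vf ξ z, (LinearMap.range T).starProjection x⟫ = ⟪vf ξ z, x⟫ := fun x => by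
    have h := (Submodule.mem_orthogonal _ _).1
      ((LinearMap.range T).sub_starProjection_mem_orthogonal x) (vf ξ z) ⟨⟨ξ, hξ⟩, hT _⟩
    rw [inner_sub_right] at h
    linarith
  have h := congrArg (fun x => ⟪vf ξ z, x⟫) (hM' W hW e)
  simp only [hB, inner_add_right, hP] at h
  rw [ContinuousLinearMap.comp_apply, map_add, hS2, inner_sub_right, inner_add_right, hP, h,
    sub_self]

theorem cs_real {X : Type} [MeasurableSpace X] {μ : Measure X} {u v : X → ℝ}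
    (hu : Integrable (fun x => u x ^ 2) μ) (hv : Integrable (fun x => v x ^ 2) μ)
    (huv : Integrable (fun x => u x * v x) μ) :
    (∫ x, u x * v x ∂μ) ^ 2 ≤ (∫ x, u x ^ 2 ∂μ) * ∫ x, v x ^ 2 ∂μ := by
  have h : ∀ t : ℝ, 0 ≤ (∫ x, u x ^ 2 ∂μ) * (t * t) + (2 * ∫ x, u x * v x ∂μ) * t +
      ∫ x, v x ^ 2 ∂μ := fun t => by
    have h1 : 0 ≤ ∫ x, (u x ^ 2 * (t * t) + u x * v x * (2 * t) + v x ^ 2) ∂μ :=
      integral_nonneg fun x => by
        have := sq_nonneg (u x * t + v x)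
        simp only [Pi.zero_apply]
        linarith
    have h2 : Integrable (fun x => u x ^ 2 * (t * t) + u x * v x * (2 * t)) μ :=
      (hu.mul_const _).add (huv.mul_const _)
    rw [integral_add h2 hv, integral_add (hu.mul_const _) (huv.mul_const _), integral_mul_const,
      integral_mul_const] at h1
    linarith
  have h3 := discrim_le_zero h
  rw [discrim] at h3
  linarith

theorem moment {Y : Submodule ℝ E} {A : E →L[ℝ] E} {a : ℝ} (ha : 0 < a)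
    (hA : ∀ w ∈ Y, a * ‖w‖ ^ 2 ≤ ⟪w, A w⟫) : ∃ M ≥ 0, ∀ g > 0,
      (Integrable fun W : Y => ((1 + g * ‖(W : E)‖ ^ 2) * gauss Y (g • A) W) ^ 2) ∧
      ∫ W : Y, ((1 + g * ‖(W : E)‖ ^ 2) * gauss Y (g • A) W) ^ 2 ≤ M := by
  obtain ⟨K, hK⟩ := gauss_moment Y ha ‖A‖ 2
  refine ⟨2 + 2 * |K|, by positivity, fun g hg => ?_⟩
  have hg' : 0 < g * a := by positivity
  have hA' : ∀ w ∈ Y, g * a * ‖w‖ ^ 2 ≤ ⟪w, (g • A) w⟫ := fun w hw => by
    rw [_root_.smul_apply, real_inner_smul_right, mul_assoc]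
    exact mul_le_mul_of_nonneg_left (hA w hw) hg.le
  have i0 : Integrable fun W : Y => gauss Y (g • A) W ^ 2 := by
    simpa using integrable_gauss_sq hg' hA' 0
  have i4 : Integrable fun W : Y => (g * ‖(W : E)‖ ^ 2) ^ 2 * gauss Y (g • A) W ^ 2 := by
    refine ((integrable_gauss_sq hg' hA' 4).const_mul (g ^ 2)).congr
      (Eventually.of_forall fun W => ?_)
    ring
  have i5 : Integrable fun W : Y => 2 * gauss Y (g • A) W ^ 2 +
      2 * ((g * ‖(W : E)‖ ^ 2) ^ 2 * gauss Y (g • A) W ^ 2) :=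
    (i0.const_mul 2).add (i4.const_mul 2)
  have hb : ∀ W : Y, ((1 + g * ‖(W : E)‖ ^ 2) * gauss Y (g • A) W) ^ 2 ≤
      2 * gauss Y (g • A) W ^ 2 + 2 * ((g * ‖(W : E)‖ ^ 2) ^ 2 * gauss Y (g • A) W ^ 2) :=
    fun W => by
      have := mul_nonneg (sq_nonneg (1 - g * ‖(W : E)‖ ^ 2)) (sq_nonneg (gauss Y (g • A) W))
      linarith
  have hc : Continuous fun W : E => ((1 + g * ‖W‖ ^ 2) * gauss Y (g • A) W) ^ 2 := by
    have := (contDiff_gauss Y (g • A)).continuous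
    fun_prop
  have i6 : Integrable fun W : Y => ((1 + g * ‖(W : E)‖ ^ 2) * gauss Y (g • A) W) ^ 2 :=
    i5.mono' (hc.comp continuous_subtype_val).aestronglyMeasurable
      (Eventually.of_forall fun W => by rw [Real.norm_of_nonneg (sq_nonneg _)]; exact hb W)
  refine ⟨i6, (integral_mono i6 i5 hb).trans ?_⟩
  rw [integral_add (i0.const_mul 2) (i4.const_mul 2), integral_const_mul, integral_const_mul,
    integral_gauss_sq hg' hA']
  have h1 := hK A hA le_rfl g hg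
  have h2 := le_abs_self K
  linarith

/-- Cauchy-Schwarz against the Gaussian weight -/
theorem cs {Y : Submodule ℝ E} {A : E →L[ℝ] E} {a : ℝ} (ha : 0 < a)
    (hA : ∀ w ∈ Y, a * ‖w‖ ^ 2 ≤ ⟪w, A w⟫) : ∃ M ≥ 0, ∀ g > 0, ∀ (δ K : ℝ) (p : E → ℝ),
      Continuous p → ∀ J : E → ℂ, (∀ W ∈ Y, δ < ‖W‖ → J W = 0) →
      (∀ W ∈ Y, ‖W‖ ≤ δ → ‖J W‖ ≤ K * ((1 + g * ‖W‖ ^ 2) * gauss Y (g • A) W * p W)) →
      ‖∫ W : Y, J W‖ ^ 2 ≤ K ^ 2 * M * ∫ W in {W : Y | ‖(W : E)‖ ≤ δ}, p W ^ 2 := by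
  obtain ⟨M, hM0, hM⟩ := moment ha hA
  refine ⟨M, hM0, fun g hg δ K p hp J h0 hJ => ?_⟩
  obtain ⟨i1, i2⟩ := hM g hg
  have hs : IsCompact {W : Y | ‖(W : E)‖ ≤ δ} := by
    have : {W : Y | ‖(W : E)‖ ≤ δ} = Metric.closedBall 0 δ := by ext W; simp
    rw [this]; exact isCompact_closedBall _ _
  have hu : Continuous fun W : Y => (1 + g * ‖(W : E)‖ ^ 2) * gauss Y (g • A) W := by
    have := (contDiff_gauss Y (g • A)).continuous
    fun_prop
  have hp' : Continuous fun W : Y => p W := hp.comp continuous_subtype_val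
  have j1 := ((hu.mul hp').continuousOn.integrableOn_compact (μ := volume) hs)
  have j2 := ((hp'.pow 2).continuousOn.integrableOn_compact (μ := volume) hs)
  have h1 : ∫ W : Y, J W = ∫ W in {W : Y | ‖(W : E)‖ ≤ δ}, J W :=
    (setIntegral_eq_integral_of_forall_compl_eq_zero (f := fun W : Y => J W)
      fun W hW => h0 W W.2 (not_le.1 hW)).symm
  have h2 : ‖∫ W in {W : Y | ‖(W : E)‖ ≤ δ}, J W‖ ≤ ∫ W in {W : Y | ‖(W : E)‖ ≤ δ},
      K * ((1 + g * ‖(W : E)‖ ^ 2) * gauss Y (g • A) W * p W) :=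
    norm_integral_le_of_norm_le (j1.const_mul K)
      ((ae_restrict_iff' hs.measurableSet).2 (Eventually.of_forall fun W hW => hJ W W.2 hW))
  rw [integral_const_mul] at h2
  have h3 := cs_real (μ := volume.restrict {W : Y | ‖(W : E)‖ ≤ δ}) i1.integrableOn j2 j1
  have h4 : ∫ W in {W : Y | ‖(W : E)‖ ≤ δ},
      ((1 + g * ‖(W : E)‖ ^ 2) * gauss Y (g • A) W) ^ 2 ≤ M :=
    (setIntegral_le_integral i1 (Eventually.of_forall fun W => sq_nonneg _)).trans i2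
  have h5 : 0 ≤ ∫ W in {W : Y | ‖(W : E)‖ ≤ δ}, p W ^ 2 := integral_nonneg fun W => sq_nonneg _
  rw [h1]
  refine (pow_le_pow_left₀ (norm_nonneg _) h2 2).trans ?_
  rw [mul_pow, mul_assoc]
  exact mul_le_mul_of_nonneg_left (h3.trans (mul_le_mul_of_nonneg_right h4 h5)) (sq_nonneg _)

theorem shift {Y : Submodule ℝ E} {z : E} (hz : z ∈ Y) (δ : ℝ) (f : E → ℝ) :
    ∫ W in {W : Y | ‖(W : E)‖ ≤ δ}, f (z + W) = ∫ y in {y : Y | ‖(y : E) - z‖ ≤ δ}, f y := by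
  have m1 : MeasurableSet {W : Y | ‖(W : E)‖ ≤ δ} :=
    (isClosed_le (by fun_prop) continuous_const).measurableSet
  have m2 : MeasurableSet {y : Y | ‖(y : E) - z‖ ≤ δ} :=
    (isClosed_le (by fun_prop) continuous_const).measurableSet
  have h := integral_add_sub ({y : E | ‖y - z‖ ≤ δ}.indicator f) hz
  rw [← integral_indicator m1, ← integral_indicator m2]
  refine Eq.trans (integral_congr_ae (Eventually.of_forall fun W => ?_)) (h.trans
    (integral_congr_ae (Eventually.of_forall fun W => ?_)))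
  · simp only [Set.indicator_apply, Set.mem_ofPred_eq, add_sub_cancel_right, add_comm z]
  · simp only [Set.indicator_apply, Set.mem_ofPred_eq]

variable {S : Type} [NormedAddCommGroup S] [InnerProductSpace ℝ S] [FiniteDimensional ℝ S]
variable {F : Type} [NormedAddCommGroup F] [InnerProductSpace ℂ F] [FiniteDimensional ℂ F]

theorem div_smul (Y : Submodule ℝ E) {h : E → ℝ} {τ : E → E} {W : E}
    (hh : DifferentiableAt ℝ h W) (hτ : DifferentiableAt ℝ τ W) (hY : τ W ∈ Y) :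
    ∑ j, ⟪onb Y j, fderiv ℝ (fun x => h x • τ x) W (onb Y j)⟫ =
      fderiv ℝ h W (τ W) + h W * ∑ j, ⟪onb Y j, fderiv ℝ τ W (onb Y j)⟫ := by
  have h1 : fderiv ℝ h W (τ W) = ∑ j, fderiv ℝ h W (onb Y j) * ⟪onb Y j, τ W⟫ := by
    conv_lhs => rw [← sum_onb_self hY]
    simp only [map_sum, map_smul, smul_eq_mul, mul_comm]
  rw [(hh.hasFDerivAt.fun_smul hτ.hasFDerivAt).fderiv, h1, Finset.mul_sum,
    ← Finset.sum_add_distrib]
  refine Finset.sum_congr rfl fun j _ => ?_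
  simp only [_root_.add_apply, _root_.smul_apply, ContinuousLinearMap.smulRight_apply,
    inner_add_right, real_inner_smul_right]
  ring

/-- one integration by parts -/
theorem ibp (Y : Submodule ℝ E) {h : E → ℝ} {τ : E → E} (hh : ContDiff ℝ 1 h)
    (hτ : ContDiff ℝ 1 τ) {ρ : ℝ} (h0 : ∀ W, ρ ≤ ‖W‖ → h W = 0)
    (hY : ∀ W ∈ Y, ‖W‖ ≤ ρ → τ W ∈ Y) {f : E → ℂ} (hf : ContDiff ℝ 1 f)
    (hs : HasCompactSupport fun x : Y => f x) : ∃ Z : E → ℂ, (Integrable fun W : Y => Z W) ∧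
      ∫ W : Y, Z W = 0 ∧ (∀ W, ρ < ‖W‖ → Z W = 0) ∧ ∀ W ∈ Y, ‖W‖ ≤ ρ →
        Z W = h W • fderiv ℝ f W (τ W) +
          (fderiv ℝ h W (τ W) + h W * ∑ j, ⟪onb Y j, fderiv ℝ τ W (onb Y j)⟫) • f W := by
  have h1 : ContDiff ℝ 1 fun x => h x • τ x := hh.smul hτ
  have h2 : ∀ W ∈ Y, h W • τ W ∈ Y := fun W hW => by
    rcases le_total ρ ‖W‖ with h | h
    · rw [h0 W h, zero_smul]; exact Y.zero_mem
    · exact Y.smul_mem _ (hY W hW h)
  have i1 : Integrable fun W : Y => fderiv ℝ f W (h W • τ W) :=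
    integrable_ball Y (φ := fun W => fderiv ℝ f W (h W • τ W))
      ((hf.continuous_fderiv one_ne_zero).clm_apply h1.continuous) (ρ := ρ)
      fun W _ hW => by rw [h0 W hW.le, zero_smul, map_zero]
  have i2 : Integrable fun W : Y =>
      (∑ j, ⟪onb Y j, fderiv ℝ (fun x => h x • τ x) W (onb Y j)⟫) • f W :=
    Ga1cAux.int2 hf.continuous hs
      (c := fun W => ∑ j, ⟪onb Y j, fderiv ℝ (fun x => h x • τ x) W (onb Y j)⟫)
      (continuous_finsetSum _ fun j _ => continuous_const.inner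
        ((h1.continuous_fderiv one_ne_zero).clm_apply continuous_const))
  refine ⟨fun W => fderiv ℝ f W (h W • τ W) +
    (∑ j, ⟪onb Y j, fderiv ℝ (fun x => h x • τ x) W (onb Y j)⟫) • f W, i1.add i2, ?_,
    fun W hW => ?_, fun W hW hρ => ?_⟩
  · rw [integral_add i1 i2, integral_fderiv_field hf hs h1 h2, neg_add_cancel]
  · have h3 : (fun x => h x • τ x) =ᶠ[𝓝 W] fun _ => 0 := by
      filter_upwards [(isOpen_lt continuous_const continuous_norm).mem_nhds hW] with x hx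
      rw [h0 x (le_of_lt hx), zero_smul]
    simp [h3.fderiv_eq, h0 W hW.le]
  · beta_reduce
    rw [div_smul Y (hh.differentiable one_ne_zero W) (hτ.differentiable one_ne_zero W)
      (hY W hW hρ), map_smul]

omit [FiniteDimensional ℝ S] [FiniteDimensional ℂ F] in
theorem lead {θ : S →L[ℝ] F →L[ℂ] F} (hθ : IsCAR θ) {U : Submodule ℝ E} (s : E →L[ℝ] S) {Ω : F}
    {y : E} (hy : y ∈ U) {w : S} (h : I • θ (s y) Ω + θ w Ω = 0) (a : F) :
    ∑ k, ((⟪onb U k, y⟫ : ℝ) : ℂ) * inner ℂ Ω ((-I) • θ (s (onb U k)) a) =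
      -inner ℂ Ω (θ w a) := by
  have h1 : inner ℂ (I • θ (s y) Ω + θ w Ω) a = 0 := by rw [h, inner_zero_left]
  rw [inner_add_left, inner_smul_left, hθ.symm, hθ.symm, conj_I] at h1
  rw [← eq_neg_iff_add_eq_zero.2 h1]
  conv_rhs => rw [← sum_onb_self hy]
  simp only [map_sum, map_smul, _root_.sum_apply, _root_.smul_apply, inner_sum, Finset.mul_sum,
    ← coe_smul, inner_smul_right]
  exact Finset.sum_congr rfl fun k _ => by ring

/-- the amplitude of a Dirac type operator after integration by parts -/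
theorem key {θ : S →L[ℝ] F →L[ℂ] F} (hθ : IsCAR θ) {U Y : Submodule ℝ E} (hYU : Y ≤ U)
    (s b : E →L[ℝ] S) {A : E →L[ℝ] E} (hs : IsSym A) (hAY : ∀ W, A W ∈ Y) {Ω : F}
    (hann : ∀ W ∈ Y, I • θ (s (A W)) Ω + θ (b W) Ω = 0) {Φ : E → S} {C ρ : ℝ}
    (hΦ : ∀ W, ‖Φ W‖ ≤ C * ‖W‖ ^ 2) {ϑ : E → ℝ} (hϑ : ContDiff ℝ 1 ϑ)
    (h01 : ∀ W, 0 ≤ ϑ W ∧ ϑ W ≤ 1) (h0 : ∀ W, ρ ≤ ‖W‖ → ϑ W = 0)
    {τ : Fin (Module.finrank ℝ U) → E → E} {Γ : Fin (Module.finrank ℝ U) → E → F →L[ℂ] F}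
    (hτ : ∀ k, ContDiff ℝ 1 (τ k)) (hΓ : ∀ k, Continuous (Γ k))
    (hY : ∀ k, ∀ W ∈ Y, ‖W‖ ≤ ρ → τ k W ∈ Y)
    (hq : ∀ k, ∀ W ∈ Y, ‖W‖ ≤ ρ → |⟪τ k W - onb U k, A W⟫| ≤ C * ‖W‖ ^ 2) :
    ∃ K : ℝ, ∀ g > 0, ∀ (φ : E → F) (β : E → S), ContDiff ℝ 1 φ → Continuous β →
      (HasCompactSupport fun x : Y => φ x) → (∀ W, β W = g • (b W + Φ W)) →
      (∀ k, ∀ W ∈ Y, ‖W‖ ≤ ρ →
        fderiv ℝ φ W (onb U k) = Γ k W (φ W) + fderiv ℝ φ W (τ k W)) →
      ∃ J : E → ℂ, ∫ W : Y, ((ϑ W * gauss Y (g • A) W : ℝ) : ℂ) * inner ℂ Ω (dop θ U 1 s β φ W) =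
        ∫ W : Y, J W ∧ (∀ W ∈ Y, ρ < ‖W‖ → J W = 0) ∧ ∀ W ∈ Y, ‖W‖ ≤ ρ →
          ‖J W‖ ≤ K * ((1 + g * ‖W‖ ^ 2) * gauss Y (g • A) W * ‖φ W‖) := by
  obtain ⟨L, hL⟩ : ∃ L : Fin (Module.finrank ℝ U) → F →L[ℂ] ℂ,
      ∀ k a, L k a = inner ℂ Ω ((-I) • θ (s (onb U k)) a) :=
    ⟨fun k => (innerSL ℂ Ω).comp ((-I) • θ (s (onb U k))), fun _ _ => rfl⟩
  obtain ⟨q, hq0⟩ : ∃ q : Fin (Module.finrank ℝ U) → E → ℝ, ∀ k W, q k W =
      fderiv ℝ ϑ W (τ k W) + ϑ W * ∑ j, ⟪onb Y j, fderiv ℝ (τ k) W (onb Y j)⟫ :=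
    ⟨_, fun _ _ => rfl⟩
  have hqc : ∀ k, Continuous (q k) := fun k => by
    rw [funext (hq0 k)]
    exact ((hϑ.continuous_fderiv one_ne_zero).clm_apply (hτ k).continuous).add
      (hϑ.continuous.mul (continuous_finsetSum _ fun j _ => continuous_const.inner
        (((hτ k).continuous_fderiv one_ne_zero).clm_apply continuous_const)))
  choose C₁ hC₁ using fun k =>
    (isCompact_closedBall (0 : E) ρ).exists_bound_of_continuousOn (hqc k).continuousOn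
  choose C₂ hC₂ using fun k =>
    (isCompact_closedBall (0 : E) ρ).exists_bound_of_continuousOn (hΓ k).continuousOn
  refine ⟨∑ k, ‖L k‖ * (|C₁ k| + |C₂ k| + |C|) + ‖Ω‖ * |C|,
    fun g hg φ β hφ hβ hc hβe hlaw => ?_⟩
  have hG : ContDiff ℝ 1 (gauss Y (g • A)) := (contDiff_gauss Y (g • A)).of_le (by simp)
  have hh : ContDiff ℝ 1 fun W => ϑ W * gauss Y (g • A) W := hϑ.mul hG
  have hh0 : ∀ W, ρ ≤ ‖W‖ → ϑ W * gauss Y (g • A) W = 0 := fun W hW => by rw [h0 W hW, zero_mul]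
  have hgs : IsSym (g • A) := fun u v => by
    rw [_root_.smul_apply, _root_.smul_apply, real_inner_smul_left, real_inner_smul_right, hs]
  have hf : ∀ k, ContDiff ℝ 1 fun W => L k (φ W) := fun k =>
    ((L k).restrictScalars ℝ).contDiff.comp hφ
  have hf' : ∀ k W y, fderiv ℝ (fun W => L k (φ W)) W y = L k (fderiv ℝ φ W y) := fun k W y => by
    have := (((L k).restrictScalars ℝ).hasFDerivAt.comp W
      (hφ.differentiable one_ne_zero W).hasFDerivAt).fderiv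
    exact congrArg (fun a : E →L[ℝ] ℂ => a y) this
  choose Z i1 i2 i3 i4 using fun k => ibp Y hh (hτ k) hh0 (hY k) (hf k)
    (hc.mono fun x hx h => hx (by simp only [h, map_zero]))
  have hd : ∀ W, inner ℂ Ω (dop θ U 1 s β φ W) =
      ∑ k, L k (fderiv ℝ φ W (onb U k)) + inner ℂ Ω (θ (β W) (φ W)) := fun W => by
    simp only [dop, inner_add_right, inner_sum, hL, ofReal_one, mul_one]
  have i0 : Integrable fun W : Y =>
      ((ϑ W * gauss Y (g • A) W : ℝ) : ℂ) * inner ℂ Ω (dop θ U 1 s β φ W) := by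
    refine integrable_ball Y (φ := fun W =>
      ((ϑ W * gauss Y (g • A) W : ℝ) : ℂ) * inner ℂ Ω (dop θ U 1 s β φ W)) ?_ (ρ := ρ)
      fun W _ hW => by rw [hh0 W hW.le, ofReal_zero, zero_mul]
    simp only [hd]
    refine (continuous_ofReal.comp hh.continuous).mul ((continuous_finsetSum _ fun k _ =>
      (L k).continuous.comp ((hφ.continuous_fderiv one_ne_zero).clm_apply continuous_const)).add
      (continuous_const.inner ((θ.continuous.comp hβ).clm_apply hφ.continuous)))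
  refine ⟨fun W => ((ϑ W * gauss Y (g • A) W : ℝ) : ℂ) * inner ℂ Ω (dop θ U 1 s β φ W) -
    ∑ k, Z k W, ?_, fun W _ hW => ?_, fun W hW hρ => ?_⟩
  · rw [integral_sub i0 (integrable_finsetSum _ fun k _ => i1 k),
      integral_finsetSum _ fun k _ => i1 k]
    simp [i2]
  · simp [i3 _ W hW, h0 W hW.le]
  · have hZ : ∀ k, Z k W = ((ϑ W * gauss Y (g • A) W : ℝ) : ℂ) * L k (fderiv ℝ φ W (τ k W)) +
        ((q k W * gauss Y (g • A) W - g * (ϑ W * gauss Y (g • A) W) * ⟪τ k W - onb U k, A W⟫ -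
          g * (ϑ W * gauss Y (g • A) W) * ⟪onb U k, A W⟫ : ℝ) : ℂ) * L k (φ W) := fun k => by
      rw [i4 k W hW hρ, hf', fderiv_fun_mul (hϑ.differentiable one_ne_zero W)
        (hG.differentiable one_ne_zero W), real_smul, real_smul]
      congr 3
      simp only [_root_.add_apply, _root_.smul_apply, smul_eq_mul, fderiv_gauss hgs, hq0,
        real_inner_smul_right, inner_sub_left]
      ring
    have h1 := lead hθ s (hYU (hAY W)) (hann W hW) (φ W)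
    simp only [← hL] at h1
    have h2 : ((ϑ W * gauss Y (g • A) W : ℝ) : ℂ) * inner ℂ Ω (dop θ U 1 s β φ W) - ∑ k, Z k W =
        ∑ k, (((ϑ W * gauss Y (g • A) W : ℝ) : ℂ) * L k (Γ k W (φ W)) -
          ((q k W * gauss Y (g • A) W : ℝ) : ℂ) * L k (φ W) +
          ((g * (ϑ W * gauss Y (g • A) W) * ⟪τ k W - onb U k, A W⟫ : ℝ) : ℂ) * L k (φ W)) +
        ((g * (ϑ W * gauss Y (g • A) W) : ℝ) : ℂ) * inner ℂ Ω (θ (Φ W) (φ W)) := by
      have h3 : inner ℂ Ω (θ (β W) (φ W)) =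
          g * (inner ℂ Ω (θ (b W) (φ W)) + inner ℂ Ω (θ (Φ W) (φ W))) := by
        rw [hβe, theta_smul, map_add, _root_.smul_apply, _root_.add_apply, inner_smul_right,
          inner_add_right]
      have h4 : inner ℂ Ω (θ (b W) (φ W)) = -∑ k, ((⟪onb U k, A W⟫ : ℝ) : ℂ) * L k (φ W) := by
        rw [h1, neg_neg]
      rw [hd, h3, h4, ← sub_eq_zero]
      simp only [hZ, hlaw _ W hW hρ, map_add, mul_add, mul_neg, Finset.mul_sum]
      have h5 : ∀ x₁ x₂ x₃ x₄ x₅ x₆ : ℂ, x₅ = x₆ → x₁ + (-x₂ + x₅) - x₃ - (x₄ + x₆) =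
        x₁ - x₂ - x₃ - x₄ := by
        rintro _ _ _ _ _ _ rfl; ring
      rw [h5 _ _ _ _ _ _ (by push_cast; ring), ← Finset.sum_sub_distrib, ← Finset.sum_sub_distrib,
        ← Finset.sum_sub_distrib]
      refine Finset.sum_eq_zero fun k _ => ?_
      push_cast
      ring
    have hG0 := gauss_nonneg Y (g • A) W
    have hW' : W ∈ Metric.closedBall (0 : E) ρ := mem_closedBall_zero_iff.2 hρ
    have hw : 0 ≤ g * ‖W‖ ^ 2 := by positivity
    have hϑG : ‖((ϑ W * gauss Y (g • A) W : ℝ) : ℂ)‖ ≤ gauss Y (g • A) W := by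
      rw [norm_real, Real.norm_of_nonneg (mul_nonneg (h01 W).1 hG0)]
      exact mul_le_of_le_one_left hG0 (h01 W).2
    have hgϑG : ‖((g * (ϑ W * gauss Y (g • A) W) : ℝ) : ℂ)‖ ≤ g * gauss Y (g • A) W := by
      rw [ofReal_mul, norm_mul, norm_real, Real.norm_of_nonneg hg.le]
      exact mul_le_mul_of_nonneg_left hϑG hg.le
    have hC : C * ‖W‖ ^ 2 ≤ |C| * ‖W‖ ^ 2 := mul_le_mul_of_nonneg_right (le_abs_self C) (sq_nonneg _)
    beta_reduce
    rw [h2, add_mul, Finset.sum_mul]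
    refine norm_add_le_of_le (norm_sum_le_of_le _ fun k _ => ?_) ?_
    · have e1 : ‖((ϑ W * gauss Y (g • A) W : ℝ) : ℂ) * L k (Γ k W (φ W))‖ ≤
          gauss Y (g • A) W * (‖L k‖ * (|C₂ k| * ‖φ W‖)) := by
        rw [norm_mul]
        exact mul_le_mul hϑG ((L k).le_of_opNorm_le_of_le le_rfl
          ((Γ k W).le_of_opNorm_le ((hC₂ k W hW').trans (le_abs_self _)) _)) (norm_nonneg _) hG0
      have e2 : ‖((q k W * gauss Y (g • A) W : ℝ) : ℂ) * L k (φ W)‖ ≤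
          |C₁ k| * gauss Y (g • A) W * (‖L k‖ * ‖φ W‖) := by
        rw [norm_mul, norm_real, norm_mul, Real.norm_of_nonneg hG0]
        exact mul_le_mul (mul_le_mul_of_nonneg_right ((hC₁ k W hW').trans (le_abs_self _)) hG0)
          ((L k).le_opNorm _) (norm_nonneg _) (by positivity)
      have e3 : ‖((g * (ϑ W * gauss Y (g • A) W) * ⟪τ k W - onb U k, A W⟫ : ℝ) : ℂ) * L k (φ W)‖ ≤
          g * gauss Y (g • A) W * (|C| * ‖W‖ ^ 2) * (‖L k‖ * ‖φ W‖) := by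
        rw [ofReal_mul, norm_mul, norm_mul, norm_real (⟪τ k W - onb U k, A W⟫)]
        exact mul_le_mul (mul_le_mul hgϑG ((hq k W hW hρ).trans hC) (norm_nonneg _)
          (by positivity)) ((L k).le_opNorm _) (norm_nonneg _) (by positivity)
      refine (norm_add_le_of_le (norm_sub_le_of_le e1 e2) e3).trans ?_
      have e4 : 0 ≤ gauss Y (g • A) W * (‖L k‖ * ‖φ W‖) *
        ((|C₁ k| + |C₂ k|) * (g * ‖W‖ ^ 2) + |C|) := by positivity
      linarith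
    · have e1 : ‖inner ℂ Ω (θ (Φ W) (φ W))‖ ≤ ‖Ω‖ * (|C| * ‖W‖ ^ 2 * ‖φ W‖) :=
        (norm_inner_le_norm _ _).trans (mul_le_mul_of_nonneg_left ((θ (Φ W)).le_of_opNorm_le
          ((hθ.norm_le _).trans ((hΦ W).trans hC)) _) (norm_nonneg _))
      rw [norm_mul]
      refine (mul_le_mul hgϑG e1 (norm_nonneg _) (by positivity)).trans ?_
      have e4 : 0 ≤ gauss Y (g • A) W * (‖Ω‖ * ‖φ W‖) * |C| := by positivity
      linarith

end Vale.Agent.P353.Dl1Aux
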