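import Mathlib

/-! Gaussian integrals with parameters over a subspace: integrability and smoothness. -/

noncomputable section

open MeasureTheory Filter Topology
open scoped ContDiff RealInnerProductSpace

namespace Vale.Agent.P353.GauAux

variable {E : Type} [NormedAddCommGroup E] [InnerProductSpace ℝ E] [FiniteDimensional ℝ E]
  [MeasurableSpace E] [BorelSpace E]

theorem integrable_exp_sq {W : Type} [NormedAddCommGroup W] [InnerProductSpace ℝ W]
    [FiniteDimensional ℝ W] [MeasurableSpace W] [BorelSpace W] {c : ℝ} (hc : 0 < c) :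
    Integrable fun x : W => Real.exp (-(c * ‖x‖ ^ 2)) := by
  have h := (GaussianFourier.integrable_cexp_neg_mul_sq_norm_add (V := W) (b := (c : ℂ))
    (by simpa using hc) 0 0).norm
  refine h.congr (Eventually.of_forall fun x => ?_)
  have : (-(c : ℂ) * (‖x‖ : ℂ) ^ 2 + 0 * (inner ℝ (0 : W) x : ℝ)) = ((-(c * ‖x‖ ^ 2) : ℝ) : ℂ) := by
    push_cast; ring
  simp only [this, Complex.norm_exp, Complex.ofReal_re]

theorem pow_mul_exp_le {c : ℝ} (hc : 0 < c) (k : ℕ) {t : ℝ} (ht : 0 ≤ t) :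
    t ^ k * Real.exp (-(c * t ^ 2)) ≤
      (k.factorial * Real.exp (1 / (2 * c))) * Real.exp (-(c / 2 * t ^ 2)) := by
  have h1 : t ^ k ≤ k.factorial * Real.exp t := by
    have := Real.pow_div_factorial_le_exp t ht k
    rw [div_le_iff₀ (by positivity)] at this
    linarith
  have h2 : t ≤ 1 / (2 * c) + c / 2 * t ^ 2 := by
    have : 1 / (2 * c) + c / 2 * t ^ 2 - t = (c * t - 1) ^ 2 / (2 * c) := by
      field_simp; ring
    have h3 : 0 ≤ (c * t - 1) ^ 2 / (2 * c) := by positivity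
    linarith
  calc t ^ k * Real.exp (-(c * t ^ 2))
      ≤ (k.factorial * Real.exp t) * Real.exp (-(c * t ^ 2)) := by gcongr
    _ = k.factorial * Real.exp (t + -(c * t ^ 2)) := by rw [Real.exp_add]; ring
    _ ≤ k.factorial * Real.exp (1 / (2 * c) + -(c / 2 * t ^ 2)) := by
        have : t + -(c * t ^ 2) ≤ 1 / (2 * c) + -(c / 2 * t ^ 2) := by linarith
        gcongr
    _ = _ := by rw [Real.exp_add]; ring

theorem integrable_pow_exp_sq {W : Type} [NormedAddCommGroup W] [InnerProductSpace ℝ W]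
    [FiniteDimensional ℝ W] [MeasurableSpace W] [BorelSpace W] {c : ℝ} (hc : 0 < c) (k : ℕ) :
    Integrable fun x : W => ‖x‖ ^ k * Real.exp (-(c * ‖x‖ ^ 2)) := by
  refine ((integrable_exp_sq (W := W) (half_pos hc)).const_mul
    (k.factorial * Real.exp (1 / (2 * c)))).mono' (by fun_prop) (Eventually.of_forall fun x => ?_)
  rw [Real.norm_of_nonneg (by positivity)]
  exact pow_mul_exp_le hc k (norm_nonneg x)

/-- the quadratic form at `x` as a functional of the operator -/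
def ev (x : E) : (E →L[ℝ] E) →L[ℝ] ℝ :=
  (innerSL ℝ x).comp (ContinuousLinearMap.apply ℝ E x)

omit [FiniteDimensional ℝ E] [MeasurableSpace E] [BorelSpace E] in
theorem ev_apply (x : E) (B : E →L[ℝ] E) : ev x B = ⟪x, B x⟫ := rfl

omit [FiniteDimensional ℝ E] [MeasurableSpace E] [BorelSpace E] in
theorem abs_inner_le (x : E) (B : E →L[ℝ] E) : |⟪x, B x⟫| ≤ ‖B‖ * ‖x‖ ^ 2 :=
  calc |⟪x, B x⟫| ≤ ‖x‖ * ‖B x‖ := abs_real_inner_le_norm _ _
    _ ≤ ‖x‖ * (‖B‖ * ‖x‖) := by gcongr; exact B.le_opNorm x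
    _ = _ := by ring

omit [FiniteDimensional ℝ E] [MeasurableSpace E] [BorelSpace E] in
theorem norm_ev_le (x : E) : ‖ev x‖ ≤ ‖x‖ ^ 2 := by
  refine ContinuousLinearMap.opNorm_le_bound _ (by positivity) fun B => ?_
  rw [ev_apply, Real.norm_eq_abs, mul_comm]
  exact abs_inner_le x B

omit [FiniteDimensional ℝ E] [MeasurableSpace E] [BorelSpace E] in
theorem continuous_ev : Continuous (ev : E → (E →L[ℝ] E) →L[ℝ] ℝ) :=
  (innerSL ℝ).continuous.clm_comp (ContinuousLinearMap.apply ℝ E).continuous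

/-- operators whose form is positive definite on `U` -/
def Pos (U : Submodule ℝ E) : Set (E →L[ℝ] E) :=
  {B | ∃ a > 0, ∀ w ∈ U, a * ‖w‖ ^ 2 ≤ ⟪w, B w⟫}

omit [FiniteDimensional ℝ E] [MeasurableSpace E] [BorelSpace E] in
theorem ball_pos {U : Submodule ℝ E} {A : E →L[ℝ] E} {a : ℝ}
    (hA : ∀ w ∈ U, a * ‖w‖ ^ 2 ≤ ⟪w, A w⟫) {B : E →L[ℝ] E} (hB : B ∈ Metric.ball A (a / 2)) :
    ∀ w ∈ U, a / 2 * ‖w‖ ^ 2 ≤ ⟪w, B w⟫ := by
  intro w hw
  have h1 : ‖B - A‖ ≤ a / 2 := by
    rw [Metric.mem_ball, dist_eq_norm] at hB; exact hB.le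
  have h2 := abs_inner_le w (B - A)
  have h3 : ⟪w, (B - A) w⟫ = ⟪w, B w⟫ - ⟪w, A w⟫ := by
    rw [sub_apply, inner_sub_right]
  have h4 : ‖B - A‖ * ‖w‖ ^ 2 ≤ a / 2 * ‖w‖ ^ 2 := by gcongr
  have h5 := hA w hw
  have h6 := neg_abs_le ⟪w, (B - A) w⟫
  linarith

omit [FiniteDimensional ℝ E] [MeasurableSpace E] [BorelSpace E] in
theorem isOpen_pos (U : Submodule ℝ E) : IsOpen (Pos U) := by
  rw [Metric.isOpen_iff]
  rintro A ⟨a, ha, hA⟩
  exact ⟨a / 2, half_pos ha, fun B hB => ⟨a / 2, half_pos ha, ball_pos hA hB⟩⟩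

theorem meas_of_cont {U : Submodule ℝ E} {V : Type} [NormedAddCommGroup V] {g : U → V}
    (hg : Continuous g) : AEStronglyMeasurable g volume :=
  have : SecondCountableTopologyEither U V := secondCountableTopologyEither_of_left U V
  hg.aestronglyMeasurable

/-- continuous functions integrable against every Gaussian -/
def Good {U : Submodule ℝ E} {V : Type} [NormedAddCommGroup V] (f : U → V) : Prop :=
  Continuous f ∧ ∀ c > 0, Integrable fun x : U => Real.exp (-(c * ‖(x : E)‖ ^ 2)) * ‖f x‖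

theorem good_of_le {U : Submodule ℝ E} {V : Type} [NormedAddCommGroup V] {f : U → V}
    (hf : Continuous f) (C : ℝ) (k : ℕ) (h : ∀ x, ‖f x‖ ≤ C * ‖(x : E)‖ ^ k) : Good f := by
  refine ⟨hf, fun c hc => ?_⟩
  refine ((integrable_pow_exp_sq (W := U) hc k).const_mul C).mono' (by fun_prop)
    (Eventually.of_forall fun x => ?_)
  rw [Real.norm_of_nonneg (by positivity)]
  have := h x
  calc Real.exp (-(c * ‖(x : E)‖ ^ 2)) * ‖f x‖
      ≤ Real.exp (-(c * ‖(x : E)‖ ^ 2)) * (C * ‖(x : E)‖ ^ k) := by gcongr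
    _ = _ := by simp only [Submodule.coe_norm]; ring

/-- the derivative weight -/
def dw {U : Submodule ℝ E} {V : Type} [NormedAddCommGroup V] [NormedSpace ℝ V] (f : U → V)
    (x : U) : (E →L[ℝ] E) →L[ℝ] V :=
  (ev (x : E)).smulRight (-f x)

omit [FiniteDimensional ℝ E] [MeasurableSpace E] [BorelSpace E] in
theorem norm_dw_le {U : Submodule ℝ E} {V : Type} [NormedAddCommGroup V] [NormedSpace ℝ V]
    (f : U → V) (x : U) : ‖dw f x‖ ≤ ‖(x : E)‖ ^ 2 * ‖f x‖ := by
  rw [dw, ContinuousLinearMap.norm_smulRight_apply, norm_neg]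
  gcongr
  exact norm_ev_le _

theorem Good.sq {U : Submodule ℝ E} {V : Type} [NormedAddCommGroup V] {f : U → V} (hf : Good f)
    {c : ℝ} (hc : 0 < c) :
    Integrable fun x : U => Real.exp (-(c * ‖(x : E)‖ ^ 2)) * (‖(x : E)‖ ^ 2 * ‖f x‖) := by
  have hcont := hf.1
  refine ((hf.2 _ (half_pos hc)).const_mul ((2 : ℕ).factorial * Real.exp (1 / (2 * c)))).mono'
    (by fun_prop) (Eventually.of_forall fun x => ?_)
  rw [Real.norm_of_nonneg (by positivity)]
  have := pow_mul_exp_le hc 2 (norm_nonneg (x : E))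
  calc Real.exp (-(c * ‖(x : E)‖ ^ 2)) * (‖(x : E)‖ ^ 2 * ‖f x‖)
      = (‖(x : E)‖ ^ 2 * Real.exp (-(c * ‖(x : E)‖ ^ 2))) * ‖f x‖ := by ring
    _ ≤ ((2 : ℕ).factorial * Real.exp (1 / (2 * c)) * Real.exp (-(c / 2 * ‖(x : E)‖ ^ 2))) *
        ‖f x‖ := by gcongr
    _ = _ := by ring

theorem Good.of_le {U : Submodule ℝ E} {V V' : Type} [NormedAddCommGroup V]
    [NormedAddCommGroup V'] {f : U → V} (hf : Good f) {g : U → V'} (hg : Continuous g)
    (h : ∀ x, ‖g x‖ ≤ ‖(x : E)‖ ^ 2 * ‖f x‖) : Good g := by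
  refine ⟨hg, fun c hc' => ?_⟩
  refine (hf.sq hc').mono' (meas_of_cont (by fun_prop)) (Eventually.of_forall fun x => ?_)
  rw [Real.norm_of_nonneg (by positivity)]
  gcongr
  exact h x

theorem Good.dw {U : Submodule ℝ E} {V : Type} [NormedAddCommGroup V] [NormedSpace ℝ V]
    {f : U → V} (hf : Good f) : Good (dw f) := by
  have h1 : Continuous fun x : U => ev (x : E) := continuous_ev.comp continuous_subtype_val
  exact hf.of_le (((ContinuousLinearMap.smulRightL ℝ (E →L[ℝ] E) V).continuous.comp h1).clm_apply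
      hf.1.neg) (norm_dw_le f)

/-- Gaussian average with weight `f` -/
def Phi {U : Submodule ℝ E} {V : Type} [NormedAddCommGroup V] [NormedSpace ℝ V] (f : U → V)
    (B : E →L[ℝ] E) : V :=
  ∫ x : U, Real.exp (-⟪(x : E), B x⟫) • f x

theorem Good.integrable {U : Submodule ℝ E} {V : Type} [NormedAddCommGroup V] [NormedSpace ℝ V]
    {f : U → V} (hf : Good f) {B : E →L[ℝ] E} (hB : B ∈ Pos U) :
    Integrable fun x : U => Real.exp (-⟪(x : E), B x⟫) • f x := by
  obtain ⟨a, ha, hA⟩ := hB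
  have hcont := hf.1
  refine (hf.2 a ha).mono' (by fun_prop) (Eventually.of_forall fun x => ?_)
  rw [norm_smul, Real.norm_of_nonneg (by positivity)]
  gcongr
  exact hA x x.2

theorem Good.hasFDerivAt {U : Submodule ℝ E} {V : Type} [NormedAddCommGroup V] [NormedSpace ℝ V]
    {f : U → V} (hf : Good f) {A : E →L[ℝ] E} (hA : A ∈ Pos U) :
    HasFDerivAt (Phi f) (Phi (GauAux.dw f) A) A := by
  obtain ⟨a, ha, hA'⟩ := id hA
  have hcont := hf.1
  have hcont' := hf.dw.1
  refine hasFDerivAt_integral_of_dominated_of_fderiv_le (μ := (volume : Measure U))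
    (F := fun (B : E →L[ℝ] E) (x : U) => Real.exp (-⟪(x : E), B x⟫) • f x)
    (F' := fun (B : E →L[ℝ] E) (x : U) => Real.exp (-⟪(x : E), B x⟫) • GauAux.dw f x)
    (bound := fun x : U => Real.exp (-(a / 2 * ‖(x : E)‖ ^ 2)) * (‖(x : E)‖ ^ 2 * ‖f x‖))
    (Metric.ball_mem_nhds A (half_pos ha)) (Eventually.of_forall fun B => by fun_prop)
    (hf.integrable hA) (meas_of_cont (by fun_prop)) (Eventually.of_forall fun x B hB => ?_)
    (hf.sq (half_pos ha)) (Eventually.of_forall fun x B _ => ?_)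
  · rw [norm_smul, Real.norm_of_nonneg (by positivity)]
    gcongr
    · exact ball_pos hA' hB x x.2
    · exact norm_dw_le f x
  · have h1 : HasFDerivAt (fun B : E →L[ℝ] E => -⟪(x : E), B x⟫) (-ev (x : E)) B :=
      (ev (x : E)).hasFDerivAt.neg
    have h2 := h1.exp.smul_const (f x)
    refine h2.congr_fderiv ?_
    ext C
    simp [GauAux.dw, smul_smul]

theorem Good.contDiffOn_nat {U : Submodule ℝ E} (n : ℕ) :
    ∀ {V : Type} [NormedAddCommGroup V] [NormedSpace ℝ V] {f : U → V}, Good f →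
      ContDiffOn ℝ n (Phi f) (Pos U) := by
  induction n with
  | zero =>
    intro V _ _ f hf
    rw [Nat.cast_zero, contDiffOn_zero]
    exact fun A hA => (hf.hasFDerivAt hA).continuousAt.continuousWithinAt
  | succ n ih =>
    intro V _ _ f hf
    rw [Nat.cast_succ, contDiffOn_succ_iff_fderiv_of_isOpen (isOpen_pos U)]
    refine ⟨fun A hA => (hf.hasFDerivAt hA).differentiableAt.differentiableWithinAt,
      fun h => absurd h (by simp), ?_⟩
    exact (ih hf.dw).congr fun A hA => (hf.hasFDerivAt hA).fderiv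

theorem Good.contDiffAt {U : Submodule ℝ E} {V : Type} [NormedAddCommGroup V] [NormedSpace ℝ V]
    {f : U → V} (hf : Good f) {A : E →L[ℝ] E} (hA : A ∈ Pos U) : ContDiffAt ℝ ∞ (Phi f) A := by
  have : ContDiffOn ℝ ∞ (Phi f) (Pos U) := contDiffOn_infty.2 fun n => hf.contDiffOn_nat n
  exact this.contDiffAt ((isOpen_pos U).mem_nhds hA)

theorem good_one (U : Submodule ℝ E) : Good fun _ : U => (1 : ℝ) :=
  good_of_le continuous_const 1 0 fun x => by simp

theorem Phi_one (U : Submodule ℝ E) :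
    Phi (fun _ : U => (1 : ℝ)) = fun B : E →L[ℝ] E => ∫ x : U, Real.exp (-⟪(x : E), B x⟫) := by
  funext B
  simp [Phi]

theorem continuousAt_apply {U : Submodule ℝ E} {Q V : Type} [NormedAddCommGroup Q]
    [NormedSpace ℝ Q] [NormedAddCommGroup V] [NormedSpace ℝ V] [CompleteSpace V]
    {A : E →L[ℝ] E} (hA : A ∈ Pos U) (q : Q) (f : U → Q →L[ℝ] V) (hc : Continuous f)
    (hb : ∀ x p, ‖f x p‖ ≤ ‖(x : E)‖ ^ 2 * ‖p‖) :
    ContinuousAt (fun p : (E →L[ℝ] E) × Q =>
      ∫ x : U, Real.exp (-⟪(x : E), p.1 x⟫) • f x p.2) (A, q) := by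
  have hf : Good f := good_of_le hc 1 2 fun x =>
    ContinuousLinearMap.opNorm_le_bound _ (by positivity) fun p => by rw [one_mul]; exact hb x p
  have h1 : ContinuousAt (Phi f) A := (hf.hasFDerivAt hA).continuousAt
  have h0 : ContinuousAt (fun p : (E →L[ℝ] E) × Q => Phi f p.1) (A, q) :=
    ContinuousAt.comp (g := Phi f) (f := Prod.fst) (x := (A, q)) h1 continuousAt_fst
  have h2 : ContinuousAt (fun p : (E →L[ℝ] E) × Q => Phi f p.1 p.2) (A, q) :=
    h0.clm_apply continuousAt_snd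
  refine h2.congr ?_
  have h3 : ∀ᶠ p : (E →L[ℝ] E) × Q in 𝓝 (A, q), p.1 ∈ Pos U :=
    continuousAt_fst.eventually ((isOpen_pos U).mem_nhds hA)
  filter_upwards [h3] with p hp
  rw [Phi, ContinuousLinearMap.integral_apply (hf.integrable hp)]
  rfl

theorem continuousAt_quad {U : Submodule ℝ E} {V : Type} [NormedAddCommGroup V] [NormedSpace ℝ V]
    [CompleteSpace V] {A : E →L[ℝ] E} (hA : A ∈ Pos U) (q : E →L[ℝ] E →L[ℝ] V) :
    ContinuousAt (fun p : (E →L[ℝ] E) × (E →L[ℝ] E →L[ℝ] V) =>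
      ∫ x : U, Real.exp (-⟪(x : E), p.1 x⟫) • p.2 x x) (A, q) := by
  refine continuousAt_apply (Q := E →L[ℝ] E →L[ℝ] V) hA q
    (fun x => (ContinuousLinearMap.apply ℝ V (x : E)).comp
      (ContinuousLinearMap.apply ℝ (E →L[ℝ] V) (x : E)))
    (((ContinuousLinearMap.apply ℝ V).continuous.clm_comp
      (ContinuousLinearMap.apply ℝ (E →L[ℝ] V)).continuous).comp continuous_subtype_val)
    fun x p => ?_
  calc ‖p x x‖ ≤ ‖p‖ * ‖(x : E)‖ * ‖(x : E)‖ := p.le_opNorm₂ _ _
    _ = _ := by ring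

end Vale.Agent.P353.GauAux
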