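import Vale.Agent.P353.Fub
import Vale.Agent.P353.GauAux

/-! Gaussians. -/

noncomputable section

open MeasureTheory Filter Topology Complex Matrix
open scoped ContDiff RealInnerProductSpace

namespace Vale.Agent.P353

variable {E : Type} [NormedAddCommGroup E] [InnerProductSpace ℝ E] [FiniteDimensional ℝ E]
  [MeasurableSpace E] [BorelSpace E]

variable {U : Submodule ℝ E} {A : E →L[ℝ] E} {a : ℝ}

theorem integrable_gaussian (ha : 0 < a) (hA : ∀ w ∈ U, a * ‖w‖ ^ 2 ≤ ⟪w, A w⟫) {t : ℝ}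
    (ht : 0 < t) (k : ℕ) :
    Integrable fun x : U => ‖(x : E)‖ ^ k * Real.exp (-(t * ⟪(x : E), A x⟫)) := by
  refine (GauAux.integrable_pow_exp_sq (W := U) (mul_pos ht ha) k).mono'
    (GauAux.meas_of_cont (by fun_prop)) (Eventually.of_forall fun x => ?_)
  rw [Real.norm_of_nonneg (by positivity)]
  have h := mul_le_mul_of_nonneg_left (hA x x.2) ht.le
  have h2 : -(t * ⟪(x : E), A x⟫) ≤ -(t * a * ‖x‖ ^ 2) := by
    rw [Submodule.coe_norm]; linarith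
  exact mul_le_mul_of_nonneg_left (Real.exp_le_exp.2 h2) (by positivity)

namespace GauAux

theorem integrable_exp (ha : 0 < a) (hA : ∀ w ∈ U, a * ‖w‖ ^ 2 ≤ ⟪w, A w⟫) :
    Integrable fun x : U => Real.exp (-⟪(x : E), A x⟫) := by
  simpa using integrable_gaussian ha hA one_pos 0

theorem int_pos (ha : 0 < a) (hA : ∀ w ∈ U, a * ‖w‖ ^ 2 ≤ ⟪w, A w⟫) :
    0 < ∫ x : U, Real.exp (-⟪(x : E), A x⟫) :=
  integral_exp_pos (integrable_exp ha hA)

theorem gnorm_sq (U : Submodule ℝ E) (A : E →L[ℝ] E) :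
    gnorm U A ^ 2 = (∫ x : U, Real.exp (-⟪(x : E), A x⟫))⁻¹ := by
  rw [gnorm, inv_pow, Real.sq_sqrt (integral_nonneg fun x => (Real.exp_pos _).le)]

theorem gauss_sq (U : Submodule ℝ E) (A : E →L[ℝ] E) (x : E) :
    gauss U A x ^ 2 = gnorm U A ^ 2 * Real.exp (-⟪x, A x⟫) := by
  rw [gauss, mul_pow, sq (Real.exp _), ← Real.exp_add, add_halves]

theorem gnorm_nonneg (U : Submodule ℝ E) (A : E →L[ℝ] E) : 0 ≤ gnorm U A :=
  inv_nonneg.2 (Real.sqrt_nonneg _)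

theorem integral_smul' {V : Type} [NormedAddCommGroup V] [NormedSpace ℝ V] (U : Submodule ℝ E)
    (f : E → V) {t : ℝ} (ht : 0 < t) :
    ∫ x : U, f (t • x) = (t ^ Module.finrank ℝ U)⁻¹ • ∫ x : U, f x :=
  Measure.integral_comp_smul_of_nonneg volume (fun x : U => f x) t (hR := ht.le)

omit [FiniteDimensional ℝ E] [MeasurableSpace E] [BorelSpace E] in
theorem inner_smul_form (A : E →L[ℝ] E) {g : ℝ} (hg : 0 < g) (x : E) :
    ⟪x, (g • A) x⟫ = ⟪√g • x, A (√g • x)⟫ := by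
  rw [_root_.smul_apply, map_smul, real_inner_smul_right, real_inner_smul_right, real_inner_smul_left,
    ← mul_assoc, Real.mul_self_sqrt hg.le]

theorem rpow_sq {g : ℝ} (hg : 0 < g) (n : ℕ) : (g ^ ((n : ℝ) / 4)) ^ 2 = √g ^ n := by
  rw [Real.sqrt_eq_rpow, ← Real.rpow_natCast, ← Real.rpow_natCast, ← Real.rpow_mul hg.le,
    ← Real.rpow_mul hg.le]
  congr 1
  push_cast
  ring

end GauAux

open GauAux

theorem gnorm_pos (ha : 0 < a) (hA : ∀ w ∈ U, a * ‖w‖ ^ 2 ≤ ⟪w, A w⟫) : 0 < gnorm U A :=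
  inv_pos.2 (Real.sqrt_pos.2 (int_pos ha hA))

theorem gauss_pos (ha : 0 < a) (hA : ∀ w ∈ U, a * ‖w‖ ^ 2 ≤ ⟪w, A w⟫) (x : E) :
    0 < gauss U A x :=
  mul_pos (gnorm_pos ha hA) (Real.exp_pos _)

theorem gauss_nonneg (U : Submodule ℝ E) (A : E →L[ℝ] E) (x : E) : 0 ≤ gauss U A x :=
  mul_nonneg (gnorm_nonneg U A) (Real.exp_pos _).le

theorem integral_gauss_sq (ha : 0 < a) (hA : ∀ w ∈ U, a * ‖w‖ ^ 2 ≤ ⟪w, A w⟫) :
    ∫ x : U, gauss U A x ^ 2 = 1 := by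
  simp only [gauss_sq]
  rw [integral_const_mul, gnorm_sq, inv_mul_cancel₀ (int_pos ha hA).ne']

theorem integrable_gauss_sq (ha : 0 < a) (hA : ∀ w ∈ U, a * ‖w‖ ^ 2 ≤ ⟪w, A w⟫) (k : ℕ) :
    Integrable fun x : U => ‖(x : E)‖ ^ k * gauss U A x ^ 2 := by
  refine ((integrable_gaussian ha hA one_pos k).const_mul (gnorm U A ^ 2)).congr
    (Eventually.of_forall fun x => ?_)
  simp only [gauss_sq, one_mul]
  ring

theorem integrable_gauss (ha : 0 < a) (hA : ∀ w ∈ U, a * ‖w‖ ^ 2 ≤ ⟪w, A w⟫) (k : ℕ) :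
    Integrable fun x : U => ‖(x : E)‖ ^ k * gauss U A x := by
  refine ((integrable_gaussian ha hA one_half_pos k).const_mul (gnorm U A)).congr
    (Eventually.of_forall fun x => ?_)
  have : -(1 / 2 * ⟪(x : E), A x⟫) = -⟪(x : E), A x⟫ / 2 := by ring
  simp only [gauss, this]
  ring

theorem contDiff_gauss (U : Submodule ℝ E) (A : E →L[ℝ] E) : ContDiff ℝ ∞ (gauss U A) := by
  have h : ContDiff ℝ ∞ fun x : E => ⟪x, A x⟫ := contDiff_id.inner ℝ A.contDiff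
  exact contDiff_const.mul (h.neg.div_const 2).exp

theorem fderiv_gauss (hs : IsSym A) (x y : E) :
    fderiv ℝ (gauss U A) x y = -⟪y, A x⟫ * gauss U A x := by
  have h := (hasFDerivAt_id x).inner ℝ A.hasFDerivAt
  have h2 := ((h.neg.mul_const (2 : ℝ)⁻¹).exp).const_mul (gnorm U A)
  have h3 : gauss U A = fun x : E => gnorm U A * Real.exp (-⟪x, A x⟫ * (2 : ℝ)⁻¹) := by
    funext z; rw [gauss, div_eq_mul_inv]
  have h4 : ⟪x, A y⟫ = ⟪y, A x⟫ := by rw [← hs, real_inner_comm]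
  rw [h3]
  erw [h2.fderiv]
  simp [h4]
  ring

theorem gnorm_smul (U : Submodule ℝ E) (A : E →L[ℝ] E) {g : ℝ} (hg : 0 < g) :
    gnorm U (g • A) = g ^ ((Module.finrank ℝ U : ℝ) / 4) * gnorm U A := by
  have h1 : 0 ≤ g ^ ((Module.finrank ℝ U : ℝ) / 4) * gnorm U A :=
    mul_nonneg (Real.rpow_nonneg hg.le _) (gnorm_nonneg U A)
  rw [← sq_eq_sq₀ (gnorm_nonneg U _) h1, mul_pow, gnorm_sq, gnorm_sq, rpow_sq hg]
  simp only [inner_smul_form A hg]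
  rw [integral_smul' U (fun x => Real.exp (-⟪x, A x⟫)) (Real.sqrt_pos.2 hg), smul_eq_mul, mul_inv,
    inv_inv]

theorem gauss_smul (U : Submodule ℝ E) (A : E →L[ℝ] E) {g : ℝ} (hg : 0 < g) (x : E) :
    gauss U (g • A) x = g ^ ((Module.finrank ℝ U : ℝ) / 4) * gauss U A (√g • x) := by
  rw [gauss, gauss, gnorm_smul U A hg, inner_smul_form A hg, mul_assoc]

/-- scaling of Gaussian averages -/
theorem integral_gauss_sq_smul {V : Type} [NormedAddCommGroup V] [NormedSpace ℝ V]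
    (U : Submodule ℝ E) (A : E →L[ℝ] E) {g : ℝ} (hg : 0 < g) (f : E → V) :
    ∫ x : U, gauss U (g • A) x ^ 2 • f (√g • x) = ∫ x : U, gauss U A x ^ 2 • f x := by
  have hs : 0 < √g := Real.sqrt_pos.2 hg
  simp only [gauss_smul U A hg, mul_pow, rpow_sq hg, mul_smul]
  rw [integral_smul, integral_smul' U (fun x => gauss U A x ^ 2 • f x) hs, smul_smul,
    mul_inv_cancel₀ (pow_pos hs _).ne', one_smul]

namespace GauAux

theorem gnorm_le (ha : 0 < a) (hA : ∀ w ∈ U, a * ‖w‖ ^ 2 ≤ ⟪w, A w⟫) {M : ℝ} (hM : ‖A‖ ≤ M) :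
    gnorm U A ≤ (√(∫ x : U, Real.exp (-((|M| + 1) * ‖x‖ ^ 2))))⁻¹ := by
  have hM' : 0 < |M| + 1 := by positivity
  have h0 := integrable_exp_sq (W := U) hM'
  have h1 : 0 < ∫ x : U, Real.exp (-((|M| + 1) * ‖x‖ ^ 2)) := integral_exp_pos h0
  refine inv_anti₀ (Real.sqrt_pos.2 h1) (Real.sqrt_le_sqrt ?_)
  refine integral_mono h0 (integrable_exp ha hA) fun x => ?_
  refine Real.exp_le_exp.2 (neg_le_neg ?_)
  have h2 := abs_inner_le (x : E) A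
  have h3 : ‖A‖ * ‖(x : E)‖ ^ 2 ≤ (|M| + 1) * ‖(x : E)‖ ^ 2 := by
    gcongr
    linarith [le_abs_self M]
  rw [Submodule.coe_norm]
  exact (le_abs_self _).trans (h2.trans h3)

theorem le_gnorm (ha : 0 < a) (hA : ∀ w ∈ U, a * ‖w‖ ^ 2 ≤ ⟪w, A w⟫) :
    (√(∫ x : U, Real.exp (-(a * ‖x‖ ^ 2))))⁻¹ ≤ gnorm U A := by
  refine inv_anti₀ (Real.sqrt_pos.2 (int_pos ha hA)) (Real.sqrt_le_sqrt ?_)
  refine integral_mono (integrable_exp ha hA) (integrable_exp_sq (W := U) ha) fun x => ?_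
  exact Real.exp_le_exp.2 (neg_le_neg (hA x x.2))

theorem gauss_sq_le (U : Submodule ℝ E) (ha : 0 < a) (M : ℝ) : ∃ K ≥ 0,
    ∀ A : E →L[ℝ] E, (∀ w ∈ U, a * ‖w‖ ^ 2 ≤ ⟪w, A w⟫) → ‖A‖ ≤ M →
      ∀ x : U, gauss U A x ^ 2 ≤ K * Real.exp (-(a * ‖x‖ ^ 2)) := by
  refine ⟨((√(∫ x : U, Real.exp (-((|M| + 1) * ‖x‖ ^ 2))))⁻¹) ^ 2, by positivity,
    fun A hA hM x => ?_⟩
  rw [gauss_sq]
  have h1 := gnorm_le ha hA hM
  have h2 := gnorm_nonneg U A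
  have h3 : -⟪(x : E), A x⟫ ≤ -(a * ‖x‖ ^ 2) := neg_le_neg (hA x x.2)
  gcongr

omit [FiniteDimensional ℝ E] [MeasurableSpace E] [BorelSpace E] in
theorem norm_sqrt_smul_sq {g : ℝ} (hg : 0 < g) (x : E) : ‖√g • x‖ ^ 2 = g * ‖x‖ ^ 2 := by
  rw [norm_smul, mul_pow, Real.norm_of_nonneg (Real.sqrt_nonneg g), Real.sq_sqrt hg.le]

theorem integrable_one_add {W : Type} [NormedAddCommGroup W] [InnerProductSpace ℝ W]
    [FiniteDimensional ℝ W] [MeasurableSpace W] [BorelSpace W] {c : ℝ} (hc : 0 < c) (k : ℕ) :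
    Integrable fun x : W => (1 + ‖x‖ ^ 2) ^ k * Real.exp (-(c * ‖x‖ ^ 2)) := by
  have h : ∀ x : W, (1 + ‖x‖ ^ 2) ^ k * Real.exp (-(c * ‖x‖ ^ 2)) =
      ∑ m ∈ Finset.range (k + 1),
        (k.choose m : ℝ) * (‖x‖ ^ (2 * m) * Real.exp (-(c * ‖x‖ ^ 2))) := by
    intro x
    rw [add_comm, add_pow, Finset.sum_mul]
    refine Finset.sum_congr rfl fun m _ => ?_
    rw [pow_mul, one_pow]
    ring
  simp only [h]
  exact integrable_finsetSum _ fun m _ => (integrable_pow_exp_sq hc (2 * m)).const_mul _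

end GauAux

/-- uniform moment bounds -/
theorem gauss_moment (U : Submodule ℝ E) (ha : 0 < a) (M : ℝ) (k : ℕ) : ∃ K : ℝ,
    ∀ A : E →L[ℝ] E, (∀ w ∈ U, a * ‖w‖ ^ 2 ≤ ⟪w, A w⟫) → ‖A‖ ≤ M → ∀ g > 0,
      ∫ x : U, (g * ‖(x : E)‖ ^ 2) ^ k * gauss U (g • A) x ^ 2 ≤ K := by
  obtain ⟨K, -, hK⟩ := gauss_sq_le U ha M
  refine ⟨∫ x : U, K * (‖x‖ ^ (2 * k) * Real.exp (-(a * ‖x‖ ^ 2))), fun A hA hM g hg => ?_⟩
  have h := integral_gauss_sq_smul U A hg fun y : E => (‖y‖ ^ 2) ^ k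
  simp only [norm_sqrt_smul_sq hg, smul_eq_mul] at h
  simp only [mul_comm _ (gauss U (g • A) _ ^ 2)]
  rw [h]
  refine integral_mono_of_nonneg (Eventually.of_forall fun x => by positivity)
    ((integrable_pow_exp_sq ha (2 * k)).const_mul K) (Eventually.of_forall fun x => ?_)
  have := hK A hA hM x
  calc gauss U A x ^ 2 * (‖(x : E)‖ ^ 2) ^ k
      ≤ K * Real.exp (-(a * ‖x‖ ^ 2)) * (‖(x : E)‖ ^ 2) ^ k := by gcongr
    _ = _ := by simp only [Submodule.coe_norm, pow_mul]; ring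

/-- uniform tail bounds -/
theorem gauss_tail (U : Submodule ℝ E) (ha : 0 < a) (M : ℝ) (k : ℕ) {ε : ℝ} (hε : 0 < ε) :
    ∃ r : ℝ, ∀ A : E →L[ℝ] E, (∀ w ∈ U, a * ‖w‖ ^ 2 ≤ ⟪w, A w⟫) → ‖A‖ ≤ M → ∀ g > 0,
      ∫ x in {x : U | r ≤ g * ‖(x : E)‖ ^ 2},
        (1 + g * ‖(x : E)‖ ^ 2) ^ k * gauss U (g • A) x ^ 2 ≤ ε := by
  obtain ⟨K, hK0, hK⟩ := gauss_sq_le U ha M
  set C := ∫ x : U, K * ((1 + ‖x‖ ^ 2) ^ (k + 1) * Real.exp (-(a * ‖x‖ ^ 2))) with hC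
  have hC0 : 0 ≤ C := integral_nonneg fun x => by positivity
  have hr : 0 < C / ε + 1 := by positivity
  refine ⟨C / ε + 1, fun A hA hM g hg => ?_⟩
  set r := C / ε + 1 with hr'
  have hm : MeasurableSet {x : U | r ≤ g * ‖(x : E)‖ ^ 2} :=
    (isClosed_le continuous_const (by fun_prop)).measurableSet
  have h := integral_gauss_sq_smul U A hg
    fun y : E => Set.indicator {y : E | r ≤ ‖y‖ ^ 2} (fun y => (1 + ‖y‖ ^ 2) ^ k) y
  have h1 : ∫ x in {x : U | r ≤ g * ‖(x : E)‖ ^ 2},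
      (1 + g * ‖(x : E)‖ ^ 2) ^ k * gauss U (g • A) x ^ 2 = ∫ x : U, gauss U (g • A) x ^ 2 •
        Set.indicator {y : E | r ≤ ‖y‖ ^ 2} (fun y => (1 + ‖y‖ ^ 2) ^ k) (√g • (x : E)) := by
    rw [← integral_indicator hm]
    refine integral_congr_ae (Eventually.of_forall fun x => ?_)
    simp only [Set.indicator_apply, Set.mem_ofPred_eq, norm_sqrt_smul_sq hg, smul_eq_mul]
    split_ifs
    · ring
    · simp
  rw [h1, h]
  have h2 : ∫ x : U, gauss U A x ^ 2 •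
      Set.indicator {y : E | r ≤ ‖y‖ ^ 2} (fun y => (1 + ‖y‖ ^ 2) ^ k) (x : E) ≤
      ∫ x : U, r⁻¹ * (K * ((1 + ‖x‖ ^ 2) ^ (k + 1) * Real.exp (-(a * ‖x‖ ^ 2)))) := by
    refine integral_mono_of_nonneg (Eventually.of_forall fun x => ?_)
      (((integrable_one_add ha (k + 1)).const_mul K).const_mul _) (Eventually.of_forall fun x => ?_)
    · exact smul_nonneg (sq_nonneg _) (Set.indicator_nonneg (fun y _ => by positivity) _)
    · simp only [Set.indicator_apply, Set.mem_ofPred_eq, smul_eq_mul]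
      split_ifs with hx
      · have h3 := hK A hA hM x
        have h4 : 1 ≤ r⁻¹ * (1 + ‖(x : E)‖ ^ 2) := by
          rw [← div_eq_inv_mul, le_div_iff₀ hr]; linarith
        calc gauss U A x ^ 2 * (1 + ‖(x : E)‖ ^ 2) ^ k
            ≤ K * Real.exp (-(a * ‖x‖ ^ 2)) * (1 + ‖(x : E)‖ ^ 2) ^ k := by gcongr
          _ = K * Real.exp (-(a * ‖x‖ ^ 2)) * (1 + ‖(x : E)‖ ^ 2) ^ k * 1 := by ring
          _ ≤ K * Real.exp (-(a * ‖x‖ ^ 2)) * (1 + ‖(x : E)‖ ^ 2) ^ k *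
              (r⁻¹ * (1 + ‖(x : E)‖ ^ 2)) := by gcongr
          _ = _ := by simp only [Submodule.coe_norm]; ring
      · rw [mul_zero]; positivity
  refine h2.trans ?_
  rw [integral_const_mul, ← hC, ← div_eq_inv_mul, div_le_iff₀ hr, hr', mul_add,
    mul_div_cancel₀ _ hε.ne']
  linarith

theorem gnorm_bounds (U : Submodule ℝ E) (ha : 0 < a) (M : ℝ) : ∃ k > 0, ∃ K : ℝ,
    ∀ A : E →L[ℝ] E, (∀ w ∈ U, a * ‖w‖ ^ 2 ≤ ⟪w, A w⟫) → ‖A‖ ≤ M →
      k ≤ gnorm U A ∧ gnorm U A ≤ K :=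
  ⟨_, inv_pos.2 (Real.sqrt_pos.2 (integral_exp_pos (integrable_exp_sq (W := U) ha))), _,
    fun _ hA hM => ⟨le_gnorm ha hA, gnorm_le ha hA hM⟩⟩

theorem contDiffAt_gaussian_integral (ha : 0 < a) (hA : ∀ w ∈ U, a * ‖w‖ ^ 2 ≤ ⟪w, A w⟫) :
    ContDiffAt ℝ ∞ (fun B : E →L[ℝ] E => ∫ x : U, Real.exp (-⟪(x : E), B x⟫)) A := by
  rw [← Phi_one]
  exact (good_one U).contDiffAt ⟨a, ha, hA⟩

theorem contDiffAt_gnorm (ha : 0 < a) (hA : ∀ w ∈ U, a * ‖w‖ ^ 2 ≤ ⟪w, A w⟫) :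
    ContDiffAt ℝ ∞ (gnorm U) A :=
  ((contDiffAt_gaussian_integral ha hA).sqrt (int_pos ha hA).ne').inv
    (Real.sqrt_pos.2 (int_pos ha hA)).ne'

/-- the second moments depend continuously on the form -/
theorem continuousAt_gauss_quad {V : Type} [NormedAddCommGroup V] [NormedSpace ℝ V]
    [CompleteSpace V] (ha : 0 < a) (hA : ∀ w ∈ U, a * ‖w‖ ^ 2 ≤ ⟪w, A w⟫)
    (q : E →L[ℝ] E →L[ℝ] V) : ContinuousAt (fun p : (E →L[ℝ] E) × (E →L[ℝ] E →L[ℝ] V) =>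
      ∫ x : U, gauss U p.1 x ^ 2 • p.2 x x) (A, q) := by
  have hA' : A ∈ Pos U := ⟨a, ha, hA⟩
  have h1 : ContinuousAt (fun p : (E →L[ℝ] E) × (E →L[ℝ] E →L[ℝ] V) => gnorm U p.1 ^ 2) (A, q) :=
    (ContinuousAt.comp (g := gnorm U) (f := Prod.fst) (x := (A, q))
      (contDiffAt_gnorm ha hA).continuousAt continuousAt_fst).pow 2
  refine (h1.smul (continuousAt_quad hA' q)).congr (Eventually.of_forall fun p => ?_)
  simp only [gauss_sq, mul_smul]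
  rw [integral_smul]
  rfl

namespace GauAux

theorem hasFDerivAt_gnorm (ha : 0 < a) (hA : ∀ w ∈ U, a * ‖w‖ ^ 2 ≤ ⟪w, A w⟫) :
    ∃ L : (E →L[ℝ] E) →L[ℝ] ℝ, HasFDerivAt (gnorm U) L A ∧
      ∀ B, L B = (∫ y : U, gauss U A y ^ 2 * ⟪(y : E), B y⟫) / 2 * gnorm U A := by
  have hA' : A ∈ Pos U := ⟨a, ha, hA⟩
  have h1 := (good_one U).hasFDerivAt hA'
  rw [Phi_one] at h1
  have hI := int_pos ha hA
  have hs := Real.sqrt_pos.2 hI
  have h2 := (hasDerivAt_inv hs.ne').comp_hasFDerivAt A (h1.sqrt hI.ne')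
  refine ⟨_, h2, fun B => ?_⟩
  have h3 : Phi (dw fun _ : U => (1 : ℝ)) A B =
      -∫ y : U, Real.exp (-⟪(y : E), A y⟫) * ⟪(y : E), B y⟫ := by
    rw [Phi, ContinuousLinearMap.integral_apply ((good_one U).dw.integrable hA'), ← integral_neg]
    refine integral_congr_ae (Eventually.of_forall fun y => ?_)
    simp [dw, ev_apply]
  simp only [gauss_sq, mul_assoc]
  rw [integral_const_mul, _root_.smul_apply, _root_.smul_apply, h3, gnorm]
  simp only [smul_eq_mul]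
  field_simp

theorem fderiv_gauss_form' (ha : 0 < a) (hA : ∀ w ∈ U, a * ‖w‖ ^ 2 ≤ ⟪w, A w⟫) (B : E →L[ℝ] E)
    (x : E) : DifferentiableAt ℝ (fun A' : E →L[ℝ] E => gauss U A' x) A ∧
      fderiv ℝ (fun A' : E →L[ℝ] E => gauss U A' x) A B =
        ((∫ y : U, gauss U A y ^ 2 * ⟪(y : E), B y⟫) - ⟪x, B x⟫) / 2 * gauss U A x := by
  obtain ⟨L, hL, hLB⟩ := hasFDerivAt_gnorm ha hA
  have h1 : HasFDerivAt (fun B : E →L[ℝ] E => -⟪x, B x⟫) (-ev x) A := (ev x).hasFDerivAt.neg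
  have h2 := hL.mul (h1.mul_const (2 : ℝ)⁻¹).exp
  have h3 : (fun A' : E →L[ℝ] E => gauss U A' x) =
      gnorm U * fun B : E →L[ℝ] E => Real.exp (-⟪x, B x⟫ * (2 : ℝ)⁻¹) := by
    funext z; rw [gauss, div_eq_mul_inv]; rfl
  rw [h3]
  refine ⟨h2.differentiableAt, ?_⟩
  rw [h2.fderiv, gauss, div_eq_mul_inv (-⟪x, A x⟫)]
  simp only [_root_.add_apply, _root_.smul_apply, _root_.neg_apply, hLB, ev_apply, smul_eq_mul]
  ring

end GauAux

/-- the normalization is preserved: `∫ G ∂G = 0` -/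
theorem integral_gauss_mul_fderiv (ha : 0 < a) (hA : ∀ w ∈ U, a * ‖w‖ ^ 2 ≤ ⟪w, A w⟫)
    (B : E →L[ℝ] E) :
    ∫ x : U, gauss U A x * fderiv ℝ (fun A' : E →L[ℝ] E => gauss U A' x) A B = 0 := by
  simp only [(fderiv_gauss_form' ha hA B _).2]
  set c := ∫ y : U, gauss U A y ^ 2 * ⟪(y : E), B y⟫ with hc
  have h1 : Integrable fun x : U => gauss U A x ^ 2 := by simpa using integrable_gauss_sq ha hA 0
  have hg := (contDiff_gauss U A).continuous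
  have h2 : Integrable fun y : U => gauss U A y ^ 2 * ⟪(y : E), B y⟫ := by
    refine ((integrable_gauss_sq ha hA 2).const_mul ‖B‖).mono' (meas_of_cont (by fun_prop))
      (Eventually.of_forall fun y => ?_)
    rw [norm_mul, Real.norm_of_nonneg (sq_nonneg _), Real.norm_eq_abs]
    have := abs_inner_le (y : E) B
    calc gauss U A y ^ 2 * |⟪(y : E), B y⟫| ≤ gauss U A y ^ 2 * (‖B‖ * ‖(y : E)‖ ^ 2) := by gcongr
      _ = _ := by ring
  have h3 : ∀ x : U, gauss U A x * ((c - ⟪(x : E), B x⟫) / 2 * gauss U A x) =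
      c / 2 * gauss U A x ^ 2 - 1 / 2 * (gauss U A x ^ 2 * ⟪(x : E), B x⟫) := fun x => by ring
  simp only [h3]
  rw [integral_sub (h1.const_mul _) (h2.const_mul _), integral_const_mul, integral_const_mul,
    integral_gauss_sq ha hA, ← hc]
  ring

theorem fderiv_gauss_form (ha : 0 < a) (hA : ∀ w ∈ U, a * ‖w‖ ^ 2 ≤ ⟪w, A w⟫) (B : E →L[ℝ] E)
    (x : E) : DifferentiableAt ℝ (fun A' : E →L[ℝ] E => gauss U A' x) A ∧
      fderiv ℝ (fun A' : E →L[ℝ] E => gauss U A' x) A B =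
        ((∫ y : U, gauss U A y ^ 2 * ⟪(y : E), B y⟫) - ⟪x, B x⟫) / 2 * gauss U A x :=
  fderiv_gauss_form' ha hA B x

/-- odd functions integrate to zero -/
theorem integral_gauss_sq_odd {V : Type} [NormedAddCommGroup V] [NormedSpace ℝ V]
    (U : Submodule ℝ E) (A : E →L[ℝ] E) {f : E → V} (hf : ∀ x, f (-x) = -f x) :
    ∫ x : U, gauss U A x ^ 2 • f x = 0 := by
  have h := integral_neg_eq_self (fun x : U => gauss U A x ^ 2 • f x) volume
  have h1 : ∀ x : E, gauss U A (-x) = gauss U A x := fun x => by simp [gauss]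
  simp only [Submodule.coe_neg, h1, hf, smul_neg, integral_neg] at h
  have h2 : (2 : ℝ) • ∫ x : U, gauss U A x ^ 2 • f x = 0 := by
    rw [two_smul]
    nth_rewrite 1 [← h]
    exact neg_add_cancel _
  exact (smul_eq_zero.1 h2).resolve_left two_ne_zero

end Vale.Agent.P353
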