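import Vale.Agent.P353.Stmts
import Vale.Agent.P353.Gau
import Vale.Agent.P353.Psq
import Vale.Agent.P353.Dl1Aux

/-! Local estimates for the semiclassical amplitude. -/

noncomputable section

open MeasureTheory Filter Topology Complex Matrix
open scoped ContDiff RealInnerProductSpace

namespace Vale.Agent.P353

namespace Dl1Aux

variable {N d : ℕ} {F : Type} [NormedAddCommGroup F] [InnerProductSpace ℂ F]
  [FiniteDimensional ℂ F] (c : Ctx N d F) {π : Setoid (Fin N)} {z : Tn 9 d}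

theorem mem_Yz {y : Tn 9 d} :
    y ∈ c.Yz π z ↔ y ∈ sub 9 (c.ss π) ∧ ∀ ξ ∈ c.blk π, ⟪c.vf ξ z, y⟫ = 0 := by
  simp only [Ctx.Yz, Submodule.mem_inf, Submodule.mem_iInf,
    Submodule.mem_orthogonal_singleton_iff_inner_right]

theorem norm_Phi (α : Fin 16) (W : Tn 9 d) : ‖c.Phi (eb α) W‖ ≤ 51 * ‖W‖ ^ 2 := by
  have h1 : c.Fsq W ≤ ∑ _i : Fin 9, ∑ _j : Fin 9, (2 * ‖W‖ * ‖W‖) ^ 2 :=
    Finset.sum_le_sum fun i _ => Finset.sum_le_sum fun j _ => pow_le_pow_left₀ (norm_nonneg _)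
      ((c.norm_ad_le _ _).trans (mul_le_mul (mul_le_mul_of_nonneg_left (norm_cmp_le i W)
        zero_le_two) (norm_cmp_le j W) (norm_nonneg _) (by positivity))) 2
  simp only [Finset.sum_const, Finset.card_univ, Fintype.card_fin, nsmul_eq_mul] at h1
  have h2 := c.norm_Phi_le α W
  have h3 : 0 ≤ ‖W‖ ^ 4 := by positivity
  refine (pow_le_pow_iff_left₀ (norm_nonneg _) (by positivity) two_ne_zero).1 ?_
  push_cast at h1
  linarith

theorem beta_shift (hv : c.IsVac z) (g : ℝ) (α : Fin 16) (W : Tn 9 d) :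
    c.beta g g (eb α) (z + W) = g • (fderiv ℝ (c.beta 1 1 (eb α)) z W + c.Phi (eb α) W) := by
  have h1 : c.beta 1 1 (eb α) z = 0 := by
    have h := (Finset.sum_eq_zero_iff_of_nonneg fun α _ => sq_nonneg _).1
      ((c.Pot_eq_zero_iff z).2 hv) α (Finset.mem_univ _)
    exact norm_eq_zero.1 (pow_eq_zero_iff two_ne_zero |>.1 h)
  rw [Ctx.beta, one_smul, one_smul] at h1
  rw [c.cov3_fderiv, Ctx.beta, c.Phi_add, map_add, one_smul, one_smul, ← smul_add,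
    eq_neg_of_add_eq_zero_left h1]
  congr 1
  abel

/-- the mass on the slice is controlled by the norm -/
theorem slice_le (h_orb : c.S_orb) (h_chart : c.S_chart) (hz : z ∈ sub 9 (c.ss π)) :
    ∃ δ > 0, ∃ K ≥ 0, ∀ ρ ≤ δ, ∀ ψ ∈ c.D0 π,
      ∫ W in {W : c.Yz π z | ‖(W : Tn 9 d)‖ ≤ ρ}, ‖ψ (z + W)‖ ^ 2 ≤ K * nrm (sub 9 (c.ss π)) ψ := by
  obtain ⟨𝔪, hT, -⟩ := h_orb.yz π z hz
  obtain ⟨δ, hδ, K, hK⟩ := h_chart.up π _ 𝔪 _ z hT
  refine ⟨δ, hδ, |K|, abs_nonneg _, fun ρ hρ ψ hψ => ?_⟩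
  have h1 := (c.mem_D0.1 hψ).1
  have h2 := (c.mem_D.1 h1).1
  have h3 := hK 1 (by rw [sub_self, norm_zero]; exact hδ.le) (fun x hx => hx) 0 (zero_mem _)
    (by rw [norm_zero]; exact hδ.le) (fun x => ‖ψ x‖ ^ 2) ⟨h2.1.continuous.norm.pow 2,
      fun x => sq_nonneg _, c.invR_normsq h1, h2.2.mono fun x hx h => hx (by simp [h])⟩
  simp only [one_apply_eq_self, add_zero] at h3
  rw [← shift hT.2.2.2.1 δ fun x => ‖ψ x‖ ^ 2] at h3
  have h4 : IsCompact {W : c.Yz π z | ‖(W : Tn 9 d)‖ ≤ δ} := by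
    have : {W : c.Yz π z | ‖(W : Tn 9 d)‖ ≤ δ} = Metric.closedBall 0 δ := by ext W; simp
    rw [this]; exact isCompact_closedBall _ _
  have h5 : Continuous fun W : c.Yz π z => ‖ψ (z + W)‖ ^ 2 :=
    (h2.1.continuous.comp (continuous_const.add continuous_subtype_val)).norm.pow 2
  refine (setIntegral_mono_set (h5.continuousOn.integrableOn_compact h4)
    (Eventually.of_forall fun W => sq_nonneg _)
    (Eventually.of_forall fun W hW => le_trans hW hρ)).trans (h3.trans ?_)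
  exact mul_le_mul_of_nonneg_right (le_abs_self K) (nrm_nonneg _ ψ)

theorem linOn (A : Tn 9 d →L[ℝ] Tn 9 d) (Ω : F) {ϑ : Tn 9 d → ℝ} {ρ : ℝ} (hϑ : c.Bump ϑ ρ)
    (g : ℝ) : LinOn (c.D0 π) (c.Lz π z A Ω ϑ g) := by
  have hi : ∀ ψ ∈ c.D0 π, Integrable fun W : c.Yz π z =>
      ((ϑ W * gauss (c.Yz π z) (g • A) W : ℝ) : ℂ) * inner ℂ Ω (ψ (z + W)) := fun ψ hψ =>
    integrable_ball (c.Yz π z) (φ := fun W =>
      ((ϑ W * gauss (c.Yz π z) (g • A) W : ℝ) : ℂ) * inner ℂ Ω (ψ (z + W)))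
      ((continuous_ofReal.comp (hϑ.1.continuous.mul (contDiff_gauss _ _).continuous)).mul
        (continuous_const.inner ((c.mem_D.1 (c.mem_D0.1 hψ).1).1.1.continuous.comp
          (continuous_const.add continuous_id)))) (ρ := ρ)
      fun W _ hW => by rw [hϑ.2.2.2.2 W hW.le, zero_mul, ofReal_zero, zero_mul]
  intro φ hφ ψ hψ w
  unfold Ctx.Lz
  rw [← integral_const_mul, ← integral_add (hi φ hφ) ((hi ψ hψ).const_mul w)]
  refine integral_congr_ae (Eventually.of_forall fun W => ?_)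
  simp only [Pi.add_apply, Pi.smul_apply, inner_add_right, inner_smul_right]
  ring

/-- gauge directions and slice directions near `z` -/
theorem exists_fields (hz : z ∈ sub 9 (c.ss π)) {A : Tn 9 d →L[ℝ] Tn 9 d}
    (hA : ∀ W, A W ∈ c.Yz π z) : ∃ R > 0, ∃ C : ℝ,
      ∃ (τ : Fin (Module.finrank ℝ (sub 9 (c.ss π))) → Tn 9 d → Tn 9 d)
        (Γ : Fin (Module.finrank ℝ (sub 9 (c.ss π))) → Tn 9 d → F →L[ℂ] F),
      (∀ k, ContDiff ℝ 1 (τ k)) ∧ (∀ k, Continuous (Γ k)) ∧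
      (∀ k, ∀ W ∈ c.Yz π z, ‖W‖ ≤ R → τ k W ∈ c.Yz π z) ∧
      (∀ k, ∀ W ∈ c.Yz π z, ‖W‖ ≤ R → |⟪τ k W - onb (sub 9 (c.ss π)) k, A W⟫| ≤ C * ‖W‖ ^ 2) ∧
      ∀ ψ ∈ c.D0 π, ∀ k, ∀ W ∈ c.Yz π z, fderiv ℝ ψ (z + W) (onb (sub 9 (c.ss π)) k) =
        Γ k W (ψ (z + W)) + fderiv ℝ ψ (z + W) (τ k W) := by
  obtain ⟨V, hV⟩ := c.exists_vfL
  obtain ⟨G, hG⟩ := c.exists_GsL
  obtain ⟨R, hR, ζ, h1, h2, h3⟩ := exists_zeta V (c.blk π) z
  obtain ⟨C, hC⟩ := (isCompact_closedBall (0 : Tn 9 d) R).exists_bound_of_continuousOn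
    h1.continuous.continuousOn
  have h4 : ∀ e, ContDiff ℝ ∞ fun W => ζ W e := fun e => h1.clm_apply contDiff_const
  have hU : ∀ W ∈ c.Yz π z, z + W ∈ sub 9 (c.ss π) := fun W hW =>
    add_mem hz ((mem_Yz c).1 hW).1
  refine ⟨R, hR, 2 * |C| * ‖A‖, fun k W => onb _ k - V (ζ W (onb _ k)) (z + W),
    fun k W => G (ζ W (onb _ k)), fun k => ?_, fun k => G.continuous.comp (h4 _).continuous,
    fun k W hW hR => (mem_Yz c).2 ⟨?_, fun ξ hξ => ?_⟩, fun k W hW hR => ?_, fun ψ hψ k W hW => ?_⟩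
  · exact (contDiff_const.sub ((V.contDiff.comp (h4 _)).clm_apply
      (contDiff_const.add contDiff_id))).of_le (by simp)
  · beta_reduce
    rw [hV]
    exact sub_mem (onb_mem _ k) ((c.Th_ss π).vf_mem c (h2 _ _) (hU W hW))
  · rw [← hV]
    exact h3 W hR _ ξ hξ
  · have e1 : ‖onb (sub 9 (c.ss π)) k‖ = 1 := by
      have := inner_onb (sub 9 (c.ss π)) k k
      rw [if_pos rfl, real_inner_self_eq_norm_sq] at this
      exact (pow_eq_one_iff_of_nonneg (norm_nonneg _) two_ne_zero).1 this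
    have e2 : ‖ζ W (onb (sub 9 (c.ss π)) k)‖ ≤ |C| := by
      have := (ζ W).le_of_opNorm_le ((hC W (mem_closedBall_zero_iff.2 hR)).trans (le_abs_self C))
        (onb (sub 9 (c.ss π)) k)
      rwa [e1, mul_one] at this
    rw [sub_sub_cancel_left, inner_neg_left, abs_neg, hV, map_add, inner_add_left,
      ((mem_Yz c).1 (hA W)).2 _ (h2 _ _), zero_add]
    refine (abs_real_inner_le_norm _ _).trans ((mul_le_mul ((c.norm_vf_le _ _).trans
      (mul_le_mul_of_nonneg_right (mul_le_mul_of_nonneg_left e2 zero_le_two) (norm_nonneg W)))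
      (A.le_opNorm W) (norm_nonneg _) (by positivity)).trans_eq (by ring))
  · have h5 := c.mem_D.1 (c.mem_D0.1 hψ).1
    have h6 := c.gauss_law (c.Th_ss π) (h5.1.1.differentiable (by simp)) h5.2
      (h2 W (onb _ k)) (hU W hW)
    beta_reduce
    rw [map_sub, hV, hG, h6, add_sub_cancel]

end Dl1Aux

namespace Ctx

variable {N d : ℕ} {F : Type} [NormedAddCommGroup F] [InnerProductSpace ℂ F]
  [FiniteDimensional ℂ F] (c : Ctx N d F)

theorem p_dl1 (h_orb : c.S_orb) (h_chart : c.S_chart) : c.S_dl1 := by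
  intro π z hz hv A Ω hD
  obtain ⟨δ, hδ, K₀, hK₀, hK⟩ := Dl1Aux.slice_le c h_orb h_chart hz
  obtain ⟨R, hR, C, τ, Γ, t1, t2, t3, t4, t5⟩ := Dl1Aux.exists_fields c hz hD.range
  obtain ⟨a, ha, hA⟩ := hD.pos
  obtain ⟨M, hM0, hM⟩ := Dl1Aux.cs ha hA
  have hYU : c.Yz π z ≤ sub 9 (c.ss π) := inf_le_left
  refine ⟨min δ R, lt_min hδ hR, fun ρ _ hρ ϑ hϑ => ?_⟩
  have hρR := hρ.trans (min_le_right _ _)
  choose K hK' using fun α => Dl1Aux.key c.car hYU (c.sE (eb α))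
    (fderiv ℝ (c.beta 1 1 (eb α)) z) hD.sym hD.range (hD.ann (eb α)) (C := max 51 C) (ρ := ρ)
    (fun W => (Dl1Aux.norm_Phi c α W).trans
      (mul_le_mul_of_nonneg_right (le_max_left _ _) (sq_nonneg _)))
    (hϑ.1.of_le (by simp)) hϑ.2.2.1 hϑ.2.2.2.2 t1 t2 (fun k W hW h => t3 k W hW (h.trans hρR))
    fun k W hW h => (t4 k W hW (h.trans hρR)).trans
      (mul_le_mul_of_nonneg_right (le_max_right _ _) (sq_nonneg _))
  refine ⟨(1 + ∑ α, K α ^ 2) * M * K₀, fun g hg => ⟨Dl1Aux.linOn c A Ω hϑ g, fun ψ hψ => ?_⟩⟩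
  have hg0 : 0 < g := by linarith
  have hs := (c.mem_D.1 (c.mem_D0.1 hψ).1).1
  have hφ : ContDiff ℝ ∞ fun W => ψ (z + W) := hs.1.comp (contDiff_const.add contDiff_id)
  have hS : 0 ≤ ∑ α, K α ^ 2 := Finset.sum_nonneg fun α _ => sq_nonneg _
  have fin : ∀ (k : ℝ) (J : Tn 9 d → ℂ), k ^ 2 ≤ 1 + ∑ α, K α ^ 2 →
      (∀ W ∈ c.Yz π z, ρ < ‖W‖ → J W = 0) → (∀ W ∈ c.Yz π z, ‖W‖ ≤ ρ →
        ‖J W‖ ≤ k * ((1 + g * ‖W‖ ^ 2) * gauss (c.Yz π z) (g • A) W * ‖ψ (z + W)‖)) →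
      ‖∫ W : c.Yz π z, J W‖ ^ 2 ≤ (1 + ∑ α, K α ^ 2) * M * K₀ * nrm (sub 9 (c.ss π)) ψ := by
    intro k J hk j1 j2
    refine (hM g hg0 ρ k _ hφ.continuous.norm J j1 j2).trans ?_
    rw [mul_assoc _ K₀]
    exact mul_le_mul (mul_le_mul_of_nonneg_right hk hM0)
      (hK ρ (hρ.trans (min_le_left _ _)) ψ hψ) (integral_nonneg fun W => sq_nonneg _)
      (by positivity)
  refine ⟨fin 1 (fun W => ((ϑ W * gauss (c.Yz π z) (g • A) W : ℝ) : ℂ) * inner ℂ Ω (ψ (z + W)))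
    (by linarith) (fun W _ hW => ?_) fun W _ _ => ?_, fun α => ?_⟩
  · rw [hϑ.2.2.2.2 W hW.le, zero_mul, ofReal_zero, zero_mul]
  · have h1 := gauss_nonneg (c.Yz π z) (g • A) W
    have h2 := norm_inner_le_norm (𝕜 := ℂ) Ω (ψ (z + W))
    have h3 : 0 ≤ g * ‖W‖ ^ 2 := by positivity
    rw [hD.unit, one_mul] at h2
    rw [norm_mul, norm_real, Real.norm_of_nonneg (mul_nonneg (hϑ.2.2.1 W).1 h1), one_mul]
    exact mul_le_mul (mul_le_mul_of_nonneg_right ((hϑ.2.2.1 W).2.trans (by linarith)) h1) h2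
      (norm_nonneg _) (by positivity)
  · obtain ⟨J, j0, j1, j2⟩ := hK' α g hg0 (fun W => ψ (z + W)) (fun W => c.beta g g (eb α) (z + W))
      (hφ.of_le (by simp)) ((c.contDiff_beta g g _).continuous.comp
        (continuous_const.add continuous_id)) (hasCompactSupport_slice hYU hs.2 hz)
      (Dl1Aux.beta_shift c hv g α) fun k W hW _ => by
        rw [fderiv_comp_add_left]; exact t5 ψ hψ k W hW
    have h1 : c.Lz π z A Ω ϑ g (c.Q (c.ss π) g g (eb α) ψ) = ∫ W : c.Yz π z, J W := by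
      rw [← j0]
      simp only [Lz, Q, dop, fderiv_comp_add_left]
    rw [h1]
    refine fin (K α) J ?_ j1 j2
    have := Finset.single_le_sum (f := fun α => K α ^ 2) (fun α _ => sq_nonneg _)
      (Finset.mem_univ α)
    linarith

end Ctx

end Vale.Agent.P353
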