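import Vale.Agent.P353.Stmts
import Vale.Agent.P353.Gau

/-! Semiclassical test functions. -/

noncomputable section

open MeasureTheory Filter Topology Complex Matrix
open scoped ContDiff RealInnerProductSpace

namespace Vale.Agent.P353

namespace Dl2Aux

variable {E : Type} [NormedAddCommGroup E] [InnerProductSpace ℝ E] [FiniteDimensional ℝ E]
  [MeasurableSpace E] [BorelSpace E]

theorem cut_gauss (U : Submodule ℝ E) {A : E →L[ℝ] E} {a ρ : ℝ} (ha : 0 < a)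
    (hA : ∀ w ∈ U, a * ‖w‖ ^ 2 ≤ ⟪w, A w⟫) (hρ : 0 < ρ) {ϑ : E → ℝ} (hc : Continuous ϑ)
    (h01 : ∀ x, 0 ≤ ϑ x ∧ ϑ x ≤ 1) (h1 : ∀ x, ‖x‖ ≤ ρ → ϑ x = 1) : ∀ᶠ g : ℝ in atTop,
      1 / 2 ≤ ∫ x : U, (ϑ x * gauss U (g • A) x) ^ 2 ∧
        ∫ x : U, (ϑ x * gauss U (g • A) x) ^ 2 ≤ 1 := by
  obtain ⟨r, hr⟩ := gauss_tail U ha ‖A‖ 0 (show (0 : ℝ) < 1 / 2 by norm_num)
  filter_upwards [eventually_gt_atTop 0, eventually_ge_atTop (r / ρ ^ 2)] with g hg hg'
  rw [div_le_iff₀ (by positivity)] at hg'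
  have hA' : ∀ w ∈ U, g * a * ‖w‖ ^ 2 ≤ ⟪w, (g • A) w⟫ := fun w hw => by
    rw [_root_.smul_apply, real_inner_smul_right, mul_assoc]
    exact mul_le_mul_of_nonneg_left (hA w hw) hg.le
  have hi : Integrable fun x : U => gauss U (g • A) x ^ 2 := by
    simpa using integrable_gauss_sq (mul_pos hg ha) hA' 0
  have hle : ∀ x : U, (ϑ x * gauss U (g • A) x) ^ 2 ≤ gauss U (g • A) x ^ 2 := fun x => by
    rw [mul_pow]
    exact mul_le_of_le_one_left (sq_nonneg _) (pow_le_one₀ (h01 x).1 (h01 x).2)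
  have hi' : Integrable fun x : U => (ϑ x * gauss U (g • A) x) ^ 2 :=
    hi.mono' (((hc.mul (contDiff_gauss U _).continuous).comp continuous_subtype_val).pow
      2).aestronglyMeasurable (Eventually.of_forall fun x => by
        rw [Real.norm_of_nonneg (sq_nonneg _)]
        exact hle x)
  have h1' := integral_gauss_sq (mul_pos hg ha) hA'
  refine ⟨?_, (integral_mono hi' hi hle).trans h1'.le⟩
  have hm : MeasurableSet {x : U | r ≤ g * ‖(x : E)‖ ^ 2} :=
    (isClosed_le continuous_const (by fun_prop)).measurableSet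
  have k := hr A hA le_rfl g hg
  simp only [pow_zero, one_mul] at k
  rw [← integral_indicator hm] at k
  have k2 := integral_mono hi (hi'.add (hi.indicator hm)) fun x => by
    by_cases h : ‖(x : E)‖ ≤ ρ
    · rw [Pi.add_apply, h1 x h, one_mul]
      exact le_add_of_nonneg_right (Set.indicator_nonneg (fun _ _ => sq_nonneg _) x)
    · have hx : x ∈ {x : U | r ≤ g * ‖(x : E)‖ ^ 2} := hg'.trans
        (mul_le_mul_of_nonneg_left (pow_le_pow_left₀ hρ.le (not_le.1 h).le 2) hg.le)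
      rw [Pi.add_apply, Set.indicator_of_mem hx]
      exact le_add_of_nonneg_left (sq_nonneg _)
  rw [integral_add' hi' (hi.indicator hm)] at k2
  linarith

end Dl2Aux

namespace Ctx

variable {N d : ℕ} {F : Type} [NormedAddCommGroup F] [InnerProductSpace ℂ F]
  [FiniteDimensional ℂ F] (c : Ctx N d F)

theorem p_dl2 (h_orb : c.S_orb) (h_ext : c.S_ext) : c.S_dl2 := by
  intro π z hz _ A Ω hV
  obtain ⟨𝔪, hT, h1, h2⟩ := h_orb.yz π z hz
  obtain ⟨r, hr, K, hK⟩ := h_ext π _ 𝔪 _ z hT h1 h2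
  obtain ⟨a, ha, hA⟩ := hV.pos
  have hzY : z ∈ c.Yz π z := hT.2.2.2.1
  refine ⟨r, hr, |K|, fun ρ hρ hρr ϑ hϑ => ?_⟩
  filter_upwards [Dl2Aux.cut_gauss _ ha hA (half_pos hρ) hϑ.1.continuous hϑ.2.2.1 hϑ.2.2.2.1]
    with g hg
  obtain ⟨s, hs⟩ : ∃ s : Tn 9 d → ℝ, s = fun W => ϑ W * gauss (c.Yz π z) (g • A) W := ⟨_, rfl⟩
  have hs0 : ∀ W, ρ ≤ ‖W‖ → s W = 0 := fun W h => by rw [hs]; simp [hϑ.2.2.2.2 W h]
  have hs1 : ContDiff ℝ ∞ s := hs ▸ hϑ.1.mul (contDiff_gauss _ _)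
  obtain ⟨φ, k1, k2, k3, k4, -⟩ := hK (fun y => (s (y - z) : ℂ) • Ω)
    ((Complex.ofRealCLM.contDiff.comp (hs1.comp (contDiff_id.sub contDiff_const))).smul
      contDiff_const)
    (fun y _ h => by rw [hs0 _ (hρr.trans h), ofReal_zero, zero_smul]) (fun u hu huz y _ => by
      have e : c.Ad9 u y - z = c.Ad9 u (y - z) := by rw [map_sub, huz]
      rw [map_smul, (hV.inv u hu huz).1, e, hs]
      simp only [gauss, _root_.smul_apply, (hV.inv u hu huz).2, real_inner_smul_right,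
        c.inner_Ad9, hϑ.2.1 _ _ (c.norm_Ad9 u (y - z))])
  refine ⟨φ, c.mem_D0.2 ⟨k1, fun x hx => ?_⟩, k4.trans ?_, ?_, fun x hx h => ?_⟩
  · by_cases h : φ x = 0
    · rw [h, map_zero]
    obtain ⟨u, hu, y, -, -, -, e⟩ := k3 x hx h
    rw [e, ← mul_apply_eq_comp, Cov4Aux.P0_U c hu, mul_apply_eq_comp,
      map_smul (c.P0 _), hV.P0]
  · have e : nrm (c.Yz π z) (fun y => (s (y - z) : ℂ) • Ω) = ∫ W : c.Yz π z, s W ^ 2 := by
      rw [nrm, ← integral_add_sub (fun y => ‖(s (y - z) : ℂ) • Ω‖ ^ 2) hzY]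
      simp [norm_smul, hV.unit]
    rw [e, hs]
    exact (mul_le_mul_of_nonneg_right (le_abs_self K) (by linarith [hg.1])).trans
      (mul_le_of_le_one_right (abs_nonneg K) hg.2)
  · have e : c.Lz π z A Ω ϑ g φ = ((∫ W : c.Yz π z, s W ^ 2 : ℝ) : ℂ) := by
      rw [Lz, ← integral_complex_ofReal]
      refine integral_congr_ae (Eventually.of_forall fun W => ?_)
      have e1 : ϑ W * gauss (c.Yz π z) (g • A) W = s W := by rw [hs]
      simp only [e1]
      by_cases h : ‖(W : Tn 9 d)‖ < 2 * r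
      · rw [k2 _ (add_mem hzY W.2) (by rwa [add_sub_cancel_left]), add_sub_cancel_left,
          inner_smul_right, inner_self_eq_norm_sq_to_K, hV.unit]
        simp [sq]
      · simp [hs0 W (by linarith [not_lt.1 h])]
    rw [e, norm_real, hs]
    exact hg.1.trans (le_abs_self _)
  · obtain ⟨u, hu, y, -, hy, rfl, -⟩ := k3 x hx h
    refine ⟨u, hu, ?_⟩
    rw [← map_sub, c.norm_Ad9]
    by_contra k
    exact hy (by rw [hs0 _ (not_le.1 k).le, ofReal_zero, zero_smul])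

end Ctx

end Vale.Agent.P353
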