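import Vale.Agent.P353.So

/-! The fast oscillator estimate on a slice. -/

noncomputable section

open MeasureTheory Filter Topology Complex Matrix
open scoped ContDiff RealInnerProductSpace

namespace Vale.Agent.P353

variable {E : Type} [NormedAddCommGroup E] [InnerProductSpace ℝ E] [FiniteDimensional ℝ E]
  [MeasurableSpace E] [BorelSpace E]

variable {F : Type} [NormedAddCommGroup F] [InnerProductSpace ℂ F] [FiniteDimensional ℂ F]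

namespace FoAux

omit [FiniteDimensional ℂ F] in
theorem re_clm (x : F) : ∃ ρ : F →L[ℝ] ℝ, ∀ y, ρ y = (inner ℂ x y).re :=
  ⟨Complex.reCLM.comp ((innerSL ℂ x).restrictScalars ℝ), fun _ => rfl⟩

omit [FiniteDimensional ℂ F] in
theorem sq_exp (x y : F) (r : ℝ) :
    ‖y + r • x‖ ^ 2 = ‖y‖ ^ 2 + 2 * (r * (inner ℂ x y).re) + r * r * ‖x‖ ^ 2 := by
  obtain ⟨ρ, hρ⟩ := re_clm y
  have h1 : (inner ℂ y (r • x)).re = r * (inner ℂ x y).re := by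
    rw [← hρ, map_smul, hρ, smul_eq_mul]
    exact congrArg (r * ·) (inner_re_symm (𝕜 := ℂ) y x)
  rw [norm_add_sq (𝕜 := ℂ), norm_smul, mul_pow, Real.norm_eq_abs, sq_abs, ← h1, sq r]
  rfl

omit [FiniteDimensional ℂ F] in
theorem sum_sq (U : Submodule ℝ E) (D : E →L[ℝ] F) (x : F) {z : E} (hz : z ∈ U) :
    ∑ k, ‖D (onb U k) + ⟪onb U k, z⟫ • x‖ ^ 2 =
      ∑ k, ‖D (onb U k)‖ ^ 2 + 2 * (inner ℂ x (D z)).re + ‖z‖ ^ 2 * ‖x‖ ^ 2 := by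
  obtain ⟨ρ, hρ⟩ := re_clm x
  have h1 := sum_inner_onb_smul U z
  have h2 := sum_inner_onb_mul U z z
  rw [Submodule.starProjection_eq_self_iff.2 hz] at h1 h2
  have h3 : (inner ℂ x (D z)).re = ∑ k, ⟪onb U k, z⟫ * (inner ℂ x (D (onb U k))).re := by
    conv_lhs => rw [← hρ, ← h1]
    simp only [map_sum, map_smul, smul_eq_mul]
    simp only [hρ]
  simp only [sq_exp, Finset.sum_add_distrib, ← Finset.mul_sum, ← Finset.sum_mul]
  rw [h2, h3, real_inner_self_eq_norm_sq]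

theorem clm_sq_le {U : Submodule ℝ E} (T : E →L[ℝ] F) {y : E} (hy : y ∈ U) :
    ‖T y‖ ^ 2 ≤ ‖y‖ ^ 2 * ∑ k, ‖T (onb U k)‖ ^ 2 := by
  have h := norm_fderiv_sq_le (U := U) T 0 hy
  rwa [gsq, T.fderiv] at h

omit [MeasurableSpace E] [BorelSpace E] in
theorem norm_le_proj {𝒲 𝒬 : Submodule ℝ E} {A : E →L[ℝ] E} {a M : ℝ} (ha : 0 < a)
    (hQ : ∀ w, A w ∈ 𝒬) (hM : ‖A‖ ≤ M) (hA : ∀ w ∈ 𝒲, a * ‖w‖ ^ 2 ≤ ⟪w, A w⟫) {w : E}
    (hw : w ∈ 𝒲) : ‖w‖ ≤ M / a * ‖𝒬.starProjection w‖ := by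
  have hM0 : 0 ≤ M := (norm_nonneg _).trans hM
  have h1 := hA w hw
  rw [← Submodule.starProjection_eq_self_iff.2 (hQ w),
    ← Submodule.inner_starProjection_left_eq_right] at h1
  have h2 := real_inner_le_norm (𝒬.starProjection w) (A w)
  have h3 : ‖A w‖ ≤ M * ‖w‖ := A.le_of_opNorm_le hM w
  have h4 := mul_le_mul_of_nonneg_left h3 (norm_nonneg (𝒬.starProjection w))
  rcases (norm_nonneg w).eq_or_lt with h0 | h0
  · rw [← h0]
    positivity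
  · rw [div_mul_eq_mul_div, le_div_iff₀ ha]
    refine le_of_mul_le_mul_right ?_ h0
    nlinarith

omit [MeasurableSpace E] [BorelSpace E] in
theorem lift {𝒲 𝒬 : Submodule ℝ E} (hr : Module.finrank ℝ 𝒲 = Module.finrank ℝ 𝒬) {c : ℝ}
    (h : ∀ w ∈ 𝒲, ‖w‖ ≤ c * ‖𝒬.starProjection w‖) {n : E} (hn : n ∈ 𝒬) :
    ∃ w ∈ 𝒲, 𝒬.starProjection w = n := by
  let L : 𝒲 →ₗ[ℝ] 𝒬 := ((𝒬.starProjection : E →ₗ[ℝ] E) ∘ₗ 𝒲.subtype).codRestrict 𝒬
    fun w => 𝒬.starProjection_apply_mem w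
  have hi : Function.Injective L := by
    rw [injective_iff_map_eq_zero]
    intro w hw
    have h1 : 𝒬.starProjection w = 0 := congrArg Subtype.val hw
    have h2 := h w w.2
    rw [h1, norm_zero, mul_zero] at h2
    exact Subtype.ext (norm_le_zero_iff.1 h2)
  obtain ⟨w, hw⟩ := (LinearMap.injective_iff_surjective_of_finrank_eq_finrank hr).1 hi ⟨n, hn⟩
  exact ⟨w, w.2, congrArg Subtype.val hw⟩

theorem integ {V : Type} [NormedAddCommGroup V] {U : Submodule ℝ E} (δ : ℝ) {u : E → V}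
    (hu : Continuous u) (h0 : ∀ W ∈ U, δ < ‖W‖ → u W = 0) : Integrable fun W : U => u W :=
  (hu.comp continuous_subtype_val).integrable_of_hasCompactSupport
    (HasCompactSupport.intro (isCompact_closedBall (0 : U) δ) fun W hW =>
      h0 W W.2 (by simpa using hW))

omit [FiniteDimensional ℂ F] in
theorem ibp {U : Submodule ℝ E} {δ : ℝ} {f : E → F} (hf : ContDiff ℝ ∞ f)
    (h0 : ∀ W ∈ U, δ < ‖W‖ → f W = 0) (l : E →L[ℝ] ℝ) {w : E} (hw : w ∈ U) :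
    ∫ W : U, (l w * ‖f W‖ ^ 2 + l W * (2 * (inner ℂ (f W) (fderiv ℝ f W w)).re)) = 0 := by
  have h1 : ContDiff ℝ 1 f := hf.of_le (by simp)
  have h2 := integral_fderiv_eq_zero (U := U) (f := fun W => l W * ‖f W‖ ^ 2)
    (l.contDiff.mul (h1.norm_sq ℂ)) (HasCompactSupport.intro (isCompact_closedBall (0 : U) δ)
      fun W hW => by rw [h0 W W.2 (by simpa using hW), norm_zero, sq, mul_zero, mul_zero]) hw
  rw [← h2]
  refine integral_congr_ae (Eventually.of_forall fun W => ?_)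
  have hd := (h1.differentiable (by simp) W).hasFDerivAt
  have h3 := Complex.reCLM.hasFDerivAt.comp (W : E) (hd.inner ℂ hd)
  have h4 : (Complex.reCLM ∘ fun t => inner ℂ (f t) (f t)) = fun t => ‖f t‖ ^ 2 :=
    funext fun t => inner_self_eq_norm_sq (𝕜 := ℂ) (f t)
  rw [h4] at h3
  beta_reduce
  rw [(l.hasFDerivAt.fun_mul h3).fderiv]
  have h5 : (inner ℂ (fderiv ℝ f W w) (f W)).re = (inner ℂ (f W) (fderiv ℝ f W w)).re :=
    inner_re_symm (𝕜 := ℂ) _ _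
  simp only [_root_.add_apply, _root_.smul_apply, ContinuousLinearMap.comp_apply, smul_eq_mul,
    ContinuousLinearMap.prod_apply, fderivInnerCLM_apply, Complex.reCLM_apply, Complex.add_re, h5]
  ring

omit [FiniteDimensional ℂ F] in
theorem proj_le {P : F →L[ℂ] F} (hP : P * P = P) (hs : ∀ x y, inner ℂ (P x) y = inner ℂ x (P y))
    (x : F) : ‖P x‖ ≤ ‖x‖ := by
  have h1 : inner ℂ (P x) (P x) = inner ℂ x (P x) := by
    rw [hs, ← mul_apply_eq_comp, hP]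
  have h2 := re_inner_le_norm (𝕜 := ℂ) x (P x)
  rw [← h1, inner_self_eq_norm_mul_norm] at h2
  rcases (norm_nonneg (P x)).eq_or_lt with h0 | h0
  · rw [← h0]
    exact norm_nonneg _
  · exact le_of_mul_le_mul_right h2 h0

omit [FiniteDimensional ℂ F] [InnerProductSpace ℂ F] in
theorem add_sq (x y : F) : ‖x + y‖ ^ 2 ≤ 2 * ‖x‖ ^ 2 + 2 * ‖y‖ ^ 2 := by
  nlinarith [pow_le_pow_left₀ (norm_nonneg _) (norm_add_le x y) 2, sq_nonneg (‖x‖ - ‖y‖)]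

/-- the distance to the projected Gaussian -/
theorem split {U : Submodule ℝ E} {δ : ℝ} {f : E → F} (hf : Continuous f)
    (h0 : ∀ W ∈ U, δ < ‖W‖ → f W = 0) {G : E → ℝ} (hG : Continuous G)
    (hG2 : Integrable fun W : U => G W ^ 2) {P : F →L[ℂ] F} (hP : ∀ x, ‖P x‖ ≤ ‖x‖) :
    nrm U (fun W => f W - (G W : ℂ) • ∫ W' : U, (G W' : ℂ) • P (f W')) ≤
      2 * (∫ W : U, ‖f W - P (f W)‖ ^ 2) +
        2 * nrm U (fun W => f W - (G W : ℂ) • ∫ W' : U, (G W' : ℂ) • f W') := by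
  have := FiniteDimensional.complete ℂ F
  have hGc : Continuous fun W => (G W : ℂ) := Complex.continuous_ofReal.comp hG
  have h1 : ∫ W' : U, (G W' : ℂ) • P (f W') = P (∫ W' : U, (G W' : ℂ) • f W') := by
    rw [← P.integral_comp_comm (integ δ (u := fun W => (G W : ℂ) • f W) (hGc.smul hf)
      fun W hW h => by simp [h0 W hW h])]
    simp only [map_smul]
  rw [h1]
  generalize (∫ W' : U, (G W' : ℂ) • f W') = c
  have i0 : Integrable fun W : U => ‖f W‖ ^ 2 :=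
    integ δ (u := fun W => ‖f W‖ ^ 2) (by fun_prop) fun W hW h => by simp [h0 W hW h]
  have i1 : Integrable fun W : U => ‖f W - P (f W)‖ ^ 2 :=
    integ δ (u := fun W => ‖f W - P (f W)‖ ^ 2) (by fun_prop) fun W hW h => by simp [h0 W hW h]
  have i2 : Integrable fun W : U => ‖f W - (G W : ℂ) • c‖ ^ 2 := by
    refine ((i0.const_mul 2).add ((hG2.mul_const (‖c‖ ^ 2)).const_mul 2)).mono'
      (Continuous.aestronglyMeasurable (by fun_prop)) (Eventually.of_forall fun W => ?_)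
    have h2 := add_sq (f W) (-((G W : ℂ) • c))
    rw [norm_neg, norm_smul, mul_pow, Complex.norm_real, Real.norm_eq_abs, sq_abs,
      ← sub_eq_add_neg] at h2
    rw [Real.norm_of_nonneg (sq_nonneg _)]
    exact h2
  rw [nrm, nrm, ← integral_const_mul, ← integral_const_mul,
    ← integral_add (i1.const_mul 2) (i2.const_mul 2)]
  refine integral_mono_of_nonneg (Eventually.of_forall fun W => sq_nonneg _)
    ((i1.const_mul 2).add (i2.const_mul 2)) (Eventually.of_forall fun W => ?_)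
  have h2 := add_sq (f W - P (f W)) (P (f W - (G W : ℂ) • c))
  have h3 := pow_le_pow_left₀ (norm_nonneg _) (hP (f W - (G W : ℂ) • c)) 2
  rw [map_sub, map_smul, sub_add_sub_cancel] at h2
  rw [map_sub, map_smul] at h3
  beta_reduce
  linarith

/-- the Poincare integrand is controlled by the derivatives along the second subspace -/
theorem claim2 (𝒲 𝒬 : Submodule ℝ E) (D : E →L[ℝ] F) (x : F) {z : E} (hz : z ∈ 𝒬) {C : ℝ}
    (hC : ∀ w ∈ 𝒲, ‖w‖ = 1 → ‖D (w - 𝒬.starProjection w)‖ ^ 2 ≤ C) (hC0 : 0 ≤ C) :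
    ∑ j, ‖D (onb 𝒲 j) + ((⟪onb 𝒲 j, z⟫ : ℝ) : ℂ) • x‖ ^ 2 ≤ (Module.finrank ℝ E + 1) *
      (2 * ∑ k, ‖D (onb 𝒬 k) + ⟪onb 𝒬 k, z⟫ • x‖ ^ 2 + 2 * C) := by
  set T : E →L[ℝ] F := D + (innerSL ℝ z).smulRight x with hT
  have hT' : ∀ v, T v = D v + ⟪v, z⟫ • x := fun v => by
    rw [real_inner_comm]
    rfl
  simp only [← hT', Complex.coe_smul]
  have hS : 0 ≤ ∑ k, ‖T (onb 𝒬 k)‖ ^ 2 := Finset.sum_nonneg fun k _ => sq_nonneg _
  have h1 : ∀ j, ‖T (onb 𝒲 j)‖ ^ 2 ≤ 2 * ∑ k, ‖T (onb 𝒬 k)‖ ^ 2 + 2 * C := fun j => by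
    have hn : ‖onb 𝒲 j‖ = 1 := by
      have := inner_onb 𝒲 j j
      rw [if_pos rfl, real_inner_self_eq_norm_sq] at this
      exact (pow_eq_one_iff_of_nonneg (norm_nonneg _) two_ne_zero).1 this
    have e1 : T (onb 𝒲 j) = T (𝒬.starProjection (onb 𝒲 j)) +
        D (onb 𝒲 j - 𝒬.starProjection (onb 𝒲 j)) := by
      rw [hT', hT', Submodule.inner_starProjection_left_eq_right,
        Submodule.starProjection_eq_self_iff.2 hz, map_sub]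
      abel
    have h2 := clm_sq_le T (𝒬.starProjection_apply_mem (onb 𝒲 j))
    have h3 : ‖𝒬.starProjection (onb 𝒲 j)‖ ^ 2 ≤ 1 :=
      pow_le_one₀ (norm_nonneg _) ((𝒬.norm_starProjection_apply_le _).trans hn.le)
    have h4 := mul_le_mul_of_nonneg_right h3 hS
    rw [e1]
    linarith [add_sq (T (𝒬.starProjection (onb 𝒲 j)))
      (D (onb 𝒲 j - 𝒬.starProjection (onb 𝒲 j))), hC _ (onb_mem 𝒲 j) hn]
  refine (Finset.sum_le_card_nsmul _ _ _ fun j _ => h1 j).trans ?_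
  rw [nsmul_eq_mul, Finset.card_univ, Fintype.card_fin]
  refine mul_le_mul_of_nonneg_right ?_ (by positivity)
  have : (Module.finrank ℝ 𝒲 : ℝ) ≤ Module.finrank ℝ E := by exact_mod_cast 𝒲.finrank_le
  linarith

theorem fin_le {M a g δ G nA nf nW nP hh t y r1 r2 nτ : ℝ} (ha : 0 < a) (hM0 : 0 ≤ M)
    (hg0 : 0 < g) (hδ0 : 0 ≤ δ) (hf : 0 ≤ nf) (hW : 0 ≤ nW) (hWh : nW * |hh| ≤ δ * |hh|)
    (m1 : |r2 - r1| ≤ M * nτ * nW * |hh| * nf) (m2 : nτ ≤ M / a * M * nW)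
    (hY : -(t / 2 + δ) * nf ^ 2 + a * nP ^ 2 ≤ y) :
    2 * (G + 2 * (g * r1) + g ^ 2 * nA ^ 2 * nf ^ 2) + 2 * (2 * M ^ 2 * (nf ^ 2 + δ * hh ^ 2)) ≤
      4 * (G / 2 + g ^ 2 * nA ^ 2 / 2 * nf ^ 2 + g * y) + 4 * ((1 + M * (M / a * M) + M ^ 2) * δ) *
        (hh ^ 2 + (g ^ 2 * nW ^ 2 + g) * nf ^ 2) + 4 * M ^ 2 * nf ^ 2 +
        2 * g * (t * nf ^ 2 + 2 * r2) - 4 * (g * a) * nP ^ 2 := by
  have hc : 0 ≤ M / a * M := by positivity
  generalize M / a * M = c at m2 hc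
  have m3 : g * (M * nτ * nW * |hh| * nf) ≤ M * c * δ * (|hh| * (g * nW * nf)) := by
    calc g * (M * nτ * nW * |hh| * nf) = g * (M * nτ * (nW * |hh|) * nf) := by ring
      _ ≤ g * (M * (c * nW) * (δ * |hh|) * nf) := by gcongr
      _ = _ := by ring
  have m4 : |hh| * (g * nW * nf) ≤ hh ^ 2 + (g ^ 2 * nW ^ 2 + g) * nf ^ 2 := by
    have : 0 ≤ g * nf ^ 2 := by positivity
    nlinarith [sq_nonneg (|hh| - g * nW * nf), sq_abs hh, sq_nonneg hh, sq_nonneg (g * nW * nf)]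
  have m5 := mul_le_mul_of_nonneg_left m4 (show 0 ≤ M * c * δ by positivity)
  have m6 := mul_le_mul_of_nonneg_left (abs_le.1 m1).1 hg0.le
  have m7 := mul_le_mul_of_nonneg_left hY hg0.le
  have m8 : 0 ≤ δ * (hh ^ 2 + g ^ 2 * nW ^ 2 * nf ^ 2) := by positivity
  have m9 : 0 ≤ M ^ 2 * δ * ((g ^ 2 * nW ^ 2 + g) * nf ^ 2) := by positivity
  linarith

/-- the pointwise estimate -/
theorem pt {𝒲 𝒬 : Submodule ℝ E} {A : E →L[ℝ] E} {P Y : F →L[ℂ] F} {f : E → F} {h : E → ℝ}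
    {a M g δ t : ℝ} (ha : 0 < a) (hg0 : 0 < g) (hδ0 : 0 ≤ δ) (hδ1 : δ ≤ 1) (hQ : ∀ w, A w ∈ 𝒬)
    (hM : ‖A‖ ≤ M) (hA : ∀ w ∈ 𝒲, a * ‖w‖ ^ 2 ≤ ⟪w, A w⟫)
    {w : Fin (Module.finrank ℝ 𝒬) → E} (hw : ∀ k, w k ∈ 𝒲)
    (hPw : ∀ k, 𝒬.starProjection (w k) = onb 𝒬 k) (ht : ∑ k, ⟪onb 𝒬 k, A (w k)⟫ = t) {W : E}
    (h0 : δ < ‖W‖ → f W = 0 ∧ h W = 0 ∧ gsq 𝒬 f W = 0)
    (hY : -(t / 2 + δ) * ‖f W‖ ^ 2 + a * ‖f W - P (f W)‖ ^ 2 ≤ (inner ℂ (f W) (Y (f W))).re)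
    (hD : ∀ w ∈ 𝒲,
      ‖fderiv ℝ f W (w - 𝒬.starProjection w)‖ ≤ M * ‖w‖ * (‖f W‖ + ‖W‖ * |h W|) ∧
      |(inner ℂ (f W) (fderiv ℝ f W (w - 𝒬.starProjection w))).re| ≤
        M * ‖w‖ * ‖W‖ * |h W| * ‖f W‖) {d : ℝ} (hd : d = Module.finrank ℝ E + 1) :
    ∑ k, ‖fderiv ℝ f W (onb 𝒲 k) + ((⟪onb 𝒲 k, (g • A) W⟫ : ℝ) : ℂ) • f W‖ ^ 2 ≤
      4 * d * (gsq 𝒬 f W / 2 + g ^ 2 * ‖A W‖ ^ 2 / 2 * ‖f W‖ ^ 2 +
        g * (inner ℂ (f W) (Y (f W))).re) +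
      4 * d * ((1 + M * (M / a * M) + M ^ 2) * δ) *
        (h W ^ 2 + (g ^ 2 * ‖W‖ ^ 2 + g) * ‖f W‖ ^ 2) +
      4 * d * M ^ 2 * ‖f W‖ ^ 2 + 2 * d * g * ∑ k, (⟪onb 𝒬 k, A (w k)⟫ * ‖f W‖ ^ 2 +
        ⟪onb 𝒬 k, A W⟫ * (2 * (inner ℂ (f W) (fderiv ℝ f W (w k))).re)) -
      4 * d * (g * a) * ‖f W - P (f W)‖ ^ 2 := by
  have hM0 : 0 ≤ M := (norm_nonneg _).trans hM
  have hd0 : 0 ≤ d := by
    rw [hd]
    positivity
  have hWh : ‖W‖ * |h W| ≤ δ * |h W| := by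
    rcases le_or_gt ‖W‖ δ with h1 | h1
    · exact mul_le_mul_of_nonneg_right h1 (abs_nonneg _)
    · rw [(h0 h1).2.1, abs_zero, mul_zero, mul_zero]
  have hz : (g • A) W ∈ 𝒬 := 𝒬.smul_mem g (hQ W)
  have c2 := claim2 𝒲 𝒬 (fderiv ℝ f W) (f W) hz
    (C := 2 * M ^ 2 * (‖f W‖ ^ 2 + δ * h W ^ 2)) (fun v hv hv1 => by
      have m1 := (hD v hv).1
      rw [hv1, mul_one] at m1
      have m2 : ‖f W‖ + ‖W‖ * |h W| ≤ ‖f W‖ + δ * |h W| := by linarith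
      have m3 := pow_le_pow_left₀ (norm_nonneg _)
        (m1.trans (mul_le_mul_of_nonneg_left m2 hM0)) 2
      have m4 : (δ * |h W|) ^ 2 ≤ δ * h W ^ 2 := by
        rw [mul_pow, sq_abs]
        exact mul_le_mul_of_nonneg_right (by nlinarith) (sq_nonneg _)
      have m5 : (‖f W‖ + δ * |h W|) ^ 2 ≤ 2 * (‖f W‖ ^ 2 + δ * h W ^ 2) := by
        nlinarith [sq_nonneg (‖f W‖ - δ * |h W|)]
      rw [mul_pow] at m3
      linarith [mul_le_mul_of_nonneg_left m5 (sq_nonneg M)]) (by positivity)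
  rw [sum_sq 𝒬 _ _ hz, ← hd] at c2
  refine c2.trans ?_
  obtain ⟨ρ, hρ⟩ := re_clm (f W)
  set τ : E := ∑ k, ⟪onb 𝒬 k, A W⟫ • w k with hτ
  have hτW : τ ∈ 𝒲 := 𝒲.sum_mem fun k _ => 𝒲.smul_mem _ (hw k)
  have hPτ : 𝒬.starProjection τ = A W := by
    rw [hτ, map_sum]
    simp only [map_smul, hPw]
    rw [sum_inner_onb_smul, Submodule.starProjection_eq_self_iff.2 (hQ W)]
  have e1 : ∑ k, (⟪onb 𝒬 k, A (w k)⟫ * ‖f W‖ ^ 2 +
      ⟪onb 𝒬 k, A W⟫ * (2 * (inner ℂ (f W) (fderiv ℝ f W (w k))).re)) =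
      t * ‖f W‖ ^ 2 + 2 * ρ (fderiv ℝ f W τ) := by
    rw [← ht, hτ]
    simp only [Finset.sum_add_distrib, Finset.sum_mul, map_sum, map_smul, smul_eq_mul,
      Finset.mul_sum, mul_left_comm (2 : ℝ)]
    simp only [hρ]
  have m1 := (hD τ hτW).2
  rw [hPτ, ← hρ, map_sub, map_sub] at m1
  have m2 : ‖τ‖ ≤ M / a * M * ‖W‖ := by
    refine (norm_le_proj ha hQ hM hA hτW).trans ?_
    rw [hPτ, mul_assoc]
    exact mul_le_mul_of_nonneg_left (A.le_of_opNorm_le hM W) (by positivity)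
  rw [e1, ← hρ (fderiv ℝ f W ((g • A) W)), _root_.smul_apply, map_smul, map_smul, smul_eq_mul,
    norm_smul, mul_pow, Real.norm_eq_abs, sq_abs, ← gsq]
  refine (mul_le_mul_of_nonneg_left
    (fin_le ha hM0 hg0 hδ0 (norm_nonneg _) (norm_nonneg _) hWh m1 m2 hY) hd0).trans_eq ?_
  ring

end FoAux

open FoAux in
theorem fast_osc (E F : Type) [NormedAddCommGroup E] [InnerProductSpace ℝ E] [FiniteDimensional ℝ E]
    [MeasurableSpace E] [BorelSpace E] [NormedAddCommGroup F] [InnerProductSpace ℂ F]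
    [FiniteDimensional ℂ F] {a : ℝ} (ha : 0 < a) (M : ℝ) : ∃ k > 0, ∃ K : ℝ,
    ∀ (𝒲 𝒬 : Submodule ℝ E) (A : E →L[ℝ] E) (P Y : F →L[ℂ] F) (f : E → F) (h : E → ℝ) (g δ : ℝ),
      1 ≤ g → 0 ≤ δ → δ ≤ 1 → Module.finrank ℝ 𝒲 = Module.finrank ℝ 𝒬 →
      IsSym A → (∀ w, A w ∈ 𝒬) → ‖A‖ ≤ M → (∀ w ∈ 𝒲, a * ‖w‖ ^ 2 ≤ ⟪w, A w⟫) →
      P * P = P → (∀ x y, inner ℂ (P x) y = inner ℂ x (P y)) →
      ContDiff ℝ ∞ f → (∀ W ∈ 𝒲, δ < ‖W‖ → f W = 0 ∧ h W = 0 ∧ gsq 𝒬 f W = 0) → Continuous h →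
      (∀ W ∈ 𝒲, -(trR A / 2 + δ) * ‖f W‖ ^ 2 + a * ‖f W - P (f W)‖ ^ 2 ≤
        (inner ℂ (f W) (Y (f W))).re) →
      (∀ W ∈ 𝒲, ∀ w ∈ 𝒲,
        ‖fderiv ℝ f W (w - 𝒬.starProjection w)‖ ≤ M * ‖w‖ * (‖f W‖ + ‖W‖ * |h W|) ∧
        |(inner ℂ (f W) (fderiv ℝ f W (w - 𝒬.starProjection w))).re| ≤
          M * ‖w‖ * ‖W‖ * |h W| * ‖f W‖) →
      k * g * nrm 𝒲 (fun W => f W - (gauss 𝒲 (g • A) W : ℂ) •
          ∫ W' : 𝒲, (gauss 𝒲 (g • A) W' : ℂ) • P (f W')) ≤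
        (∫ W : 𝒲, (gsq 𝒬 f W / 2 + g ^ 2 * ‖A W‖ ^ 2 / 2 * ‖f W‖ ^ 2 +
          g * (inner ℂ (f W) (Y (f W))).re)) +
        K * δ * (∫ W : 𝒲, (h W ^ 2 + (g ^ 2 * ‖(W : E)‖ ^ 2 + g) * ‖f W‖ ^ 2)) + K * nrm 𝒲 f := by
  obtain ⟨κ, hκ, hpo⟩ := poincare (E := E) (F := F)
  set d : ℝ := Module.finrank ℝ E + 1 with hd
  have hd0 : 0 < d := by positivity
  refine ⟨min (a / 2) (κ * a / (8 * d)), by positivity, 1 + M * (M / a * M) + M ^ 2, ?_⟩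
  intro 𝒲 𝒬 A P Y f h g δ hg hδ0 hδ1 hr hs hQ hM hA hP hPs hf h0 hh hY hD
  have hM0 : 0 ≤ M := (norm_nonneg _).trans hM
  have hg0 : 0 < g := by linarith
  have hle := fun w (hw : w ∈ 𝒲) => norm_le_proj ha hQ hM hA hw
  choose w hw hPw using fun k => lift hr hle (onb_mem 𝒬 k)
  have hfc := hf.continuous
  have hDc : Continuous (fderiv ℝ f) := hf.continuous_fderiv (by simp)
  have hA' : ∀ v ∈ 𝒲, g * a * ‖v‖ ^ 2 ≤ ⟪v, (g • A) v⟫ := fun v hv => by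
    rw [_root_.smul_apply, real_inner_smul_right, mul_assoc]
    exact mul_le_mul_of_nonneg_left (hA v hv) hg0.le
  have hs' : IsSym (g • A) := fun u v => by
    rw [_root_.smul_apply, _root_.smul_apply, real_inner_smul_left, real_inner_smul_right, hs]
  have hf0 : ∀ W ∈ 𝒲, δ < ‖W‖ → f W = 0 := fun W hW h => (h0 W hW h).1
  have k1 := hpo 𝒲 (g • A) (g * a) (by positivity) hs' hA' f (sm_of_bound hf hf0)
  have k2 := split hfc hf0 (contDiff_gauss 𝒲 (g • A)).continuous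
    (by simpa using integrable_gauss_sq (by positivity) hA' 0) (proj_le hP hPs)
  -- the divergence term
  have iV : ∀ k, Integrable fun W : 𝒲 => ⟪onb 𝒬 k, A (w k)⟫ * ‖f W‖ ^ 2 +
      ⟪onb 𝒬 k, A W⟫ * (2 * (inner ℂ (f W) (fderiv ℝ f W (w k))).re) := fun k =>
    integ δ (u := fun W => ⟪onb 𝒬 k, A (w k)⟫ * ‖f W‖ ^ 2 +
      ⟪onb 𝒬 k, A W⟫ * (2 * (inner ℂ (f W) (fderiv ℝ f W (w k))).re)) (by fun_prop)
      fun W hW h => by simp [hf0 W hW h]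
  have iV' := integrable_finsetSum Finset.univ fun k _ => iV k
  have eV : ∫ W : 𝒲, ∑ k, (⟪onb 𝒬 k, A (w k)⟫ * ‖f W‖ ^ 2 +
      ⟪onb 𝒬 k, A W⟫ * (2 * (inner ℂ (f W) (fderiv ℝ f W (w k))).re)) = 0 := by
    rw [integral_finsetSum _ fun k _ => iV k]
    exact Finset.sum_eq_zero fun k _ => ibp hf hf0 ((innerSL ℝ (onb 𝒬 k)).comp A) (hw k)
  have htr : ∑ k, ⟪onb 𝒬 k, A (w k)⟫ = trR A := by
    have e1 : 𝒬.starProjection * A = A :=
      ContinuousLinearMap.ext fun v => Submodule.starProjection_eq_self_iff.2 (hQ v)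
    have e2 := sum_onb_trR 𝒬 A
    rw [e1] at e2
    rw [← e2]
    refine Finset.sum_congr rfl fun k _ => ?_
    rw [← hs, ← Submodule.starProjection_eq_self_iff.2 (hQ (onb 𝒬 k)),
      Submodule.inner_starProjection_left_eq_right, hPw, hs,
      Submodule.starProjection_eq_self_iff.2 (hQ (onb 𝒬 k))]
  have hgc : Continuous (gsq 𝒬 f) := by
    unfold gsq
    fun_prop
  have iE : Integrable fun W : 𝒲 => gsq 𝒬 f W / 2 + g ^ 2 * ‖A W‖ ^ 2 / 2 * ‖f W‖ ^ 2 +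
      g * (inner ℂ (f W) (Y (f W))).re :=
    integ δ (u := fun W => gsq 𝒬 f W / 2 + g ^ 2 * ‖A W‖ ^ 2 / 2 * ‖f W‖ ^ 2 +
      g * (inner ℂ (f W) (Y (f W))).re) (by fun_prop)
      fun W hW h => by simp [hf0 W hW h, (h0 W hW h).2.2]
  have iB : Integrable fun W : 𝒲 => h W ^ 2 + (g ^ 2 * ‖(W : E)‖ ^ 2 + g) * ‖f W‖ ^ 2 :=
    integ δ (u := fun W => h W ^ 2 + (g ^ 2 * ‖W‖ ^ 2 + g) * ‖f W‖ ^ 2) (by fun_prop)
      fun W hW h => by simp [hf0 W hW h, (h0 W hW h).2.1]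
  have i0 : Integrable fun W : 𝒲 => ‖f W‖ ^ 2 :=
    integ δ (u := fun W => ‖f W‖ ^ 2) (by fun_prop) fun W hW h => by simp [hf0 W hW h]
  have i1 : Integrable fun W : 𝒲 => ‖f W - P (f W)‖ ^ 2 :=
    integ δ (u := fun W => ‖f W - P (f W)‖ ^ 2) (by fun_prop) fun W hW h => by simp [hf0 W hW h]
  have hpt := fun W : 𝒲 => pt ha hg0 hδ0 hδ1 hQ hM hA hw hPw htr (h0 W W.2)
    (hY W W.2) (hD W W.2) hd
  have j1 := (iE.const_mul (4 * d)).add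
    (iB.const_mul (4 * d * ((1 + M * (M / a * M) + M ^ 2) * δ)))
  have j2 := j1.add (i0.const_mul (4 * d * M ^ 2))
  have j3 := j2.add (iV'.const_mul (2 * d * g))
  have k3 := integral_mono_of_nonneg
    (Eventually.of_forall fun W => Finset.sum_nonneg fun k _ => sq_nonneg _)
    (j3.sub (i1.const_mul (4 * d * (g * a)))) (Eventually.of_forall hpt)
  rw [integral_sub' j3 (i1.const_mul _), integral_add' j2 (iV'.const_mul _),
    integral_add' j1 (i0.const_mul _), integral_add' (iE.const_mul _) (iB.const_mul _)] at k3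
  simp only [integral_const_mul, eV] at k3
  have n0 : 0 ≤ ∫ W : 𝒲, ‖f W‖ ^ 2 := integral_nonneg fun W => sq_nonneg _
  have n1 : 0 ≤ ∫ W : 𝒲, ‖f W - P (f W)‖ ^ 2 := integral_nonneg fun W => sq_nonneg _
  have k4 := k1.trans k3
  rw [nrm.eq_1 𝒲 f]
  have n2 : 0 ≤ nrm 𝒲 (fun W => f W - (gauss 𝒲 (g • A) W : ℂ) •
    ∫ W' : 𝒲, (gauss 𝒲 (g • A) W' : ℂ) • f W') := integral_nonneg fun W => sq_nonneg _
  generalize nrm 𝒲 (fun W => f W - (gauss 𝒲 (g • A) W : ℂ) •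
    ∫ W' : 𝒲, (gauss 𝒲 (g • A) W' : ℂ) • f W') = N1 at k2 k4 n2
  have hk0 : 0 ≤ min (a / 2) (κ * a / (8 * d)) * g := by positivity
  refine (mul_le_mul_of_nonneg_left k2 hk0).trans ?_
  have q1 := mul_le_mul_of_nonneg_right (min_le_left (a / 2) (κ * a / (8 * d)))
    (mul_nonneg hg0.le n1)
  have q2 := mul_le_mul_of_nonneg_right (min_le_right (a / 2) (κ * a / (8 * d)))
    (mul_nonneg hg0.le n2)
  rw [div_mul_eq_mul_div (κ * a), le_div_iff₀ (by positivity)] at q2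
  have q3 := mul_nonneg (show 0 ≤ 1 + M * (M / a * M) by positivity) n0
  refine le_of_mul_le_mul_left ?_ (show 0 < 4 * d by positivity)
  linarith [mul_le_mul_of_nonneg_left q1 (show 0 ≤ 8 * d by positivity),
    mul_nonneg hd0.le q3]

end Vale.Agent.P353
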