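import Vale.Agent.P353.Cov
import Vale.Agent.P353.Fo

/-! Abstract estimates for the local upper bound at a vacuum. -/

noncomputable section

open MeasureTheory Filter Topology Complex
open scoped ContDiff RealInnerProductSpace

namespace Vale.Agent.P353.Du1Aux

theorem hil {H : Type} [NormedAddCommGroup H] [InnerProductSpace ℂ H] {u : H} (hu : ‖u‖ = 1)
    (v w : H) :
    ‖v‖ ^ 2 ≤ 3 * ‖w - inner ℂ u w • u‖ ^ 2 + 3 * ‖inner ℂ u v‖ ^ 2 + 12 * ‖v - w‖ ^ 2 := by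
  have h1 : ‖inner ℂ u w‖ ≤ ‖inner ℂ u v‖ + ‖v - w‖ := by
    have e : inner ℂ u w = inner ℂ u v - inner ℂ u (v - w) := by rw [inner_sub_right]; ring
    have h := norm_inner_le_norm (𝕜 := ℂ) u (v - w)
    rw [hu, one_mul] at h
    rw [e]
    exact (norm_sub_le _ _).trans (by linarith)
  have h2 : ‖v‖ ≤ ‖v - w‖ + ‖w - inner ℂ u w • u‖ + ‖inner ℂ u w‖ := by
    have e : v = v - w + (w - inner ℂ u w • u) + inner ℂ u w • u := by abel
    have h := norm_add₃_le (a := v - w) (b := w - inner ℂ u w • u) (c := inner ℂ u w • u)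
    rwa [← e, norm_smul, hu, mul_one] at h
  have h3 := pow_le_pow_left₀ (norm_nonneg v) (h2.trans (add_le_add le_rfl h1)) 2
  nlinarith [sq_nonneg (‖w - inner ℂ u w • u‖ - ‖inner ℂ u v‖),
    sq_nonneg (‖w - inner ℂ u w • u‖ - 2 * ‖v - w‖), sq_nonneg (‖inner ℂ u v‖ - 2 * ‖v - w‖)]

theorem sq_le {V : Type} [NormedAddCommGroup V] (x y : V) {δ : ℝ} (hδ : 0 < δ) :
    ‖x + y‖ ^ 2 ≤ (1 + δ) * ‖x‖ ^ 2 + (1 + δ⁻¹) * ‖y‖ ^ 2 := by
  have h1 := pow_le_pow_left₀ (norm_nonneg _) (norm_add_le x y) 2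
  have h2 : 0 ≤ δ⁻¹ * (δ * ‖x‖ - ‖y‖) ^ 2 := by positivity
  have h3 : δ⁻¹ * (δ * ‖x‖ - ‖y‖) ^ 2 = δ * ‖x‖ ^ 2 - 2 * ‖x‖ * ‖y‖ + δ⁻¹ * ‖y‖ ^ 2 := by
    field_simp
    ring
  nlinarith

theorem pt1 {δ g C Cb b q gs n p e r aw : ℝ} (hδ : 0 < δ) (hg : 1 ≤ g) (hC : 0 ≤ C) (hCb : 0 ≤ Cb)
    (b0 : 0 ≤ b) (b1 : b ≤ 1) (q0 : 0 ≤ q) (n0 : 0 ≤ n) (p0 : 0 ≤ p)
    (h1 : gs ≤ (1 + δ) * b * q + Cb * n) (h2 : 16 * aw ≤ (1 + C * δ) * p)
    (h3 : 16 * r ≤ e + C * δ * n) :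
    gs / 2 + g ^ 2 * aw / 2 * (b * n) + g * (b * r) ≤ 1 / 16 * (b * (8 * q + g ^ 2 * p / 2 * n +
      g * e)) + (δ * (8 + C) + Cb / g) * (q + (g ^ 2 * p + g) * n) := by
  have g0 : 0 < g := by linarith
  have a1 : δ * (b * q) ≤ δ * q := mul_le_mul_of_nonneg_left (mul_le_of_le_one_left q0 b1) hδ.le
  have a2 := mul_le_mul_of_nonneg_left h2 (by positivity : 0 ≤ g ^ 2 * (b * n))
  have a3 := mul_le_mul_of_nonneg_left h3 (by positivity : 0 ≤ g * b)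
  have a4 : C * δ * (g ^ 2 * p * n) * b ≤ C * δ * (g ^ 2 * p * n) :=
    mul_le_of_le_one_right (by positivity) b1
  have a5 : C * δ * (g * n) * b ≤ C * δ * (g * n) := mul_le_of_le_one_right (by positivity) b1
  have a6 : Cb / g * (q + (g ^ 2 * p + g) * n) = Cb * n + Cb / g * (q + g ^ 2 * p * n) := by
    field_simp
    ring
  have a7 : 0 ≤ Cb / g * (q + g ^ 2 * p * n) := by positivity
  have a8 : 0 ≤ δ * (g ^ 2 * p * n) := by positivity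
  have a9 : 0 ≤ δ * (g * n) := by positivity
  have a10 : 0 ≤ C * δ * (g ^ 2 * p * n) := by positivity
  have a11 : 0 ≤ C * δ * (g * n) := by positivity
  have a12 : 0 ≤ C * δ * q := by positivity
  have a13 : 0 ≤ δ * q := by positivity
  have a14 : 0 ≤ Cb * n := by positivity
  rw [add_mul, a6]
  linarith

variable {E : Type} [NormedAddCommGroup E] [InnerProductSpace ℝ E] [FiniteDimensional ℝ E]
  [MeasurableSpace E] [BorelSpace E]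
variable {F : Type} [NormedAddCommGroup F] [InnerProductSpace ℂ F] [FiniteDimensional ℂ F]

theorem geo {Y : Submodule ℝ E} {φ f : E → F} (hφ : Sm Y φ) (hf : Sm Y f) {G : E → ℝ}
    (hG : Continuous G) (hG2 : Integrable fun W : Y => G W ^ 2) (hG1 : ∫ W : Y, G W ^ 2 = 1)
    {Ω : F} (hΩ : ‖Ω‖ = 1) {P : F →L[ℂ] F} (hP : ∀ x, P x = inner ℂ Ω x • Ω) :
    nrm Y φ ≤ 3 * nrm Y (fun W => f W - (G W : ℂ) • ∫ W' : Y, (G W' : ℂ) • P (f W')) +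
      3 * ‖∫ W : Y, (G W : ℂ) * inner ℂ Ω (φ W)‖ ^ 2 + 12 * nrm Y (φ - f) := by
  have e1 : ∀ W : E, ‖(G W : ℂ) • Ω‖ ^ 2 = G W ^ 2 := fun W => by
    rw [norm_smul, hΩ, mul_one, norm_real, Real.norm_eq_abs, sq_abs]
  have hu : MemLp (fun W : Y => (G W : ℂ) • Ω) 2 volume :=
    (memLp_two_iff_integrable_sq_norm (f := fun W : Y => (G W : ℂ) • Ω)
      (Continuous.aestronglyMeasurable (by fun_prop))).2 (by simpa only [e1] using hG2)
  have hu1 : ‖L2 Y fun W => (G W : ℂ) • Ω‖ = 1 := by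
    have := norm_L2_sq (U := Y) (ψ := fun W => (G W : ℂ) • Ω) hu
    simp only [nrm, e1, hG1] at this
    exact (sq_eq_sq₀ (norm_nonneg _) zero_le_one).1 (by rw [this, one_pow])
  have e2 : ∀ χ : E → F, ip Y (fun W => (G W : ℂ) • Ω) χ =
      ∫ W : Y, (G W : ℂ) * inner ℂ Ω (χ W) := fun χ => by
    simp only [ip, inner_smul_left, conj_ofReal]
  have e3 : (fun W => f W - (G W : ℂ) • ∫ W' : Y, (G W' : ℂ) • P (f W')) =
      f - ip Y (fun W => (G W : ℂ) • Ω) f • fun W => (G W : ℂ) • Ω := by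
    funext W
    simp only [hP, smul_smul, integral_smul_const, e2, Pi.sub_apply, Pi.smul_apply, mul_comm]
  have h := hil hu1 (L2 Y φ) (L2 Y f)
  rw [inner_L2 (φ := fun W => (G W : ℂ) • Ω) hu hφ.memLp,
    inner_L2 (φ := fun W => (G W : ℂ) • Ω) hu hf.memLp, ← L2_smul,
    ← L2_sub hf.memLp (hu.const_smul _), ← L2_sub hφ.memLp hf.memLp, norm_L2_sq hφ.memLp,
    norm_L2_sq (hφ.sub hf).memLp, norm_L2_sq (hf.memLp.sub (hu.const_smul _)), e2 φ] at h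
  rwa [e3]

omit [MeasurableSpace E] [BorelSpace E] [FiniteDimensional ℂ F] in
theorem gsq_le (Y : Submodule ℝ E) {ψ : E → F} {b : E → ℝ} {W : E}
    (hψ : DifferentiableAt ℝ ψ W) (hb : DifferentiableAt ℝ b W) {δ : ℝ} (hδ : 0 < δ) {B : ℝ}
    (hB : ‖fderiv ℝ b W‖ ≤ B) :
    gsq Y (fun W => (b W : ℂ) • ψ W) W ≤ (1 + δ) * b W ^ 2 * gsq Y ψ W +
      (1 + δ⁻¹) * Module.finrank ℝ E * B ^ 2 * ‖ψ W‖ ^ 2 := by
  have h1 : ∀ k, ‖fderiv ℝ (fun W => (b W : ℂ) • ψ W) W (onb Y k)‖ ^ 2 ≤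
      (1 + δ) * b W ^ 2 * ‖fderiv ℝ ψ W (onb Y k)‖ ^ 2 + (1 + δ⁻¹) * B ^ 2 * ‖ψ W‖ ^ 2 := by
    intro k
    rw [Ga2Aux.fderiv_mulR hψ hb]
    refine (sq_le _ _ hδ).trans ?_
    have h2 : ‖onb Y k‖ = 1 := (stdOrthonormalBasis ℝ Y).orthonormal.1 k
    have h3 := (fderiv ℝ b W).le_opNorm (onb Y k)
    rw [h2, mul_one] at h3
    have h4 := pow_le_pow_left₀ (norm_nonneg _) (h3.trans hB) 2
    rw [norm_smul, norm_smul, mul_pow, mul_pow, norm_real, norm_real, Real.norm_eq_abs, sq_abs,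
      mul_assoc, mul_assoc]
    gcongr
  refine (Finset.sum_le_sum fun k _ => h1 k).trans ?_
  rw [Finset.sum_add_distrib, ← Finset.mul_sum, Finset.sum_const, Finset.card_univ,
    Fintype.card_fin, nsmul_eq_mul]
  have h5 : (Module.finrank ℝ Y : ℝ) ≤ Module.finrank ℝ E := Nat.cast_le.2 Y.finrank_le
  have h6 := mul_le_mul_of_nonneg_right h5
    (by positivity : 0 ≤ (1 + δ⁻¹) * B ^ 2 * ‖ψ W‖ ^ 2)
  unfold gsq
  linarith

theorem fin {k g X N₁ N₂ J c₁ c₂ δ I S n K : ℝ} (hk : 0 < k) (hg : 1 ≤ g) (hδ : 0 ≤ δ)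
    (h1 : 0 ≤ N₁) (hc₁ : 0 ≤ c₁) (hc₂ : 0 ≤ c₂) (S0 : 0 ≤ S) (n0 : 0 ≤ n) (J0 : 0 ≤ J)
    (hJ : J ≤ g * N₂) (hI : I ≤ 1 / 16 * N₁ + (δ * c₁ + c₂ / g) * J) (hS : S ≤ c₁ * J)
    (hn : n ≤ g⁻¹ * J) (h : k * g * X ≤ I + K * δ * S + K * n) :
    X ≤ (1 + |K|) * c₁ / k * δ * N₂ + (1 + c₂ + |K|) / k * (N₁ + N₂) / g := by
  have g0 : 0 < g := by linarith
  have N0 : 0 ≤ N₂ := nonneg_of_mul_nonneg_right (J0.trans hJ) g0
  have K0 := abs_nonneg K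
  have a1 : K * δ * S ≤ |K| * δ * (c₁ * (g * N₂)) :=
    mul_le_mul (mul_le_mul_of_nonneg_right (le_abs_self K) hδ)
      (hS.trans (mul_le_mul_of_nonneg_left hJ hc₁)) S0 (by positivity)
  have a2 : K * n ≤ |K| * N₂ := mul_le_mul (le_abs_self K) (hn.trans (by
    rw [inv_mul_le_iff₀ g0]; exact hJ)) n0 K0
  have a3 : (δ * c₁ + c₂ / g) * J ≤ (δ * c₁ + c₂ / g) * (g * N₂) :=
    mul_le_mul_of_nonneg_left hJ (by positivity)
  have a4 : (δ * c₁ + c₂ / g) * (g * N₂) = δ * c₁ * g * N₂ + c₂ * N₂ := by field_simp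
  refine le_of_mul_le_mul_left ?_ (mul_pos hk g0)
  have a5 : k * g * ((1 + |K|) * c₁ / k * δ * N₂ + (1 + c₂ + |K|) / k * (N₁ + N₂) / g) =
      (1 + |K|) * c₁ * δ * g * N₂ + (1 + c₂ + |K|) * (N₁ + N₂) := by field_simp
  have a6 : 0 ≤ (c₂ + |K|) * N₁ := by positivity
  rw [a5]
  linarith

theorem comb (E F : Type) [NormedAddCommGroup E] [InnerProductSpace ℝ E] [FiniteDimensional ℝ E]
    [MeasurableSpace E] [BorelSpace E] [NormedAddCommGroup F] [InnerProductSpace ℂ F]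
    [FiniteDimensional ℂ F] {a : ℝ} (ha : 0 < a) (M : ℝ) {C : ℝ} (hC : 0 ≤ C) :
    ∃ K₁, 0 ≤ K₁ ∧ ∀ δ > 0, δ ≤ 1 → ∀ B : ℝ, ∃ K₂, 0 ≤ K₂ ∧ ∀ (Y : Submodule ℝ E) (A : E →L[ℝ] E)
      (Ω : F) (T P₀ : F →L[ℂ] F) (ψ : E → F) (b ϑ p q e : E → ℝ) (g ρ N₁ N₂ : ℝ), 1 ≤ g →
      IsSym A → (∀ w, A w ∈ Y) → ‖A‖ ≤ M → (∀ w ∈ Y, a * ‖w‖ ^ 2 ≤ ⟪w, A w⟫) → ‖Ω‖ = 1 →
      (∀ x, P₀ x = x → -(trR A / 2) * ‖x‖ ^ 2 + a * ‖x - inner ℂ Ω x • Ω‖ ^ 2 ≤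
        (inner ℂ x (T x)).re) →
      ContDiff ℝ ∞ ψ → (∀ W ∈ Y, P₀ (ψ W) = ψ W) →
      ContDiff ℝ ∞ b → (∀ x, 0 ≤ b x ∧ b x ≤ 1) → (∀ x, ‖x‖ ≤ δ / 2 → b x = 1) →
      (∀ x, δ ≤ ‖x‖ → b x = 0) → (∀ x, ‖fderiv ℝ b x‖ ≤ B) →
      ContDiff ℝ ∞ ϑ → (∀ x, ‖x‖ ≤ δ → ϑ x = 1) → (∀ x, ρ ≤ ‖x‖ → ϑ x = 0) →
      Continuous p → Continuous q → Continuous e → (∀ x, 0 ≤ p x) → (∀ x, gsq Y ψ x ≤ q x) →
      (∀ W ∈ Y, ‖W‖ ≤ ρ → ‖W‖ ^ 2 ≤ C * p W) →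
      (∀ W ∈ Y, ‖W‖ ≤ δ → 16 * ‖A W‖ ^ 2 ≤ (1 + C * δ) * p W ∧
        16 * (inner ℂ (ψ W) (T (ψ W))).re ≤ e W + C * δ * ‖ψ W‖ ^ 2) →
      0 ≤ N₁ → ∫ W : Y, b W ^ 2 * (8 * q W + g ^ 2 * p W / 2 * ‖ψ W‖ ^ 2 + g * e W) ≤ N₁ →
      ∫ W : Y, ϑ W ^ 2 * (q W + (g ^ 2 * p W + g) * ‖ψ W‖ ^ 2) ≤ g * N₂ →
      nrm Y (fun W => (ϑ W : ℂ) • ψ W) ≤
        3 * ‖∫ W : Y, ((ϑ W * gauss Y (g • A) W : ℝ) : ℂ) * inner ℂ Ω (ψ W)‖ ^ 2 +
          K₁ * δ * N₂ + K₂ * (N₁ + N₂) / g := by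
  obtain ⟨k, hk, K, hK⟩ := fast_osc E F ha M
  refine ⟨3 * ((1 + |K|) * (8 + C) / k), by positivity, fun δ hδ hδ1 B => ?_⟩
  have hCb : 0 ≤ (1 + δ⁻¹) * Module.finrank ℝ E * B ^ 2 := by positivity
  refine ⟨3 * ((1 + (1 + δ⁻¹) * Module.finrank ℝ E * B ^ 2 + |K|) / k) + 12 * (4 * C / δ ^ 2),
    by positivity, ?_⟩
  intro Y A Ω T P₀ ψ b ϑ p q e g ρ N₁ N₂ hg hs hr hM hA hΩ hT hψ hP₀ hb b01 b1 b0 hB hϑ ϑ1 ϑ0 hp hq
    he p0 hgq hW1 hW2 N0 hN₁ hN₂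
  have g0 : 0 < g := by linarith
  have q0 : ∀ x, 0 ≤ q x := fun x => (gsq_nonneg Y ψ x).trans (hgq x)
  have hψc := hψ.continuous
  have hbc := hb.continuous
  have hϑc := hϑ.continuous
  have hρ : ∀ x : E, ‖x‖ ≤ δ → ‖x‖ ≤ ρ := fun x hx => by
    by_contra h
    exact one_ne_zero ((ϑ1 x hx).symm.trans (ϑ0 x (not_le.1 h).le))
  obtain ⟨P, hP⟩ : ∃ P : F →L[ℂ] F, ∀ x, P x = inner ℂ Ω x • Ω :=
    ⟨(innerSL ℂ Ω).smulRight Ω, fun x => rfl⟩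
  obtain ⟨f, hf⟩ : ∃ f : E → F, f = fun W => (b W : ℂ) • ψ W := ⟨_, rfl⟩
  obtain ⟨D, hD⟩ : ∃ D : E → ℝ, D = fun W => ϑ W ^ 2 * (q W + (g ^ 2 * p W + g) * ‖ψ W‖ ^ 2) :=
    ⟨_, rfl⟩
  have hfs : ContDiff ℝ ∞ f := hf ▸ Ga2Aux.contDiff_mulR hψ hb
  have hfc := hfs.continuous
  have hfn : ∀ W, ‖f W‖ ^ 2 = b W ^ 2 * ‖ψ W‖ ^ 2 := fun W => by
    rw [hf, norm_smul, mul_pow, norm_real, Real.norm_eq_abs, sq_abs]
  have f0 : ∀ W, δ < ‖W‖ → f W = 0 := fun W h => by simp [hf, b0 W h.le]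
  have f1 : ∀ W, δ < ‖W‖ → gsq Y f W = 0 := fun W h => by
    have h1 : f =ᶠ[𝓝 W] fun _ => 0 := by
      filter_upwards [(isOpen_lt continuous_const continuous_norm).mem_nhds h] with x hx
      exact f0 x hx
    simp [gsq, h1.fderiv_eq]
  have D0 : ∀ W, 0 ≤ D W := fun W => by
    have := q0 W
    have := p0 W
    rw [hD]
    positivity
  have Di : Integrable fun W : Y => D W :=
    FoAux.integ ρ (by rw [hD]; fun_prop) fun W _ h => by simp [hD, ϑ0 W h.le]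
  have D1 : ∀ W, ‖W‖ ≤ δ → D W = q W + (g ^ 2 * p W + g) * ‖ψ W‖ ^ 2 := fun W h => by
    simp [hD, ϑ1 W h]
  have bb : ∀ W, b W ^ 2 ≤ 1 := fun W => pow_le_one₀ (b01 W).1 (b01 W).2
  have hfψ : ∀ W, ‖f W‖ ^ 2 ≤ ‖ψ W‖ ^ 2 := fun W => by
    rw [hfn]
    exact mul_le_of_le_one_left (sq_nonneg _) (bb W)
  have hJ : ∫ W : Y, D W ≤ g * N₂ := by rw [hD]; exact hN₂
  have J0 : 0 ≤ ∫ W : Y, D W := integral_nonneg fun W => D0 W
  have key := hK Y Y A P T f (fun _ => 0) g δ hg hδ.le hδ1 rfl hs hr hM hA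
    (by ext x; simp [hP, hΩ])
    (fun x y => by rw [hP, hP, inner_smul_left, inner_smul_right, inner_conj_symm, mul_comm]) hfs
    (fun W _ h => ⟨f0 W h, rfl, f1 W h⟩) continuous_const
    (fun W hW => by
      have h1 := hT (f W) (by rw [hf]; simp only [map_smul, hP₀ W hW])
      have h2 : 0 ≤ δ * ‖f W‖ ^ 2 := by positivity
      rw [hP]
      linarith)
    (fun W _ w hw => by
      have M0 : 0 ≤ M := (norm_nonneg A).trans hM
      rw [Submodule.starProjection_eq_self_iff.2 hw, sub_self, map_zero, norm_zero,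
        inner_zero_right, zero_re, abs_zero]
      constructor <;> positivity)
  have i1 : Integrable fun W : Y =>
      b W ^ 2 * (8 * q W + g ^ 2 * p W / 2 * ‖ψ W‖ ^ 2 + g * e W) :=
    FoAux.integ (u := fun W => b W ^ 2 * (8 * q W + g ^ 2 * p W / 2 * ‖ψ W‖ ^ 2 + g * e W)) δ
      (by fun_prop) fun W _ h => by simp [b0 W h.le]
  have hI : ∫ W : Y, (gsq Y f W / 2 + g ^ 2 * ‖A W‖ ^ 2 / 2 * ‖f W‖ ^ 2 +
      g * (inner ℂ (f W) (T (f W))).re) ≤ 1 / 16 * N₁ +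
        (δ * (8 + C) + (1 + δ⁻¹) * Module.finrank ℝ E * B ^ 2 / g) * ∫ W : Y, D W := by
    refine le_trans ?_ (add_le_add (mul_le_mul_of_nonneg_left hN₁ (by norm_num)) le_rfl)
    rw [← integral_const_mul, ← integral_const_mul, ← integral_add (i1.const_mul _)
      (Di.const_mul _)]
    have c1 := Cov4Aux.continuous_gsq Y hfs
    have c2 : Continuous fun W => (inner ℂ (f W) (T (f W))).re :=
      continuous_re.comp (hfc.inner (T.continuous.comp hfc))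
    refine integral_mono (FoAux.integ (u := fun W => gsq Y f W / 2 + g ^ 2 * ‖A W‖ ^ 2 / 2 *
      ‖f W‖ ^ 2 + g * (inner ℂ (f W) (T (f W))).re) δ (by fun_prop) fun W _ h => by
        simp [f0 W h, f1 W h]) ((i1.const_mul _).add (Di.const_mul _)) fun W => ?_
    rcases le_or_gt ‖(W : E)‖ δ with h | h
    · have e1 : (inner ℂ (f W) (T (f W))).re = b W ^ 2 * (inner ℂ (ψ W) (T (ψ W))).re := by
        rw [hf]
        simp only [map_smul, Ga2Aux.re_smul_left, Ga2Aux.re_smul_right]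
        ring
      have h1 := gsq_le Y (hψ.differentiable (by simp) W) (hb.differentiable (by simp) W) hδ (hB W)
      rw [← hf] at h1
      simp only [e1, hfn, D1 W h]
      exact pt1 hδ hg hC hCb (sq_nonneg _) (bb W) (q0 W) (sq_nonneg _) (p0 W)
        (h1.trans (add_le_add (mul_le_mul_of_nonneg_left (hgq W) (by positivity)) le_rfl))
        (hW2 W W.2 h).1 (hW2 W W.2 h).2
    · have := D0 W
      simp only [f0 W h, f1 W h, b0 W h.le, map_zero, norm_zero, inner_zero_right, zero_re]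
      norm_num
      positivity
  have hS : ∫ W : Y, ((0 : ℝ) ^ 2 + (g ^ 2 * ‖(W : E)‖ ^ 2 + g) * ‖f W‖ ^ 2) ≤
      (8 + C) * ∫ W : Y, D W := by
    rw [← integral_const_mul]
    refine integral_mono_of_nonneg (ae_of_all _ fun W => by positivity) (Di.const_mul _)
      (ae_of_all _ fun W => ?_)
    rcases le_or_gt ‖(W : E)‖ δ with h | h
    · have a1 := mul_le_mul_of_nonneg_left (hW1 W W.2 (hρ W h)) (sq_nonneg g)
      have a0 := p0 W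
      have a2 : (g ^ 2 * ‖(W : E)‖ ^ 2 + g) * ‖f W‖ ^ 2 ≤ (g ^ 2 * (C * p W) + g) * ‖ψ W‖ ^ 2 :=
        mul_le_mul (by linarith) (hfψ W) (sq_nonneg _) (by positivity)
      have a3 := q0 W
      have a4 : 0 ≤ g ^ 2 * p W * ‖ψ W‖ ^ 2 := by positivity
      have a5 : 0 ≤ g * ‖ψ W‖ ^ 2 := by positivity
      have a6 : 0 ≤ C * (g * ‖ψ W‖ ^ 2) := by positivity
      have a7 : 0 ≤ C * q W := by positivity
      simp only [D1 W h]
      linarith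
    · have := D0 W
      simp only [f0 W h, norm_zero]
      norm_num
      positivity
  have hn : nrm Y f ≤ g⁻¹ * ∫ W : Y, D W := by
    rw [← integral_const_mul]
    refine integral_mono_of_nonneg (ae_of_all _ fun W => by positivity) (Di.const_mul _)
      (ae_of_all _ fun W => ?_)
    rcases le_or_gt ‖(W : E)‖ δ with h | h
    · have a0 := p0 W
      have a1 := mul_le_mul_of_nonneg_left (hfψ W) g0.le
      have a3 := q0 W
      have a4 : 0 ≤ g ^ 2 * p W * ‖ψ W‖ ^ 2 := by positivity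
      simp only [D1 W h]
      rw [le_inv_mul_iff₀ g0]
      linarith
    · have := D0 W
      simp only [f0 W h, norm_zero]
      norm_num
      positivity
  have hR : nrm Y ((fun W => (ϑ W : ℂ) • ψ W) - f) ≤ 4 * C / δ ^ 2 / g ^ 2 * ∫ W : Y, D W := by
    rw [← integral_const_mul]
    refine integral_mono_of_nonneg (ae_of_all _ fun W => by positivity) (Di.const_mul _)
      (ae_of_all _ fun W => ?_)
    have e1 : ‖((fun W => (ϑ W : ℂ) • ψ W) - f) W‖ ^ 2 = (ϑ W - b W) ^ 2 * ‖ψ W‖ ^ 2 := by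
      rw [hf, Pi.sub_apply, ← sub_smul, norm_smul, ← ofReal_sub, mul_pow, norm_real,
        Real.norm_eq_abs, sq_abs]
    have a0 := D0 W
    simp only [e1]
    rcases le_or_gt ‖(W : E)‖ (δ / 2) with h | h
    · rw [b1 W h, ϑ1 W (by linarith), sub_self]
      norm_num
      positivity
    rcases le_or_gt ‖(W : E)‖ ρ with h' | h'
    · have a1 : (ϑ W - b W) ^ 2 ≤ ϑ W ^ 2 := by
        rcases le_total ‖(W : E)‖ δ with h'' | h''
        · rw [ϑ1 W h'']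
          exact pow_le_pow_left₀ (by linarith [(b01 W).2]) (by linarith [(b01 W).1]) 2
        · rw [b0 W h'', sub_zero]
      have a2 : δ ^ 2 ≤ 4 * C * p W := by
        have := pow_le_pow_left₀ (by positivity) h.le 2
        linarith [hW1 W W.2 h']
      have a3 := q0 W
      have a4 : g ^ 2 * p W * (ϑ W ^ 2 * ‖ψ W‖ ^ 2) ≤ D W := by
        have b1 : 0 ≤ ϑ W ^ 2 * q W := by positivity
        have b2 : 0 ≤ ϑ W ^ 2 * (g * ‖ψ W‖ ^ 2) := by positivity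
        simp only [hD]
        linarith
      have a5 := mul_le_mul_of_nonneg_right a2 (by positivity : 0 ≤ g ^ 2 * (ϑ W ^ 2 * ‖ψ W‖ ^ 2))
      have a6 := mul_le_mul_of_nonneg_left a4 (by positivity : 0 ≤ 4 * C)
      refine (mul_le_mul_of_nonneg_right a1 (sq_nonneg _)).trans ?_
      rw [div_div, div_mul_eq_mul_div, le_div_iff₀ (by positivity)]
      linarith
    · rw [ϑ0 W h'.le, b0 W (not_lt.1 fun h'' => h'.not_ge (hρ W h''.le)), sub_self]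
      norm_num
      positivity
  have hX := fin hk hg hδ.le N0 (by positivity) hCb
    (integral_nonneg fun W => by positivity) (nrm_nonneg Y f) J0 hJ hI hS hn key
  have hA' : ∀ w ∈ Y, g * a * ‖w‖ ^ 2 ≤ ⟪w, (g • A) w⟫ := fun w hw => by
    rw [_root_.smul_apply, real_inner_smul_right, mul_assoc]
    exact mul_le_mul_of_nonneg_left (hA w hw) g0.le
  have hG := geo (sm_of_bound (Ga2Aux.contDiff_mulR hψ hϑ) (R := ρ) fun x _ h => by
      simp [ϑ0 x h.le]) (sm_of_bound hfs fun x _ h => f0 x h)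
    (contDiff_gauss Y (g • A)).continuous
    (by simpa using integrable_gauss_sq (mul_pos g0 ha) hA' 0)
    (integral_gauss_sq (mul_pos g0 ha) hA') hΩ hP
  have e2 : ∀ W : E, (gauss Y (g • A) W : ℂ) * inner ℂ Ω ((ϑ W : ℂ) • ψ W) =
      ((ϑ W * gauss Y (g • A) W : ℝ) : ℂ) * inner ℂ Ω (ψ W) := fun W => by
    rw [inner_smul_right, ofReal_mul]
    ring
  simp only [e2] at hG
  have a1 : 4 * C / δ ^ 2 / g ^ 2 * ∫ W : Y, D W ≤ 4 * C / δ ^ 2 * (N₁ + N₂) / g := by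
    have b1 : ∫ W : Y, D W ≤ g * (N₁ + N₂) := by nlinarith
    refine (mul_le_mul_of_nonneg_left b1 (by positivity)).trans_eq ?_
    field_simp
  have a2 := hR.trans a1
  refine (hG.trans (add_le_add (add_le_add (mul_le_mul_of_nonneg_left hX (by norm_num)) le_rfl)
    (mul_le_mul_of_nonneg_left a2 (by norm_num)))).trans_eq ?_
  ring

end Vale.Agent.P353.Du1Aux
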