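import Vale.Agent.P353.Stmts
import Vale.Agent.P353.Fo
import Vale.Agent.P353.Du1Aux

/-! Local upper bound at a vacuum. -/

noncomputable section

open MeasureTheory Filter Topology Complex Matrix
open scoped ContDiff RealInnerProductSpace

namespace Vale.Agent.P353

namespace Du1Aux

variable {N d : ℕ} {F : Type} [NormedAddCommGroup F] [InnerProductSpace ℂ F]
  [FiniteDimensional ℂ F] (c : Ctx N d F) {π : Setoid (Fin N)} {𝔞 𝔪 : Submodule ℝ (Lg d)}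
  {Y : Submodule ℝ (Tn 9 d)} {z : Tn 9 d}

/-- the fermion bilinear -/
abbrev bl (𝔞 : Submodule ℝ (Lg d)) (g : ℝ) : Tn 9 d → F →L[ℂ] F :=
  bil c.θ (sub 9 𝔞) (fun α => c.sE (eb α)) fun α => c.beta g g (eb α)

theorem cd_bl (𝔞 : Submodule ℝ (Lg d)) (g : ℝ) : ContDiff ℝ ∞ (bl c 𝔞 g) :=
  contDiff_bil _ fun α => c.contDiff_beta g g (eb α)

theorem bl_eq (h : c.Th π 𝔞) (g : ℝ) {x : Tn 9 d} (hx : x ∈ sub 9 𝔞) :
    bl c 𝔞 g x = (g : ℂ) • bl c 𝔞 1 x := by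
  rw [bl, bl, c.bil_eq h g g hx, c.bil_eq h 1 1 hx, smul_comm (g : ℂ), ← dG_smul, smul_add,
    smul_smul, smul_smul, mul_one, mul_one, mul_comm g, mul_comm g]

theorem pot_nonneg (x : Tn 9 d) : 0 ≤ c.Pot 1 1 x := Finset.sum_nonneg fun _ _ => sq_nonneg _

theorem fsq_le (W : Tn 9 d) : c.Fsq W ≤ 324 * ‖W‖ ^ 4 := by
  have h : ∀ i j, ‖c.ad (cmp i W) (cmp j W)‖ ^ 2 ≤ 4 * ‖W‖ ^ 4 := fun i j => by
    have h1 : ‖c.ad (cmp i W) (cmp j W)‖ ≤ 2 * ‖W‖ * ‖W‖ :=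
      (c.norm_ad_le _ _).trans (by gcongr <;> exact norm_cmp_le _ W)
    exact (pow_le_pow_left₀ (norm_nonneg _) h1 2).trans_eq (by ring)
  refine (Finset.sum_le_sum fun i _ => Finset.sum_le_sum fun j _ => h i j).trans_eq ?_
  simp only [Finset.sum_const, Finset.card_univ, Fintype.card_fin, nsmul_eq_mul]
  push_cast
  ring

theorem beta_vac (hz : c.IsVac z) (α : Fin 16) (W : Tn 9 d) :
    fderiv ℝ (c.beta 1 1 (eb α)) z W = c.beta 1 1 (eb α) (z + W) + -c.Phi (eb α) W := by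
  have h0 := (Finset.sum_eq_zero_iff_of_nonneg fun _ _ => sq_nonneg _).1
    ((c.Pot_eq_zero_iff z).2 hz) α (Finset.mem_univ α)
  have h1 : c.beta 1 1 (eb α) z = 0 := norm_eq_zero.1 (pow_eq_zero_iff two_ne_zero |>.1 h0)
  rw [c.cov3_fderiv, ← add_zero (_ + _), ← h1]
  simp only [Ctx.beta, one_smul, c.Phi_add, map_add]
  abel

theorem pot (hz : c.IsVac z) {A : Tn 9 d →L[ℝ] Tn 9 d} {Ω : F} (hV : c.VacData π z A Ω) :
    ∃ δ₀ > 0, ∃ C, 0 ≤ C ∧ ∀ δ > 0, δ ≤ δ₀ → ∀ W ∈ c.Yz π z, ‖W‖ ≤ δ →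
      ‖W‖ ^ 2 ≤ C * c.Pot 1 1 (z + W) ∧ 16 * ‖A W‖ ^ 2 ≤ (1 + C * δ) * c.Pot 1 1 (z + W) ∧
      ‖bl c (c.ss π) 1 z - bl c (c.ss π) 1 (z + W)‖ ≤ C * δ := by
  obtain ⟨a, ha, hA⟩ := hV.pos
  obtain ⟨L, t, ht, hL⟩ :=
    ((cd_bl c (c.ss π) 1).of_le (by simp) : ContDiff ℝ 1 _).contDiffAt.exists_lipschitzOnWith
      (x := z)
  obtain ⟨r, hr, hrt⟩ := Metric.nhds_basis_closedBall.mem_iff.1 ht
  refine ⟨min r (min 1 (a ^ 2 / 648)), by positivity, 1 + 1297 / a ^ 2 + L, by positivity,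
    fun δ hδ hδ0 W hW hWδ => ?_⟩
  have d1 : δ ≤ r := hδ0.trans (min_le_left _ _)
  have d2 : δ ≤ 1 := hδ0.trans ((min_le_right _ _).trans (min_le_left _ _))
  have d3 : δ ≤ a ^ 2 / 648 := hδ0.trans ((min_le_right _ _).trans (min_le_right _ _))
  have p0 := pot_nonneg c (z + W)
  have L0 : (0 : ℝ) ≤ L := L.2
  have h1 : 16 * ‖A W‖ ^ 2 ≤ (1 + δ) * c.Pot 1 1 (z + W) + (1 + δ⁻¹) * (8 * c.Fsq W) := by
    rw [← hV.hess W hW, ← c.sum_Phi_sq, Ctx.Pot, Finset.mul_sum, Finset.mul_sum,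
      ← Finset.sum_add_distrib]
    refine Finset.sum_le_sum fun α _ => ?_
    rw [beta_vac c hz, ← norm_neg (c.Phi (eb α) W)]
    exact sq_le _ _ hδ
  have h2 : (1 + δ⁻¹) * (8 * c.Fsq W) ≤ 5184 * δ * ‖W‖ ^ 2 := by
    have a1 : ‖W‖ ^ 4 ≤ δ ^ 2 * ‖W‖ ^ 2 := by
      rw [show ‖W‖ ^ 4 = ‖W‖ ^ 2 * ‖W‖ ^ 2 by ring]
      gcongr
    have a2 : 8 * c.Fsq W ≤ 2592 * (δ ^ 2 * ‖W‖ ^ 2) := by linarith [fsq_le c W]
    refine (mul_le_mul_of_nonneg_left a2 (by positivity)).trans ?_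
    have a3 : (1 + δ⁻¹) * (2592 * (δ ^ 2 * ‖W‖ ^ 2)) = 2592 * (δ * δ + δ) * ‖W‖ ^ 2 := by
      field_simp
    rw [a3]
    gcongr ?_ * _
    nlinarith
  have h3 : a ^ 2 * ‖W‖ ^ 2 ≤ ‖A W‖ ^ 2 := by
    rcases (norm_nonneg W).eq_or_lt with h | h
    · rw [← h]
      simp
    · have a1 := (hA W hW).trans (real_inner_le_norm W (A W))
      have a2 : a * ‖W‖ ≤ ‖A W‖ := le_of_mul_le_mul_left (by linarith) h
      rw [← mul_pow]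
      gcongr
  have h4 : a ^ 2 * ‖W‖ ^ 2 ≤ c.Pot 1 1 (z + W) / 4 := by
    have a1 := mul_le_mul_of_nonneg_right d3 (sq_nonneg ‖W‖)
    have a2 := mul_le_mul_of_nonneg_right d2 p0
    linarith
  have h5 : ‖W‖ ^ 2 ≤ 1 / a ^ 2 * (c.Pot 1 1 (z + W) / 4) := by
    rw [one_div, le_inv_mul_iff₀ (by positivity)]
    exact h4
  have e1 : 1297 / a ^ 2 = 1297 * (1 / a ^ 2) := by ring
  have a0 : 0 ≤ 1 / a ^ 2 * c.Pot 1 1 (z + W) := by positivity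
  rw [e1]
  refine ⟨?_, ?_, ?_⟩
  · have := mul_nonneg L0 p0
    linarith
  · have a1 := mul_le_mul_of_nonneg_left h5 hδ.le
    have a2 := mul_nonneg hδ.le a0
    have a3 := mul_nonneg hδ.le (mul_nonneg L0 p0)
    linarith
  · have a1 := hL.dist_le_mul z (mem_of_mem_nhds ht) (z + W) (hrt (by simpa using hWδ.trans d1))
    rw [dist_eq_norm, dist_self_add_right] at a1
    have a2 := mul_le_mul_of_nonneg_left hWδ L0
    have a3 : 0 ≤ 1 / a ^ 2 * δ := by positivity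
    linarith

theorem shift (hz : z ∈ Y) (b f : Tn 9 d → ℝ) :
    ∫ W : Y, b W ^ 2 * f (z + W) = ∫ y : Y, b (y - z) ^ 2 * f y := by
  rw [← integral_add_sub (fun y => b (y - z) ^ 2 * f y) hz]
  simp only [add_sub_cancel_right, add_comm z]

theorem ne_nonneg (𝔞 : Submodule ℝ (Lg d)) (g : ℝ) (ψ : Tn 9 d → F) : 0 ≤ c.NE 𝔞 g g ψ :=
  add_nonneg (nrm_nonneg _ _) (en_nonneg _ _ _ _)

theorem exact (h : c.S_chart) (hT : c.Trans π 𝔞 𝔪 Y z) : ∃ r > 0, ∀ b : Tn 9 d → ℝ,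
    ContDiff ℝ ∞ b → (∀ x, r ≤ ‖x‖ → b x = 0) → ∃ K, 0 ≤ K ∧ ∀ g : ℝ, ∀ ψ ∈ c.D π 𝔞,
      ∫ W : Y, b W ^ 2 * (8 * gsq (sub 9 𝔞) ψ (z + W) + g ^ 2 * c.Pot 1 1 (z + W) / 2 *
        ‖ψ (z + W)‖ ^ 2 + g * (inner ℂ (ψ (z + W)) (bl c 𝔞 1 (z + W) (ψ (z + W)))).re) ≤
        K * c.NE 𝔞 g g ψ := by
  obtain ⟨r, hr, H⟩ := h.exact π 𝔞 𝔪 Y z hT
  refine ⟨r, hr, fun b hb b0 => ?_⟩
  obtain ⟨χ, hχ, hs, H⟩ := H (fun y => b (y - z)) (hb.comp (contDiff_id.sub contDiff_const))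
    fun y _ hy => b0 _ hy
  obtain ⟨M₁, h1⟩ := hs.exists_bound_of_continuous hχ.continuous
  obtain ⟨M₂, h2⟩ := (hs.fderiv ℝ).exists_bound_of_continuous (hχ.continuous_fderiv (by simp))
  have hl := hχ.continuous.mul (Ga2Aux.contDiff_lap (sub 9 𝔞) hχ).continuous
  obtain ⟨M₃, h3⟩ := (hs.mul_right (f' := lap (sub 9 𝔞) χ)).exists_bound_of_continuous hl
  have M0 : 0 ≤ M₃ := (norm_nonneg _).trans (h3 0)
  refine ⟨16 * max M₁ M₂ ^ 2 + 8 * M₃, by positivity, fun g ψ hψ => ?_⟩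
  obtain ⟨hS, hU⟩ := c.mem_D.1 hψ
  have hc := hS.1.continuous
  rw [shift hT.2.2.2.1 b fun x => 8 * gsq (sub 9 𝔞) ψ x + g ^ 2 * c.Pot 1 1 x / 2 * ‖ψ x‖ ^ 2 +
    g * (inner ℂ (ψ x) (bl c 𝔞 1 x (ψ x))).re, ← H (fun x => 8 * gsq (sub 9 𝔞) ψ x +
      g ^ 2 * c.Pot 1 1 x / 2 * ‖ψ x‖ ^ 2 + g * (inner ℂ (ψ x) (bl c 𝔞 1 x (ψ x))).re) (by
      have c1 := Cov4Aux.continuous_gsq (sub 9 𝔞) hS.1
      have c2 := (c.contDiff_Pot 1 1).continuous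
      have c3 : Continuous fun x => (inner ℂ (ψ x) (bl c 𝔞 1 x (ψ x))).re :=
        continuous_re.comp (hc.inner ((cd_bl c 𝔞 1).continuous.clm_apply hc))
      fun_prop) fun u hu x hx => by
      have e := congrArg (fun T : F →L[ℂ] F => T (ψ x)) (c.bil_Ad9 hT.1 1 1 hu hx)
      simp only [mul_apply_eq_comp] at e
      simp only [c.invR_gsq hT.1 hψ u hu x hx, c.Pot_Ad9, hU u hu x hx, c.Uiso, bl, ← e,
        c.inner_U]]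
  have hβ := fun α => c.contDiff_beta g g (eb α)
  have e1 := c.car.energy_weight 1 hβ (c.iso (sub 9 𝔞) g g) hS.1 hχ (hS.mulR hχ).2
  have e2 := c.car.en_mulR_le' 1 hβ (c.iso (sub 9 𝔞) g g) hS hχ (M := max M₁ M₂)
    fun x _ _ => ⟨(h1 x).trans (le_max_left _ _), (h2 x).trans (le_max_right _ _)⟩
  have e3 : ∫ x : sub 9 𝔞, χ x * lap (sub 9 𝔞) χ x * ‖ψ x‖ ^ 2 ≤ M₃ * nrm (sub 9 𝔞) ψ := by
    rw [nrm, ← integral_const_mul]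
    exact integral_mono (hS.integrable_wnrm hl.continuousOn)
      (hS.integrable_wnrm (w := fun _ => M₃) continuousOn_const) fun x =>
        mul_le_mul_of_nonneg_right ((le_abs_self _).trans (h3 x)) (sq_nonneg _)
  have e4 : ∫ x : sub 9 𝔞, χ x ^ 2 * (8 * gsq (sub 9 𝔞) ψ x + g ^ 2 * c.Pot 1 1 x / 2 *
      ‖ψ x‖ ^ 2 + g * (inner ℂ (ψ x) (bl c 𝔞 1 x (ψ x))).re) =
      c.En 𝔞 g g (fun x => (χ x : ℂ) • ψ x) +
        8 * 1 ^ 2 * ∫ x : sub 9 𝔞, χ x * lap (sub 9 𝔞) χ x * ‖ψ x‖ ^ 2 := by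
    refine Eq.trans (integral_congr_ae (ae_of_all _ fun x => ?_)) e1
    have a1 := bl_eq c hT.1 g x.2
    have a2 := c.Pot_gg g x
    rw [bl] at a1
    rw [Ctx.Pot] at a2
    simp only [a1, a2, _root_.smul_apply, Ga2Aux.re_smul_right, one_pow, mul_one, one_mul]
  have n0 := nrm_nonneg (sub 9 𝔞) ψ
  have n1 : 0 ≤ c.En 𝔞 g g ψ := en_nonneg _ _ _ _
  have a1 := mul_nonneg (sq_nonneg (max M₁ M₂)) n1
  have a2 := mul_nonneg M0 n1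
  rw [e4, Ctx.NE]
  unfold Ctx.En at a1 a2 ⊢
  linarith

theorem int_slice (hT : c.Trans π 𝔞 𝔪 Y z) {f : Tn 9 d → ℝ} (hf : c.Dens π 𝔞 f) :
    Integrable fun y : Y => f y := by
  have h := hasCompactSupport_slice hT.2.2.1 hf.2.2.2 (Submodule.zero_mem _)
  simp only [zero_add] at h
  exact (hf.1.comp continuous_subtype_val).integrable_of_hasCompactSupport h

theorem int_wt (hT : c.Trans π 𝔞 𝔪 Y z) {f : Tn 9 d → ℝ} (hf : c.Dens π 𝔞 f) {ϑ : Tn 9 d → ℝ}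
    {ρ : ℝ} (hϑ : c.Bump ϑ ρ) : Integrable fun y : Y => ϑ (y - z) ^ 2 * f y := by
  have hc := hϑ.1.continuous
  refine (int_slice c hT hf).bdd_mul (c := 1) (Continuous.aestronglyMeasurable (by fun_prop))
    (ae_of_all _ fun y => ?_)
  rw [Real.norm_eq_abs, abs_of_nonneg (sq_nonneg _)]
  exact pow_le_one₀ (hϑ.2.2.1 _).1 (hϑ.2.2.1 _).2

theorem up (h : c.S_chart) (hcr : c.S_crd) (hT : c.Trans π 𝔞 𝔪 Y z) : ∃ δ > 0, ∃ K, 0 ≤ K ∧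
    ∀ᶠ g in atTop, ∀ ρ ≤ δ, ∀ ϑ, c.Bump ϑ ρ → ∀ ψ ∈ c.D π 𝔞,
      ∫ W : Y, ϑ W ^ 2 * (gsq (sub 9 𝔞) ψ (z + W) + (g ^ 2 * c.Pot 1 1 (z + W) + g) *
        ‖ψ (z + W)‖ ^ 2) ≤ g * (K * c.NE 𝔞 g g ψ) := by
  obtain ⟨δ, hδ, K, H⟩ := h.up π 𝔞 𝔪 Y z hT
  obtain ⟨K', K0, hK'⟩ := hcr
  refine ⟨δ, hδ, |K| * (K' + 1), by positivity, ?_⟩
  filter_upwards [hK', eventually_ge_atTop 1] with g hg hg1 ρ hρ ϑ hϑ ψ hψ
  have hS := (c.mem_D.1 hψ).1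
  have hc := hS.1.continuous
  have c1 := Cov4Aux.continuous_gsq (sub 9 𝔞) hS.1
  have c2 := (c.contDiff_Pot 1 1).continuous
  have g0 : 0 < g := by linarith
  have hD : c.Dens π 𝔞 fun x => gsq (sub 9 𝔞) ψ x + (g ^ 2 * c.Pot 1 1 x + g) * ‖ψ x‖ ^ 2 := by
    refine ⟨by fun_prop, fun x => ?_, fun u hu x hx => ?_, hS.gsq_support.2.add
      (Ga2Aux.hcs_of (g := fun x => (g ^ 2 * c.Pot 1 1 x + g) * ‖ψ x‖ ^ 2) hS.2
        fun x hx => by simp [hx])⟩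
    · have := gsq_nonneg (sub 9 𝔞) ψ x
      have := pot_nonneg c x
      positivity
    · simp only [c.invR_gsq hT.1 hψ u hu x hx, c.Pot_Ad9, (c.mem_D.1 hψ).2 u hu x hx, c.Uiso]
  have h1 := H 1 (by simpa using hδ.le) (fun x hx => hx) 0 (Submodule.zero_mem _)
    (by simpa using hδ.le) _ hD
  simp only [one_apply_eq_self, add_zero] at h1
  have i1 := hS.integrable_wnrm c2.continuousOn
  have i2 := hS.integrable_wnrm (w := fun _ => g) continuousOn_const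
  have h2 : ∫ x : sub 9 𝔞, (gsq (sub 9 𝔞) ψ x + (g ^ 2 * c.Pot 1 1 x + g) * ‖ψ x‖ ^ 2) =
      grad (sub 9 𝔞) ψ + g ^ 2 * wnrm (sub 9 𝔞) (c.Pot 1 1) ψ + g * nrm (sub 9 𝔞) ψ := by
    have i3 : Integrable fun x : sub 9 𝔞 =>
        g ^ 2 * (c.Pot 1 1 x * ‖ψ x‖ ^ 2) + g * ‖ψ x‖ ^ 2 := (i1.const_mul _).add i2
    simp only [add_mul, mul_assoc]
    rw [integral_add (Ga2Aux.integrable_gsq hS) i3,
      integral_add (i1.const_mul _) i2, integral_const_mul, integral_const_mul, add_assoc]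
    rfl
  have h3 := hg π 𝔞 hT.1 ψ hS
  have n0 := nrm_nonneg (sub 9 𝔞) ψ
  have n1 : 0 ≤ c.En 𝔞 g g ψ := en_nonneg _ _ _ _
  have h4 : ∫ x : sub 9 𝔞, (gsq (sub 9 𝔞) ψ x + (g ^ 2 * c.Pot 1 1 x + g) * ‖ψ x‖ ^ 2) ≤
      g * ((K' + 1) * c.NE 𝔞 g g ψ) := by
    have a1 := mul_le_mul_of_nonneg_right hg1 (mul_nonneg K0 n1)
    have a2 := mul_nonneg g0.le n1
    rw [h2, Ctx.NE]
    linarith
  have h5 := mul_le_mul (le_abs_self K) h4 (integral_nonneg fun x => hD.2.1 x) (abs_nonneg K)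
  rw [shift hT.2.2.2.1 ϑ fun x => gsq (sub 9 𝔞) ψ x + (g ^ 2 * c.Pot 1 1 x + g) * ‖ψ x‖ ^ 2,
    ← setIntegral_eq_integral_of_forall_compl_eq_zero (s := {y : Y | ‖(y : Tn 9 d) - z‖ ≤ δ})
      fun y hy => by rw [hϑ.2.2.2.2 _ (hρ.trans (not_le.1 hy).le)]; simp]
  refine le_trans (setIntegral_mono (int_wt c hT hD hϑ).integrableOn
    (int_slice c hT hD).integrableOn fun y => mul_le_of_le_one_left (hD.2.1 y)
      (pow_le_one₀ (hϑ.2.2.1 _).1 (hϑ.2.2.1 _).2)) (h1.trans (h5.trans_eq (by ring)))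

theorem low (h : c.S_chart) (hT : c.Trans π 𝔞 𝔪 Y z) {ρ : ℝ} (hρ : 0 < ρ) {ϑ : Tn 9 d → ℝ}
    (hϑ : c.Bump ϑ ρ) : ∃ r > 0, ∃ K, 0 ≤ K ∧ ∀ ψ ∈ c.D π 𝔞,
      mass (sub 9 𝔞) (Metric.ball z r) ψ ≤ K * nrm Y fun W => (ϑ W : ℂ) • ψ (z + W) := by
  obtain ⟨r, hr, K, H⟩ := h.low π 𝔞 𝔪 Y z hT (ρ / 2) (half_pos hρ)
  refine ⟨r, hr, |K|, abs_nonneg K, fun ψ hψ => ?_⟩
  have hS := (c.mem_D.1 hψ).1
  have hc := hS.1.continuous
  have hD : c.Dens π 𝔞 fun x => ‖ψ x‖ ^ 2 := ⟨by fun_prop, fun x => sq_nonneg _, c.invR_normsq hψ,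
    Ga2Aux.hcs_of (g := fun x => ‖ψ x‖ ^ 2) hS.2 fun x hx => by simp [hx]⟩
  have e : nrm Y (fun W => (ϑ W : ℂ) • ψ (z + W)) = ∫ y : Y, ϑ (y - z) ^ 2 * ‖ψ y‖ ^ 2 := by
    rw [← shift hT.2.2.2.1 ϑ fun x => ‖ψ x‖ ^ 2]
    simp only [nrm, norm_smul, mul_pow, norm_real, Real.norm_eq_abs, sq_abs]
  simp only [mass, Metric.mem_ball, dist_eq_norm]
  refine (H _ hD).trans (mul_le_mul (le_abs_self K) ?_ (integral_nonneg fun _ => sq_nonneg _)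
    (abs_nonneg K))
  rw [e]
  refine le_trans (le_of_eq (setIntegral_congr_fun
    (isOpen_lt (by fun_prop) continuous_const).measurableSet fun y hy => ?_))
    (setIntegral_le_integral (int_wt c hT hD hϑ) (ae_of_all _ fun y => by positivity))
  simp only [hϑ.2.2.2.1 _ (le_of_lt hy), one_pow, one_mul]

theorem gap {A : Tn 9 d →L[ℝ] Tn 9 d} {Ω : F} (hV : c.VacData π z A Ω) : ∃ a > 0,
    (∀ w ∈ c.Yz π z, a * ‖w‖ ^ 2 ≤ ⟪w, A w⟫) ∧ ∀ x, c.P0 (c.ss π)ᗮ x = x →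
      -(trR A / 2) * ‖x‖ ^ 2 + a * ‖x - inner ℂ Ω x • Ω‖ ^ 2 ≤
        (inner ℂ x ((((1 / 16 : ℝ) : ℂ) • bl c (c.ss π) 1 z) x)).re := by
  obtain ⟨a, ha, hA⟩ := hV.pos
  obtain ⟨b, hb, hB⟩ := hV.gap
  refine ⟨min a (b / 16), by positivity, fun w hw => le_trans (by gcongr; exact min_le_left _ _)
    (hA w hw), fun x hx => ?_⟩
  have h1 := hB x hx
  have h2 := mul_le_mul_of_nonneg_right (min_le_right a (b / 16))
    (sq_nonneg ‖x - inner ℂ Ω x • Ω‖)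
  rw [_root_.smul_apply, Ga2Aux.re_smul_right, bl]
  linarith

end Du1Aux

namespace Ctx

variable {N d : ℕ} {F : Type} [NormedAddCommGroup F] [InnerProductSpace ℂ F]
  [FiniteDimensional ℂ F] (c : Ctx N d F)

theorem p_du1 (h_orb : c.S_orb) (h_chart : c.S_chart) (h_myp : c.S_myp) (h_crd : c.S_crd)
    (h_dl1 : c.S_dl1) : c.S_du1 := by
  intro π z hzU hz A Ω hV
  obtain ⟨𝔪, hT, -, -⟩ := h_orb.yz π z hzU
  obtain ⟨δ₀, hδ₀, C, hC, H0⟩ := Du1Aux.pot c hz hV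
  obtain ⟨r₁, hr₁, H1⟩ := Du1Aux.exact c h_chart hT
  obtain ⟨δ₂, hδ₂, K₂, hK₂, H2⟩ := Du1Aux.up c h_chart h_crd hT
  obtain ⟨a, ha, hA, hG⟩ := Du1Aux.gap c hV
  obtain ⟨K₁, hK₁, H3⟩ := Du1Aux.comb (Tn 9 d) F ha ‖A‖ hC
  obtain ⟨Kc, H4⟩ := exists_cutoff (Tn 9 d)
  refine ⟨min δ₀ (min r₁ δ₂), by positivity, fun ρ hρ hρ0 ϑ hϑ => ?_⟩
  have d0 : ρ ≤ δ₀ := hρ0.trans (min_le_left _ _)
  have d1 : ρ ≤ r₁ := hρ0.trans ((min_le_right _ _).trans (min_le_left _ _))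
  have d2 : ρ ≤ δ₂ := hρ0.trans ((min_le_right _ _).trans (min_le_right _ _))
  obtain ⟨r, hr, K, hK, H5⟩ := Du1Aux.low c h_chart hT hρ hϑ
  refine ⟨r, hr, K * 3, fun ε hε => ?_⟩
  obtain ⟨δ, hδ, e1, e2, e3⟩ : ∃ δ > 0, δ ≤ 1 ∧ δ ≤ ρ / 2 ∧ K * (K₁ * δ * K₂) ≤ ε / 2 := by
    have h0 : 0 < K * K₁ * K₂ + 1 := by positivity
    refine ⟨min 1 (min (ρ / 2) (ε / 2 / (K * K₁ * K₂ + 1))), by positivity, min_le_left _ _,
      (min_le_right _ _).trans (min_le_left _ _), ?_⟩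
    have h1 := (le_div_iff₀ h0).1 ((min_le_right 1 _).trans
      (min_le_right (ρ / 2) (ε / 2 / (K * K₁ * K₂ + 1))))
    have h2 : 0 < min 1 (min (ρ / 2) (ε / 2 / (K * K₁ * K₂ + 1))) := by positivity
    linarith
  obtain ⟨b, hb, -, b01, b1, b0, hB⟩ := H4 (δ / 2) (half_pos hδ)
  have b0' : ∀ x, δ ≤ ‖x‖ → b x = 0 := fun x hx => b0 x (by linarith)
  obtain ⟨K₃, hK₃, H6⟩ := H3 δ hδ e1 (Kc / (δ / 2))
  obtain ⟨K₄, hK₄, H7⟩ := H1 b hb fun x hx => b0' x (by linarith)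
  filter_upwards [H2, eventually_ge_atTop 1,
    eventually_ge_atTop (K * (K₃ * (K₄ + K₂)) / (ε / 2))] with g hg hg1 hg2 ψ hψ
  obtain ⟨hψD, hP⟩ := c.mem_D0.1 hψ
  have hS := (c.mem_D.1 hψD).1
  have hc := hS.1.continuous
  have hYU := hT.2.2.1
  have n0 := Du1Aux.ne_nonneg c (c.ss π) g ψ
  have c1 := Cov4Aux.continuous_gsq (sub 9 (c.ss π)) hS.1
  have c2 := (c.contDiff_Pot 1 1).continuous
  have c3 : Continuous fun x => (inner ℂ (ψ x) (Du1Aux.bl c (c.ss π) 1 x (ψ x))).re :=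
    continuous_re.comp (hc.inner ((Du1Aux.cd_bl c (c.ss π) 1).continuous.clm_apply hc))
  have key := H6 (c.Yz π z) A Ω _ _ (fun W => ψ (z + W)) b ϑ (fun W => c.Pot 1 1 (z + W))
    (fun W => gsq (sub 9 (c.ss π)) ψ (z + W))
    (fun W => (inner ℂ (ψ (z + W)) (Du1Aux.bl c (c.ss π) 1 (z + W) (ψ (z + W)))).re) g ρ _ _ hg1
    hV.sym hV.range le_rfl hA hV.unit hG (hS.1.comp (contDiff_const.add contDiff_id))
    (fun W hW => hP _ (add_mem hzU (hYU hW))) hb b01 b1 b0' hB hϑ.1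
    (fun x hx => hϑ.2.2.2.1 x (hx.trans e2)) hϑ.2.2.2.2 (c2.comp (continuous_const_add z))
    (c1.comp (continuous_const_add z)) (c3.comp (continuous_const_add z))
    (fun x => Du1Aux.pot_nonneg c _)
    (fun x => le_of_eq_of_le (by simp only [gsq, fderiv_comp_add_left]) (gsq_mono ψ (z + x) hYU))
    (fun W hW h => (H0 ρ hρ d0 W hW h).1)
    (fun W hW h => by
      obtain ⟨-, h1, h2⟩ := H0 δ hδ (by linarith) W hW h
      refine ⟨h1, ?_⟩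
      have a1 := re_inner_le_norm (𝕜 := ℂ) (ψ (z + W))
        ((Du1Aux.bl c (c.ss π) 1 z - Du1Aux.bl c (c.ss π) 1 (z + W)) (ψ (z + W)))
      have a2 := ((Du1Aux.bl c (c.ss π) 1 z - Du1Aux.bl c (c.ss π) 1 (z + W)).le_opNorm
        (ψ (z + W))).trans (mul_le_mul_of_nonneg_right h2 (norm_nonneg _))
      have a3 := a1.trans (mul_le_mul_of_nonneg_left a2 (norm_nonneg _))
      rw [_root_.sub_apply, inner_sub_right, RCLike.re_to_complex, sub_re] at a3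
      rw [_root_.smul_apply, Ga2Aux.re_smul_right]
      linarith)
    (mul_nonneg hK₄ n0) (H7 g ψ hψD) (hg ρ d2 ϑ hϑ ψ hψD)
  have g0 : 0 < g := by linarith
  have a1 := mul_le_mul_of_nonneg_right e3 n0
  have a2 : K * (K₃ * (K₄ + K₂)) / g ≤ ε / 2 := by
    rw [div_le_iff₀ (half_pos hε)] at hg2
    rw [div_le_iff₀ g0]
    linarith
  have a3 := mul_le_mul_of_nonneg_right a2 n0
  refine ((H5 ψ hψD).trans (mul_le_mul_of_nonneg_left key hK)).trans ?_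
  have a4 : K * (K₃ * (K₄ * c.NE (c.ss π) g g ψ + K₂ * c.NE (c.ss π) g g ψ) / g) =
      K * (K₃ * (K₄ + K₂)) / g * c.NE (c.ss π) g g ψ := by ring
  rw [Lz, mul_add, mul_add, a4]
  linarith

end Ctx

end Vale.Agent.P353
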