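import Vale.Agent.P353.Stmts

/-! Zero modes are even. -/

noncomputable section

open MeasureTheory Filter Topology Complex Matrix
open scoped ContDiff RealInnerProductSpace

namespace Vale.Agent.P353

namespace EvAux

theorem sq_integral_le {g : ℝ → ℝ} (hg : Continuous g) {T : ℝ} (hT : 0 < T) :
    (∫ t in (0 : ℝ)..T, g t) ^ 2 ≤ T * ∫ t in (0 : ℝ)..T, g t ^ 2 := by
  set J := ∫ t in (0 : ℝ)..T, g t with hJ
  have h0 : 0 ≤ ∫ t in (0 : ℝ)..T, (T * g t - J) ^ 2 :=
    intervalIntegral.integral_nonneg hT.le fun t _ => sq_nonneg _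
  have h1 : ∀ t, (T * g t - J) ^ 2 = T ^ 2 * g t ^ 2 - 2 * T * J * g t + J ^ 2 := fun t => by ring
  have i1 : IntervalIntegrable (fun t => T ^ 2 * g t ^ 2) volume 0 T :=
    (by fun_prop : Continuous fun t => T ^ 2 * g t ^ 2).intervalIntegrable _ _
  have i2 : IntervalIntegrable (fun t => 2 * T * J * g t) volume 0 T :=
    (by fun_prop : Continuous fun t => 2 * T * J * g t).intervalIntegrable _ _
  simp only [h1] at h0
  rw [intervalIntegral.integral_add (i1.sub i2) intervalIntegrable_const,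
    intervalIntegral.integral_sub i1 i2, intervalIntegral.integral_const_mul,
    intervalIntegral.integral_const_mul, intervalIntegral.integral_const, ← hJ, sub_zero,
    smul_eq_mul] at h0
  refine le_of_mul_le_mul_left ?_ hT
  nlinarith

variable {E : Type} [NormedAddCommGroup E] [InnerProductSpace ℝ E] [FiniteDimensional ℝ E]
  [MeasurableSpace E] [BorelSpace E]
variable {F : Type} [NormedAddCommGroup F] [InnerProductSpace ℂ F] [FiniteDimensional ℂ F]
variable {U : Submodule ℝ E}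

/-- the displacement along an isometric flow is controlled by the generator -/
theorem flow_bound {R : ℝ → E →L[ℝ] E} {a : E →L[ℝ] E} (hR : ∀ t, HasDerivAt R (a * R t) t)
    (hRU : ∀ t, ∀ x ∈ U, R t x ∈ U ∧ ‖R t x‖ = ‖x‖) {S : ℝ → F →L[ℝ] F} {G : F →L[ℝ] F}
    (hS : ∀ t, HasDerivAt S (S t * G) t) (hSi : ∀ t y, ‖S t y‖ = ‖y‖) {φ ψ : E → F}
    (hφ : ContDiff ℝ ∞ φ) (hψ : Sm U ψ) (he : ∀ x, ψ x = G (φ x) + fderiv ℝ φ x (a x)) {T : ℝ}
    (hT : 0 < T) :
    nrm U (fun x => S T (φ (R T x)) - S 0 (φ (R 0 x))) ≤ T ^ 2 * nrm U ψ := by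
  have := FiniteDimensional.complete ℂ F
  have hRc : Continuous R := continuous_iff_continuousAt.2 fun t => (hR t).continuousAt
  have hSc : Continuous S := continuous_iff_continuousAt.2 fun t => (hS t).continuousAt
  have hψc := hψ.1.continuous
  have hd : ∀ x t, HasDerivAt (fun t => S t (φ (R t x))) (S t (ψ (R t x))) t := by
    intro x t
    have h1 := (hR t).clm_apply (hasDerivAt_const t x)
    have h2 := (hφ.differentiable (by simp) (R t x)).hasFDerivAt.comp_hasDerivAt t h1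
    refine ((hS t).clm_apply h2).congr_deriv ?_
    rw [he, map_add]
    simp
  have hp : ∀ x, ‖S T (φ (R T x)) - S 0 (φ (R 0 x))‖ ^ 2 ≤
      T * ∫ t in (0 : ℝ)..T, ‖ψ (R t x)‖ ^ 2 := by
    intro x
    have hc : Continuous fun t => S t (ψ (R t x)) := by fun_prop
    rw [← intervalIntegral.integral_eq_sub_of_hasDerivAt (fun t _ => hd x t)
      (hc.intervalIntegrable _ _)]
    refine le_trans ?_ (sq_integral_le (g := fun t => ‖ψ (R t x)‖) (by fun_prop) hT)
    refine pow_le_pow_left₀ (norm_nonneg _) ?_ 2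
    refine (intervalIntegral.norm_integral_le_integral_norm hT.le).trans (le_of_eq ?_)
    simp only [hSi]
  have hinv : ∀ t, ∫ x : U, ‖ψ (R t x)‖ ^ 2 = nrm U ψ := fun t =>
    integral_isometry (fun x hx => (hRU t x hx).2) (map_eq_of_isometry (hRU t))
      fun x => ‖ψ x‖ ^ 2
  obtain ⟨r, hr⟩ := hψ.exists_bound
  have hint : ∀ t, Integrable fun x : U => ‖ψ (R t x)‖ ^ 2 := by
    intro t
    have h1 : Sm U fun x => ψ (R t x) := sm_of_bound (hψ.1.comp (R t).contDiff) (R := r)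
      fun x hx hrx => hr _ (hRU t x hx).1 (by rwa [(hRU t x hx).2])
    simpa using h1.integrable_wnrm (w := fun _ => 1) continuousOn_const
  have hprod : Integrable (Function.uncurry fun (t : ℝ) (x : U) => ‖ψ (R t x)‖ ^ 2)
      ((volume.restrict (Set.uIoc 0 T)).prod volume) := by
    have hc : Continuous (Function.uncurry fun (t : ℝ) (x : U) => ‖ψ (R t x)‖ ^ 2) := by
      unfold Function.uncurry
      fun_prop
    rw [integrable_prod_iff hc.aestronglyMeasurable]
    refine ⟨Eventually.of_forall hint, ?_⟩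
    have : ∀ t, ∫ x : U, ‖Function.uncurry (fun (t : ℝ) (x : U) => ‖ψ (R t x)‖ ^ 2) (t, x)‖ =
        nrm U ψ := fun t => by
      rw [← hinv t]
      simp
    simp only [this]
    rw [Set.uIoc_of_le hT.le]
    exact integrable_const _
  have hsw := intervalIntegral_integral_swap hprod
  have hi2 : Integrable fun x : U => ∫ t in (0 : ℝ)..T, ‖ψ (R t x)‖ ^ 2 := by
    have h1 := hprod.integral_prod_right
    simp only [intervalIntegral.integral_of_le hT.le]
    rwa [Set.uIoc_of_le hT.le] at h1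
  calc nrm U (fun x => S T (φ (R T x)) - S 0 (φ (R 0 x)))
      ≤ ∫ x : U, T * ∫ t in (0 : ℝ)..T, ‖ψ (R t x)‖ ^ 2 :=
        integral_mono_of_nonneg (Eventually.of_forall fun x => sq_nonneg _) (hi2.const_mul T)
          (Eventually.of_forall fun x => hp x)
    _ = T ^ 2 * nrm U ψ := by
        rw [integral_const_mul, ← hsw]
        simp only [hinv]
        rw [intervalIntegral.integral_const, sub_zero, smul_eq_mul]
        ring

/-- the rotation generated by `a` when `a ^ 3 = -a` -/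
def rt (a : E →L[ℝ] E) (t : ℝ) : E →L[ℝ] E := 1 + Real.sin t • a + (1 - Real.cos t) • (a * a)

omit [FiniteDimensional ℝ E] [MeasurableSpace E] [BorelSpace E] in
theorem rt_deriv {a : E →L[ℝ] E} (h3 : a * (a * a) = -a) (t : ℝ) :
    HasDerivAt (rt a) (a * rt a t) t := by
  have h := (((Real.hasDerivAt_sin t).smul_const a).const_add 1).add
    (((Real.hasDerivAt_cos t).const_sub 1).smul_const (a * a))
  refine h.congr_deriv ?_
  rw [rt, mul_add, mul_add, mul_one, mul_smul_comm, mul_smul_comm, h3]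
  module

omit [FiniteDimensional ℝ E] [MeasurableSpace E] [BorelSpace E] in
theorem rt_norm {a : E →L[ℝ] E} (h3 : a * (a * a) = -a) (hs : IsSkew a) (t : ℝ) (x : E) :
    ‖rt a t x‖ = ‖x‖ := by
  have h0 : ∀ y, ⟪y, a y⟫ = 0 := fun y => by
    have h1 := hs y y
    rw [real_inner_comm] at h1
    linarith
  have hd : ∀ s, HasDerivAt (fun s => ‖rt a s x‖ ^ 2) 0 s := fun s => by
    have h1 := ((rt_deriv h3 s).clm_apply (hasDerivAt_const s x)).norm_sq
    refine h1.congr_deriv ?_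
    simp [h0]
  have h1 := is_const_of_deriv_eq_zero (fun s => (hd s).differentiableAt)
    (fun s => (hd s).deriv) t 0
  have h2 : rt a 0 x = x := by simp [rt]
  rw [h2] at h1
  exact (sq_eq_sq₀ (norm_nonneg _) (norm_nonneg _)).1 h1

theorem rot78_cube : (-rot78) * ((-rot78) * (-rot78)) = -(-rot78) := by
  simp only [rot78, neg_sub, Matrix.mul_sub, Matrix.sub_mul, Matrix.single_mul_single_same,
    Matrix.single_mul_single_of_ne _ _ _ _ (show (8 : Fin 9) ≠ 7 by decide),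
    Matrix.single_mul_single_of_ne _ _ _ _ (show (7 : Fin 9) ≠ 8 by decide), mul_one,
    Matrix.mul_zero]
  abel

end EvAux

open EvAux

namespace Ctx

variable {N d : ℕ} {F : Type} [NormedAddCommGroup F] [InnerProductSpace ℂ F]
  [FiniteDimensional ℂ F] (c : Ctx N d F)

theorem ev_par_le (𝔞 : Submodule ℝ (Lg d)) {φ : Tn 9 d → F} (hφ : Sm (sub 9 𝔞) φ) :
    nrm (sub 9 𝔞) (fun x => c.Par (φ x) - φ x) ≤
      (2 * Real.pi) ^ 2 * nrm (sub 9 𝔞) (c.Rot rot78 φ) := by
  have := FiniteDimensional.complete ℂ F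
  set a : Tn 9 d →L[ℝ] Tn 9 d := kr (-rot78) 1 with ha
  set b : Tn 16 d →L[ℝ] Tn 16 d := kr (hat c.γ rot78) 1 with hb
  have h3 : a * (a * a) = -a := by
    rw [ha, kr_mul, kr_mul, rot78_cube, mul_one, mul_one, kr_neg_left]
  have hs : IsSkew a := fun x y => by
    rw [ha, inner_kr _ 1 1 fun _ _ => rfl, Matrix.transpose_neg, rot78_isRot.1, neg_neg,
      kr_neg_left, _root_.neg_apply, inner_neg_right, neg_neg]
  have hU : ∀ x ∈ sub 9 𝔞, a x ∈ sub 9 𝔞 := fun x hx => mem_sub.2 fun i => by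
    rw [ha, cmp_kr]
    exact Submodule.sum_mem _ fun j _ => Submodule.smul_mem _ _ (mem_sub.1 hx j)
  have hb2 : (2 * Real.pi) • b = kr (Real.pi • (c.γ 7 * c.γ 8)) 1 := by
    rw [hb, c.gam.hat_rot78, ← kr_smul_left, smul_smul]
    congr 2
    ring
  have hbs : ∀ t : ℝ, IsSkew (t • b) := fun t x y => by
    have h1 : t • b = (t / (2 * Real.pi)) • ((2 * Real.pi) • b) := by
      rw [smul_smul, div_mul_cancel₀ _ (by positivity)]
    rw [h1, hb2, _root_.smul_apply, _root_.smul_apply, real_inner_smul_left, real_inner_smul_right,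
      c.par_skew x y, mul_neg]
  have hexp : ∀ t : ℝ, t • dG c.θ b = dG c.θ (t • b) := fun t => by
    rw [dG_smul, Complex.coe_smul]
  let ρ := ContinuousLinearMap.restrictScalarsL ℂ F F ℝ ℝ
  have hS : ∀ t : ℝ, HasDerivAt (fun t : ℝ => ρ (NormedSpace.exp (t • dG c.θ b)))
      (ρ (NormedSpace.exp (t • dG c.θ b)) * ρ (dG c.θ b)) t := fun t =>
    ρ.hasFDerivAt.comp_hasDerivAt t (hasDerivAt_exp_smul_const (dG c.θ b) t)
  have hψ : Sm (sub 9 𝔞) fun x => dG c.θ b (φ x) + fderiv ℝ φ x (a x) :=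
    (hφ.clm (a := fun _ => dG c.θ b) contDiff_const).add (hφ.fderiv a.contDiff hU)
  have key := flow_bound (U := sub 9 𝔞) (rt_deriv h3) (fun t x hx => ⟨?_, rt_norm h3 hs t x⟩) hS
    (fun t y => ?_) hφ.1 hψ (fun x => rfl) (T := 2 * Real.pi) (by positivity)
  · have e1 : rt a (2 * Real.pi) = 1 := by simp [rt]
    have e2 : rt a 0 = 1 := by simp [rt]
    have e3 : (fun x => dG c.θ b (φ x) + fderiv ℝ φ x (a x)) = fun x => -c.Rot rot78 φ x := by
      funext x
      rw [Rot, ha, kr_neg_left, _root_.neg_apply, map_neg, ← hb]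
      abel
    rw [e1, e2, hexp, hb2, zero_smul, NormedSpace.exp_zero, e3] at key
    simpa [nrm, Par, ρ] using key
  · simp only [rt, _root_.add_apply, _root_.smul_apply]
    exact Submodule.add_mem _ (Submodule.add_mem _ hx (Submodule.smul_mem _ _ (hU x hx)))
      (Submodule.smul_mem _ _ (hU _ (hU x hx)))
  · rw [hexp]
    exact c.car.norm_exp_dG (hbs t) y

theorem ev_mass (h_spec : c.S_spec) (π : Setoid (Fin N)) {m : ℝ} (hm : 0 < m) :
    ∀ u ∈ c.V π 1 m, opL _ c.Par u = u := by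
  intro u hu
  have key : ∀ δ > 0, δ ≤ 1 → ‖opL _ c.Par u - u‖ ≤ (‖c.Par‖ + 1 + 2 * Real.pi) * δ := by
    intro δ hδ hδ1
    obtain ⟨φ, hφ, h1, h2⟩ := h_spec.rot π 1 m one_pos hm u hu (δ ^ 2) (by positivity)
    have hs : Sm (sub 9 (c.ss π)) φ := hφ.1
    have hs' : Sm (sub 9 (c.ss π)) fun x => c.Par (φ x) :=
      hs.clm (a := fun _ => c.Par) contDiff_const
    have h3 : ‖L2 _ φ - u‖ ≤ δ := h1.trans (by nlinarith)
    have h4 : ‖opL _ c.Par (L2 (sub 9 (c.ss π)) φ) - L2 _ φ‖ ≤ 2 * Real.pi * δ := by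
      rw [opL_L2 _ hs.memLp, ← L2_sub hs'.memLp hs.memLp]
      refine abs_le_of_sq_le_sq' ?_ (by positivity) |>.2
      rw [norm_L2_sq (hs'.sub hs).memLp, mul_pow]
      exact (c.ev_par_le _ hs).trans (mul_le_mul_of_nonneg_left h2 (by positivity))
    have h5 : ‖opL _ c.Par (L2 (sub 9 (c.ss π)) φ - u)‖ ≤ ‖c.Par‖ * δ :=
      (ContinuousLinearMap.le_opNorm _ _).trans
        (mul_le_mul (norm_opL_le _) h3 (norm_nonneg _) (norm_nonneg _))
    have h6 : opL _ c.Par u - u = (opL _ c.Par (L2 (sub 9 (c.ss π)) φ) - L2 _ φ) +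
        (L2 _ φ - u) - opL _ c.Par (L2 (sub 9 (c.ss π)) φ - u) := by
      rw [map_sub]; abel
    rw [h6]
    refine (norm_sub_le _ _).trans ?_
    have h7 := norm_add_le (opL _ c.Par (L2 (sub 9 (c.ss π)) φ) - L2 _ φ) (L2 _ φ - u)
    linarith
  have hK : 0 < ‖c.Par‖ + 1 + 2 * Real.pi := by positivity
  rw [← sub_eq_zero, ← norm_le_zero_iff]
  refine le_of_forall_pos_le_add fun ε hε => ?_
  have h1 := key (min 1 (ε / (‖c.Par‖ + 1 + 2 * Real.pi))) (by positivity) (min_le_left _ _)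
  have h2 := mul_le_mul_of_nonneg_left (min_le_right 1 (ε / (‖c.Par‖ + 1 + 2 * Real.pi))) hK.le
  rw [mul_div_cancel₀ _ hK.ne'] at h2
  linarith

theorem p_ev (h_spec : c.S_spec) : c.S_ev := by
  intro π β hβ
  have hcl : IsClosed {u : LL (sub 9 (c.ss π)) F | opL _ c.Par u = u} :=
    isClosed_eq (ContinuousLinearMap.continuous _) continuous_id
  refine hcl.closure_subset (Metric.mem_closure_iff.2 fun ε hε => ?_)
  have hδ : 0 < min 1 (ε / 20) := by positivity
  have hδ1 : min 1 (ε / 20) ≤ 1 := min_le_left _ _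
  have hδ2 : min 1 (ε / 20) ≤ ε / 20 := min_le_right _ _
  set δ := min 1 (ε / 20)
  obtain ⟨R, ⟨φ, hφ, -, h1, h2, -, h3⟩, hR⟩ := ((c.car.approx (fun α => c.contDiff_beta 1 0 _)
    (c.iso _ 1 0) (c.adm_C0 π) hβ (ε := δ ^ 2) (by positivity)).and (eventually_gt_atTop 0)).exists
  have hm : 0 < (R ^ 2)⁻¹ := by positivity
  obtain ⟨u, hu, h4⟩ := h_spec.gap π 1 _ one_pos hm φ hφ
  refine ⟨u, c.ev_mass h_spec π hm u hu, ?_⟩
  have h5 := c.En_mass_le (c.ss π) 1 0 (R ^ 2)⁻¹ hφ.1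
  have h6 : c.En (c.ss π) 1 0 φ ≤ δ ^ 2 / R ^ 2 := h2
  have h7 : 64 * ((R ^ 2)⁻¹ - 0) ^ 2 * wnrm (sub 9 (c.ss π)) (fun x => ‖x‖ ^ 2) φ ≤
      64 * ((R ^ 2)⁻¹ - 0) ^ 2 * (δ ^ 2 * R ^ 2) := mul_le_mul_of_nonneg_left h3 (by positivity)
  have h8 : 2 * (δ ^ 2 / R ^ 2) + 64 * ((R ^ 2)⁻¹ - 0) ^ 2 * (δ ^ 2 * R ^ 2) =
      (R ^ 2)⁻¹ * (66 * δ ^ 2) := by
    field_simp
    ring
  have h9 : ‖L2 _ φ - u‖ ^ 2 ≤ 66 * δ ^ 2 := le_of_mul_le_mul_left (by linarith) hm
  have h10 : ‖L2 _ φ - u‖ ≤ 9 * δ :=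
    (abs_le_of_sq_le_sq' (by nlinarith [sq_nonneg δ]) (by positivity)).2
  have h11 : ‖L2 _ φ - β‖ ≤ δ := h1.trans (by nlinarith)
  have h12 := dist_triangle_left β u (L2 _ φ)
  rw [dist_eq_norm (L2 _ φ), dist_eq_norm (L2 _ φ)] at h12
  linarith

end Ctx

end Vale.Agent.P353
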