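import Vale.Agent.P353.ExcAux2

/-! The local estimate for the excited part. -/

noncomputable section

open MeasureTheory Filter Topology Complex Matrix
open scoped ContDiff RealInnerProductSpace

namespace Vale.Agent.P353

namespace ExcAux

variable {N d : ℕ} {F : Type} [NormedAddCommGroup F] [InnerProductSpace ℂ F]
  [FiniteDimensional ℂ F] {c : Ctx N d F} {π π' : Setoid (Fin N)} {𝔞 𝔟 𝔴 : Submodule ℝ (Lg d)}
  {v : Fin 9 → ℝ} {g m : ℝ} {φ ψ : Tn 9 d → F} {X : Tn 9 d}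

theorem En_nonneg : 0 ≤ c.En 𝔞 g m ψ := en_nonneg _ _ _ _

theorem En_mul_le (hψ : Sm (sub 9 𝔞) ψ) {f : Tn 9 d → ℝ} (hf : ContDiff ℝ ∞ f) {M : ℝ}
    (hM : ∀ x ∈ sub 9 𝔞, ψ x ≠ 0 → |f x| ≤ M ∧ ‖fderiv ℝ f x‖ ≤ M) :
    c.En 𝔞 g m (fun x => (f x : ℂ) • ψ x) ≤ 16 * M ^ 2 * c.NE 𝔞 g m ψ := by
  have h1 : c.En 𝔞 g m (fun x => (f x : ℂ) • ψ x) ≤
      2 * M ^ 2 * c.En 𝔞 g m ψ + 16 * 1 ^ 2 * M ^ 2 * nrm (sub 9 𝔞) ψ :=
    c.car.en_mulR_le' 1 (fun α => c.contDiff_beta g m (eb α)) (c.iso (sub 9 𝔞) g m) hψ hf hM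
  have h2 := mul_nonneg (sq_nonneg M) (En_nonneg (c := c) (𝔞 := 𝔞) (g := g) (m := m) (ψ := ψ))
  unfold Ctx.NE
  linarith

theorem t1 (ho : c.S_orb) (hc : c.S_chart) (hL : c.Lc π 𝔞 π' v) {X₀ : Tn 9 d}
    (hX₀ : X₀ ∈ c.Sl 𝔞 π') (hO : X₀ ∈ c.Ow (c.off π π') v) :
    ∃ r > 0, ∀ ρ > 0, 4 * ρ ≤ r → ∀ b : Tn 9 d → ℝ, ContDiff ℝ ∞ b →
      (∀ x, 2 * ρ ≤ ‖x - X₀‖ → b x = 0) → ∃ B : ℝ, 0 ≤ B ∧ ∀ g : ℝ, ∀ ψ ∈ c.D π 𝔞,
      (∀ X ∈ c.Sl 𝔞 π', ∀ W ∈ Wsl (c.off π π') v, b X ≠ 0 → ρ < ‖W‖ →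
        c.den 𝔞 g 0 (X + W) ψ (X + W) = 0) →
      ∫ X : c.Sl 𝔞 π', b X ^ 2 * ∫ W : Wsl (c.off π π') v, c.den 𝔞 g 0 (X + W) ψ (X + W) ≤
        B * c.NE 𝔞 g 0 ψ := by
  obtain ⟨r, hr, H⟩ := hc.exact π 𝔞 _ _ X₀ (ho.trans π 𝔞 π' v hL X₀ hX₀ hO)
  refine ⟨r, hr, fun ρ hρ hρr b hb hb0 => ?_⟩
  obtain ⟨_, hcut⟩ := exists_cutoff (Tn 9 d)
  obtain ⟨ϑ, t1, -, -, t2, t3, -⟩ := hcut ρ hρ
  have hP : ContDiff ℝ ∞ fun y : Tn 9 d => (c.Sl 𝔞 π').starProjection y :=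
    (c.Sl 𝔞 π').starProjection.contDiff
  obtain ⟨χ, x1, x2, x3⟩ := H
    (fun y => b ((c.Sl 𝔞 π').starProjection y) * ϑ (y - (c.Sl 𝔞 π').starProjection y))
    ((hb.comp hP).mul (t1.comp (contDiff_id.sub hP))) fun y _ hy => by
      by_contra h0
      obtain ⟨a1, a2⟩ := mul_ne_zero_iff.1 h0
      have a3 := not_le.1 fun h => a1 (hb0 _ h)
      have a4 := not_le.1 fun h => a2 (t3 _ h)
      have a5 := norm_add_le ((c.Sl 𝔞 π').starProjection y - X₀)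
        (y - (c.Sl 𝔞 π').starProjection y)
      rw [sub_add_sub_cancel'] at a5
      linarith
  obtain ⟨M, hM0, hM⟩ := bounds (sub 9 𝔞) x1 x2
  refine ⟨16 * M ^ 2 + 8 * M, by positivity, fun g ψ hψ h0 => ?_⟩
  have hs := (c.mem_D.1 hψ).1
  have hd := den_cont c 𝔞 g 0 continuous_id hs.1
  have e1 := (fub (ortho c π π' 𝔞 v) (Y_le hL) (w := fun x => b x ^ 2) (hb.continuous.pow 2) hd
    (den_supp le_rfl hs c g 0 id)).2.2.1
  have e2 := x3 _ hd (den_inv hL.1 hψ g 0)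
  have e3 := den_weight c 𝔞 g 0 hs.1 x1 (hs.mulR x1).2
  simp only [id] at e1 e2
  have e4 : ∫ y : (c.Sl 𝔞 π' ⊔ Wsl (c.off π π') v : Submodule ℝ (Tn 9 d)),
      b ((c.Sl 𝔞 π').starProjection y) ^ 2 * c.den 𝔞 g 0 y ψ y =
      ∫ y : (c.Sl 𝔞 π' ⊔ Wsl (c.off π π') v : Submodule ℝ (Tn 9 d)),
      (b ((c.Sl 𝔞 π').starProjection y) * ϑ (y - (c.Sl 𝔞 π').starProjection y)) ^ 2 *
        c.den 𝔞 g 0 y ψ y := by
    refine integral_congr_ae (ae_of_all _ fun y => ?_)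
    simp only
    by_cases a1 : b ((c.Sl 𝔞 π').starProjection y) = 0
    · simp [a1]
    by_cases a2 : ‖(y : Tn 9 d) - (c.Sl 𝔞 π').starProjection y‖ ≤ ρ
    · rw [t2 _ a2, mul_one]
    · have := h0 _ ((c.Sl 𝔞 π').starProjection_apply_mem y) _
        (sub_proj_mem (ortho c π π' 𝔞 v) y.2) a1 (not_le.1 a2)
      rw [add_sub_cancel] at this
      rw [this, mul_zero, mul_zero]
  have e5 := En_mul_le (c := c) (g := g) (m := 0) hs x1 fun x _ _ => ⟨(hM x).1, (hM x).2.1⟩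
  have e6 : ∫ x : sub 9 𝔞, χ x * lap (sub 9 𝔞) χ x * ‖ψ x‖ ^ 2 ≤ M * nrm (sub 9 𝔞) ψ := by
    rw [nrm, ← integral_const_mul]
    refine integral_mono (hs.integrable_wnrm (w := fun x => χ x * lap (sub 9 𝔞) χ x)
      (x1.continuous.mul (continuous_lap _ x1)).continuousOn)
      (hs.integrable_wnrm (w := fun _ => M) continuousOn_const) fun x => ?_
    exact mul_le_mul_of_nonneg_right ((le_abs_self _).trans (hM x).2.2) (sq_nonneg _)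
  have e7 := mul_nonneg hM0 (En_nonneg (c := c) (𝔞 := 𝔞) (g := g) (m := 0) (ψ := ψ))
  rw [e1, e4, ← e2, e3]
  unfold Ctx.NE at e5 ⊢
  linarith

theorem t2 (h1 : c.S_lm1) (hs : c.S_s1) (hL : c.Lc π 𝔞 π' v) {K : Set (Tn 9 d)}
    (hK : IsCompact K) (hO : K ⊆ c.Ow (c.off π π') v) {b : Tn 9 d → ℝ} (hb : ContDiff ℝ ∞ b)
    (hb0 : ∀ x, x ∉ K → b x = 0) : ∃ B : ℝ, 0 ≤ B ∧ ∀ g : ℝ, ∀ ψ ∈ c.D π 𝔞,
      -(B * nrm (sub 9 𝔞) ψ) ≤ ∫ X : c.Sl 𝔞 π', b X ^ 2 *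
        ∫ W : Wsl (c.off π π') v, c.den (𝔞 ⊓ c.blk π') g 0 X ψ (X + W) := by
  have hc : HasCompactSupport b := HasCompactSupport.intro hK hb0
  obtain ⟨M, hM0, hM⟩ := bounds (c.Sl 𝔞 π') hb hc
  obtain ⟨C, hC, hC'⟩ := slice_bound h1 hs hL hK hO
  refine ⟨8 * (M * C), by positivity, fun g ψ hψ => ?_⟩
  have hm := (c.mem_D.1 hψ).1
  have hP := (c.Sl 𝔞 π').starProjection.continuous
  obtain ⟨-, a1, -, a2⟩ := fub (ortho c π π' 𝔞 v) (Y_le hL) (w := fun x => b x ^ 2)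
    (hb.continuous.pow 2) (den_cont c (𝔞 ⊓ c.blk π') g 0 hP hm.1) (den_supp Sl_le hm c g 0 _)
  simp only [proj_add (ortho c π π' 𝔞 v)] at a1 a2
  obtain ⟨-, b1, -, b2⟩ := fub (ortho c π π' 𝔞 v) (Y_le hL)
    (w := fun x => b x * lap (c.Sl 𝔞 π') b x) (f := fun x => ‖ψ x‖ ^ 2)
    (hb.continuous.mul (continuous_lap _ hb)) (hm.1.continuous.norm.pow 2) (sq_supp hm)
  have e1 := (abs_le.1 (hC' _ (dens_sq hψ) (fun X => b X * lap (c.Sl 𝔞 π') b X) M hM0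
    (fun X => (hM X).2.2) fun X hX => by rw [hb0 _ hX, zero_mul])).1
  have e2 : ∫ W : Wsl (c.off π π') v, 8 * ∫ X : c.Sl 𝔞 π',
      b X * lap (c.Sl 𝔞 π') b X * ‖ψ (X + W)‖ ^ 2 ≤ ∫ W : Wsl (c.off π π') v, ∫ X : c.Sl 𝔞 π',
      b X ^ 2 * c.den (𝔞 ⊓ c.blk π') g 0 X ψ (X + W) := by
    refine integral_mono (b1.const_mul 8) a1 fun W => ?_
    have e3 := den_weight c (𝔞 ⊓ c.blk π') g 0 (ψ := fun y => ψ (y + (W : Tn 9 d)))
      (hm.1.comp (contDiff_id.add contDiff_const)) hb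
      ((hc.comp_isClosedEmbedding
        (c.Sl 𝔞 π').closed_of_finiteDimensional.isClosedEmbedding_subtypeVal).mono
        fun x hx h0 => hx (by
          have h2 : b x = 0 := h0
          simp [h2]))
    simp only [Ctx.den, gsq_shift] at e3
    simp only [Ctx.den]
    rw [e3]
    exact le_add_of_nonneg_left En_nonneg
  rw [integral_const_mul, ← b2, ← a2] at e2
  unfold nrm
  linarith

theorem loc1 (h1 : c.S_lm1) (h2 : c.S_lm2) (ho : c.S_orb) (hc : c.S_chart) (hs : c.S_s1)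
    (he : c.S_exp) (hL : c.Lc π 𝔞 π' v) {X₀ : Tn 9 d} (hX₀ : X₀ ∈ c.Sl 𝔞 π')
    (hO : X₀ ∈ c.Ow (c.off π π') v) :
    ∃ ρ > 0, Metric.closedBall X₀ ρ ⊆ c.Ow (c.off π π') v ∧ ∃ δ₁ > 0, ∃ B : ℝ, 0 ≤ B ∧
      ∀ δ > 0, δ ≤ δ₁ → ∀ g, 1 ≤ g → ∀ ψ ∈ c.D π 𝔞,
      (∀ x ∈ sub 9 𝔞, δ ^ 2 < c.Fsq x → ψ x = 0) →
      g * ∫ X in {X : c.Sl 𝔞 π' | (X : Tn 9 d) ∈ Metric.closedBall X₀ ρ},
        EE c (c.off π π') v g ψ X ≤ B * c.NE 𝔞 g 0 ψ + B * δ *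
        (grad (sub 9 𝔞) ψ + g ^ 2 * wnrm (sub 9 𝔞) c.Fsq ψ + g * nrm (sub 9 𝔞) ψ) := by
  obtain ⟨r, hr, H1⟩ := t1 ho hc hL hX₀ hO
  obtain ⟨r', hr', hr''⟩ := Metric.nhds_basis_closedBall.mem_iff.1 ((h1.isOpen _ v).mem_nhds hO)
  obtain ⟨ρ, hρ, hρ1, hρ2⟩ : ∃ ρ > 0, 4 * ρ ≤ r ∧ 2 * ρ ≤ r' :=
    ⟨min (r / 4) (r' / 2), by positivity, by linarith [min_le_left (r / 4) (r' / 2)],
      by linarith [min_le_right (r / 4) (r' / 2)]⟩
  have hK0 : Metric.closedBall X₀ (2 * ρ) ⊆ c.Ow (c.off π π') v :=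
    (Metric.closedBall_subset_closedBall hρ2).trans hr''
  refine ⟨ρ, hρ, (Metric.closedBall_subset_closedBall (by linarith)).trans hK0, ?_⟩
  obtain ⟨_, hcut⟩ := exists_cutoff (Tn 9 d)
  obtain ⟨ϑ, t1, -, t0, t2', t3, -⟩ := hcut ρ hρ
  have hb : ContDiff ℝ ∞ fun x => ϑ (x - X₀) := t1.comp (contDiff_id.sub contDiff_const)
  have hb0 : ∀ x, x ∉ Metric.closedBall X₀ (2 * ρ) → ϑ (x - X₀) = 0 := fun x hx =>
    t3 _ (not_le.1 fun h => hx (mem_closedBall_iff_norm.2 h)).le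
  have hK : IsCompact (Metric.closedBall X₀ (2 * ρ) ∩ c.Sl 𝔞 π') :=
    (isCompact_closedBall _ _).inter_right (c.Sl 𝔞 π').closed_of_finiteDimensional
  have hKO := (Set.inter_subset_left (t := (c.Sl 𝔞 π' : Set (Tn 9 d)))).trans hK0
  obtain ⟨B1, hB1, H1⟩ := H1 ρ hρ hρ1 _ hb fun x hx => t3 _ hx
  obtain ⟨B2, hB2, H2⟩ := t2 h1 hs hL (isCompact_closedBall _ _) hK0 hb hb0
  obtain ⟨C, hC, H3⟩ := slice_bound h1 hs hL (isCompact_closedBall _ _) hK0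
  obtain ⟨k, hk, δ₀, hδ₀, M, hM, H4⟩ := he π 𝔞 π' v hL _ hK hKO Set.inter_subset_right
  obtain ⟨_, -, M2, hM2, H5⟩ := h2 π π' v hL.2.1 hL.2.2 _ hK hKO
    fun X hX => sub_mono inf_le_right hX.2
  refine ⟨min δ₀ (ρ / (M2 + 1)), by positivity, (B1 + B2 + M * C) / k, by positivity,
    fun δ hδ hδ1 g hg ψ hψ h0 => ?_⟩
  have hm := (c.mem_D.1 hψ).1
  have hδ2 : M2 * δ ^ 2 ≤ ρ ^ 2 := by
    have a1 : δ * (M2 + 1) ≤ ρ := (le_div_iff₀ (by positivity)).1 (hδ1.trans (min_le_right _ _))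
    have a2 : (δ * (M2 + 1)) ^ 2 ≤ ρ ^ 2 := pow_le_pow_left₀ (by positivity) a1 2
    nlinarith [mul_nonneg (sq_nonneg δ) hM2, mul_nonneg (sq_nonneg δ) (sq_nonneg M2), sq_nonneg δ]
  have e1 := H1 g ψ hψ fun X hX W hW a1 a2 => by
    have a3 := (((H5 X ⟨by_contra fun h => a1 (hb0 _ h), hX⟩).2.2) W hW).1
    have a4 : δ ^ 2 < c.Fsq (X + W) := by
      have a5 : ρ ^ 2 < ‖W‖ ^ 2 := pow_lt_pow_left₀ a2 hρ.le two_ne_zero
      exact lt_of_mul_lt_mul_left (by linarith) hM2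
    have a5 : X + W ∈ sub 9 𝔞 := add_mem (Sl_le hX) (Wsl_le hL hW)
    exact den_zero (gsq_zero hm.1 (isOpen_lt continuous_const c.contDiff_Fsq.continuous) h0 a5 a4)
      (h0 _ a5 a4)
  have e2 := H2 g ψ hψ
  have hw : ∀ X : c.Sl 𝔞 π', |ϑ (X - X₀) ^ 2| ≤ 1 := fun X => by
    rw [abs_of_nonneg (sq_nonneg _)]
    exact pow_le_one₀ (t0 _).1 (t0 _).2
  have hw0 : ∀ X : c.Sl 𝔞 π', (X : Tn 9 d) ∉ Metric.closedBall X₀ (2 * ρ) →
      ϑ (X - X₀) ^ 2 = 0 := fun X hX => by rw [hb0 _ hX]; norm_num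
  have hE := dens_err hL.1 hψ (zero_le_one.trans hg)
  have e3 := (le_abs_self _).trans (H3 _ hE _ 1 zero_le_one hw hw0)
  have e4 := (le_abs_self _).trans (H3 _ (dens_sq hψ) _ 1 zero_le_one hw hw0)
  rw [int_err hm] at e3
  have hP := (c.Sl 𝔞 π').starProjection.continuous
  have c1 := den_cont c 𝔞 g 0 continuous_id hm.1
  have c2 := den_cont c (𝔞 ⊓ c.blk π') g 0 hP hm.1
  have s1 := den_supp le_rfl hm c g 0 id
  have s2 := den_supp (Sl_le (c := c) (π' := π')) hm c g 0 (c.Sl 𝔞 π').starProjection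
  have hw1 : Continuous fun x => ϑ (x - X₀) ^ 2 := hb.continuous.pow 2
  have i1 := (fub (ortho c π π' 𝔞 v) (Y_le hL) hw1 c1 s1).1
  have i2 := (fub (ortho c π π' 𝔞 v) (Y_le hL) hw1 c2 s2).1
  have i3 := (fub (ortho c π π' 𝔞 v) (Y_le hL) hw1 hE.1 hE.2.2.2).1
  have i4 := (fub (ortho c π π' 𝔞 v) (Y_le hL) hw1 (dens_sq hψ).1 (dens_sq hψ).2.2.2).1
  simp only [id] at i1
  simp only [proj_add (ortho c π π' 𝔞 v)] at i2
  have hS : MeasurableSet {X : c.Sl 𝔞 π' | (X : Tn 9 d) ∈ Metric.closedBall X₀ ρ} :=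
    (Metric.isClosed_closedBall.preimage continuous_subtype_val).measurableSet
  have i5 := i1.sub i2
  have i6 := i5.add (i3.const_mul (M * δ))
  have e5 := integral_mono_of_nonneg
    (f := fun X : c.Sl 𝔞 π' => k * g * {X : c.Sl 𝔞 π' | (X : Tn 9 d) ∈
      Metric.closedBall X₀ ρ}.indicator (fun X => EE c (c.off π π') v g ψ X) X)
    (ae_of_all _ fun X => mul_nonneg (by positivity) (Set.indicator_nonneg (fun _ _ => EE_nonneg) _))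
    (i6.add (i4.const_mul M)) (ae_of_all _ fun X => by
      simp only [Pi.add_apply, Pi.sub_apply]
      by_cases hX : (X : Tn 9 d) ∈ Metric.closedBall X₀ (2 * ρ)
      · have a1 := H4 δ hδ (hδ1.trans (min_le_left _ _)) g hg ψ hψ h0 X ⟨hX, X.2⟩
        have j1 := int_slice (Wsl_le hL) c1 s1 (Sl_le X.2)
        have j2 := int_slice (Wsl_le hL) c2 s2 (Sl_le X.2)
        simp only [id] at j1
        simp only [proj_add (ortho c π π' 𝔞 v)] at j2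
        rw [integral_sub j1 j2] at a1
        have a2 : 0 ≤ k * g * EE c (c.off π π') v g ψ X := mul_nonneg (by positivity) EE_nonneg
        have a3 := mul_le_mul_of_nonneg_left (a2.trans a1) (sq_nonneg (ϑ (X - X₀)))
        by_cases hX' : (X : Tn 9 d) ∈ Metric.closedBall X₀ ρ
        · rw [Set.indicator_of_mem (by exact hX'), t2' _ (mem_closedBall_iff_norm.1 hX')]
          unfold EE
          linarith
        · rw [Set.indicator_of_notMem (by exact hX')]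
          linarith
      · have hX' : (X : Tn 9 d) ∉ Metric.closedBall X₀ ρ :=
          fun h => hX (Metric.closedBall_subset_closedBall (by linarith) h)
        rw [hw0 X hX, Set.indicator_of_notMem (by exact hX')]
        simp)
  rw [integral_add' i6, integral_add' i5, integral_sub' i1 i2, integral_const_mul,
    integral_const_mul, integral_const_mul, integral_indicator hS] at e5
  rotate_left
  · exact i3.const_mul _
  · exact i4.const_mul _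
  have n1 := nrm_nonneg (sub 9 𝔞) ψ
  have n2 := En_nonneg (c := c) (𝔞 := 𝔞) (g := g) (m := 0) (ψ := ψ)
  have n3 : 0 ≤ grad (sub 9 𝔞) ψ + g ^ 2 * wnrm (sub 9 𝔞) c.Fsq ψ + g * nrm (sub 9 𝔞) ψ := by
    rw [← int_err hm]
    exact integral_nonneg fun x => hE.2.1 _
  have e6 := mul_le_mul_of_nonneg_left e3 (mul_nonneg hM hδ.le)
  have e7 := mul_le_mul_of_nonneg_left e4 hM
  have e8 := mul_nonneg (mul_nonneg (add_nonneg hB1 hB2) hδ.le) n3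
  have e9 := mul_nonneg (add_nonneg hB2 (mul_nonneg hM hC)) n2
  refine le_of_mul_le_mul_left ?_ hk
  have e10 : ∀ x y : ℝ, k * ((B1 + B2 + M * C) / k * x + (B1 + B2 + M * C) / k * δ * y) =
      (B1 + B2 + M * C) * x + (B1 + B2 + M * C) * δ * y := fun x y => by field_simp
  rw [e10]
  unfold Ctx.NE at e1 ⊢
  unfold nrm at *
  linarith

end ExcAux

end Vale.Agent.P353
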