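import Vale.Agent.P353.Stmts
import Vale.Agent.P353.Gau
import Vale.Agent.P353.ExcAux3

/-! The excited part is small. -/

noncomputable section

open MeasureTheory Filter Topology Complex Matrix
open scoped ContDiff RealInnerProductSpace

namespace Vale.Agent.P353

namespace ExcAux

variable {N d : ℕ} {F : Type} [NormedAddCommGroup F] [InnerProductSpace ℂ F]
  [FiniteDimensional ℂ F] {c : Ctx N d F} {π π' : Setoid (Fin N)} {𝔞 : Submodule ℝ (Lg d)}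
  {v : Fin 9 → ℝ}

theorem nrm_mul_le {ψ : Tn 9 d → F} (hψ : Sm (sub 9 𝔞) ψ) {f w : Tn 9 d → ℝ} (hw : Continuous w)
    (h : ∀ x, f x ^ 2 ≤ w x) :
    nrm (sub 9 𝔞) (fun x => (f x : ℂ) • ψ x) ≤ wnrm (sub 9 𝔞) w ψ := by
  refine integral_mono_of_nonneg (ae_of_all _ fun x => sq_nonneg _)
    (hψ.integrable_wnrm hw.continuousOn) (ae_of_all _ fun x => ?_)
  simp only [norm_smul, Complex.norm_real, Real.norm_eq_abs, mul_pow, sq_abs]
  exact mul_le_mul_of_nonneg_right (h x) (sq_nonneg _)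

theorem fsq_cut (c : Ctx N d F) {δ : ℝ} (hδ : 0 < δ) (R : ℝ) : ∃ (f : Tn 9 d → ℝ) (M : ℝ),
    ContDiff ℝ ∞ f ∧ (∀ u x, f (c.Ad9 u x) = f x) ∧ (∀ x, f x ^ 2 ≤ 1) ∧
    (∀ x, (1 - f x) ^ 2 ≤ 2 / δ ^ 2 * c.Fsq x) ∧ (∀ x, δ ^ 2 < c.Fsq x → f x = 0) ∧
    ∀ x, ‖x‖ ≤ R → |f x| ≤ M ∧ ‖fderiv ℝ f x‖ ≤ M := by
  obtain ⟨_, hcut⟩ := exists_cutoff ℝ
  obtain ⟨χ, t1, -, t0, t2, t3, -⟩ := hcut (δ ^ 2 / 2) (by positivity)
  have hf : ContDiff ℝ ∞ fun x => χ (c.Fsq x) := t1.comp c.contDiff_Fsq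
  obtain ⟨M, hM⟩ := (isCompact_closedBall (0 : Tn 9 d) R).exists_bound_of_continuousOn
    (hf.continuous_fderiv (by simp)).continuousOn
  refine ⟨_, max 1 M, hf, fun u x => by rw [c.Fsq_Ad9], fun x => pow_le_one₀ (t0 _).1 (t0 _).2,
    fun x => ?_, fun x hx => t3 _ ?_, fun x hx => ⟨?_, ?_⟩⟩
  · have h1 := c.Fsq_nonneg x
    by_cases h : c.Fsq x ≤ δ ^ 2 / 2
    · rw [t2 _ (by rwa [Real.norm_of_nonneg h1]), sub_self, zero_pow two_ne_zero]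
      positivity
    · refine (pow_le_one₀ (sub_nonneg.2 (t0 _).2) (sub_le_self _ (t0 _).1)).trans ?_
      rw [div_mul_eq_mul_div, le_div_iff₀ (by positivity)]
      linarith
  · rw [Real.norm_of_nonneg (c.Fsq_nonneg x)]
    linarith
  · rw [abs_of_nonneg (t0 _).1]
    exact (t0 _).2.trans (le_max_left _ _)
  · exact (hM x (mem_closedBall_zero_iff.2 hx)).trans (le_max_right _ _)

theorem loc2 (h1 : c.S_lm1) (h2 : c.S_lm2) (ho : c.S_orb) (hc : c.S_chart) (hs : c.S_s1)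
    (hr : c.S_cr) (ht : c.S_tb) (he : c.S_exp) (hL : c.Lc π 𝔞 π' v) {X₀ : Tn 9 d}
    (hX₀ : X₀ ∈ c.Sl 𝔞 π') (hO : X₀ ∈ c.Ow (c.off π π') v) (R : ℝ) :
    ∃ ρ > 0, ∀ ε > 0, ∀ᶠ g in atTop, ∀ ψ, ψ ∈ c.D π 𝔞 ∧ c.Supp 𝔞 R ψ →
      IntegrableOn (fun X : c.Sl 𝔞 π' => EE c (c.off π π') v g ψ X)
        {X : c.Sl 𝔞 π' | (X : Tn 9 d) ∈ Metric.closedBall X₀ ρ} ∧
      ∫ X in {X : c.Sl 𝔞 π' | (X : Tn 9 d) ∈ Metric.closedBall X₀ ρ},
        EE c (c.off π π') v g ψ X ≤ ε * c.NE 𝔞 g 0 ψ := by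
  obtain ⟨ρ, hρ, hρO, δ₁, hδ₁, B, hB, H1⟩ := loc1 h1 h2 ho hc hs he hL hX₀ hO
  obtain ⟨C, hC, H2⟩ := slice_bound h1 hs hL (isCompact_closedBall X₀ ρ) hρO
  obtain ⟨K, hK, H3⟩ := hr R
  refine ⟨ρ, hρ, fun ε hε => ?_⟩
  obtain ⟨δ, hδ, hδ1, hδ2⟩ : ∃ δ > 0, δ ≤ δ₁ ∧ 2 * (B * δ * (K + 1)) ≤ ε / 2 := by
    refine ⟨min δ₁ (ε / (4 * (B * (K + 1) + 1))), by positivity, min_le_left _ _, ?_⟩
    have a1 := (le_div_iff₀ (by positivity)).1 (min_le_right δ₁ (ε / (4 * (B * (K + 1) + 1))))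
    have a2 : 0 < min δ₁ (ε / (4 * (B * (K + 1) + 1))) := by positivity
    nlinarith
  obtain ⟨f, M, f1, f2, f3, f4, f5, f6⟩ := fsq_cut c hδ R
  have hS : MeasurableSet {X : c.Sl 𝔞 π' | (X : Tn 9 d) ∈ Metric.closedBall X₀ ρ} :=
    (Metric.isClosed_closedBall.preimage continuous_subtype_val).measurableSet
  filter_upwards [eventually_ge_atTop 1, eventually_ge_atTop (2 / ε *
    (2 * (B * (16 * M ^ 2 + 1)) + 2 * (B * δ * (K * (16 * M ^ 2))) + 8 * (C * (2 / δ ^ 2 * K))))]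
    with g hg hg' ψ ⟨hψ, hR⟩
  have hg0 : 0 < g := by linarith
  have hm := (c.mem_D.1 hψ).1
  have f1' : ContDiff ℝ ∞ fun x => 1 - f x := contDiff_const.sub f1
  have p1 := c.mulR_mem_D hψ f1 fun u _ x _ => f2 u x
  have p2 := c.mulR_mem_D hψ f1' fun u _ x _ => by simp only [f2]
  have m1 := hm.mulR f1
  have m2 := hm.mulR f1'
  have i0 := EE_int h1 ht hL hg0 hm hS fun X hX => hρO hX
  have i1 := EE_int h1 ht hL hg0 m1 hS fun X hX => hρO hX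
  have i2 := (fub (ortho c π π' 𝔞 v) (Y_le hL) (w := fun _ => 8) continuous_const
    (dens_sq p2).1 (dens_sq p2).2.2.2).1.integrableOn
    (s := {X : c.Sl 𝔞 π' | (X : Tn 9 d) ∈ Metric.closedBall X₀ ρ})
  refine ⟨i0, ?_⟩
  have e0 : ψ = (fun x => (f x : ℂ) • ψ x) + fun x => ((1 - f x : ℝ) : ℂ) • ψ x := by
    funext x
    simp only [Pi.add_apply, ← add_smul]
    simp
  have e1 := setIntegral_mono_on i0 (Integrable.add (Integrable.const_mul i1 2) i2) hS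
    fun X hX => by
      have := EE_add h1 ht hL hg0 m1 m2 X.2 (hρO hX)
      rw [← e0] at this
      exact this
  rw [integral_add' (Integrable.const_mul i1 2) i2, integral_const_mul, integral_const_mul] at e1
  have e2 := (le_abs_self _).trans (H2 _ (dens_sq p2)
    ({X : c.Sl 𝔞 π' | (X : Tn 9 d) ∈ Metric.closedBall X₀ ρ}.indicator 1) 1 zero_le_one
    (fun X => by
      by_cases hX : X ∈ {X : c.Sl 𝔞 π' | (X : Tn 9 d) ∈ Metric.closedBall X₀ ρ}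
      · simp only [Set.indicator_of_mem hX, Pi.one_apply, abs_one, le_refl]
      · simp only [Set.indicator_of_notMem hX, abs_zero, zero_le_one])
    fun X hX => Set.indicator_of_notMem (by exact hX) _)
  have e9 : ∀ (S : Set (c.Sl 𝔞 π')) (h : c.Sl 𝔞 π' → ℝ), MeasurableSet S →
      ∫ X, S.indicator 1 X * h X = ∫ X in S, h X := fun S h hS => by
    rw [← integral_indicator hS]
    refine integral_congr_ae (ae_of_all _ fun X => ?_)
    by_cases hX : X ∈ S <;> simp [hX]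
  rw [e9 _ _ hS, one_mul] at e2
  have e3 := H1 δ hδ hδ1 g hg _ p1 fun x _ hx => by simp [f5 x hx]
  have e4 := H3 π 𝔞 hL.1 g hg _ m1 fun x hx hx' => by simp [hR x hx hx']
  have e5 := H3 π 𝔞 hL.1 g hg ψ hm hR
  have e6 := En_mul_le (c := c) (g := g) (m := 0) hm f1 (M := M) fun x hx h0 =>
    f6 x (not_lt.1 fun h => h0 (hR x hx h))
  have e7 : nrm (sub 9 𝔞) (fun x => (f x : ℂ) • ψ x) ≤ nrm (sub 9 𝔞) ψ := by
    simpa [wnrm, nrm] using nrm_mul_le hm (w := fun _ => 1) continuous_const f3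
  have e8 : nrm (sub 9 𝔞) (fun x => ((1 - f x : ℝ) : ℂ) • ψ x) ≤
      2 / δ ^ 2 * wnrm (sub 9 𝔞) c.Fsq ψ := by
    have := nrm_mul_le hm (f := fun x => 1 - f x) (w := fun x => 2 / δ ^ 2 * c.Fsq x)
      (continuous_const.mul c.contDiff_Fsq.continuous) f4
    simpa only [wnrm, mul_assoc, integral_const_mul] using this
  have n1 := nrm_nonneg (sub 9 𝔞) ψ
  have n2 := En_nonneg (c := c) (𝔞 := 𝔞) (g := g) (m := 0) (ψ := ψ)
  have n3 := grad_nonneg (sub 9 𝔞) ψ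
  have n4 : nrm (sub 9 𝔞) ψ ≤ c.NE 𝔞 g 0 ψ := le_add_of_nonneg_right n2
  have n5 : g * wnrm (sub 9 𝔞) c.Fsq ψ ≤ K * c.NE 𝔞 g 0 ψ := by
    refine le_of_mul_le_mul_left ?_ hg0
    have := mul_le_mul_of_nonneg_left (le_mul_of_one_le_left n2 hg) hK
    unfold Ctx.NE
    linarith
  have n6 : c.NE 𝔞 g 0 (fun x => (f x : ℂ) • ψ x) ≤ (16 * M ^ 2 + 1) * c.NE 𝔞 g 0 ψ := by
    rw [Ctx.NE]
    linarith
  have n7 := mul_le_mul_of_nonneg_left (e7.trans n4) hg0.le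
  have n8 : grad (sub 9 𝔞) (fun x => (f x : ℂ) • ψ x) +
      g ^ 2 * wnrm (sub 9 𝔞) c.Fsq (fun x => (f x : ℂ) • ψ x) +
      g * nrm (sub 9 𝔞) (fun x => (f x : ℂ) • ψ x) ≤
      K * (16 * M ^ 2) * c.NE 𝔞 g 0 ψ + (K + 1) * (g * c.NE 𝔞 g 0 ψ) := by
    have := mul_le_mul_of_nonneg_left (add_le_add e6 n7) hK
    linarith
  have q1 := mul_le_mul_of_nonneg_left n6 hB
  have q2 := mul_le_mul_of_nonneg_left n8 (mul_nonneg hB hδ.le)
  have q3 := mul_le_mul_of_nonneg_left e1 hg0.le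
  have q4 := mul_le_mul_of_nonneg_left (e2.trans (mul_le_mul_of_nonneg_left e8 hC)) hg0.le
  have q5 := mul_le_mul_of_nonneg_left n5 (by positivity : 0 ≤ C * (2 / δ ^ 2))
  have q6 := mul_le_mul_of_nonneg_right hδ2 (mul_nonneg hg0.le (n1.trans n4))
  have q7 := mul_le_mul_of_nonneg_right hg' (mul_nonneg (half_pos hε).le (n1.trans n4))
  have q8 : ∀ x y : ℝ, 2 / ε * x * (ε / 2 * y) = x * y := fun x y => by field_simp
  rw [q8] at q7
  refine le_of_mul_le_mul_left ?_ hg0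
  linarith

end ExcAux

namespace Ctx

variable {N d : ℕ} {F : Type} [NormedAddCommGroup F] [InnerProductSpace ℂ F]
  [FiniteDimensional ℂ F] (c : Ctx N d F)

theorem p_exc (h_lm1 : c.S_lm1) (h_lm2 : c.S_lm2) (h_orb : c.S_orb) (h_chart : c.S_chart)
    (h_s1 : c.S_s1) (h_cr : c.S_cr) (h_tb : c.S_tb) (h_exp : c.S_exp) : c.S_exc := by
  intro π 𝔞 π' v hL K hK hO R ε hε
  have h := ExcAux.cover (volume : Measure (c.Sl 𝔞 π')) (fun ψ => ψ ∈ c.D π 𝔞 ∧ c.Supp 𝔞 R ψ)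
    (fun g ψ X => ExcAux.EE c (c.off π π') v g ψ X) (fun g ψ => c.NE 𝔞 g 0 ψ)
    (fun _ _ _ => ExcAux.EE_nonneg) (fun _ _ => add_nonneg (nrm_nonneg _ _) ExcAux.En_nonneg)
    (K := {X | (X : Tn 9 d) ∈ K})
    ((c.Sl 𝔞 π').closed_of_finiteDimensional.isClosedEmbedding_subtypeVal.isCompact_preimage hK)
    (fun X hX => by
      obtain ⟨ρ, hρ, H⟩ := ExcAux.loc2 h_lm1 h_lm2 h_orb h_chart h_s1 h_cr h_tb h_exp hL X.2
        (hO hX) R
      exact ⟨_, continuous_subtype_val.continuousAt.preimage_mem_nhds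
        (Metric.closedBall_mem_nhds _ hρ), H⟩) ε hε
  exact h.mono fun g hg ψ h1 h2 => hg ψ ⟨h1, h2⟩

end Ctx

end Vale.Agent.P353
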