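import Vale.Agent.P353.Stmts
import Vale.Agent.P353.Gau

/-! Auxiliary lemmas for the excited part. -/

noncomputable section

open MeasureTheory Filter Topology Complex Matrix
open scoped ContDiff RealInnerProductSpace

namespace Vale.Agent.P353

namespace ExcAux

section gen

variable {E : Type} [NormedAddCommGroup E] [InnerProductSpace ℝ E] [FiniteDimensional ℝ E]
  [MeasurableSpace E] [BorelSpace E] {U U₁ U₂ : Submodule ℝ E}
variable {F : Type} [NormedAddCommGroup F] [InnerProductSpace ℂ F]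

theorem int_slice {V : Type} [NormedAddCommGroup V] [NormedSpace ℝ V] (h : U₂ ≤ U) {f : E → V}
    (hf : Continuous f) (hs : HasCompactSupport fun x : U => f x) {x : E} (hx : x ∈ U) :
    Integrable fun y : U₂ => f (x + y) :=
  (hf.comp (continuous_const.add continuous_subtype_val)).integrable_of_hasCompactSupport
    (hasCompactSupport_slice h hs hx)

theorem int_sub {V : Type} [NormedAddCommGroup V] [NormedSpace ℝ V] (h : U₂ ≤ U) {f : E → V}
    (hf : Continuous f) (hs : HasCompactSupport fun x : U => f x) :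
    Integrable fun y : U₂ => f y := by
  simpa using int_slice h hf hs U.zero_mem

omit [MeasurableSpace E] [BorelSpace E] in
theorem proj_add (h : U₁ ⟂ U₂) (x : U₁) (y : U₂) : U₁.starProjection ((x : E) + y) = x := by
  rw [map_add, Submodule.starProjection_eq_self_iff.2 x.2,
    (Submodule.starProjection_apply_eq_zero_iff U₁).2 (h.symm y.2), add_zero]

omit [MeasurableSpace E] [BorelSpace E] in
theorem sub_proj_mem (h : U₁ ⟂ U₂) {y : E} (hy : y ∈ U₁ ⊔ U₂) : y - U₁.starProjection y ∈ U₂ := by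
  obtain ⟨a, ha, b, hb, rfl⟩ := Submodule.mem_sup.1 hy
  have := proj_add h ⟨a, ha⟩ ⟨b, hb⟩
  simp only at this
  rw [this, add_sub_cancel_left]
  exact hb

theorem fub (h : U₁ ⟂ U₂) (hU : U₁ ⊔ U₂ ≤ U) {w f : E → ℝ} (hw : Continuous w) (hf : Continuous f)
    (hs : HasCompactSupport fun x : U => f x) :
    (Integrable fun X : U₁ => w X * ∫ W : U₂, f (X + W)) ∧
    (Integrable fun W : U₂ => ∫ X : U₁, w X * f (X + W)) ∧
    ∫ X : U₁, w X * ∫ W : U₂, f (X + W) =
      ∫ y : (U₁ ⊔ U₂ : Submodule ℝ E), w (U₁.starProjection y) * f y ∧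
    ∫ X : U₁, w X * ∫ W : U₂, f (X + W) = ∫ W : U₂, ∫ X : U₁, w X * f (X + W) := by
  have h1 : Integrable fun y : (U₁ ⊔ U₂ : Submodule ℝ E) => w (U₁.starProjection y) * f y :=
    int_sub hU (f := fun y => w (U₁.starProjection y) * f y)
      ((hw.comp U₁.starProjection.continuous).mul hf) hs.mul_left
  have e1 : ∀ X : U₁, ∫ W : U₂, w (U₁.starProjection ((X : E) + W)) * f (X + W) =
      w X * ∫ W : U₂, f (X + W) := fun X => by
    simp only [proj_add h, integral_const_mul]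
  have e2 : ∀ W : U₂, ∫ X : U₁, w (U₁.starProjection ((W : E) + X)) * f (W + X) =
      ∫ X : U₁, w X * f (X + W) := fun W => by
    simp only [add_comm (W : E), proj_add h]
  have a1 := integrable_integral_sup h rfl (f := fun y => w (U₁.starProjection y) * f y) h1
  have a2 := integrable_integral_sup h.symm (sup_comm _ _)
    (f := fun y => w (U₁.starProjection y) * f y) h1
  have a3 := integral_sup h rfl (f := fun y => w (U₁.starProjection y) * f y) h1
  have a4 := integral_sup h.symm (sup_comm _ _) (f := fun y => w (U₁.starProjection y) * f y) h1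
  simp only [e1] at a1 a3
  simp only [e2] at a2 a4
  exact ⟨a1, a2, a3.symm, a3.symm.trans a4⟩

omit [InnerProductSpace ℂ F] in
theorem sq_sub_le (a b : F) : ‖a - b‖ ^ 2 ≤ 2 * ‖a‖ ^ 2 + 2 * ‖b‖ ^ 2 := by
  nlinarith [norm_sub_le a b, norm_nonneg (a - b), sq_nonneg (‖a‖ - ‖b‖), norm_nonneg a,
    norm_nonneg b]

omit [InnerProductSpace ℂ F] in
theorem sq_add_le (a b : F) : ‖a + b‖ ^ 2 ≤ 2 * ‖a‖ ^ 2 + 2 * ‖b‖ ^ 2 := by
  simpa using sq_sub_le a (-b)

theorem exc_le {u : U₂ → F} {G : U₂ → ℝ} (hu : Continuous u) (hG : Continuous G)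
    (h1 : Integrable fun W => ‖u W‖ ^ 2) (h2 : Integrable fun W => G W ^ 2)
    (h3 : ∫ W, G W ^ 2 = 1) (t : F) :
    (Integrable fun W => ‖u W - (G W : ℂ) • t‖ ^ 2) ∧
      ∫ W, ‖u W - (G W : ℂ) • t‖ ^ 2 ≤ 2 * (∫ W, ‖u W‖ ^ 2) + 2 * ‖t‖ ^ 2 := by
  have hb : ∀ W, ‖u W - (G W : ℂ) • t‖ ^ 2 ≤ 2 * ‖u W‖ ^ 2 + 2 * ‖t‖ ^ 2 * G W ^ 2 := fun W => by
    have := sq_sub_le (u W) ((G W : ℂ) • t)
    rw [norm_smul, Complex.norm_real, Real.norm_eq_abs, mul_pow, sq_abs] at this
    linarith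
  have hi : Integrable fun W => 2 * ‖u W‖ ^ 2 + 2 * ‖t‖ ^ 2 * G W ^ 2 :=
    (h1.const_mul _).add (h2.const_mul _)
  have hc : Continuous fun W => ‖u W - (G W : ℂ) • t‖ ^ 2 := by fun_prop
  have h4 : Integrable fun W => ‖u W - (G W : ℂ) • t‖ ^ 2 :=
    hi.mono' hc.aestronglyMeasurable (ae_of_all _ fun W => by
      rw [Real.norm_of_nonneg (by positivity)]; exact hb W)
  refine ⟨h4, (integral_mono h4 hi hb).trans_eq ?_⟩
  rw [integral_add (h1.const_mul _) (h2.const_mul _), integral_const_mul, integral_const_mul, h3,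
    mul_one]

theorem meas_exc [FiniteDimensional ℂ F] {G : E → E → ℝ} {P : E → F →L[ℂ] F} {O : Set E}
    (hG : ContinuousOn (fun p : E × E => G p.1 p.2) (O ×ˢ Set.univ)) (hP : ContinuousOn P O)
    {ψ : E → F} (hψ : Continuous ψ) {S : Set U₁} (hS : MeasurableSet S)
    (hO : ∀ X ∈ S, (X : E) ∈ O) :
    AEStronglyMeasurable (fun X : U₁ => ∫ W : U₂, ‖ψ (X + W) - (G X W : ℂ) •
      ∫ W' : U₂, (G X W' : ℂ) • P X (ψ (X + W'))‖ ^ 2) (volume.restrict S) := by
  have hm : MeasurableSet (S ×ˢ (Set.univ : Set U₂)) := hS.prod .univ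
  have hi : Continuous fun p : U₁ × U₂ => ((p.1 : E), (p.2 : E)) := by fun_prop
  have h1 : ContinuousOn (fun p : U₁ × U₂ => (G p.1 p.2 : ℂ)) (S ×ˢ Set.univ) :=
    continuous_ofReal.comp_continuousOn
      (hG.comp hi.continuousOn fun p hp => ⟨hO _ hp.1, trivial⟩)
  have h2 : ContinuousOn (fun p : U₁ × U₂ => P p.1) (S ×ˢ Set.univ) :=
    hP.comp hi.fst.continuousOn fun p hp => hO _ hp.1
  have hu : Continuous fun p : U₁ × U₂ => ψ (p.1 + p.2) := hψ.comp (hi.fst.add hi.snd)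
  have hT : AEStronglyMeasurable (fun X : U₁ => ∫ W' : U₂, (G X W' : ℂ) • P X (ψ (X + W')))
      (volume.restrict S) := by
    have := (h1.smul (h2.clm_apply hu.continuousOn)).aestronglyMeasurable
      (μ := (volume : Measure U₁).prod volume) hm
    rw [← Measure.restrict_prod_eq_prod_univ] at this
    exact this.integral_prod_right'
  have h3 := h1.aestronglyMeasurable (μ := (volume : Measure U₁).prod volume) hm
  rw [← Measure.restrict_prod_eq_prod_univ] at h3
  exact ((hu.aestronglyMeasurable.sub (h3.smul hT.comp_fst)).norm.pow 2).integral_prod_right'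

omit [MeasurableSpace E] [BorelSpace E] in
theorem continuous_lap (U : Submodule ℝ E) {η : E → ℝ} (h : ContDiff ℝ ∞ η) :
    Continuous (lap U η) := by
  refine continuous_finsetSum _ fun k _ => ?_
  have h1 : ContDiff ℝ ∞ fun y => fderiv ℝ η y (onb U k) :=
    (h.fderiv_right (m := ∞) le_rfl).clm_apply contDiff_const
  exact (h1.continuous_fderiv (by simp)).clm_apply continuous_const

omit [MeasurableSpace E] [BorelSpace E] in
theorem bounds (U : Submodule ℝ E) {η : E → ℝ} (h : ContDiff ℝ ∞ η) (hs : HasCompactSupport η) :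
    ∃ M : ℝ, 0 ≤ M ∧ ∀ x, |η x| ≤ M ∧ ‖fderiv ℝ η x‖ ≤ M ∧ |η x * lap U η x| ≤ M := by
  obtain ⟨a, ha⟩ := h.continuous.bounded_above_of_compact_support hs
  obtain ⟨b, hb⟩ := (h.continuous_fderiv (by simp)).bounded_above_of_compact_support (hs.fderiv ℝ)
  obtain ⟨e, he⟩ := (h.continuous.mul (continuous_lap U h)).bounded_above_of_compact_support
    hs.mul_right
  refine ⟨max a (max b e), le_trans (norm_nonneg _) ((ha 0).trans (le_max_left _ _)), fun x =>
    ⟨(ha x).trans (le_max_left _ _), (hb x).trans ((le_max_left _ _).trans (le_max_right _ _)),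
      (he x).trans ((le_max_right _ _).trans (le_max_right _ _))⟩⟩

theorem gsq_zero {ψ : E → F} (hψ : ContDiff ℝ ∞ ψ) {O : Set E} (hO : IsOpen O)
    (h : ∀ x ∈ U, x ∈ O → ψ x = 0) {x : E} (hx : x ∈ U) (hxO : x ∈ O) : gsq U ψ x = 0 := by
  refine Finset.sum_eq_zero fun k _ => ?_
  rw [fderiv_congr_on (f' := fun _ => (0 : F)) (hψ.differentiable (by simp) x)
    (differentiableAt_const _) hx (onb_mem U k)
    ((hO.eventually_mem hxO).mono fun z hz hzU => h z hzU hz)]
  simp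

omit [MeasurableSpace E] [BorelSpace E] in
theorem gsq_shift (U : Submodule ℝ E) (ψ : E → F) (W x : E) :
    gsq U (fun y => ψ (y + W)) x = gsq U ψ (x + W) := by
  simp only [gsq, fderiv_comp_add_right]

theorem cover {X : Type} [TopologicalSpace X] [MeasurableSpace X] (μ : Measure X) {A : Type}
    (D : A → Prop) (e : ℝ → A → X → ℝ) (n : ℝ → A → ℝ) (he : ∀ g a x, 0 ≤ e g a x)
    (hn : ∀ g a, 0 ≤ n g a) {K : Set X} (hK : IsCompact K)
    (h : ∀ x ∈ K, ∃ t ∈ 𝓝 x, ∀ ε > 0, ∀ᶠ g in atTop, ∀ a, D a →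
      IntegrableOn (e g a) t μ ∧ ∫ x in t, e g a x ∂μ ≤ ε * n g a) :
    ∀ ε > 0, ∀ᶠ g in atTop, ∀ a, D a →
      IntegrableOn (e g a) K μ ∧ ∫ x in K, e g a x ∂μ ≤ ε * n g a := by
  refine hK.induction_on (p := fun t => ∀ ε > 0, ∀ᶠ g in atTop, ∀ a, D a →
      IntegrableOn (e g a) t μ ∧ ∫ x in t, e g a x ∂μ ≤ ε * n g a) ?_ ?_ ?_ ?_
  · refine fun ε hε => Eventually.of_forall fun g a _ => ⟨integrableOn_empty, ?_⟩
    rw [setIntegral_empty]
    exact mul_nonneg hε.le (hn g a)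
  · refine fun s t hst ht ε hε => (ht ε hε).mono fun g hg a ha => ⟨(hg a ha).1.mono_set hst, ?_⟩
    exact (setIntegral_mono_set (hg a ha).1 (ae_of_all _ (he g a)) hst.eventuallyLE).trans
      (hg a ha).2
  · intro s t hs ht ε hε
    filter_upwards [hs (ε / 2) (by positivity), ht (ε / 2) (by positivity)] with g h1 h2 a ha
    refine ⟨(h1 a ha).1.union (h2 a ha).1, ?_⟩
    have h3 := integral_mono_measure (Measure.restrict_union_le (μ := μ) s t)
      (ae_of_all _ (he g a)) (Integrable.add_measure (h1 a ha).1 (h2 a ha).1)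
    rw [integral_add_measure (h1 a ha).1 (h2 a ha).1] at h3
    linarith [(h1 a ha).2, (h2 a ha).2]
  · intro x hx
    obtain ⟨t, h1, h2⟩ := h x hx
    exact ⟨t, mem_nhdsWithin_of_mem_nhds h1, h2⟩

end gen

end ExcAux

end Vale.Agent.P353
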