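import Vale.Agent.P353.ExcAux

/-! Auxiliary lemmas for the excited part, model specific. -/

noncomputable section

open MeasureTheory Filter Topology Complex Matrix
open scoped ContDiff RealInnerProductSpace

namespace Vale.Agent.P353

namespace ExcAux

variable {N d : ℕ} {F : Type} [NormedAddCommGroup F] [InnerProductSpace ℂ F]
  [FiniteDimensional ℂ F] {c : Ctx N d F} {π π' : Setoid (Fin N)} {𝔞 𝔟 𝔴 : Submodule ℝ (Lg d)}
  {v : Fin 9 → ℝ} {g m : ℝ} {φ ψ : Tn 9 d → F} {X : Tn 9 d}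

/-- squared norm of the excited part -/
def EE (c : Ctx N d F) (𝔴 : Submodule ℝ (Lg d)) (v : Fin 9 → ℝ) (g : ℝ) (ψ : Tn 9 d → F)
    (X : Tn 9 d) : ℝ :=
  ∫ W : Wsl 𝔴 v, ‖ψ (X + W) - (c.Gg 𝔴 v g X W : ℂ) • c.T0 𝔴 v g ψ X‖ ^ 2

theorem EE_nonneg : 0 ≤ EE c 𝔴 v g ψ X := integral_nonneg fun _ => by positivity

theorem ortho (c : Ctx N d F) (π π' : Setoid (Fin N)) (𝔞 : Submodule ℝ (Lg d)) (v : Fin 9 → ℝ) :
    c.Sl 𝔞 π' ⟂ Wsl (c.off π π') v :=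
  (sub_isOrtho ((c.off_isOrtho_blk π π').symm.mono_left inf_le_right)).mono_right inf_le_left

theorem Sl_le : c.Sl 𝔞 π' ≤ sub 9 𝔞 := sub_mono inf_le_left

theorem Wsl_le (h : c.Lc π 𝔞 π' v) : Wsl (c.off π π') v ≤ sub 9 𝔞 :=
  inf_le_left.trans (sub_mono ((c.off_le_ss h.2.1).trans h.1.1))

theorem Y_le (h : c.Lc π 𝔞 π' v) : c.Sl 𝔞 π' ⊔ Wsl (c.off π π') v ≤ sub 9 𝔞 :=
  sup_le Sl_le (Wsl_le h)

omit [FiniteDimensional ℂ F] in
theorem sq_supp {U : Submodule ℝ (Tn 9 d)} (h : Sm U ψ) :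
    HasCompactSupport fun x : U => ‖ψ x‖ ^ 2 :=
  h.2.mono fun x hx h0 => hx (by simp [h0])

theorem gauss_facts (h1 : c.S_lm1) (hX : X ∈ c.Ow 𝔴 v) (hg : 0 < g) :
    (Continuous fun W : Wsl 𝔴 v => c.Gg 𝔴 v g X W) ∧
      (Integrable fun W : Wsl 𝔴 v => c.Gg 𝔴 v g X W ^ 2) ∧
      ∫ W : Wsl 𝔴 v, c.Gg 𝔴 v g X W ^ 2 = 1 := by
  obtain ⟨a, ha, M, hM⟩ := h1.A_unif 𝔴 v {X} isCompact_singleton (by simpa using hX)
  have h2 : ∀ W ∈ Wsl 𝔴 v, g * a * ‖W‖ ^ 2 ≤ ⟪W, (g • c.Aw 𝔴 X) W⟫ := fun W hW => by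
    rw [_root_.smul_apply, inner_smul_right, mul_assoc]
    exact mul_le_mul_of_nonneg_left ((hM X rfl).2 W hW) hg.le
  refine ⟨(contDiff_gauss _ _).continuous.comp continuous_subtype_val, ?_,
    integral_gauss_sq (mul_pos hg ha) h2⟩
  simpa [Ctx.Gg] using integrable_gauss_sq (mul_pos hg ha) h2 0

theorem EE_le (h1 : c.S_lm1) (ht : c.S_tb) (hL : c.Lc π 𝔞 π' v) (hg : 0 < g)
    (hψ : Sm (sub 9 𝔞) ψ) (hX : X ∈ c.Sl 𝔞 π') (hO : X ∈ c.Ow (c.off π π') v) :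
    (Integrable fun W : Wsl (c.off π π') v => ‖ψ (X + W) -
      (c.Gg (c.off π π') v g X W : ℂ) • c.T0 (c.off π π') v g ψ X‖ ^ 2) ∧
    EE c (c.off π π') v g ψ X ≤ 4 * ∫ W : Wsl (c.off π π') v, ‖ψ (X + W)‖ ^ 2 := by
  obtain ⟨g1, g2, g3⟩ := gauss_facts h1 hO hg
  have h2 := exc_le (u := fun W : Wsl (c.off π π') v => ψ (X + W))
    (hψ.1.continuous.comp (continuous_const.add continuous_subtype_val)) g1
    (int_slice (Wsl_le hL) (f := fun x => ‖ψ x‖ ^ 2) (hψ.1.continuous.norm.pow 2) (sq_supp hψ)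
      (Sl_le hX)) g2 g3 (c.T0 (c.off π π') v g ψ X)
  refine ⟨h2.1, h2.2.trans ?_⟩
  linarith [ht.pt π 𝔞 π' v hL g hg ψ hψ X hX hO]

theorem EE_add (h1 : c.S_lm1) (ht : c.S_tb) (hL : c.Lc π 𝔞 π' v) (hg : 0 < g)
    (hφ : Sm (sub 9 𝔞) φ) (hψ : Sm (sub 9 𝔞) ψ) (hX : X ∈ c.Sl 𝔞 π')
    (hO : X ∈ c.Ow (c.off π π') v) :
    EE c (c.off π π') v g (φ + ψ) X ≤ 2 * EE c (c.off π π') v g φ X +
      8 * ∫ W : Wsl (c.off π π') v, ‖ψ (X + W)‖ ^ 2 := by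
  have hi : ∀ {ψ : Tn 9 d → F}, Sm (sub 9 𝔞) ψ → Integrable fun W : Wsl (c.off π π') v =>
      (c.Gg (c.off π π') v g X W : ℂ) • c.Pw (c.off π π') X (ψ (X + W)) := fun {ψ} hψ => by
    have g1 := (gauss_facts h1 hO hg).1
    refine Continuous.integrable_of_hasCompactSupport
      ((continuous_ofReal.comp g1).smul ((c.Pw _ X).continuous.comp
        (hψ.1.continuous.comp (continuous_const.add continuous_subtype_val)))) ?_
    exact (hasCompactSupport_slice (Wsl_le hL) hψ.2 (Sl_le hX)).mono fun W hW h0 =>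
      hW (by simp only [h0, map_zero, smul_zero])
  have h2 : c.T0 (c.off π π') v g (φ + ψ) X =
      c.T0 (c.off π π') v g φ X + c.T0 (c.off π π') v g ψ X := by
    simp only [Ctx.T0, Pi.add_apply, map_add, smul_add]
    exact integral_add (hi hφ) (hi hψ)
  obtain ⟨a1, -⟩ := EE_le h1 ht hL hg hφ hX hO
  obtain ⟨b1, b2⟩ := EE_le h1 ht hL hg hψ hX hO
  have h3 : EE c (c.off π π') v g (φ + ψ) X ≤
      2 * EE c (c.off π π') v g φ X + 2 * EE c (c.off π π') v g ψ X := by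
    unfold EE
    rw [← integral_const_mul, ← integral_const_mul,
      ← integral_add (a1.const_mul 2) (b1.const_mul 2)]
    refine integral_mono_of_nonneg (ae_of_all _ fun W => by positivity)
      ((a1.const_mul 2).add (b1.const_mul 2)) (ae_of_all _ fun W => ?_)
    refine le_of_eq_of_le ?_ (sq_add_le _ _)
    simp only [h2, Pi.add_apply, smul_add]
    rw [add_sub_add_comm]
  linarith

theorem EE_int (h1 : c.S_lm1) (ht : c.S_tb) (hL : c.Lc π 𝔞 π' v) (hg : 0 < g)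
    (hψ : Sm (sub 9 𝔞) ψ) {S : Set (c.Sl 𝔞 π')} (hS : MeasurableSet S)
    (hO : ∀ X ∈ S, (X : Tn 9 d) ∈ c.Ow (c.off π π') v) :
    IntegrableOn (fun X : c.Sl 𝔞 π' => EE c (c.off π π') v g ψ X) S := by
  have hE : AEStronglyMeasurable (fun X : c.Sl 𝔞 π' => EE c (c.off π π') v g ψ X)
      (volume.restrict S) :=
    meas_exc (G := c.Gg (c.off π π') v g) (P := c.Pw (c.off π π')) (O := c.Ow (c.off π π') v)
      (fun p hp => (h1.sm_G _ v g hg p.1 hp.1 p.2).continuousAt.continuousWithinAt)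
      (fun X hX => (h1.sm_P _ v X hX).continuousAt.continuousWithinAt) hψ.1.continuous hS hO
  have h3 := (fub (ortho c π π' 𝔞 v) (Y_le hL) (w := fun _ => 4) (f := fun x => ‖ψ x‖ ^ 2)
    continuous_const (hψ.1.continuous.norm.pow 2) (sq_supp hψ)).1
  refine h3.integrableOn.mono' hE ((ae_restrict_mem hS).mono fun X hX => ?_)
  rw [Real.norm_of_nonneg EE_nonneg]
  exact (EE_le h1 ht hL hg hψ X.2 (hO X hX)).2

theorem slice_bound (h1 : c.S_lm1) (hs : c.S_s1) (hL : c.Lc π 𝔞 π' v) {K : Set (Tn 9 d)}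
    (hK : IsCompact K) (hO : K ⊆ c.Ow (c.off π π') v) :
    ∃ C : ℝ, 0 ≤ C ∧ ∀ f, c.Dens π 𝔞 f → ∀ (w : c.Sl 𝔞 π' → ℝ) (L : ℝ), 0 ≤ L →
      (∀ X, |w X| ≤ L) → (∀ X : c.Sl 𝔞 π', (X : Tn 9 d) ∉ K → w X = 0) →
      |∫ X : c.Sl 𝔞 π', w X * ∫ W : Wsl (c.off π π') v, f (X + W)| ≤
        L * C * ∫ x : sub 9 𝔞, f x := by
  obtain ⟨j, hj, hj'⟩ := hK.exists_forall_le' (h1.j_cont (c.off π π') v).continuousOn
    fun x hx => h1.j_pos _ v x (hO hx)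
  obtain ⟨C, hC, hC'⟩ := hs π 𝔞 π' v hL
  refine ⟨C / j, by positivity, fun f hf w L hL0 hw hw0 => abs_integral_le_integral_abs.trans ?_⟩
  have h2 := (fub (ortho c π π' 𝔞 v) (Y_le hL) (h1.j_cont (c.off π π') v) hf.1 hf.2.2.2).1
  refine (integral_mono_of_nonneg (ae_of_all _ fun X => abs_nonneg _) (h2.const_mul (L / j))
    (ae_of_all _ fun X => ?_)).trans ?_
  · have h3 : 0 ≤ ∫ W : Wsl (c.off π π') v, f (X + W) := integral_nonneg fun W => hf.2.1 _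
    simp only [abs_mul, abs_of_nonneg h3, ← mul_assoc]
    refine mul_le_mul_of_nonneg_right ?_ h3
    by_cases hX : (X : Tn 9 d) ∈ K
    · refine (hw X).trans ?_
      rw [div_mul_eq_mul_div, le_div_iff₀ hj]
      exact mul_le_mul_of_nonneg_left (hj' _ hX) hL0
    · rw [hw0 X hX, abs_zero]
      exact mul_nonneg (by positivity) (abs_nonneg _)
  · rw [integral_const_mul]
    refine (mul_le_mul_of_nonneg_left (hC' f hf) (by positivity)).trans_eq ?_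
    ring

theorem den_cont (c : Ctx N d F) (𝔟 : Submodule ℝ (Lg d)) (g m : ℝ) {τ : Tn 9 d → Tn 9 d}
    (hτ : Continuous τ) (hψ : ContDiff ℝ ∞ ψ) : Continuous fun y => c.den 𝔟 g m (τ y) ψ y := by
  have h1 := Cov4Aux.continuous_gsq (sub 9 𝔟) hψ
  have h2 := (c.contDiff_Pot g m).continuous.comp hτ
  have h3 := (contDiff_bil (θ := c.θ) (U := sub 9 𝔟) (fun α => c.sE (eb α))
    fun α => c.contDiff_beta g m (eb α)).continuous.comp hτ
  have h4 := hψ.continuous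
  exact ((continuous_const.mul h1).add ((h2.div_const 2).mul (h4.norm.pow 2))).add
    (continuous_re.comp (h4.inner (h3.clm_apply h4)))

theorem den_zero {y x : Tn 9 d} (h1 : gsq (sub 9 𝔟) ψ x = 0) (h2 : ψ x = 0) :
    c.den 𝔟 g m y ψ x = 0 := by
  simp [Ctx.den, h1, h2]

theorem den_supp {U : Submodule ℝ (Tn 9 d)} (h : sub 9 𝔟 ≤ U) (hψ : Sm U ψ) (c : Ctx N d F)
    (g m : ℝ) (τ : Tn 9 d → Tn 9 d) :
    HasCompactSupport fun y : U => c.den 𝔟 g m (τ y) ψ y := by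
  refine (hψ.gsq_support.2.add (sq_supp hψ)).mono fun x hx h0 => hx ?_
  have h1 := gsq_nonneg U ψ x
  have h2 := gsq_nonneg (sub 9 𝔟) ψ x
  have h3 := gsq_mono ψ x h
  have h4 : gsq U ψ x + ‖ψ x‖ ^ 2 = 0 := h0
  have h5 := sq_nonneg ‖ψ x‖
  exact den_zero (by linarith) (by simpa using (by linarith : ‖ψ x‖ ^ 2 = 0))

theorem den_inv (h : c.Th π 𝔞) (hψ : ψ ∈ c.D π 𝔞) (g m : ℝ) :
    c.InvR π (sub 9 𝔞) fun x => c.den 𝔞 g m x ψ x := fun u hu x hx => by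
  have h1 := c.invR_gsq h hψ u hu x hx
  have h2 := (c.mem_D.1 hψ).2 u hu x hx
  have h3 := congrArg (fun a : F →L[ℂ] F => a (ψ x)) (c.bil_Ad9 h g m hu hx)
  simp only [mul_apply_eq_comp] at h3
  simp only [Ctx.den, h1, h2, c.Pot_Ad9, c.Uiso, ← h3, c.inner_U]

theorem den_weight (c : Ctx N d F) (𝔟 : Submodule ℝ (Lg d)) (g m : ℝ) (hψ : ContDiff ℝ ∞ ψ)
    {f : Tn 9 d → ℝ} (hf : ContDiff ℝ ∞ f)
    (hs : HasCompactSupport fun x : sub 9 𝔟 => (f x : ℂ) • ψ x) :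
    ∫ x : sub 9 𝔟, f x ^ 2 * c.den 𝔟 g m x ψ x = c.En 𝔟 g m (fun x => (f x : ℂ) • ψ x) +
      8 * ∫ x : sub 9 𝔟, f x * lap (sub 9 𝔟) f x * ‖ψ x‖ ^ 2 := by
  have := c.car.energy_weight 1 (fun α => c.contDiff_beta g m (eb α)) (c.iso (sub 9 𝔟) g m) hψ hf hs
  simp only [one_pow, mul_one, one_mul] at this
  exact this

theorem dens_sq (hψ : ψ ∈ c.D π 𝔞) : c.Dens π 𝔞 fun x => ‖ψ x‖ ^ 2 :=
  ⟨(c.mem_D.1 hψ).1.1.continuous.norm.pow 2, fun _ => sq_nonneg _, c.invR_normsq hψ,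
    sq_supp (c.mem_D.1 hψ).1⟩

theorem dens_err (h : c.Th π 𝔞) (hψ : ψ ∈ c.D π 𝔞) (hg : 0 ≤ g) :
    c.Dens π 𝔞 fun x => gsq (sub 9 𝔞) ψ x + (g ^ 2 * c.Fsq x + g) * ‖ψ x‖ ^ 2 := by
  have h1 := (c.mem_D.1 hψ).1
  refine ⟨h1.gsq_support.1.add (((continuous_const.mul c.contDiff_Fsq.continuous).add
    continuous_const).mul (h1.1.continuous.norm.pow 2)), fun x => ?_, fun u hu x hx => ?_,
    h1.gsq_support.2.add (sq_supp h1).mul_left⟩
  · have := gsq_nonneg (sub 9 𝔞) ψ x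
    have := c.Fsq_nonneg x
    positivity
  · have h2 := c.invR_normsq hψ u hu x hx
    simp only at h2
    simp only [c.invR_gsq h hψ u hu x hx, c.Fsq_Ad9, h2]

theorem int_err (hψ : Sm (sub 9 𝔞) ψ) (c : Ctx N d F) (g : ℝ) :
    ∫ x : sub 9 𝔞, (gsq (sub 9 𝔞) ψ x + (g ^ 2 * c.Fsq x + g) * ‖ψ x‖ ^ 2) =
      grad (sub 9 𝔞) ψ + g ^ 2 * wnrm (sub 9 𝔞) c.Fsq ψ + g * nrm (sub 9 𝔞) ψ := by
  have h1 := Cov4Aux.integrable_gsq le_rfl hψ
  have h2 := (hψ.integrable_wnrm c.contDiff_Fsq.continuous.continuousOn).const_mul (g ^ 2)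
  have h3 := hψ.integrable_wnrm (w := fun _ => g) continuousOn_const
  have h4 : Integrable fun x : sub 9 𝔞 =>
      gsq (sub 9 𝔞) ψ x + g ^ 2 * (c.Fsq x * ‖ψ x‖ ^ 2) := h1.add h2
  rw [grad, wnrm, nrm, ← integral_const_mul, ← integral_const_mul, ← integral_add h1 h2,
    ← integral_add h4 h3]
  exact integral_congr_ae (ae_of_all _ fun x => by simp only; ring)

end ExcAux

end Vale.Agent.P353
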