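import Vale.Agent.P353.ExpAux

/-! The excited part at a fixed slow point. -/

noncomputable section

open MeasureTheory Filter Topology Complex Matrix
open scoped ContDiff RealInnerProductSpace

namespace Vale.Agent.P353

namespace ExpAux

theorem small {M δ w f f' : ℝ} (hM : 0 ≤ M) (hδ : 0 < δ) (hδ1 : δ ≤ 1)
    (h1 : w ^ 2 ≤ M * f') (h2 : f ≤ 2 * f' + M * w ^ 4) (h3 : f' ≤ δ ^ 2) :
    w ≤ 2 * (1 + M) ^ 3 * δ ∧ √f ≤ 2 * (1 + M) ^ 3 * δ ∧ M * √f ≤ 2 * (1 + M) ^ 3 * δ := by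
  have a1 : w ^ 2 ≤ M * δ ^ 2 := h1.trans (mul_le_mul_of_nonneg_left h3 hM)
  have a2 : w ≤ (1 + M) * δ := le_of_sq (by positivity) (a1.trans (by
    rw [mul_pow]
    exact mul_le_mul_of_nonneg_right (by nlinarith) (sq_nonneg _)))
  have a3 : w ^ 4 ≤ M ^ 2 * δ ^ 2 := by
    calc w ^ 4 = (w ^ 2) ^ 2 := by ring
      _ ≤ (M * δ ^ 2) ^ 2 := by gcongr
      _ = M ^ 2 * δ ^ 2 * δ ^ 2 := by ring
      _ ≤ M ^ 2 * δ ^ 2 := mul_le_of_le_one_right (by positivity) (pow_le_one₀ hδ.le hδ1)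
  have a4 : √f ≤ 2 * (1 + M) ^ 2 * δ := by
    refine Real.sqrt_le_iff.2 ⟨by positivity, ?_⟩
    have b1 := mul_le_mul_of_nonneg_left a3 hM
    have b2 : 2 + M ^ 3 ≤ (2 * (1 + M) ^ 2) ^ 2 := by
      nlinarith [pow_nonneg hM 2, pow_nonneg hM 3, pow_nonneg hM 4]
    have b3 := mul_le_mul_of_nonneg_right b2 (sq_nonneg δ)
    rw [mul_pow]
    linarith
  have a5 : 0 ≤ (1 + M) ^ 2 * δ := by positivity
  have a6 : 0 ≤ M * ((1 + M) ^ 2 * δ) := by positivity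
  have a7 : 0 ≤ (1 + M) * δ * (M * (2 + M)) := by positivity
  refine ⟨by nlinarith, by nlinarith, ?_⟩
  nlinarith [mul_le_mul_of_nonneg_left a4 hM]

theorem B_le {G g w f n M : ℝ} (hG : 0 ≤ G) (hg : 0 ≤ g) (hf : 0 ≤ f) (hn : 0 ≤ n) (hM : 0 ≤ M)
    (h : w ≤ M * f) : G + (g ^ 2 * w + g) * n ≤ (1 + M) * (G + (g ^ 2 * f + g) * n) := by
  have h1 := mul_le_mul_of_nonneg_left h (show 0 ≤ g ^ 2 * n by positivity)
  have h2 : 0 ≤ M * G := by positivity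
  have h3 : 0 ≤ M * (g * n) := by positivity
  have h4 : 0 ≤ g ^ 2 * f * n := by positivity
  nlinarith

theorem fin_num {x E D B B' n K C L M δ : ℝ} (hB : 0 ≤ B) (hB' : 0 ≤ B') (hn : 0 ≤ n)
    (hC : 0 ≤ C) (hL : 0 ≤ L) (hM : 0 ≤ M) (hδ : 0 ≤ δ) (h1 : x ≤ E + K * (L * δ) * B + K * n)
    (h2 : 16 * E ≤ D + C * (L * δ) * B) (h3 : B ≤ (1 + M) * B') :
    16 * x ≤ D + ((C + 16 * |K|) * L * (1 + M) + 16 * |K|) * δ * B' +
      ((C + 16 * |K|) * L * (1 + M) + 16 * |K|) * n := by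
  have a1 := mul_le_mul_of_nonneg_right (le_abs_self K) (show 0 ≤ L * δ * B by positivity)
  have a2 := mul_le_mul_of_nonneg_right (le_abs_self K) hn
  have a3 := mul_le_mul_of_nonneg_left h3 (show 0 ≤ (C + 16 * |K|) * (L * δ) by positivity)
  have a4 : 0 ≤ |K| * δ * B' := by positivity
  have a5 : 0 ≤ (C + 16 * |K|) * L * (1 + M) * n := by positivity
  nlinarith

end ExpAux

namespace Ctx

variable {N d : ℕ} {F : Type} [NormedAddCommGroup F] [InnerProductSpace ℂ F]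
  [FiniteDimensional ℂ F] (c : Ctx N d F)

open ExpAux in
theorem p_exp (h_lm1 : c.S_lm1) (h_lm2 : c.S_lm2) : c.S_exp := by
  rintro π 𝔞 π' v ⟨hT, h', hv⟩ K hK hO hS
  obtain ⟨b, hb, M₂, hM₂, h2⟩ :=
    h_lm2 π π' v h' hv K hK hO fun X hX => sub_mono inf_le_right (hS hX)
  obtain ⟨a, ha, MA, hA⟩ := h_lm1.A_unif _ v K hK hO
  obtain ⟨C, hC⟩ := exists_Kinv c h_lm1 hK hO
  obtain ⟨G, hG0, hG⟩ := exists_Gs c
  obtain ⟨CD, hCD0, hCD⟩ := exists_Dw c 𝔞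
  obtain ⟨M, hM0, hM1, hM2⟩ : ∃ M : ℝ, 0 ≤ M ∧ MA ≤ M ∧ C * (G + 2) ≤ M :=
    ⟨max 0 (max MA (C * (G + 2))), le_max_left _ _, le_max_of_le_right (le_max_left _ _),
      le_max_of_le_right (le_max_right _ _)⟩
  obtain ⟨k, hk, K', hfo⟩ := fast_osc (Tn 9 d) F (lt_min ha hb) M
  obtain ⟨L, hL⟩ : ∃ L, L = 2 * (1 + M₂) ^ 3 := ⟨_, rfl⟩
  have hL1 : 1 ≤ L := by
    have := one_le_pow₀ (show 1 ≤ 1 + M₂ by linarith) (n := 3)
    linarith
  refine ⟨16 * k, by positivity, 1 / L, by positivity,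
    (8 * (48 + 56 * M) + 16 * CD + 16 * |K'|) * L * (1 + M₂) + 16 * |K'|, by positivity, ?_⟩
  intro δ hδ hδ0 g hg ψ hψ h0 X hX
  have hε1 : L * δ ≤ 1 := by rwa [le_div_iff₀ (by positivity), mul_comm] at hδ0
  have hδ1 : δ ≤ 1 := (le_mul_of_one_le_left hδ.le hL1).trans hε1
  have hg0 : 0 ≤ g := zero_le_one.trans hg
  have hsm := (c.mem_D.1 hψ).1.1
  obtain ⟨k1, k2, k3⟩ := h2 X hX
  have hU : ∀ W ∈ Wsl (c.off π π') v, X + W ∈ sub 9 𝔞 := fun W hW =>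
    mem_U c hT h' (hS hX) hW.1
  have hsmall : ∀ W ∈ Wsl (c.off π π') v, c.Fsq (X + W) ≤ δ ^ 2 →
      ‖W‖ ≤ L * δ ∧ √(c.Fsq X) ≤ L * δ ∧ M₂ * √(c.Fsq X) ≤ L * δ := fun W hW h =>
    hL ▸ small hM₂ hδ hδ1 (k3 W hW).1 (k3 W hW).2 h
  have hz : ∀ W ∈ Wsl (c.off π π') v, δ ^ 2 < c.Fsq (X + W) → ψ (X + W) = 0 ∧
      ∀ V ≤ sub 9 𝔞, gsq V ψ (X + W) = 0 := fun W hW h =>
    ⟨h0 _ (hU W hW) h, fun V hV => vanish c hsm h0 (hU W hW) h hV⟩
  have hz' : ∀ W ∈ Wsl (c.off π π') v, L * δ < ‖W‖ → ψ (X + W) = 0 ∧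
      ∀ V ≤ sub 9 𝔞, gsq V ψ (X + W) = 0 := fun W hW h =>
    hz W hW (not_le.1 fun h1 => absurd (hsmall W hW h1).1 (not_le.2 h))
  have hQ : c.Np (c.off π π') X ≤ sub 9 𝔞 := inf_le_left.trans (sub_mono (off_le c hT h'))
  have hU' : sub 9 (𝔞 ⊓ c.blk π') ≤ sub 9 𝔞 := sub_mono inf_le_left
  have hfd : ∀ W, fderiv ℝ (fun W => ψ (X + W)) W = fderiv ℝ ψ (X + W) := fun W =>
    fderiv_comp_add_left X
  have hgs : ∀ V W, gsq V (fun W => ψ (X + W)) W = gsq V ψ (X + W) := fun V W => by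
    simp only [gsq, hfd]
  have cg : ∀ V, Continuous (gsq V ψ) := fun V => Cov4Aux.continuous_gsq V hsm
  have cψ := hsm.continuous
  have hsm' : ContDiff ℝ ∞ fun W => ψ (X + W) := by fun_prop
  have main := hfo (Wsl (c.off π π') v) (c.Np (c.off π π') X) (c.Aw (c.off π π') X)
    (c.Pw (c.off π π') X) ((-I) • dG c.θ (c.Dw (c.off π π') X)) (fun W => ψ (X + W))
    (fun W => √(gsq (sub 9 𝔞) ψ (X + W))) g (L * δ) hg (by positivity) hε1
    (by rw [finrank_Wsl _ hv, h_lm1.Np_rank _ v X (hO hX)]) (h_lm1.A_sym _ v X (hO hX))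
    (h_lm1.A_mem _ v X (hO hX)) ((hA X hX).1.trans hM1)
    (fun w hw => (mul_le_mul_of_nonneg_right (min_le_left a b) (sq_nonneg _)).trans
      ((hA X hX).2 w hw))
    (vac_idem (θ := c.θ) (c.Jw (c.off π π') X)) (vac_symm (θ := c.θ) (c.Jw (c.off π π') X)) hsm'
    (fun W hW h => ⟨(hz' W hW h).1, by rw [(hz' W hW h).2 _ le_rfl, Real.sqrt_zero],
      by rw [hgs, (hz' W hW h).2 _ hQ]⟩)
    (((cg _).comp (continuous_const.add continuous_id)).sqrt)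
    (fun W hW => by
      rcases le_or_gt (c.Fsq (X + W)) (δ ^ 2) with h | h
      · have m0 := k2 (ψ (X + W))
        rw [_root_.smul_apply]
        have m1 := mul_le_mul_of_nonneg_right (hsmall W hW h).2.2 (sq_nonneg ‖ψ (X + W)‖)
        have m2 := mul_le_mul_of_nonneg_right (min_le_right a b)
          (sq_nonneg ‖ψ (X + W) - c.Pw (c.off π π') X (ψ (X + W))‖)
        linarith
      · simp [(hz W hW h).1])
    (fun W hW w hw => by
      rw [hfd]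
      exact dir c h_lm1 hT h' (hO hX) (hS hX) hW.1 hw.1 hψ (hC X hX) hG hG0 hM2)
  simp only [hgs, Real.sq_sqrt (gsq_nonneg _ _ _), nrm, _root_.smul_apply] at main
  have cF := c.contDiff_Fsq.continuous
  have iE := FoAux.integ (U := Wsl (c.off π π') v) (L * δ)
    (u := fun W => gsq (c.Np (c.off π π') X) ψ (X + W) / 2 +
      g ^ 2 * ‖c.Aw (c.off π π') X W‖ ^ 2 / 2 * ‖ψ (X + W)‖ ^ 2 +
      g * (inner ℂ (ψ (X + W)) ((-I) • dG c.θ (c.Dw (c.off π π') X) (ψ (X + W)))).re)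
    (by have := cg (c.Np (c.off π π') X); fun_prop)
    fun W hW h => by simp [(hz' W hW h).1, (hz' W hW h).2 _ hQ]
  have iD := FoAux.integ (U := Wsl (c.off π π') v) (L * δ)
    (u := fun W => c.den 𝔞 g 0 (X + W) ψ (X + W) - c.den (𝔞 ⊓ c.blk π') g 0 X ψ (X + W))
    ((continuous_den c 𝔞 g 0 hsm (by fun_prop) (by fun_prop)).sub
      (continuous_den c _ g 0 hsm continuous_const (by fun_prop)))
    fun W hW h => by
      simp [Ctx.den, (hz' W hW h).1, (hz' W hW h).2 _ le_rfl, (hz' W hW h).2 _ hU']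
  have iB := FoAux.integ (U := Wsl (c.off π π') v) (L * δ)
    (u := fun W => gsq (sub 9 𝔞) ψ (X + W) + (g ^ 2 * ‖W‖ ^ 2 + g) * ‖ψ (X + W)‖ ^ 2)
    (by have := cg (sub 9 𝔞); fun_prop)
    fun W hW h => by simp [(hz' W hW h).1, (hz' W hW h).2 _ le_rfl]
  have iB' := FoAux.integ (U := Wsl (c.off π π') v) (L * δ)
    (u := fun W => gsq (sub 9 𝔞) ψ (X + W) + (g ^ 2 * c.Fsq (X + W) + g) * ‖ψ (X + W)‖ ^ 2)
    (by have := cg (sub 9 𝔞); fun_prop)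
    fun W hW h => by simp [(hz' W hW h).1, (hz' W hW h).2 _ le_rfl]
  have j2 := integral_mono (iE.const_mul 16)
    (iD.add (iB.const_mul ((8 * (48 + 56 * M) + 16 * CD) * (L * δ)))) fun W => by
      rcases le_or_gt (c.Fsq (X + W)) (δ ^ 2) with h | h
      · obtain ⟨s1, s2, s3⟩ := hsmall W W.2 h
        refine (den_le c h_lm1 hT h' (hO hX) (hS hX) W.2.1 hg0 hε1 ((hA X hX).1.trans hM1) s1 s2
          (fun α => ⟨(k1 α W W.2.1).1, (k1 α W W.2.1).2.trans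
            (mul_le_mul_of_nonneg_right s3 (norm_nonneg _))⟩) hCD0 (hCD W) ψ).trans ?_
        exact add_le_add_right (mul_le_mul_of_nonneg_left
          (le_add_of_nonneg_left (gsq_nonneg _ _ _)) (by positivity)) _
      · simp [Ctx.den, (hz W W.2 h).1, (hz W W.2 h).2 _ le_rfl, (hz W W.2 h).2 _ hU',
          (hz W W.2 h).2 _ hQ]
  have j3 := integral_mono iB (iB'.const_mul (1 + M₂)) fun W =>
    B_le (gsq_nonneg _ _ _) hg0 (c.Fsq_nonneg _) (sq_nonneg _) hM₂ (k3 W W.2).1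
  rw [integral_add' iD (iB.const_mul _), integral_const_mul, integral_const_mul] at j2
  rw [integral_const_mul] at j3
  rw [mul_assoc 16 k, mul_assoc 16]
  exact fin_num
    (integral_nonneg fun W => add_nonneg (gsq_nonneg _ _ _) (by positivity))
    (integral_nonneg fun W => add_nonneg (gsq_nonneg _ _ _)
      (mul_nonneg (add_nonneg (mul_nonneg (sq_nonneg _) (c.Fsq_nonneg _)) hg0) (sq_nonneg _)))
    (integral_nonneg fun W => sq_nonneg _) (by positivity) (by positivity) hM₂ hδ.le main j2 j3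

end Ctx

end Vale.Agent.P353
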