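import Vale.Agent.P353.Stmts
import Vale.Agent.P353.Fo

/-! Pointwise estimates for the excited part. -/

noncomputable section

open MeasureTheory Filter Topology Complex Matrix
open scoped ContDiff RealInnerProductSpace

namespace Vale.Agent.P353

namespace ExpAux

theorem le_of_sq {a b : ℝ} (hb : 0 ≤ b) (h : a ^ 2 ≤ b ^ 2) : a ≤ b :=
  (le_abs_self a).trans ((sq_le_sq.1 h).trans (abs_of_nonneg hb).le)

theorem pot_one {V : Type} [NormedAddCommGroup V] [InnerProductSpace ℝ V] {p q z s : V}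
    {e : ℝ} (hpq : ⟪p, q⟫ = 0) (he : ‖q + s‖ ≤ e) :
    ‖s‖ ^ 2 - 2 * ‖s‖ * e - 2 * (‖p‖ + ‖s‖ + e) * ‖z‖ ≤ ‖p + q + z‖ ^ 2 - ‖p‖ ^ 2 := by
  have h1 : ‖p + q‖ ^ 2 = ‖p‖ ^ 2 + ‖q‖ ^ 2 := by rw [norm_add_sq_real, hpq]; ring
  have h2 : ‖q‖ ^ 2 = ‖q + s‖ ^ 2 - 2 * ⟪q + s, s⟫ + ‖s‖ ^ 2 := by
    rw [← norm_sub_sq_real, add_sub_cancel_right]
  have h3 := real_inner_le_norm (q + s) s
  have h4 := mul_le_mul_of_nonneg_right he (norm_nonneg s)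
  have h5 : ‖q‖ ≤ e + ‖s‖ := by
    have := norm_sub_le (q + s) s
    rw [add_sub_cancel_right] at this
    linarith
  have h6 : ‖p + q‖ ≤ ‖p‖ + ‖s‖ + e := (norm_add_le p q).trans (by linarith)
  have h7 := norm_add_sq_real (p + q) z
  have h8 := neg_le_of_abs_le (abs_real_inner_le_norm (p + q) z)
  have h9 := mul_le_mul_of_nonneg_right h6 (norm_nonneg z)
  nlinarith [sq_nonneg ‖q + s‖, sq_nonneg ‖z‖]

theorem pot_num {s p z e w ε M : ℝ} (hε : 0 ≤ ε) (hM : 0 ≤ M) (hw : 0 ≤ w) (hε1 : ε ≤ 1)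
    (hwε : w ≤ ε) (hs0 : 0 ≤ s) (hs : s ≤ 4 * (M * w)) (hp : p ≤ 3 * ε) (he0 : 0 ≤ e)
    (he : e ≤ ε * w) (hp0 : 0 ≤ p) (hz : z ≤ 6 * w ^ 2) :
    2 * s * e + 2 * (p + s + e) * z ≤ (48 + 56 * M) * ε * w ^ 2 := by
  have h1 : s * e ≤ 4 * (M * w) * (ε * w) := by gcongr
  have h2 : M * w ≤ M * ε := by gcongr
  have h3 : ε * w ≤ ε := mul_le_of_le_one_right hε (hwε.trans hε1)
  have h4 : (p + s + e) * z ≤ (4 * ε + 4 * (M * ε)) * (6 * w ^ 2) := by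
    refine (mul_le_mul_of_nonneg_left hz (by positivity)).trans ?_
    exact mul_le_mul_of_nonneg_right (by linarith) (by positivity)
  nlinarith

variable {N d : ℕ} {F : Type} [NormedAddCommGroup F] [InnerProductSpace ℂ F]
  [FiniteDimensional ℂ F] (c : Ctx N d F) {π π' : Setoid (Fin N)} {𝔞 : Submodule ℝ (Lg d)}

theorem Fsq_le (x : Tn 9 d) : c.Fsq x ≤ 4 * (‖x‖ ^ 2) ^ 2 := by
  rw [norm_sq_eq_sum_cmp, sq (∑ i, _), Finset.sum_mul_sum, Finset.mul_sum]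
  refine Finset.sum_le_sum fun i _ => ?_
  rw [Finset.mul_sum]
  refine Finset.sum_le_sum fun j _ => ?_
  refine (pow_le_pow_left₀ (norm_nonneg _) (c.norm_ad_le _ _) 2).trans_eq ?_
  ring

theorem norm_Phi_sq (α : Fin 16) (x : Tn 9 d) : ‖c.Phi (eb α) x‖ ≤ 6 * ‖x‖ ^ 2 := by
  refine le_of_sq (by positivity) ?_
  nlinarith [c.norm_Phi_le α x, Fsq_le c x, sq_nonneg (‖x‖ ^ 2)]

theorem norm_Phi_sqrt (α : Fin 16) (x : Tn 9 d) : ‖c.Phi (eb α) x‖ ≤ 3 * √(c.Fsq x) := by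
  refine le_of_sq (by positivity) ?_
  rw [mul_pow, Real.sq_sqrt (c.Fsq_nonneg x)]
  linarith [c.norm_Phi_le α x, c.Fsq_nonneg x]

theorem sum_sE (y : Tn 9 d) : ∑ α, ‖c.sE (eb α) y‖ ^ 2 = 16 * ‖y‖ ^ 2 := by
  have := (c.iso ⊤ 0 0).1 y trivial y trivial
  simpa only [real_inner_self_eq_norm_sq] using this

theorem norm_sE (α : Fin 16) (y : Tn 9 d) : ‖c.sE (eb α) y‖ ≤ 4 * ‖y‖ := by
  refine le_of_sq (by positivity) ?_
  have h := Finset.single_le_sum (f := fun α => ‖c.sE (eb α) y‖ ^ 2)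
    (fun _ _ => sq_nonneg _) (Finset.mem_univ α)
  rw [sum_sE] at h
  linarith

theorem norm_J (h : c.S_lm1) {𝔴 : Submodule ℝ (Lg d)} {v : Fin 9 → ℝ} {X : Tn 9 d}
    (hX : X ∈ c.Ow 𝔴 v) {y : Tn 16 d} (hy : y ∈ sub 16 𝔴) : ‖c.Jw 𝔴 X y‖ = ‖y‖ := by
  have h1 := (h.J_pcs 𝔴 v X hX).1 y (c.Jw 𝔴 X y)
  have h2 : -(c.Jw 𝔴 X (c.Jw 𝔴 X y)) = y := by
    have := congrArg (fun a : Tn 16 d →L[ℝ] Tn 16 d => a y) (h.J_supp 𝔴 v X hX)
    simp only [← sub_starProjection, Submodule.starProjection_eq_self_iff.2 hy] at this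
    exact this
  rw [← inner_neg_right, h2, real_inner_self_eq_norm_sq, real_inner_self_eq_norm_sq] at h1
  exact (sq_eq_sq₀ (norm_nonneg _) (norm_nonneg _)).1 h1

theorem off_le (h : c.Th π 𝔞) (h' : π' ≤ π) : c.off π π' ≤ 𝔞 := (c.off_le_ss h').trans h.1

theorem ortho (𝔞 : Submodule ℝ (Lg d)) (π π' : Setoid (Fin N)) :
    𝔞 ⊓ c.blk π' ⟂ c.off π π' := (c.off_isOrtho_blk π π').symm.mono_left inf_le_right

theorem mem_U (h : c.Th π 𝔞) (h' : π' ≤ π) {X W : Tn 9 d} (hX : X ∈ c.Sl 𝔞 π')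
    (hW : W ∈ sub 9 (c.off π π')) : X + W ∈ sub 9 𝔞 :=
  add_mem (sub_mono inf_le_left hX) (sub_mono (off_le c h h') hW)

theorem gsq_split (h : c.Th π 𝔞) (h' : π' ≤ π) (ψ : Tn 9 d → F) (x : Tn 9 d) :
    gsq (sub 9 𝔞) ψ x = gsq (sub 9 (𝔞 ⊓ c.blk π')) ψ x + gsq (sub 9 (c.off π π')) ψ x :=
  gsq_sup ψ x (sub_isOrtho (ortho c 𝔞 π π')) (by rw [← sub_sup, Ctx.Th.sup_off c h h'])

theorem Dw_split (h : c.Th π 𝔞) (h' : π' ≤ π) {X : Tn 9 d} (hX : X ∈ c.Sl 𝔞 π') :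
    c.Dw 𝔞 X = c.Dw (𝔞 ⊓ c.blk π') X + c.Dw (c.off π π') X := by
  rw [Ctx.Dw, Ctx.Dw, Ctx.Dw, ← Finset.sum_add_distrib]
  refine Finset.sum_congr rfl fun i _ => ?_
  have hy := mem_sub.1 hX i
  have h1 : (c.off π π').starProjection * c.ad (cmp i X) = c.adw (c.off π π') (cmp i X) := by
    rw [Ctx.adw, mul_assoc, c.ad_starProjection fun x hx => c.ad_mem_off h' hy.2 hx, ← mul_assoc,
      (c.off π π').isIdempotentElem_starProjection.eq]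
  have h3 : ∀ 𝔟 : Submodule ℝ (Lg d), 𝔞 ⊓ c.blk π' ⊔ c.off π π' = 𝔟 → 𝔟.starProjection =
      (𝔞 ⊓ c.blk π').starProjection + (c.off π π').starProjection := by
    rintro _ rfl
    exact Cov1Aux.sup_proj (ortho c 𝔞 π π')
  have h2 := h3 𝔞 (Ctx.Th.sup_off c h h')
  rw [← kr_add_right, ← c.cov3_adw h hy.1, ← c.cov3_adw (Ctx.Th.inf c h h') hy, ← h1, ← add_mul, ← h2]

theorem bil_re (h : c.Th π 𝔞) (g : ℝ) {x : Tn 9 d} (hx : x ∈ sub 9 𝔞) (a : F) :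
    (inner ℂ a (bil c.θ (sub 9 𝔞) (fun α => c.sE (eb α)) (fun α => c.beta g 0 (eb α)) x a)).re =
      16 * g * (inner ℂ a ((-I) • dG c.θ (c.Dw 𝔞 x) a)).re := by
  rw [c.bil_eq h g 0 hx, mul_zero, zero_smul ℝ (kr (Gm c.γ) 𝔞.starProjection), add_zero,
    dG_smul, smul_smul, _root_.smul_apply]
  have : (-8 * I * ((2 * g : ℝ) : ℂ)) = ((16 * g : ℝ) : ℂ) * -I := by
    push_cast
    ring
  rw [this, mul_smul, inner_smul_right, re_ofReal_mul]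

theorem exists_Dw (𝔞 : Submodule ℝ (Lg d)) : ∃ C : ℝ, 0 ≤ C ∧ ∀ (W : Tn 9 d) (a : F),
    |(inner ℂ a ((-I) • dG c.θ (c.Dw 𝔞 W) a)).re| ≤ C * ‖W‖ * ‖a‖ ^ 2 := by
  obtain ⟨L, hL⟩ := exists_dGL c.θ
  obtain ⟨D, hD⟩ := c.exists_DwL 𝔞
  refine ⟨‖L.comp D‖, (L.comp D).opNorm_nonneg, fun W a => ?_⟩
  refine (abs_re_le_norm _).trans ((norm_inner_le_norm _ _).trans ?_)
  rw [norm_smul, norm_neg, norm_I, one_mul, ← hD, ← hL]
  have h1 : ‖L (D W) a‖ ≤ ‖L.comp D‖ * ‖W‖ * ‖a‖ :=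
    (L (D W)).le_of_opNorm_le ((L.comp D).le_opNorm W) a
  nlinarith [mul_le_mul_of_nonneg_left h1 (norm_nonneg a)]

theorem Pot_zero (g : ℝ) (x : Tn 9 d) : c.Pot g 0 x = g ^ 2 * ∑ α, ‖c.Phi (eb α) x‖ ^ 2 := by
  rw [c.Pot_eq, c.sum_Phi_sq]
  ring

/-- lower bound for the potential -/
theorem pot_le (h : c.S_lm1) {v : Fin 9 → ℝ} {X W : Tn 9 d} (hO : X ∈ c.Ow (c.off π π') v)
    (hX : X ∈ sub 9 (c.blk π')) {ε M : ℝ} (hε1 : ε ≤ 1) (hM : ‖c.Aw (c.off π π') X‖ ≤ M)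
    (hW : ‖W‖ ≤ ε) (hF : √(c.Fsq X) ≤ ε)
    (hD : ∀ α, fderiv ℝ (c.Phi (eb α)) X W ∈ sub 16 (c.off π π') ∧
      ‖fderiv ℝ (c.Phi (eb α)) X W +
        c.Jw (c.off π π') X (c.sE (eb α) (c.Aw (c.off π π') X W))‖ ≤ ε * ‖W‖) :
    16 * ‖c.Aw (c.off π π') X W‖ ^ 2 - 16 * ((48 + 56 * M) * ε * ‖W‖ ^ 2) ≤
      ∑ α, ‖c.Phi (eb α) (X + W)‖ ^ 2 - ∑ α, ‖c.Phi (eb α) X‖ ^ 2 := by
  have hε : 0 ≤ ε := (norm_nonneg _).trans hW
  have hM0 : 0 ≤ M := (norm_nonneg _).trans hM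
  have e16 : 16 * ((48 + 56 * M) * ε * ‖W‖ ^ 2) = ∑ _α : Fin 16, (48 + 56 * M) * ε * ‖W‖ ^ 2 := by
    simp
  rw [← sum_sE c, e16, ← Finset.sum_sub_distrib, ← Finset.sum_sub_distrib]
  refine Finset.sum_le_sum fun α _ => ?_
  have hA : c.Aw (c.off π π') X W ∈ sub 9 (c.off π π') := (h.A_mem _ v X hO W).1
  have hJ := norm_J c h hO (c.sE_mem (eb α) hA)
  have hpq : ⟪c.Phi (eb α) X, fderiv ℝ (c.Phi (eb α)) X W⟫ = 0 :=
    (sub_isOrtho ((c.off_isOrtho_blk π π').symm.mono_left inf_le_left)).inner_eq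
      (c.Phi_mem (eb α) hX) (hD α).1
  have h1 := pot_one (z := c.Phi (eb α) W) hpq (hD α).2
  rw [hJ, ← c.Phi_add] at h1
  have h2 := pot_num hε hM0 (norm_nonneg W) hε1 hW (norm_nonneg _)
    ((norm_sE c α _).trans (mul_le_mul_of_nonneg_left
      ((c.Aw (c.off π π') X).le_of_opNorm_le hM W) (by norm_num)))
    ((norm_Phi_sqrt c α X).trans (by linarith)) (by positivity) le_rfl (norm_nonneg _)
    (norm_Phi_sq c α W)
  linarith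

theorem den_num {G G' Gq P P' y y' yw e n A g C M ε w : ℝ} (hg : 0 ≤ g) (hn : 0 ≤ n)
    (hC : 0 ≤ C) (hM : 0 ≤ M) (hε : 0 ≤ ε) (hG : G' + Gq ≤ G)
    (hP : 16 * A - 16 * (M * ε * w) ≤ P - P') (hw : 0 ≤ w) (hy : y = y' + yw + e)
    (he : -(C * ε * n) ≤ e) :
    16 * (Gq / 2 + g ^ 2 * A / 2 * n + g * yw) ≤
      (8 * G + g ^ 2 * P / 2 * n + 16 * g * y) - (8 * G' + g ^ 2 * P' / 2 * n + 16 * g * y') +
        (8 * M + 16 * C) * ε * ((g ^ 2 * w + g) * n) := by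
  have h1 := mul_le_mul_of_nonneg_left hP (show 0 ≤ g ^ 2 / 2 * n by positivity)
  have h2 := mul_le_mul_of_nonneg_left he (show 0 ≤ 16 * g by positivity)
  have h3 : 0 ≤ M * ε * g * n := by positivity
  have h4 : 0 ≤ C * ε * (g ^ 2 * w) * n := by positivity
  subst hy
  nlinarith

/-- the pointwise lower bound for the difference of the densities -/
theorem den_le (h : c.S_lm1) (hT : c.Th π 𝔞) (h' : π' ≤ π) {v : Fin 9 → ℝ} {X W : Tn 9 d}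
    (hO : X ∈ c.Ow (c.off π π') v) (hX : X ∈ c.Sl 𝔞 π') (hW0 : W ∈ sub 9 (c.off π π'))
    {ε M C g : ℝ} (hg : 0 ≤ g) (hε1 : ε ≤ 1) (hM : ‖c.Aw (c.off π π') X‖ ≤ M)
    (hW : ‖W‖ ≤ ε) (hF : √(c.Fsq X) ≤ ε)
    (hD : ∀ α, fderiv ℝ (c.Phi (eb α)) X W ∈ sub 16 (c.off π π') ∧
      ‖fderiv ℝ (c.Phi (eb α)) X W +
        c.Jw (c.off π π') X (c.sE (eb α) (c.Aw (c.off π π') X W))‖ ≤ ε * ‖W‖) (hC0 : 0 ≤ C)
    (hC : ∀ a : F, |(inner ℂ a ((-I) • dG c.θ (c.Dw 𝔞 W) a)).re| ≤ C * ‖W‖ * ‖a‖ ^ 2)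
    (ψ : Tn 9 d → F) :
    16 * (gsq (c.Np (c.off π π') X) ψ (X + W) / 2 +
        g ^ 2 * ‖c.Aw (c.off π π') X W‖ ^ 2 / 2 * ‖ψ (X + W)‖ ^ 2 +
        g * (inner ℂ (ψ (X + W)) ((-I) • dG c.θ (c.Dw (c.off π π') X) (ψ (X + W)))).re) ≤
      (c.den 𝔞 g 0 (X + W) ψ (X + W) - c.den (𝔞 ⊓ c.blk π') g 0 X ψ (X + W)) +
        (8 * (48 + 56 * M) + 16 * C) * ε * ((g ^ 2 * ‖W‖ ^ 2 + g) * ‖ψ (X + W)‖ ^ 2) := by
  have hε : 0 ≤ ε := (norm_nonneg _).trans hW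
  have hM0 : 0 ≤ M := (norm_nonneg _).trans hM
  rw [Ctx.den, Ctx.den, bil_re c hT g (mem_U c hT h' hX hW0), bil_re c (Ctx.Th.inf c hT h') g hX, Pot_zero,
    Pot_zero]
  refine den_num (e := (inner ℂ (ψ (X + W)) ((-I) • dG c.θ (c.Dw 𝔞 W) (ψ (X + W)))).re) hg
    (sq_nonneg _) hC0 (by positivity) hε ?_
    (pot_le c h hO (sub_mono inf_le_right hX) hε1 hM hW hF hD) (sq_nonneg _) ?_ ?_
  · rw [gsq_split c hT h']
    exact add_le_add_right (gsq_mono ψ _ inf_le_left) _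
  · obtain ⟨D, hD⟩ := c.exists_DwL 𝔞
    rw [← hD (X + W), map_add, hD, hD, Dw_split c hT h' hX, dG_add, dG_add]
    simp only [_root_.add_apply, smul_add, inner_add_right, add_re]
  · refine le_trans (neg_le_neg ?_) (neg_le_of_abs_le (hC _))
    gcongr

/-- outside of the region of small curvature everything vanishes -/
theorem vanish {ψ : Tn 9 d → F} (hψ : ContDiff ℝ ∞ ψ) {t : ℝ}
    (h0 : ∀ x ∈ sub 9 𝔞, t < c.Fsq x → ψ x = 0) {x : Tn 9 d} (hx : x ∈ sub 9 𝔞)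
    (ht : t < c.Fsq x) {V : Submodule ℝ (Tn 9 d)} (hV : V ≤ sub 9 𝔞) : gsq V ψ x = 0 := by
  refine Finset.sum_eq_zero fun k _ => ?_
  have h1 : ∀ᶠ z in 𝓝 x, t < c.Fsq z :=
    c.contDiff_Fsq.continuous.continuousAt.eventually (lt_mem_nhds ht)
  have h2 := fderiv_congr_on (f' := fun _ => (0 : F)) (hψ.differentiable (by simp) x)
    (differentiableAt_const _) hx (hV (onb_mem V k)) (h1.mono fun z hz hzU => h0 z hzU hz)
  rw [h2]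
  simp

theorem Gw_proj (𝔴 : Submodule ℝ (Lg d)) (X : Tn 9 d) (ξ : Lg d) :
    c.Gw 𝔴 X (𝔴.starProjection ξ) = c.Gw 𝔴 X ξ := by
  simp only [Ctx.Gw, Ctx.adw, _root_.sum_apply, ContinuousLinearMap.comp_apply,
    _root_.neg_apply, mul_apply_eq_comp,
    Submodule.starProjection_eq_self_iff.2 (𝔴.starProjection_apply_mem ξ)]

/-- derivatives in the gauge directions -/
theorem dir (h : c.S_lm1) (hT : c.Th π 𝔞) (h' : π' ≤ π) {v : Fin 9 → ℝ} {X W w : Tn 9 d}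
    (hO : X ∈ c.Ow (c.off π π') v) (hX : X ∈ c.Sl 𝔞 π') (hW : W ∈ sub 9 (c.off π π'))
    (hw : w ∈ sub 9 (c.off π π')) {ψ : Tn 9 d → F} (hψ : ψ ∈ c.D π 𝔞) {C G M : ℝ}
    (hC : ‖Ring.inverse (c.Kw (c.off π π') X) ∘L c.dv (c.off π π') X‖ ≤ C)
    (hG : ∀ ξ a, ‖c.Gs ξ a‖ ≤ G * ‖ξ‖ * ‖a‖) (hG0 : 0 ≤ G) (hM : C * (G + 2) ≤ M) :
    ‖fderiv ℝ ψ (X + W) (w - (c.Np (c.off π π') X).starProjection w)‖ ≤
        M * ‖w‖ * (‖ψ (X + W)‖ + ‖W‖ * |√(gsq (sub 9 𝔞) ψ (X + W))|) ∧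
      |(inner ℂ (ψ (X + W))
        (fderiv ℝ ψ (X + W) (w - (c.Np (c.off π π') X).starProjection w))).re| ≤
        M * ‖w‖ * ‖W‖ * |√(gsq (sub 9 𝔞) ψ (X + W))| * ‖ψ (X + W)‖ := by
  have hC0 : 0 ≤ C := (norm_nonneg _).trans hC
  obtain ⟨ξ, hξ, hn, he⟩ : ∃ ξ ∈ c.off π π', ‖ξ‖ ≤ C * ‖w‖ ∧
      w - (c.Np (c.off π π') X).starProjection w = c.vf ξ (X + W) - c.vf ξ W := by
    refine ⟨(c.off π π').starProjection
      ((Ring.inverse (c.Kw (c.off π π') X) ∘L c.dv (c.off π π') X) w),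
      Submodule.starProjection_apply_mem _ _,
      (Submodule.norm_starProjection_apply_le _ _).trans
        (ContinuousLinearMap.le_of_opNorm_le _ hC w), ?_⟩
    rw [map_add, add_sub_cancel_right, ← h.G_eq π π' h' X (sub_mono inf_le_right hX) _
      (Submodule.starProjection_apply_mem _ _), Gw_proj, h.Np_proj _ v X hO, ← sub_starProjection,
      _root_.sub_apply, Submodule.starProjection_eq_self_iff.2 hw, sub_sub_cancel]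
    rfl
  have hx := mem_U c hT h' hX hW
  have h1 := c.gauss_law hT ((c.mem_D.1 hψ).1.1.differentiable (by simp)) (c.mem_D.1 hψ).2 hξ.1 hx
  have h2 : ‖fderiv ℝ ψ (X + W) (c.vf ξ W)‖ ≤
      2 * (C * ‖w‖) * ‖W‖ * |√(gsq (sub 9 𝔞) ψ (X + W))| := by
    have h3 := norm_fderiv_sq_le ψ (X + W) (Ctx.Th.vf_mem c hT hξ.1 (sub_mono (off_le c hT h') hW))
    rw [← Real.sq_sqrt (gsq_nonneg _ ψ (X + W)), ← mul_pow] at h3
    refine (le_of_sq (by positivity) h3).trans ?_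
    refine mul_le_mul ((c.norm_vf_le ξ W).trans ?_) (le_abs_self _) (by positivity)
      (by positivity)
    gcongr
  have h4 : ‖c.Gs ξ (ψ (X + W))‖ ≤ G * (C * ‖w‖) * ‖ψ (X + W)‖ := (hG _ _).trans (by gcongr)
  have h5 : (inner ℂ (ψ (X + W)) (c.Gs ξ (ψ (X + W)))).re = 0 := by
    have h6 := congrArg Complex.re (c.Gs_skew ξ (ψ (X + W)) (ψ (X + W)))
    have h7 : (inner ℂ (c.Gs ξ (ψ (X + W))) (ψ (X + W))).re =
      (inner ℂ (ψ (X + W)) (c.Gs ξ (ψ (X + W)))).re := inner_re_symm (𝕜 := ℂ) _ _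
    rw [neg_re, h7] at h6
    linarith
  have m1 : C * G ≤ M := by nlinarith
  have m2 : C * 2 ≤ M := by nlinarith
  rw [he, map_sub, h1]
  generalize √(gsq (sub 9 𝔞) ψ (X + W)) = hh at h2 ⊢
  constructor
  · refine (norm_sub_le _ _).trans ?_
    have a1 := mul_le_mul_of_nonneg_right m1 (show 0 ≤ ‖w‖ * ‖ψ (X + W)‖ by positivity)
    have a2 := mul_le_mul_of_nonneg_right m2 (show 0 ≤ ‖w‖ * ‖W‖ * |hh| by positivity)
    nlinarith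
  · rw [inner_sub_right, sub_re, h5, zero_sub, abs_neg]
    refine (abs_re_le_norm _).trans ((norm_inner_le_norm _ _).trans ?_)
    have a1 := mul_le_mul_of_nonneg_left h2 (norm_nonneg (ψ (X + W)))
    have a2 := mul_le_mul_of_nonneg_right m2
      (show 0 ≤ ‖w‖ * ‖W‖ * |hh| * ‖ψ (X + W)‖ by positivity)
    nlinarith

theorem exists_Gs : ∃ G : ℝ, 0 ≤ G ∧ ∀ ξ a, ‖c.Gs ξ a‖ ≤ G * ‖ξ‖ * ‖a‖ := by
  obtain ⟨L, hL⟩ := c.exists_GsL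
  exact ⟨‖L‖, L.opNorm_nonneg, fun ξ a => hL ξ ▸ (L ξ).le_of_opNorm_le (L.le_opNorm ξ) a⟩

theorem continuous_dv (𝔴 : Submodule ℝ (Lg d)) : Continuous (c.dv 𝔴) := by
  obtain ⟨L, hL⟩ := c.exists_adL
  unfold Ctx.dv Ctx.adw
  simp only [← hL]
  fun_prop

theorem exists_Kinv (h : c.S_lm1) {𝔴 : Submodule ℝ (Lg d)} {v : Fin 9 → ℝ} {K : Set (Tn 9 d)}
    (hK : IsCompact K) (hO : K ⊆ c.Ow 𝔴 v) :
    ∃ C : ℝ, ∀ X ∈ K, ‖Ring.inverse (c.Kw 𝔴 X) ∘L c.dv 𝔴 X‖ ≤ C :=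
  hK.exists_bound_of_continuousOn (f := fun X => Ring.inverse (c.Kw 𝔴 X) ∘L c.dv 𝔴 X)
    fun X hX => ((h.sm_Kinv 𝔴 v X (hO hX)).continuousAt.clm_comp
      (continuous_dv c 𝔴).continuousAt).continuousWithinAt

theorem continuous_bil (U : Submodule ℝ (Tn 9 d)) (g m : ℝ) :
    Continuous (bil c.θ U (fun α => c.sE (eb α)) (fun α => c.beta g m (eb α))) := by
  have hβ : ∀ α, Continuous (fderiv ℝ (c.beta g m (eb α))) := fun α =>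
    (c.contDiff_beta g m (eb α)).continuous_fderiv (by simp)
  unfold bil
  fun_prop

theorem continuous_den (𝔞 : Submodule ℝ (Lg d)) (g m : ℝ) {ψ : Tn 9 d → F}
    (hψ : ContDiff ℝ ∞ ψ) {y x : Tn 9 d → Tn 9 d} (hy : Continuous y) (hx : Continuous x) :
    Continuous fun W => c.den 𝔞 g m (y W) ψ (x W) := by
  have h1 := Cov4Aux.continuous_gsq (sub 9 𝔞) hψ
  have h2 := (c.contDiff_Pot g m).continuous
  have h3 := continuous_bil c (sub 9 𝔞) g m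
  have h4 := hψ.continuous
  unfold Ctx.den
  fun_prop

end ExpAux

end Vale.Agent.P353
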