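import Vale.Agent.P353.Stmts
import Vale.Agent.P353.ChartAuxC

/-! Invariant extension from a slice. -/

noncomputable section

open MeasureTheory Filter Topology Complex Matrix
open scoped ContDiff RealInnerProductSpace

namespace Vale.Agent.P353

namespace ExtAux

variable {N d : ℕ} {F : Type} [NormedAddCommGroup F] [InnerProductSpace ℂ F]
  [FiniteDimensional ℂ F] (c : Ctx N d F) {π : Setoid (Fin N)} {𝔞 𝔪 : Submodule ℝ (Lg d)}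
  {Y : Submodule ℝ (Tn 9 d)} {y₀ : Tn 9 d} {ρ r : ℝ} {f : Tn 9 d → F}

theorem setIntegral_Ad9 (h : c.Th π 𝔞) {g : Tn 9 d → ℝ} (hg : c.InvR π (sub 9 𝔞) g) {u : UN N}
    (hu : u ∈ Grp π) (O : Set (Tn 9 d)) :
    ∫ x in {x : sub 9 𝔞 | c.Ad9 u x ∈ O}, g x = ∫ x in {x : sub 9 𝔞 | (x : Tn 9 d) ∈ O}, g x := by
  obtain ⟨e, h1, h2⟩ := measurePreserving_isometry (fun x _ => c.norm_Ad9 u x)
    (map_eq_of_isometry (c.adm_Cinv h _ ⟨u, hu, rfl⟩))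
  have h3 := h2.setIntegral_preimage_emb e.toHomeomorph.measurableEmbedding
    (fun x => g x) {x : sub 9 𝔞 | (x : Tn 9 d) ∈ O}
  simp only [Set.preimage_ofPred_eq, h1] at h3
  rw [← h3]
  exact congrArg _ (funext fun x => (hg u hu x x.2).symm)

theorem cover (h : c.Th π 𝔞) {O K : Set (Tn 9 d)} (hO : IsOpen O) (hK : IsCompact K)
    (hKO : ∀ x ∈ K, ∃ u ∈ Grp π, c.Ad9 u x ∈ O) : ∃ n : ℝ, 0 ≤ n ∧ ∀ g, c.Dens π 𝔞 g →
      (∀ x ∈ sub 9 𝔞, x ∉ K → g x = 0) →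
        ∫ x : sub 9 𝔞, g x ≤ n * ∫ x in {x : sub 9 𝔞 | (x : Tn 9 d) ∈ O}, g x := by
  obtain ⟨t, ht⟩ := hK.elim_finite_subcover (fun u : Grp π => c.Ad9 u ⁻¹' O)
    (fun u => hO.preimage (c.Ad9 u).continuous) fun x hx => by
      obtain ⟨u, hu, h1⟩ := hKO x hx
      exact Set.mem_iUnion.2 ⟨⟨u, hu⟩, h1⟩
  refine ⟨t.card, by positivity, fun g hg h0 => ?_⟩
  have hI := ChartAux.dens_integrable c hg
  have hm : ∀ u : Grp π, MeasurableSet {x : sub 9 𝔞 | c.Ad9 u x ∈ O} := fun u =>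
    (hO.preimage ((c.Ad9 u).continuous.comp continuous_subtype_val)).measurableSet
  have h1 : ∫ x : sub 9 𝔞, g x ≤ ∫ x : sub 9 𝔞,
      ∑ u ∈ t, {x : sub 9 𝔞 | c.Ad9 u x ∈ O}.indicator (fun x => g x) x := by
    refine integral_mono hI (integrable_finsetSum _ fun u _ => hI.indicator (hm u)) fun x => ?_
    have h2 : ∀ u ∈ t, 0 ≤ {x : sub 9 𝔞 | c.Ad9 u x ∈ O}.indicator (fun x => g x) x :=
      fun u _ => Set.indicator_nonneg (fun _ _ => hg.2.1 _) _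
    by_cases hx : (x : Tn 9 d) ∈ K
    · obtain ⟨u, hu, h3⟩ := Set.mem_iUnion₂.1 (ht hx)
      refine le_trans (le_of_eq ?_) (Finset.single_le_sum h2 hu)
      exact (Set.indicator_of_mem (s := {x : sub 9 𝔞 | c.Ad9 u x ∈ O}) h3
        fun x : sub 9 𝔞 => g x).symm
    · exact (h0 x x.2 hx).trans_le (Finset.sum_nonneg h2)
  rw [integral_finsetSum _ fun u _ => hI.indicator (hm u)] at h1
  simp only [integral_indicator (hm _), setIntegral_Ad9 c h hg.2.2.1 (Subtype.prop _),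
    Finset.sum_const, nsmul_eq_mul] at h1
  exact h1

/-- the graph of the extension -/
def Rel (π : Setoid (Fin N)) (Y : Submodule ℝ (Tn 9 d)) (y₀ : Tn 9 d) (ρ : ℝ) (f : Tn 9 d → F)
    (x : Tn 9 d) (v : F) : Prop :=
  ∃ u ∈ Grp π, ∃ y ∈ Y, ‖y - y₀‖ < ρ ∧ x = c.Ad9 u y ∧ v = c.U u (f y)

open Classical in
/-- the extension -/
def ext0 (π : Setoid (Fin N)) (Y : Submodule ℝ (Tn 9 d)) (y₀ : Tn 9 d) (ρ : ℝ) (f : Tn 9 d → F)
    (x : Tn 9 d) : F :=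
  if h : ∃ v, Rel c π Y y₀ ρ f x v then h.choose else 0

/-- the assumptions that make the extension well defined -/
def WD (π : Setoid (Fin N)) (Y : Submodule ℝ (Tn 9 d)) (y₀ : Tn 9 d) (ρ : ℝ) (f : Tn 9 d → F) :
    Prop :=
  ∀ u ∈ Grp π, ∀ y ∈ Y, ‖y - y₀‖ < ρ → c.Ad9 u y ∈ Y → ‖c.Ad9 u y - y₀‖ < ρ →
    f (c.Ad9 u y) = c.U u (f y)

theorem ext0_eq (hW : WD c π Y y₀ ρ f) {u : UN N} (hu : u ∈ Grp π) {y : Tn 9 d} (hy : y ∈ Y)
    (hr : ‖y - y₀‖ < ρ) : ext0 c π Y y₀ ρ f (c.Ad9 u y) = c.U u (f y) := by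
  have h : ∃ v, Rel c π Y y₀ ρ f (c.Ad9 u y) v := ⟨_, u, hu, y, hy, hr, rfl, rfl⟩
  rw [ext0, dif_pos h]
  obtain ⟨u', hu', y', hy', hr', h1, h2⟩ := h.choose_spec
  have h3 : c.Ad9 (u'⁻¹ * u) y = y' := by
    rw [c.Ad9_mul, mul_apply_eq_comp, h1, c.Ad9_inv_apply]
  have h4 := hW _ (mul_mem_Grp (inv_mem_Grp hu') hu) y hy hr (h3 ▸ hy') (h3 ▸ hr')
  rw [h2, ← h3, h4, ← mul_apply_eq_comp, ← map_mul, mul_inv_cancel_left]

theorem ext0_ne {x : Tn 9 d} (h : ext0 c π Y y₀ ρ f x ≠ 0) : ∃ u ∈ Grp π, ∃ y ∈ Y,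
    f y ≠ 0 ∧ x = c.Ad9 u y ∧ ext0 c π Y y₀ ρ f x = c.U u (f y) := by
  by_cases h' : ∃ v, Rel c π Y y₀ ρ f x v
  · rw [ext0, dif_pos h'] at h ⊢
    obtain ⟨u, hu, y, hy, -, h1, h2⟩ := h'.choose_spec
    exact ⟨u, hu, y, hy, fun h0 => h (by rw [h2, h0, map_zero]), h1, h2⟩
  · exact absurd (dif_neg h') h

theorem ext0_inv (hW : WD c π Y y₀ ρ f) {w : UN N} (hw : w ∈ Grp π) (x : Tn 9 d) :
    ext0 c π Y y₀ ρ f (c.Ad9 w x) = c.U w (ext0 c π Y y₀ ρ f x) := by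
  by_cases h : ∃ v, Rel c π Y y₀ ρ f x v
  · obtain ⟨_, u, hu, y, hy, hr, rfl, -⟩ := h
    rw [ext0_eq c hW hu hy hr, ← mul_apply_eq_comp, ← c.Ad9_mul,
      ext0_eq c hW (mul_mem_Grp hw hu) hy hr, map_mul, mul_apply_eq_comp]
  · have h' : ¬ ∃ v, Rel c π Y y₀ ρ f (c.Ad9 w x) v := by
      rintro ⟨_, u, hu, y, hy, hr, h1, -⟩
      refine h ⟨_, w⁻¹ * u, mul_mem_Grp (inv_mem_Grp hw) hu, y, hy, hr, ?_, rfl⟩
      rw [c.Ad9_mul, mul_apply_eq_comp, ← h1, c.Ad9_inv_apply]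
    rw [ext0, dif_neg h', ext0, dif_neg h, map_zero]

/-- the orbit of a closed ball in the slice -/
def Orb (π : Setoid (Fin N)) (Y : Submodule ℝ (Tn 9 d)) (y₀ : Tn 9 d) (r : ℝ) : Set (Tn 9 d) :=
  (fun p : UN N × Tn 9 d => c.Ad9 p.1 p.2) '' (Grp π ×ˢ (Metric.closedBall y₀ r ∩ Y))

theorem isCompact_Orb : IsCompact (Orb c π Y y₀ r) :=
  ((isCompact_Grp π).prod ((isCompact_closedBall _ _).inter_right
    Y.closed_of_finiteDimensional)).image c.continuous_Ad9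

theorem ext0_zero (hf : ∀ y ∈ Y, r ≤ ‖y - y₀‖ → f y = 0) {x : Tn 9 d} (hx : x ∉ Orb c π Y y₀ r) :
    ext0 c π Y y₀ ρ f x = 0 := by
  by_contra h
  obtain ⟨u, hu, y, hy, h0, rfl, -⟩ := ext0_ne c h
  exact hx ⟨(u, y), ⟨hu, mem_closedBall_iff_norm.2 (not_le.1 fun h' => h0 (hf y hy h')).le, hy⟩,
    rfl⟩

theorem ext0_near (hf : ∀ y ∈ Y, r ≤ ‖y - y₀‖ → f y = 0) (U : Submodule ℝ (Tn 9 d)) {x : Tn 9 d}
    (hx : U.starProjection x ∉ Orb c π Y y₀ r) :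
    (fun z => ext0 c π Y y₀ ρ f (U.starProjection z)) =ᶠ[𝓝 x] fun _ => 0 := by
  filter_upwards [U.starProjection.continuous.continuousAt.eventually_mem
    ((isCompact_Orb c).isClosed.isOpen_compl.mem_nhds hx)] with z hz using ext0_zero c hf hz

theorem smooth_aux (𝔪 : Submodule ℝ (Lg d)) (Y : Submodule ℝ (Tn 9 d)) (a : F →L[ℂ] F)
    (L : Lg d →L[ℝ] F →L[ℂ] F) (hf : ContDiff ℝ ∞ f) :
    ContDiff ℝ ∞ fun p : 𝔪 × Y => a (NormedSpace.exp (L p.1) (f p.2)) := by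
  have h1 : ContDiff ℝ ∞ fun p : 𝔪 × Y => NormedSpace.exp (L p.1) :=
    ChartAux.contDiff_exp.comp ((L ∘L 𝔪.subtypeL).contDiff.comp contDiff_fst)
  have h2 : ContDiff ℝ ∞ fun p : 𝔪 × Y => f p.2 := hf.comp (Y.subtypeL.contDiff.comp contDiff_snd)
  exact (a.restrictScalars ℝ).contDiff.comp
    (((ContinuousLinearMap.restrictScalarsL ℂ F F ℝ ℝ).contDiff.comp h1).clm_apply h2)

theorem local_form (h : c.Trans π 𝔞 𝔪 Y y₀) {V : 𝔪 →L[ℝ] Tn 9 d →L[ℝ] Tn 9 d}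
    (hV : ∀ ξ, V ξ = c.vf ξ) (hW : WD c π Y y₀ ρ f) {u : UN N} (hu : u ∈ Grp π) {x : Tn 9 d}
    {p : 𝔪 × Y} (hp : ‖(p.2 : Tn 9 d) - y₀‖ < ρ)
    (hx : NormedSpace.exp (V p.1) p.2 = c.Ad9 u⁻¹ x) :
    ext0 c π Y y₀ ρ f x = c.U u (NormedSpace.exp (c.Gs p.1) (f p.2)) := by
  obtain ⟨w, hw, h3, h4⟩ := ChartAux.exists_u c (h.2.1 p.1.2)
  have h5 : x = c.Ad9 (u * w) p.2 := by
    rw [c.Ad9_mul, mul_apply_eq_comp, h3, ← hV, hx, c.Ad9_apply_inv]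
  rw [h5, ext0_eq c hW (mul_mem_Grp hu hw) p.2.2 hp, map_mul, mul_apply_eq_comp, h4]

theorem exists_T (h : c.Th π 𝔞) {u : UN N} (hu : u ∈ Grp π) : ∃ T : Tn 9 d →L[ℝ] sub 9 𝔞,
    ∀ z, (T z : Tn 9 d) = c.Ad9 u ((sub 9 𝔞).starProjection z) := by
  have h1 : ∀ z, (c.Ad9 u ∘L (sub 9 𝔞).starProjection) z ∈ sub 9 𝔞 := fun z => by
    rw [ContinuousLinearMap.comp_apply]
    exact Ctx.Th.Ad9_mem c h hu (Submodule.starProjection_apply_mem _ z)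
  exact ⟨(c.Ad9 u ∘L (sub 9 𝔞).starProjection).codRestrict _ h1, fun z => by
    rw [ContinuousLinearMap.coe_codRestrict_apply, ContinuousLinearMap.comp_apply]⟩

theorem smooth (h : c.Trans π 𝔞 𝔪 Y y₀) : ∃ δ > 0, ∀ ρ ≤ δ, ∀ f : Tn 9 d → F, ContDiff ℝ ∞ f →
    WD c π Y y₀ ρ f → ∀ r < ρ, (∀ y ∈ Y, r ≤ ‖y - y₀‖ → f y = 0) →
      ContDiff ℝ ∞ fun z => ext0 c π Y y₀ ρ f ((sub 9 𝔞).starProjection z) := by
  obtain ⟨V, hV, hS⟩ := ChartAux.setup c h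
  obtain ⟨δ, φ, hφ⟩ := hS.chart
  obtain ⟨L, hL⟩ := c.exists_GsL
  refine ⟨δ, hφ.pos, fun ρ hρ f hf hW r hr hf0 => contDiff_iff_contDiffAt.2 fun x => ?_⟩
  by_cases hx : (sub 9 𝔞).starProjection x ∈ Orb c π Y y₀ r
  swap
  · exact contDiffAt_const.congr_of_eventuallyEq (ext0_near c hf0 _ hx)
  obtain ⟨⟨u, y⟩, ⟨hu, hyr, hy⟩, hx⟩ := hx
  have hyρ : ‖y - y₀‖ < ρ := (mem_closedBall_iff_norm.1 hyr).trans_lt hr
  obtain ⟨T, hT⟩ := exists_T c h.1 (inv_mem_Grp hu)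
  have hs : ((0 : 𝔪), (⟨y, hy⟩ : Y)) ∈ φ.source := by
    rw [hφ.source, ← ball_prod_same]
    exact ⟨Metric.mem_ball_self hφ.pos, mem_ball_iff_norm.2 (hyρ.trans_le hρ)⟩
  have hTx : T x = φ (0, ⟨y, hy⟩) := Subtype.ext <| by
    rw [hT, ← hx, hφ.coe, c.Ad9_inv_apply]
    simp
  have ht : T x ∈ φ.target := by
    rw [hTx]
    exact φ.map_source hs
  have hq : ContDiffAt ℝ ∞ (φ.symm ∘ T) x := (hφ.symm _ ht).comp x T.contDiff.contDiffAt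
  refine ((smooth_aux 𝔪 Y (c.U u) L hf).contDiffAt.comp x hq).congr_of_eventuallyEq ?_
  have e1 : ∀ᶠ z in 𝓝 x, T z ∈ φ.target :=
    T.continuous.continuousAt.eventually_mem (φ.open_target.mem_nhds ht)
  have hc : Continuous fun p : 𝔪 × Y => ‖(p.2 : Tn 9 d) - y₀‖ := by fun_prop
  have e2 := (hc.continuousAt.comp hq.continuousAt).eventually (gt_mem_nhds (a := ρ) (by
    simp only [Function.comp_apply, hTx, φ.left_inv hs]
    exact hyρ))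
  filter_upwards [e1, e2] with z h1 h2
  rw [local_form c h hV hW hu (p := φ.symm (T z)) h2 (by rw [← hφ.coe, φ.right_inv h1, hT]),
    Function.comp_apply, hL, Function.comp_apply]

theorem gsq_le (h : c.Trans π 𝔞 𝔪 Y y₀) : ∃ δ > 0, ∃ K : ℝ, 0 ≤ K ∧ ∀ φ ∈ c.D π 𝔞,
    ∀ y ∈ Y, ‖y - y₀‖ ≤ δ → gsq (sub 9 𝔞) φ y ≤ K * (‖φ y‖ ^ 2 + gsq Y φ y) := by
  obtain ⟨V, hV, hS⟩ := ChartAux.setup c h
  obtain ⟨δ, hδ, K, hK⟩ := hS.decomp
  obtain ⟨L, hL⟩ := c.exists_GsL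
  refine ⟨δ, hδ, Module.finrank ℝ (sub 9 𝔞) * (2 * K ^ 2 * (‖L‖ ^ 2 + 1)), by positivity,
    fun φ hφ y hy hr => ?_⟩
  rw [gsq, mul_assoc]
  refine (Finset.sum_le_card_nsmul _ _ _ fun k _ => ?_).trans (by simp; rfl)
  have hk : ‖onb (sub 9 𝔞) k‖ = 1 := (stdOrthonormalBasis ℝ (sub 9 𝔞)).orthonormal.1 k
  obtain ⟨ξ, y', hy', h1, h2, h3⟩ := hK ⟨y, hy⟩ hr _ (onb_mem _ k)
  rw [hk, mul_one] at h2 h3
  have h4 := c.gauss_law h.1 (hφ.1.1.differentiable (by simp)) (c.mem_D.1 hφ).2 (h.2.1 ξ.2)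
    (h.2.2.1 hy)
  rw [h1, map_add, hV, h4, ← hL]
  have h5 : ‖L ξ (φ y)‖ ≤ ‖L‖ * K * ‖φ y‖ := (L ξ).le_of_opNorm_le (L.le_opNorm_of_le h2) _
  have h6 := (norm_fderiv_sq_le φ y hy').trans (mul_le_mul_of_nonneg_right
    (pow_le_pow_left₀ (norm_nonneg _) h3 2) (gsq_nonneg _ _ _))
  have h7 := pow_le_pow_left₀ (norm_nonneg _) h5 2
  have h8 := pow_le_pow_left₀ (norm_nonneg _) (norm_add_le (L ξ (φ y)) (fderiv ℝ φ y y')) 2
  have h9 := mul_nonneg (sq_nonneg K) (sq_nonneg ‖φ y‖)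
  have h10 := mul_nonneg (mul_nonneg (sq_nonneg K) (sq_nonneg ‖L‖)) (gsq_nonneg Y φ y)
  nlinarith [sq_nonneg (‖L ξ (φ y)‖ - ‖fderiv ℝ φ y y'‖)]

end ExtAux

namespace Ctx

variable {N d : ℕ} {F : Type} [NormedAddCommGroup F] [InnerProductSpace ℂ F]
  [FiniteDimensional ℂ F] (c : Ctx N d F)

open ExtAux in
theorem p_ext (h_slice : c.S_slice) (h_chart : c.S_chart) : c.S_ext := by
  intro π 𝔞 𝔪 Y y₀ h hH hz
  obtain ⟨r₁, hr₁, hs⟩ := h_slice π 𝔞 𝔪 Y y₀ h hH hz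
  obtain ⟨δ₁, hδ₁, hsm⟩ := smooth c h
  obtain ⟨δ₂, hδ₂, K₂, hK₂, hgs⟩ := gsq_le c h
  obtain ⟨ρ, hρ, hρ₁, hρ₂, hρ₃⟩ : ∃ ρ > 0, ρ ≤ r₁ ∧ ρ ≤ δ₁ ∧ ρ ≤ δ₂ :=
    ⟨min r₁ (min δ₁ δ₂), by positivity, min_le_left _ _,
      (min_le_right _ _).trans (min_le_left _ _), (min_le_right _ _).trans (min_le_right _ _)⟩
  obtain ⟨r', hr', K₁, hlow⟩ := h_chart.low π 𝔞 𝔪 Y y₀ h ρ hρ
  obtain ⟨r, hr, hr2, hrr⟩ : ∃ r > 0, 2 * r ≤ ρ ∧ r < r' :=
    ⟨min (ρ / 2) (r' / 2), by positivity, by linarith [min_le_left (ρ / 2) (r' / 2)],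
      by linarith [min_le_right (ρ / 2) (r' / 2)]⟩
  obtain ⟨n, hn, hcov⟩ := cover c h.1 (O := {x | ‖x - y₀‖ < r'})
    (isOpen_lt (by fun_prop) continuous_const) (isCompact_Orb c (π := π) (Y := Y) (y₀ := y₀)
      (r := r)) (by
      rintro _ ⟨⟨u, y⟩, ⟨hu, hy, -⟩, rfl⟩
      refine ⟨u⁻¹, inv_mem_Grp hu, ?_⟩
      simp only [c.Ad9_inv_apply]
      exact (mem_closedBall_iff_norm.1 hy).trans_lt hrr)
  refine ⟨r, hr, n * max K₁ 0 * (K₂ + 1), fun f hf hf0 hfe => ?_⟩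
  have hW : WD c π Y y₀ ρ f := fun u hu y hy h1 h2 h3 =>
    hfe u hu (hs u hu y hy (h1.trans_le hρ₁) h2 (h3.trans_le hρ₁)) y hy
  set φ : Tn 9 d → F := fun z => ext0 c π Y y₀ ρ f ((sub 9 𝔞).starProjection z) with hφ
  have hφU : ∀ x ∈ sub 9 𝔞, φ x = ext0 c π Y y₀ ρ f x := fun x hx => by
    simp only [hφ, Submodule.starProjection_eq_self_iff.2 hx]
  have hφf : ∀ y ∈ Y, ‖y - y₀‖ < ρ → φ y = f y := fun y hy h1 => by
    have := ext0_eq c hW (one_mem_Grp π) hy h1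
    rw [c.Ad9_one, map_one] at this
    exact (hφU y (h.2.2.1 hy)).trans this
  have hφs : ContDiff ℝ ∞ φ := hsm ρ hρ₂ f hf hW r (by linarith) hf0
  have hD : φ ∈ c.D π 𝔞 := by
    obtain ⟨R, hR⟩ := (isCompact_Orb c (π := π) (Y := Y) (y₀ := y₀)
      (r := r)).isBounded.exists_norm_le
    refine c.mem_D.2 ⟨sm_of_bound hφs (R := R) fun x hx hlt => ?_, fun u hu x hx => ?_⟩
    · rw [hφU x hx]
      exact ext0_zero c hf0 fun hm => absurd (hR x hm) (not_le.2 hlt)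
    · rw [hφU x hx, hφU _ (Th.Ad9_mem c h.1 hu hx), ext0_inv c hW hu]
  have hfS : Sm Y f := sm_of_bound hf (R := ‖y₀‖ + r) fun y hy hlt =>
    hf0 y hy (by linarith [norm_le_norm_add_norm_sub' y y₀])
  have hI1 : Integrable fun y : Y => ‖f y‖ ^ 2 := by
    simpa using hfS.integrable_wnrm (w := fun _ => 1) continuousOn_const
  have hI2 : Integrable fun y : Y => gsq Y f y := by
    simpa using hfS.integrable_wgsq (w := fun _ => 1) continuousOn_const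
  have hm : MeasurableSet {y : Y | ‖(y : Tn 9 d) - y₀‖ < ρ} :=
    (isOpen_lt (by fun_prop) continuous_const).measurableSet
  have key : ∀ g, c.Dens π 𝔞 g → (∀ x ∈ sub 9 𝔞, x ∉ Orb c π Y y₀ r → g x = 0) →
      ∀ g' : Y → ℝ, Integrable g' → (∀ y, 0 ≤ g' y) →
        (∀ y : Y, ‖(y : Tn 9 d) - y₀‖ < ρ → g y ≤ g' y) →
          ∫ x : sub 9 𝔞, g x ≤ n * max K₁ 0 * ∫ y, g' y := by
    intro g hg h0 g' hI h1 h2
    have h3 : ∫ y in {y : Y | ‖(y : Tn 9 d) - y₀‖ < ρ}, g y ≤ ∫ y, g' y :=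
      (integral_mono_of_nonneg (Eventually.of_forall fun y => hg.2.1 _) hI.integrableOn
        ((ae_restrict_iff' hm).2 (Eventually.of_forall h2))).trans
        (setIntegral_le_integral hI (Eventually.of_forall h1))
    rw [mul_assoc]
    refine (hcov g hg h0).trans (mul_le_mul_of_nonneg_left ((hlow g hg).trans ?_) hn)
    exact mul_le_mul (le_max_left _ _) h3 (integral_nonneg fun y => hg.2.1 _) (le_max_right _ _)
  have hn0 : 0 ≤ nrm Y f := integral_nonneg fun _ => sq_nonneg _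
  have hg0 : 0 ≤ grad Y f := integral_nonneg fun _ => gsq_nonneg _ _ _
  have hc0 : 0 ≤ n * max K₁ 0 := mul_nonneg hn (le_max_right _ _)
  refine ⟨φ, hD, fun y hy h1 => hφf y hy (h1.trans_le hr2), fun x hx h1 => ?_, ?_, ?_⟩
  · rw [hφU x hx] at h1 ⊢
    exact ext0_ne c h1
  · have h1 := key (fun x => ‖φ x‖ ^ 2) ⟨hφs.continuous.norm.pow 2, fun _ => sq_nonneg _,
      c.invR_normsq hD, hD.1.2.comp_left (g := fun v : F => ‖v‖ ^ 2) (by simp)⟩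
      (fun x hx h1 => by simp only [hφU x hx, ext0_zero c hf0 h1, norm_zero]; simp) _ hI1
      (fun _ => sq_nonneg _) fun y h1 => by simp only [hφf y y.2 h1, le_refl]
    refine h1.trans ?_
    rw [mul_assoc _ (K₂ + 1)]
    exact mul_le_mul_of_nonneg_left (le_mul_of_one_le_left hn0 (by linarith)) hc0
  · have h1 := key (gsq (sub 9 𝔞) φ) ⟨hD.1.gsq_support.1, gsq_nonneg _ _, c.invR_gsq h.1 hD,
      hD.1.gsq_support.2⟩ (fun x hx h1 => by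
        have := (ext0_near c (π := π) (ρ := ρ) hf0 (sub 9 𝔞) (x := x)
          (by rwa [Submodule.starProjection_eq_self_iff.2 hx])).fderiv_eq (𝕜 := ℝ)
        simp [gsq, hφ, this]) _ ((hI1.add hI2).const_mul K₂)
      (fun y => mul_nonneg hK₂ (add_nonneg (sq_nonneg _) (gsq_nonneg _ _ _))) fun y h1 => by
        refine (hgs φ hD y y.2 (h1.le.trans hρ₃)).trans (le_of_eq ?_)
        have h2 : gsq Y φ y = gsq Y f y := Finset.sum_congr rfl fun k _ => by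
          rw [fderiv_congr_on (hφs.differentiable (by simp) _) (hf.differentiable (by simp) _)
            y.2 (onb_mem Y k)]
          filter_upwards [(isOpen_lt (f := fun z => ‖z - y₀‖) (by fun_prop)
            continuous_const).mem_nhds h1] with z hz hzY using hφf z hzY hz
        rw [hφf y y.2 h1, h2]
        rfl
    rw [integral_const_mul, integral_add' hI1 hI2] at h1
    refine h1.trans ?_
    rw [mul_assoc _ (K₂ + 1)]
    exact mul_le_mul_of_nonneg_left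
      (mul_le_mul_of_nonneg_right (by linarith) (add_nonneg hn0 hg0)) hc0

end Ctx

end Vale.Agent.P353
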