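import Vale.Agent.P353.Ctx
import Vale.Agent.P353.Car1a

/-! Orthonormal bases, gradients, smooth compactly supported functions. -/

noncomputable section

open MeasureTheory Filter Topology Complex Matrix
open scoped ContDiff RealInnerProductSpace

namespace Vale.Agent.P353

variable {E : Type} [NormedAddCommGroup E] [InnerProductSpace ℝ E] [FiniteDimensional ℝ E]
  [MeasurableSpace E] [BorelSpace E]
variable {S : Type} [NormedAddCommGroup S] [InnerProductSpace ℝ S] [FiniteDimensional ℝ S]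
variable {F : Type} [NormedAddCommGroup F] [InnerProductSpace ℂ F] [FiniteDimensional ℂ F]
variable {θ : S →L[ℝ] F →L[ℂ] F} {U : Submodule ℝ E} {C : Set ((E →L[ℝ] E) × (F →L[ℂ] F))}

/-- gradient along `U` -/
def gU (U : Submodule ℝ E) (f : E → ℝ) (x : E) : E := ∑ k, fderiv ℝ f x (onb U k) • onb U k

/-- Laplacian along `U` -/
def lapF (U : Submodule ℝ E) (ψ : E → F) (x : E) : F :=
  ∑ k, fderiv ℝ (fun y => fderiv ℝ ψ y (onb U k)) x (onb U k)

theorem onb_mem (U : Submodule ℝ E) (k : Fin (Module.finrank ℝ U)) : onb U k ∈ U :=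
  (stdOrthonormalBasis ℝ U k).2

theorem inner_onb (U : Submodule ℝ E) (k l : Fin (Module.finrank ℝ U)) :
    ⟪onb U k, onb U l⟫ = if k = l then 1 else 0 := by
  have := orthonormal_iff_ite.1 (stdOrthonormalBasis ℝ U).orthonormal k l
  rw [Submodule.coe_inner] at this
  exact this

theorem sum_inner_onb_smul (U : Submodule ℝ E) (x : E) :
    ∑ k, ⟪onb U k, x⟫ • onb U k = U.starProjection x := by
  rw [(stdOrthonormalBasis ℝ U).starProjection_eq_sum_rankOne]
  simp [onb]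

theorem sum_inner_onb_mul (U : Submodule ℝ E) (x y : E) :
    ∑ k, ⟪onb U k, x⟫ * ⟪onb U k, y⟫ = ⟪U.starProjection x, y⟫ := by
  rw [← sum_inner_onb_smul, sum_inner]
  simp only [real_inner_smul_left]

theorem sum_onb_trR (U : Submodule ℝ E) (a : E →L[ℝ] E) :
    ∑ k, ⟪onb U k, a (onb U k)⟫ = trR (U.starProjection * a) := by
  rw [trR_eq_sum (stdOrthonormalBasis ℝ E)]
  have h1 : ∀ j, ⟪stdOrthonormalBasis ℝ E j, (U.starProjection * a) (stdOrthonormalBasis ℝ E j)⟫ =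
      ∑ k, ⟪onb U k, a (⟪stdOrthonormalBasis ℝ E j, onb U k⟫ • stdOrthonormalBasis ℝ E j)⟫ := by
    intro j
    rw [ContinuousLinearMap.mul_apply, real_inner_comm, ← sum_inner_onb_mul]
    refine Finset.sum_congr rfl fun k _ => ?_
    rw [map_smul, real_inner_smul_right, real_inner_comm (onb U k), mul_comm]
  rw [Finset.sum_congr rfl fun j _ => h1 j, Finset.sum_comm]
  refine Finset.sum_congr rfl fun k _ => ?_
  rw [← inner_sum, ← map_sum, (stdOrthonormalBasis ℝ E).sum_repr']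

theorem sum_onb_self {x : E} (hx : x ∈ U) : ∑ k, ⟪onb U k, x⟫ • onb U k = x := by
  rw [sum_inner_onb_smul, Submodule.starProjection_eq_self_iff.2 hx]

theorem span_onb (U : Submodule ℝ E) : Submodule.span ℝ (Set.range (onb U)) = U := by
  refine le_antisymm (Submodule.span_le.2 ?_) fun x hx => ?_
  · rintro _ ⟨k, rfl⟩
    exact onb_mem U k
  · rw [← sum_onb_self hx]
    exact Submodule.sum_mem _ fun k _ =>
      Submodule.smul_mem _ _ (Submodule.subset_span ⟨k, rfl⟩)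

private theorem sum_swap {V ι : Type} [NormedAddCommGroup V] [NormedSpace ℝ V] [Fintype ι]
    (f : E →L[ℝ] E →L[ℝ] V) {b : ι → E} (hb : ∀ j, b j ∈ U) :
    ∑ k, f (onb U k) (∑ j, ⟪b j, onb U k⟫ • b j) = ∑ j, f (b j) (b j) := by
  simp only [map_sum, map_smul]
  rw [Finset.sum_comm]
  refine Finset.sum_congr rfl fun j _ => ?_
  have h := congrArg (fun y => f y (b j)) (sum_onb_self (hb j))
  simp only [map_sum, map_smul, ContinuousLinearMap.sum_apply,
    ContinuousLinearMap.smul_apply] at h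
  rw [← h]
  exact Finset.sum_congr rfl fun k _ => by rw [real_inner_comm]

/-- independence of the orthonormal basis -/
theorem sum_onb_eq {V ι : Type} [NormedAddCommGroup V] [NormedSpace ℝ V] [Fintype ι]
    (f : E →L[ℝ] E →L[ℝ] V) {b : ι → E} (hb : Orthonormal ℝ b)
    (hs : Submodule.span ℝ (Set.range b) = U) :
    ∑ k, f (onb U k) (onb U k) = ∑ j, f (b j) (b j) := by
  have hm : ∀ j, b j ∈ U := fun j => hs ▸ Submodule.subset_span ⟨j, rfl⟩
  rw [← sum_swap f hm]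
  refine Finset.sum_congr rfl fun k _ => ?_
  have hk : onb U k ∈ Submodule.span ℝ (Set.range b) := hs ▸ onb_mem U k
  obtain ⟨c, hc⟩ := (Submodule.mem_span_range_iff_exists_fun ℝ).1 hk
  have : ∑ j, ⟪b j, onb U k⟫ • b j = onb U k := by
    rw [← hc]
    exact Finset.sum_congr rfl fun j _ => by rw [hb.inner_right_fintype]
  rw [this]

theorem sum_onb_sup {V : Type} [NormedAddCommGroup V] [NormedSpace ℝ V] (f : E →L[ℝ] E →L[ℝ] V)
    {U₁ U₂ : Submodule ℝ E} (h : U₁ ⟂ U₂) (hU : U₁ ⊔ U₂ = U) :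
    ∑ k, f (onb U k) (onb U k) =
      ∑ k, f (onb U₁ k) (onb U₁ k) + ∑ k, f (onb U₂ k) (onb U₂ k) := by
  have h1 : ∀ j, onb U₁ j ∈ U := fun j => hU ▸ Submodule.mem_sup_left (onb_mem U₁ j)
  have h2 : ∀ j, onb U₂ j ∈ U := fun j => hU ▸ Submodule.mem_sup_right (onb_mem U₂ j)
  rw [← sum_swap f h1, ← sum_swap f h2, ← Finset.sum_add_distrib]
  refine Finset.sum_congr rfl fun k _ => ?_
  have hk : onb U k ∈ U₁ ⊔ U₂ := hU ▸ onb_mem U k
  obtain ⟨u, hu, v, hv, huv⟩ := Submodule.mem_sup.1 hk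
  have e1 : U₁.starProjection v = 0 :=
    (Submodule.starProjection_apply_eq_zero_iff _).2 (h.symm hv)
  have e2 : U₂.starProjection u = 0 :=
    (Submodule.starProjection_apply_eq_zero_iff _).2 (h hu)
  have e3 : U₁.starProjection (onb U k) + U₂.starProjection (onb U k) = onb U k := by
    rw [← huv, map_add, map_add, e1, e2, Submodule.starProjection_eq_self_iff.2 hu,
      Submodule.starProjection_eq_self_iff.2 hv, add_zero, zero_add]
  rw [← map_add, sum_inner_onb_smul, sum_inner_onb_smul, e3]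

theorem sum_onb_map {V : Type} [NormedAddCommGroup V] [NormedSpace ℝ V] (f : E →L[ℝ] E →L[ℝ] V)
    {U₁ U₂ : Submodule ℝ E} {R : E →L[ℝ] E} (hR : ∀ x ∈ U₁, ‖R x‖ = ‖x‖)
    (h : U₁.map (R : E →ₗ[ℝ] E) = U₂) :
    ∑ k, f (onb U₂ k) (onb U₂ k) = ∑ k, f (R (onb U₁ k)) (R (onb U₁ k)) := by
  refine sum_onb_eq f (b := fun k => R (onb U₁ k)) ?_ ?_
  · rw [orthonormal_iff_ite]
    intro k l
    rw [← inner_onb, real_inner_eq_norm_add_mul_self_sub_norm_mul_self_sub_norm_mul_self_div_two,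
      real_inner_eq_norm_add_mul_self_sub_norm_mul_self_sub_norm_mul_self_div_two, ← map_add,
      hR _ (onb_mem U₁ k), hR _ (onb_mem U₁ l), hR _ (U₁.add_mem (onb_mem U₁ k) (onb_mem U₁ l))]
  · rw [← h]
    have : (Set.range fun k => R (onb U₁ k)) = (R : E →ₗ[ℝ] E) '' Set.range (onb U₁) := by
      rw [← Set.range_comp]
      rfl
    rw [this, ← Submodule.map_span, span_onb]

theorem gU_mem (U : Submodule ℝ E) (f : E → ℝ) (x : E) : gU U f x ∈ U :=
  U.sum_mem fun k _ => U.smul_mem _ (onb_mem U k)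

theorem inner_gU (f : E → ℝ) (x : E) {y : E} (hy : y ∈ U) : ⟪gU U f x, y⟫ = fderiv ℝ f x y := by
  have h := congrArg (fderiv ℝ f x) (sum_onb_self hy)
  rw [← h, gU, sum_inner, map_sum]
  refine Finset.sum_congr rfl fun k _ => ?_
  rw [real_inner_smul_left, map_smul, smul_eq_mul, mul_comm]

theorem norm_gU_le (U : Submodule ℝ E) (f : E → ℝ) (x : E) : ‖gU U f x‖ ≤ ‖fderiv ℝ f x‖ := by
  have h1 := inner_gU f x (gU_mem U f x)
  rw [real_inner_self_eq_norm_mul_norm] at h1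
  have h2 : fderiv ℝ f x (gU U f x) ≤ ‖fderiv ℝ f x‖ * ‖gU U f x‖ :=
    (le_abs_self _).trans ((fderiv ℝ f x).le_opNorm _)
  rcases (norm_nonneg (gU U f x)).eq_or_lt with h | h
  · rw [← h]
    exact norm_nonneg _
  · exact le_of_mul_le_mul_right (h1 ▸ h2) h

theorem gsq_nonneg (U : Submodule ℝ E) (ψ : E → F) (x : E) : 0 ≤ gsq U ψ x :=
  Finset.sum_nonneg fun _ _ => sq_nonneg _

theorem norm_fderiv_sq_le (ψ : E → F) (x : E) {y : E} (hy : y ∈ U) :
    ‖fderiv ℝ ψ x y‖ ^ 2 ≤ ‖y‖ ^ 2 * gsq U ψ x := by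
  have h := congrArg (fderiv ℝ ψ x) (sum_onb_self hy)
  have h1 : ‖fderiv ℝ ψ x y‖ ≤ ∑ k, |⟪onb U k, y⟫| * ‖fderiv ℝ ψ x (onb U k)‖ := by
    rw [← h, map_sum]
    refine (norm_sum_le _ _).trans (le_of_eq (Finset.sum_congr rfl fun k _ => ?_))
    rw [map_smul, norm_smul, Real.norm_eq_abs]
  have h2 := Finset.sum_mul_sq_le_sq_mul_sq Finset.univ (fun k => |⟪onb U k, y⟫|)
    fun k => ‖fderiv ℝ ψ x (onb U k)‖
  have h3 : ∑ k, |⟪onb U k, y⟫| ^ 2 = ‖y‖ ^ 2 := by
    rw [← real_inner_self_eq_norm_sq, ← congrArg (fun z => ⟪z, y⟫)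
      (Submodule.starProjection_eq_self_iff.2 hy), ← sum_inner_onb_mul]
    exact Finset.sum_congr rfl fun k _ => by rw [sq_abs, sq]
  rw [h3] at h2
  exact (pow_le_pow_left₀ (norm_nonneg _) h1 2).trans h2

private theorem exists_bq (D : E →L[ℝ] F) :
    ∃ B : E →L[ℝ] E →L[ℝ] ℝ, ∀ x, B x x = ‖D x‖ ^ 2 := by
  let : InnerProductSpace ℝ F := InnerProductSpace.complexToReal
  refine ⟨(innerSL ℝ : F →L[ℝ] F →L[ℝ] ℝ).bilinearComp D D, fun x => ?_⟩
  exact real_inner_self_eq_norm_sq (D x)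

theorem gsq_sup (ψ : E → F) (x : E) {U₁ U₂ : Submodule ℝ E} (h : U₁ ⟂ U₂) (hU : U₁ ⊔ U₂ = U) :
    gsq U ψ x = gsq U₁ ψ x + gsq U₂ ψ x := by
  obtain ⟨B, hB⟩ := exists_bq (fderiv ℝ ψ x)
  have := sum_onb_sup B h hU
  simp only [hB] at this
  exact this

theorem gsq_mono (ψ : E → F) (x : E) {U₁ : Submodule ℝ E} (h : U₁ ≤ U) :
    gsq U₁ ψ x ≤ gsq U ψ x := by
  have h1 : U₁ ⟂ U₁ᗮ ⊓ U := (Submodule.isOrtho_orthogonal_right U₁).mono_right inf_le_left
  rw [gsq_sup ψ x h1 (Submodule.sup_orthogonal_inf_of_hasOrthogonalProjection h)]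
  exact le_add_of_nonneg_right (gsq_nonneg _ _ _)

/-- derivatives along `U` only depend on the values on `U` -/
theorem fderiv_congr_on {V : Type} [NormedAddCommGroup V] [NormedSpace ℝ V] {f f' : E → V} {x y : E}
    (hf : DifferentiableAt ℝ f x) (hf' : DifferentiableAt ℝ f' x) (hx : x ∈ U) (hy : y ∈ U)
    (h : ∀ᶠ z in 𝓝 x, z ∈ U → f z = f' z) : fderiv ℝ f x y = fderiv ℝ f' x y := by
  have h1 : HasFDerivAt (fun z : U => f z) ((fderiv ℝ f x).comp U.subtypeL) ⟨x, hx⟩ :=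
    HasFDerivAt.comp (⟨x, hx⟩ : U) (f := U.subtypeL) hf.hasFDerivAt U.subtypeL.hasFDerivAt
  have h2 : HasFDerivAt (fun z : U => f' z) ((fderiv ℝ f' x).comp U.subtypeL) ⟨x, hx⟩ :=
    HasFDerivAt.comp (⟨x, hx⟩ : U) (f := U.subtypeL) hf'.hasFDerivAt U.subtypeL.hasFDerivAt
  have h3 : (fun z : U => f z) =ᶠ[𝓝 ⟨x, hx⟩] fun z : U => f' z := by
    have ht : Tendsto (fun z : U => (z : E)) (𝓝 ⟨x, hx⟩) (𝓝 x) :=
      continuous_subtype_val.tendsto (⟨x, hx⟩ : U)
    filter_upwards [ht.eventually h] with z hz using hz z.2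
  have h4 := (h2.congr_of_eventuallyEq h3).unique h1
  exact (congrArg (fun L : U →L[ℝ] V => L ⟨y, hy⟩) h4).symm

theorem gsq_inv {ψ : E → F} (hψ : Differentiable ℝ ψ) {R : E →L[ℝ] E} {a : F →L[ℂ] F}
    (hR : ∀ x ∈ U, R x ∈ U ∧ ‖R x‖ = ‖x‖) (ha : ∀ y, ‖a y‖ = ‖y‖)
    (h : ∀ x ∈ U, ψ (R x) = a (ψ x)) {x : E} (hx : x ∈ U) : gsq U ψ (R x) = gsq U ψ x := by
  have hmap : U.map (R : E →ₗ[ℝ] E) = U := by
    refine le_antisymm ?_ fun y hy => ?_
    · rintro _ ⟨z, hz, rfl⟩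
      exact (hR z hz).1
    · have hinj : Function.Injective ((R : E →ₗ[ℝ] E).restrict fun z hz => (hR z hz).1) := by
        rw [injective_iff_map_eq_zero]
        intro z hz
        have h1 : R z = 0 := congrArg Subtype.val hz
        have h2 := (hR z z.2).2
        rw [h1, norm_zero] at h2
        exact Subtype.ext (norm_eq_zero.1 h2.symm)
      obtain ⟨z, hz⟩ := LinearMap.injective_iff_surjective.1 hinj ⟨y, hy⟩
      exact ⟨z, z.2, congrArg Subtype.val hz⟩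
  obtain ⟨B, hB⟩ := exists_bq (fderiv ℝ ψ (R x))
  have h1 := sum_onb_map B (fun z hz => (hR z hz).2) hmap
  simp only [hB] at h1
  rw [gsq, h1]
  refine Finset.sum_congr rfl fun k _ => ?_
  have d1 : HasFDerivAt (fun z => ψ (R z)) ((fderiv ℝ ψ (R x)).comp R) x :=
    HasFDerivAt.comp x (hψ (R x)).hasFDerivAt R.hasFDerivAt
  have d2 : HasFDerivAt (fun z => a (ψ z)) ((a.restrictScalars ℝ).comp (fderiv ℝ ψ x)) x :=
    HasFDerivAt.comp x (a.restrictScalars ℝ).hasFDerivAt (hψ x).hasFDerivAt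
  have e := fderiv_congr_on d1.differentiableAt d2.differentiableAt hx (onb_mem U k)
    (Eventually.of_forall h)
  rw [d1.fderiv, d2.fderiv] at e
  have e' : fderiv ℝ ψ (R x) (R (onb U k)) = a (fderiv ℝ ψ x (onb U k)) := e
  rw [e', ha]

theorem Sm.exists_bound {ψ : E → F} (h : Sm U ψ) : ∃ R, ∀ x ∈ U, R < ‖x‖ → ψ x = 0 := by
  obtain ⟨R, hR⟩ := h.2.isCompact.isBounded.subset_closedBall 0
  refine ⟨R, fun x hx hlt => ?_⟩
  by_contra hne
  have := hR (subset_tsupport (fun x : U => ψ x) (show (⟨x, hx⟩ : U) ∈ _ from hne))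
  rw [mem_closedBall_zero_iff] at this
  exact absurd hlt (not_lt.2 this)

private theorem supp_of_bound {V : Type} [Zero V] {g : E → V} {R : ℝ}
    (hR : ∀ x ∈ U, R < ‖x‖ → g x = 0) : HasCompactSupport fun x : U => g x :=
  HasCompactSupport.intro (isCompact_closedBall (0 : U) R) fun x hx =>
    hR x x.2 (not_le.1 fun h => hx (mem_closedBall_zero_iff.2 h))

theorem sm_of_bound {ψ : E → F} (h : ContDiff ℝ ∞ ψ) {R : ℝ} (hR : ∀ x ∈ U, R < ‖x‖ → ψ x = 0) :
    Sm U ψ := ⟨h, supp_of_bound hR⟩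

private theorem fderiv_zero_of_bound {ψ : E → F} (h : ContDiff ℝ ∞ ψ) {R : ℝ}
    (hR : ∀ x ∈ U, R < ‖x‖ → ψ x = 0) {x y : E} (hx : x ∈ U) (hy : y ∈ U) (hlt : R < ‖x‖) :
    fderiv ℝ ψ x y = 0 := by
  have h1 : ∀ᶠ z in 𝓝 x, R < ‖z‖ := continuous_norm.continuousAt.eventually (lt_mem_nhds hlt)
  have h2 := fderiv_congr_on (f' := fun _ => (0 : F)) (h.differentiable (by simp) x)
    (differentiableAt_const _) hx hy (h1.mono fun z hz hzU => hR z hzU hz)
  rw [h2]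
  simp

theorem Sm.add {φ ψ : E → F} (h : Sm U φ) (h' : Sm U ψ) : Sm U (φ + ψ) :=
  ⟨h.1.add h'.1, h.2.add h'.2⟩

theorem Sm.smul {ψ : E → F} (h : Sm U ψ) (z : ℂ) : Sm U (z • ψ) :=
  ⟨h.1.const_smul z, h.2.smul_left (f := fun _ => z)⟩

theorem Sm.sub {φ ψ : E → F} (h : Sm U φ) (h' : Sm U ψ) : Sm U (φ - ψ) :=
  ⟨h.1.sub h'.1, h.2.sub h'.2⟩

theorem Sm.mulR {ψ : E → F} (h : Sm U ψ) {f : E → ℝ} (hf : ContDiff ℝ ∞ f) :
    Sm U fun x => (f x : ℂ) • ψ x :=
  ⟨(Complex.ofRealCLM.contDiff.comp hf).smul h.1, h.2.smul_left (f := fun x : U => (f x : ℂ))⟩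

theorem Sm.clm {ψ : E → F} (h : Sm U ψ) {a : E → F →L[ℂ] F} (ha : ContDiff ℝ ∞ a) :
    Sm U fun x => a x (ψ x) := by
  obtain ⟨R, hR⟩ := h.exists_bound
  refine sm_of_bound (R := R) ?_ fun x hx hlt => by rw [hR x hx hlt, map_zero]
  exact ((ContinuousLinearMap.restrictScalarsL ℂ F F ℝ ℝ).contDiff.comp ha).clm_apply h.1

theorem Sm.fderiv {ψ : E → F} (h : Sm U ψ) {τ : E → E} (hτ : ContDiff ℝ ∞ τ)
    (hU : ∀ x ∈ U, τ x ∈ U) : Sm U fun x => fderiv ℝ ψ x (τ x) := by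
  obtain ⟨R, hR⟩ := h.exists_bound
  exact sm_of_bound (R := R) ((h.1.fderiv_right (m := ∞) le_rfl).clm_apply hτ)
    fun x hx hlt => fderiv_zero_of_bound h.1 hR hx (hU x hx) hlt

theorem Sm.dop {ψ : E → F} (h : Sm U ψ) (p : ℝ) (s : E →L[ℝ] S) {β : E → S}
    (hβ : ContDiff ℝ ∞ β) : Sm U (dop θ U p s β ψ) := by
  obtain ⟨R, hR⟩ := h.exists_bound
  refine sm_of_bound (R := R) ?_ fun x hx hlt => ?_
  · refine ContDiff.add (ContDiff.sum fun k _ => ?_) (h.clm (θ.contDiff.comp hβ)).1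
    exact ((h.fderiv contDiff_const fun _ _ => onb_mem U k).clm
      (a := fun _ => θ (s (onb U k))) contDiff_const).1.const_smul _
  · rw [P353.dop, hR x hx hlt, map_zero, add_zero]
    exact Finset.sum_eq_zero fun k _ => by
      rw [fderiv_zero_of_bound h.1 hR hx (onb_mem U k) hlt, map_zero, smul_zero]

theorem Sm.memLp {ψ : E → F} (h : Sm U ψ) : MemLp (fun x : U => ψ x) 2 volume :=
  (h.1.continuous.comp continuous_subtype_val).memLp_of_hasCompactSupport h.2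

theorem Sm.integrable_wnrm {ψ : E → F} (h : Sm U ψ) {w : E → ℝ} (hw : ContinuousOn w U) :
    Integrable fun x : U => w x * ‖ψ x‖ ^ 2 := by
  obtain ⟨R, hR⟩ := h.exists_bound
  have hc : Continuous fun x : U => w x := continuousOn_iff_continuous_restrict.1 hw
  refine Continuous.integrable_of_hasCompactSupport
    (hc.mul ((h.1.continuous.comp continuous_subtype_val).norm.pow 2)) ?_
  exact supp_of_bound (g := fun x => w x * ‖ψ x‖ ^ 2) (R := R) fun x hx hlt => by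
    simp [hR x hx hlt]

theorem Sm.gsq_support {ψ : E → F} (h : Sm U ψ) :
    Continuous (gsq U ψ) ∧ HasCompactSupport fun x : U => gsq U ψ x := by
  obtain ⟨R, hR⟩ := h.exists_bound
  refine ⟨continuous_finset_sum _ fun k _ =>
    (h.fderiv contDiff_const fun _ _ => onb_mem U k).1.continuous.norm.pow 2,
    supp_of_bound (R := R) fun x hx hlt => Finset.sum_eq_zero fun k _ => ?_⟩
  rw [fderiv_zero_of_bound h.1 hR hx (onb_mem U k) hlt]
  simp

theorem Sm.integrable_wgsq {ψ : E → F} (h : Sm U ψ) {w : E → ℝ} (hw : ContinuousOn w U) :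
    Integrable fun x : U => w x * gsq U ψ x := by
  have hc : Continuous fun x : U => w x := continuousOn_iff_continuous_restrict.1 hw
  exact Continuous.integrable_of_hasCompactSupport
    (hc.mul (h.gsq_support.1.comp continuous_subtype_val)) h.gsq_support.2.mul_left

end Vale.Agent.P353
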