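import Vale.Agent.P353.Ga1a

/-! Square integrable classes. -/

noncomputable section

open MeasureTheory Filter Topology Complex Matrix
open scoped ContDiff RealInnerProductSpace

namespace Vale.Agent.P353

variable {E : Type} [NormedAddCommGroup E] [InnerProductSpace ℝ E] [FiniteDimensional ℝ E]
  [MeasurableSpace E] [BorelSpace E]
variable {S : Type} [NormedAddCommGroup S] [InnerProductSpace ℝ S] [FiniteDimensional ℝ S]
variable {F : Type} [NormedAddCommGroup F] [InnerProductSpace ℂ F] [FiniteDimensional ℂ F]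
variable {θ : S →L[ℝ] F →L[ℂ] F} {U : Submodule ℝ E} {C : Set ((E →L[ℝ] E) × (F →L[ℂ] F))}

namespace Ga1bAux

theorem coe {ψ : E → F} (h : MemLp (fun x : U => ψ x) 2 volume) :
    ∀ᵐ x : U, L2 U ψ x = ψ x := by
  rw [L2, dif_pos h]
  exact h.coeFn_toLp

theorem inn {φ ψ : E → F} (h : MemLp (fun x : U => φ x) 2 volume)
    (h' : MemLp (fun x : U => ψ x) 2 volume) : inner ℂ (L2 U φ) (L2 U ψ) = ip U φ ψ := by
  rw [L2.inner_def, ip]
  refine integral_congr_ae ?_
  filter_upwards [coe h, coe h'] with x h1 h2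
  rw [h1, h2]

theorem op (a : F →L[ℂ] F) (u : LL U F) : ∀ᵐ x : U, opL U a u x = a (u x) :=
  a.coeFn_compLpL u

end Ga1bAux

theorem nrm_nonneg (U : Submodule ℝ E) (ψ : E → F) : 0 ≤ nrm U ψ := 
  integral_nonneg fun _ => sq_nonneg _

theorem grad_nonneg (U : Submodule ℝ E) (ψ : E → F) : 0 ≤ grad U ψ := 
  integral_nonneg fun x => gsq_nonneg U ψ x

theorem mass_nonneg (U : Submodule ℝ E) (O : Set E) (ψ : E → F) : 0 ≤ mass U O ψ := 
  integral_nonneg fun _ => sq_nonneg _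

theorem en_nonneg (p : ℝ) (s : Fin 16 → E →L[ℝ] S) (β : Fin 16 → E → S) (ψ : E → F) :
    0 ≤ en θ U p s β ψ := Finset.sum_nonneg fun _ _ => nrm_nonneg _ _

theorem norm_L2_sq {ψ : E → F} (h : MemLp (fun x : U => ψ x) 2 volume) :
    ‖L2 U ψ‖ ^ 2 = nrm U ψ := by
  have e := Ga1bAux.inn h h
  rw [inner_self_eq_norm_sq_to_K, ip] at e
  simp_rw [inner_self_eq_norm_sq_to_K] at e
  norm_cast at e

theorem inner_L2 {φ ψ : E → F} (h : MemLp (fun x : U => φ x) 2 volume)
    (h' : MemLp (fun x : U => ψ x) 2 volume) : inner ℂ (L2 U φ) (L2 U ψ) = ip U φ ψ := 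
  Ga1bAux.inn h h'

theorem L2_add {φ ψ : E → F} (h : MemLp (fun x : U => φ x) 2 volume)
    (h' : MemLp (fun x : U => ψ x) 2 volume) : L2 U (φ + ψ) = L2 U φ + L2 U ψ := by
  have h2 : MemLp (fun x : U => (φ + ψ) x) 2 volume := h.add h'
  rw [L2, L2, L2, dif_pos h, dif_pos h', dif_pos h2]
  rfl

theorem L2_sub {φ ψ : E → F} (h : MemLp (fun x : U => φ x) 2 volume)
    (h' : MemLp (fun x : U => ψ x) 2 volume) : L2 U (φ - ψ) = L2 U φ - L2 U ψ := by
  have h2 : MemLp (fun x : U => (φ - ψ) x) 2 volume := h.sub h'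
  rw [L2, L2, L2, dif_pos h, dif_pos h', dif_pos h2]
  rfl

theorem L2_smul (z : ℂ) (ψ : E → F) : L2 U (z • ψ) = z • L2 U ψ := by
  by_cases h : MemLp (fun x : U => ψ x) 2 volume
  · have h2 : MemLp (fun x : U => (z • ψ) x) 2 volume := h.const_smul z
    rw [L2, L2, dif_pos h, dif_pos h2]
    rfl
  · rcases eq_or_ne z 0 with rfl | hz
    · have h2 : MemLp (fun x : U => (0 : E → F) x) 2 volume := MemLp.zero
      rw [zero_smul, zero_smul, L2, dif_pos h2]
      rfl
    · have h2 : ¬ MemLp (fun x : U => (z • ψ) x) 2 volume := fun h2 => h (by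
        have h3 := h2.const_smul z⁻¹
        refine (memLp_congr_ae (.of_forall fun x => ?_)).1 h3
        simp [smul_smul, hz])
      rw [L2, L2, dif_neg h, dif_neg h2, smul_zero]

theorem L2_congr {φ ψ : E → F} (h : ∀ᵐ x : U, φ x = ψ x) : L2 U φ = L2 U ψ := by
  by_cases h1 : MemLp (fun x : U => φ x) 2 volume
  · have h2 : MemLp (fun x : U => ψ x) 2 volume := (memLp_congr_ae h).1 h1
    rw [L2, L2, dif_pos h1, dif_pos h2]
    exact MemLp.toLp_congr _ _ h
  · have h2 : ¬ MemLp (fun x : U => ψ x) 2 volume := fun h2 => h1 ((memLp_congr_ae h).2 h2)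
    rw [L2, L2, dif_neg h1, dif_neg h2]

theorem coe_L2 {ψ : E → F} (h : MemLp (fun x : U => ψ x) 2 volume) :
    ∀ᵐ x : U, L2 U ψ x = ψ x := Ga1bAux.coe h

theorem rep_coe (u : LL U F) (x : U) : rep U u x = u x := by
  rw [rep, Submodule.orthogonalProjectionOnto_mem_subspace_eq_self]

theorem memLp_rep (u : LL U F) : MemLp (fun x : U => rep U u x) 2 volume := by
  simp only [rep_coe]
  exact Lp.memLp u

theorem L2_rep (u : LL U F) : L2 U (rep U u) = u := by
  refine Lp.ext ?_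
  filter_upwards [coe_L2 (memLp_rep u)] with x hx
  rw [hx, rep_coe]

theorem opL_L2 (a : F →L[ℂ] F) {ψ : E → F} (h : MemLp (fun x : U => ψ x) 2 volume) :
    opL U a (L2 U ψ) = L2 U fun x => a (ψ x) := by
  have h2 : MemLp (fun x : U => (fun x => a (ψ x)) (x : E)) 2 volume := a.comp_memLp' h
  refine Lp.ext ?_
  filter_upwards [Ga1bAux.op a (L2 U ψ), coe_L2 h, coe_L2 (ψ := fun x => a (ψ x)) h2]
    with x h1 h2 h3
  rw [h1, h2, h3]

theorem coe_opL (a : F →L[ℂ] F) (u : LL U F) : ∀ᵐ x : U, opL U a u x = a (u x) :=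
  Ga1bAux.op a u

theorem opL_mul (a b : F →L[ℂ] F) : opL U (a * b) = opL U a * opL U b := by
  refine ContinuousLinearMap.ext fun u => Lp.ext ?_
  filter_upwards [coe_opL (a * b) u, coe_opL a (opL U b u), coe_opL b u] with x h1 h2 h3
  rw [h1, mul_apply_eq_comp, mul_apply_eq_comp, h2, h3]

theorem opL_one : opL U (1 : F →L[ℂ] F) = 1 := by
  refine ContinuousLinearMap.ext fun u => Lp.ext ?_
  exact coe_opL 1 u

theorem opL_add (a b : F →L[ℂ] F) : opL U (a + b) = opL U a + opL U b := 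
  a.add_compLpL b

theorem opL_smul (z : ℂ) (a : F →L[ℂ] F) : opL U (z • a) = z • opL U a := 
  ContinuousLinearMap.smul_compLpL z a

theorem norm_opL_le (a : F →L[ℂ] F) : ‖opL U a‖ ≤ ‖a‖ := a.norm_compLpL_le

theorem inner_opL {a b : F →L[ℂ] F} (h : ∀ x y, inner ℂ (a x) y = inner ℂ x (b y))
    (u w : LL U F) : inner ℂ (opL U a u) w = inner ℂ u (opL U b w) := by
  rw [L2.inner_def, L2.inner_def]
  refine integral_congr_ae ?_
  filter_upwards [coe_opL a u, coe_opL b w] with x h1 h2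
  rw [h1, h2, h]

theorem norm_ip_sq_le {φ ψ : E → F} (h : MemLp (fun x : U => φ x) 2 volume)
    (h' : MemLp (fun x : U => ψ x) 2 volume) : ‖ip U φ ψ‖ ^ 2 ≤ nrm U φ * nrm U ψ := by
  rw [← inner_L2 h h', ← norm_L2_sq h, ← norm_L2_sq h', ← mul_pow]
  exact pow_le_pow_left₀ (norm_nonneg _) (norm_inner_le_norm _ _) 2

theorem nrm_add_le {φ ψ : E → F} (h : MemLp (fun x : U => φ x) 2 volume)
    (h' : MemLp (fun x : U => ψ x) 2 volume) : nrm U (φ + ψ) ≤ 2 * nrm U φ + 2 * nrm U ψ := by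
  have h2 : MemLp (fun x : U => (φ + ψ) x) 2 volume := h.add h'
  rw [← norm_L2_sq h, ← norm_L2_sq h', ← norm_L2_sq h2, L2_add h h']
  have h3 := pow_le_pow_left₀ (norm_nonneg _) (norm_add_le (L2 U φ) (L2 U ψ)) 2
  nlinarith [sq_nonneg (‖L2 U φ‖ - ‖L2 U ψ‖)]

end Vale.Agent.P353
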