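import Vale.Agent.P353.Ga1a

/-! Integrals with parameters, real test functions. -/

noncomputable section

open MeasureTheory Filter Topology Complex Matrix
open scoped ContDiff RealInnerProductSpace

namespace Vale.Agent.P353

variable {E : Type} [NormedAddCommGroup E] [InnerProductSpace ℝ E] [FiniteDimensional ℝ E]
  [MeasurableSpace E] [BorelSpace E]
variable {S : Type} [NormedAddCommGroup S] [InnerProductSpace ℝ S] [FiniteDimensional ℝ S]
variable {F : Type} [NormedAddCommGroup F] [InnerProductSpace ℂ F] [FiniteDimensional ℂ F]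
variable {θ : S →L[ℝ] F →L[ℂ] F} {U : Submodule ℝ E} {C : Set ((E →L[ℝ] E) × (F →L[ℂ] F))}

namespace Ga1dAux

open scoped Convolution

theorem conv_eq {G V : Type} [NormedAddCommGroup G] [InnerProductSpace ℝ G]
    [FiniteDimensional ℝ G] [MeasurableSpace G] [BorelSpace G] [NormedAddCommGroup V]
    [NormedSpace ℝ V] (h : G → V) :
    ((fun _ : G => (1 : ℝ)) ⋆[ContinuousLinearMap.lsmul ℝ ℝ, volume] fun t => h (-t)) 0 =
      ∫ w, h w := by
  simp [convolution_def]

theorem main {X G V : Type} [NormedAddCommGroup X] [NormedSpace ℝ X] [NormedAddCommGroup G]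
    [InnerProductSpace ℝ G] [FiniteDimensional ℝ G] [MeasurableSpace G] [BorelSpace G]
    [NormedAddCommGroup V] [NormedSpace ℝ V] [CompleteSpace V] {g : X → G → V} {O : Set X}
    (hO : IsOpen O) (hg : ContDiffOn ℝ ∞ (Function.uncurry g) (O ×ˢ Set.univ)) {R : ℝ}
    (hR : ∀ x ∈ O, ∀ w, R < ‖w‖ → g x w = 0) :
    ContDiffOn ℝ ∞ (fun x => ∫ w, g x w) O ∧ ∀ x ∈ O, ∀ y,
      fderiv ℝ (fun x => ∫ w, g x w) x y = ∫ w, fderiv ℝ (fun x => g x w) x y := by
  set g' : X → G → V := fun p t => g p (-t) with hg'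
  have hk : IsCompact (Metric.closedBall (0 : G) R) := isCompact_closedBall _ _
  have hs : ∀ p t, p ∈ O → t ∉ Metric.closedBall (0 : G) R → g' p t = 0 := by
    intro p t hp ht
    refine hR p hp _ ?_
    rw [norm_neg]
    simpa using ht
  have hc : ContDiffOn ℝ ∞ (Function.uncurry g') (O ×ˢ Set.univ) := by
    refine hg.comp (f := fun q : X × G => (q.1, -q.2))
      (contDiff_fst.prodMk contDiff_snd.neg).contDiffOn ?_
    intro q hq
    exact ⟨hq.1, Set.mem_univ _⟩
  have h1 : LocallyIntegrable (fun _ : G => (1 : ℝ)) volume := locallyIntegrable_const 1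
  have he : (fun x => ∫ w, g x w) = fun x =>
      ((fun _ : G => (1 : ℝ)) ⋆[ContinuousLinearMap.lsmul ℝ ℝ, volume] g' x) 0 :=
    funext fun x => (conv_eq (g x)).symm
  have hop : IsOpen (O ×ˢ (Set.univ : Set G)) := hO.prod isOpen_univ
  refine ⟨?_, fun x hx y => ?_⟩
  · rw [he]
    exact contDiffOn_convolution_right_with_param_comp (ContinuousLinearMap.lsmul ℝ ℝ)
      (v := fun _ => (0 : G)) contDiffOn_const hO hk hs h1 hc
  · have hd := hasFDerivAt_convolution_right_with_param (ContinuousLinearMap.lsmul ℝ ℝ) hO hk hs h1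
      (hc.of_le (by simp)) (x, 0) hx
    have hd2 := HasFDerivAt.comp (f := fun e : X => (e, (0 : G))) x hd
      (hasFDerivAt_prodMk_left (𝕜 := ℝ) x (0 : G))
    have hcont : Continuous fun t : G => fderiv ℝ (Function.uncurry g') (x, t) :=
      (hc.continuousOn_fderiv_of_isOpen hop (by simp)).comp_continuous (.prodMk_right x)
        fun t => ⟨hx, Set.mem_univ _⟩
    have hsupp : HasCompactSupport fun t : G => fderiv ℝ (Function.uncurry g') (x, t) := by
      refine HasCompactSupport.intro hk fun t ht => ?_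
      have hev : Function.uncurry g' =ᶠ[𝓝 (x, t)] fun _ => 0 :=
        Filter.Eventually.mono ((hO.prod hk.isClosed.isOpen_compl).mem_nhds ⟨hx, ht⟩)
          fun q hq => hs q.1 q.2 hq.1 hq.2
      rw [hev.fderiv_eq]
      simp
    have h2 : ∀ w : G, fderiv ℝ (fun x => g x w) x y =
        fderiv ℝ (Function.uncurry g') (x, -w) (y, 0) := by
      intro w
      have h3 : HasFDerivAt (Function.uncurry g') (fderiv ℝ (Function.uncurry g') (x, -w))
          (x, -w) :=
        ((hc.contDiffAt (hop.mem_nhds ⟨hx, Set.mem_univ _⟩)).differentiableAt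
          (by simp)).hasFDerivAt
      have h4 := (HasFDerivAt.comp (f := fun e : X => (e, -w)) x h3
        (hasFDerivAt_prodMk_left (𝕜 := ℝ) x (-w))).fderiv
      have h5 : (Function.uncurry g' ∘ fun e => (e, -w)) = fun x => g x w := by
        funext e
        simp [hg']
      rw [h5] at h4
      rw [h4]
      simp
    have h6 := convolution_precompR_apply (ContinuousLinearMap.lsmul ℝ ℝ) h1 hsupp hcont 0 (y, 0)
    have h7 := (congrArg (fun T : X →L[ℝ] V => T y) hd2.fderiv).trans h6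
    rw [he, ← conv_eq]
    simp only [h2, neg_neg]
    exact h7

end Ga1dAux

/-- smoothness of integrals with parameters -/
theorem contDiffOn_integral {X V : Type} [NormedAddCommGroup X] [NormedSpace ℝ X]
    [FiniteDimensional ℝ X] [NormedAddCommGroup V] [NormedSpace ℝ V] [CompleteSpace V]
    {Φ : X → E → V} {O : Set X} (hO : IsOpen O)
    (hΦ : ContDiffOn ℝ ∞ (Function.uncurry Φ) (O ×ˢ Set.univ)) {R : ℝ}
    (hR : ∀ x ∈ O, ∀ w ∈ U, R < ‖w‖ → Φ x w = 0) :
    ContDiffOn ℝ ∞ (fun x => ∫ w : U, Φ x w) O ∧ ∀ x ∈ O, ∀ y,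
      fderiv ℝ (fun x => ∫ w : U, Φ x w) x y = ∫ w : U, fderiv ℝ (fun x => Φ x w) x y := by
  have hg : ContDiffOn ℝ ∞ (Function.uncurry fun (p : X) (t : U) => Φ p t) (O ×ˢ Set.univ) := by
    refine hΦ.comp (f := fun q : X × U => (q.1, (q.2 : E)))
      (contDiff_fst.prodMk (U.subtypeL.contDiff.comp contDiff_snd)).contDiffOn ?_
    intro q hq
    exact ⟨hq.1, Set.mem_univ _⟩
  exact Ga1dAux.main (g := fun (p : X) (t : U) => Φ p t) hO hg (R := R)
    fun x hx w hw => hR x hx w w.2 hw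

theorem SmR.mul {Z : Set E} {η f : E → ℝ} (h : SmR U η Z) {O : Set E} (hO : IsOpen O)
    (hf : ContDiffOn ℝ ∞ f O) (hZ : ∀ x ∈ U, x ∈ Z → x ∈ O) :
    SmR U (fun x => η (U.starProjection x) * f (U.starProjection x)) Z := by
  obtain ⟨hη, K, hK, hKZ, hKU, h0⟩ := h
  have hP : ContDiff ℝ ∞ fun x : E => U.starProjection x := U.starProjection.contDiff
  refine ⟨contDiff_iff_contDiffAt.2 fun x => ?_, K, hK, hKZ, hKU, fun x hx hxK => ?_⟩
  · by_cases hx : U.starProjection x ∈ O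
    · exact (hη.comp hP).contDiffAt.mul
        ((hf.contDiffAt (hO.mem_nhds hx)).comp x hP.contDiffAt)
    · have hxK : U.starProjection x ∈ Kᶜ := fun hk => hx (hZ _ (hKU hk) (hKZ hk))
      have hev : ∀ᶠ z in 𝓝 x, U.starProjection z ∈ Kᶜ :=
        hP.continuous.continuousAt.eventually (hK.isClosed.isOpen_compl.mem_nhds hxK)
      refine (contDiffAt_const (c := (0 : ℝ))).congr_of_eventuallyEq (hev.mono fun z hz => ?_)
      simp only [h0 _ (U.starProjection_apply_mem z) hz, zero_mul]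
  · simp only [Submodule.starProjection_eq_self_iff.2 hx, h0 x hx hxK, zero_mul]

theorem SmR.fderiv {Z : Set E} {η : E → ℝ} (h : SmR U η Z) {y : E} (hy : y ∈ U) :
    SmR U (fun x => fderiv ℝ η x y) Z := by
  obtain ⟨hη, K, hK, hKZ, hKU, h0⟩ := h
  refine ⟨(hη.fderiv_right (m := ∞) (by simp)).clm_apply contDiff_const, K, hK, hKZ, hKU,
    fun x hx hxK => ?_⟩
  have hev : ∀ᶠ z in 𝓝 x, z ∈ U → η z = (fun _ => (0 : ℝ)) z :=
    Filter.Eventually.mono (hK.isClosed.isOpen_compl.mem_nhds hxK) fun z hz hzU => h0 z hzU hz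
  have := fderiv_congr_on (hη.differentiable (by simp) x) (differentiableAt_const (0 : ℝ)) hx hy hev
  simpa using this

theorem SmR.mul' {Z : Set E} {η f : E → ℝ} (h : SmR U η Z) (hf : ContDiff ℝ ∞ f) :
    SmR U (fun x => f x * η x) Z := by
  obtain ⟨hη, K, hK, hKZ, hKU, h0⟩ := h
  exact ⟨hf.mul hη, K, hK, hKZ, hKU, fun x hx hxK => by simp only [h0 x hx hxK, mul_zero]⟩

theorem SmR.add {Z : Set E} {η η' : E → ℝ} (h : SmR U η Z) (h' : SmR U η' Z) :
    SmR U (η + η') Z := by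
  obtain ⟨hη, K, hK, hKZ, hKU, h0⟩ := h
  obtain ⟨hη', K', hK', hKZ', hKU', h0'⟩ := h'
  refine ⟨hη.add hη', K ∪ K', hK.union hK', Set.union_subset hKZ hKZ',
    Set.union_subset hKU hKU', fun x hx hxK => ?_⟩
  rw [Pi.add_apply, h0 x hx fun h => hxK (Or.inl h), h0' x hx fun h => hxK (Or.inr h), add_zero]

theorem SmR.mono {Z Z' : Set E} {η : E → ℝ} (h : SmR U η Z) (hZ : ∀ x ∈ U, x ∈ Z → x ∈ Z') :
    SmR U η Z' := by
  obtain ⟨hη, K, hK, hKZ, hKU, h0⟩ := h
  exact ⟨hη, K, hK, fun x hx => hZ x (hKU hx) (hKZ hx), hKU, h0⟩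

/-- smooth partition of a test function subordinate to an open cover -/
theorem SmR.partition {Z : Set E} {η : E → ℝ} (h : SmR U η Z) {ι : Type} (O : ι → Set E)
    (hO : ∀ i, IsOpen (O i)) (hc : ∀ x ∈ U, x ∈ Z → ∃ i, x ∈ O i) :
    ∃ (s : Finset ι) (ρ : ι → E → ℝ), (∀ i, ContDiff ℝ ∞ (ρ i) ∧ (∀ x, 0 ≤ ρ i x ∧ ρ i x ≤ 1) ∧
      SmR U (fun x => ρ i x * η x) (Z ∩ O i)) ∧ ∀ x ∈ U, ∑ i ∈ s, ρ i x * η x = η x := by
  classical
  obtain ⟨hη, K, hK, hKZ, hKU, h0⟩ := h
  obtain ⟨f, hf⟩ := SmoothPartitionOfUnity.exists_isSubordinate (modelWithCornersSelf ℝ E)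
    hK.isClosed O hO fun x hx => Set.mem_iUnion.2 (hc x (hKU hx) (hKZ hx))
  have hfin := f.locallyFinite.finite_nonempty_inter_compact hK
  refine ⟨hfin.toFinset, fun i => f i, fun i => ?_, fun x hx => ?_⟩
  · have hs : ContDiff ℝ ∞ (f i) := (f i).contMDiff.contDiff
    refine ⟨hs, fun x => ⟨f.nonneg i x, f.le_one i x⟩, hs.mul hη, K ∩ tsupport (f i),
      hK.inter_right (isClosed_tsupport _), fun x hx => ⟨hKZ hx.1, hf i hx.2⟩,
      fun x hx => hKU hx.1, fun x hx hxK => ?_⟩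
    by_cases h1 : x ∈ K
    · have h2 : f i x = 0 := image_eq_zero_of_notMem_tsupport fun h => hxK ⟨h1, h⟩
      simp only [h2, zero_mul]
    · simp only [h0 x hx h1, mul_zero]
  · by_cases h1 : x ∈ K
    · rw [← Finset.sum_mul, f.sum_finsupport' x h1, one_mul]
      intro i hi
      exact hfin.mem_toFinset.2 ⟨x, (f.mem_finsupport x).1 hi, h1⟩
    · simp only [h0 x hx h1, mul_zero, Finset.sum_const_zero]

/-- a cutoff equal to one near a compact set -/
theorem exists_SmR_one {K O : Set E} (hK : IsCompact K) (hO : IsOpen O) (hKO : K ⊆ O) :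
    ∃ χ : E → ℝ, SmR U χ O ∧ (∀ x, 0 ≤ χ x ∧ χ x ≤ 1) ∧ ∀ᶠ x in 𝓝ˢ K, χ x = 1 := by
  obtain ⟨L, hL, hKL, hLO⟩ := exists_compact_between hK hO hKO
  obtain ⟨f, h1, h0, h01⟩ := exists_contMDiffMap_one_nhds_of_subset_interior
    (modelWithCornersSelf ℝ E) (n := ⊤) hK.isClosed hKL
  exact ⟨f, ⟨f.contMDiff.contDiff, L ∩ U, hL.inter_right U.closed_of_finiteDimensional,
    fun x hx => hLO hx.1, fun x hx => hx.2, fun x hx hxL => h0 x fun h => hxL ⟨h, hx⟩⟩,
    fun x => h01 x, h1⟩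

end Vale.Agent.P353
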