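import Vale.Agent.P353.Ga1

/-! Auxiliary calculus for the anticommutator and the energy formula. -/

noncomputable section

open MeasureTheory Filter Topology Complex
open scoped ContDiff RealInnerProductSpace

namespace Vale.Agent.P353.Ga2Aux

variable {E : Type} [NormedAddCommGroup E] [InnerProductSpace ℝ E] [FiniteDimensional ℝ E]
  [MeasurableSpace E] [BorelSpace E]
variable {S : Type} [NormedAddCommGroup S] [InnerProductSpace ℝ S] [FiniteDimensional ℝ S]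
variable {F : Type} [NormedAddCommGroup F] [InnerProductSpace ℂ F] [FiniteDimensional ℂ F]
variable {θ : S →L[ℝ] F →L[ℂ] F} {U : Submodule ℝ E}

omit [FiniteDimensional ℝ S] [FiniteDimensional ℂ F] in
theorem anti_apply (h : IsCAR θ) (u v : S) (a : F) :
    θ u (θ v a) + θ v (θ u a) = ((⟪u, v⟫ : ℝ) : ℂ) • a := by
  have := DFunLike.congr_fun (h.anti u v) a
  exact this

omit [FiniteDimensional ℝ E] [MeasurableSpace E] [BorelSpace E] [FiniteDimensional ℝ S]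
  [FiniteDimensional ℂ F] in
theorem hasFDerivAt_theta (θ : S →L[ℝ] F →L[ℂ] F) {β : E → S} {ψ : E → F} {x : E}
    (hβ : DifferentiableAt ℝ β x) (hψ : DifferentiableAt ℝ ψ x) :
    DifferentiableAt ℝ (fun y => θ (β y) (ψ y)) x ∧ ∀ v, fderiv ℝ (fun y => θ (β y) (ψ y)) x v =
      θ (fderiv ℝ β x v) (ψ x) + θ (β x) (fderiv ℝ ψ x v) := by
  let B : S →L[ℝ] F →L[ℝ] F := (ContinuousLinearMap.restrictScalarsL ℂ F F ℝ ℝ).comp θ
  have h := B.hasFDerivAt_of_bilinear hβ.hasFDerivAt hψ.hasFDerivAt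
  refine ⟨h.differentiableAt, fun v => ?_⟩
  have h2 := DFunLike.congr_fun h.fderiv v
  refine h2.trans ?_
  rw [add_comm]
  rfl

omit [FiniteDimensional ℝ E] [MeasurableSpace E] [BorelSpace E] [FiniteDimensional ℂ F] in
theorem fderiv_clm (a : F →L[ℂ] F) (z : ℂ) {ψ : E → F} {x : E} (hψ : DifferentiableAt ℝ ψ x) :
    DifferentiableAt ℝ (fun y => z • a (ψ y)) x ∧ ∀ v, fderiv ℝ (fun y => z • a (ψ y)) x v =
      z • a (fderiv ℝ ψ x v) := by
  have h := ((z • a).restrictScalars ℝ).hasFDerivAt.comp x hψ.hasFDerivAt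
  exact ⟨h.differentiableAt, fun v => DFunLike.congr_fun h.fderiv v⟩

omit [FiniteDimensional ℝ E] [MeasurableSpace E] [BorelSpace E] in
theorem contDiff_dir {V : Type} [NormedAddCommGroup V] [NormedSpace ℝ V] {ψ : E → V}
    (hψ : ContDiff ℝ ∞ ψ) (v : E) : ContDiff ℝ ∞ fun y => fderiv ℝ ψ y v :=
  (hψ.fderiv_right (m := ∞) le_rfl).clm_apply contDiff_const

omit [FiniteDimensional ℝ E] [MeasurableSpace E] [BorelSpace E] in
theorem dir_symm {V : Type} [NormedAddCommGroup V] [NormedSpace ℝ V] {ψ : E → V}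
    (hψ : ContDiff ℝ ∞ ψ) (x v w : E) :
    fderiv ℝ (fun y => fderiv ℝ ψ y v) x w = fderiv ℝ (fun y => fderiv ℝ ψ y w) x v := by
  have hd : DifferentiableAt ℝ (fderiv ℝ ψ) x :=
    ((hψ.fderiv_right (m := ∞) le_rfl).differentiable (by simp)) x
  have key : ∀ v w : E, fderiv ℝ (fun y => fderiv ℝ ψ y v) x w = fderiv ℝ (fderiv ℝ ψ) x w v := by
    intro v w
    rw [fderiv_clm_apply hd (differentiableAt_const _)]
    simp
  rw [key, key]
  exact (hψ.contDiffAt.isSymmSndFDerivAt (by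
    rw [minSmoothness_of_isRCLikeNormedField]; exact WithTop.coe_le_coe.2 le_top)) w v

omit [MeasurableSpace E] [BorelSpace E] [FiniteDimensional ℝ S] [FiniteDimensional ℂ F] in
theorem contDiff_dop (θ : S →L[ℝ] F →L[ℂ] F) (U : Submodule ℝ E) (p : ℝ) (s : E →L[ℝ] S)
    {β : E → S} (hβ : ContDiff ℝ ∞ β) {ψ : E → F} (hψ : ContDiff ℝ ∞ ψ) :
    ContDiff ℝ ∞ (dop θ U p s β ψ) := by
  let B : S →L[ℝ] F →L[ℝ] F := (ContinuousLinearMap.restrictScalarsL ℂ F F ℝ ℝ).comp θ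
  have h1 : ContDiff ℝ ∞ fun y => θ (β y) (ψ y) := (B.contDiff.comp hβ).clm_apply hψ
  have h2 : ∀ k, ContDiff ℝ ∞ fun y =>
      (-I * (p : ℂ)) • θ (s (onb U k)) (fderiv ℝ ψ y (onb U k)) := fun k =>
    (((-I * (p : ℂ)) • θ (s (onb U k))).restrictScalars ℝ).contDiff.comp (contDiff_dir hψ _)
  exact (ContDiff.sum fun k _ => h2 k).add h1

omit [MeasurableSpace E] [BorelSpace E] [FiniteDimensional ℝ S] [FiniteDimensional ℂ F] in
theorem fderiv_dop (θ : S →L[ℝ] F →L[ℂ] F) (U : Submodule ℝ E) (p : ℝ) (s : E →L[ℝ] S)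
    {β : E → S} (hβ : ContDiff ℝ ∞ β) {ψ : E → F} (hψ : ContDiff ℝ ∞ ψ) (x v : E) :
    fderiv ℝ (dop θ U p s β ψ) x v =
      ∑ l, (-I * (p : ℂ)) • θ (s (onb U l)) (fderiv ℝ (fun y => fderiv ℝ ψ y (onb U l)) x v) +
        (θ (fderiv ℝ β x v) (ψ x) + θ (β x) (fderiv ℝ ψ x v)) := by
  have h1 := hasFDerivAt_theta θ (hβ.differentiable (by simp) x) (hψ.differentiable (by simp) x)
  have h2 := fun l => fderiv_clm (θ (s (onb U l))) (-I * (p : ℂ))
    ((contDiff_dir hψ (onb U l)).differentiable (by simp) x)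
  have h3 : dop θ U p s β ψ = fun y => ∑ l, (-I * (p : ℂ)) • θ (s (onb U l))
      (fderiv ℝ ψ y (onb U l)) + θ (β y) (ψ y) := rfl
  rw [h3, fderiv_fun_add (DifferentiableAt.fun_sum fun l _ => (h2 l).1) h1.1, add_apply,
    fderiv_fun_sum fun l _ => (h2 l).1, sum_apply, h1.2]
  simp only [(h2 _).2]

omit [FiniteDimensional ℝ S] [FiniteDimensional ℂ F] in
theorem alg (h : IsCAR θ) {ι : Type} [Fintype ι] (c : ℂ) (a a' d d' : ι → S) (b b' : S)
    (H : ι → ι → F) (hH : ∀ k l, H k l = H l k) (G : ι → F) (ψ : F) :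
    (∑ k, c • θ (a k) (∑ l, c • θ (a' l) (H k l) + (θ (d' k) ψ + θ b' (G k))) +
        θ b (∑ l, c • θ (a' l) (G l) + θ b' ψ)) +
      (∑ k, c • θ (a' k) (∑ l, c • θ (a l) (H k l) + (θ (d k) ψ + θ b (G k))) +
        θ b' (∑ l, c • θ (a l) (G l) + θ b ψ)) =
      (c * c) • ∑ k, ∑ l, ((⟪a k, a' l⟫ : ℝ) : ℂ) • H k l +
        c • ∑ k, ((⟪a k, b'⟫ + ⟪a' k, b⟫ : ℝ) : ℂ) • G k +
        c • ∑ k, (θ (a k) (θ (d' k) ψ) + θ (a' k) (θ (d k) ψ)) + ((⟪b, b'⟫ : ℝ) : ℂ) • ψ := by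
  have e1 : ∑ k, ∑ l, ((⟪a k, a' l⟫ : ℝ) : ℂ) • H k l =
      ∑ k, ∑ l, θ (a k) (θ (a' l) (H k l)) + ∑ k, ∑ l, θ (a' k) (θ (a l) (H k l)) := by
    rw [Finset.sum_comm (f := fun k l => θ (a' k) (θ (a l) (H k l))), ← Finset.sum_add_distrib]
    refine Finset.sum_congr rfl fun k _ => ?_
    rw [← Finset.sum_add_distrib]
    refine Finset.sum_congr rfl fun l _ => ?_
    rw [hH l k, anti_apply h]
  have e2 : ∑ k, ((⟪a k, b'⟫ + ⟪a' k, b⟫ : ℝ) : ℂ) • G k =
      ∑ k, θ (a k) (θ b' (G k)) + ∑ k, θ b' (θ (a k) (G k)) +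
        (∑ k, θ (a' k) (θ b (G k)) + ∑ k, θ b (θ (a' k) (G k))) := by
    simp only [← Finset.sum_add_distrib]
    refine Finset.sum_congr rfl fun k _ => ?_
    rw [anti_apply h, anti_apply h, ofReal_add, add_smul]
  rw [e1, e2, ← anti_apply h b b' ψ]
  simp only [map_add, _root_.map_sum, map_smul, smul_add, Finset.sum_add_distrib, mul_smul,
    ← Finset.smul_sum]
  abel

omit [MeasurableSpace E] [BorelSpace E] [FiniteDimensional ℝ S] [FiniteDimensional ℂ F] in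
theorem dop_anti0 (h : IsCAR θ) (p : ℝ) (s s' : E →L[ℝ] S) {β β' : E → S}
    (hβ : ContDiff ℝ ∞ β) (hβ' : ContDiff ℝ ∞ β') {ψ : E → F} (hψ : ContDiff ℝ ∞ ψ) (x : E) :
    dop θ U p s β (dop θ U p s' β' ψ) x + dop θ U p s' β' (dop θ U p s β ψ) x =
      ((-(p ^ 2) : ℝ) : ℂ) • ∑ k, ∑ l, ((⟪s (onb U k), s' (onb U l)⟫ : ℝ) : ℂ) •
          fderiv ℝ (fun y => fderiv ℝ ψ y (onb U l)) x (onb U k) +
        (-I * p) • ∑ k, ((⟪s (onb U k), β' x⟫ + ⟪s' (onb U k), β x⟫ : ℝ) : ℂ) •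
          fderiv ℝ ψ x (onb U k) +
        (-I * p) • ∑ k, (θ (s (onb U k)) (θ (fderiv ℝ β' x (onb U k)) (ψ x)) +
          θ (s' (onb U k)) (θ (fderiv ℝ β x (onb U k)) (ψ x))) +
        ((⟪β x, β' x⟫ : ℝ) : ℂ) • ψ x := by
  have hc : ((-(p ^ 2) : ℝ) : ℂ) = (-I * p) * (-I * p) := by
    push_cast
    linear_combination (-(p : ℂ) ^ 2) * I_mul_I
  rw [hc, ← alg h (-I * p) (fun k => s (onb U k)) (fun k => s' (onb U k))
    (fun k => fderiv ℝ β x (onb U k)) (fun k => fderiv ℝ β' x (onb U k)) (β x) (β' x)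
    (fun k l => fderiv ℝ (fun y => fderiv ℝ ψ y (onb U l)) x (onb U k))
    (fun k l => dir_symm hψ x _ _) (fun k => fderiv ℝ ψ x (onb U k)) (ψ x)]
  rw [dop, dop.eq_1 θ U p s' β' (dop θ U p s β ψ)]
  simp only [fderiv_dop θ U p _ hβ hψ, fderiv_dop θ U p _ hβ' hψ]
  rfl

omit [MeasurableSpace E] [BorelSpace E] [FiniteDimensional ℝ S] [FiniteDimensional ℂ F] in
theorem contDiff_bil' (s : Fin 16 → E →L[ℝ] S) {β : Fin 16 → E → S}
    (hβ : ∀ α, ContDiff ℝ ∞ (β α)) : ContDiff ℝ ∞ (bil θ U s β) :=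
  ContDiff.sum fun α _ => ContDiff.sum fun k _ =>
    (contDiff_const.mul (θ.contDiff.comp (contDiff_dir (hβ α) (onb U k)))).const_smul (-I)

omit [MeasurableSpace E] [BorelSpace E] [FiniteDimensional ℝ E] in
theorem fderiv_sub {V : Type} [NormedAddCommGroup V] [NormedSpace ℝ V] {g : E → V}
    (hg : Differentiable ℝ g) (x y : U) :
    fderiv ℝ (fun z : U => g z) x y = fderiv ℝ g x y :=
  DFunLike.congr_fun ((hg x).hasFDerivAt.comp x U.subtypeL.hasFDerivAt).fderiv y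

omit [MeasurableSpace E] [BorelSpace E] [FiniteDimensional ℝ E] in
theorem hcs_fderiv {V : Type} [NormedAddCommGroup V] [NormedSpace ℝ V] {g : E → V}
    (hg : Differentiable ℝ g) (hs : HasCompactSupport fun x : U => g x) {y : E} (hy : y ∈ U) :
    HasCompactSupport fun x : U => fderiv ℝ g x y := by
  have h := hs.fderiv_apply ℝ (⟨y, hy⟩ : U)
  simp only [fderiv_sub hg] at h
  exact h

omit [MeasurableSpace E] [BorelSpace E] [FiniteDimensional ℝ E] in
theorem hcs_of {V W : Type} [Zero V] [Zero W] {ψ : E → W} {g : E → V}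
    (hs : HasCompactSupport fun x : U => ψ x) (h : ∀ x, ψ x = 0 → g x = 0) :
    HasCompactSupport fun x : U => g x :=
  hs.mono fun x hx h0 => hx (h x h0)

theorem integrable_of {V W : Type} [NormedAddCommGroup V] [Zero W] {ψ : E → W} {g : E → V}
    (hs : HasCompactSupport fun x : U => ψ x) (hg : Continuous g) (h : ∀ x, ψ x = 0 → g x = 0) :
    Integrable fun x : U => g x :=
  (hg.comp continuous_subtype_val).integrable_of_hasCompactSupport (hcs_of hs h)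

theorem integrable_fderiv {V : Type} [NormedAddCommGroup V] [NormedSpace ℝ V] {g : E → V}
    (hg : ContDiff ℝ ∞ g) (hs : HasCompactSupport fun x : U => g x) {y : E} (hy : y ∈ U) :
    Integrable fun x : U => fderiv ℝ g x y :=
  ((contDiff_dir hg y).continuous.comp continuous_subtype_val).integrable_of_hasCompactSupport
    (hcs_fderiv (hg.differentiable (by simp)) hs hy)

omit [MeasurableSpace E] [BorelSpace E] [FiniteDimensional ℝ E] [FiniteDimensional ℂ F] in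
theorem contDiff_re {φ ψ : E → F} (hφ : ContDiff ℝ ∞ φ) (hψ : ContDiff ℝ ∞ ψ) :
    ContDiff ℝ ∞ fun x => (inner ℂ (φ x) (ψ x)).re :=
  reCLM.contDiff.comp (hφ.inner ℂ hψ)

omit [MeasurableSpace E] [BorelSpace E] [FiniteDimensional ℝ E] [FiniteDimensional ℂ F] in
theorem contDiff_im {φ ψ : E → F} (hφ : ContDiff ℝ ∞ φ) (hψ : ContDiff ℝ ∞ ψ) :
    ContDiff ℝ ∞ fun x => (inner ℂ (φ x) (ψ x)).im :=
  imCLM.contDiff.comp (hφ.inner ℂ hψ)

omit [MeasurableSpace E] [BorelSpace E] [FiniteDimensional ℝ E] [FiniteDimensional ℂ F] in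
theorem fderiv_re {φ ψ : E → F} {x : E} (hφ : DifferentiableAt ℝ φ x)
    (hψ : DifferentiableAt ℝ ψ x) (v : E) :
    fderiv ℝ (fun x => (inner ℂ (φ x) (ψ x)).re) x v =
      (inner ℂ (φ x) (fderiv ℝ ψ x v)).re + (inner ℂ (fderiv ℝ φ x v) (ψ x)).re := by
  have h := reCLM.hasFDerivAt.comp x (hφ.hasFDerivAt.inner ℂ hψ.hasFDerivAt)
  exact DFunLike.congr_fun h.fderiv v

omit [MeasurableSpace E] [BorelSpace E] [FiniteDimensional ℝ E] [FiniteDimensional ℂ F] in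
theorem fderiv_im {φ ψ : E → F} {x : E} (hφ : DifferentiableAt ℝ φ x)
    (hψ : DifferentiableAt ℝ ψ x) (v : E) :
    fderiv ℝ (fun x => (inner ℂ (φ x) (ψ x)).im) x v =
      (inner ℂ (φ x) (fderiv ℝ ψ x v)).im + (inner ℂ (fderiv ℝ φ x v) (ψ x)).im := by
  have h := imCLM.hasFDerivAt.comp x (hφ.hasFDerivAt.inner ℂ hψ.hasFDerivAt)
  exact DFunLike.congr_fun h.fderiv v

omit [FiniteDimensional ℂ F] in
theorem re_self (a : F) : (inner ℂ a a).re = ‖a‖ ^ 2 := inner_self_eq_norm_sq (𝕜 := ℂ) a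

omit [FiniteDimensional ℂ F] in
theorem re_symm (a b : F) : (inner ℂ a b).re = (inner ℂ b a).re := inner_re_symm (𝕜 := ℂ) a b

omit [FiniteDimensional ℂ F] in
theorem re_smul_right (t : ℝ) (a b : F) : (inner ℂ a ((t : ℂ) • b)).re = t * (inner ℂ a b).re := by
  rw [inner_smul_right, re_ofReal_mul]

omit [FiniteDimensional ℂ F] in
theorem re_smul_left (t : ℝ) (a b : F) : (inner ℂ ((t : ℂ) • a) b).re = t * (inner ℂ a b).re := by
  rw [re_symm, re_smul_right, re_symm]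

omit [FiniteDimensional ℂ F] in
theorem ip_re {φ ψ : E → F} (hs : HasCompactSupport fun x : U => φ x) (hφ : Continuous φ)
    (hψ : Continuous ψ) : (ip U φ ψ).re = ∫ x : U, (inner ℂ (φ x) (ψ x)).re := by
  have hi : Integrable fun x : U => inner ℂ (φ x) (ψ x) :=
    integrable_of (g := fun x => inner ℂ (φ x) (ψ x)) hs (hφ.inner hψ) fun x hx => by simp [hx]
  exact (reCLM.integral_comp_comm hi).symm

omit [MeasurableSpace E] [BorelSpace E] [FiniteDimensional ℂ F] in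
theorem contDiff_lapF (U : Submodule ℝ E) {ψ : E → F} (hψ : ContDiff ℝ ∞ ψ) :
    ContDiff ℝ ∞ (lapF U ψ) :=
  ContDiff.sum fun _ _ => contDiff_dir (contDiff_dir hψ _) _

omit [MeasurableSpace E] [BorelSpace E] in
theorem contDiff_lap (U : Submodule ℝ E) {f : E → ℝ} (hf : ContDiff ℝ ∞ f) :
    ContDiff ℝ ∞ (lap U f) :=
  ContDiff.sum fun _ _ => contDiff_dir (contDiff_dir hf _) _

theorem integrable_gsq {ψ : E → F} (hψ : Sm U ψ) : Integrable fun x : U => gsq U ψ x :=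
  (hψ.gsq_support.1.comp continuous_subtype_val).integrable_of_hasCompactSupport hψ.gsq_support.2

theorem integral_lapF {ψ : E → F} (hψ : Sm U ψ) :
    ∫ x : U, (inner ℂ (ψ x) (lapF U ψ x)).re = -grad U ψ := by
  have hg : ∀ k, ContDiff ℝ ∞ fun x => (inner ℂ (ψ x) (fderiv ℝ ψ x (onb U k))).re := fun k =>
    contDiff_re hψ.1 (contDiff_dir hψ.1 _)
  have hs : ∀ k, HasCompactSupport fun x : U => (inner ℂ (ψ x) (fderiv ℝ ψ x (onb U k))).re :=
    fun k => hcs_of (g := fun x => (inner ℂ (ψ x) (fderiv ℝ ψ x (onb U k))).re) hψ.2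
      fun x hx => by simp [hx]
  have h1 : ∀ x : E, (inner ℂ (ψ x) (lapF U ψ x)).re = ∑ k, fderiv ℝ
      (fun x => (inner ℂ (ψ x) (fderiv ℝ ψ x (onb U k))).re) x (onb U k) - gsq U ψ x := by
    intro x
    rw [lapF, gsq, inner_sum, re_sum, ← Finset.sum_sub_distrib]
    refine Finset.sum_congr rfl fun k _ => ?_
    rw [fderiv_re (hψ.1.differentiable (by simp) x)
      ((contDiff_dir hψ.1 _).differentiable (by simp) x), re_self]
    ring
  simp only [h1]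
  have hi := fun k => integrable_fderiv (hg k) (hs k) (onb_mem U k)
  rw [integral_sub (integrable_finsetSum _ fun k _ => hi k) (integrable_gsq hψ),
    integral_finsetSum _ fun k _ => hi k]
  rw [Finset.sum_eq_zero fun k _ =>
    integral_fderiv_eq_zero ((hg k).of_le (by exact_mod_cast le_top)) (hs k) (onb_mem U k)]
  simp [grad]

theorem ibp_lip {a g : E → ℝ} {L : NNReal} (ha : LipschitzWith L a) (hg : ContDiff ℝ ∞ g)
    (hs : HasCompactSupport fun x : U => g x) {y : E} (hy : y ∈ U) :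
    |∫ x : U, a x * fderiv ℝ g x y| ≤ L * ‖y‖ * ∫ x : U, |g x| := by
  have hg' : ContDiff ℝ ∞ fun x : U => g x := hg.comp U.subtypeL.contDiff
  obtain ⟨D, hD⟩ := ContDiff.lipschitzWith_of_hasCompactSupport hs hg' (by simp)
  have ha' : LipschitzWith L fun x : U => a x := by
    intro x y
    exact ha x y
  have h := LipschitzWith.integral_lineDeriv_mul_eq (μ := volume) ha' hD hs (-⟨y, hy⟩)
  have h2 : ∀ x : U, lineDeriv ℝ (fun x : U => g x) x (- -⟨y, hy⟩) * a x =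
      a x * fderiv ℝ g x y := by
    intro x
    rw [neg_neg, (hg'.differentiable (by simp) x).lineDeriv_eq_fderiv,
      fderiv_sub (hg.differentiable (by simp)), mul_comm]
  simp only [h2] at h
  rw [← h, ← integral_const_mul, ← Real.norm_eq_abs]
  refine norm_integral_le_of_norm_le
    ((hg'.continuous.integrable_of_hasCompactSupport hs).abs.const_mul _)
    (Eventually.of_forall fun x => ?_)
  rw [norm_mul]
  refine mul_le_mul_of_nonneg_right ?_ (abs_nonneg _)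
  refine (norm_lineDeriv_le_of_lipschitz ℝ ha').trans ?_
  rw [norm_neg]
  rfl

omit [MeasurableSpace E] [BorelSpace E] [FiniteDimensional ℝ E] [FiniteDimensional ℂ F] in
theorem contDiff_mulR {ψ : E → F} (hψ : ContDiff ℝ ∞ ψ) {f : E → ℝ} (hf : ContDiff ℝ ∞ f) :
    ContDiff ℝ ∞ fun x => (f x : ℂ) • ψ x := by
  simp only [coe_smul]
  exact hf.smul hψ

omit [MeasurableSpace E] [BorelSpace E] [FiniteDimensional ℝ E] [FiniteDimensional ℂ F] in
theorem fderiv_mulR {ψ : E → F} {f : E → ℝ} {x : E} (hψ : DifferentiableAt ℝ ψ x)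
    (hf : DifferentiableAt ℝ f x) (v : E) : fderiv ℝ (fun x => (f x : ℂ) • ψ x) x v =
      (f x : ℂ) • fderiv ℝ ψ x v + (fderiv ℝ f x v : ℂ) • ψ x := by
  simp only [coe_smul]
  exact DFunLike.congr_fun (hf.hasFDerivAt.smul hψ.hasFDerivAt).fderiv v

omit [MeasurableSpace E] [BorelSpace E] [FiniteDimensional ℂ F] in
theorem gsq_mulR {ψ : E → F} (hψ : ContDiff ℝ ∞ ψ) {f : E → ℝ} (hf : ContDiff ℝ ∞ f) (x : E) :
    f x ^ 2 * gsq U ψ x = gsq U (fun x => (f x : ℂ) • ψ x) x - ∑ k, fderiv ℝ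
      (fun y => f y * fderiv ℝ f y (onb U k) * (inner ℂ (ψ y) (ψ y)).re) x (onb U k) +
        f x * lap U f x * ‖ψ x‖ ^ 2 := by
  have h1 := hψ.differentiable (by simp) x
  have h2 := hf.differentiable (by simp) x
  have h3 := fun v => (contDiff_dir hf v).differentiable (by simp) x
  have h4 := (contDiff_re hψ hψ).differentiable (by simp) x
  rw [gsq, gsq, lap, Finset.mul_sum, Finset.mul_sum, Finset.sum_mul, ← Finset.sum_sub_distrib,
    ← Finset.sum_add_distrib]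
  refine Finset.sum_congr rfl fun k _ => ?_
  rw [fderiv_fun_mul (h2.fun_mul (h3 _)) h4, fderiv_fun_mul h2 (h3 _), fderiv_mulR h1 h2,
    ← re_self ((f x : ℂ) • _ + _)]
  simp only [add_apply, smul_apply, smul_eq_mul, fderiv_re h1 h1, inner_add_left, inner_add_right,
    add_re, re_smul_left, re_smul_right]
  simp only [re_self]
  rw [re_symm (fderiv ℝ ψ x (onb U k)) (ψ x)]
  ring

omit [FiniteDimensional ℝ S] [FiniteDimensional ℂ F] in
theorem im_swap (h : IsCAR θ) (u v : S) (G ψ : F) :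
    (inner ℂ (θ u G) (θ v ψ)).im = ⟪u, v⟫ * (inner ℂ G ψ).im + (inner ℂ (θ u ψ) (θ v G)).im := by
  have e1 : inner ℂ (θ u G) (θ v ψ) + inner ℂ (θ v G) (θ u ψ) = (⟪u, v⟫ : ℝ) * inner ℂ G ψ := by
    rw [h.symm, h.symm, ← inner_add_right, anti_apply h, inner_smul_right]
  have e2 := congrArg Complex.im e1
  have e3 : (inner ℂ (θ v G) (θ u ψ)).im = -(inner ℂ (θ u ψ) (θ v G)).im :=
    inner_im_symm (𝕜 := ℂ) _ _
  rw [add_im, im_ofReal_mul, e3] at e2
  linarith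

omit [FiniteDimensional ℂ F] in
theorem im_expand (θ : S →L[ℝ] F →L[ℂ] F) (u : S) (a b : F) : (inner ℂ (θ u a) b).im =
    ∑ j, ⟪stdOrthonormalBasis ℝ S j, u⟫ * (inner ℂ (θ (stdOrthonormalBasis ℝ S j) a) b).im := by
  conv_lhs => rw [← (stdOrthonormalBasis ℝ S).sum_repr' u]
  rw [map_sum, sum_apply, sum_inner, im_sum]
  refine Finset.sum_congr rfl fun j _ => ?_
  rw [map_smul, smul_apply, ← coe_smul, inner_smul_left, conj_ofReal, im_ofReal_mul]

omit [MeasurableSpace E] [BorelSpace E] in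
theorem pair_point (h : IsCAR θ) (s : Fin 16 → E →L[ℝ] S) (β : Fin 16 → E → S) (u : Fin 16 → S)
    (hu : ∀ y ∈ U, ∑ α, ⟪s α y, u α⟫ = 0) {ψ : E → F} {x : E} (hψ : DifferentiableAt ℝ ψ x) :
    (∑ α, ⟪u α, β α x⟫) * ‖ψ x‖ ^ 2 =
      ∑ α, 2 * (inner ℂ (θ (u α) (ψ x)) (dop θ U 1 (s α) (β α) ψ x)).re -
        ∑ k, ∑ α, ∑ j, ⟪stdOrthonormalBasis ℝ S j, u α⟫ * fderiv ℝ (fun y =>
          (inner ℂ (θ (stdOrthonormalBasis ℝ S j) (ψ y)) (θ (s α (onb U k)) (ψ y))).im) x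
            (onb U k) := by
  have hd : ∀ w : S, DifferentiableAt ℝ (fun y => θ w (ψ y)) x ∧
      ∀ v, fderiv ℝ (fun y => θ w (ψ y)) x v = θ w (fderiv ℝ ψ x v) := fun w => by
    simpa only [one_smul] using fderiv_clm (θ w) 1 hψ
  have e1 : ∀ k α, ∑ j, ⟪stdOrthonormalBasis ℝ S j, u α⟫ * fderiv ℝ (fun y =>
      (inner ℂ (θ (stdOrthonormalBasis ℝ S j) (ψ y)) (θ (s α (onb U k)) (ψ y))).im) x (onb U k) =
      ⟪s α (onb U k), u α⟫ * (inner ℂ (fderiv ℝ ψ x (onb U k)) (ψ x)).im +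
        2 * (inner ℂ (θ (u α) (ψ x)) (θ (s α (onb U k)) (fderiv ℝ ψ x (onb U k)))).im := by
    intro k α
    simp only [fderiv_im (hd _).1 (hd _).1, (hd _).2, mul_add, Finset.sum_add_distrib,
      ← im_expand]
    rw [im_swap h (u α) (s α (onb U k)) (fderiv ℝ ψ x (onb U k)), real_inner_comm]
    ring
  have e2 : ∀ α, 2 * (inner ℂ (θ (u α) (ψ x)) (dop θ U 1 (s α) (β α) ψ x)).re =
      ∑ k, 2 * (inner ℂ (θ (u α) (ψ x)) (θ (s α (onb U k)) (fderiv ℝ ψ x (onb U k)))).im +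
        ⟪u α, β α x⟫ * ‖ψ x‖ ^ 2 := by
    intro α
    rw [dop, inner_add_right, add_re, h.re_inner, inner_sum, re_sum, mul_add, Finset.mul_sum]
    simp only [inner_smul_right, ofReal_one, mul_one, neg_mul, neg_re, I_mul_re, neg_neg]
    ring
  have e3 := fun k => hu (onb U k) (stdOrthonormalBasis ℝ U k).2
  simp only [e1, e2, Finset.sum_add_distrib, ← Finset.sum_mul, e3, zero_mul, zero_add]
  rw [Finset.sum_comm]
  ring

theorem pair_bound (h : IsCAR θ) (u : S) (a b : F) {t : ℝ} (ht : 0 < t) :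
    |2 * (inner ℂ (θ u a) b).re| ≤ t * ‖b‖ ^ 2 + ‖u‖ ^ 2 * ‖a‖ ^ 2 / t := by
  have e1 : |(inner ℂ (θ u a) b).re| ≤ ‖u‖ * ‖a‖ * ‖b‖ :=
    (abs_re_le_norm _).trans ((norm_inner_le_norm _ _).trans (mul_le_mul_of_nonneg_right
      ((ContinuousLinearMap.le_opNorm _ _).trans
        (mul_le_mul_of_nonneg_right (h.norm_le u) (norm_nonneg _))) (norm_nonneg _)))
  have e2 : t * ‖b‖ ^ 2 + ‖u‖ ^ 2 * ‖a‖ ^ 2 / t - 2 * (‖u‖ * ‖a‖ * ‖b‖) =
      (t * ‖b‖ - ‖u‖ * ‖a‖) ^ 2 / t := by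
    field_simp
    ring
  have e3 : 0 ≤ (t * ‖b‖ - ‖u‖ * ‖a‖) ^ 2 / t := by positivity
  rw [abs_mul, abs_two]
  linarith

theorem im_bound (h : IsCAR θ) (u v : S) (a : F) :
    |(inner ℂ (θ u a) (θ v a)).im| ≤ ‖u‖ * ‖v‖ * ‖a‖ ^ 2 := by
  have e1 : ∀ w : S, ‖θ w a‖ ≤ ‖w‖ * ‖a‖ := fun w => (ContinuousLinearMap.le_opNorm _ _).trans
    (mul_le_mul_of_nonneg_right (h.norm_le w) (norm_nonneg _))
  refine (abs_im_le_norm _).trans ((norm_inner_le_norm _ _).trans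
    ((mul_le_mul (e1 u) (e1 v) (norm_nonneg _) (by positivity)).trans (le_of_eq ?_)))
  ring

end Vale.Agent.P353.Ga2Aux
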