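import Mathlib

/-! Mollifiers on a Euclidean space: smoothness, Young's inequality, adjointness. -/

noncomputable section

open MeasureTheory Filter Topology
open scoped ContDiff Convolution

namespace Vale.Agent.P353.Ga3Aux

variable {V : Type} [NormedAddCommGroup V] [InnerProductSpace ℝ V] [FiniteDimensional ℝ V]
  [MeasurableSpace V] [BorelSpace V]
variable {G : Type} [NormedAddCommGroup G] [NormedSpace ℝ G]
variable {F : Type} [NormedAddCommGroup F] [InnerProductSpace ℂ F] [CompleteSpace F]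

/-- radial mollifiers -/
structure Mol (δ : ℝ) (ρ : V → ℝ) : Prop where
  smooth : ContDiff ℝ ∞ ρ
  nonneg : ∀ x, 0 ≤ ρ x
  radial : ∀ x y, ‖x‖ = ‖y‖ → ρ x = ρ y
  supp : ∀ x, δ ≤ ‖x‖ → ρ x = 0
  int : ∫ x, ρ x = 1

/-- mollification -/
def cU (ρ : V → ℝ) (w : V → G) (x : V) : G := ∫ y, ρ (x - y) • w y

theorem cU_eq (ρ : V → ℝ) (w : V → G) :
    cU ρ w = ρ ⋆[ContinuousLinearMap.lsmul ℝ ℝ, volume] w :=
  funext fun _ => convolution_lsmul_swap.symm

theorem cU_swap (ρ : V → ℝ) (w : V → G) (x : V) : cU ρ w x = ∫ y, ρ y • w (x - y) := by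
  rw [cU_eq, convolution_lsmul]

variable {δ : ℝ} {ρ : V → ℝ}

namespace Mol

theorem hcs (h : Mol δ ρ) : HasCompactSupport ρ :=
  HasCompactSupport.intro (isCompact_closedBall (0 : V) δ) fun x hx =>
    h.supp x (not_le.1 fun h' => hx (mem_closedBall_zero_iff.2 h')).le

theorem integrable (h : Mol δ ρ) : Integrable ρ :=
  h.smooth.continuous.integrable_of_hasCompactSupport h.hcs

theorem int_sub (h : Mol δ ρ) (x : V) : ∫ y, ρ (x - y) = 1 :=
  (integral_sub_left_eq_self ρ volume x).trans h.int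

theorem symm (h : Mol δ ρ) (x y : V) : ρ (x - y) = ρ (y - x) := h.radial _ _ (norm_sub_rev x y)

theorem integrable_smul (h : Mol δ ρ) {w : V → G} (hw : LocallyIntegrable w) (x : V) :
    Integrable fun y => ρ (x - y) • w y :=
  (h.hcs.convolutionExists_left (ContinuousLinearMap.lsmul ℝ ℝ) h.smooth.continuous hw
    x).integrable_swap

theorem contDiff_cU (h : Mol δ ρ) {w : V → G} (hw : LocallyIntegrable w) :
    ContDiff ℝ ∞ (cU ρ w) := by
  rw [cU_eq]
  exact h.hcs.contDiff_convolution_left _ h.smooth hw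

theorem sq_le (h : Mol δ ρ) {w : V → G} (hw : MemLp w 2) (x : V) :
    ‖cU ρ w x‖ ^ 2 ≤ cU ρ (fun y => ‖w y‖ ^ 2) x := by
  have h1 := h.integrable_smul (hw.norm.locallyIntegrable one_le_two) x
  have h2 := h.integrable_smul ((hw.integrable_norm_pow two_ne_zero).locallyIntegrable) x
  have h3 : ‖cU ρ w x‖ ≤ ∫ y, ρ (x - y) • ‖w y‖ := norm_integral_le_of_norm_le h1
    (Eventually.of_forall fun y => by rw [norm_smul, Real.norm_of_nonneg (h.nonneg _)]; rfl)
  set t := ∫ y, ρ (x - y) • ‖w y‖ with ht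
  have h0 : Integrable fun y => ρ (x - y) := h.integrable.comp_sub_left x
  have h4 : ∫ y, 2 * t * (ρ (x - y) • ‖w y‖) ≤ ∫ y, (ρ (x - y) * t ^ 2 + ρ (x - y) • ‖w y‖ ^ 2) :=
    integral_mono (h1.const_mul _) ((h0.mul_const _).add h2) fun y => by
      have := mul_nonneg (h.nonneg (x - y)) (sq_nonneg (t - ‖w y‖))
      simp only [smul_eq_mul]
      linarith
  rw [integral_const_mul, integral_add (h0.mul_const _) h2, integral_mul_const, h.int_sub,
    ← ht] at h4
  have h5 := pow_le_pow_left₀ (norm_nonneg _) h3 2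
  unfold cU at h5 ⊢
  linarith

/-- Young's inequality -/
theorem young (h : Mol δ ρ) {w : V → G} (hw : MemLp w 2) :
    MemLp (cU ρ w) 2 ∧ ∫ x, ‖cU ρ w x‖ ^ 2 ≤ ∫ x, ‖w x‖ ^ 2 := by
  have h1 := hw.integrable_norm_pow two_ne_zero
  have h2 : Integrable (cU ρ fun y => ‖w y‖ ^ 2) := by
    rw [cU_eq]
    exact h.integrable.integrable_convolution _ h1
  have h3 : ∫ x, cU ρ (fun y => ‖w y‖ ^ 2) x = ∫ x, ‖w x‖ ^ 2 := by
    rw [cU_eq, integral_convolution _ h.integrable h1, h.int]
    simp
  have h4 := (h.contDiff_cU (hw.locallyIntegrable one_le_two)).continuous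
  have h5 : Integrable fun x => ‖cU ρ w x‖ ^ 2 := h2.mono' (by fun_prop)
    (Eventually.of_forall fun x => by
      rw [Real.norm_of_nonneg (sq_nonneg _)]
      exact h.sq_le hw x)
  exact ⟨(memLp_two_iff_integrable_sq_norm h4.aestronglyMeasurable).2 h5,
    (integral_mono h5 h2 (h.sq_le hw)).trans_eq h3⟩

end Mol

theorem integral_inner_left {X : Type} [MeasurableSpace X] {μ : Measure X} {f : X → F}
    (hf : Integrable f μ) (c : F) : ∫ x, inner ℂ (f x) c ∂μ = inner ℂ (∫ x, f x ∂μ) c := by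
  rw [← inner_conj_symm, ← integral_inner hf, ← integral_conj]
  simp only [inner_conj_symm]

namespace Mol

/-- the mollification is self-adjoint -/
theorem adj (h : Mol δ ρ) {f w : V → F} (hf : MemLp f 2) (hw : MemLp w 2) :
    ∫ y, inner ℂ (cU ρ f y) (w y) = ∫ x, inner ℂ (f x) (cU ρ w x) := by
  have f1 := h.integrable_smul (hf.locallyIntegrable one_le_two)
  have w1 := h.integrable_smul (hw.locallyIntegrable one_le_two)
  have f2 := (hf.integrable_norm_pow two_ne_zero).convolution_integrand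
    (ContinuousLinearMap.mul ℝ ℝ) h.integrable
  have w2 := ((hw.integrable_norm_pow two_ne_zero).convolution_integrand
    (ContinuousLinearMap.mul ℝ ℝ) h.integrable).swap
  have hc := h.smooth.continuous
  have hi : Integrable (Function.uncurry fun y x => inner ℂ (ρ (y - x) • f x) (w y))
      ((volume : Measure V).prod volume) := by
    refine (f2.add w2).mono' ?_ (Eventually.of_forall fun p => ?_)
    · exact ((by fun_prop : Continuous fun p : V × V => ρ (p.1 - p.2)).aestronglyMeasurable.smul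
        hf.aestronglyMeasurable.comp_snd).inner hw.aestronglyMeasurable.comp_fst
    · have h1 := norm_inner_le_norm (𝕜 := ℂ) (ρ (p.1 - p.2) • f p.2) (w p.1)
      rw [norm_smul, Real.norm_of_nonneg (h.nonneg _)] at h1
      have h2 := mul_nonneg (h.nonneg (p.1 - p.2)) (sq_nonneg (‖f p.2‖ - ‖w p.1‖))
      have h3 := mul_nonneg (h.nonneg (p.1 - p.2)) (sq_nonneg ‖f p.2‖)
      have h4 := mul_nonneg (h.nonneg (p.1 - p.2)) (sq_nonneg ‖w p.1‖)
      simp only [Function.uncurry, Pi.add_apply, ContinuousLinearMap.mul_apply', Function.comp,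
        Prod.fst_swap, Prod.snd_swap, h.symm p.2 p.1]
      linarith
  calc _ = ∫ y, ∫ x, inner ℂ (ρ (y - x) • f x) (w y) := by
        simp only [cU, integral_inner_left (f1 _)]
    _ = ∫ x, ∫ y, inner ℂ (ρ (y - x) • f x) (w y) := integral_integral_swap hi
    _ = _ := by
        refine integral_congr_ae (Eventually.of_forall fun x => ?_)
        simp only [cU]
        rw [← integral_inner (w1 x)]
        refine integral_congr_ae (Eventually.of_forall fun y => ?_)
        simp only [h.symm y x, ← Complex.coe_smul, inner_smul_left, inner_smul_right,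
          Complex.conj_ofReal]

omit [CompleteSpace F] in
/-- a Schur type bound -/
theorem schur (h : Mol δ ρ) {a w : V → F} {b : V → ℝ} (hb : MemLp b 2) (hw : MemLp w 2) {η : ℝ}
    (hη : 0 ≤ η) (ha : ∀ y, ‖a y‖ ≤ η * cU ρ b y) :
    ‖∫ y, inner ℂ (a y) (w y)‖ ≤ η * ((∫ y, ‖b y‖ ^ 2) + ∫ y, ‖w y‖ ^ 2) := by
  obtain ⟨h1, h2⟩ := h.young hb
  have h3 := h1.integrable_norm_pow two_ne_zero
  have h4 := hw.integrable_norm_pow two_ne_zero
  refine (norm_integral_le_of_norm_le ((h3.add h4).const_mul η)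
    (Eventually.of_forall fun y => ?_)).trans ?_
  · refine (norm_inner_le_norm _ _).trans ?_
    have h5 := (ha y).trans (mul_le_mul_of_nonneg_left (Real.le_norm_self _) hη)
    refine (mul_le_mul_of_nonneg_right h5 (norm_nonneg _)).trans ?_
    rw [mul_assoc]
    refine mul_le_mul_of_nonneg_left ?_ hη
    simp only [Pi.add_apply]
    nlinarith [sq_nonneg (‖cU ρ b y‖ - ‖w y‖), sq_nonneg ‖cU ρ b y‖, sq_nonneg ‖w y‖]
  · rw [integral_const_mul, integral_add' h3 h4]
    exact mul_le_mul_of_nonneg_left (add_le_add h2 le_rfl) hη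

/-- equivariance -/
theorem equiv (h : Mol δ ρ) {w : V → F} (hw : LocallyIntegrable w) (R : V ≃ₗᵢ[ℝ] V)
    (a : F →L[ℂ] F) (hR : ∀ᵐ y, w (R y) = a (w y)) (x : V) : cU ρ w (R x) = a (cU ρ w x) := by
  unfold cU
  rw [← a.integral_comp_comm (h.integrable_smul hw x),
    ← R.measurePreserving.integral_comp R.toHomeomorph.measurableEmbedding]
  refine integral_congr_ae (hR.mono fun y hy => ?_)
  simp only [hy, a.map_smul_of_tower]
  rw [← map_sub, h.radial _ _ (R.norm_map _)]

theorem cU_add (h : Mol δ ρ) {f g : V → G} (hf : Continuous f) (hg : Continuous g) (y : V) :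
    cU ρ (fun x => f x + g x) y = cU ρ f y + cU ρ g y := by
  simp only [cU, smul_add]
  exact integral_add (h.integrable_smul hf.locallyIntegrable y)
    (h.integrable_smul hg.locallyIntegrable y)

theorem cU_sub (h : Mol δ ρ) {f g : V → G} (hf : Continuous f) (hg : Continuous g) (y : V) :
    cU ρ (fun x => f x - g x) y = cU ρ f y - cU ρ g y := by
  simp only [cU, smul_sub]
  exact integral_sub (h.integrable_smul hf.locallyIntegrable y)
    (h.integrable_smul hg.locallyIntegrable y)

theorem cU_clm (h : Mol δ ρ) {f : V → F} (hf : Continuous f) (a : F →L[ℂ] F) (y : V) :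
    cU ρ (fun x => a (f x)) y = a (cU ρ f y) := by
  simp only [cU, ← a.map_smul_of_tower]
  exact a.integral_comp_comm (h.integrable_smul hf.locallyIntegrable y)

theorem cU_const (h : Mol δ ρ) (c : F) (y : V) : cU ρ (fun _ => c) y = c := by
  rw [cU, integral_smul_const, h.int_sub, one_smul]

theorem cU_sum (h : Mol δ ρ) {ι : Type} [Fintype ι] {f : ι → V → G} (hf : ∀ i, Continuous (f i))
    (y : V) : ∫ x, ρ x • ∑ i, f i (y - x) = ∑ i, ∫ x, ρ x • f i (y - x) := by
  simp only [Finset.smul_sum]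
  exact integral_finsetSum _ fun i _ => h.hcs.convolutionExists_left
    (ContinuousLinearMap.lsmul ℝ ℝ) h.smooth.continuous (hf i).locallyIntegrable y

theorem mono (h : Mol δ ρ) {δ' : ℝ} (h' : δ ≤ δ') : Mol δ' ρ :=
  ⟨h.smooth, h.nonneg, h.radial, fun x hx => h.supp x (h'.trans hx), h.int⟩

/-- bound for a mollified difference -/
theorem norm_le (h : Mol δ ρ) {g : V → G} {b : V → ℝ} (hb : LocallyIntegrable b) {η : ℝ} {y : V}
    (hg : ∀ x, ‖y - x‖ < δ → ‖g x‖ ≤ η * b x) : ‖cU ρ g y‖ ≤ η * cU ρ b y := by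
  unfold cU
  rw [← integral_const_mul]
  refine norm_integral_le_of_norm_le ((h.integrable_smul hb y).const_mul η)
    (Eventually.of_forall fun x => ?_)
  rw [norm_smul, Real.norm_of_nonneg (h.nonneg _), smul_eq_mul, mul_left_comm]
  by_cases hx : ‖y - x‖ < δ
  · exact mul_le_mul_of_nonneg_left (hg x hx) (h.nonneg _)
  · rw [h.supp _ (not_lt.1 hx), zero_mul, zero_mul]

end Mol

omit [CompleteSpace F] in
theorem integrable_inner {X : Type} [MeasurableSpace X] {μ : Measure X} {f g : X → F}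
    (hf : MemLp f 2 μ) (hg : MemLp g 2 μ) : Integrable (fun x => inner ℂ (f x) (g x)) μ := by
  refine ((hf.integrable_norm_pow two_ne_zero).add (hg.integrable_norm_pow two_ne_zero)).mono'
    (hf.aestronglyMeasurable.inner hg.aestronglyMeasurable) (Eventually.of_forall fun x => ?_)
  refine (norm_inner_le_norm _ _).trans ?_
  simp only [Pi.add_apply]
  nlinarith [sq_nonneg (‖f x‖ - ‖g x‖), sq_nonneg ‖f x‖, sq_nonneg ‖g x‖]

omit [MeasurableSpace V] [BorelSpace V] in
/-- uniform continuity near a ball -/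
theorem exists_mod {X : Type} [NormedAddCommGroup X] {g : V → X} (hg : Continuous g) (R : ℝ)
    {η : ℝ} (hη : 0 < η) : ∃ δ > 0, δ ≤ 1 ∧ ∀ x y, ‖x‖ ≤ R → ‖y - x‖ < δ → ‖g y - g x‖ ≤ η := by
  obtain ⟨δ, hδ, h⟩ := Metric.uniformContinuousOn_iff.1
    ((isCompact_closedBall (0 : V) (R + 1)).uniformContinuousOn_of_continuous hg.continuousOn) η hη
  refine ⟨min δ 1, lt_min hδ one_pos, min_le_right _ _, fun x y hx hy => ?_⟩
  have h1 := norm_add_le (y - x) x
  rw [sub_add_cancel] at h1
  have h2 := hy.trans_le (min_le_right _ _)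
  rw [← dist_eq_norm]
  exact (h y (mem_closedBall_zero_iff.2 (by linarith)) x (mem_closedBall_zero_iff.2 (by linarith))
    (by rw [dist_eq_norm]; exact hy.trans_le (min_le_left _ _))).le

end Vale.Agent.P353.Ga3Aux
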