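import Vale.Agent.P353.Ga2
import Vale.Agent.P353.Ga3Aux

/-! Essential self-adjointness on constrained test functions. -/

noncomputable section

open MeasureTheory Filter Topology Complex Matrix
open scoped ContDiff RealInnerProductSpace

namespace Vale.Agent.P353

variable {E : Type} [NormedAddCommGroup E] [InnerProductSpace ℝ E] [FiniteDimensional ℝ E]
  [MeasurableSpace E] [BorelSpace E]
variable {S : Type} [NormedAddCommGroup S] [InnerProductSpace ℝ S] [FiniteDimensional ℝ S]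
variable {F : Type} [NormedAddCommGroup F] [InnerProductSpace ℂ F] [FiniteDimensional ℂ F]
variable {θ : S →L[ℝ] F →L[ℂ] F} {U : Submodule ℝ E} {C : Set ((E →L[ℝ] E) × (F →L[ℂ] F))}

set_option linter.unusedSectionVars false

namespace Ga3Aux

/-- the operator `1 + H` -/
def Hop (θ : S →L[ℝ] F →L[ℂ] F) (U : Submodule ℝ E) (s : Fin 16 → E →L[ℝ] S)
    (β : Fin 16 → E → S) (φ : E → F) : E → F :=
  φ + (1 / 16 : ℂ) • ∑ α, dop θ U 1 (s α) (β α) (dop θ U 1 (s α) (β α) φ)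

/-- the zero order part of `H` -/
def Zop (θ : S →L[ℝ] F →L[ℂ] F) (U : Submodule ℝ E) (s : Fin 16 → E →L[ℝ] S)
    (β : Fin 16 → E → S) (x : E) : F →L[ℂ] F :=
  (1 / 16 : ℂ) • ((((∑ α, ‖β α x‖ ^ 2) / 2 : ℝ) : ℂ) • (1 : F →L[ℂ] F) + bil θ U s β x)

/-- ambient mollification along `U` -/
def cv (U : Submodule ℝ E) (ρ : U → ℝ) (f : E → F) (x : E) : F := ∫ y : U, ρ y • f (x - y)

variable {s : Fin 16 → E →L[ℝ] S} {β : Fin 16 → E → S} {δ : ℝ} {ρ : U → ℝ}

theorem Hop_mem (hβ : ∀ α, ContDiff ℝ ∞ (β α)) (hA : Adm U C) (hC : ∀ α, Cov θ U C (s α) (β α))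
    {φ : E → F} (hφ : φ ∈ Tst U C) : Hop θ U s β φ ∈ Tst U C :=
  (Tst U C).add_mem hφ ((Tst U C).smul_mem _ ((Tst U C).sum_mem fun α _ =>
    dop_mem_Tst hA 1 (hβ α) (hC α) (dop_mem_Tst hA 1 (hβ α) (hC α) hφ)))

theorem diff {V : Type} [NormedAddCommGroup V] [NormedSpace ℝ V] {φ : E → V}
    (h : ContDiff ℝ ∞ φ) : Differentiable ℝ φ := h.differentiable (by simp)

theorem Hop_add (hβ : ∀ α, ContDiff ℝ ∞ (β α)) {φ ψ : E → F} (hφ : Sm U φ) (hψ : Sm U ψ) :
    Hop θ U s β (φ + ψ) = Hop θ U s β φ + Hop θ U s β ψ := by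
  have e : ∀ α, dop θ U 1 (s α) (β α) (dop θ U 1 (s α) (β α) (φ + ψ)) =
      dop θ U 1 (s α) (β α) (dop θ U 1 (s α) (β α) φ) +
        dop θ U 1 (s α) (β α) (dop θ U 1 (s α) (β α) ψ) := fun α => by
    rw [dop_add _ _ _ (diff hφ.1) (diff hψ.1),
      dop_add _ _ _ (diff (hφ.dop 1 _ (hβ α)).1) (diff (hψ.dop 1 _ (hβ α)).1)]
  simp only [Hop, e, Finset.sum_add_distrib, smul_add]
  abel

theorem Hop_smul (z : ℂ) (φ : E → F) : Hop θ U s β (z • φ) = z • Hop θ U s β φ := by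
  simp only [Hop, dop_smul, ← Finset.smul_sum, smul_add, smul_comm z]

theorem Hop_eq (h : IsCAR θ) (hβ : ∀ α, ContDiff ℝ ∞ (β α)) (hI : Iso U s β) {φ : E → F}
    (hφ : ContDiff ℝ ∞ φ) {x : E} (hx : x ∈ U) :
    Hop θ U s β φ x = φ x + (-1 / 2 : ℂ) • lapF U φ x + Zop θ U s β x (φ x) := by
  simp only [Hop, Pi.add_apply, Pi.smul_apply, Finset.sum_apply, h.sum_dop_sq 1 hβ hI hφ hx, Zop,
    _root_.smul_apply, _root_.add_apply, one_apply_eq_self]
  push_cast
  module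

theorem cont_Zop (hβ : ∀ α, ContDiff ℝ ∞ (β α)) : Continuous (Zop θ U s β) := by
  have h1 := (contDiff_bil (θ := θ) (U := U) s hβ).continuous
  have h2 := fun α => (hβ α).continuous
  unfold Zop
  fun_prop

theorem contDiff_dir {f : E → F} (hf : ContDiff ℝ ∞ f) (z : E) :
    ContDiff ℝ ∞ fun x => fderiv ℝ f x z :=
  (hf.fderiv_right (m := ∞) (by simp)).clm_apply contDiff_const

theorem exists_mol (V : Type) [NormedAddCommGroup V] [InnerProductSpace ℝ V]
    [FiniteDimensional ℝ V] [MeasurableSpace V] [BorelSpace V] (hδ : 0 < δ) :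
    ∃ ρ : V → ℝ, Mol δ ρ := by
  obtain ⟨K, hK⟩ := exists_cutoff V
  obtain ⟨χ, h1, h2, h3, h4, h5, -⟩ := hK (δ / 2) (half_pos hδ)
  have h6 : ∀ x, δ ≤ ‖x‖ → χ x = 0 := fun x hx => h5 x (by linarith)
  have hc : HasCompactSupport χ := HasCompactSupport.intro (isCompact_closedBall (0 : V) δ)
    fun x hx => h6 x (not_le.1 fun h' => hx (mem_closedBall_zero_iff.2 h')).le
  have hp : 0 < ∫ x, χ x := h1.continuous.integral_pos_of_hasCompactSupport_nonneg_nonzero hc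
    (fun x => (h3 x).1) (x := 0) (by rw [h4 0 (by rw [norm_zero]; linarith)]; exact one_ne_zero)
  exact ⟨fun x => (∫ x, χ x)⁻¹ * χ x, contDiff_const.mul h1,
    fun x => mul_nonneg (inv_nonneg.2 hp.le) (h3 x).1, fun x y hxy => by rw [h2 x y hxy],
    fun x hx => by rw [h6 x hx, mul_zero], by rw [integral_const_mul, inv_mul_cancel₀ hp.ne']⟩

theorem cv_coe (f : E → F) (x : U) : cv U ρ f x = cU ρ (fun y : U => f y) x :=
  (cU_swap ρ (fun y : U => f y) x).symm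

theorem cv_smooth (h : Mol δ ρ) {f : E → F} (hf : ContDiff ℝ ∞ f) : ContDiff ℝ ∞ (cv U ρ f) ∧
    ∀ z, (fun x => fderiv ℝ (cv U ρ f) x z) = cv U ρ fun x => fderiv ℝ f x z := by
  have := FiniteDimensional.complete ℂ F
  have h1 := contDiffOn_integral (U := U) (O := Set.univ) (R := δ)
    (Φ := fun x w => ρ (U.orthogonalProjectionOnto w) • f (x - w)) isOpen_univ
    (ContDiff.contDiffOn ((h.smooth.comp (U.orthogonalProjectionOnto.contDiff.comp
      contDiff_snd)).smul (hf.comp (contDiff_fst.sub contDiff_snd))))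
    fun x _ w hw hR => by
      rw [h.supp _ (by
        rw [U.orthogonalProjectionOnto_mem_subspace_eq_self ⟨w, hw⟩]
        exact hR.le), zero_smul]
  simp only [Submodule.orthogonalProjectionOnto_mem_subspace_eq_self] at h1
  refine ⟨contDiffOn_univ.1 h1.1, fun z => funext fun x => (h1.2 x trivial z).trans ?_⟩
  refine integral_congr_ae (Eventually.of_forall fun y => ?_)
  have h2 : HasFDerivAt (fun x => ρ y • f (x - y)) (ρ y • fderiv ℝ f (x - y)) x :=
    ((hasFDerivAt_comp_sub _).2 (diff hf _).hasFDerivAt).const_smul (ρ y)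
  simp only [h2.fderiv, _root_.smul_apply]

theorem lapF_cv (h : Mol δ ρ) {f : E → F} (hf : ContDiff ℝ ∞ f) (x : U) :
    lapF U (cv U ρ f) x = cU ρ (fun y : U => lapF U f y) x := by
  have h1 : ∀ k, fderiv ℝ (fun y => fderiv ℝ (cv U ρ f) y (onb U k)) x (onb U k) =
      cv U ρ (fun x => fderiv ℝ (fun y => fderiv ℝ f y (onb U k)) x (onb U k)) x := fun k => by
    rw [(cv_smooth h hf).2]
    exact congrFun ((cv_smooth h (contDiff_dir hf _)).2 _) _
  rw [lapF, cU_swap]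
  simp only [h1]
  exact (h.cU_sum (f := fun k (y : U) => fderiv ℝ (fun y => fderiv ℝ f y (onb U k)) y (onb U k))
    (fun k => (contDiff_dir (contDiff_dir hf _) _).continuous.comp continuous_subtype_val) x).symm

theorem cont_lapF {f : E → F} (hf : ContDiff ℝ ∞ f) : Continuous (lapF U f) :=
  continuous_finsetSum _ fun _ _ => (contDiff_dir (contDiff_dir hf _) _).continuous

theorem Hop_cv (h : IsCAR θ) (hβ : ∀ α, ContDiff ℝ ∞ (β α)) (hI : Iso U s β) (hρ : Mol δ ρ)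
    {f : E → F} (hf : ContDiff ℝ ∞ f) (y : U) :
    Hop θ U s β (cv U ρ f) y - cU ρ (fun x : U => Hop θ U s β f x) y =
      cU ρ (fun x : U => (Zop θ U s β y - Zop θ U s β x) (f x)) y := by
  have := FiniteDimensional.complete ℂ F
  have c1 : Continuous fun x : U => f x := hf.continuous.comp continuous_subtype_val
  have c2 : Continuous fun x : U => lapF U f x := (cont_lapF hf).comp continuous_subtype_val
  have c3 : Continuous fun x : U => Zop θ U s β x (f x) :=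
    ((cont_Zop hβ).comp continuous_subtype_val).clm_apply c1
  have e1 : (fun x : U => Hop θ U s β f x) = fun x : U =>
      f x + ((-1 / 2 : ℂ) • (1 : F →L[ℂ] F)) (lapF U f x) + Zop θ U s β x (f x) :=
    funext fun x => Hop_eq h hβ hI hf x.2
  simp only [_root_.sub_apply]
  rw [Hop_eq h hβ hI (cv_smooth hρ hf).1 y.2, lapF_cv hρ hf, cv_coe, e1,
    hρ.cU_add (by fun_prop) c3, hρ.cU_add c1 (by fun_prop), hρ.cU_clm c2,
    hρ.cU_sub (by fun_prop) c3, hρ.cU_clm c1]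
  simp only [_root_.smul_apply, one_apply_eq_self]
  abel

theorem exists_iso (hA : Adm U C) {c : (E →L[ℝ] E) × (F →L[ℂ] F)} (hc : c ∈ C) :
    ∃ R : U ≃ₗᵢ[ℝ] U, ∀ x : U, (R x : E) = c.1 x :=
  ⟨LinearIsometry.toLinearIsometryEquiv ⟨(c.1 : E →ₗ[ℝ] E).restrict fun x hx => (hA c hc x hx).1,
    fun x => (hA c hc x x.2).2⟩ rfl, fun _ => rfl⟩

theorem cv_mem (hA : Adm U C) (hρ : Mol δ ρ) {f : E → F} (hf : f ∈ Tst U C) :
    cv U ρ f ∈ Tst U C := by
  have := FiniteDimensional.complete ℂ F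
  refine ⟨⟨(cv_smooth hρ hf.1.1).1, ?_⟩, fun c hc x hx => ?_⟩
  · simp only [cv_coe, cU_eq]
    exact hρ.hcs.convolution _ hf.1.2
  · obtain ⟨R, hR⟩ := exists_iso hA hc
    rw [← hR ⟨x, hx⟩, cv_coe, hρ.equiv (hf.1.memLp.locallyIntegrable one_le_two) R c.2
      (Eventually.of_forall fun y => by rw [hR, hf.2 c hc y y.2]), ← cv_coe]

theorem hil_inv {W : LL U F} (hW : W ∈ Hil U C) {c : (E →L[ℝ] E) × (F →L[ℂ] F)} (hc : c ∈ C)
    {R : U ≃ₗᵢ[ℝ] U} (hR : ∀ x : U, (R x : E) = c.1 x) : ∀ᵐ y : U, W (R y) = c.2 (W y) := by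
  have hm := R.measurePreserving
  have h1 : Lp.compMeasurePreserving R hm W = opL U c.2 W := by
    refine closure_minimal (t := {u | Lp.compMeasurePreserving R hm u = opL U c.2 u}) ?_
      (isClosed_eq (Lp.isometry_compMeasurePreserving hm).continuous (opL U c.2).continuous) hW
    rintro _ ⟨φ, hφ, rfl⟩
    refine Lp.ext ?_
    filter_upwards [Lp.coeFn_compMeasurePreserving (L2 U φ) hm, coe_opL c.2 (L2 U φ),
      coe_L2 hφ.1.memLp, hm.quasiMeasurePreserving.ae (coe_L2 hφ.1.memLp)] with y a1 a2 a3 a4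
    rw [a1, a2, a3, Function.comp, a4, hR, hφ.2 c hc y y.2]
  filter_upwards [Lp.coeFn_compMeasurePreserving W hm, coe_opL c.2 W] with y a1 a2
  rw [← a2, ← h1, a1, Function.comp]

theorem inner_L2_left {φ : E → F} (hφ : MemLp (fun x : U => φ x) 2 volume) (W : LL U F) :
    inner ℂ (L2 U φ) W = ∫ x : U, inner ℂ (φ x) (W x) := by
  rw [MeasureTheory.L2.inner_def]
  exact integral_congr_ae ((coe_L2 hφ).mono fun x hx => by simp only [hx])

theorem re_ge {X : Type} [MeasurableSpace X] {μ : Measure X} {f : X → ℂ} {g : X → ℝ}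
    (hg : Integrable g μ) (h0 : ∀ x, 0 ≤ g x) (h : ∀ x, -g x ≤ (f x).re) :
    -∫ x, g x ∂μ ≤ (∫ x, f x ∂μ).re := by
  by_cases hf : Integrable f μ
  · rw [← integral_neg]
    exact (integral_mono hg.neg hf.re h).trans_eq (integral_re hf)
  · rw [integral_undef hf, Complex.zero_re, neg_nonpos]
    exact integral_nonneg h0

theorem energy (h : IsCAR θ) (hβ : ∀ α, ContDiff ℝ ∞ (β α)) {v : E → F} (hv : ContDiff ℝ ∞ v)
    (hv2 : MemLp (fun x : U => v x) 2 volume) {χ : E → ℝ} (hχ : ContDiff ℝ ∞ χ)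
    (hs : Sm U fun x => (χ x : ℂ) • v x) {L : ℝ} (hL : ∀ x, ‖fderiv ℝ χ x‖ ≤ L) :
    nrm U (fun x => (χ x : ℂ) • v x) ≤
      (ip U (Hop θ U s β fun x => (χ x : ℂ) • (χ x : ℂ) • v x) v).re +
        (∑ α, (‖θ‖ * ‖s α‖) ^ 2) * L ^ 2 * nrm U v := by
  have h0 := hs.mulR hχ
  have h1 := fun α => h0.dop (θ := θ) 1 (s α) (hβ α)
  have h2 := fun α => (h1 α).dop (θ := θ) 1 (s α) (hβ α)
  have i0 := integrable_inner h0.memLp hv2
  have i2 := fun α => integrable_inner (h2 α).memLp hv2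
  have e1 : ip U (Hop θ U s β fun x => (χ x : ℂ) • (χ x : ℂ) • v x) v =
      nrm U (fun x => (χ x : ℂ) • v x) + ((1 / 16 : ℝ) : ℂ) * ∑ α, ip U
        (dop θ U 1 (s α) (β α) fun x => (χ x : ℂ) • (χ x : ℂ) • v x) (dop θ U 1 (s α) (β α) v) := by
    simp only [← h.dop_symm 1 _ (hβ _).continuous (h1 _) (hv.of_le (by simp))]
    simp only [ip, Hop, Pi.add_apply, Pi.smul_apply, Finset.sum_apply, inner_add_left,
      inner_smul_left (𝕜 := ℂ) _ _ (1 / 16), sum_inner]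
    rw [integral_add i0 ((integrable_finsetSum _ fun α _ => i2 α).const_mul _), integral_const_mul,
      integral_finsetSum _ fun α _ => i2 α, nrm, ← integral_complex_ofReal]
    congr 1
    · refine integral_congr_ae (Eventually.of_forall fun x => ?_)
      simp only
      rw [inner_smul_left, Complex.conj_ofReal, ← inner_smul_right, inner_self_eq_norm_sq_to_K]
      norm_cast
    · rw [map_div₀, map_one, map_ofNat]
      norm_num
  have e2 : ∀ α, -((‖θ‖ * ‖s α‖) ^ 2 * L ^ 2 * nrm U v) ≤ (ip U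
      (dop θ U 1 (s α) (β α) fun x => (χ x : ℂ) • (χ x : ℂ) • v x)
      (dop θ U 1 (s α) (β α) v)).re := fun α => by
    rw [nrm, ← integral_const_mul]
    refine re_ge ((hv2.integrable_norm_pow two_ne_zero).const_mul _) (fun x => by positivity)
      fun x => ?_
    have d1 := dop_mulR (θ := θ) (U := U) 1 (s α) (β α) (diff hs.1 x) (diff hχ x)
    have d2 := dop_mulR (θ := θ) (U := U) 1 (s α) (β α) (diff hv x) (diff hχ x)
    have b1 : ‖(-I * (1 : ℝ)) • θ (s α (gU U χ x)) (v x)‖ ≤ ‖θ‖ * ‖s α‖ * L * ‖v x‖ := by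
      rw [norm_smul]
      simp only [Complex.ofReal_one, mul_one, norm_neg, Complex.norm_I, one_mul]
      refine ((θ _).le_opNorm _).trans (mul_le_mul_of_nonneg_right ?_ (norm_nonneg (v x)))
      refine (θ.le_opNorm _).trans ?_
      rw [mul_assoc]
      exact mul_le_mul_of_nonneg_left (((s α).le_opNorm _).trans (mul_le_mul_of_nonneg_left
        ((norm_gU_le U χ x).trans (hL x)) (norm_nonneg _))) (norm_nonneg _)
    rw [d1, map_smul, smul_comm _ (χ x : ℂ), ← smul_add, inner_smul_left, Complex.conj_ofReal,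
      ← inner_smul_right, ← sub_eq_iff_eq_add.2 d2]
    set A := dop θ U 1 (s α) (β α) (fun x => (χ x : ℂ) • v x) x
    set B := (-I * (1 : ℝ)) • θ (s α (gU U χ x)) (v x)
    have b2 := pow_le_pow_left₀ (norm_nonneg _) b1 2
    have b3 : (inner ℂ A B).re = (inner ℂ B A).re := inner_re_symm (𝕜 := ℂ) A B
    have b4 : (inner ℂ A A).re = ‖A‖ ^ 2 := inner_self_eq_norm_sq (𝕜 := ℂ) A
    have b5 : (inner ℂ B B).re = ‖B‖ ^ 2 := inner_self_eq_norm_sq (𝕜 := ℂ) B
    simp only [inner_add_left, inner_sub_right, Complex.add_re, Complex.sub_re]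
    nlinarith [sq_nonneg ‖A‖]
  have e3 := Finset.sum_le_sum fun α (_ : α ∈ Finset.univ) => e2 α
  rw [Finset.sum_neg_distrib, ← Finset.sum_mul, ← Finset.sum_mul] at e3
  have e4 : 0 ≤ (∑ α, (‖θ‖ * ‖s α‖) ^ 2) * L ^ 2 * nrm U v :=
    mul_nonneg (by positivity) (nrm_nonneg U v)
  rw [e1, Complex.add_re, Complex.ofReal_re, Complex.re_ofReal_mul, Complex.re_sum]
  linarith

theorem local_bound (h : IsCAR θ) (hβ : ∀ α, ContDiff ℝ ∞ (β α)) (hI : Iso U s β) (hA : Adm U C)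
    (hC : ∀ α, Cov θ U C (s α) (β α)) {W : LL U F} (hW : W ∈ Hil U C)
    (h0 : ∀ φ ∈ Tst U C, inner ℂ (L2 U (Hop θ U s β φ)) W = 0) {χ : E → ℝ} (hχ : ContDiff ℝ ∞ χ)
    (hr : ∀ x y, ‖x‖ = ‖y‖ → χ x = χ y) (h01 : ∀ x, 0 ≤ χ x ∧ χ x ≤ 1) {R L η : ℝ}
    (hR : ∀ x, R ≤ ‖x‖ → χ x = 0) (hL : ∀ x, ‖fderiv ℝ χ x‖ ≤ L) (hη : 0 ≤ η) (hρ : Mol δ ρ)
    (hZ : ∀ x y : U, ‖x‖ ≤ R → ‖y - x‖ < δ → ‖Zop θ U s β y - Zop θ U s β x‖ ≤ η) :
    MemLp (fun x : U => (χ x : ℂ) • cU ρ W x) 2 volume ∧ ∫ x : U, ‖(χ x : ℂ) • cU ρ W x‖ ^ 2 ≤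
      (2 * η + (∑ α, (‖θ‖ * ‖s α‖) ^ 2) * L ^ 2) * ∫ x : U, ‖W x‖ ^ 2 := by
  have := FiniteDimensional.complete ℂ F
  have hw := Lp.memLp W
  have hl := hw.locallyIntegrable one_le_two
  obtain ⟨v, hv, hvU⟩ : ∃ v : E → F, ContDiff ℝ ∞ v ∧ ∀ x : U, v x = cU ρ W x :=
    ⟨fun x => cU ρ W (U.orthogonalProjectionOnto x),
      (hρ.contDiff_cU hl).comp U.orthogonalProjectionOnto.contDiff, fun x => by
        simp only [Submodule.orthogonalProjectionOnto_mem_subspace_eq_self]⟩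
  obtain ⟨y1, y2⟩ := hρ.young hw
  simp only [← hvU, ← funext hvU] at y1 y2 ⊢
  have hs : Sm U fun x => (χ x : ℂ) • v x :=
    sm_of_bound ((Complex.ofRealCLM.contDiff.comp hχ).smul hv) (R := R) fun x _ hx => by
      rw [hR x hx.le, Complex.ofReal_zero, zero_smul]
  have hT : (fun x => (χ x : ℂ) • v x) ∈ Tst U C := ⟨hs, fun c hc x hx => by
    obtain ⟨T, hT⟩ := exists_iso hA hc
    have e := hρ.equiv hl T c.2 (hil_inv hW hc hT) ⟨x, hx⟩
    rw [← hvU, ← hvU, hT] at e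
    simp only at e ⊢
    rw [e, hr _ _ (hA c hc x hx).2, map_smul]⟩
  have hT2 := mulR_mem_Tst hT hχ fun c hc x hx => hr _ _ (hA c hc x hx).2
  refine ⟨hs.memLp, (energy (s := s) h hβ hv y1 hχ hs hL).trans ?_⟩
  set φ : E → F := fun x => (χ x : ℂ) • (χ x : ℂ) • v x with hφ
  have m1 := (Hop_mem hβ hA hC hT2).1.memLp
  have m2 := (Hop_mem hβ hA hC (cv_mem hA hρ hT2)).1.memLp
  have e1 := hρ.adj m1 hw
  have e2 := h0 _ (cv_mem hA hρ hT2)
  rw [inner_L2_left m2] at e2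
  have e3 := hρ.schur hT2.1.memLp.norm hw hη
    (a := fun y : U => Hop θ U s β (cv U ρ φ) y - cU ρ (fun x : U => Hop θ U s β φ x) y)
    fun y => by
      rw [Hop_cv h hβ hI hρ hT2.1.1]
      refine hρ.norm_le (hT2.1.memLp.norm.locallyIntegrable one_le_two) fun x hx => ?_
      by_cases hxR : ‖x‖ ≤ R
      · exact (ContinuousLinearMap.le_opNorm _ _).trans
          (mul_le_mul_of_nonneg_right (hZ x y hxR hx) (norm_nonneg _))
      · simp [hφ, hR x (not_le.1 hxR).le]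
  simp only [inner_sub_left, norm_norm] at e3
  rw [integral_sub (integrable_inner m2 hw) (integrable_inner (hρ.young m1).1 hw), e2, zero_sub,
    norm_neg, e1] at e3
  simp only [← hvU] at e3
  have e4 : ∫ x : U, ‖φ x‖ ^ 2 ≤ ∫ x : U, ‖v x‖ ^ 2 :=
    integral_mono (hT2.1.memLp.integrable_norm_pow two_ne_zero)
      (y1.integrable_norm_pow two_ne_zero) fun x => pow_le_pow_left₀ (norm_nonneg _) (by
        simp only [hφ, norm_smul, Complex.norm_real, Real.norm_of_nonneg (h01 x).1]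
        exact (mul_le_of_le_one_left (mul_nonneg (h01 x).1 (norm_nonneg _)) (h01 x).2).trans
          (mul_le_of_le_one_left (norm_nonneg _) (h01 x).2)) 2
  have e5 := (Complex.re_le_norm _).trans (e3.trans (mul_le_mul_of_nonneg_left
    (add_le_add (e4.trans y2) le_rfl) hη))
  have e6 := mul_le_mul_of_nonneg_left y2
    (show 0 ≤ (∑ α, (‖θ‖ * ‖s α‖) ^ 2) * L ^ 2 by positivity)
  unfold ip nrm
  linarith

theorem vanish (h : IsCAR θ) (hβ : ∀ α, ContDiff ℝ ∞ (β α)) (hI : Iso U s β) (hA : Adm U C)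
    (hC : ∀ α, Cov θ U C (s α) (β α)) {W : LL U F} (hW : W ∈ Hil U C)
    (h0 : ∀ φ ∈ Tst U C, inner ℂ (L2 U (Hop θ U s β φ)) W = 0) {g : E → F} (hg : Sm U g) :
    inner ℂ (L2 U g) W = 0 := by
  have := FiniteDimensional.complete ℂ F
  have hw := Lp.memLp W
  obtain ⟨K, hK⟩ := exists_cutoff E
  obtain ⟨R₀, hR₀⟩ := hg.exists_bound
  have hb : MemLp ((Metric.closedBall (0 : U) (R₀ + 1)).indicator fun _ => (1 : ℝ)) 2 volume :=
    memLp_indicator_const _ measurableSet_closedBall _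
      (Or.inr (isCompact_closedBall _ _).measure_lt_top.ne)
  set b := (Metric.closedBall (0 : U) (R₀ + 1)).indicator fun _ => (1 : ℝ) with hbd
  have hN : 0 ≤ ∫ x : U, ‖W x‖ ^ 2 := integral_nonneg fun _ => sq_nonneg _
  have cg : Continuous fun x : U => g x := hg.1.continuous.comp continuous_subtype_val
  have key : ∀ η : ℝ, 0 < η → ‖inner ℂ (L2 U g) W‖ ≤
      η * ((∫ y, ‖b y‖ ^ 2) + ∫ y, ‖W y‖ ^ 2) + √(nrm U g * (3 * η * ∫ x : U, ‖W x‖ ^ 2)) := by
    intro η hη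
    have t1 : Tendsto (fun R : ℝ => (∑ α, (‖θ‖ * ‖s α‖) ^ 2) * (K / R) ^ 2) atTop (𝓝 0) := by
      simpa using ((tendsto_const_nhds (x := K)).div_atTop tendsto_id).pow 2 |>.const_mul
        (∑ α, (‖θ‖ * ‖s α‖) ^ 2)
    obtain ⟨R, ⟨r1, r2⟩, r3⟩ := (((t1.eventually (ge_mem_nhds hη)).and
      (eventually_gt_atTop 0)).and (eventually_ge_atTop R₀)).exists
    obtain ⟨χ, x1, x2, x3, x4, x5, x6⟩ := hK R r2
    obtain ⟨δ₁, d1, -, d2⟩ := exists_mod
      ((cont_Zop (θ := θ) (U := U) (s := s) hβ).comp (continuous_subtype_val (p := (· ∈ U))))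
      (2 * R) hη
    obtain ⟨δ₂, d3, d4, d5⟩ := exists_mod cg (R₀ + 1) hη
    obtain ⟨ρ, hρ⟩ := exists_mol U (lt_min d1 d3)
    obtain ⟨l1, l2⟩ := local_bound h hβ hI hA hC hW h0 x1 x2 x3 x5 x6 hη.le
      (hρ.mono (min_le_left _ _)) d2
    have hρ2 := hρ.mono (min_le_right _ _)
    have e1 := hρ.adj hg.memLp hw
    have e2 := hρ.schur hb hw hη.le (a := fun y : U => cU ρ (fun x : U => g x) y - g y) fun y => by
      rw [← hρ.cU_const (g y) y, ← hρ.cU_sub cg continuous_const]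
      refine hρ2.norm_le (hb.locallyIntegrable one_le_two) fun x hx => ?_
      by_cases hxR : ‖x‖ ≤ R₀ + 1
      · rw [hbd, Set.indicator_of_mem (mem_closedBall_zero_iff.2 hxR), mul_one, norm_sub_rev]
        exact d5 x y hxR hx
      · have a1 := norm_sub_norm_le x y
        rw [norm_sub_rev] at a1
        have a2 : R₀ < ‖(x : E)‖ := by change R₀ < ‖x‖; linarith
        have a3 : R₀ < ‖(y : E)‖ := by change R₀ < ‖y‖; linarith
        rw [hR₀ _ x.2 a2, hR₀ _ y.2 a3, sub_zero, norm_zero]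
        exact mul_nonneg hη.le (Set.indicator_nonneg (fun _ _ => zero_le_one) x)
    simp only [inner_sub_left] at e2
    rw [integral_sub (integrable_inner (hρ.young hg.memLp).1 hw) (integrable_inner hg.memLp hw),
      e1, ← inner_L2_left hg.memLp] at e2
    have e3 : ∫ x : U, inner ℂ (g x) (cU ρ W x) =
        ip U g fun x => (χ x : ℂ) • cU ρ W (U.orthogonalProjectionOnto x) := by
      refine integral_congr_ae (Eventually.of_forall fun x => ?_)
      simp only [Submodule.orthogonalProjectionOnto_mem_subspace_eq_self]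
      by_cases hx : ‖(x : E)‖ ≤ R
      · rw [x4 _ hx, Complex.ofReal_one, one_smul]
      · rw [hR₀ _ x.2 (r3.trans_lt (not_le.1 hx)), inner_zero_left, inner_zero_left]
    have e4 := norm_ip_sq_le (φ := g)
      (ψ := fun x => (χ x : ℂ) • cU ρ W (U.orthogonalProjectionOnto x)) hg.memLp (by
        simpa only [Submodule.orthogonalProjectionOnto_mem_subspace_eq_self] using l1)
    have e5 : nrm U (fun x => (χ x : ℂ) • cU ρ W (U.orthogonalProjectionOnto x)) ≤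
        3 * η * ∫ x : U, ‖W x‖ ^ 2 := by
      simp only [nrm, Submodule.orthogonalProjectionOnto_mem_subspace_eq_self]
      exact l2.trans (mul_le_mul_of_nonneg_right (by linarith) hN)
    have e6 := Real.le_sqrt_of_sq_le (e4.trans (mul_le_mul_of_nonneg_left e5 (nrm_nonneg U g)))
    rw [← e3] at e6
    have e7 := norm_sub_norm_le (inner ℂ (L2 U g) W) (∫ x : U, inner ℂ (g x) (cU ρ W x))
    rw [norm_sub_rev] at e7
    linarith
  have t2 : Tendsto (fun η : ℝ => η * ((∫ y, ‖b y‖ ^ 2) + ∫ y, ‖W y‖ ^ 2) +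
      √(nrm U g * (3 * η * ∫ x : U, ‖W x‖ ^ 2))) (𝓝[>] 0) (𝓝 0) :=
    tendsto_nhdsWithin_of_tendsto_nhds (Continuous.tendsto' (by fun_prop) _ _ (by simp))
  exact norm_le_zero_iff.1 (ge_of_tendsto t2 (eventually_mem_nhdsWithin.mono key))

end Ga3Aux

open Ga3Aux in
theorem IsCAR.esa (h : IsCAR θ) {s : Fin 16 → E →L[ℝ] S} {β : Fin 16 → E → S}
    (hβ : ∀ α, ContDiff ℝ ∞ (β α)) (hI : Iso U s β) (hA : Adm U C)
    (hC : ∀ α, Cov θ U C (s α) (β α)) {u : LL U F}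
    (hu : u ∈ Hil U C) {ε : ℝ} (hε : 0 < ε) : ∃ φ ∈ Tst U C,
      ‖L2 U (φ + (1 / 16 : ℂ) • ∑ α, dop θ U 1 (s α) (β α) (dop θ U 1 (s α) (β α) φ)) - u‖ ≤ ε := by
  let ι : Tst U C →ₗ[ℂ] LL U F :=
    { toFun := fun φ => L2 U φ.1
      map_add' := fun φ ψ => L2_add φ.2.1.memLp ψ.2.1.memLp
      map_smul' := fun z φ => L2_smul z φ.1 }
  let T : Tst U C →ₗ[ℂ] Tst U C :=
    { toFun := fun φ => ⟨Hop θ U s β φ.1, Hop_mem hβ hA hC φ.2⟩
      map_add' := fun φ ψ => Subtype.ext (Hop_add hβ φ.2.1 ψ.2.1)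
      map_smul' := fun z φ => Subtype.ext (Hop_smul z φ.1) }
  have hH : Hil U C = (LinearMap.range ι).topologicalClosure := by
    rw [Hil, Submodule.topologicalClosure_coe]
    congr 1
    ext w
    exact ⟨fun ⟨φ, h1, h2⟩ => ⟨⟨φ, h1⟩, h2⟩, fun ⟨φ, h2⟩ => ⟨φ.1, φ.2, h2⟩⟩
  obtain ⟨M, hM⟩ : ∃ M, M = (LinearMap.range (ι ∘ₗ T)).topologicalClosure := ⟨_, rfl⟩
  have hMc : IsClosed (M : Set (LL U F)) := hM ▸ Submodule.isClosed_topologicalClosure _
  have := FiniteDimensional.complete ℂ F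
  have := hMc.completeSpace_coe
  have h1 : M ≤ (LinearMap.range ι).topologicalClosure :=
    hM ▸ Submodule.topologicalClosure_mono (LinearMap.range_comp_le_range T ι)
  have h2 : u - M.starProjection u ∈ Hil U C := by
    rw [hH] at hu ⊢
    exact Submodule.sub_mem _ hu (h1 (M.starProjection_apply_mem u))
  have h3 := fun g : Tst U C => vanish h hβ hI hA hC h2 (fun φ hφ =>
    M.inner_right_of_mem_orthogonal (hM ▸ Submodule.le_topologicalClosure _ ⟨⟨φ, hφ⟩, rfl⟩)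
      (M.sub_starProjection_mem_orthogonal u)) g.2.1
  have h4 : inner ℂ (u - M.starProjection u) (u - M.starProjection u) = 0 :=
    closure_minimal (t := {w | inner ℂ w (u - M.starProjection u) = 0})
      (by rintro _ ⟨φ, hφ, rfl⟩; exact h3 ⟨φ, hφ⟩) (isClosed_eq (by fun_prop) continuous_const) h2
  have h5 : u ∈ M := sub_eq_zero.1 (inner_self_eq_zero.1 h4) ▸ M.starProjection_apply_mem u
  rw [hM] at h5
  obtain ⟨_, ⟨φ, rfl⟩, h6⟩ := Metric.mem_closure_iff.1 h5 ε hε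
  rw [dist_comm, dist_eq_norm] at h6
  exact ⟨φ.1, φ.2, h6.le⟩

end Vale.Agent.P353
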