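import Vale.Agent.P353.Defs

/-! Generic definitions: Clifford generators, vacua, Dirac type operators on a subspace. -/

noncomputable section

open MeasureTheory Filter Topology Complex
open scoped ContDiff RealInnerProductSpace

namespace Vale.Agent.P353

section CAR

variable {S : Type} [NormedAddCommGroup S] [InnerProductSpace ℝ S] [FiniteDimensional ℝ S]
variable {F : Type} [NormedAddCommGroup F] [InnerProductSpace ℂ F] [FiniteDimensional ℂ F]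

/-- Self-adjoint Clifford generators with `{θ u, θ v} = ⟪u, v⟫`. -/
structure IsCAR (θ : S →L[ℝ] F →L[ℂ] F) : Prop where
  symm : ∀ u (a b : F), inner ℂ (θ u a) b = inner ℂ a (θ u b)
  anti : ∀ u v, θ u * θ v + θ v * θ u = ((⟪u, v⟫ : ℝ) : ℂ) • (1 : F →L[ℂ] F)

/-- skew-symmetric operator -/
def IsSkew {V : Type} [NormedAddCommGroup V] [InnerProductSpace ℝ V] (a : V →L[ℝ] V) : Prop :=
  ∀ u v, ⟪a u, v⟫ = -⟪u, a v⟫

/-- symmetric operator -/
def IsSym {V : Type} [NormedAddCommGroup V] [InnerProductSpace ℝ V] (a : V →L[ℝ] V) : Prop :=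
  ∀ u v, ⟪a u, v⟫ = ⟪u, a v⟫

/-- symmetric positive definite operator -/
def IsPD {V : Type} [NormedAddCommGroup V] [InnerProductSpace ℝ V] (a : V →L[ℝ] V) : Prop :=
  IsSym a ∧ ∀ u, u ≠ 0 → 0 < ⟪u, a u⟫

open Classical in
/-- positive square root of a positive definite operator -/
def psq {V : Type} [NormedAddCommGroup V] [InnerProductSpace ℝ V] (K : V →L[ℝ] V) : V →L[ℝ] V :=
  if h : ∃ B : V →L[ℝ] V, IsPD B ∧ B * B = K then h.choose else 0

/-- trace of a real operator -/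
def trR {V : Type} [NormedAddCommGroup V] [InnerProductSpace ℝ V] (a : V →L[ℝ] V) : ℝ :=
  LinearMap.trace ℝ V (a : V →ₗ[ℝ] V)

/-- second quantization; `[dG θ a, θ u] = θ (a u)` for skew `a` -/
def dG (θ : S →L[ℝ] F →L[ℂ] F) (a : S →L[ℝ] S) : F →L[ℂ] F :=
  (1 / 2 : ℂ) • ∑ j, θ (a (stdOrthonormalBasis ℝ S j)) * θ (stdOrthonormalBasis ℝ S j)

/-- complex structure on a subspace: `-J * J` is the orthogonal projection onto its support -/
def IsPCS (J : S →L[ℝ] S) : Prop := IsSkew J ∧ J * J * J = -J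

/-- annihilation operator -/
def ann (θ : S →L[ℝ] F →L[ℂ] F) (J : S →L[ℝ] S) (u : S) : F →L[ℂ] F :=
  θ (-(J (J u))) + I • θ (J u)

/-- the vectors killed by all annihilation operators -/
def vacSp (θ : S →L[ℝ] F →L[ℂ] F) (J : S →L[ℝ] S) : Submodule ℂ F :=
  ⨅ u, LinearMap.ker (ann θ J u : F →ₗ[ℂ] F)

/-- vacuum projection -/
def vac (θ : S →L[ℝ] F →L[ℂ] F) (J : S →L[ℝ] S) : F →L[ℂ] F := (vacSp θ J).starProjection

/-- overlap of two vacua -/
def ov (θ : S →L[ℝ] F →L[ℂ] F) (J₀ J : S →L[ℝ] S) : ℝ :=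
  (LinearMap.trace ℂ F (vac θ J₀ * vac θ J : F →L[ℂ] F)).re /
    (LinearMap.trace ℂ F (vac θ J₀ : F →L[ℂ] F)).re

/-- irreducibility -/
def Irred (θ : S →L[ℝ] F →L[ℂ] F) : Prop :=
  ∀ W : Submodule ℂ F, (∀ u, ∀ a ∈ W, θ u a ∈ W) → W = ⊥ ∨ W = ⊤

end CAR

section Dirac

variable {E : Type} [NormedAddCommGroup E] [InnerProductSpace ℝ E] [FiniteDimensional ℝ E]
  [MeasurableSpace E] [BorelSpace E]
variable {S : Type} [NormedAddCommGroup S] [InnerProductSpace ℝ S]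
variable {F : Type} [NormedAddCommGroup F] [InnerProductSpace ℂ F]

/-- orthonormal basis of a subspace, as ambient vectors -/
def onb (U : Submodule ℝ E) (k : Fin (Module.finrank ℝ U)) : E := (stdOrthonormalBasis ℝ U k : E)

/-- the operator `-i p θ(s ∂) + θ(β)`, derivatives along `U` -/
def dop (θ : S →L[ℝ] F →L[ℂ] F) (U : Submodule ℝ E) (p : ℝ) (s : E →L[ℝ] S) (β : E → S)
    (ψ : E → F) (x : E) : F :=
  ∑ k, (-I * (p : ℂ)) • θ (s (onb U k)) (fderiv ℝ ψ x (onb U k)) + θ (β x) (ψ x)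

/-- squared `L²` norm over `U` -/
def nrm (U : Submodule ℝ E) (ψ : E → F) : ℝ := ∫ x : U, ‖ψ x‖ ^ 2

/-- weighted squared norm over `U` -/
def wnrm (U : Submodule ℝ E) (w : E → ℝ) (ψ : E → F) : ℝ := ∫ x : U, w x * ‖ψ x‖ ^ 2

/-- inner product over `U` -/
def ip (U : Submodule ℝ E) (φ ψ : E → F) : ℂ := ∫ x : U, inner ℂ (φ x) (ψ x)

/-- squared gradient along `U` at a point -/
def gsq (U : Submodule ℝ E) (ψ : E → F) (x : E) : ℝ := ∑ k, ‖fderiv ℝ ψ x (onb U k)‖ ^ 2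

/-- Dirichlet energy over `U` -/
def grad (U : Submodule ℝ E) (ψ : E → F) : ℝ := ∫ x : U, gsq U ψ x

/-- sum of the squared norms of the sixteen operators -/
def en (θ : S →L[ℝ] F →L[ℂ] F) (U : Submodule ℝ E) (p : ℝ) (s : Fin 16 → E →L[ℝ] S)
    (β : Fin 16 → E → S) (ψ : E → F) : ℝ :=
  ∑ α, nrm U (dop θ U p (s α) (β α) ψ)

/-- the zero order term in the sum of the squares -/
def bil (θ : S →L[ℝ] F →L[ℂ] F) (U : Submodule ℝ E) (s : Fin 16 → E →L[ℝ] S)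
    (β : Fin 16 → E → S) (x : E) : F →L[ℂ] F :=
  ∑ α, ∑ k, (-I) • (θ (s α (onb U k)) * θ (fderiv ℝ (β α) x (onb U k)))

/-- smooth functions with compact support on `U` -/
def Sm (U : Submodule ℝ E) (ψ : E → F) : Prop :=
  ContDiff ℝ ∞ ψ ∧ HasCompactSupport fun x : U => ψ x

/-- test functions with linear constraints -/
def Tst (U : Submodule ℝ E) (C : Set ((E →L[ℝ] E) × (F →L[ℂ] F))) : Submodule ℂ (E → F) where
  carrier := {ψ | Sm U ψ ∧ ∀ c ∈ C, ∀ x ∈ U, ψ (c.1 x) = c.2 (ψ x)}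
  add_mem' := fun {a b} ha hb => ⟨⟨ha.1.1.add hb.1.1, ha.1.2.add hb.1.2⟩, fun c hc x hx => by
    simp [ha.2 c hc x hx, hb.2 c hc x hx]⟩
  zero_mem' := ⟨⟨contDiff_const, HasCompactSupport.zero⟩, fun c _ x _ => by simp⟩
  smul_mem' := fun z a ha => ⟨⟨ha.1.1.const_smul z, ha.1.2.smul_left (f := fun _ => z)⟩,
    fun c hc x hx => by simp [ha.2 c hc x hx]⟩

/-- the constraints act on `U` by isometries -/
def Adm (U : Submodule ℝ E) (C : Set ((E →L[ℝ] E) × (F →L[ℂ] F))) : Prop :=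
  ∀ c ∈ C, ∀ x ∈ U, c.1 x ∈ U ∧ ‖c.1 x‖ = ‖x‖

/-- the operator is covariant for the constraints -/
def Cov (θ : S →L[ℝ] F →L[ℂ] F) (U : Submodule ℝ E) (C : Set ((E →L[ℝ] E) × (F →L[ℂ] F)))
    (s : E →L[ℝ] S) (β : E → S) : Prop :=
  ∀ c ∈ C, ∀ x ∈ U, c.2 * θ (s x) = θ (s (c.1 x)) * c.2 ∧ c.2 * θ (β x) = θ (β (c.1 x)) * c.2

/-- the symbols are isometric on average and orthogonal to the potentials -/
def Iso (U : Submodule ℝ E) (s : Fin 16 → E →L[ℝ] S) (β : Fin 16 → E → S) : Prop :=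
  (∀ x ∈ U, ∀ y ∈ U, ∑ α, ⟪s α x, s α y⟫ = 16 * ⟪x, y⟫) ∧
    ∀ x ∈ U, ∀ y ∈ U, ∑ α, ⟪s α y, β α x⟫ = 0

/-- `L²` space over `U` -/
abbrev LL (U : Submodule ℝ E) (F : Type) [NormedAddCommGroup F] : Type :=
  Lp F 2 (volume : Measure U)

open Classical in
/-- class in `L²(U)` -/
def L2 (U : Submodule ℝ E) (ψ : E → F) : LL U F :=
  if h : MemLp (fun x : U => ψ x) 2 volume then h.toLp _ else 0

/-- zero modes, as a set -/
def KerS (θ : S →L[ℝ] F →L[ℂ] F) (U : Submodule ℝ E) (C : Set ((E →L[ℝ] E) × (F →L[ℂ] F)))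
    (p : ℝ) (s : Fin 16 → E →L[ℝ] S) (β : Fin 16 → E → S) : Set (LL U F) :=
  {u | ∀ ε > 0, ∃ φ ∈ Tst U C, ‖L2 U φ - u‖ ≤ ε ∧ en θ U p s β φ ≤ ε}

/-- zero modes, as a subspace (the span of a set that is already a subspace) -/
def Ker (θ : S →L[ℝ] F →L[ℂ] F) (U : Submodule ℝ E) (C : Set ((E →L[ℝ] E) × (F →L[ℂ] F)))
    (p : ℝ) (s : Fin 16 → E →L[ℝ] S) (β : Fin 16 → E → S) : Submodule ℂ (LL U F) :=
  Submodule.span ℂ (KerS θ U C p s β)

/-- closure of the test functions in `L²(U)` -/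
def Hil (U : Submodule ℝ E) (C : Set ((E →L[ℝ] E) × (F →L[ℂ] F))) : Set (LL U F) :=
  closure (L2 U '' (Tst U C : Set (E → F)))

/-- pointwise action of an operator on `L²(U)` -/
def opL (U : Submodule ℝ E) (a : F →L[ℂ] F) : LL U F →L[ℂ] LL U F :=
  ContinuousLinearMap.compLpL 2 volume a

/-- normalization of the Gaussian `exp (-⟪x, A x⟫ / 2)` over `U` -/
def gnorm (U : Submodule ℝ E) (A : E →L[ℝ] E) : ℝ :=
  (√(∫ x : U, Real.exp (-⟪(x : E), A x⟫)))⁻¹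

/-- `L²` normalized Gaussian over `U` -/
def gauss (U : Submodule ℝ E) (A : E →L[ℝ] E) (x : E) : ℝ :=
  gnorm U A * Real.exp (-⟪x, A x⟫ / 2)

end Dirac

end Vale.Agent.P353
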