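import Vale.Agent.P353.Defs

/-! The data of the BFSS matrix model. -/

noncomputable section

open MeasureTheory Filter Topology

namespace Vale.Agent.P353

variable {N d : ℕ} {F : Type} [NormedAddCommGroup F] [InnerProductSpace ℂ F]

/-- `T` is a basis of the traceless Hermitian matrices with `Tr (T_A T_B) = δ_{AB}` and
`[T_A, T_B] = i f_{ABC} T_C`. -/
structure IsBasis (T : Fin d → Matrix (Fin N) (Fin N) ℂ) (f : Fin d → Fin d → Fin d → ℝ) :
    Prop where
  herm : ∀ A, (T A).IsHermitian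
  traceless : ∀ A, (T A).trace = 0
  orth : ∀ A B, (T A * T B).trace = if A = B then 1 else 0
  span : ∀ M : Matrix (Fin N) (Fin N) ℂ, M.IsHermitian → M.trace = 0 →
    ∃ x : Fin d → ℝ, M = ∑ A, (x A : ℂ) • T A
  comm : ∀ A B, T A * T B - T B * T A = ∑ C, (Complex.I * f A B C) • T C

/-- Real symmetric matrices with `{γ^i, γ^j} = 2 δ_{ij}`. -/
structure IsGamma (γ : Fin 9 → Matrix (Fin 16) (Fin 16) ℝ) : Prop where
  symm : ∀ i, (γ i).IsSymm
  anti : ∀ i j, γ i * γ j + γ j * γ i =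
    if i = j then (2 : ℝ) • (1 : Matrix (Fin 16) (Fin 16) ℝ) else 0

/-- `F` is an irreducible Clifford module with self-adjoint generators,
`{θ_α^A, θ_β^B} = δ_{αβ} δ_{AB}`. -/
structure IsClifford (θ : Fin 16 → Fin d → F →L[ℂ] F) : Prop where
  adj : ∀ α A (a b : F), inner ℂ (θ α A a) b = inner ℂ a (θ α A b)
  anti : ∀ α β A B (a : F), θ α A (θ β B a) + θ β B (θ α A a) = if α = β ∧ A = B then a else 0
  nontrivial : Nontrivial F
  irred : ∀ W : Submodule ℂ F, (∀ α A, ∀ a ∈ W, θ α A a ∈ W) → W = ⊥ ∨ W = ⊤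

/-- `U g θ_α^A (U g)⁻¹ = ∑_B adMat T g B A θ_α^B`. -/
def Implements (T : Fin d → Matrix (Fin N) (Fin N) ℂ) (θ : Fin 16 → Fin d → F →L[ℂ] F)
    (U : Matrix.specialUnitaryGroup (Fin N) ℂ →* (F ≃ₗᵢ[ℂ] F)) : Prop :=
  ∀ g α A a, U g (θ α A a) = ∑ B, (adMat T g B A : ℂ) • θ α B (U g a)

/-- The quadratic form `q_N (Ψ) = (1/16) ∑_α ‖Q_α Ψ‖²`. -/
def form (γ : Fin 9 → Matrix (Fin 16) (Fin 16) ℝ) (θ : Fin 16 → Fin d → F →L[ℂ] F)
    (f : Fin d → Fin d → Fin d → ℝ) (Ψ : Bos d → F) : ℝ :=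
  (1 / 16 : ℝ) * ∑ α, ∫ x, ‖supercharge γ θ f α Ψ x‖ ^ 2

variable {X : Type} [MeasurableSpace X]

/-- `Ψ` lies in the domain of the closure of the form `q` defined on `D`, and the closure takes
the value `t` at `Ψ`. -/
def ClosureValue (μ : Measure X) (D : Set (X → F)) (q : (X → F) → ℝ) (Ψ : Lp F 2 μ) (t : ℝ) :
    Prop :=
  ∃ φ : ℕ → X → F, (∀ n, φ n ∈ D) ∧
    Tendsto (fun n => ∫ x, ‖φ n x - Ψ x‖ ^ 2 ∂μ) atTop (𝓝 0) ∧
    Tendsto (fun p : ℕ × ℕ => q (φ p.1 - φ p.2)) atTop (𝓝 0) ∧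
    Tendsto (fun n => q (φ n)) atTop (𝓝 t)

/-- The kernel of the nonnegative self-adjoint operator associated with the closure of the
nonnegative form `q` on `D`: the elements of the form domain where the closed form vanishes. -/
def formKernel (μ : Measure X) (D : Set (X → F)) (q : (X → F) → ℝ) : Set (Lp F 2 μ) :=
  {Ψ | ClosureValue μ D q Ψ 0}

/-- `S` is a one dimensional complex subspace. -/
def IsLine {V : Type} [AddCommGroup V] [Module ℂ V] (S : Set V) : Prop :=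
  ∃ v : V, v ≠ 0 ∧ ∀ w, w ∈ S ↔ ∃ z : ℂ, w = z • v

/-- The kernel of the operator of the closed form has dimension one. -/
def KernelDimOne (μ : Measure X) (D : Set (X → F)) (q : (X → F) → ℝ) : Prop :=
  IsLine (formKernel μ D q)

end Vale.Agent.P353
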