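import Vale.Agent.P353.Hyp

/-! The kernel of the closed form is the set of zero modes. -/

noncomputable section

open MeasureTheory Filter Topology
open scoped ContDiff

namespace Vale.Agent.P353

variable {N d : ℕ} {F : Type} [NormedAddCommGroup F] [InnerProductSpace ℂ F]
  {γ : Fin 9 → Matrix (Fin 16) (Fin 16) ℝ} {θ : Fin 16 → Fin d → F →L[ℂ] F}
  {f : Fin d → Fin d → Fin d → ℝ}

theorem supercharge_sub (α : Fin 16) {φ ψ : Bos d → F} (hφ : ContDiff ℝ ∞ φ)
    (hψ : ContDiff ℝ ∞ ψ) (x : Bos d) : supercharge γ θ f α (φ - ψ) x =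
      supercharge γ θ f α φ x - supercharge γ θ f α ψ x := by
  unfold supercharge
  rw [fderiv_sub (hφ.differentiable (by simp) x) (hψ.differentiable (by simp) x)]
  simp only [_root_.sub_apply, Pi.sub_apply, map_sub, smul_sub,
    Finset.sum_sub_distrib]
  abel

theorem integrable_supercharge (α : Fin 16) {φ : Bos d → F} (hφ : ContDiff ℝ ∞ φ)
    (hs : HasCompactSupport φ) : Integrable fun x => ‖supercharge γ θ f α φ x‖ ^ 2 := by
  have h1 := hφ.continuous
  have h2 := hφ.continuous_fderiv (by simp)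
  have hc : Continuous (supercharge γ θ f α φ) := by
    unfold supercharge
    fun_prop
  refine (hc.norm.pow 2).integrable_of_hasCompactSupport (hs.mono' fun x hx => ?_)
  by_contra h
  apply hx
  have h3 : φ x = 0 := image_eq_zero_of_notMem_tsupport h
  have h4 : fderiv ℝ φ x = 0 := by
    by_contra h5
    exact h (support_fderiv_subset ℝ h5)
  simp [supercharge, h3, h4]

theorem form_nonneg (φ : Bos d → F) : 0 ≤ form γ θ f φ :=
  mul_nonneg (by norm_num) (Finset.sum_nonneg fun _ _ => integral_nonneg fun _ => sq_nonneg _)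

theorem form_sub_le {φ ψ : Bos d → F} (hφ : ContDiff ℝ ∞ φ) (hs : HasCompactSupport φ)
    (hψ : ContDiff ℝ ∞ ψ) (hs' : HasCompactSupport ψ) :
    form γ θ f (φ - ψ) ≤ 2 * form γ θ f φ + 2 * form γ θ f ψ := by
  have h : ∀ α, ∫ x, ‖supercharge γ θ f α (φ - ψ) x‖ ^ 2 ≤
      2 * (∫ x, ‖supercharge γ θ f α φ x‖ ^ 2) + 2 * ∫ x, ‖supercharge γ θ f α ψ x‖ ^ 2 := by
    intro α
    have i1 := (integrable_supercharge (γ := γ) (θ := θ) (f := f) α hφ hs).const_mul 2
    have i2 := (integrable_supercharge (γ := γ) (θ := θ) (f := f) α hψ hs').const_mul 2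
    rw [← integral_const_mul, ← integral_const_mul, ← integral_add i1 i2]
    refine integral_mono_of_nonneg (Eventually.of_forall fun _ => sq_nonneg _) (i1.add i2)
      (Eventually.of_forall fun x => ?_)
    simp only [supercharge_sub α hφ hψ]
    have := norm_sub_le (supercharge γ θ f α φ x) (supercharge γ θ f α ψ x)
    nlinarith [norm_nonneg (supercharge γ θ f α φ x - supercharge γ θ f α ψ x),
      sq_nonneg (‖supercharge γ θ f α φ x‖ - ‖supercharge γ θ f α ψ x‖)]
  have h2 := Finset.sum_le_sum fun α (_ : α ∈ Finset.univ) => h α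
  rw [Finset.sum_add_distrib, ← Finset.mul_sum, ← Finset.mul_sum] at h2
  unfold form
  linarith

theorem formKernel_eq (T : Fin d → Matrix (Fin N) (Fin N) ℂ)
    (U : Matrix.specialUnitaryGroup (Fin N) ℂ →* (F ≃ₗᵢ[ℂ] F)) :
    formKernel volume {Ψ | IsTest T U Ψ} (form γ θ f) = zeroModes γ θ f T U := by
  ext Ψ
  refine ⟨fun ⟨φ, h1, h2, _, h4⟩ => ⟨φ, h1, h2, h4⟩, fun ⟨φ, h1, h2, h4⟩ => ⟨φ, h1, h2, ?_, h4⟩⟩
  have h4' : Tendsto (fun n => form γ θ f (φ n)) atTop (𝓝 0) := h4
  have t : Tendsto (fun p : ℕ × ℕ => 2 * form γ θ f (φ p.1) + 2 * form γ θ f (φ p.2)) atTop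
      (𝓝 (2 * 0 + 2 * 0)) := by
    rw [← prod_atTop_atTop_eq]
    exact ((h4'.comp tendsto_fst).const_mul 2).add ((h4'.comp tendsto_snd).const_mul 2)
  rw [mul_zero, add_zero] at t
  exact squeeze_zero (fun _ => form_nonneg _)
    (fun p => form_sub_le (h1 _).1 (h1 _).2.1 (h1 _).1 (h1 _).2.1) t

end Vale.Agent.P353
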