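import Vale.Agent.P353.Gau
import Vale.Agent.P353.Ga1

/-! Generic lemmas for the amplitudes of the cluster test functions. -/

noncomputable section

open MeasureTheory Filter Topology Complex
open scoped ContDiff RealInnerProductSpace

namespace Vale.Agent.P353.LaAux

variable {E : Type} [NormedAddCommGroup E] [InnerProductSpace ℝ E] [FiniteDimensional ℝ E]
  [MeasurableSpace E] [BorelSpace E]
variable {F : Type} [NormedAddCommGroup F] [InnerProductSpace ℂ F] [FiniteDimensional ℂ F]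

theorem tendsto_zero_of_sq {f : ℝ → ℂ} {K : ℝ} (h : ∀ ε > 0, ∀ᶠ g in atTop, ‖f g‖ ^ 2 ≤ ε * K) :
    Tendsto f atTop (𝓝 0) := by
  rw [Metric.tendsto_nhds]
  intro δ hδ
  have hK : 0 < |K| + 1 := by positivity
  filter_upwards [h (δ ^ 2 / (2 * (|K| + 1))) (by positivity)] with g hg
  rw [dist_zero_right]
  have h1 : δ ^ 2 / (2 * (|K| + 1)) * K ≤ δ ^ 2 / (2 * (|K| + 1)) * (|K| + 1) :=
    mul_le_mul_of_nonneg_left (by linarith [le_abs_self K]) (by positivity)
  have h2 : δ ^ 2 / (2 * (|K| + 1)) * (|K| + 1) = δ ^ 2 / 2 := by field_simp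
  have h3 : ‖f g‖ ^ 2 < δ ^ 2 := by nlinarith [sq_pos_of_pos hδ]
  exact lt_of_pow_lt_pow_left₀ 2 hδ.le h3

theorem integral_scale {C S U : Submodule ℝ E} (h : C ⟂ S) (hU : C ⊔ S = U) (f : E → ℂ) {l : ℝ}
    (hl : 0 < l) : ∫ x : U, f x =
      ∫ p : C × S, (l ^ Module.finrank ℝ S : ℝ) • f (p.1 + l • (p.2 : E)) := by
  obtain ⟨e, he, hm, -⟩ := measurePreserving_sup h hU
  rw [← hm.integral_comp' (fun x : U => f x)]
  simp only [he]
  let T : C × S ≃ᵐ C × S := (MeasurableEquiv.refl C).prodCongr (MeasurableEquiv.smul₀ l hl.ne')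
  have hT : Measure.map T volume =
      ENNReal.ofReal |(l ^ Module.finrank ℝ S)⁻¹| • (volume : Measure (C × S)) := by
    have : (T : C × S → C × S) = Prod.map id (fun s : S => l • s) := rfl
    rw [this, Measure.volume_eq_prod, ← Measure.map_prod_map _ _ measurable_id
      (measurable_const_smul l), Measure.map_id, Measure.map_addHaar_smul _ hl.ne',
      Measure.prod_smul_right]
  have h1 := integral_map_equiv (μ := volume) T (fun p : C × S => f (p.1 + p.2))
  rw [hT, integral_smul_measure, ENNReal.toReal_ofReal (abs_nonneg _),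
    abs_of_pos (by positivity)] at h1
  rw [integral_smul]
  have h2 : ∫ p : C × S, f (p.1 + l • (p.2 : E)) = ∫ p : C × S, f ((T p).1 + (T p).2) := rfl
  rw [h2, ← h1, smul_smul, mul_inv_cancel₀ (by positivity), one_smul]

theorem gauss_cut (U : Submodule ℝ E) {a : ℝ} (ha : 0 < a) (M : ℝ) {ϑ : E → ℝ}
    (hc : Continuous ϑ) (h01 : ∀ x, 0 ≤ ϑ x ∧ ϑ x ≤ 1) (h1 : ∀ x, ‖x‖ ≤ 1 / 2 → ϑ x = 1) {ε : ℝ}
    (hε : 0 < ε) : ∀ᶠ g : ℝ in atTop, ∀ A : E →L[ℝ] E, (∀ w ∈ U, a * ‖w‖ ^ 2 ≤ ⟪w, A w⟫) →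
      ‖A‖ ≤ M → |(∫ x : U, gauss U (g • A) x ^ 2 * ϑ (g ^ (1 / 4 : ℝ) • (x : E))) - 1| ≤ ε := by
  obtain ⟨K, hK⟩ := gauss_moment U ha M 1
  have ht : Tendsto (fun g : ℝ => 4 * g ^ (-(1 / 2 : ℝ)) * K) atTop (𝓝 (4 * 0 * K)) :=
    ((tendsto_rpow_neg_atTop (by norm_num)).const_mul 4).mul_const K
  rw [mul_zero, zero_mul] at ht
  filter_upwards [ht.eventually (ge_mem_nhds hε), eventually_gt_atTop 0] with g hg hg0 A hA hM
  have hA' : ∀ w ∈ U, g * a * ‖w‖ ^ 2 ≤ ⟪w, (g • A) w⟫ := fun w hw => by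
    rw [smul_apply, real_inner_smul_right, mul_assoc]
    exact mul_le_mul_of_nonneg_left (hA w hw) hg0.le
  have hga : 0 < g * a := mul_pos hg0 ha
  have i0 : Integrable fun x : U => gauss U (g • A) x ^ 2 := by
    simpa using integrable_gauss_sq hga hA' 0
  have i2 : Integrable fun x : U => (g * ‖(x : E)‖ ^ 2) ^ 1 * gauss U (g • A) x ^ 2 := by
    simpa [mul_assoc] using (integrable_gauss_sq hga hA' 2).const_mul g
  have i1 : Integrable fun x : U => gauss U (g • A) x ^ 2 * ϑ (g ^ (1 / 4 : ℝ) • (x : E)) :=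
    i0.mul_bdd (c := 1) (by fun_prop) (Eventually.of_forall fun x => by
      rw [Real.norm_eq_abs, abs_of_nonneg (h01 _).1]; exact (h01 _).2)
  have e0 := integral_sub i1 i0
  rw [integral_gauss_sq hga hA'] at e0
  rw [← e0]
  refine (abs_integral_le_integral_abs).trans (le_trans ?_ hg)
  refine le_trans ?_ (mul_le_mul_of_nonneg_left (hK A hA hM g hg0) (by positivity))
  rw [← integral_const_mul]
  refine integral_mono (i1.sub i0).abs (i2.const_mul _) fun x => ?_
  have hG : 0 ≤ gauss U (g • A) x ^ 2 := sq_nonneg _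
  have key : 1 - ϑ (g ^ (1 / 4 : ℝ) • (x : E)) ≤ 4 * g ^ (-(1 / 2 : ℝ)) * (g * ‖(x : E)‖ ^ 2) := by
    have e1 : 4 * g ^ (-(1 / 2 : ℝ)) * (g * ‖(x : E)‖ ^ 2) =
        4 * ‖g ^ (1 / 4 : ℝ) • (x : E)‖ ^ 2 := by
      rw [norm_smul, Real.norm_eq_abs, abs_of_pos (Real.rpow_pos_of_pos hg0 _), mul_pow,
        ← Real.rpow_natCast (g ^ (1 / 4 : ℝ)), ← Real.rpow_mul hg0.le]
      have : g ^ (-(1 / 2 : ℝ)) * g = g ^ ((1 / 4 : ℝ) * (2 : ℕ)) := by
        rw [← Real.rpow_add_one hg0.ne']; norm_num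
      rw [← this]; ring
    rw [e1]
    by_cases hx : ‖g ^ (1 / 4 : ℝ) • (x : E)‖ ≤ 1 / 2
    · rw [h1 _ hx]; simp
    · push Not at hx
      nlinarith [(h01 (g ^ (1 / 4 : ℝ) • (x : E))).1]
  have e2 : |gauss U (g • A) x ^ 2 * ϑ (g ^ (1 / 4 : ℝ) • (x : E)) - gauss U (g • A) x ^ 2| =
      gauss U (g • A) x ^ 2 * (1 - ϑ (g ^ (1 / 4 : ℝ) • (x : E))) := by
    rw [abs_sub_comm, abs_of_nonneg]
    · ring
    · nlinarith [(h01 (g ^ (1 / 4 : ℝ) • (x : E))).2]
  simp only [e2, pow_one]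
  nlinarith [mul_le_mul_of_nonneg_left key hG]

omit [MeasurableSpace E] [BorelSpace E] in
theorem proj_add {C S : Submodule ℝ E} (h : C ⟂ S) {y s : E} (hy : y ∈ C) (hs : s ∈ S) :
    C.starProjection (y + s) = y ∧ S.starProjection (y + s) = s := by
  rw [map_add, map_add, Submodule.starProjection_eq_self_iff.2 hy,
    Submodule.starProjection_eq_self_iff.2 hs,
    (Submodule.starProjection_apply_eq_zero_iff C).2 (h.symm hs),
    (Submodule.starProjection_apply_eq_zero_iff S).2 (h hy), add_zero, zero_add]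
  exact ⟨rfl, rfl⟩

theorem tendsto_ip {C S U : Submodule ℝ E} (h : C ⟂ S) (hU : C ⊔ S = U) (β : LL S F) {b : E → F}
    (hb : MemLp (fun x : S => b x) 2 volume) {η w lim : E → ℝ} (hη : Continuous η)
    (hw : Integrable fun y : C => |η y| * w y) {Ψ : ℝ → E → F} {A : ℝ → E → F →L[ℂ] F}
    {A₀ : E → F →L[ℂ] F}
    (h1 : ∀ᶠ g in atTop, Continuous (Ψ g) ∧ ∀ X ∈ U,
      Ψ g X = A g X (dil S (ell g) b (S.starProjection X)) ∧ ‖A g X‖ ≤ w (C.starProjection X))
    (h2 : ∀ y ∈ C, ∀ s ∈ S, Tendsto (fun g => A g (y + ell g • s)) atTop (𝓝 (A₀ y)))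
    (h3 : ∀ᵐ s : S, ∀ y ∈ C, inner ℂ (β s) (A₀ y (b s)) = lim y * inner ℂ (β s) (b s)) :
    Tendsto (fun g => ip U (fun x => (η (C.starProjection x) : ℂ) •
      dil S (ell g) (rep S β) (S.starProjection x)) (Ψ g)) atTop
      (𝓝 ((∫ y : C, η y * lim y : ℝ) * inner ℂ β (L2 S b))) := by
  have hmem : ∀ (p : C × S) (l : ℝ), (p.1 : E) + l • (p.2 : E) ∈ U := fun p l =>
    hU ▸ Submodule.add_mem_sup p.1.2 (S.smul_mem l p.2.2)
  -- the rescaled integrand
  let H : ℝ → C × S → ℂ := fun g p => (η p.1 : ℂ) * inner ℂ (β p.2)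
    (((ell g ^ (-(Module.finrank ℝ S : ℝ) / 2) * ell g ^ Module.finrank ℝ S : ℝ) : ℂ) •
      Ψ g (p.1 + ell g • (p.2 : E)))
  have hH : ∀ᶠ g in atTop, ∀ p : C × S,
      H g p = (η p.1 : ℂ) * inner ℂ (β p.2) (A g (p.1 + ell g • (p.2 : E)) (b p.2)) := by
    filter_upwards [h1, eventually_gt_atTop 0] with g hg hg0 p
    have hl := ell_pos hg0
    simp only [H]
    rw [(hg.2 _ (hmem p _)).1, (proj_add h p.1.2 (S.smul_mem _ p.2.2)).2, dil, smul_smul,
      inv_mul_cancel₀ hl.ne', one_smul, map_smul, smul_smul, ← Complex.ofReal_mul, mul_right_comm,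
      FubAux.sq_mul hl, Complex.ofReal_one, one_smul]
  have hE : ∀ᶠ g in atTop, ∫ p, H g p = ip U (fun x => (η (C.starProjection x) : ℂ) •
      dil S (ell g) (rep S β) (S.starProjection x)) (Ψ g) := by
    filter_upwards [eventually_gt_atTop 0] with g hg0
    have hl := ell_pos hg0
    rw [ip, integral_scale h hU (fun x => inner ℂ ((η (C.starProjection x) : ℂ) •
      dil S (ell g) (rep S β) (S.starProjection x)) (Ψ g x)) hl]
    refine integral_congr_ae (Eventually.of_forall fun p => ?_)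
    simp only [H]
    rw [(proj_add h p.1.2 (S.smul_mem _ p.2.2)).1, (proj_add h p.1.2 (S.smul_mem _ p.2.2)).2, dil,
      smul_smul (ell g)⁻¹, inv_mul_cancel₀ hl.ne', one_smul, rep_coe, inner_smul_left,
      inner_smul_left, inner_smul_right, Complex.conj_ofReal, Complex.conj_ofReal, real_smul]
    push_cast
    ring
  refine Tendsto.congr' hE ?_
  have hβ : MemLp (fun s : S => β s) 2 volume := Lp.memLp β
  have hL : ((∫ y : C, η y * lim y : ℝ) : ℂ) * inner ℂ β (L2 S b) =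
      ∫ p : C × S, ((η p.1 * lim p.1 : ℝ) : ℂ) * inner ℂ (β p.2) (b p.2) := by
    rw [Measure.volume_eq_prod, integral_prod_mul (fun y : C => ((η y * lim y : ℝ) : ℂ))
      (fun s : S => inner ℂ (β s) (b s)), integral_complex_ofReal]
    congr 1
    conv_lhs => rw [← L2_rep β]
    rw [inner_L2 (memLp_rep β) hb, ip]
    simp only [rep_coe]
  rw [hL]
  refine tendsto_integral_filter_of_dominated_convergence
    (fun p : C × S => (|η p.1| * w p.1) * (‖β p.2‖ * ‖b p.2‖)) ?_ ?_ ?_ ?_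
  · filter_upwards [h1] with g hg
    have hΨ := hg.1
    refine AEStronglyMeasurable.mul (Continuous.aestronglyMeasurable (by fun_prop))
      (AEStronglyMeasurable.inner ?_ (Continuous.aestronglyMeasurable (by fun_prop)))
    exact (Lp.aestronglyMeasurable β).comp_snd
  · filter_upwards [h1, hH] with g hg hg'
    refine Eventually.of_forall fun p => ?_
    rw [hg' p, norm_mul, Complex.norm_real, Real.norm_eq_abs, mul_assoc]
    refine mul_le_mul_of_nonneg_left ?_ (abs_nonneg _)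
    have e := (hg.2 _ (hmem p (ell g))).2
    rw [(proj_add h p.1.2 (S.smul_mem _ p.2.2)).1] at e
    refine (norm_inner_le_norm _ _).trans ?_
    have := ((A g (p.1 + ell g • (p.2 : E))).le_opNorm (b p.2)).trans
      (mul_le_mul_of_nonneg_right e (norm_nonneg _))
    nlinarith [mul_le_mul_of_nonneg_left this (norm_nonneg (β p.2))]
  · exact hw.mul_prod (MemLp.integrable_mul hβ.norm hb.norm)
  · filter_upwards [(Measure.quasiMeasurePreserving_snd (μ := (volume : Measure C))).ae h3]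
      with p hp
    refine Tendsto.congr' (hH.mono fun g hg => (hg p).symm) ?_
    have e : ((η p.1 * lim p.1 : ℝ) : ℂ) * inner ℂ (β p.2) (b p.2) =
        (η p.1 : ℂ) * inner ℂ (β p.2) (A₀ p.1 (b p.2)) := by
      rw [hp p.1 p.1.2]; push_cast; ring
    rw [e]
    refine Tendsto.const_mul _ (Tendsto.inner tendsto_const_nhds ?_)
    exact ((ContinuousLinearMap.apply ℂ F (b p.2)).continuous.tendsto _).comp
      (h2 p.1 p.1.2 p.2 p.2.2)

end Vale.Agent.P353.LaAux
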