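import Vale.Agent.P353.Stmts
import Vale.Agent.P353.Gau
import Vale.Agent.P353.LaAux

/-! Amplitudes of the cluster test functions. -/

noncomputable section

open MeasureTheory Filter Topology Complex Matrix
open scoped ContDiff RealInnerProductSpace

namespace Vale.Agent.P353

namespace LaAux

variable {N d : ℕ} {F : Type} [NormedAddCommGroup F] [InnerProductSpace ℂ F]
  [FiniteDimensional ℂ F] (c : Ctx N d F)

theorem P0_fix {𝔴 𝔟 : Submodule ℝ (Lg d)} (h : 𝔴 ≤ 𝔟) {a : F} (ha : c.P0 𝔟 a = a) :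
    c.P0 𝔴 a = a := by
  have e : 𝔴 ⊔ 𝔴ᗮ ⊓ 𝔟 = 𝔟 := Submodule.sup_orthogonal_inf_of_hasOrthogonalProjection h
  have e2 := c.P0_sup (𝔟 := 𝔴) (𝔟' := 𝔴ᗮ ⊓ 𝔟)
    ((Submodule.isOrtho_orthogonal_right 𝔴).mono_right inf_le_left)
  rw [e] at e2
  have e3 : c.P0 𝔴 * c.P0 𝔴 = c.P0 𝔴 := vac_idem _
  calc c.P0 𝔴 a = (c.P0 𝔴 * c.P0 𝔟) a := by rw [mul_apply_eq_comp, ha]
    _ = c.P0 𝔟 a := by rw [e2, ← mul_assoc, e3]
    _ = a := ha

theorem off_le (π π' : Setoid (Fin N)) : c.off π π' ≤ (c.ss π')ᗮ :=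
  (c.off_isOrtho_blk π π').mono_right inf_le_left

theorem inner_P (h_lm4 : c.S_lm4) {𝔴 : Submodule ℝ (Lg d)} {v : Fin 9 → ℝ} {X : Tn 9 d}
    (hX : X ∈ c.Ow 𝔴 v) {a a' : F} (ha : c.P0 𝔴 a = a) (ha' : c.P0 𝔴 a' = a') :
    inner ℂ a (c.Pw 𝔴 X a') = c.ovw 𝔴 X * inner ℂ a a' := by
  have e := congrArg (fun T : F →L[ℂ] F => T a') (h_lm4.PP0P 𝔴 v X hX).2
  simp only [mul_apply_eq_comp, ha', _root_.smul_apply] at e
  have e2 : inner ℂ (c.P0 𝔴 a) (c.Pw 𝔴 X a') = inner ℂ a (c.P0 𝔴 (c.Pw 𝔴 X a')) := vac_symm _ _ _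
  rw [ha, e, inner_smul_right] at e2
  exact e2

theorem smr_supp {C : Submodule ℝ (Tn 9 d)} {η : Tn 9 d → ℝ} {Z : Set (Tn 9 d)} (h : SmR C η Z) :
    (HasCompactSupport fun y : C => η y) ∧ ∀ y ∈ C, η y ≠ 0 → y ∈ Z := by
  obtain ⟨-, K, hK, hZ, -, h0⟩ := h
  refine ⟨HasCompactSupport.intro
    (C.closed_of_finiteDimensional.isClosedEmbedding_subtypeVal.isCompact_preimage hK)
    fun y hy => h0 y y.2 hy, fun y hy hne => hZ ?_⟩
  by_contra hn
  exact hne (h0 y hy hn)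

theorem norm_Pw (𝔴 : Submodule ℝ (Lg d)) (X : Tn 9 d) : ‖c.Pw 𝔴 X‖ ≤ 1 :=
  Submodule.starProjection_norm_le _

/-- the localization map applied to the trial function -/
theorem TT_eq {π π' : Setoid (Fin N)} {v : Fin 9 → ℝ} {χ η₀ ϑ : Tn 9 d → ℝ} {g : ℝ}
    {b ψ : Tn 9 d → F} {X : Tn 9 d} (hX : X ∈ c.Sl (c.ss π) π')
    (h : χ X ≠ 0 → ∀ W ∈ Wsl (c.off π π') v, ψ (X + W) = c.Tf π π' v g η₀ ϑ b X W) :
    c.TT π (c.ss π) π' v χ g ψ X =
      (((χ X * √(c.jw (c.off π π') v X) * (∫ W : Wsl (c.off π π') v,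
        c.Gg (c.off π π') v g X W ^ 2 * ϑ (g ^ (1 / 4 : ℝ) • (W : Tn 9 d))) *
        η₀ ((c.CS (c.ss π) π').starProjection X) : ℝ) : ℂ) • c.Pw (c.off π π') X)
        (dil (sub 9 (c.ss π')) (ell g) b ((sub 9 (c.ss π')).starProjection X)) := by
  simp only [Ctx.TT, Ctx.Tr, Submodule.starProjection_eq_self_iff.2 hX, Ctx.kap,
    _root_.smul_apply]
  by_cases h0 : χ X = 0
  · simp [h0]
  have e3 : ∀ a, c.Pw (c.off π π') X (c.Pw (c.off π π') X a) = c.Pw (c.off π π') X a := fun a =>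
    congrArg (fun T : F →L[ℂ] F => T a) (vac_idem (θ := c.θ) (c.Jw (c.off π π') X))
  have e : c.T0 (c.off π π') v g ψ X = ∫ W : Wsl (c.off π π') v,
      ((c.Gg (c.off π π') v g X W ^ 2 * ϑ (g ^ (1 / 4 : ℝ) • (W : Tn 9 d)) : ℝ) : ℂ) •
        ((η₀ ((c.CS (c.ss π) π').starProjection X) : ℂ) • c.Pw (c.off π π') X
          (dil (sub 9 (c.ss π')) (ell g) b ((sub 9 (c.ss π')).starProjection X))) := by
    refine integral_congr_ae (Eventually.of_forall fun W => ?_)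
    simp only [h h0 W W.2, Ctx.Tf, map_smul, e3, smul_smul]
    congr 1
    push_cast
    ring
  rw [e, integral_smul_const, integral_complex_ofReal, smul_smul, smul_smul]
  congr 1
  push_cast
  ring

theorem core (h_lm1 : c.S_lm1) (h_lm4 : c.S_lm4) {π π' : Setoid (Fin N)} {v : Fin 9 → ℝ}
    (hπ : π' ≤ π) {y₀ : Tn 9 d} {r : ℝ}
    (hO : Metric.closedBall y₀ (2 * r) ⊆ c.Ow (c.off π π') v) {χ : Tn 9 d → ℝ}
    (hχ : SmR (c.Sl (c.ss π) π') χ (Metric.ball y₀ (2 * r))) (h01 : ∀ x, 0 ≤ χ x ∧ χ x ≤ 1)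
    (hχ1 : ∀ x ∈ Metric.ball y₀ r, χ x = 1) {b : Tn 9 d → F} (hb : b ∈ c.D0 π')
    {ϑ : Tn 9 d → ℝ} (hϑ : c.Bump ϑ 1) {η₀ : Tn 9 d → ℝ}
    (hη₀ : SmR (c.CS (c.ss π) π') η₀ (Metric.ball y₀ r)) {η : Tn 9 d → ℝ} (hη : Continuous η)
    {β : LL (sub 9 (c.ss π')) F} (hβ : β ∈ c.V π' 1 0) {ψ : ℝ → Tn 9 d → F}
    (hψ : ∀ᶠ g in atTop, Continuous (c.TT π (c.ss π) π' v χ g (ψ g)) ∧
      ∀ X ∈ c.Sl (c.ss π) π', χ X ≠ 0 → ∀ W ∈ Wsl (c.off π π') v,
        ψ g (X + W) = c.Tf π π' v g η₀ ϑ b X W) :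
    Tendsto (fun g => ip (c.Sl (c.ss π) π') (fun x => (η ((c.CS (c.ss π) π').starProjection x) : ℂ) •
      dil (sub 9 (c.ss π')) (ell g) (rep _ β) ((sub 9 (c.ss π')).starProjection x))
        (c.TT π (c.ss π) π' v χ g (ψ g))) atTop
      (𝓝 ((∫ y : c.CS (c.ss π) π', η y * (√(c.jw (c.off π π') v y) * η₀ y *
        c.ovw (c.off π π') y) : ℝ) * inner ℂ β (L2 _ b))) := by
  have hU : c.CS (c.ss π) π' ⊔ sub 9 (c.ss π') = c.Sl (c.ss π) π' := by
    rw [← c.CS_inf (π' := π') le_rfl]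
    exact Cov4Aux.CS_sup c ((c.Th_ss π).inf c hπ)
  have hj : Continuous fun X => √(c.jw (c.off π π') v X) := (h_lm1.j_cont _ v).sqrt
  obtain ⟨Mj, hMj⟩ := (isCompact_closedBall y₀ (2 * r)).exists_bound_of_continuousOn hj.continuousOn
  obtain ⟨a, ha, M, hA⟩ := h_lm1.A_unif _ v _ (isCompact_closedBall y₀ (2 * r)) hO
  have hI : ∀ ε > 0, ∀ᶠ g : ℝ in atTop, ∀ X ∈ Metric.closedBall y₀ (2 * r),
      |(∫ W : Wsl (c.off π π') v,
        c.Gg (c.off π π') v g X W ^ 2 * ϑ (g ^ (1 / 4 : ℝ) • (W : Tn 9 d))) - 1| ≤ ε := by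
    intro ε hε
    filter_upwards [gauss_cut (Wsl (c.off π π') v) ha M hϑ.1.continuous hϑ.2.2.1 hϑ.2.2.2.1 hε]
      with g hg X hX
    exact hg _ (hA X hX).2 (hA X hX).1
  have hc₀ := hη₀.1.continuous
  have hcχ := hχ.1.continuous
  have hsub : ∀ y ∈ c.CS (c.ss π) π', η₀ y ≠ 0 → y ∈ Metric.ball y₀ (2 * r) := fun y hy hne => by
    have := (smr_supp hη₀).2 y hy hne
    rw [Metric.mem_ball] at this ⊢
    linarith [dist_nonneg (x := y) (y := y₀)]
  refine tendsto_ip (w := fun y => |Mj| * 2 * |η₀ y|)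
    (lim := fun y => √(c.jw (c.off π π') v y) * η₀ y * c.ovw (c.off π π') y)
    (Ψ := fun g => c.TT π (c.ss π) π' v χ g (ψ g))
    (A := fun g X => ((χ X * √(c.jw (c.off π π') v X) * (∫ W : Wsl (c.off π π') v,
        c.Gg (c.off π π') v g X W ^ 2 * ϑ (g ^ (1 / 4 : ℝ) • (W : Tn 9 d))) *
        η₀ ((c.CS (c.ss π) π').starProjection X) : ℝ) : ℂ) • c.Pw (c.off π π') X)
    (A₀ := fun y => ((√(c.jw (c.off π π') v y) * η₀ y : ℝ) : ℂ) • c.Pw (c.off π π') y)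
    (Cov4Aux.CS_ortho c _ _) hU β hb.1.memLp hη ?_ ?_ ?_ ?_
  · refine Continuous.integrable_of_hasCompactSupport (by fun_prop) ?_
    exact (((smr_supp hη₀).1.comp_left (g := fun t : ℝ => |t|) abs_zero).mul_left).mul_left
  · filter_upwards [hψ, hI 1 one_pos] with g hg hg'
    refine ⟨hg.1, fun X hX => ⟨TT_eq c hX (hg.2 X hX), ?_⟩⟩
    by_cases h0 : χ X = 0
    · simp only [h0, zero_mul, Complex.ofReal_zero, zero_smul, norm_zero]
      positivity
    have hXb := Metric.ball_subset_closedBall ((smr_supp hχ).2 X hX h0)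
    have e1 := hg' X hXb
    have e2 : |√(c.jw (c.off π π') v X)| ≤ |Mj| := (hMj X hXb).trans (le_abs_self _)
    have e3 : |χ X| ≤ 1 := by rw [abs_of_nonneg (h01 X).1]; exact (h01 X).2
    have e4 : |∫ W : Wsl (c.off π π') v,
        c.Gg (c.off π π') v g X W ^ 2 * ϑ (g ^ (1 / 4 : ℝ) • (W : Tn 9 d))| ≤ 2 := by
      rw [abs_le] at e1 ⊢
      constructor <;> linarith [e1.1, e1.2]
    rw [norm_smul, Complex.norm_real, Real.norm_eq_abs, abs_mul, abs_mul, abs_mul]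
    calc _ ≤ 1 * |Mj| * 2 * |η₀ ((c.CS (c.ss π) π').starProjection X)| * 1 := by
          gcongr
          exact norm_Pw c _ _
      _ = _ := by ring
  · intro y hy s hs
    have hP : ∀ g, (c.CS (c.ss π) π').starProjection (y + ell g • s) = y := fun g =>
      (proj_add (Cov4Aux.CS_ortho c _ _) hy (Submodule.smul_mem _ _ hs)).1
    simp only [hP]
    by_cases h0 : η₀ y = 0
    · simp [h0]
    have hX : Tendsto (fun g => y + ell g • s) atTop (𝓝 y) := by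
      simpa using (tendsto_ell.smul_const s).const_add y
    have hyb := hsub y hy h0
    have hI' : Tendsto (fun g : ℝ => ∫ W : Wsl (c.off π π') v,
        c.Gg (c.off π π') v g (y + ell g • s) W ^ 2 * ϑ (g ^ (1 / 4 : ℝ) • (W : Tn 9 d))) atTop
        (𝓝 1) := by
      rw [Metric.tendsto_nhds]
      intro ε hε
      filter_upwards [hI (ε / 2) (by positivity),
        hX.eventually (Metric.isOpen_ball.mem_nhds hyb)] with g hg hg'
      rw [Real.dist_eq]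
      linarith [hg _ (Metric.ball_subset_closedBall hg')]
    have h1 := (((((hcχ.tendsto y).comp hX).mul ((hj.tendsto y).comp hX)).mul hI').mul_const
      (η₀ y)).ofReal.smul
      ((h_lm1.sm_P _ v y (hO (Metric.ball_subset_closedBall hyb))).continuousAt.tendsto.comp hX)
    rw [hχ1 y ((smr_supp hη₀).2 y hy h0), one_mul, mul_one] at h1
    exact h1
  · have hβ' := coe_opL (c.P0 (c.ss π')ᗮ) β
    rw [(c.mem_V_iff.1 hβ).2] at hβ'
    filter_upwards [hβ'] with s hs y hy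
    by_cases h0 : η₀ y = 0
    · simp [h0]
    have hb' : b s = c.P0 (c.ss π')ᗮ (b s) := hb.2 _ (Set.mem_insert _ _) s s.2
    rw [_root_.smul_apply, inner_smul_right,
      inner_P c h_lm4 (hO (Metric.ball_subset_closedBall (hsub y hy h0)))
        (P0_fix c (off_le c π π') hs.symm) (P0_fix c (off_le c π π') hb'.symm)]
    push_cast
    ring

end LaAux

namespace Ctx

variable {N d : ℕ} {F : Type} [NormedAddCommGroup F] [InnerProductSpace ℂ F]
  [FiniteDimensional ℂ F] (c : Ctx N d F)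

theorem p_la (h_lm1 : c.S_lm1) (h_lm4 : c.S_lm4) (h_orb : c.S_orb) (h_lam : c.S_lam)
    (h_tb : c.S_tb) (h_nc : c.S_nc) (h_la1 : c.S_la1) : c.S_la := by
  intro π π' hπ y₀ hy₀ hG b hb
  obtain ⟨𝒱, h𝒱, hdir⟩ := h_orb.dir
  obtain ⟨v, hv, hyO⟩ := hdir π π' hπ y₀ (sub_mono inf_le_right hy₀) (c.Good_subset_Gen _ _ hG)
  have hL : c.Lc π (c.ss π) π' v := ⟨c.Th_ss π, hπ, h𝒱 v hv⟩
  have hTh := (c.Th_ss π).inf c hπ
  obtain ⟨r₁, hr₁, H1⟩ := h_la1 π π' v hL y₀ hy₀ hyO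
  obtain ⟨r₂, hr₂, hball⟩ := Metric.nhds_basis_closedBall.mem_iff.1
    (((h_lm1.isOpen _ v).inter (c.isOpen_Good π π')).mem_nhds ⟨hyO, hG⟩)
  obtain ⟨r, hr, hrr₁, hrr₂⟩ : ∃ r > 0, r ≤ r₁ ∧ 2 * r ≤ r₂ :=
    ⟨min r₁ (r₂ / 2), by positivity, min_le_left _ _, by linarith [min_le_right r₁ (r₂ / 2)]⟩
  have hO : Metric.closedBall y₀ (2 * r) ⊆ c.Ow (c.off π π') v ∩ c.Good π π' :=
    (Metric.closedBall_subset_closedBall hrr₂).trans hball
  have hB : Metric.ball y₀ r ⊆ c.Ow (c.off π π') v ∩ c.Good π π' :=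
    (Metric.ball_subset_closedBall.trans
      (Metric.closedBall_subset_closedBall (by linarith))).trans hO
  have hP : ∀ y ∈ Metric.ball y₀ r, (c.CS (c.ss π) π').starProjection y ∈ Metric.ball y₀ r := by
    intro y hy
    rw [mem_ball_iff_norm] at hy ⊢
    nth_rewrite 1 [← Submodule.starProjection_eq_self_iff.2 hy₀]
    rw [← map_sub]
    exact (Submodule.norm_starProjection_apply_le _ _).trans_lt hy
  refine ⟨r, hr, fun y hy => (hB hy).2, fun y =>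
    √(c.jw (c.off π π') v ((c.CS (c.ss π) π').starProjection y)) *
      √(c.ovw (c.off π π') ((c.CS (c.ss π) π').starProjection y)), ?_, ?_, ?_⟩
  · intro y hy
    have hPc := (c.CS (c.ss π) π').starProjection.continuous
    exact ((((h_lm1.j_cont _ v).comp hPc).sqrt.continuousAt).mul
      ((h_lm4.ov_sm _ v _ (hB (hP y hy)).1).continuousAt.comp
        hPc.continuousAt).sqrt).continuousWithinAt
  · intro y hy
    exact mul_pos (Real.sqrt_pos.2 (h_lm1.j_pos _ v _ (hB (hP y hy)).1))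
      (Real.sqrt_pos.2 (h_lm4.ov_pos π π' hπ _
        (sub_mono inf_le_right (Submodule.starProjection_apply_mem _ y)) (hB (hP y hy)).2))
  intro η₀ hη₀
  obtain ⟨Kc, hcut⟩ := exists_cutoff (Tn 9 d)
  obtain ⟨ϑ, t1, t2, t3, t4, t5, -⟩ := hcut (1 / 2) (by norm_num)
  have hϑ : c.Bump ϑ 1 := ⟨t1, t2, t3, t4, fun x hx => t5 x (by linarith)⟩
  obtain ⟨K, φ, hφ, hsupp⟩ := H1 b hb ϑ hϑ η₀
    (hη₀.mono fun x _ hx => Metric.ball_subset_ball hrr₁ hx)
  refine ⟨K, φ, hφ.mono fun g hg => ⟨hg.1, hg.2.1⟩, hsupp, fun η hη β hβ => ?_⟩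
  obtain ⟨χ, hχ, h01, hχ1⟩ := exists_SmR_one (U := c.Sl (c.ss π) π')
    (isCompact_closedBall y₀ r) Metric.isOpen_ball
    (Metric.closedBall_subset_ball (show r < 2 * r by linarith))
  have hχ1' : ∀ x ∈ Metric.ball y₀ r, χ x = 1 := fun x hx =>
    hχ1.self_of_nhdsSet x (Metric.ball_subset_closedBall hx)
  have hC : c.Cut π (c.ss π) π' v χ :=
    ⟨hχ.mono fun x _ hx => (hO (Metric.ball_subset_closedBall hx)).1, h01⟩
  have hη' := h_lm4.hat π (c.ss π) π' hπ η (Metric.ball y₀ r)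
    (hη.mono fun x _ hx => ⟨(hB hx).2, hx⟩)
  have hGen : ∀ x, x ∈ c.Gen π' π' := fun x a b h h' => absurd h h'
  have hCS := c.CS_inf (𝔞 := c.ss π) (π' := π') le_rfl
  have hη1 : SmR (c.CS (c.ss π ⊓ c.blk π') π') (c.hatη π (c.ss π) π' η) Set.univ := by
    rw [hCS]; exact hη'.mono fun _ _ _ => trivial
  obtain ⟨ζ, z1, -, z3, z4, z5, -⟩ := hcut (r / 2) (by positivity)
  have hD : ∀ᶠ g in atTop, φ g ∈ c.D π (c.ss π) ∧ nrm (sub 9 (c.ss π)) (φ g) ≤ K ∧ 0 < g := by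
    filter_upwards [hφ, eventually_gt_atTop 0] with g hg hg0
    refine ⟨⟨hg.1.1, fun p hp => hg.1.2 p (Set.mem_insert_of_mem _ hp)⟩, ?_, hg0⟩
    have := div_nonneg (grad_nonneg (sub 9 (c.ss π)) (φ g)) hg0.le
    linarith [hg.2.1, show c.NG (c.ss π) g (φ g) = _ + _ from rfl]
  -- the far and near parts
  set far : ℝ → Tn 9 d → F := fun g x =>
    ((1 - ζ ((sub 9 (c.off π π')).starProjection x) : ℝ) : ℂ) • φ g x with hfar
  have hfs : ∀ g, Sm (sub 9 (c.ss π)) (φ g) → Sm (sub 9 (c.ss π)) (far g) := fun g h =>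
    h.mulR (contDiff_const.sub (z1.comp (sub 9 (c.off π π')).starProjection.contDiff))
  have hPW : ∀ X ∈ c.Sl (c.ss π) π', ∀ W ∈ Wsl (c.off π π') v,
      (sub 9 (c.off π π')).starProjection (X + W) = W := fun X hX W hW =>
    (LaAux.proj_add (sub_isOrtho ((c.off_isOrtho_blk π π').symm.mono_left inf_le_right)) hX
      hW.1).2
  have htail : ∀ ε > 0, ∀ᶠ g in atTop,
      nrm (c.Sl (c.ss π) π') (c.TT π (c.ss π) π' v χ g (far g)) ≤ ε * K := by
    intro ε hε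
    filter_upwards [h_tb.tail π _ π' v χ hL hC (r / 2) (by positivity) ε hε, hD] with g hg hg'
    refine (hg _ hg'.1 (far g) (hfs g hg'.1.1) (fun x _ => ?_) fun X hX _ W hW hWr => ?_).trans
      (mul_le_mul_of_nonneg_left hg'.2.1 hε.le)
    · simp only [hfar, norm_smul, Complex.norm_real, Real.norm_eq_abs]
      refine mul_le_of_le_one_left (norm_nonneg _) (abs_le.2 ⟨?_, ?_⟩) <;>
        linarith [(z3 ((sub 9 (c.off π π')).starProjection x)).1,
          (z3 ((sub 9 (c.off π π')).starProjection x)).2]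
    · simp only [hfar, hPW X hX W hW, z4 W hWr.le, sub_self, Complex.ofReal_zero, zero_smul]
  have hns : ∀ g, Sm (sub 9 (c.ss π)) (φ g) → Sm (sub 9 (c.ss π)) (φ g + (-1 : ℂ) • far g) :=
    fun g h => h.add ((hfs g h).smul _)
  have T1 := LaAux.core c h_lm1 h_lm4 hπ (fun x hx => (hO hx).1) hχ h01 hχ1' hb hϑ hη₀
    hη'.1.continuous hβ (ψ := fun g => φ g + (-1 : ℂ) • far g) (by
      filter_upwards [hφ, hD, (tendsto_rpow_atTop (show (0 : ℝ) < 1 / 4 by norm_num)).eventually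
        (eventually_ge_atTop (2 / r))] with g hg hg' hg4
      refine ⟨(h_tb.sm π _ π' v χ hL hC g hg'.2.2 _ (hns g hg'.1.1)).1.continuous,
        fun X hX h0 W hW => ?_⟩
      have hXb := (LaAux.smr_supp hχ).2 X hX h0
      rw [mem_ball_iff_norm] at hXb
      have e : (φ g + (-1 : ℂ) • far g) (X + W) = (ζ W : ℂ) • φ g (X + W) := by
        simp only [hfar, Pi.add_apply, Pi.smul_apply, hPW X hX W hW, smul_smul]
        nth_rewrite 1 [← one_smul ℂ (φ g (X + W))]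
        rw [← add_smul]
        congr 1
        push_cast
        ring
      have hz : r / 2 < ‖W‖ → c.Tf π π' v g η₀ ϑ b X W = 0 := fun h => by
        have : ϑ (g ^ (1 / 4 : ℝ) • W) = 0 := hϑ.2.2.2.2 _ (by
          rw [norm_smul, Real.norm_eq_abs, abs_of_pos (Real.rpow_pos_of_pos hg'.2.2 _)]
          calc (1 : ℝ) = 2 / r * (r / 2) := by field_simp
            _ ≤ _ := mul_le_mul hg4 h.le (by positivity)
              (Real.rpow_pos_of_pos hg'.2.2 _).le)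
        simp only [Tf, this, zero_mul, Complex.ofReal_zero, zero_smul]
      rw [e]
      by_cases hW1 : r ≤ ‖W‖
      · rw [z5 W (by linarith), hz (by linarith), Complex.ofReal_zero, zero_smul]
      have hn : ‖X + W - y₀‖ < 3 * r₁ := by
        have := norm_add_le (X - y₀) W
        rw [sub_add_eq_add_sub] at this
        linarith
      rw [hg.2.2 X hX W hW hn]
      by_cases hW2 : ‖W‖ ≤ r / 2
      · rw [z4 W hW2, Complex.ofReal_one, one_smul]
      · rw [hz (by linarith), smul_zero])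
  obtain ⟨Kb, hKb0, hKb⟩ := h_tb.bd π _ π' v hL
  have T2 : Tendsto (fun g => c.Lam π' (c.ss π ⊓ c.blk π') π' g
      (c.TT π (c.ss π) π' v χ g (φ g + (-1 : ℂ) • far g)) (c.hatη π (c.ss π) π' η) β -
      ip (c.Sl (c.ss π) π') (fun x =>
        (c.hatη π (c.ss π) π' η ((c.CS (c.ss π) π').starProjection x) : ℂ) •
        dil (sub 9 (c.ss π')) (ell g) (rep _ β) ((sub 9 (c.ss π')).starProjection x))
        (c.TT π (c.ss π) π' v χ g (φ g + (-1 : ℂ) • far g))) atTop (𝓝 0) := by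
    refine LaAux.tendsto_zero_of_sq (K := 2 * (Kb * K) + 2 * (1 * K)) fun ε hε => ?_
    filter_upwards [h_lam.self π' _ hTh _ hη1 β ε hε, hD, htail 1 one_pos] with g hg hg' hg1
    have e := hg _ (h_tb.sm π _ π' v χ hL hC g hg'.2.2 _ (hns g hg'.1.1))
    simp only [hCS] at e
    refine e.trans (mul_le_mul_of_nonneg_left ?_ hε.le)
    rw [h_tb.lin π _ π' v χ hL hC g hg'.2.2 _ _ hg'.1.1 (hfs g hg'.1.1)]
    refine (nrm_add_le (h_tb.sm π _ π' v χ hL hC g hg'.2.2 _ hg'.1.1).memLp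
      ((h_tb.sm π _ π' v χ hL hC g hg'.2.2 _ (hfs g hg'.1.1)).smul _).memLp).trans ?_
    have e1 := (hKb χ hC g hg'.2.2 _ hg'.1).trans (mul_le_mul_of_nonneg_left hg'.2.1 hKb0)
    have e2 : nrm (c.Sl (c.ss π) π') ((-1 : ℂ) • c.TT π (c.ss π) π' v χ g (far g)) =
        nrm (c.Sl (c.ss π) π') (c.TT π (c.ss π) π' v χ g (far g)) := by simp [nrm]
    linarith
  have T3 : Tendsto (fun g => c.Lam π' (c.ss π ⊓ c.blk π') π' g
      (c.TT π (c.ss π) π' v χ g (far g)) (c.hatη π (c.ss π) π' η) β) atTop (𝓝 0) := by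
    refine LaAux.tendsto_zero_of_sq (K := (∫ y : c.CS (c.ss π ⊓ c.blk π') π',
      c.hatη π (c.ss π) π' η y ^ 2) * ‖β‖ ^ 2 * K) fun ε hε => ?_
    filter_upwards [hD, htail ε hε] with g hg' hg1
    refine (h_lam.self_bd π' _ hTh _ hη1 β g hg'.2.2 _
      (h_tb.sm π _ π' v χ hL hC g hg'.2.2 _ (hfs g hg'.1.1))).trans ?_
    refine (mul_le_mul_of_nonneg_left hg1 (mul_nonneg
      (integral_nonneg fun _ => sq_nonneg _) (sq_nonneg _))).trans_eq ?_
    ring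
  have T4 : Tendsto (fun g => c.Lam π' (c.ss π ⊓ c.blk π') π' g
      (c.TT π (c.ss π) π' v χ g (φ g)) (c.hatη π (c.ss π) π' η) β -
      c.Lam π (c.ss π) π' g (φ g) (fun x => χ x * c.hatη π (c.ss π) π' η x) β) atTop (𝓝 0) := by
    refine LaAux.tendsto_zero_of_sq (K := K) fun ε hε => ?_
    filter_upwards [(h_nc π _ π' v χ π' hL hC le_rfl _
      (hη'.mono fun x _ _ => hGen x)).2 β ε hε, hD, hφ] with g hg hg' hg1
    exact (hg _ hg'.1).trans (mul_le_mul_of_nonneg_left hg1.2.1 hε.le)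
  have T := ((T1.add T2).add T3).sub T4
  have hI : ∫ y : c.CS (c.ss π) π', c.hatη π (c.ss π) π' η y * (√(c.jw (c.off π π') v y) * η₀ y *
      c.ovw (c.off π π') y) = ∫ y : c.CS (c.ss π) π', η y * η₀ y *
        (√(c.jw (c.off π π') v ((c.CS (c.ss π) π').starProjection y)) *
          √(c.ovw (c.off π π') ((c.CS (c.ss π) π').starProjection y))) := by
    refine integral_congr_ae (Eventually.of_forall fun y => ?_)
    simp only [hatη, Submodule.starProjection_eq_self_iff.2 y.2]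
    calc _ = η y * η₀ y * (√(c.jw (c.off π π') v y) *
        (c.ovw (c.off π π') y / √(c.ovw (c.off π π') y))) := by ring
      _ = _ := by rw [Real.div_sqrt]
  rw [add_zero, add_zero, sub_zero, hI] at T
  refine T.congr' ?_
  filter_upwards [hD] with g hg'
  have e1 := (h_lam.congrη π (c.ss π) π' g (φ g) (fun x => χ x * c.hatη π (c.ss π) π' η x)
    (c.hatη π (c.ss π) π' η) β fun y hy => by
      by_cases h0 : c.hatη π (c.ss π) π' η y = 0
      · simp only [h0, mul_zero]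
      · simp only [hχ1' y ((LaAux.smr_supp hη').2 y hy h0).2, one_mul]).1
  rw [e1, h_tb.lin π _ π' v χ hL hC g hg'.2.2 _ _ hg'.1.1 (hfs g hg'.1.1),
    h_lam.linOn π' _ π' hTh le_rfl _ (hη1.mono fun x _ _ => hGen x) g hg'.2.2 β _ _
      (h_tb.sm π _ π' v χ hL hC g hg'.2.2 _ hg'.1.1)
      (h_tb.sm π _ π' v χ hL hC g hg'.2.2 _ (hfs g hg'.1.1)), Lamh]
  ring

end Ctx

end Vale.Agent.P353
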