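import Vale.Agent.P353.Gau
import Vale.Agent.P353.Ga1

/-! Generic estimates for functions on a slice. -/

noncomputable section

open MeasureTheory Filter Topology Complex
open scoped ContDiff RealInnerProductSpace

namespace Vale.Agent.P353.La1Aux

variable {E : Type} [NormedAddCommGroup E] [InnerProductSpace ℝ E] [FiniteDimensional ℝ E]
  [MeasurableSpace E] [BorelSpace E]
variable {F : Type} [NormedAddCommGroup F] [InnerProductSpace ℂ F] [FiniteDimensional ℂ F]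

omit [MeasurableSpace E] [BorelSpace E] in
theorem proj_left {U₁ U₂ : Submodule ℝ E} (h : U₁ ⟂ U₂) {x y : E} (hx : x ∈ U₁) (hy : y ∈ U₂) :
    U₁.starProjection (x + y) = x := by
  rw [map_add, Submodule.starProjection_eq_self_iff.2 hx,
    (Submodule.starProjection_apply_eq_zero_iff U₁).2 (h.symm hy), add_zero]

omit [MeasurableSpace E] [BorelSpace E] in
theorem proj_right {U₁ U₂ : Submodule ℝ E} (h : U₁ ⟂ U₂) {x y : E} (hx : x ∈ U₁) (hy : y ∈ U₂) :
    U₂.starProjection (x + y) = y := by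
  rw [add_comm]; exact proj_left h.symm hy hx

omit [MeasurableSpace E] [BorelSpace E] in
theorem proj_add {U₁ U₂ U : Submodule ℝ E} (h : U₁ ⟂ U₂) (hU : U₁ ⊔ U₂ = U) {x : E} (hx : x ∈ U) :
    U₁.starProjection x + U₂.starProjection x = x := by
  obtain ⟨a, ha, b, hb, rfl⟩ := Submodule.mem_sup.1 (hU ▸ hx : x ∈ U₁ ⊔ U₂)
  rw [proj_left h ha hb, proj_right h ha hb]

theorem prod2 {U₁ U₂ U : Submodule ℝ E} (h : U₁ ⟂ U₂) (hU : U₁ ⊔ U₂ = U) {a b : E → ℝ}
    (ha : Integrable fun x : U₁ => a x) (hb : Integrable fun x : U₂ => b x) :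
    (Integrable fun x : U => a (U₁.starProjection x) * b (U₂.starProjection x)) ∧
      ∫ x : U, a (U₁.starProjection x) * b (U₂.starProjection x) =
        (∫ x : U₁, a x) * ∫ x : U₂, b x := by
  have e : ∀ (x : U₁) (y : U₂), a (U₁.starProjection (x + y)) * b (U₂.starProjection (x + y)) =
      a x * b y := fun x y => by rw [proj_left h x.2 y.2, proj_right h x.2 y.2]
  have hi : Integrable fun x : U => a (U₁.starProjection x) * b (U₂.starProjection x) := by
    rw [integrable_sup h hU (f := fun x => a (U₁.starProjection x) * b (U₂.starProjection x))]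
    simp only [e]
    exact ha.mul_prod hb
  refine ⟨hi, ?_⟩
  rw [integral_sup h hU (f := fun x => a (U₁.starProjection x) * b (U₂.starProjection x)) hi]
  simp only [e, integral_const_mul, integral_mul_const]

/-- a weight that is at least one on a ball and integrable across `S` -/
theorem slab {S U : Submodule ℝ E} (h : S ≤ U) (R : ℝ) : ∃ M ≥ (0 : ℝ), ∃ w : E → ℝ,
    (∀ x, 0 ≤ w x) ∧ (∀ x, ‖x‖ ≤ R → 1 ≤ w x) ∧ ∀ a : E → ℝ, (Integrable fun x : S => a x) →
      (Integrable fun x : U => a (S.starProjection x) * w x) ∧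
        ∫ x : U, a (S.starProjection x) * w x = (∫ x : S, a x) * M := by
  obtain ⟨Z, ho, hs⟩ : ∃ Z : Submodule ℝ E, S ⟂ Z ∧ S ⊔ Z = U :=
    ⟨Sᗮ ⊓ U, (Submodule.isOrtho_orthogonal_right S).mono_right inf_le_left,
      Submodule.sup_orthogonal_inf_of_hasOrthogonalProjection h⟩
  obtain ⟨b, hb⟩ : ∃ b : E → ℝ, ∀ x, b x = Real.exp (R ^ 2) * Real.exp (-(1 * ‖x‖ ^ 2)) :=
    ⟨_, fun _ => rfl⟩
  have hi : Integrable fun x : Z => b x := by
    simp only [hb]
    exact (GauAux.integrable_exp_sq (W := Z) one_pos).const_mul _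
  have h0 : ∀ x, 0 ≤ b x := fun x => by rw [hb]; positivity
  refine ⟨∫ x : Z, b x, integral_nonneg fun x => h0 x, fun x => b (Z.starProjection x),
    fun x => h0 _, fun x hx => ?_, fun a ha => prod2 ho hs ha hi⟩
  simp only [hb]
  rw [← Real.exp_add]
  refine Real.one_le_exp ?_
  have h1 : ‖Z.starProjection x‖ ≤ R := (Submodule.norm_starProjection_apply_le _ x).trans hx
  have h2 := pow_le_pow_left₀ (norm_nonneg _) h1 2
  linarith

/-- the scaled Gaussian weight -/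
def gw (U : Submodule ℝ E) (a g : ℝ) (x : E) : ℝ :=
  √g ^ Module.finrank ℝ U * ((1 + g * ‖x‖ ^ 2) ^ 2 * Real.exp (-(a * (g * ‖x‖ ^ 2))))

theorem int_gw (U : Submodule ℝ E) {a : ℝ} (ha : 0 < a) : ∃ M ≥ (0 : ℝ), ∀ g > 0,
    (Integrable fun x : U => gw U a g x) ∧ ∫ x : U, gw U a g x = M := by
  have hi := GauAux.integrable_one_add (W := U) ha 2
  refine ⟨∫ x : U, (1 + ‖x‖ ^ 2) ^ 2 * Real.exp (-(a * ‖x‖ ^ 2)),
    integral_nonneg fun x => by positivity, fun g hg => ?_⟩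
  have hs : 0 < √g := Real.sqrt_pos.2 hg
  have e : ∀ x : U, gw U a g x = √g ^ Module.finrank ℝ U *
      ((1 + ‖√g • x‖ ^ 2) ^ 2 * Real.exp (-(a * ‖√g • x‖ ^ 2))) := fun x => by
    rw [GauAux.norm_sqrt_smul_sq hg]; rfl
  simp only [e]
  refine ⟨(hi.comp_smul hs.ne').const_mul _, ?_⟩
  rw [integral_const_mul, Measure.integral_comp_smul_of_nonneg volume
    (fun x : U => (1 + ‖x‖ ^ 2) ^ 2 * Real.exp (-(a * ‖x‖ ^ 2))) √g (hR := hs.le), smul_eq_mul,
    ← mul_assoc, mul_inv_cancel₀ (pow_pos hs _).ne', one_mul]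

theorem gauss_eq (U : Submodule ℝ E) (A : E →L[ℝ] E) {g : ℝ} (hg : 0 < g) (x : E) :
    gauss U (g • A) x = g ^ ((Module.finrank ℝ U : ℝ) / 4) * gnorm U A *
      Real.exp (-(g / 2) * ⟪x, A x⟫) := by
  rw [gauss, gnorm_smul U A hg, smul_apply, real_inner_smul_right]
  congr 2; ring

omit [FiniteDimensional ℝ E] [MeasurableSpace E] [BorelSpace E] [FiniteDimensional ℂ F] in
/-- product rule, as an estimate -/
theorem prod_rule {r : E → ℝ} {Q : E → F →L[ℂ] F} {B : E → F} {x : E}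
    (hr : DifferentiableAt ℝ r x) (hQ : DifferentiableAt ℝ Q x) (hB : DifferentiableAt ℝ B x)
    (e : E) : ‖fderiv ℝ (fun y => (r y : ℂ) • Q y (B y)) x e‖ ≤
      |fderiv ℝ r x e| * (‖Q x‖ * ‖B x‖) +
        |r x| * (‖fderiv ℝ Q x e‖ * ‖B x‖ + ‖Q x‖ * ‖fderiv ℝ B x e‖) := by
  have h1 := ((ContinuousLinearMap.restrictScalarsL ℂ F F ℝ ℝ).hasFDerivAt.comp x
    hQ.hasFDerivAt).clm_apply hB.hasFDerivAt
  have h2 := hr.hasFDerivAt.smul h1
  have h3 : (fun y => (r y : ℂ) • Q y (B y)) = r • fun y =>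
      ((ContinuousLinearMap.restrictScalarsL ℂ F F ℝ ℝ) ∘ Q) y (B y) := by
    ext y; simp
  rw [h3, h2.fderiv]
  simp only [add_apply, smul_apply,
    ContinuousLinearMap.comp_apply, ContinuousLinearMap.flip_apply,
    ContinuousLinearMap.smulRight_apply, Function.comp_apply,
    ContinuousLinearMap.coe_restrict_scalarsL', ContinuousLinearMap.coe_restrictScalars']
  refine (norm_add_le _ _).trans ?_
  rw [norm_smul, norm_smul, Real.norm_eq_abs, Real.norm_eq_abs, add_comm]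
  refine add_le_add ?_ ?_
  · gcongr; exact (Q x).le_opNorm _
  · gcongr
    rw [add_comm]
    exact (norm_add_le _ _).trans (add_le_add ((fderiv ℝ Q x e).le_opNorm _) ((Q x).le_opNorm _))

omit [FiniteDimensional ℝ E] [MeasurableSpace E] [BorelSpace E] in
/-- derivative of the quadratic form -/
theorem quad_rule {A : E → E →L[ℝ] E} {P : E →L[ℝ] E} {x : E} (hA : DifferentiableAt ℝ A x)
    {M : ℝ} (h0 : ‖A x‖ ≤ M) (h1 : ‖fderiv ℝ A x‖ ≤ M) (hP : ‖P‖ ≤ 1) :
    ∃ L : E →L[ℝ] ℝ, HasFDerivAt (fun y => ⟪P y, A y (P y)⟫) L x ∧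
      ∀ e, ‖e‖ ≤ 1 → |L e| ≤ M * (‖P x‖ ^ 2 + 2 * ‖P x‖) := by
  have h2 := P.hasFDerivAt.inner ℝ (hA.hasFDerivAt.clm_apply (P.hasFDerivAt (x := x)))
  refine ⟨_, h2, fun e he => ?_⟩
  have hM : 0 ≤ M := (norm_nonneg _).trans h0
  have hPe : ‖P e‖ ≤ 1 := (P.le_opNorm e).trans (mul_le_one₀ hP (norm_nonneg _) he)
  simp only [ContinuousLinearMap.comp_apply, ContinuousLinearMap.prod_apply, fderivInnerCLM_apply,
    add_apply, ContinuousLinearMap.flip_apply]
  have a1 : ‖A x (P e)‖ ≤ M := ((A x).le_opNorm _).trans (by nlinarith [norm_nonneg (A x)])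
  have a2 : ‖fderiv ℝ A x e (P x)‖ ≤ M * ‖P x‖ := by
    refine ((fderiv ℝ A x e).le_opNorm _).trans ?_
    gcongr
    exact ((fderiv ℝ A x).le_opNorm _).trans (by nlinarith [norm_nonneg (fderiv ℝ A x)])
  have a3 : ‖A x (P x)‖ ≤ M * ‖P x‖ := ((A x).le_opNorm _).trans (by gcongr)
  have a4 := abs_real_inner_le_norm (P x) (A x (P e) + fderiv ℝ A x e (P x))
  have a5 := abs_real_inner_le_norm (P e) (A x (P x))
  have a6 : ‖A x (P e) + fderiv ℝ A x e (P x)‖ ≤ M + M * ‖P x‖ :=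
    (norm_add_le _ _).trans (add_le_add a1 a2)
  have a7 : ‖P x‖ * ‖A x (P e) + fderiv ℝ A x e (P x)‖ ≤ ‖P x‖ * (M + M * ‖P x‖) := by gcongr
  have a8 : ‖P e‖ * ‖A x (P x)‖ ≤ 1 * (M * ‖P x‖) := by gcongr
  refine (abs_add_le _ _).trans ?_
  nlinarith

/-- uniform bounds for the data on `K` -/
structure Dat (𝒲 : Submodule ℝ E) (A : E → E →L[ℝ] E) (q : E → F →L[ℂ] F) (K : Set E)
    (a M : ℝ) : Prop where
  sA : ∀ X ∈ K, ContDiffAt ℝ ∞ A X
  sq : ∀ X ∈ K, ContDiffAt ℝ ∞ q X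
  bd : ∀ X ∈ K, ‖A X‖ ≤ M ∧ ‖fderiv ℝ A X‖ ≤ M ∧ ‖q X‖ ≤ M ∧ ‖fderiv ℝ q X‖ ≤ M
  pos : ∀ X ∈ K, ∀ W ∈ 𝒲, a * ‖W‖ ^ 2 ≤ ⟪W, A X W⟫

/-- the scalar factor -/
def rr (U 𝒲 : Submodule ℝ E) (A : E → E →L[ℝ] E) (ϑ : E → ℝ) (g : ℝ) (x : E) : ℝ :=
  g ^ ((Module.finrank ℝ 𝒲 : ℝ) / 4) * (ϑ (g ^ (1 / 4 : ℝ) • 𝒲.starProjection x) *
    Real.exp (-(g / 2) * ⟪𝒲.starProjection x, A (U.starProjection x) (𝒲.starProjection x)⟫))

/-- the trial function -/
def ff (S U 𝒲 : Submodule ℝ E) (A : E → E →L[ℝ] E) (q : E → F →L[ℂ] F) (ϑ : E → ℝ) (B : E → F)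
    (g : ℝ) (x : E) : F :=
  (rr U 𝒲 A ϑ g x : ℂ) • q (U.starProjection x) (B (S.starProjection (U.starProjection x)))

variable {S U 𝒲 Y : Submodule ℝ E} {A : E → E →L[ℝ] E} {q : E → F →L[ℂ] F} {K : Set E} {a M : ℝ}
  {ϑ : E → ℝ} {B : E → F} {g : ℝ} {x : E}

omit [FiniteDimensional ℝ E] [MeasurableSpace E] [BorelSpace E] in
theorem bdd {V : Type} [NormedAddCommGroup V] [NormedSpace ℝ V] {f : E → V} (hK : IsCompact K)
    (h : ∀ X ∈ K, ContDiffAt ℝ ∞ f X) : ∃ M, ∀ X ∈ K, ‖f X‖ ≤ M ∧ ‖fderiv ℝ f X‖ ≤ M := by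
  obtain ⟨M₁, h1⟩ := hK.exists_bound_of_continuousOn (f := f)
    fun X hX => (h X hX).continuousAt.continuousWithinAt
  obtain ⟨M₂, h2⟩ := hK.exists_bound_of_continuousOn (f := fderiv ℝ f)
    fun X hX => ((h X hX).fderiv_right (m := ∞) le_rfl).continuousAt.continuousWithinAt
  exact ⟨max M₁ M₂, fun X hX => ⟨le_max_of_le_left (h1 X hX), le_max_of_le_right (h2 X hX)⟩⟩

omit [FiniteDimensional ℝ E] [MeasurableSpace E] [BorelSpace E] [FiniteDimensional ℂ F] in
theorem exists_dat (hK : IsCompact K) (sA : ∀ X ∈ K, ContDiffAt ℝ ∞ A X)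
    (sq : ∀ X ∈ K, ContDiffAt ℝ ∞ q X) (pos : ∀ X ∈ K, ∀ W ∈ 𝒲, a * ‖W‖ ^ 2 ≤ ⟪W, A X W⟫) :
    ∃ M, Dat 𝒲 A q K a M := by
  obtain ⟨M₁, h1⟩ := bdd hK sA
  obtain ⟨M₂, h2⟩ := bdd hK sq
  exact ⟨max M₁ M₂, sA, sq, fun X hX => ⟨le_max_of_le_left (h1 X hX).1,
    le_max_of_le_left (h1 X hX).2, le_max_of_le_right (h2 X hX).1,
    le_max_of_le_right (h2 X hX).2⟩, pos⟩

omit [MeasurableSpace E] [BorelSpace E] [FiniteDimensional ℂ F] in
theorem fd_comp {V : Type} [NormedAddCommGroup V] [NormedSpace ℝ V] {f : E → V}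
    (hf : DifferentiableAt ℝ f (U.starProjection x)) (h : ‖fderiv ℝ f (U.starProjection x)‖ ≤ M) :
    ‖fderiv ℝ (fun y => f (U.starProjection y)) x‖ ≤ M := by
  rw [(hf.hasFDerivAt.comp x U.starProjection.hasFDerivAt).fderiv (f := fun y =>
    f (U.starProjection y))]
  refine (ContinuousLinearMap.opNorm_comp_le _ _).trans ?_
  have := U.starProjection_norm_le
  nlinarith [norm_nonneg (fderiv ℝ f (U.starProjection x))]

omit [MeasurableSpace E] [BorelSpace E] [FiniteDimensional ℂ F] in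
theorem rr_smooth (h : Dat 𝒲 A q K a M) (hϑ : ContDiff ℝ ∞ ϑ) (hx : U.starProjection x ∈ K) :
    ContDiffAt ℝ ∞ (rr U 𝒲 A ϑ g) x := by
  have h1 : ContDiffAt ℝ ∞ (fun y => A (U.starProjection y)) x :=
    (h.sA _ hx).comp x U.starProjection.contDiff.contDiffAt
  have h2 : ContDiffAt ℝ ∞ 𝒲.starProjection x := 𝒲.starProjection.contDiff.contDiffAt
  exact contDiffAt_const.mul ((hϑ.contDiffAt.comp x (h2.const_smul _)).mul
    (contDiffAt_const.mul (h2.inner ℝ (h1.clm_apply h2))).exp)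

omit [MeasurableSpace E] [BorelSpace E] [FiniteDimensional ℂ F] in
theorem ff_smooth (h : Dat 𝒲 A q K a M) (hϑ : ContDiff ℝ ∞ ϑ) (hB : ContDiff ℝ ∞ B)
    (hx : U.starProjection x ∈ K) : ContDiffAt ℝ ∞ (ff S U 𝒲 A q ϑ B g) x := by
  have h1 : ContDiffAt ℝ ∞ (fun y => q (U.starProjection y)) x :=
    (h.sq _ hx).comp x U.starProjection.contDiff.contDiffAt
  have h2 : ContDiff ℝ ∞ fun y => B (S.starProjection (U.starProjection y)) :=
    hB.comp (S.starProjection.contDiff.comp U.starProjection.contDiff)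
  exact (Complex.ofRealCLM.contDiff.contDiffAt.comp x (rr_smooth h hϑ hx)).smul
    (((ContinuousLinearMap.restrictScalarsL ℂ F F ℝ ℝ).contDiff.contDiffAt.comp x h1).clm_apply
      h2.contDiffAt)

theorem num1 {g t M T : ℝ} (hg : 1 ≤ g) (ht : 0 ≤ t) (hM : 0 ≤ M) (hT : 0 ≤ T) :
    g ^ (1 / 4 : ℝ) * T + g * (M * (t ^ 2 + 2 * t)) / 2 ≤
      (T + 2 * M) * (√g * (1 + g * t ^ 2)) := by
  have h1 : g ^ (1 / 4 : ℝ) ≤ √g := by
    rw [Real.sqrt_eq_rpow]; exact Real.rpow_le_rpow_of_exponent_le hg (by norm_num)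
  have h2 : 1 ≤ √g := Real.one_le_sqrt.2 hg
  have h3 : √g * √g = g := Real.mul_self_sqrt (by linarith)
  generalize √g = s at *
  subst h3
  have h4 : s * s * t ≤ s * (1 + s * s * t ^ 2) := by
    rw [mul_assoc]; gcongr; nlinarith [sq_nonneg (s * t - 1), mul_nonneg (by linarith : 0 ≤ s) ht]
  have h5 : s * s * t ^ 2 ≤ s * (1 + s * s * t ^ 2) := by nlinarith [mul_nonneg (mul_self_nonneg s) (sq_nonneg t)]
  have h6 : s ≤ s * (1 + s * s * t ^ 2) := le_mul_of_one_le_right (by linarith)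
    (by nlinarith [mul_nonneg (mul_self_nonneg s) (sq_nonneg t)])
  have h7 : (s * s) ^ (1 / 4 : ℝ) * T ≤ s * (1 + s * s * t ^ 2) * T := by gcongr; linarith
  nlinarith [mul_le_mul_of_nonneg_left h4 hM, mul_le_mul_of_nonneg_left h5 hM,
    mul_nonneg hM (by linarith : 0 ≤ s * (1 + s * s * t ^ 2))]

omit [MeasurableSpace E] [BorelSpace E] [FiniteDimensional ℂ F] in
theorem rr_bound (h : Dat 𝒲 A q K a M) (hϑ : ContDiff ℝ ∞ ϑ) (h1 : ∀ y, |ϑ y| ≤ 1) {T : ℝ}
    (hT : ∀ y, ‖fderiv ℝ ϑ y‖ ≤ T) (hg : 1 ≤ g) (hx : U.starProjection x ∈ K) :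
    ∃ e₀ ≥ (0 : ℝ), (e₀ * (1 + g * ‖𝒲.starProjection x‖ ^ 2)) ^ 2 = gw 𝒲 a g (𝒲.starProjection x) ∧
      |rr U 𝒲 A ϑ g x| ≤ e₀ ∧ ∀ e, ‖e‖ ≤ 1 → |fderiv ℝ (rr U 𝒲 A ϑ g) x e| ≤
        e₀ * ((T + 2 * M) * (√g * (1 + g * ‖𝒲.starProjection x‖ ^ 2))) := by
  have hg0 : 0 < g := by linarith
  have hM : 0 ≤ M := (norm_nonneg _).trans (h.bd _ hx).1
  have hT0 : 0 ≤ T := (norm_nonneg _).trans (hT 0)
  have hA := (h.sA _ hx).differentiableAt (by simp)
  obtain ⟨L, hL, hb⟩ := quad_rule (A := fun y => A (U.starProjection y)) (P := 𝒲.starProjection)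
    (x := x) (hA.comp x U.starProjection.differentiableAt) (h.bd _ hx).1
    (fd_comp hA (h.bd _ hx).2.1) 𝒲.starProjection_norm_le
  have hd : HasFDerivAt (rr U 𝒲 A ϑ g) _ x :=
    ((((hϑ.differentiable (by simp)) _).hasFDerivAt.comp x
      ((𝒲.starProjection.hasFDerivAt (x := x)).const_smul (g ^ (1 / 4 : ℝ)))).mul
        (hL.const_mul (-(g / 2))).exp).const_mul (g ^ ((Module.finrank ℝ 𝒲 : ℝ) / 4))
  have hp : 0 ≤ g ^ ((Module.finrank ℝ 𝒲 : ℝ) / 4) := by positivity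
  have he : Real.exp (-(g / 2) * ⟪𝒲.starProjection x, A (U.starProjection x)
      (𝒲.starProjection x)⟫) ≤ Real.exp (-(a * (g * ‖𝒲.starProjection x‖ ^ 2)) / 2) := by
    have := mul_le_mul_of_nonneg_left (h.pos _ hx _ (𝒲.starProjection_apply_mem x)) hg0.le
    exact Real.exp_le_exp.2 (by linarith)
  refine ⟨g ^ ((Module.finrank ℝ 𝒲 : ℝ) / 4) *
    Real.exp (-(a * (g * ‖𝒲.starProjection x‖ ^ 2)) / 2), by positivity, ?_, ?_, fun e he1 => ?_⟩
  · rw [gw, mul_pow, mul_pow, GauAux.rpow_sq hg0, sq (Real.exp _), ← Real.exp_add, add_halves]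
    ring
  · rw [rr, abs_mul, abs_mul, abs_of_nonneg hp, abs_of_pos (Real.exp_pos _)]
    gcongr
    exact (mul_le_of_le_one_left (Real.exp_pos _).le (h1 _)).trans he
  · rw [hd.fderiv]
    simp only [smul_apply, add_apply, smul_eq_mul, ContinuousLinearMap.comp_apply,
      Function.comp_apply, Pi.smul_apply, map_smul]
    rw [abs_mul, abs_of_nonneg hp, mul_assoc]
    gcongr
    refine (abs_add_le _ _).trans (le_trans ?_ (mul_le_mul he (num1 hg (norm_nonneg _) hM hT0)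
      (by positivity) (Real.exp_pos _).le))
    have b1 : |fderiv ℝ ϑ (g ^ (1 / 4 : ℝ) • 𝒲.starProjection x) (𝒲.starProjection e)| ≤ T := by
      refine ((fderiv ℝ ϑ _).le_opNorm _).trans ?_
      have := (𝒲.norm_starProjection_apply_le e).trans he1
      nlinarith [hT (g ^ (1 / 4 : ℝ) • 𝒲.starProjection x), norm_nonneg (𝒲.starProjection e)]
    have b2 := hb e he1
    have b3 := h1 (g ^ (1 / 4 : ℝ) • 𝒲.starProjection x)
    simp only [abs_mul, abs_neg, abs_of_pos (Real.exp_pos _), abs_of_pos (half_pos hg0),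
      abs_of_pos (Real.rpow_pos_of_pos hg0 _)]
    rw [mul_add, add_comm]
    refine add_le_add (by gcongr) ((mul_le_of_le_one_left (by positivity) b3).trans ?_)
    gcongr
    linarith [mul_le_mul_of_nonneg_left b2 hg0.le]

theorem ff_bound (h : Dat 𝒲 A q K a M) (hϑ : ContDiff ℝ ∞ ϑ) (h1 : ∀ y, |ϑ y| ≤ 1) {T : ℝ}
    (hT : ∀ y, ‖fderiv ℝ ϑ y‖ ≤ T) (hB : ContDiff ℝ ∞ B) (hg : 1 ≤ g)
    (hx : U.starProjection x ∈ K) :
    ‖ff S U 𝒲 A q ϑ B g x‖ ^ 2 ≤ M ^ 2 * (‖B (S.starProjection (U.starProjection x))‖ ^ 2 *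
      gw 𝒲 a g (𝒲.starProjection x)) ∧
    ∀ e, ‖e‖ ≤ 1 → ‖fderiv ℝ (ff S U 𝒲 A q ϑ B g) x e‖ ^ 2 ≤ 2 * (M * (T + 2 * M + 1)) ^ 2 *
      ((g * ‖B (S.starProjection (U.starProjection x))‖ ^ 2 +
        gsq S B (S.starProjection (U.starProjection x))) * gw 𝒲 a g (𝒲.starProjection x)) := by
  obtain ⟨e₀, he₀, e1, e2, e3⟩ := rr_bound (U := U) h hϑ h1 hT hg hx
  obtain ⟨-, -, q1, q2⟩ := h.bd _ hx
  have hM : 0 ≤ M := (norm_nonneg _).trans q1
  have hT0 : 0 ≤ T := (norm_nonneg _).trans (hT 0)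
  have hs : 1 ≤ √g := Real.one_le_sqrt.2 hg
  have hu : 1 ≤ 1 + g * ‖𝒲.starProjection x‖ ^ 2 := le_add_of_nonneg_right (by positivity)
  rw [← e1]
  generalize 1 + g * ‖𝒲.starProjection x‖ ^ 2 = u at *
  refine ⟨?_, fun e he => ?_⟩
  · have : ‖ff S U 𝒲 A q ϑ B g x‖ ≤ M * (‖B (S.starProjection (U.starProjection x))‖ *
        (e₀ * u)) := by
      rw [ff, norm_smul, Complex.norm_real, Real.norm_eq_abs]
      calc _ ≤ (e₀ * u) * (M * ‖B (S.starProjection (U.starProjection x))‖) := by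
            gcongr
            · exact e2.trans (le_mul_of_one_le_right he₀ hu)
            · exact ((q _).le_opNorm _).trans (by gcongr)
        _ = _ := by ring
    calc _ ≤ _ := pow_le_pow_left₀ (norm_nonneg _) this 2
      _ = _ := by ring
  · have hq := (h.sq _ hx).differentiableAt (by simp)
    have hB' := hB.differentiable (by simp)
    have hP := (S.starProjection ∘L U.starProjection).hasFDerivAt (x := x)
    have hd := (hB' (S.starProjection (U.starProjection x))).hasFDerivAt.comp x hP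
    have p := prod_rule (r := rr U 𝒲 A ϑ g) (Q := fun y => q (U.starProjection y))
      (B := fun y => B (S.starProjection (U.starProjection y)))
      ((rr_smooth h hϑ hx).differentiableAt (by simp))
      (hq.comp x U.starProjection.differentiableAt) hd.differentiableAt e
    have b1 : ‖fderiv ℝ (fun y => q (U.starProjection y)) x e‖ ≤ M :=
      (ContinuousLinearMap.le_opNorm _ _).trans (by
        have := fd_comp hq q2
        nlinarith [norm_nonneg (fderiv ℝ (fun y => q (U.starProjection y)) x), norm_nonneg e])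
    have b2 : ‖fderiv ℝ (fun y => B (S.starProjection (U.starProjection y))) x e‖ ≤
        √(gsq S B (S.starProjection (U.starProjection x))) := by
      rw [hd.fderiv (f := fun y => B (S.starProjection (U.starProjection y)))]
      refine Real.le_sqrt_of_sq_le ((norm_fderiv_sq_le B _
        (S.starProjection_apply_mem (U.starProjection e))).trans ?_)
      refine mul_le_of_le_one_left (gsq_nonneg _ _ _) (pow_le_one₀ (norm_nonneg _) ?_)
      exact (S.norm_starProjection_apply_le _).trans ((U.norm_starProjection_apply_le _).trans he)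
    have b3 := e3 e he
    have b4 := Real.sq_sqrt (gsq_nonneg S B (S.starProjection (U.starProjection x)))
    have b5 := Real.sq_sqrt (by linarith : 0 ≤ g)
    have b6 := Real.sqrt_nonneg (gsq S B (S.starProjection (U.starProjection x)))
    have b7 := norm_nonneg (B (S.starProjection (U.starProjection x)))
    change ‖fderiv ℝ (ff S U 𝒲 A q ϑ B g) x e‖ ≤ _ at p
    have p' : ‖fderiv ℝ (ff S U 𝒲 A q ϑ B g) x e‖ ≤ e₀ * ((T + 2 * M) * (√g * u)) *
        (M * ‖B (S.starProjection (U.starProjection x))‖) + e₀ *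
          (M * ‖B (S.starProjection (U.starProjection x))‖ +
            M * √(gsq S B (S.starProjection (U.starProjection x)))) := p.trans (by gcongr)
    rw [← b4]
    generalize √(gsq S B (S.starProjection (U.starProjection x))) = r at *
    generalize ‖B (S.starProjection (U.starProjection x))‖ = t at *
    generalize √g = s at *
    have c1 : t ≤ s * u * t := le_mul_of_one_le_left b7 (one_le_mul_of_one_le_of_one_le hs hu)
    have c2 : r ≤ (T + 2 * M + 1) * u * r :=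
      le_mul_of_one_le_left b6 (one_le_mul_of_one_le_of_one_le (by linarith) hu)
    have p'' : ‖fderiv ℝ (ff S U 𝒲 A q ϑ B g) x e‖ ≤
        M * (T + 2 * M + 1) * (e₀ * u) * (s * t + r) := by
      have := mul_nonneg he₀ hM
      nlinarith [mul_le_mul_of_nonneg_left c1 this, mul_le_mul_of_nonneg_left c2 this]
    calc _ ≤ _ := pow_le_pow_left₀ (norm_nonneg _) p'' 2
      _ = (M * (T + 2 * M + 1) * (e₀ * u)) ^ 2 * (s * t + r) ^ 2 := by ring
      _ ≤ (M * (T + 2 * M + 1) * (e₀ * u)) ^ 2 * (2 * ((s * t) ^ 2 + r ^ 2)) := by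
          gcongr; nlinarith [sq_nonneg (s * t - r)]
      _ = _ := by rw [mul_pow s, b5]; ring

theorem core (hS : S ≤ U) (hU : U ⟂ 𝒲) (hY : U ⊔ 𝒲 = Y) (h : Dat 𝒲 A q K a M) (ha : 0 < a)
    (hK : IsCompact K) (hϑ : ContDiff ℝ ∞ ϑ) (h1 : ∀ y, |ϑ y| ≤ 1) {T : ℝ}
    (hT : ∀ y, ‖fderiv ℝ ϑ y‖ ≤ T) {b : E → F} (hb : Sm S b) : ∃ C : ℝ, ∀ g, 1 ≤ g →
      (∀ X ∈ U, X ∉ K → q X (dil S (ell g) b (S.starProjection X)) = 0) →
      ContDiff ℝ ∞ (ff S U 𝒲 A q ϑ (dil S (ell g) b) g) ∧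
        nrm Y (ff S U 𝒲 A q ϑ (dil S (ell g) b) g) ≤ C ∧
        grad Y (ff S U 𝒲 A q ϑ (dil S (ell g) b) g) ≤ C * g := by
  obtain ⟨R, hR⟩ := hK.isBounded.exists_norm_le
  obtain ⟨M₁, hM₁, w, w0, w1, hw⟩ := slab hS R
  obtain ⟨M₂, hM₂, hgw⟩ := int_gw 𝒲 ha
  have n0 := nrm_nonneg S b
  have g0 := grad_nonneg S b
  obtain ⟨L, hL0, hL⟩ : ∃ L ≥ (0 : ℝ), M ^ 2 ≤ L ∧
      Module.finrank ℝ Y * (2 * (M * (T + 2 * M + 1)) ^ 2) ≤ L :=
    ⟨_, le_max_of_le_left (sq_nonneg M), le_max_left _ _, le_max_right _ _⟩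
  refine ⟨L * ((nrm S b + grad S b) * M₁ * M₂), fun g hg h0 => ?_⟩
  have hg0 : 0 < g := by linarith
  have hl := ell_pos hg0
  have hB : Sm S (dil S (ell g) b) :=
    (dil_mem_Tst (C := ∅) hl ⟨hb, fun _ hc => hc.elim⟩).1
  have hz : ∀ x, U.starProjection x ∉ K →
      ff S U 𝒲 A q ϑ (dil S (ell g) b) g =ᶠ[𝓝 x] fun _ => 0 := fun x hx => by
    filter_upwards [U.starProjection.continuous.continuousAt.eventually
      (hK.isClosed.isOpen_compl.mem_nhds hx)] with y hy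
    rw [ff, h0 _ (U.starProjection_apply_mem y) hy, smul_zero]
  have gw0 : ∀ x, 0 ≤ gw 𝒲 a g x := fun x => by rw [gw]; positivity
  have key : ∀ (f a' : E → ℝ), (∀ x, 0 ≤ f x) → (∀ x, 0 ≤ a' x) → (Integrable fun x : S => a' x) →
      (∀ x, U.starProjection x ∉ K → f x = 0) → (∀ x, U.starProjection x ∈ K → f x ≤
        L * (a' (S.starProjection (U.starProjection x)) * gw 𝒲 a g (𝒲.starProjection x))) →
      ∫ x : Y, f x ≤ L * ((∫ x : S, a' x) * M₁ * M₂) := by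
    intro f a' f0 a0 ai fz fb
    obtain ⟨i1, i2⟩ := prod2 hU hY (a := fun x => a' (S.starProjection x) * w x) (hw a' ai).1
      (hgw g hg0).1
    rw [(hw a' ai).2, (hgw g hg0).2] at i2
    rw [← i2, ← integral_const_mul]
    refine integral_mono_of_nonneg (.of_forall fun x => f0 x) (i1.const_mul L)
      (.of_forall fun x => ?_)
    have := a0 (S.starProjection (U.starProjection x))
    have := gw0 (𝒲.starProjection x)
    by_cases hx : U.starProjection x ∈ K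
    · refine (fb x hx).trans ?_
      beta_reduce
      gcongr
      exact le_mul_of_one_le_right (a0 _) (w1 _ (hR _ hx))
    · have := w0 (U.starProjection x)
      simp only [fz x hx]; positivity
  have i1 : Integrable fun x : S => ‖dil S (ell g) b x‖ ^ 2 := by
    simpa using hB.integrable_wnrm (w := fun _ => 1) continuousOn_const
  have i2 : Integrable fun x : S => gsq S (dil S (ell g) b) x := by
    simpa using hB.integrable_wgsq (w := fun _ => 1) continuousOn_const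
  refine ⟨contDiff_iff_contDiffAt.2 fun x => ?_, ?_, ?_⟩
  · by_cases hx : U.starProjection x ∈ K
    · exact ff_smooth h hϑ hB.1 hx
    · exact contDiffAt_const.congr_of_eventuallyEq (hz x hx)
  · refine (key (fun x => ‖ff S U 𝒲 A q ϑ (dil S (ell g) b) g x‖ ^ 2)
      (fun x => ‖dil S (ell g) b x‖ ^ 2) (fun _ => sq_nonneg _) (fun _ => sq_nonneg _) i1
      (fun x hx => by simp [(hz x hx).eq_of_nhds]) fun x hx =>
        (ff_bound h hϑ h1 hT hB.1 hg hx).1.trans ?_).trans ?_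
    · have := gw0 (𝒲.starProjection x)
      gcongr
      exact hL.1
    · have e : ∫ x : S, ‖dil S (ell g) b x‖ ^ 2 = nrm S b := nrm_dil S hl b
      rw [e]
      gcongr
      linarith
  · refine (key (gsq Y (ff S U 𝒲 A q ϑ (dil S (ell g) b) g))
      (fun x => g * ‖dil S (ell g) b x‖ ^ 2 + gsq S (dil S (ell g) b) x)
      (gsq_nonneg _ _) (fun x => add_nonneg (by positivity) (gsq_nonneg _ _ _))
      ((i1.const_mul g).add i2) (fun x hx => by simp [gsq, (hz x hx).fderiv_eq])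
      fun x hx => ?_).trans ?_
    · have := gw0 (𝒲.starProjection x)
      have := gsq_nonneg S (dil S (ell g) b) (S.starProjection (U.starProjection x))
      refine (Finset.sum_le_sum fun k _ => (ff_bound h hϑ h1 hT hB.1 hg hx).2 _ ?_).trans ?_
      · exact ((stdOrthonormalBasis ℝ Y).orthonormal.1 k).le
      · rw [Finset.sum_const, Finset.card_univ, Fintype.card_fin, nsmul_eq_mul, ← mul_assoc]
        gcongr
        exact hL.2
    · have e1 : ∫ x : S, ‖dil S (ell g) b x‖ ^ 2 = nrm S b := nrm_dil S hl b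
      have e2 : ∫ x : S, gsq S (dil S (ell g) b) x = grad S b / ell g ^ 2 := grad_dil S hl b
      have e3 : grad S b / ell g ^ 2 ≤ g * grad S b := by
        rw [div_le_iff₀ (by positivity)]
        have l1 : ell g ≤ 1 := Real.rpow_le_one_of_one_le_of_nonpos hg (by norm_num)
        have l2 : 1 ≤ g * ell g ^ 2 := by
          rw [← mul_ell_pow hg0]; gcongr ?_ * ?_; exact pow_le_pow_of_le_one hl.le l1 (by norm_num)
        nlinarith
      rw [integral_add (i1.const_mul g) i2, integral_const_mul, e1, e2]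
      calc _ ≤ L * ((g * nrm S b + g * grad S b) * M₁ * M₂) := by gcongr
        _ = _ := by ring

end Vale.Agent.P353.La1Aux
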