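import Vale.Agent.P353.Stmts
import Vale.Agent.P353.Gau
import Vale.Agent.P353.La1Aux

/-! Cluster test functions. -/

noncomputable section

open MeasureTheory Filter Topology Complex Matrix
open scoped ContDiff RealInnerProductSpace

namespace Vale.Agent.P353

namespace La1Aux

variable {N d : ℕ} {F : Type} [NormedAddCommGroup F] [InnerProductSpace ℂ F]
  [FiniteDimensional ℂ F] (c : Ctx N d F) {π π' : Setoid (Fin N)} {𝔞 : Submodule ℝ (Lg d)}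
  {v : Fin 9 → ℝ}

theorem sl_ortho (𝔞 : Submodule ℝ (Lg d)) (π π' : Setoid (Fin N)) (v : Fin 9 → ℝ) :
    c.Sl 𝔞 π' ⟂ Wsl (c.off π π') v :=
  (sub_isOrtho ((c.off_isOrtho_blk π π').symm.mono_left inf_le_right)).mono_right inf_le_left

theorem cs_sup (h : c.Th π 𝔞) (h' : π' ≤ π) : c.CS 𝔞 π' ⊔ sub 9 (c.ss π') = c.Sl 𝔞 π' := by
  rw [Ctx.CS, ← sub_sup, h.cen_sup_ss c h']

theorem off_iff (h : π' ≤ π) {u : UN N} (hu : u ∈ Grp π') (x : Lg d) :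
    c.Ad u x ∈ c.off π π' ↔ x ∈ c.off π π' :=
  c.Ad_mem_iff (fun _ hx => c.Ad_mem_off h hu hx) x

theorem vf_zero (h : π' ≤ π) {y : Tn 9 d} (hy : y ∈ sub 9 (c.cen π')) {ζ : Lg d}
    (hζ : ζ ∈ c.blk π ⊓ (c.off π π')ᗮ) : c.vf ζ y = 0 := by
  have h1 : ζ ∈ c.blk π' ⊔ c.off π π' := c.blk_sup_off h ▸ hζ.1
  obtain ⟨a, ha, b, hb, rfl⟩ := Submodule.mem_sup.1 h1
  have h2 : b = 0 := by
    have h3 := Submodule.inner_right_of_mem_orthogonal hb hζ.2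
    rw [inner_add_right, (c.off_isOrtho_blk π π').inner_eq hb ha, zero_add] at h3
    exact inner_self_eq_zero.1 h3
  refine ext_cmp fun i => ?_
  rw [h2, add_zero, Ctx.vf, cmp_kr_one, c.ad_anti, (c.mem_cen_iff _).1 (mem_sub.1 hy i) a ha]
  simp

theorem P0_le {𝔟 𝔟' : Submodule ℝ (Lg d)} (h : 𝔟 ≤ 𝔟') {a : F} (ha : c.P0 𝔟' a = a) :
    c.P0 𝔟 a = a := by
  have h1 : c.P0 𝔟' = c.P0 𝔟 * c.P0 (𝔟ᗮ ⊓ 𝔟') := by
    rw [← c.P0_sup ((Submodule.isOrtho_orthogonal_right 𝔟).mono_right inf_le_left),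
      Submodule.sup_orthogonal_inf_of_hasOrthogonalProjection h]
  have h2 : c.P0 𝔟 * c.P0 𝔟' = c.P0 𝔟' := by rw [h1, ← mul_assoc, Ctx.P0, vac_idem]
  rw [← ha, ← mul_apply_eq_comp, h2]

/-- the slow factor -/
def qq (π π' : Setoid (Fin N)) (v : Fin 9 → ℝ) (η : Tn 9 d → ℝ) (X : Tn 9 d) : F →L[ℂ] F :=
  ((gnorm (Wsl (c.off π π') v) (c.Aw (c.off π π') X) *
    η ((c.CS (c.ss π) π').starProjection X) : ℝ) : ℂ) • c.Pw (c.off π π') X

theorem ff_eq {g : ℝ} (hg : 0 < g) (η ϑ : Tn 9 d → ℝ) (b : Tn 9 d → F) {X W : Tn 9 d}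
    (hX : X ∈ c.Sl (c.ss π) π') (hW : W ∈ Wsl (c.off π π') v) :
    ff (sub 9 (c.ss π')) (c.Sl (c.ss π) π') (Wsl (c.off π π') v) (c.Aw (c.off π π'))
      (qq c π π' v η) ϑ (dil (sub 9 (c.ss π')) (ell g) b) g (X + W) =
      c.Tf π π' v g η ϑ b X W := by
  rw [ff, rr, proj_left (sl_ortho c _ π π' v) hX hW, proj_right (sl_ortho c _ π π' v) hX hW, qq,
    Ctx.Tf, Ctx.Gg, gauss_eq _ _ hg, _root_.smul_apply, smul_smul, ← Complex.ofReal_mul]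
  congr 2
  ring

theorem Tf_cov (h_lmea : c.S_lmea) (h : π' ≤ π) {g : ℝ} (hg : 0 < g) (η : Tn 9 d → ℝ)
    {ϑ : Tn 9 d → ℝ} (hϑ : ∀ x y, ‖x‖ = ‖y‖ → ϑ x = ϑ y) {b : Tn 9 d → F} (hb : b ∈ c.D0 π')
    {u : UN N} (hu : u ∈ Grp π') {X : Tn 9 d} (hX : X ∈ c.Sl (c.ss π) π') (W : Tn 9 d) :
    c.Tf π π' v g η ϑ b (c.Ad9 u X) (c.Ad9 u W) = c.U u (c.Tf π π' v g η ϑ b X W) := by
  have h1 : X ∈ c.CS (c.ss π) π' ⊔ sub 9 (c.ss π') := cs_sup c (c.Th_ss π) h ▸ hX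
  obtain ⟨y, hy, σ, hσ, rfl⟩ := Submodule.mem_sup.1 h1
  have ho := Cov4Aux.CS_ortho c (c.ss π) π'
  have h2 : c.Ad9 u y = y := Cov4Aux.kr_cen c hu (sub_mono inf_le_right hy)
  have h3 : c.Ad9 u σ ∈ sub 9 (c.ss π') := (c.Th_ss π').Ad9_mem c hu hσ
  have h4 : c.Ad9 u (y + σ) = y + c.Ad9 u σ := by rw [map_add, h2]
  have h5 := (c.mem_D.1 (c.mem_D0.1 (dil_mem_Tst (ell_pos hg) hb)).1).2 u hu σ hσ
  have h6 : ϑ (g ^ (1 / 4 : ℝ) • c.Ad9 u W) = ϑ (g ^ (1 / 4 : ℝ) • W) :=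
    hϑ _ _ (by rw [norm_smul, norm_smul, c.norm_Ad9])
  rw [Ctx.Tf, Ctx.Tf, h_lmea.G u _ _ (off_iff c h hu), h6, map_smul, ← mul_apply_eq_comp (c.U u),
    ← h_lmea.P u _ _ (off_iff c h hu), h4, proj_left ho hy h3, proj_right ho hy h3,
    proj_left ho hy hσ, proj_right ho hy hσ, h5]
  rfl

theorem Tf_P0 (h_lm1 : c.S_lm1) (h : π' ≤ π) {g : ℝ} (hg : 0 < g) (η ϑ : Tn 9 d → ℝ)
    {b : Tn 9 d → F} (hb : b ∈ c.D0 π') {X : Tn 9 d} (hX : X ∈ c.Ow (c.off π π') v) (W : Tn 9 d) :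
    c.P0 (c.ss π)ᗮ (c.Tf π π' v g η ϑ b X W) = c.Tf π π' v g η ϑ b X W := by
  have h1 := (c.mem_D0.1 (dil_mem_Tst (ell_pos hg) hb)).2 _
    ((sub 9 (c.ss π')).starProjection_apply_mem X)
  have h2 := P0_le c (Submodule.orthogonal_le (c.ss_mono h)) h1
  have h3 := h_lm1.P_P0 _ v X hX (c.ss π)ᗮ
    ((Submodule.isOrtho_orthogonal_left _).mono_right (c.off_le_ss h))
  rw [Ctx.Tf, map_smul, ← mul_apply_eq_comp, ← h3, mul_apply_eq_comp, h2]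

theorem dil_supp {E : Type} [NormedAddCommGroup E] [InnerProductSpace ℝ E] {S : Submodule ℝ E}
    {b : E → F} {R l : ℝ} (hl : 0 < l) (hb : ∀ x ∈ S, R < ‖x‖ → b x = 0) {x : E} (hx : x ∈ S)
    (h : dil S l b x ≠ 0) : ‖x‖ ≤ l * R := by
  by_contra h'
  refine h ?_
  rw [dil, hb _ (S.smul_mem _ hx), smul_zero]
  rw [norm_smul, norm_inv, Real.norm_of_nonneg hl.le, lt_inv_mul_iff₀ hl]
  exact not_le.1 h'

end La1Aux

open La1Aux

namespace Ctx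

variable {N d : ℕ} {F : Type} [NormedAddCommGroup F] [InnerProductSpace ℂ F]
  [FiniteDimensional ℂ F] (c : Ctx N d F)

theorem p_la1 (h_lm1 : c.S_lm1) (h_lmea : c.S_lmea) (h_orb : c.S_orb)
    (h_ext : c.S_ext) : c.S_la1 := by
  intro π π' v hL y₀ hy₀ hO
  have hπ := hL.2.1
  have hy₀c : y₀ ∈ sub 9 (c.cen π') := sub_mono inf_le_right hy₀
  have hCS := cs_sup c (c.Th_ss π) hπ
  have ho := Cov4Aux.CS_ortho c (c.ss π) π'
  have hUW := sl_ortho c (c.ss π) π π' v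
  have hstab := h_orb.stab π π' y₀ hy₀c
    (h_orb.gen π π' π' v hπ le_rfl y₀ hy₀c hO fun a b h h' => (h' h).elim)
  have hAX : ∀ u ∈ Grp π', ∀ X ∈ c.Sl (c.ss π) π', c.Ad9 u X ∈ c.Sl (c.ss π) π' :=
    fun u hu X hX => ((c.Th_ss π).inf c hπ).Ad9_mem c hu hX
  have hAW : ∀ u ∈ Grp π', ∀ W ∈ Wsl (c.off π π') v, c.Ad9 u W ∈ Wsl (c.off π π') v :=
    fun u hu W hW => (h_lmea.W u _ _ (off_iff c hπ hu) v W).2 hW
  obtain ⟨r₁, hr₁, K₁, hext⟩ := h_ext π _ _ _ y₀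
    (h_orb.trans π _ π' v hL y₀ (hCS ▸ Submodule.mem_sup_left hy₀) hO)
    (fun u hu h y hy => by
      obtain ⟨X, hX, W, hW, rfl⟩ := Submodule.mem_sup.1 hy
      rw [map_add]
      exact Submodule.add_mem_sup (hAX u (hstab u hu h) X hX) (hAW u (hstab u hu h) W hW))
    fun ζ hζ => vf_zero c hπ hy₀c hζ
  obtain ⟨r₂, hr₂, hball⟩ := Metric.nhds_basis_closedBall.mem_iff.1
    ((h_lm1.isOpen _ v).mem_nhds hO)
  obtain ⟨r, hr, hr1, hr2⟩ : ∃ r > (0 : ℝ), 2 * r ≤ r₁ ∧ 2 * r ≤ r₂ :=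
    ⟨min r₁ r₂ / 2, half_pos (lt_min hr₁ hr₂), by linarith [min_le_left r₁ r₂],
      by linarith [min_le_right r₁ r₂]⟩
  refine ⟨r, hr, fun b hb ϑ hϑ η hη => ?_⟩
  obtain ⟨K₀, -, hK₀, -, hη0⟩ := hη.2
  have hbS : Sm (sub 9 (c.ss π')) b := hb.1
  obtain ⟨R, hR⟩ := hbS.exists_bound
  have hK := isCompact_closedBall y₀ r₂
  obtain ⟨a, ha, M₀, hA⟩ := h_lm1.A_unif _ v _ hK hball
  obtain ⟨M, hD⟩ := exists_dat (q := qq c π π' v η) hK (fun X hX => h_lm1.sm_A _ v X (hball hX))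
    (fun X hX => (Complex.ofRealCLM.contDiff.contDiffAt.comp X
      (((contDiffAt_gnorm ha (hA X hX).2).comp X (h_lm1.sm_A _ v X (hball hX))).mul
        (hη.1.comp (c.CS (c.ss π) π').starProjection.contDiff).contDiffAt)).smul
          (h_lm1.sm_P _ v X (hball hX))) fun X hX => (hA X hX).2
  obtain ⟨T, hT⟩ : ∃ T, ∀ y, ‖fderiv ℝ ϑ y‖ ≤ T :=
    (hϑ.1.continuous_fderiv (by simp)).bounded_above_of_compact_support
      ((HasCompactSupport.intro (isCompact_closedBall 0 1) fun x hx => hϑ.2.2.2.2 x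
        (by simpa using (not_le.1 (mt mem_closedBall_zero_iff.2 hx)).le)).fderiv ℝ)
  obtain ⟨C, hC⟩ := core (hCS ▸ le_sup_right) hUW rfl hD ha hK hϑ.1
    (fun y => abs_le.2 ⟨by linarith [(hϑ.2.2.1 y).1], (hϑ.2.2.1 y).2⟩) hT hbS
  -- supports
  have s1 : ∀ g > 0, ∀ X ∈ c.Sl (c.ss π) π', η ((c.CS (c.ss π) π').starProjection X) ≠ 0 →
      dil (sub 9 (c.ss π')) (ell g) b ((sub 9 (c.ss π')).starProjection X) ≠ 0 →
      ‖X - (c.CS (c.ss π) π').starProjection X‖ ≤ ell g * R ∧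
        ‖(c.CS (c.ss π) π').starProjection X - y₀‖ < r := fun g hg X hX h1 h2 => by
    refine ⟨?_, mem_ball_iff_norm.1 (hK₀ (by_contra fun h =>
      h1 (hη0 _ (Submodule.starProjection_apply_mem _ X) h)))⟩
    rw [sub_eq_of_eq_add' (proj_add ho hCS hX).symm]
    exact dil_supp (ell_pos hg) hR (Submodule.starProjection_apply_mem _ X) h2
  have s2 : ∀ g > 0, ∀ X ∈ c.Sl (c.ss π) π', ∀ W, c.Tf π π' v g η ϑ b X W ≠ 0 →
      η ((c.CS (c.ss π) π').starProjection X) ≠ 0 ∧ ‖W‖ ≤ g ^ (-(1 / 4 : ℝ)) ∧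
      ‖X - (c.CS (c.ss π) π').starProjection X‖ ≤ ell g * R ∧
        ‖(c.CS (c.ss π) π').starProjection X - y₀‖ < r := fun g hg X hX W h => by
    have h1 : η ((c.CS (c.ss π) π').starProjection X) ≠ 0 := fun h' => h (by simp [Ctx.Tf, h'])
    refine ⟨h1, ?_, s1 g hg X hX h1 fun h' => h (by rw [Ctx.Tf, h', map_zero, smul_zero])⟩
    have h2 : ‖g ^ (1 / 4 : ℝ) • W‖ < 1 := by_contra fun h' =>
      h (by rw [Ctx.Tf, hϑ.2.2.2.2 _ (not_lt.1 h')]; simp)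
    rw [norm_smul, Real.norm_of_nonneg (by positivity)] at h2
    rw [Real.rpow_neg hg.le, ← one_div, le_div_iff₀' (by positivity)]
    exact h2.le
  have hs : Tendsto (fun g : ℝ => ell g * R + g ^ (-(1 / 4 : ℝ))) atTop (𝓝 0) := by
    simpa using (tendsto_ell.mul_const R).add (tendsto_rpow_neg_atTop (y := 1 / 4) (by norm_num))
  have H : ∀ g : ℝ, ∃ φ : Tn 9 d → F, 1 ≤ g → ell g * R + g ^ (-(1 / 4 : ℝ)) ≤ r →
      (φ ∈ c.D0 π ∧ c.NG (c.ss π) g φ ≤ |K₁| * (3 * C) ∧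
        ∀ X ∈ c.Sl (c.ss π) π', ∀ W ∈ Wsl (c.off π π') v, ‖X + W - y₀‖ < 3 * r →
          φ (X + W) = c.Tf π π' v g η ϑ b X W) ∧
      ∀ x ∈ sub 9 (c.ss π), φ x ≠ 0 → ∃ u ∈ Grp π, ∃ y ∈ c.CS (c.ss π) π', η y ≠ 0 ∧
        ‖x - c.Ad9 u y‖ ≤ ell g * R + g ^ (-(1 / 4 : ℝ)) := by
    intro g
    by_cases hg' : 1 ≤ g ∧ ell g * R + g ^ (-(1 / 4 : ℝ)) ≤ r
    swap
    · exact ⟨0, fun h1 h2 => (hg' ⟨h1, h2⟩).elim⟩
    obtain ⟨hg, hgr⟩ := hg'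
    have hg0 : 0 < g := by linarith
    have hp : 0 ≤ g ^ (-(1 / 4 : ℝ)) := by positivity
    have tri : ∀ X y : Tn 9 d, ‖X - y‖ ≤ ell g * R → ‖y - y₀‖ < r →
        X ∈ Metric.closedBall y₀ r₂ := fun X y h1 h2 => by
      have := norm_sub_le_norm_sub_add_norm_sub X y y₀
      rw [mem_closedBall_iff_norm]
      linarith
    have tri' : ∀ X W y : Tn 9 d, ‖X + W - y‖ ≤ ‖X - y‖ + ‖W‖ := fun X W y => by
      rw [add_sub_right_comm]; exact norm_add_le _ _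
    obtain ⟨f1, f2, f3⟩ := hC g hg fun X hX hn => by_contra fun h => by
      obtain ⟨h1, h2⟩ := s1 g hg0 X hX (fun h' => h (by simp [qq, h']))
        fun h' => h (by rw [h', map_zero])
      exact hn (tri X _ h1 h2)
    have fe := fun X hX W hW => ff_eq c (π := π) (π' := π') (v := v) hg0 η ϑ b (X := X) (W := W)
      hX hW
    generalize ff (sub 9 (c.ss π')) (c.Sl (c.ss π) π') (Wsl (c.off π π') v) (c.Aw (c.off π π'))
      (qq c π π' v η) ϑ (dil (sub 9 (c.ss π')) (ell g) b) g = f at f1 f2 f3 fe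
    obtain ⟨φ, p1, p2, p3, p4, p5⟩ := hext f f1
      (fun y hy hr' => by
        obtain ⟨X, hX, W, hW, rfl⟩ := Submodule.mem_sup.1 hy
        rw [fe X hX W hW]
        by_contra h
        obtain ⟨-, h1, h2, h3⟩ := s2 g hg0 X hX W h
        have := norm_sub_le_norm_sub_add_norm_sub (X + W)
          ((c.CS (c.ss π) π').starProjection X) y₀
        have := tri' X W ((c.CS (c.ss π) π').starProjection X)
        linarith)
      fun u hu h y hy => by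
        obtain ⟨X, hX, W, hW, rfl⟩ := Submodule.mem_sup.1 hy
        have hu' := hstab u hu h
        rw [map_add, fe X hX W hW, fe _ (hAX u hu' X hX) _ (hAW u hu' W hW),
          Tf_cov c h_lmea hπ hg0 η hϑ.2.1 hb hu' hX]
    refine ⟨φ, fun _ _ => ⟨⟨c.mem_D0.2 ⟨p1, fun x hx => ?_⟩, ?_, fun X hX W hW h => ?_⟩,
      fun x hx h => ?_⟩⟩
    · by_cases h : φ x = 0
      · rw [h, map_zero]
      obtain ⟨u, hu, y, hy, h1, -, h2⟩ := p3 x hx h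
      obtain ⟨X, hX, W, hW, rfl⟩ := Submodule.mem_sup.1 hy
      rw [fe X hX W hW] at h1 h2
      obtain ⟨-, -, h3, h4⟩ := s2 g hg0 X hX W h1
      rw [h2, ← mul_apply_eq_comp, Cov4Aux.P0_U c hu, mul_apply_eq_comp,
        Tf_P0 c h_lm1 hπ hg0 η ϑ hb (hball (tri X _ h3 h4))]
    · have n0 := nrm_nonneg (c.Sl (c.ss π) π' ⊔ Wsl (c.off π π') v) f
      have g0 := grad_nonneg (c.Sl (c.ss π) π' ⊔ Wsl (c.off π π') v) f
      have k0 := le_abs_self K₁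
      have k1 := abs_nonneg K₁
      have q1 : nrm (sub 9 (c.ss π)) φ ≤ |K₁| * C := p4.trans (by gcongr)
      have q2 : grad (sub 9 (c.ss π)) φ ≤ |K₁| * (C * g + C * g) := p5.trans (by
        gcongr
        exact f2.trans (le_mul_of_one_le_right (n0.trans f2) hg))
      rw [Ctx.NG]
      have q3 : grad (sub 9 (c.ss π)) φ / g ≤ |K₁| * (2 * C) := by
        rw [div_le_iff₀ hg0]; linarith
      linarith
    · rw [p2 _ (Submodule.add_mem_sup hX hW) (by linarith), fe X hX W hW]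
    · obtain ⟨u, hu, y, hy, h1, rfl, -⟩ := p3 x hx h
      obtain ⟨X, hX, W, hW, rfl⟩ := Submodule.mem_sup.1 hy
      rw [fe X hX W hW] at h1
      obtain ⟨h2, h3, h4, -⟩ := s2 g hg0 X hX W h1
      refine ⟨u, hu, _, Submodule.starProjection_apply_mem _ X, h2, ?_⟩
      rw [← map_sub, c.norm_Ad9]
      linarith [tri' X W ((c.CS (c.ss π) π').starProjection X)]
  choose φ hφ using H
  have hev := (eventually_ge_atTop (1 : ℝ)).and (hs.eventually (ge_mem_nhds hr))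
  refine ⟨_, φ, hev.mono fun g hg => (hφ g hg.1 hg.2).1, fun δ hδ => ?_⟩
  filter_upwards [hev, hs.eventually (ge_mem_nhds hδ)] with g hg hgδ x hx h
  obtain ⟨u, hu, y, hy, h1, h2⟩ := (hφ g hg.1 hg.2).2 x hx h
  exact ⟨u, hu, y, hy, subset_closure ⟨hy, h1⟩, h2.trans hgδ⟩

end Ctx

end Vale.Agent.P353
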