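import Vale.Agent.P353.Stmts

/-! Amplitudes: integrability and linearity. -/

noncomputable section

open MeasureTheory Filter Topology Complex Matrix
open scoped ContDiff RealInnerProductSpace

namespace Vale.Agent.P353

namespace LamaAux

section Gen

variable {E : Type} [NormedAddCommGroup E] [InnerProductSpace ℝ E] [FiniteDimensional ℝ E]
  [MeasurableSpace E] [BorelSpace E]
variable {F : Type} [NormedAddCommGroup F] [InnerProductSpace ℂ F] [FiniteDimensional ℂ F]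
variable {U U₁ : Submodule ℝ E}

omit [InnerProductSpace ℂ F] [FiniteDimensional ℂ F] in
/-- a function of the projection is locally square integrable -/
theorem memLp_ball (h : U₁ ≤ U) {b : E → F} (hb : MemLp (fun x : U₁ => b x) 2 volume) (R : ℝ) :
    ∃ f : U → F, MemLp f 2 volume ∧ ∀ x : U, ‖(x : E)‖ ≤ R → f x = b (U₁.starProjection x) := by
  have ho : U₁ ⟂ U₁ᗮ ⊓ U := (Submodule.isOrtho_orthogonal_right U₁).mono_right inf_le_left
  obtain ⟨e, he, hm, -⟩ := measurePreserving_sup ho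
    (Submodule.sup_orthogonal_inf_of_hasOrthogonalProjection h)
  have hfin : IsFiniteMeasure ((volume : Measure ↥(U₁ᗮ ⊓ U)).restrict (Metric.closedBall 0 R)) :=
    ⟨by
      rw [Measure.restrict_apply_univ]
      exact (isCompact_closedBall _ _).measure_lt_top⟩
  have h1 := hb.comp_fst ((volume : Measure ↥(U₁ᗮ ⊓ U)).restrict (Metric.closedBall 0 R))
  have h2 : (volume : Measure U₁).prod
      ((volume : Measure ↥(U₁ᗮ ⊓ U)).restrict (Metric.closedBall 0 R)) =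
      (volume : Measure (U₁ × ↥(U₁ᗮ ⊓ U))).restrict (Set.univ ×ˢ Metric.closedBall 0 R) := by
    rw [Measure.volume_eq_prod, ← Measure.prod_restrict, Measure.restrict_univ]
  rw [h2, ← memLp_indicator_iff_restrict
    (MeasurableSet.univ.prod Metric.isClosed_closedBall.measurableSet)] at h1
  refine ⟨_, h1.comp_measurePreserving hm.symm, fun x hx => ?_⟩
  obtain ⟨p, rfl⟩ := e.surjective x
  have h3 : ‖p.2‖ ≤ R := by
    refine le_trans ?_ hx
    rw [he, ← sq_le_sq₀ (norm_nonneg _) (norm_nonneg _), norm_add_sq_real,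
      ho.inner_eq p.1.2 p.2.2]
    have h4 : ‖p.2‖ = ‖(p.2 : E)‖ := rfl
    rw [h4]
    nlinarith [sq_nonneg ‖(p.1 : E)‖]
  have h4 : U₁.starProjection (e p : E) = p.1 := by
    rw [he, map_add, Submodule.starProjection_eq_self_iff.2 p.1.2,
      (Submodule.starProjection_apply_eq_zero_iff U₁).2 p.2.2.1, add_zero]
  rw [Function.comp_apply, e.symm_apply_apply, Set.indicator_of_mem
    (Set.mem_prod.2 ⟨Set.mem_univ _, mem_closedBall_zero_iff.2 h3⟩), h4]

/-- a bounded operator field with compact support applied to a function of the projection -/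
theorem memLp_cut (h : U₁ ≤ U) {b : E → F} (hb : MemLp (fun x : U₁ => b x) 2 volume) {S : Set E}
    (hS : IsCompact S) {a : E → F →L[ℂ] F} (ha : ContinuousOn a S) :
    MemLp (fun x : U => S.indicator (fun x => a x (b (U₁.starProjection x))) x) 2 volume := by
  obtain ⟨R, hR⟩ := hS.isBounded.exists_norm_le
  obtain ⟨M, hM⟩ := hS.exists_bound_of_continuousOn ha
  obtain ⟨f, hf, hfb⟩ := memLp_ball h hb R
  have hS' : MeasurableSet ((↑) ⁻¹' S : Set U) :=
    (hS.isClosed.preimage continuous_subtype_val).measurableSet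
  have h1 : (fun x : U => S.indicator (fun x => a x (b (U₁.starProjection x))) x) =
      ((↑) ⁻¹' S : Set U).indicator fun x => a x (f x) := by
    funext x
    by_cases hx : (x : E) ∈ S
    · rw [Set.indicator_of_mem hx, Set.indicator_of_mem (show x ∈ ((↑) ⁻¹' S : Set U) from hx),
        hfb x (hR _ hx)]
    · rw [Set.indicator_of_notMem hx,
        Set.indicator_of_notMem (show x ∉ ((↑) ⁻¹' S : Set U) from hx)]
  rw [h1, memLp_indicator_iff_restrict hS']
  have h2 : AEStronglyMeasurable (fun x : U => a x) (volume.restrict ((↑) ⁻¹' S : Set U)) :=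
    (ha.comp continuous_subtype_val.continuousOn fun _ hx => hx).aestronglyMeasurable hS'
  have h3 : AEStronglyMeasurable (fun x : U => a x (f x)) (volume.restrict ((↑) ⁻¹' S : Set U)) :=
    (isBoundedBilinearMap_apply (𝕜 := ℂ) (E := F) (F := F)).continuous.comp_aestronglyMeasurable
      (h2.prodMk hf.1.restrict)
  refine (hf.restrict _).of_le_mul (c := M) h3 ?_
  filter_upwards [ae_restrict_mem hS'] with x hx
  exact (a x).le_of_opNorm_le (hM _ hx) _

theorem ip_add_right {φ ψ χ : E → F} (hφ : MemLp (fun x : U => φ x) 2 volume)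
    (hψ : MemLp (fun x : U => ψ x) 2 volume) (hχ : MemLp (fun x : U => χ x) 2 volume) (z : ℂ) :
    ip U φ (ψ + z • χ) = ip U φ ψ + z * ip U φ χ := by
  have h1 : MemLp (fun x : U => (z • χ) x) 2 volume := hχ.const_smul z
  have h2 : MemLp (fun x : U => (ψ + z • χ) x) 2 volume := hψ.add h1
  rw [← inner_L2 hφ h2, L2_add hψ h1, L2_smul, inner_add_right, inner_smul_right,
    inner_L2 hφ hψ, inner_L2 hφ hχ]

theorem ip_add_left {φ ψ χ : E → F} (hφ : MemLp (fun x : U => φ x) 2 volume)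
    (hψ : MemLp (fun x : U => ψ x) 2 volume) (hχ : MemLp (fun x : U => χ x) 2 volume) (z : ℂ) :
    ip U (ψ + z • χ) φ = ip U ψ φ + (starRingEnd ℂ) z * ip U χ φ := by
  have h1 : MemLp (fun x : U => (z • χ) x) 2 volume := hχ.const_smul z
  have h2 : MemLp (fun x : U => (ψ + z • χ) x) 2 volume := hψ.add h1
  rw [← inner_L2 h2 hφ, L2_add hψ h1, L2_smul, inner_add_left, inner_smul_left,
    inner_L2 hψ hφ, inner_L2 hχ hφ]

omit [FiniteDimensional ℂ F] in
theorem ae_dil (h : U₁ ≤ U) {l : ℝ} (hl : 0 < l) {b b' : E → F} (hb : ∀ᵐ x : U₁, b x = b' x) :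
    ∀ᵐ x : U, dil U₁ l b (U₁.starProjection x) = dil U₁ l b' (U₁.starProjection x) := by
  filter_upwards [(quasiMeasurePreserving_proj h (inv_pos.2 hl).ne').ae hb] with x hx
  have h1 : ((l⁻¹ • U₁.orthogonalProjectionOnto (x : E) : U₁) : E) =
      l⁻¹ • U₁.starProjection (x : E) := rfl
  rw [h1] at hx
  rw [dil, dil, hx]

theorem ae_rep (β β' : LL U F) (z : ℂ) :
    ∀ᵐ x : U, rep U (β + z • β') x = (rep U β + z • rep U β') x := by
  filter_upwards [Lp.coeFn_add β (z • β'), Lp.coeFn_smul z β'] with x h1 h2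
  rw [Pi.add_apply, Pi.smul_apply, rep_coe, rep_coe, rep_coe, h1, Pi.add_apply, h2, Pi.smul_apply]

end Gen

variable {N d : ℕ} {F : Type} [NormedAddCommGroup F] [InnerProductSpace ℂ F]
  [FiniteDimensional ℂ F] (c : Ctx N d F)

/-- the operator field in the trial function -/
def amp (π : Setoid (Fin N)) (𝔞 : Submodule ℝ (Lg d)) (π' : Setoid (Fin N)) (g : ℝ)
    (η : Tn 9 d → ℝ) (x : Tn 9 d) : F →L[ℂ] F :=
  ((c.ng (c.off π π') g ((c.CS 𝔞 π').starProjection x) *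
    Real.exp (-(g * ⟪(sub 9 (c.off π π')).starProjection x,
      kr 1 (c.om (c.off π π') ((c.CS 𝔞 π').starProjection x))
        ((sub 9 (c.off π π')).starProjection x)⟫) / 2) *
    η ((c.CS 𝔞 π').starProjection x) : ℝ) : ℂ) • c.Pw (c.off π π') ((c.CS 𝔞 π').starProjection x)

variable {c} {π π' : Setoid (Fin N)} {𝔞 : Submodule ℝ (Lg d)} {g : ℝ}

theorem Om_eq (η : Tn 9 d → ℝ) (b : Tn 9 d → F) (x : Tn 9 d) :
    c.Om π 𝔞 π' g η b x = if ‖x - (c.CS 𝔞 π').starProjection x‖ ≤ g ^ (-(1 / 6 : ℝ)) then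
      amp c π 𝔞 π' g η x (dil (sub 9 (c.ss π')) (ell g) b ((sub 9 (c.ss π')).starProjection x))
    else 0 := rfl

theorem amp_zero {η : Tn 9 d → ℝ} {x : Tn 9 d} (h : η ((c.CS 𝔞 π').starProjection x) = 0) :
    amp c π 𝔞 π' g η x = 0 := by
  rw [amp, h, mul_zero, Complex.ofReal_zero, zero_smul]

theorem amp_add (η η' : Tn 9 d → ℝ) (t : ℝ) (x : Tn 9 d) :
    amp c π 𝔞 π' g (fun x => η x + t * η' x) x =
      amp c π 𝔞 π' g η x + (t : ℂ) • amp c π 𝔞 π' g η' x := by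
  simp only [amp]
  rw [smul_smul, ← add_smul, ← Complex.ofReal_mul, ← Complex.ofReal_add]
  congr 2
  ring

theorem Om_add_η (η η' : Tn 9 d → ℝ) (t : ℝ) (b : Tn 9 d → F) :
    c.Om π 𝔞 π' g (fun x => η x + t * η' x) b =
      c.Om π 𝔞 π' g η b + (t : ℂ) • c.Om π 𝔞 π' g η' b := by
  funext x
  rw [Pi.add_apply, Pi.smul_apply, Om_eq, Om_eq, Om_eq, amp_add]
  split_ifs
  · rfl
  · rw [smul_zero, add_zero]

theorem Om_add_b (η : Tn 9 d → ℝ) (b b' : Tn 9 d → F) (z : ℂ) :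
    c.Om π 𝔞 π' g η (b + z • b') = c.Om π 𝔞 π' g η b + z • c.Om π 𝔞 π' g η b' := by
  funext x
  rw [Pi.add_apply, Pi.smul_apply, Om_eq, Om_eq, Om_eq]
  split_ifs
  · rw [← map_smul, ← map_add, dil, dil, dil, Pi.add_apply, Pi.smul_apply, smul_add, smul_comm]
  · rw [smul_zero, add_zero]

theorem Om_congr {η η' : Tn 9 d → ℝ} (h : ∀ y ∈ c.CS 𝔞 π', η y = η' y) (b : Tn 9 d → F) :
    c.Om π 𝔞 π' g η b = c.Om π 𝔞 π' g η' b := by
  funext x
  rw [Om_eq, Om_eq, amp, amp, h _ (Submodule.starProjection_apply_mem _ x)]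

theorem ss_le (h : c.Th π 𝔞) (h' : π' ≤ π) : sub 9 (c.ss π') ≤ sub 9 𝔞 :=
  sub_mono ((c.ss_mono h').trans h.1)

theorem Om_ae (h : c.Th π 𝔞) (h' : π' ≤ π) (hg : 0 < g) (η : Tn 9 d → ℝ) {b b' : Tn 9 d → F}
    (hb : ∀ᵐ x : sub 9 (c.ss π'), b x = b' x) :
    ∀ᵐ x : sub 9 𝔞, c.Om π 𝔞 π' g η b x = c.Om π 𝔞 π' g η b' x := by
  filter_upwards [ae_dil (ss_le h h') (ell_pos hg) hb] with x hx
  rw [Om_eq, Om_eq, hx]

theorem continuousAt_amp (h_lm1 : c.S_lm1) (h_lm3a : c.S_lm3a) (hg : 0 < g) {η : Tn 9 d → ℝ}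
    (hη : Continuous η) {x : Tn 9 d} {v : Fin 9 → ℝ}
    (hx : (c.CS 𝔞 π').starProjection x ∈ c.Ow (c.off π π') v) :
    ContinuousAt (amp c π 𝔞 π' g η) x := by
  obtain ⟨L, hL⟩ := exists_krL (d := d) (1 : Matrix (Fin 9) (Fin 9) ℝ)
  have hy : Continuous fun x => (c.CS 𝔞 π').starProjection x := (c.CS 𝔞 π').starProjection.continuous
  have hW : Continuous fun x => (sub 9 (c.off π π')).starProjection x :=
    (sub 9 (c.off π π')).starProjection.continuous
  have h1 : ContinuousAt (fun x => c.ng (c.off π π') g ((c.CS 𝔞 π').starProjection x)) x := by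
    simp only [h_lm3a.ng_scale _ _ g hg]
    exact continuousAt_const.mul (ContinuousAt.comp (f := fun x => (c.CS 𝔞 π').starProjection x)
      ((h_lm3a.ng_cont _ v).continuousAt ((h_lm1.isOpen _ v).mem_nhds hx)) hy.continuousAt)
  have h2 : ContinuousAt (fun x => c.om (c.off π π') ((c.CS 𝔞 π').starProjection x)) x :=
    ContinuousAt.comp (f := fun x => (c.CS 𝔞 π').starProjection x)
      (h_lm1.sm_om _ v _ hx).continuousAt hy.continuousAt
  have h3 : ContinuousAt (fun x => c.Pw (c.off π π') ((c.CS 𝔞 π').starProjection x)) x :=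
    ContinuousAt.comp (f := fun x => (c.CS 𝔞 π').starProjection x)
      (h_lm1.sm_P _ v _ hx).continuousAt hy.continuousAt
  have h4 : ContinuousAt (fun x => kr (1 : Matrix (Fin 9) (Fin 9) ℝ)
      (c.om (c.off π π') ((c.CS 𝔞 π').starProjection x))
        ((sub 9 (c.off π π')).starProjection x)) x := by
    simp only [← hL]
    exact (L.continuous.continuousAt.comp h2).clm_apply hW.continuousAt
  have h5 := hW.continuousAt.inner (𝕜 := ℝ) h4
  have h6 := Real.continuous_exp.continuousAt.comp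
    (((continuousAt_const (y := g)).mul h5).neg.div_const 2)
  exact (Complex.continuous_ofReal.continuousAt.comp
    ((h1.mul h6).mul (hη.comp hy).continuousAt)).smul h3

theorem memLp_Om (h_lm1 : c.S_lm1) (h_lm3a : c.S_lm3a) (h_orb : c.S_orb) (h : c.Th π 𝔞)
    (h' : π' ≤ π) {η : Tn 9 d → ℝ} (hη : SmR (c.CS 𝔞 π') η (c.Gen π π')) (hg : 0 < g)
    {b : Tn 9 d → F} (hb : MemLp (fun x : sub 9 (c.ss π') => b x) 2 volume) :
    MemLp (fun x : sub 9 𝔞 => c.Om π 𝔞 π' g η b x) 2 volume := by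
  obtain ⟨hs, K, hK, hKG, hKC, hK0⟩ := hη
  obtain ⟨𝒱, -, h𝒱⟩ := h_orb.dir
  obtain ⟨R, hR⟩ := hK.isBounded.exists_norm_le
  have hy : Continuous fun x => (c.CS 𝔞 π').starProjection x := (c.CS 𝔞 π').starProjection.continuous
  let S : Set (Tn 9 d) := {x | ‖x - (c.CS 𝔞 π').starProjection x‖ ≤ g ^ (-(1 / 6 : ℝ))} ∩
    (fun x => (c.CS 𝔞 π').starProjection x) ⁻¹' K
  have hS : IsCompact S := by
    refine Metric.isCompact_of_isClosed_isBounded
      ((isClosed_le (continuous_id.sub hy).norm continuous_const).inter (hK.isClosed.preimage hy))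
      (isBounded_iff_forall_norm_le.2 ⟨g ^ (-(1 / 6 : ℝ)) + R, fun x hx => ?_⟩)
    calc ‖x‖ = ‖(x - (c.CS 𝔞 π').starProjection x) + (c.CS 𝔞 π').starProjection x‖ := by
          rw [sub_add_cancel]
      _ ≤ _ := (norm_add_le _ _).trans (add_le_add hx.1 (hR _ hx.2))
  have ha : ContinuousOn (amp c π 𝔞 π' g η) S := fun x hx => by
    obtain ⟨v, -, hv⟩ := h𝒱 π π' h' _ (sub_mono inf_le_right (hKC hx.2)) (hKG hx.2)
    exact (continuousAt_amp h_lm1 h_lm3a hg hs.continuous hv).continuousWithinAt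
  have h1 := memLp_cut (ss_le h h') (memLp_dil (ell_pos hg) hb) hS ha
  refine (memLp_congr_ae (Eventually.of_forall fun x => ?_)).1 h1
  show S.indicator _ _ = _
  rw [Om_eq]
  split_ifs with hx
  · by_cases hx' : (c.CS 𝔞 π').starProjection x ∈ K
    · rw [Set.indicator_of_mem (show (x : Tn 9 d) ∈ S from ⟨hx, hx'⟩)]
    · rw [Set.indicator_of_notMem (show (x : Tn 9 d) ∉ S from fun h => hx' h.2),
        amp_zero (hK0 _ (Submodule.starProjection_apply_mem _ _) hx')]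
      rfl
  · rw [Set.indicator_of_notMem (show (x : Tn 9 d) ∉ S from fun h => hx h.1)]

theorem lin_η (h_lm1 : c.S_lm1) (h_lm3a : c.S_lm3a) (h_orb : c.S_orb) (h : c.Th π 𝔞)
    (h' : π' ≤ π) (hg : 0 < g) {ψ : Tn 9 d → F} (hψ : Sm (sub 9 𝔞) ψ)
    (β : LL (sub 9 (c.ss π')) F) :
    LinR (c.CS 𝔞 π') (c.Gen π π') fun η => c.Lam π 𝔞 π' g ψ η β := fun η η' hη hη' t => by
  have h1 := ip_add_left hψ.memLp (memLp_Om h_lm1 h_lm3a h_orb h h' hη hg (memLp_rep β))
    (memLp_Om h_lm1 h_lm3a h_orb h h' hη' hg (memLp_rep β)) (t : ℂ)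
  rw [Complex.conj_ofReal, ← Om_add_η] at h1
  exact h1

theorem hat_add (η η' : Tn 9 d → ℝ) (t : ℝ) :
    c.hatη π 𝔞 π' (fun x => η x + t * η' x) =
      fun x => c.hatη π 𝔞 π' η x + t * c.hatη π 𝔞 π' η' x := by
  funext x
  simp only [Ctx.hatη]
  ring

theorem hat_smr (h_lm4 : c.S_lm4) (h' : π' ≤ π) {η : Tn 9 d → ℝ}
    (hη : SmR (c.CS 𝔞 π') η (c.Good π π')) :
    SmR (c.CS 𝔞 π') (c.hatη π 𝔞 π' η) (c.Gen π π') :=
  (h_lm4.hat π 𝔞 π' h' η Set.univ (hη.mono fun _ _ hx => ⟨hx, Set.mem_univ _⟩)).mono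
    fun _ _ hx => c.Good_subset_Gen π π' hx.1

theorem loc_aux {K : Set (Tn 9 d)} {δ : ℝ} (hg : g ^ (-(1 / 6 : ℝ)) ≤ δ) {φ ψ : Tn 9 d → F}
    {η : Tn 9 d → ℝ} (β : LL (sub 9 (c.ss π')) F) (hη : ∀ y ∈ c.CS 𝔞 π', y ∉ K → η y = 0)
    (h : ∀ x ∈ sub 9 𝔞, ∀ y ∈ K, ‖x - y‖ ≤ δ → φ x = ψ x) :
    c.Lam π 𝔞 π' g φ η β = c.Lam π 𝔞 π' g ψ η β := by
  refine integral_congr_ae (Eventually.of_forall fun x => ?_)
  show inner ℂ (c.Om π 𝔞 π' g η _ x) (φ x) = inner ℂ (c.Om π 𝔞 π' g η _ x) (ψ x)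
  rw [Om_eq]
  split_ifs with hx
  · by_cases hx' : (c.CS 𝔞 π').starProjection x ∈ K
    · rw [h x x.2 _ hx' (hx.trans hg)]
    · rw [amp_zero (hη _ (Submodule.starProjection_apply_mem _ _) hx'),
        _root_.zero_apply, inner_zero_left, inner_zero_left]
  · rw [inner_zero_left, inner_zero_left]

theorem lam_zero (η : Tn 9 d → ℝ) (β : LL (sub 9 (c.ss π')) F) : c.Lam π 𝔞 π' g 0 η β = 0 := by
  simp only [Ctx.Lam, Ctx.Lamf, ip, Pi.zero_apply, inner_zero_right, integral_zero]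

end LamaAux

namespace Ctx

variable {N d : ℕ} {F : Type} [NormedAddCommGroup F] [InnerProductSpace ℂ F]
  [FiniteDimensional ℂ F] (c : Ctx N d F)

open LamaAux in
theorem p_lama (h_lm1 : c.S_lm1) (h_lm3a : c.S_lm3a) (h_lm4 : c.S_lm4)
    (h_orb : c.S_orb) : c.S_lama where
  memLp π 𝔞 π' h h' η hη g hg b hb := memLp_Om h_lm1 h_lm3a h_orb h h' hη hg hb
  linOn π 𝔞 π' h h' η hη g hg β φ ψ hφ hψ z :=
    ip_add_right (memLp_Om h_lm1 h_lm3a h_orb h h' hη hg (memLp_rep β)) hφ.memLp hψ.memLp z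
  bdd π 𝔞 π' h h' η hη g hg β := ⟨_, fun ψ hψ =>
    norm_ip_sq_le (memLp_Om h_lm1 h_lm3a h_orb h h' hη hg (memLp_rep β)) hψ.memLp⟩
  linη π 𝔞 π' h h' g hg ψ hψ β := lin_η h_lm1 h_lm3a h_orb h h' hg hψ β
  linηh π 𝔞 π' h h' g hg ψ hψ β η η' hη hη' t := by
    have h1 := lin_η h_lm1 h_lm3a h_orb h h' hg hψ β _ _ (hat_smr h_lm4 h' hη)
      (hat_smr h_lm4 h' hη') t
    rw [← hat_add] at h1
    exact h1
  linβ π 𝔞 π' h h' η hη g hg ψ hψ β β' z := by
    have h1 := ip_add_left hψ.memLp (memLp_Om h_lm1 h_lm3a h_orb h h' hη hg (memLp_rep β))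
      (memLp_Om h_lm1 h_lm3a h_orb h h' hη hg (memLp_rep β')) z
    rw [← Om_add_b] at h1
    refine Eq.trans (integral_congr_ae ?_) h1
    filter_upwards [Om_ae h h' hg η (ae_rep β β' z)] with x hx
    rw [hx]
  congrη π 𝔞 π' g ψ η η' β h := by
    have h1 : c.hatη π 𝔞 π' η = c.hatη π 𝔞 π' η' := by
      funext x
      rw [hatη, hatη, h _ (Submodule.starProjection_apply_mem _ x)]
    exact ⟨by rw [Lam, Lam, Lamf, Lamf, Om_congr h], by rw [Lamh, Lamh, h1]⟩
  congrb π 𝔞 π' h h' g hg ψ η b b' hb := by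
    refine integral_congr_ae ?_
    filter_upwards [Om_ae h h' hg η hb] with x hx
    rw [hx]
  loc π 𝔞 π' K δ hδ := by
    have h1 : Tendsto (fun g : ℝ => g ^ (-(1 / 6 : ℝ))) atTop (𝓝 0) :=
      tendsto_rpow_neg_atTop (by norm_num)
    filter_upwards [h1.eventually (ge_mem_nhds hδ)] with g hg φ ψ η β hη h
    refine ⟨loc_aux hg β hη h, loc_aux hg β (fun y hy hyK => ?_) h⟩
    rw [hatη, Submodule.starProjection_eq_self_iff.2 hy, hη y hy hyK, zero_div]
  zero π 𝔞 π' g η β := ⟨lam_zero η β, lam_zero _ β⟩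

end Ctx

end Vale.Agent.P353
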