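import Vale.Agent.P353.Stmts

/-! Amplitudes: further elementary properties. -/

noncomputable section

open MeasureTheory Filter Topology Complex Matrix
open scoped ContDiff RealInnerProductSpace

namespace Vale.Agent.P353

namespace LambAux

section Gen

variable {E : Type} [NormedAddCommGroup E] [InnerProductSpace ℝ E] [FiniteDimensional ℝ E]
  [MeasurableSpace E] [BorelSpace E]
variable {F : Type} [NormedAddCommGroup F] [InnerProductSpace ℂ F] [FiniteDimensional ℂ F]
variable {U U₁ U₂ : Submodule ℝ E}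

theorem int_inner {φ ψ : E → F} (h : MemLp (fun x : U => φ x) 2 volume)
    (h' : MemLp (fun x : U => ψ x) 2 volume) : Integrable fun x : U => inner ℂ (φ x) (ψ x) := by
  refine (MeasureTheory.L2.integrable_inner (𝕜 := ℂ) (L2 U φ) (L2 U ψ)).congr ?_
  filter_upwards [coe_L2 h, coe_L2 h'] with x h1 h2
  rw [h1, h2]

omit [MeasurableSpace E] [BorelSpace E] in
theorem proj_add (h : U₁ ⟂ U₂) {y z : E} (hy : y ∈ U₁) (hz : z ∈ U₂) :
    U₁.starProjection (y + z) = y ∧ U₂.starProjection (y + z) = z := by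
  rw [map_add, map_add, Submodule.starProjection_eq_self_iff.2 hy,
    Submodule.starProjection_eq_self_iff.2 hz,
    (Submodule.starProjection_apply_eq_zero_iff _).2 (h.symm hz),
    (Submodule.starProjection_apply_eq_zero_iff _).2 (h hy), add_zero, zero_add]
  exact ⟨rfl, rfl⟩

/-- product of a function on `U₁` and a function on `U₂` -/
def pr (U₁ U₂ : Submodule ℝ E) (η : E → ℝ) (b : E → F) (x : E) : F :=
  (η (U₁.starProjection x) : ℂ) • b (U₂.starProjection x)

theorem prod_L2 (h : U₁ ⟂ U₂) (hU : U₁ ⊔ U₂ = U) {η : E → ℝ} {b : E → F}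
    (hη : MemLp (fun x : U₁ => η x) 2 volume) (hb : MemLp (fun x : U₂ => b x) 2 volume) :
    MemLp (fun x : U => pr U₁ U₂ η b x) 2 volume ∧
      nrm U (pr U₁ U₂ η b) = (∫ y : U₁, η y ^ 2) * nrm U₂ b := by
  obtain ⟨e, he, hm, -, -⟩ := measurePreserving_sup h hU
  have key : ∀ p : U₁ × U₂, pr U₁ U₂ η b (e p) = (η p.1 : ℂ) • b p.2 := fun p => by
    rw [pr, he, (proj_add h p.1.2 p.2.2).1, (proj_add h p.1.2 p.2.2).2]
  have nm : ∀ p : U₁ × U₂, ‖(η p.1 : ℂ) • b p.2‖ ^ 2 = η p.1 ^ 2 * ‖b p.2‖ ^ 2 := fun p => by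
    rw [norm_smul, mul_pow, Complex.norm_real, Real.norm_eq_abs, sq_abs]
  constructor
  · have h1 : AEStronglyMeasurable (fun p : U₁ × U₂ => (η p.1 : ℂ) • b p.2) volume :=
      (Complex.continuous_ofReal.comp_aestronglyMeasurable hη.1.comp_fst).smul hb.1.comp_snd
    have h2 : MemLp (fun p : U₁ × U₂ => (η p.1 : ℂ) • b p.2) 2 volume := by
      rw [memLp_two_iff_integrable_sq_norm h1]
      simp_rw [nm]
      exact ((memLp_two_iff_integrable_sq hη.1).1 hη).mul_prod
        ((memLp_two_iff_integrable_sq_norm hb.1).1 hb)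
    have h3 := h2.comp_measurePreserving (hm.symm e)
    refine (memLp_congr_ae (Eventually.of_forall fun x => ?_)).1 h3
    have := key (e.symm x)
    rw [e.apply_symm_apply] at this
    exact this.symm
  · unfold nrm
    rw [← hm.integral_comp']
    simp_rw [key, nm]
    exact integral_prod_mul (fun y : U₁ => η y ^ 2) fun y : U₂ => ‖b y‖ ^ 2

theorem smr_L2 {η : E → ℝ} {Z : Set E} (h : SmR U η Z) : MemLp (fun x : U => η x) 2 volume := by
  obtain ⟨h1, K, hK, -, -, h2⟩ := h
  refine (h1.continuous.comp continuous_subtype_val).memLp_of_hasCompactSupport ?_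
  exact HasCompactSupport.intro
    (U.closed_of_finiteDimensional.isClosedEmbedding_subtypeVal.isCompact_preimage hK)
    fun x hx => h2 x x.2 hx

/-- the part of a function inside a ball -/
def cut (r : ℝ) (b : E → F) (x : E) : F := if ‖x‖ ≤ r then b x else 0

/-- the part of a function outside a ball -/
def tl (r : ℝ) (b : E → F) (x : E) : F := if ‖x‖ ≤ r then 0 else b x

theorem ms (r : ℝ) : MeasurableSet {x : U | ‖(x : E)‖ ≤ r} :=
  measurableSet_le (by fun_prop) measurable_const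

theorem cut_L2 (r : ℝ) {b : E → F} (hb : MemLp (fun x : U => b x) 2 volume) :
    MemLp (fun x : U => cut r b x) 2 volume := by
  refine (memLp_congr_ae (Eventually.of_forall fun x => ?_)).1 (hb.indicator (ms r))
  simp [cut, Set.indicator]

theorem tl_L2 (r : ℝ) {b : E → F} (hb : MemLp (fun x : U => b x) 2 volume) :
    MemLp (fun x : U => tl r b x) 2 volume := by
  refine (memLp_congr_ae (Eventually.of_forall fun x => ?_)).1 (hb.indicator (ms r).compl)
  by_cases h : ‖(x : E)‖ ≤ r <;> simp [tl, Set.indicator, h]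

theorem nrm_cut_le (r : ℝ) {b : E → F} (hb : MemLp (fun x : U => b x) 2 volume) :
    nrm U (cut r b) ≤ nrm U b := by
  refine integral_mono_of_nonneg (Eventually.of_forall fun _ => sq_nonneg _)
    ((memLp_two_iff_integrable_sq_norm hb.1).1 hb) (Eventually.of_forall fun x => ?_)
  by_cases h : ‖(x : E)‖ ≤ r <;> simp [cut, h]

theorem tl_tendsto {b : E → F} (hb : MemLp (fun x : U => b x) 2 volume) :
    Tendsto (fun r => nrm U (tl r b)) atTop (𝓝 0) := by
  have := tendsto_integral_filter_of_dominated_convergence (μ := (volume : Measure U))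
    (l := atTop) (F := fun (r : ℝ) (x : U) => ‖tl r b x‖ ^ 2) (f := fun _ => (0 : ℝ))
    (fun x : U => ‖b x‖ ^ 2)
    (Eventually.of_forall fun r => (tl_L2 r hb).1.norm.pow 2)
    (Eventually.of_forall fun r => Eventually.of_forall fun x => by
      by_cases h : ‖(x : E)‖ ≤ r <;> simp [tl, h])
    ((memLp_two_iff_integrable_sq_norm hb.1).1 hb)
    (Eventually.of_forall fun x => tendsto_const_nhds.congr' (by
      filter_upwards [eventually_ge_atTop ‖(x : E)‖] with r hr
      simp [tl, hr]))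
  simpa [nrm] using this

omit [FiniteDimensional ℝ E] [MeasurableSpace E] [BorelSpace E] in
theorem tl_dil {l : ℝ} (hl : 0 < l) (r : ℝ) (b : E → F) :
    tl r (dil U l b) = dil U l (tl (r / l) b) := by
  funext x
  have : ‖l⁻¹ • x‖ ≤ r / l ↔ ‖x‖ ≤ r := by
    rw [norm_smul, norm_inv, Real.norm_eq_abs, abs_of_pos hl, inv_mul_eq_div,
      div_le_div_iff_of_pos_right hl]
  by_cases h : ‖x‖ ≤ r <;> simp [tl, dil, h, this]

theorem nrm_rep (u : LL U F) : nrm U (rep U u) = ‖u‖ ^ 2 := by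
  rw [← norm_L2_sq (memLp_rep u), L2_rep]

end Gen

variable {N d : ℕ} {F : Type} [NormedAddCommGroup F] [InnerProductSpace ℂ F]
  [FiniteDimensional ℂ F] {c : Ctx N d F} {π π' : Setoid (Fin N)} {𝔞 : Submodule ℝ (Lg d)}

theorem lam_opL (h : c.S_lama) (hT : c.Th π 𝔞) (hπ : π' ≤ π) {g : ℝ} (hg : 0 < g)
    (ψ : Tn 9 d → F) (η : Tn 9 d → ℝ) (a : F →L[ℂ] F) (β : LL (sub 9 (c.ss π')) F) :
    c.Lam π 𝔞 π' g ψ η (opL _ a β) = c.Lamf π 𝔞 π' g ψ η fun x => a (rep _ β x) := by
  refine h.congrb π 𝔞 π' hT hπ g hg ψ η _ _ ?_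
  filter_upwards [coe_opL a β] with x hx
  rw [rep_coe, rep_coe, hx]

theorem om_self (h : c.S_lmea) (hT : c.Th π 𝔞) (g : ℝ) (η : Tn 9 d → ℝ) (b : Tn 9 d → F)
    {x : Tn 9 d} (hx : x ∈ sub 9 𝔞) :
    c.Om π 𝔞 π g η b x = pr (c.CS 𝔞 π) (sub 9 (c.ss π)) η
      (cut (g ^ (-(1 / 6 : ℝ))) (dil (sub 9 (c.ss π)) (ell g) b)) x := by
  rw [← Cov4Aux.CS_sup c hT] at hx
  obtain ⟨y, hy, z, hz, rfl⟩ := Submodule.mem_sup.1 hx
  obtain ⟨h1, h2⟩ := proj_add (Cov4Aux.CS_ortho c 𝔞 π) hy hz
  have h3 : (sub 9 (c.off π π)).starProjection (y + z) = 0 := by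
    have := (sub 9 (c.off π π)).starProjection_apply_mem (y + z)
    generalize (sub 9 (c.off π π)).starProjection (y + z) = w at this
    rwa [c.off_self, sub_bot] at this
  unfold Ctx.Om cut pr
  simp only [h1, h2, h3, add_sub_cancel_left]
  rw [c.off_self, (h.bot g y).1, (h.bot g y).2.1]
  split_ifs <;> simp

end LambAux

open LambAux

namespace Ctx

variable {N d : ℕ} {F : Type} [NormedAddCommGroup F] [InnerProductSpace ℂ F]
  [FiniteDimensional ℂ F] (c : Ctx N d F)

theorem p_lamb (h_lm1 : c.S_lm1) (h_lmea : c.S_lmea) (h_lama : c.S_lama)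
    (h_orb : c.S_orb) : c.S_lamb := by
  refine ⟨fun π π' hπ η hη g hg ψ hψ β => ?_, fun π 𝔞 π' hT hπ g hg ψ hψ η β n f a hf hs => ?_,
    fun π 𝔞 hT η hη β ε hε => ?_, fun π 𝔞 hT η hη β g hg ψ hψ => ?_⟩
  · rw [lam_opL h_lama (c.Th_ss π) hπ hg]
    refine integral_congr_ae (Eventually.of_forall fun x => ?_)
    have key : c.Om π (c.ss π) π' g η (fun x => c.P0 (c.ss π)ᗮ (rep _ β x)) x =
        c.P0 (c.ss π)ᗮ (c.Om π (c.ss π) π' g η (rep _ β) x) := by
      unfold Om
      simp only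
      split_ifs
      · by_cases h0 : η ((c.CS (c.ss π) π').starProjection x) = 0
        · simp [h0]
        obtain ⟨-, K, -, hK, -, hK'⟩ := hη
        have hy := (c.CS (c.ss π) π').starProjection_apply_mem (x : Tn 9 d)
        have hG := hK (not_not.1 fun h => h0 (hK' _ hy h))
        obtain ⟨𝒱, -, hV⟩ := h_orb.dir
        obtain ⟨v, -, hv⟩ := hV π π' hπ _ (sub_mono inf_le_right hy) hG
        have hc := h_lm1.P_P0 _ v _ hv (c.ss π)ᗮ
          ((Submodule.isOrtho_orthogonal_left _).mono_right (c.off_le_ss hπ))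
        rw [map_smul, ← ContinuousLinearMap.mul_apply (c.P0 _), ← hc]
        simp [dil]
      · simp
    simp only
    rw [key, P0, vac_symm]
    exact congrArg _ (((c.mem_D0).1 hψ).2 x x.2)
  · have hb : ∀ j, MemLp (fun x : sub 9 (c.ss π') => a j (rep _ β x)) 2 volume := fun j =>
      (a j).comp_memLp' (memLp_rep β)
    simp_rw [lam_opL h_lama hT hπ hg]
    unfold Lam Lamf ip
    rw [← integral_finsetSum _ fun j _ =>
      int_inner (h_lama.memLp π 𝔞 π' hT hπ _ (hf j) g hg _ (hb j)) hψ.memLp]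
    refine integral_congr_ae (Eventually.of_forall fun x => ?_)
    simp only
    rw [← sum_inner]
    congr 1
    unfold Om
    simp only
    split_ifs
    · have hy := (c.CS 𝔞 π').starProjection_apply_mem (x : Tn 9 d)
      have := congrArg (fun T : F →L[ℂ] F => T (dil (sub 9 (c.ss π')) (ell g) (rep _ β)
        ((sub 9 (c.ss π')).starProjection x))) (hs _ hy)
      simp only [ContinuousLinearMap.smul_apply, ContinuousLinearMap.sum_apply,
        ContinuousLinearMap.mul_apply] at this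
      simp only [Complex.ofReal_mul _ (η _), Complex.ofReal_mul _ (f _ _), mul_smul]
      rw [this, Finset.smul_sum]
      refine Finset.sum_congr rfl fun j _ => ?_
      simp only [dil, map_smul]
    · simp
  · have hI : 0 ≤ ∫ y : c.CS 𝔞 π, η y ^ 2 := integral_nonneg fun _ => sq_nonneg _
    have h1 : Tendsto (fun g : ℝ => (∫ y : c.CS 𝔞 π, η y ^ 2) *
        nrm (sub 9 (c.ss π)) (tl (g ^ (1 / 6 : ℝ)) (rep _ β))) atTop (𝓝 0) := by
      simpa using ((tl_tendsto (memLp_rep β)).comp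
        (tendsto_rpow_atTop (y := 1 / 6) (by norm_num))).const_mul (∫ y : c.CS 𝔞 π, η y ^ 2)
    filter_upwards [h1.eventually (ge_mem_nhds hε), eventually_gt_atTop 0] with g h2 hg ψ hψ
    have hl := ell_pos hg
    have hd := memLp_dil hl (memLp_rep β)
    have hP := fun {b : Tn 9 d → F} hb => prod_L2 (F := F) (b := b) (Cov4Aux.CS_ortho c 𝔞 π)
      (Cov4Aux.CS_sup c hT) (smr_L2 hη) hb
    have h3 := norm_ip_sq_le (hP (tl_L2 (g ^ (-(1 / 6 : ℝ))) hd)).1 hψ.memLp
    have e : g ^ (-(1 / 6 : ℝ)) / ell g = g ^ (1 / 6 : ℝ) := by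
      rw [ell, ← Real.rpow_sub hg]
      norm_num
    rw [(hP (tl_L2 (g ^ (-(1 / 6 : ℝ))) hd)).2, tl_dil hl, nrm_dil _ hl, e, ← e, ← tl_dil hl,
      e] at h3
    refine le_trans (le_of_eq ?_) (h3.trans (mul_le_mul_of_nonneg_right h2 (nrm_nonneg _ _)))
    rw [norm_sub_rev]
    congr 2
    unfold Lam Lamf ip
    simp only [om_self h_lmea hT g η _ (Subtype.property _)]
    refine (integral_sub (int_inner (hP hd).1 hψ.memLp)
      (int_inner (hP (cut_L2 _ hd)).1 hψ.memLp)).symm.trans ?_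
    refine integral_congr_ae (Eventually.of_forall fun x => ?_)
    simp only [pr]
    rw [← inner_sub_left, ← smul_sub]
    congr 2
    unfold cut tl
    split_ifs <;> simp
  · have hl := ell_pos hg
    have hd := memLp_dil hl (memLp_rep β)
    have hP := prod_L2 (Cov4Aux.CS_ortho c 𝔞 π) (Cov4Aux.CS_sup c hT) (smr_L2 hη)
      (cut_L2 (g ^ (-(1 / 6 : ℝ))) hd)
    have h3 := norm_ip_sq_le hP.1 hψ.memLp
    have h4 := nrm_cut_le (g ^ (-(1 / 6 : ℝ))) hd
    rw [nrm_dil _ hl, nrm_rep] at h4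
    rw [hP.2] at h3
    refine le_trans (le_of_eq ?_) (h3.trans (mul_le_mul_of_nonneg_right
      (mul_le_mul_of_nonneg_left h4 (integral_nonneg fun _ => sq_nonneg _)) (nrm_nonneg _ _)))
    unfold Lam Lamf ip
    simp only [om_self h_lmea hT g η _ (Subtype.property _)]

end Ctx

end Vale.Agent.P353
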