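import Vale.Agent.P353.Stmts
import Vale.Agent.P353.Psq

/-! Local data: algebra. -/

noncomputable section

open MeasureTheory Filter Topology Complex Matrix
open scoped ContDiff RealInnerProductSpace

namespace Vale.Agent.P353

namespace Lm1aAux

section abs

variable {V : Type} [NormedAddCommGroup V] [InnerProductSpace ℝ V] [FiniteDimensional ℝ V]
  {W : Submodule ℝ V}

theorem inner_proj (u v : V) :
    ⟪u, v - W.starProjection v⟫ = ⟪u - W.starProjection u, v - W.starProjection v⟫ := by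
  rw [inner_sub_left, Submodule.inner_right_of_mem_orthogonal (W.starProjection_apply_mem u)
    (W.sub_starProjection_mem_orthogonal v), sub_zero]

theorem pd {ι : Type} [Fintype ι] {a : ι → V →L[ℝ] V} (ha : ∀ i, IsSkew (a i))
    (h : ∀ u, (∀ i, a i u = 0) → W.starProjection u = u → u = 0) :
    IsPD (-(∑ i, a i * a i) + (1 - W.starProjection)) := by
  have e : ∀ u v, ⟪u, (-(∑ i, a i * a i) + (1 - W.starProjection)) v⟫ =
      ∑ i, ⟪a i u, a i v⟫ + ⟪u - W.starProjection u, v - W.starProjection v⟫ := fun u v => by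
    rw [← inner_proj]
    simp only [ContinuousLinearMap.add_apply, ContinuousLinearMap.neg_apply,
      ContinuousLinearMap.sum_apply, ContinuousLinearMap.mul_apply, ContinuousLinearMap.sub_apply,
      ContinuousLinearMap.one_apply, inner_add_right, inner_neg_right, inner_sum, ha _ u,
      Finset.sum_neg_distrib]
  refine ⟨fun u v => ?_, fun u hu => ?_⟩
  · rw [real_inner_comm, e, e, real_inner_comm]
    simp only [real_inner_comm (a _ u)]
  · have h1 : ∀ i ∈ Finset.univ, 0 ≤ ⟪a i u, a i u⟫ := fun i _ => real_inner_self_nonneg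
    have h2 := Finset.sum_nonneg h1
    have h3 : 0 ≤ ⟪u - W.starProjection u, u - W.starProjection u⟫ := real_inner_self_nonneg
    rw [e]
    refine (add_nonneg h2 h3).lt_of_ne' fun h0 => hu (h u (fun i => ?_) ?_)
    · exact inner_self_eq_zero.1 ((Finset.sum_eq_zero_iff_of_nonneg h1).1 (by linarith) i
        (Finset.mem_univ i))
    · exact (sub_eq_zero.1 (inner_self_eq_zero.1 (by linarith : ⟪u - W.starProjection u,
        u - W.starProjection u⟫ = 0))).symm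

theorem inj {a : V →L[ℝ] V} (h : IsUnit a) {u : V} (hu : a u = 0) : u = 0 := by
  have e : Ring.inverse a (a u) = u := DFunLike.congr_fun (Ring.inverse_mul_cancel a h) u
  rw [← e, hu, map_zero]

theorem inv_apply {a : V →L[ℝ] V} (h : IsUnit a) (u : V) : a (Ring.inverse a u) = u :=
  DFunLike.congr_fun (Ring.mul_inverse_cancel a h) u

theorem inv_mem {a : V →L[ℝ] V} (h : IsUnit (a + (1 - W.starProjection))) (ha : ∀ u, a u ∈ W)
    {u : V} (hu : u ∈ W) : Ring.inverse (a + (1 - W.starProjection)) u ∈ W := by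
  have e := inv_apply h u
  generalize Ring.inverse (a + (1 - W.starProjection)) u = z at e
  have e' : z = u - a z + W.starProjection z := by
    rw [← e]
    simp
  rw [e']
  exact W.add_mem (W.sub_mem hu (ha z)) (W.starProjection_apply_mem z)

theorem inv_mem' {ι : Type} [Fintype ι] {a : ι → V →L[ℝ] V}
    (h : IsUnit (-(∑ i, a i * a i) + (1 - W.starProjection))) (ha : ∀ i u, a i u ∈ W)
    {u : V} (hu : u ∈ W) : Ring.inverse (-(∑ i, a i * a i) + (1 - W.starProjection)) u ∈ W := by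
  refine inv_mem h (fun u => ?_) hu
  rw [ContinuousLinearMap.neg_apply, ContinuousLinearMap.sum_apply]
  exact W.neg_mem (W.sum_mem fun i _ => ha i _)

theorem sum_comm {ι : Type} [Fintype ι] {a : ι → V →L[ℝ] V}
    (h1 : ∀ i, a i * W.starProjection = a i) (h2 : ∀ i, W.starProjection * a i = a i) :
    W.starProjection * (-(∑ i, a i * a i) + (1 - W.starProjection)) =
      (-(∑ i, a i * a i) + (1 - W.starProjection)) * W.starProjection := by
  rw [mul_add, add_mul, mul_sub, sub_mul, mul_neg, neg_mul, Finset.mul_sum,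
    Finset.sum_mul, mul_one, one_mul]
  simp only [mul_assoc, h1]
  simp only [← mul_assoc, h2]

omit [FiniteDimensional ℝ V] in
theorem fix_of_sq {B : V →L[ℝ] V} (hB : IsPD B) {y : V} (h : B (B y) = y) : B y = y := by
  by_contra hne
  have h1 := hB.2 _ (sub_ne_zero.2 hne)
  rw [map_sub, h, ← neg_sub (B y) y, inner_neg_right] at h1
  linarith [real_inner_self_nonneg (x := B y - y)]

theorem inv_comm {R : Type} [Ring R] {a b : R} (hb : IsUnit b) (h : a * b = b * a) :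
    a * Ring.inverse b = Ring.inverse b * a := by
  calc _ = Ring.inverse b * (b * a) * Ring.inverse b := by rw [Ring.inverse_mul_cancel_left _ _ hb]
    _ = _ := by rw [← h, mul_assoc, Ring.mul_inverse_cancel_right _ _ hb]

theorem polar {D : V →L[ℝ] V} (hD : IsSkew D) (h1 : D * W.starProjection = D)
    (h2 : W.starProjection * D = D) (hu : IsUnit (D + (1 - W.starProjection))) {B J : V →L[ℝ] V}
    (hB : B = psq (-(D * D) + (1 - W.starProjection))) (hJ : J = D * Ring.inverse B) :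
    IsPD B ∧ B * B = -(D * D) + (1 - W.starProjection) ∧ B * J = J * B ∧ J * B = D ∧
      IsPCS J ∧ -(J * J) = W.starProjection ∧ J * W.starProjection = J := by
  subst hJ
  have hM := pd (W := W) (a := fun _ : Unit => D) (fun _ => hD) fun u h3 h4 =>
    inj hu (by simp [h3 (), h4])
  rw [Fintype.sum_unique] at hM
  have hP := W.isIdempotentElem_starProjection.eq
  have p1 : IsPD B := hB ▸ psq_pd hM
  have p2 : B * B = -(D * D) + (1 - W.starProjection) := hB ▸ psq_mul_self hM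
  have p3 : D * B = B * D := hB ▸ psq_comm hM (by
    rw [mul_add, add_mul, mul_sub, sub_mul, h1, h2, mul_neg, neg_mul, mul_assoc, mul_one, one_mul])
  have p4 := inv_comm p1.isUnit p3
  have p5 : D * Ring.inverse B * B = D := Ring.inverse_mul_cancel_right _ _ p1.isUnit
  have p6 : -(D * Ring.inverse B * (D * Ring.inverse B)) = W.starProjection := by
    have e : -(D * D) = W.starProjection * B * B := by
      rw [mul_assoc, p2, mul_add, mul_sub, hP, mul_one, sub_self, add_zero, mul_neg, ← mul_assoc, h2]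
    rw [mul_assoc, ← mul_assoc _ D, ← p4, ← mul_assoc, ← mul_assoc, ← neg_mul, ← neg_mul, e,
      Ring.mul_inverse_cancel_right _ _ p1.isUnit, Ring.mul_inverse_cancel_right _ _ p1.isUnit]
  refine ⟨p1, p2, ?_, p5, ⟨fun u v => ?_, ?_⟩, p6, ?_⟩
  · rw [p5, p4, Ring.mul_inverse_cancel_left _ _ p1.isUnit]
  · have e : Ring.inverse B (D v) = (D * Ring.inverse B) v := (DFunLike.congr_fun p4 v).symm
    rw [ContinuousLinearMap.mul_apply, hD, p1.inverse.1, e]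
  · rw [← neg_eq_iff_eq_neg, ← neg_mul, p6, ← mul_assoc, h2]
  · rw [p4, mul_assoc, h1]

end abs

variable {N d : ℕ} {F : Type} [NormedAddCommGroup F] [InnerProductSpace ℂ F]
  [FiniteDimensional ℂ F] (c : Ctx N d F) (𝔴 : Submodule ℝ (Lg d))

theorem adw_skew (y : Lg d) : IsSkew (c.adw 𝔴 y) := fun u v => by
  simp only [Ctx.adw, ContinuousLinearMap.mul_apply]
  rw [𝔴.inner_starProjection_left_eq_right, c.ad_skew, 𝔴.inner_starProjection_left_eq_right]

theorem adw_P (y : Lg d) : c.adw 𝔴 y * 𝔴.starProjection = c.adw 𝔴 y := by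
  rw [Ctx.adw, mul_assoc, 𝔴.isIdempotentElem_starProjection.eq]

theorem P_adw (y : Lg d) : 𝔴.starProjection * c.adw 𝔴 y = c.adw 𝔴 y := by
  rw [Ctx.adw, ← mul_assoc, ← mul_assoc, 𝔴.isIdempotentElem_starProjection.eq]

theorem adw_mem (y u : Lg d) : c.adw 𝔴 y u ∈ 𝔴 := 𝔴.starProjection_apply_mem _

theorem adw_cv (v : Fin 9 → ℝ) (X : Tn 9 d) (u : Lg d) :
    c.adw 𝔴 (cv v X) u = ∑ i, v i • c.adw 𝔴 (cmp i X) u := by
  simp only [Ctx.adw, cv_apply, c.ad_sum, c.ad_smul, ContinuousLinearMap.mul_apply,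
    ContinuousLinearMap.sum_apply, ContinuousLinearMap.smul_apply, map_sum, map_smul]

theorem cont_adw : Continuous (c.adw 𝔴) := by
  obtain ⟨L, hL⟩ := c.exists_adL
  have e : c.adw 𝔴 = fun y => 𝔴.starProjection * L y * 𝔴.starProjection :=
    funext fun y => by rw [hL, Ctx.adw]
  rw [e]
  fun_prop

theorem cont_aw (v : Fin 9 → ℝ) : Continuous (c.aw 𝔴 v) :=
  ((cont_adw c 𝔴).comp (cv v).continuous).neg.add continuous_const

theorem cont_Dw : Continuous (c.Dw 𝔴) := by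
  refine continuous_finsetSum _ fun i _ => ?_
  obtain ⟨L, hL⟩ := exists_krL (d := d) (c.γ i)
  simp only [← hL]
  exact L.continuous.comp ((cont_adw c 𝔴).comp (cmp i).continuous)

theorem cmp_G (X : Tn 9 d) (ξ : Lg d) (i : Fin 9) :
    cmp i (c.Gw 𝔴 X ξ) = -c.adw 𝔴 (cmp i X) ξ := by
  simp [Ctx.Gw, cmp_tens, Pi.single_apply]

theorem dv_apply (X W : Tn 9 d) : c.dv 𝔴 X W = ∑ i, c.adw 𝔴 (cmp i X) (cmp i W) := by
  simp [Ctx.dv]

theorem inner_G (X : Tn 9 d) (ξ : Lg d) (W : Tn 9 d) : ⟪c.Gw 𝔴 X ξ, W⟫ = ⟪ξ, c.dv 𝔴 X W⟫ := by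
  simp only [inner_eq_sum_cmp, cmp_G, dv_apply, inner_sum, inner_neg_left, adw_skew c 𝔴 _ ξ,
    neg_neg]

theorem G_mem (X : Tn 9 d) (ξ : Lg d) : c.Gw 𝔴 X ξ ∈ sub 9 𝔴 :=
  mem_sub.2 fun i => by rw [cmp_G]; exact 𝔴.neg_mem (adw_mem c 𝔴 _ _)

theorem dv_mem (X W : Tn 9 d) : c.dv 𝔴 X W ∈ 𝔴 := by
  rw [dv_apply]
  exact 𝔴.sum_mem fun i _ => adw_mem c 𝔴 _ _

theorem dv_G (X : Tn 9 d) {ξ : Lg d} (h : ξ ∈ 𝔴) : c.dv 𝔴 X (c.Gw 𝔴 X ξ) = c.Kw 𝔴 X ξ := by
  simp [dv_apply, cmp_G, Ctx.Kw, Submodule.starProjection_eq_self_iff.2 h]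

theorem cv_G (v : Fin 9 → ℝ) (X : Tn 9 d) {ξ : Lg d} (h : ξ ∈ 𝔴) :
    cv v (c.Gw 𝔴 X ξ) = c.aw 𝔴 v X ξ := by
  rw [cv_apply]
  simp [cmp_G, Ctx.aw, adw_cv, Submodule.starProjection_eq_self_iff.2 h]

theorem dv_P (X W : Tn 9 d) : c.dv 𝔴 X (kr 1 𝔴.starProjection W) = c.dv 𝔴 X W := by
  simp only [dv_apply, cmp_kr_one]
  refine Finset.sum_congr rfl fun i _ => ?_
  rw [← ContinuousLinearMap.mul_apply, adw_P]

theorem Dw_skew (X : Tn 9 d) : IsSkew (c.Dw 𝔴 X) := fun u v => by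
  simp only [Ctx.Dw, ContinuousLinearMap.sum_apply, sum_inner, inner_sum, ← Finset.sum_neg_distrib]
  refine Finset.sum_congr rfl fun i _ => ?_
  rw [inner_kr _ _ (-c.adw 𝔴 (cmp i X)) fun x y => by
    rw [adw_skew, ContinuousLinearMap.neg_apply, inner_neg_right], c.gam.symm, kr_neg_right,
    ContinuousLinearMap.neg_apply, inner_neg_right]

theorem KP (X : Tn 9 d) : 𝔴.starProjection * c.Kw 𝔴 X = c.Kw 𝔴 X * 𝔴.starProjection := by
  unfold Ctx.Kw
  exact sum_comm (fun _ => adw_P c 𝔴 _) fun _ => P_adw c 𝔴 _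

variable {c 𝔴} {v : Fin 9 → ℝ} {X : Tn 9 d}

theorem a_unit (h : X ∈ c.Ow 𝔴 v) : IsUnit (c.aw 𝔴 v X) := (isUnit_iff_det_ne_zero _).2 h.1

theorem K_pd (h : X ∈ c.Ow 𝔴 v) : IsPD (c.Kw 𝔴 X) :=
  pd (fun _ => adw_skew c 𝔴 _) fun u h1 h2 => inj (a_unit h) (by simp [Ctx.aw, adw_cv, h1, h2])

theorem Kinv_mem (h : X ∈ c.Ow 𝔴 v) {η : Lg d} (hη : η ∈ 𝔴) : Ring.inverse (c.Kw 𝔴 X) η ∈ 𝔴 := by
  have h1 := (K_pd h).isUnit
  unfold Ctx.Kw at h1 ⊢
  exact inv_mem' h1 (fun _ => adw_mem c 𝔴 _) hη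

theorem dv_G_inv (h : X ∈ c.Ow 𝔴 v) {η : Lg d} (hη : η ∈ 𝔴) :
    c.dv 𝔴 X (c.Gw 𝔴 X (Ring.inverse (c.Kw 𝔴 X) η)) = η := by
  rw [dv_G c 𝔴 X (Kinv_mem h hη), inv_apply (K_pd h).isUnit]

theorem fer (h : X ∈ c.Ow 𝔴 v) : IsPD (c.Bw 𝔴 X) ∧
    c.Bw 𝔴 X * c.Bw 𝔴 X = -(c.Dw 𝔴 X * c.Dw 𝔴 X) + (1 - kr 1 𝔴.starProjection) ∧
    c.Bw 𝔴 X * c.Jw 𝔴 X = c.Jw 𝔴 X * c.Bw 𝔴 X ∧ c.Jw 𝔴 X * c.Bw 𝔴 X = c.Dw 𝔴 X ∧
    IsPCS (c.Jw 𝔴 X) ∧ -(c.Jw 𝔴 X * c.Jw 𝔴 X) = kr 1 𝔴.starProjection ∧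
    c.Jw 𝔴 X * kr 1 𝔴.starProjection = c.Jw 𝔴 X := by
  have h2 := (isUnit_iff_det_ne_zero _).2 h.2
  have e := sub_starProjection (n := 16) 𝔴
  have h3 : c.Dw 𝔴 X * (sub 16 𝔴).starProjection = c.Dw 𝔴 X := by
    simp only [sub_starProjection, Ctx.Dw, Finset.sum_mul, kr_mul, mul_one, adw_P]
  have h4 : (sub 16 𝔴).starProjection * c.Dw 𝔴 X = c.Dw 𝔴 X := by
    simp only [sub_starProjection, Ctx.Dw, Finset.mul_sum, kr_mul, one_mul, P_adw]
  rw [← e] at h2 ⊢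
  exact polar (Dw_skew c 𝔴 X) h3 h4 h2 (by rw [Ctx.Bw, e]) (by rw [Ctx.Jw])

theorem J_fix (h : X ∈ c.Ow 𝔴 v) {y : Tn 16 d} (hy : y ∈ sub 16 𝔴) :
    -(c.Jw 𝔴 X (c.Jw 𝔴 X y)) = y := by
  have e := DFunLike.congr_fun (fer h).2.2.2.2.2.1 y
  rw [← sub_starProjection, Submodule.starProjection_eq_self_iff.2 hy] at e
  exact e

theorem PN_apply (W : Tn 9 d) :
    c.PN 𝔴 X W = c.Gw 𝔴 X (Ring.inverse (c.Kw 𝔴 X) (c.dv 𝔴 X W)) := by
  rw [Ctx.PN, ContinuousLinearMap.comp_apply, ContinuousLinearMap.comp_apply]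

theorem Np_proj (h : X ∈ c.Ow 𝔴 v) :
    (c.Np 𝔴 X).starProjection = kr 1 𝔴.starProjection - c.PN 𝔴 X := by
  refine ContinuousLinearMap.ext fun W => ?_
  rw [ContinuousLinearMap.sub_apply, ← sub_starProjection, PN_apply]
  refine Submodule.eq_starProjection_of_mem_of_inner_eq_zero
    ⟨Submodule.sub_mem _ (Submodule.starProjection_apply_mem _ W) (G_mem c 𝔴 X _), ?_⟩
    fun w hw => ?_
  · change c.dv 𝔴 X _ = 0
    rw [map_sub, dv_G_inv h (dv_mem c 𝔴 X W), sub_starProjection, dv_P, sub_self]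
  · have h0 : c.dv 𝔴 X w = 0 := hw.2
    rw [← sub_add, inner_add_left, Submodule.starProjection_inner_eq_zero W w hw.1, inner_G, h0,
      inner_zero_right, add_zero]

theorem A_apply (h : X ∈ c.Ow 𝔴 v) (W : Tn 9 d) : c.Aw 𝔴 X W =
    (c.Np 𝔴 X).starProjection (kr 1 (c.om 𝔴 X) ((c.Np 𝔴 X).starProjection W)) := by
  rw [Np_proj h, Ctx.Aw, ContinuousLinearMap.mul_apply, ContinuousLinearMap.mul_apply]

theorem kr_pd {n : ℕ} {a : Lg d →L[ℝ] Lg d} (ha : IsPD a) :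
    IsPD (kr (1 : Matrix (Fin n) (Fin n) ℝ) a) := by
  refine ⟨fun u w => by rw [inner_kr _ _ _ ha.1, transpose_one], fun u hu => ?_⟩
  obtain ⟨i, hi⟩ : ∃ i, cmp i u ≠ 0 := by
    by_contra h
    exact hu (ext_cmp fun i => by rw [map_zero]; exact by_contra fun h1 => h ⟨i, h1⟩)
  simp only [inner_eq_sum_cmp, cmp_kr_one]
  refine Finset.sum_pos' (fun j _ => ?_) ⟨i, Finset.mem_univ i, ha.2 _ hi⟩
  by_cases hj : cmp j u = 0
  · rw [hj, inner_zero_left]
  · exact (ha.2 _ hj).le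

theorem A_pos (h : X ∈ c.Ow 𝔴 v) {W : Tn 9 d} (hW : W ∈ Wsl 𝔴 v) (h0 : W ≠ 0) :
    0 < ⟪W, c.Aw 𝔴 X W⟫ := by
  rw [A_apply h, ← Submodule.inner_starProjection_left_eq_right]
  refine (kr_pd (psq_pd (K_pd h))).2 _ fun h1 => h0 ?_
  have h2 : cv v W = 0 := hW.2
  have h3 : W = c.Gw 𝔴 X (Ring.inverse (c.Kw 𝔴 X) (c.dv 𝔴 X W)) := by
    rw [Np_proj h, ← sub_starProjection, ContinuousLinearMap.sub_apply,
      Submodule.starProjection_eq_self_iff.2 hW.1, PN_apply] at h1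
    exact sub_eq_zero.1 h1
  rw [h3, cv_G c 𝔴 v X (Kinv_mem h (dv_mem c 𝔴 X W))] at h2
  rw [h3, inj (a_unit h) h2, map_zero]

theorem Np_rank (h : X ∈ c.Ow 𝔴 v) :
    Module.finrank ℝ (c.Np 𝔴 X) = 8 * Module.finrank ℝ 𝔴 := by
  have h1 := ((c.dv 𝔴 X).toLinearMap.domRestrict (sub 9 𝔴)).finrank_range_add_finrank_ker
  have h2 : LinearMap.range ((c.dv 𝔴 X).toLinearMap.domRestrict (sub 9 𝔴)) = 𝔴 :=
    le_antisymm (by rintro _ ⟨W, rfl⟩; exact dv_mem c 𝔴 X W) fun η hη =>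
      ⟨⟨_, G_mem c 𝔴 X _⟩, dv_G_inv h hη⟩
  rw [h2, finrank_sub, LinearMap.ker_domRestrict, ← Submodule.finrank_map_subtype_eq,
    Submodule.map_comap_subtype] at h1
  unfold Ctx.Np
  omega

end Lm1aAux

namespace Ctx

variable {N d : ℕ} {F : Type} [NormedAddCommGroup F] [InnerProductSpace ℂ F]
  [FiniteDimensional ℂ F] (c : Ctx N d F)

open Lm1aAux in
theorem p_lm1a : c.S_lm1a where
  isOpen 𝔴 v := (isOpen_ne_fun (ContinuousLinearMap.continuous_det.comp (cont_aw c 𝔴 v))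
    continuous_const).inter (isOpen_ne_fun (ContinuousLinearMap.continuous_det.comp
      ((cont_Dw c 𝔴).add continuous_const)) continuous_const)
  inner_G := inner_G c
  G_mem := G_mem c
  dv_mem := dv_mem c
  dv_G 𝔴 X _ h := dv_G c 𝔴 X h
  cv_G 𝔴 v X _ h := cv_G c 𝔴 v X h
  G_eq π π' h X hX ξ hξ := ext_cmp fun i => by
    rw [cmp_G, vf, cmp_kr_one, c.ad_anti ξ]
    simp only [adw, ContinuousLinearMap.mul_apply, Submodule.starProjection_eq_self_iff.2 hξ,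
      Submodule.starProjection_eq_self_iff.2 (c.ad_mem_off h (mem_sub.1 hX i) hξ)]
  j_cont 𝔴 v := (ContinuousLinearMap.continuous_det.comp (cont_aw c 𝔴 v)).abs
  j_pos _ _ _ h := abs_pos.2 h.1
  K_pd _ _ _ h := K_pd h
  om_pd _ _ _ h := psq_pd (K_pd h)
  om_sq _ _ _ h := psq_mul_self (K_pd h)
  om_P 𝔴 _ X h := (psq_comm (K_pd h) (KP c 𝔴 X)).symm
  om_orth 𝔴 _ X h y hy := by
    refine fix_of_sq (psq_pd (K_pd h)) ((DFunLike.congr_fun (psq_mul_self (K_pd h)) y).trans ?_)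
    simp [Kw, adw, (Submodule.starProjection_apply_eq_zero_iff 𝔴).2 hy]
  B_pd _ _ _ h := (fer h).1
  B_sq _ _ _ h := (fer h).2.1
  BJ _ _ _ h := (fer h).2.2.1
  JB _ _ _ h := (fer h).2.2.2.1
  J_pcs _ _ _ h := (fer h).2.2.2.2.1
  J_supp _ _ _ h := (fer h).2.2.2.2.2.1
  zet_mem 𝔴 _ _ h _ hη := inv_mem (a_unit h) (fun _ => 𝔴.neg_mem (adw_mem c 𝔴 _ _)) hη
  a_zet _ _ _ h η := inv_apply (a_unit h) η
  A_sym _ _ _ h u w := by
    rw [A_apply h, A_apply h, Submodule.inner_starProjection_left_eq_right, om,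
      (kr_pd (psq_pd (K_pd h))).1, Submodule.inner_starProjection_left_eq_right]
  A_mem _ _ _ h W := by
    rw [A_apply h]
    exact Submodule.starProjection_apply_mem _ _
  A_G 𝔴 _ X h ξ := by
    rw [A_apply h, (Submodule.starProjection_apply_eq_zero_iff _).2
      ((Submodule.mem_orthogonal' _ (c.Gw 𝔴 X ξ)).2 fun w hw => by
        rw [inner_G, show c.dv 𝔴 X w = 0 from hw.2, inner_zero_right]), map_zero, map_zero]
  A_pos _ _ _ h _ hW h0 := A_pos h hW h0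
  Np_proj _ _ _ h := Np_proj h
  Np_rank _ _ _ h := Np_rank h
  P_comm 𝔴 _ X h y hy := by
    refine c.car.vac_theta_comm (fer h).2.2.2.2.1 ?_
    rw [← (fer h).2.2.2.2.2.2, ← sub_starProjection, ContinuousLinearMap.mul_apply,
      (Submodule.starProjection_apply_eq_zero_iff _).2 (by rwa [sub_orthogonal]), map_zero]
  P_odd _ _ _ h _ hy := c.car.vac_theta_vac (fer h).2.2.2.2.1 (J_fix h hy)
  P_ann _ _ _ h _ hy := by
    rw [Pw, mul_sub, c.car.vac_theta_J (J_fix h hy), mul_smul_comm, sub_self]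
  P_P0 𝔴 _ X h 𝔟 hb := by
    refine c.car.vac_comm (fer h).2.2.2.2.1 (c.isPCS_Gm 𝔟) ?_
    have e : 𝔴.starProjection * 𝔟.starProjection = 0 := hb.symm.starProjection_comp_starProjection
    rw [← (fer h).2.2.2.2.2.2, mul_assoc, kr_mul, e, kr_zero_right, mul_zero]

end Ctx

end Vale.Agent.P353
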