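import Vale.Agent.P353.Stmts
import Vale.Agent.P353.Psq
import Vale.Agent.P353.Gau

/-! Local data: smoothness. -/

noncomputable section

open MeasureTheory Filter Topology Complex Matrix
open scoped ContDiff RealInnerProductSpace

namespace Vale.Agent.P353

namespace Lm1bAux

theorem sm_inv {X V : Type} [NormedAddCommGroup X] [NormedSpace ℝ X] [NormedAddCommGroup V]
    [NormedSpace ℝ V] [CompleteSpace V] {K : X → V →L[ℝ] V} {x : X} (hK : ContDiffAt ℝ ∞ K x)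
    (h : IsUnit (K x)) : ContDiffAt ℝ ∞ (fun y => Ring.inverse (K y)) x := by
  have h1 : ContDiffAt ℝ ∞ Ring.inverse (K x) := contDiffAt_ringInverse ℝ h.unit
  exact h1.comp x hK

theorem pd_sq {V : Type} [NormedAddCommGroup V] [InnerProductSpace ℝ V] {B : V →L[ℝ] V}
    (h : IsPD B) : IsPD (B * B) := by
  refine ⟨fun u v => (h.1 _ _).trans (h.1 _ _), fun u hu => ?_⟩
  rw [mul_apply_eq_comp, ← h.1]
  refine real_inner_self_pos.2 fun h0 => ?_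
  have := h.2 u hu
  rw [h0, inner_zero_right] at this
  exact lt_irrefl _ this

theorem sm_kr {X : Type} [NormedAddCommGroup X] [NormedSpace ℝ X] {n n' d : ℕ}
    (M : Matrix (Fin n') (Fin n) ℝ) {a : X → Lg d →L[ℝ] Lg d} {x : X} (h : ContDiffAt ℝ ∞ a x) :
    ContDiffAt ℝ ∞ (fun y => kr M (a y)) x := by
  obtain ⟨L, hL⟩ := exists_krL (d := d) M
  simp only [← hL]
  exact L.contDiff.contDiffAt.comp x h

theorem sm_gauss {X E : Type} [NormedAddCommGroup X] [NormedSpace ℝ X] [NormedAddCommGroup E]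
    [InnerProductSpace ℝ E] [FiniteDimensional ℝ E] [MeasurableSpace E] [BorelSpace E]
    {U : Submodule ℝ E} {A : X → E →L[ℝ] E} {x : X} (hA : ContDiffAt ℝ ∞ A x) {a : ℝ} (ha : 0 < a)
    (h : ∀ w ∈ U, a * ‖w‖ ^ 2 ≤ ⟪w, A x w⟫) (W : E) :
    ContDiffAt ℝ ∞ (fun p : X × E => gauss U (A p.1) p.2) (x, W) := by
  have h1 : ContDiffAt ℝ ∞ (fun p : X × E => A p.1) (x, W) :=
    ContDiffAt.comp (x, W) hA contDiffAt_fst
  exact (ContDiffAt.comp (x, W) (contDiffAt_gnorm ha h) h1).mul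
    (((contDiffAt_snd.inner ℝ (h1.clm_apply contDiffAt_snd)).neg.div_const 2).exp)

theorem det_restrict {V : Type} [AddCommGroup V] [Module ℝ V] [FiniteDimensional ℝ V]
    {W : Submodule ℝ V} {a : V →ₗ[ℝ] V} (h : ∀ x, a x - x ∈ W) (h' : ∀ x ∈ W, a x ∈ W) :
    LinearMap.det (a.restrict h') = LinearMap.det a := by
  have e : W.mapQ W a h' = LinearMap.id := Submodule.linearMap_qext _ (LinearMap.ext fun x =>
    (Submodule.Quotient.eq W).2 (h x))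
  rw [LinearMap.det_eq_det_mul_det W a h', e, LinearMap.det_id, mul_one]

theorem iso_Wsl {d : ℕ} (𝔴 : Submodule ℝ (Lg d)) {v : Fin 9 → ℝ} (hv : v ⬝ᵥ v = 1) :
    ∃ e : (Wsl 𝔴 v × 𝔴) ≃ₗ[ℝ] sub 9 𝔴, (∀ p, (e p : Tn 9 d) = p.1 + tens v (p.2 : Lg d)) ∧
      MeasurePreserving e volume volume := by
  let T : 𝔴 →ₗ[ℝ] sub 9 𝔴 := LinearMap.codRestrict _ ((tens v).toLinearMap ∘ₗ 𝔴.subtype)
    fun η => tens_mem_sub v η.2
  let L : WithLp 2 (Wsl 𝔴 v × 𝔴) →ₗᵢ[ℝ] sub 9 𝔴 :=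
    { toLinearMap := (Submodule.inclusion (inf_le_left : Wsl 𝔴 v ≤ sub 9 𝔴)).coprod T ∘ₗ
        (WithLp.linearEquiv 2 ℝ (Wsl 𝔴 v × 𝔴)).toLinearMap
      norm_map' := fun p => by
        rw [← sq_eq_sq₀ (norm_nonneg _) (norm_nonneg _), WithLp.prod_norm_sq_eq_of_L2]
        change ‖(p.fst : Tn 9 d) + tens v (p.snd : Lg d)‖ ^ 2 =
          ‖(p.fst : Tn 9 d)‖ ^ 2 + ‖(p.snd : Lg d)‖ ^ 2
        have h0 : cv v (p.fst : Tn 9 d) = 0 := p.fst.2.2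
        rw [norm_add_sq_real, real_inner_comm, inner_tens_left, h0, inner_zero_right,
          ← real_inner_self_eq_norm_sq (tens v _), inner_tens, hv, real_inner_self_eq_norm_sq]
        ring }
  have hL : Function.Surjective L := fun x => by
    have h1 := cv_mem v x.2
    refine ⟨WithLp.toLp 2 (⟨(x : Tn 9 d) - tens v (cv v (x : Tn 9 d)),
      Submodule.sub_mem _ x.2 (tens_mem_sub v h1), ?_⟩, ⟨cv v (x : Tn 9 d), h1⟩),
      Subtype.ext (sub_add_cancel (x : Tn 9 d) _)⟩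
    change cv v ((x : Tn 9 d) - tens v (cv v (x : Tn 9 d))) = 0
    rw [map_sub, cv_tens, hv, one_smul, sub_self]
  let L' := LinearIsometryEquiv.ofSurjective L hL
  exact ⟨(WithLp.linearEquiv 2 ℝ (Wsl 𝔴 v × 𝔴)).symm.trans L'.toLinearEquiv, fun p => rfl,
    L'.measurePreserving.comp (WithLp.volume_preserving_toLp (Wsl 𝔴 v) 𝔴)⟩

theorem shear {A B : Type} [NormedAddCommGroup A] [InnerProductSpace ℝ A] [FiniteDimensional ℝ A]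
    [MeasurableSpace A] [BorelSpace A] [NormedAddCommGroup B] [InnerProductSpace ℝ B]
    [FiniteDimensional ℝ B] [MeasurableSpace B] [BorelSpace B] (b : B →ₗ[ℝ] A) (a : B →ₗ[ℝ] B)
    (ha : LinearMap.det a ≠ 0) : ∃ T : (A × B) ≃ₗ[ℝ] (A × B), (∀ p, T p = (p.1 + b p.2, a p.2)) ∧
      MeasurePreserving T volume (ENNReal.ofReal |(LinearMap.det a)⁻¹| • volume) := by
  let T : (A × B) →ₗ[ℝ] (A × B) := (LinearMap.id.coprod b).prod (a ∘ₗ LinearMap.snd ℝ A B)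
  have hT : Function.Injective T := (injective_iff_map_eq_zero _).2 fun p hp => by
    have h1 : a p.2 = 0 := congrArg Prod.snd hp
    have h2 : p.1 + b p.2 = 0 := congrArg Prod.fst hp
    have h3 : p.2 = 0 := by
      by_contra h
      exact ha (LinearMap.det_eq_zero_iff_ker_ne_bot.2 ((Submodule.ne_bot_iff _).2 ⟨_, h1, h⟩))
    rw [h3, map_zero, add_zero] at h2
    exact Prod.ext h2 h3
  refine ⟨LinearEquiv.ofInjectiveEndo T hT, fun p => rfl, ?_⟩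
  have h1 : MeasurePreserving a volume (ENNReal.ofReal |(LinearMap.det a)⁻¹| • volume) :=
    ⟨a.continuous_of_finiteDimensional.measurable,
      Measure.map_linearMap_addHaar_eq_smul_addHaar _ ha⟩
  have h2 := h1.skew_product (μc := (volume : Measure A)) (μd := volume)
    (g := fun η W => W + b η) (measurable_snd.add
      (b.continuous_of_finiteDimensional.measurable.comp measurable_fst))
    (Eventually.of_forall fun η => map_add_right_eq_self _ _)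
  have h3 := (Measure.measurePreserving_swap.comp h2).comp Measure.measurePreserving_swap
  rw [Measure.prod_smul_right] at h3
  exact h3

variable {N d : ℕ} {F : Type} [NormedAddCommGroup F] [InnerProductSpace ℂ F]
  [FiniteDimensional ℂ F] (c : Ctx N d F) (𝔴 : Submodule ℝ (Lg d))

theorem exists_adwL : ∃ L : Lg d →L[ℝ] Lg d →L[ℝ] Lg d, ∀ y, L y = c.adw 𝔴 y :=
  ⟨LinearMap.toContinuousLinearMap
    { toFun := c.adw 𝔴
      map_add' := fun x y => by simp only [Ctx.adw, c.ad_add, mul_add, add_mul]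
      map_smul' := fun t x => by
        simp only [Ctx.adw, c.ad_smul, mul_smul_comm, smul_mul_assoc, RingHom.id_apply] },
    fun _ => rfl⟩

theorem sm_adw (f : Tn 9 d →L[ℝ] Lg d) : ContDiff ℝ ∞ fun X => c.adw 𝔴 (f X) := by
  obtain ⟨L, hL⟩ := exists_adwL c 𝔴
  simp only [← hL]
  exact (L.comp f).contDiff

theorem sm_K : ContDiff ℝ ∞ (c.Kw 𝔴) :=
  (ContDiff.sum fun i _ => (sm_adw c 𝔴 (cmp i)).mul (sm_adw c 𝔴 (cmp i))).neg.add contDiff_const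

theorem sm_D : ContDiff ℝ ∞ (c.Dw 𝔴) := by
  obtain ⟨L, hL⟩ := c.exists_DwL 𝔴
  rw [← funext hL]
  exact L.contDiff

theorem sm_Gw : ContDiff ℝ ∞ (c.Gw 𝔴) :=
  ContDiff.sum fun i _ => contDiff_const.clm_comp (sm_adw c 𝔴 (cmp i)).neg

theorem sm_dv : ContDiff ℝ ∞ (c.dv 𝔴) :=
  ContDiff.sum fun i _ => (sm_adw c 𝔴 (cmp i)).clm_comp contDiff_const

theorem sm_aw (v : Fin 9 → ℝ) : ContDiff ℝ ∞ (c.aw 𝔴 v) :=
  (sm_adw c 𝔴 (cv v)).neg.add contDiff_const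

variable {c 𝔴} {v : Fin 9 → ℝ} {X : Tn 9 d}

theorem sm_om (h : c.S_lm1a) (hX : X ∈ c.Ow 𝔴 v) : ContDiffAt ℝ ∞ (c.om 𝔴) X :=
  contDiffAt_psq (sm_K c 𝔴).contDiffAt
    (mem_of_superset ((h.isOpen 𝔴 v).mem_nhds hX) fun Y hY => (h.K_pd 𝔴 v Y hY).1) (h.K_pd 𝔴 v X hX)

theorem sm_B (h : c.S_lm1a) (hX : X ∈ c.Ow 𝔴 v) : ContDiffAt ℝ ∞ (c.Bw 𝔴) X := by
  have h1 : ∀ Y ∈ c.Ow 𝔴 v, IsPD (-(c.Dw 𝔴 Y * c.Dw 𝔴 Y) + (1 - kr 1 𝔴.starProjection)) :=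
    fun Y hY => h.B_sq 𝔴 v Y hY ▸ pd_sq (h.B_pd 𝔴 v Y hY)
  exact contDiffAt_psq (((sm_D c 𝔴).mul (sm_D c 𝔴)).neg.add contDiff_const).contDiffAt
    (mem_of_superset ((h.isOpen 𝔴 v).mem_nhds hX) fun Y hY => (h1 Y hY).1) (h1 X hX)

theorem sm_J (h : c.S_lm1a) (hX : X ∈ c.Ow 𝔴 v) : ContDiffAt ℝ ∞ (c.Jw 𝔴) X :=
  (sm_D c 𝔴).contDiffAt.mul (sm_inv (sm_B h hX) (h.B_pd 𝔴 v X hX).isUnit)

theorem sm_P (h : c.S_lm1a) (hX : X ∈ c.Ow 𝔴 v) : ContDiffAt ℝ ∞ (c.Pw 𝔴) X := by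
  obtain ⟨Φ, hΦ, hΦ'⟩ := c.car.exists_smooth_vac
  exact (hΦ.contDiffAt.comp X (sm_J h hX)).congr_of_eventuallyEq
    (mem_of_superset ((h.isOpen 𝔴 v).mem_nhds hX) fun Y hY => hΦ' _ (h.J_pcs 𝔴 v Y hY))

theorem sm_Kinv (h : c.S_lm1a) (hX : X ∈ c.Ow 𝔴 v) :
    ContDiffAt ℝ ∞ (fun Y => Ring.inverse (c.Kw 𝔴 Y)) X :=
  sm_inv (sm_K c 𝔴).contDiffAt (h.K_pd 𝔴 v X hX).isUnit

theorem sm_A (h : c.S_lm1a) (hX : X ∈ c.Ow 𝔴 v) : ContDiffAt ℝ ∞ (c.Aw 𝔴) X := by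
  have h1 : ContDiffAt ℝ ∞ (fun Y => kr 1 𝔴.starProjection - c.PN 𝔴 Y) X :=
    contDiffAt_const.sub ((sm_Gw c 𝔴).contDiffAt.clm_comp
      ((sm_Kinv h hX).clm_comp (sm_dv c 𝔴).contDiffAt))
  exact (h1.mul (sm_kr 1 (sm_om h hX))).mul h1

theorem sm_j (h : c.S_lm1a) (hX : X ∈ c.Ow 𝔴 v) :
    ContDiffAt ℝ ∞ (fun Y => √(c.jw 𝔴 v Y)) X :=
  ((contDiff_det.comp (sm_aw c 𝔴 v)).contDiffAt.abs hX.1).sqrt (h.j_pos 𝔴 v X hX).ne'

theorem A_unif (h : c.S_lm1a) {K : Set (Tn 9 d)} (hK : IsCompact K) (hK' : K ⊆ c.Ow 𝔴 v) :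
    ∃ a > 0, ∃ M : ℝ, ∀ X ∈ K, ‖c.Aw 𝔴 X‖ ≤ M ∧ ∀ W ∈ Wsl 𝔴 v, a * ‖W‖ ^ 2 ≤ ⟪W, c.Aw 𝔴 X W⟫ := by
  have h1 : ContinuousOn (c.Aw 𝔴) K := fun X hX =>
    (sm_A h (hK' hX)).continuousAt.continuousWithinAt
  obtain ⟨a, ha, h2⟩ := exists_lower_compact hK h1 (Wsl 𝔴 v) fun X hX => h.A_pos 𝔴 v X (hK' hX)
  obtain ⟨M, hM⟩ := hK.exists_bound_of_continuousOn h1
  exact ⟨a, ha, M, fun X hX => ⟨hM X hX, h2 X hX⟩⟩

theorem sm_G (h : c.S_lm1a) {g : ℝ} (hg : 0 < g) (hX : X ∈ c.Ow 𝔴 v) (W : Tn 9 d) :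
    ContDiffAt ℝ ∞ (fun p : Tn 9 d × Tn 9 d => c.Gg 𝔴 v g p.1 p.2) (X, W) := by
  obtain ⟨a, ha, M, hM⟩ := A_unif h isCompact_singleton (Set.singleton_subset_iff.2 hX)
  refine sm_gauss ((sm_A h hX).const_smul g) (mul_pos hg ha) (fun w hw => ?_) W
  rw [_root_.smul_apply, real_inner_smul_right, mul_assoc]
  exact mul_le_mul_of_nonneg_left ((hM X rfl).2 w hw) hg.le

theorem d_j (h : c.S_lm1a) (hX : X ∈ c.Ow 𝔴 v) (Y : Tn 9 d) :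
    fderiv ℝ (fun Y => √(c.jw 𝔴 v Y)) X Y =
      √(c.jw 𝔴 v X) / 2 * ∑ a, ⟪onb 𝔴 a, c.ad (c.zet 𝔴 v X (onb 𝔴 a)) (cv v Y)⟫ := by
  obtain ⟨L, hL⟩ := exists_adwL c 𝔴
  obtain ⟨D, hD, hD'⟩ := hasFDerivAt_det hX.1
  have h1 : HasFDerivAt (c.aw 𝔴 v) (-(L.comp (cv v))) X := by
    have e : c.aw 𝔴 v = fun Y => -(L.comp (cv v)) Y + (1 - 𝔴.starProjection) :=
      funext fun Y => by rw [Ctx.aw, ← hL]; rfl
    rw [e]
    exact (L.comp (cv v)).hasFDerivAt.neg.add_const _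
  have hj := h.j_pos 𝔴 v X hX
  have h2 := ((hD.comp X h1).abs hX.1).sqrt hj.ne'
  have h3 : trR (Ring.inverse (c.aw 𝔴 v X) * -c.adw 𝔴 (cv v Y)) =
      ∑ a, ⟪onb 𝔴 a, c.ad (c.zet 𝔴 v X (onb 𝔴 a)) (cv v Y)⟫ := by
    have e : trR (Ring.inverse (c.aw 𝔴 v X) * -c.adw 𝔴 (cv v Y)) =
        trR (-c.adw 𝔴 (cv v Y) * Ring.inverse (c.aw 𝔴 v X)) := LinearMap.trace_mul_comm ℝ _ _
    have e' : -c.adw 𝔴 (cv v Y) * Ring.inverse (c.aw 𝔴 v X) = 𝔴.starProjection *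
        -(c.ad (cv v Y) * 𝔴.starProjection * Ring.inverse (c.aw 𝔴 v X)) := by
      refine ContinuousLinearMap.ext fun u => ?_
      simp only [Ctx.adw, mul_apply_eq_comp, _root_.neg_apply, map_neg]
    rw [e, e', ← sum_onb_trR]
    refine Finset.sum_congr rfl fun a _ => ?_
    rw [c.ad_anti (c.zet 𝔴 v X _), ← Submodule.starProjection_eq_self_iff.2
      (h.zet_mem 𝔴 v X hX _ (onb_mem 𝔴 a))]
    rfl
  refine (congrArg (fun A : Tn 9 d →L[ℝ] ℝ => A Y) h2.fderiv).trans ?_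
  change 1 / (2 * √(c.jw 𝔴 v X)) * ((SignType.sign (c.aw 𝔴 v X).det : ℝ) * D (-L (cv v Y))) = _
  rw [hD', hL, h3, ← mul_assoc (SignType.sign _ : ℝ), sign_mul_self]
  change 1 / (2 * √(c.jw 𝔴 v X)) * (c.jw 𝔴 v X * _) = _
  have h4 := Real.sqrt_pos.2 hj
  nth_rewrite 2 [← Real.mul_self_sqrt hj.le]
  field_simp

theorem split' (h : c.S_lm1a) (hv : v ⬝ᵥ v = 1) (hX : X ∈ c.Ow 𝔴 v) :
    ∃ e : (Wsl 𝔴 v × 𝔴) ≃L[ℝ] sub 9 𝔴, (∀ p, (e p : Tn 9 d) = p.1 + c.Gw 𝔴 X p.2) ∧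
      volume = ENNReal.ofReal (c.jw 𝔴 v X) • Measure.map e volume := by
  obtain ⟨e₀, he₀, hm₀⟩ := iso_Wsl 𝔴 hv
  have h1 : ∀ x, (c.aw 𝔴 v X).toLinearMap x - x ∈ 𝔴 := fun x => by
    have e : (c.aw 𝔴 v X).toLinearMap x - x = -c.adw 𝔴 (cv v X) x - 𝔴.starProjection x := by
      change -c.adw 𝔴 (cv v X) x + (x - 𝔴.starProjection x) - x = _
      abel
    rw [e]
    exact 𝔴.sub_mem (𝔴.neg_mem (𝔴.starProjection_apply_mem _)) (𝔴.starProjection_apply_mem _)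
  have h2 : ∀ x ∈ 𝔴, (c.aw 𝔴 v X).toLinearMap x ∈ 𝔴 := fun x hx => by
    have := 𝔴.add_mem (h1 x) hx
    rwa [sub_add_cancel] at this
  have h3 : LinearMap.det ((c.aw 𝔴 v X).toLinearMap.restrict h2) = (c.aw 𝔴 v X).det :=
    det_restrict h1 h2
  let b : 𝔴 →ₗ[ℝ] Wsl 𝔴 v := LinearMap.codRestrict _
    ((c.Gw 𝔴 X - tens v ∘L c.aw 𝔴 v X).toLinearMap ∘ₗ 𝔴.subtype) fun ξ =>
      ⟨Submodule.sub_mem _ (h.G_mem 𝔴 X ξ) (tens_mem_sub v (h2 ξ ξ.2)), by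
        change cv v (c.Gw 𝔴 X ξ - tens v (c.aw 𝔴 v X ξ)) = 0
        rw [map_sub, cv_tens, hv, one_smul, h.cv_G 𝔴 v X ξ ξ.2, sub_self]⟩
  obtain ⟨T, hT, hm⟩ := shear b _ (h3 ▸ hX.1)
  refine ⟨(T.trans e₀).toContinuousLinearEquiv, fun p => ?_, ?_⟩
  · change (e₀ (T p) : Tn 9 d) = _
    rw [he₀, hT]
    change (p.1 : Tn 9 d) + (c.Gw 𝔴 X p.2 - tens v (c.aw 𝔴 v X p.2)) + tens v (c.aw 𝔴 v X p.2) = _
    abel
  · have h4 := ((hm₀.smul_measure _).comp hm).map_eq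
    change _ = _ • Measure.map (e₀ ∘ T) volume
    rw [h4, smul_smul, h3, ← ENNReal.ofReal_mul (h.j_pos 𝔴 v X hX).le, Ctx.jw, ← abs_mul,
      mul_inv_cancel₀ hX.1, abs_one, ENNReal.ofReal_one, one_smul]

theorem split (h : c.S_lm1a) (hv : v ⬝ᵥ v = 1) (hX : X ∈ c.Ow 𝔴 v) {f : Tn 9 d → ℂ}
    (hf : Integrable fun W : sub 9 𝔴 => f W) :
    (Integrable fun p : Wsl 𝔴 v × 𝔴 => f (p.1 + c.Gw 𝔴 X p.2)) ∧
    ∫ W : sub 9 𝔴, f W = c.jw 𝔴 v X * ∫ W : Wsl 𝔴 v, ∫ ξ : 𝔴, f (W + c.Gw 𝔴 X ξ) := by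
  obtain ⟨e, he, hm⟩ := split' h hv hX
  have hj := h.j_pos 𝔴 v X hX
  have hemb : MeasurableEmbedding e := e.toHomeomorph.measurableEmbedding
  have h1 : Integrable fun p : Wsl 𝔴 v × 𝔴 => f (p.1 + c.Gw 𝔴 X p.2) := by
    rw [hm, integrable_smul_measure (ENNReal.ofReal_pos.2 hj).ne' ENNReal.ofReal_ne_top,
      hemb.integrable_map_iff] at hf
    simpa only [Function.comp_def, he] using hf
  refine ⟨h1, ?_⟩
  rw [hm, integral_smul_measure, hemb.integral_map, ENNReal.toReal_ofReal hj.le, real_smul,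
    ← integral_prod _ h1]
  simp only [he, Measure.volume_eq_prod]

end Lm1bAux

namespace Ctx

variable {N d : ℕ} {F : Type} [NormedAddCommGroup F] [InnerProductSpace ℂ F]
  [FiniteDimensional ℂ F] (c : Ctx N d F)

open Lm1bAux in
theorem p_lm1b (h_lm1a : c.S_lm1a) : c.S_lm1b where
  sm_om := fun _ _ _ hX => sm_om h_lm1a hX
  sm_B := fun _ _ _ hX => sm_B h_lm1a hX
  sm_J := fun _ _ _ hX => sm_J h_lm1a hX
  sm_P := fun _ _ _ hX => sm_P h_lm1a hX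
  sm_A := fun _ _ _ hX => sm_A h_lm1a hX
  sm_Kinv := fun _ _ _ hX => sm_Kinv h_lm1a hX
  sm_ainv := fun 𝔴 v _ hX => sm_inv (sm_aw c 𝔴 v).contDiffAt ((isUnit_iff_det_ne_zero _).2 hX.1)
  sm_j := fun _ _ _ hX => sm_j h_lm1a hX
  sm_G := fun _ _ _ hg _ hX W => sm_G h_lm1a hg hX W
  d_j := fun _ _ _ hX Y => d_j h_lm1a hX Y
  A_unif := fun _ _ _ hK hK' => A_unif h_lm1a hK hK'
  split := fun _ _ hv _ hX _ hf => split h_lm1a hv hX hf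
  split' := fun _ _ hv _ hX => split' h_lm1a hv hX

end Ctx

end Vale.Agent.P353
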