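import Vale.Agent.P353.Lm2Aux

/-! Local data: errors of the order of the curvature. -/

noncomputable section

open MeasureTheory Filter Topology Complex Matrix
open scoped ContDiff RealInnerProductSpace

namespace Vale.Agent.P353

namespace Lm2Aux

variable {N d : ℕ} {F : Type} [NormedAddCommGroup F] [InnerProductSpace ℂ F]
  [FiniteDimensional ℂ F] {c : Ctx N d F} {𝔴 : Submodule ℝ (Lg d)} {v : Fin 9 → ℝ} {X : Tn 9 d}
  {R b C : ℝ}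

/-- The pointwise hypotheses. -/
structure Pt (c : Ctx N d F) (𝔴 : Submodule ℝ (Lg d)) (v : Fin 9 → ℝ) (X : Tn 9 d)
    (R b C : ℝ) : Prop where
  h : c.S_lm1
  mem : X ∈ c.Ow 𝔴 v
  hp : ∀ i, ∀ x ∈ 𝔴, c.ad (cmp i X) x ∈ 𝔴
  hG : ∀ ξ ∈ 𝔴, c.Gw 𝔴 X ξ = c.vf ξ X
  hX : ‖X‖ ≤ R
  hK : ‖Ring.inverse (c.Kw 𝔴 X)‖ ≤ R
  hJ : ‖c.Jw 𝔴 X‖ ≤ R
  hb : 0 < b
  hω : ∀ u, b * ‖u‖ ^ 2 ≤ ⟪u, c.om 𝔴 X u⟫
  hB : ∀ u, b * ‖u‖ ^ 2 ≤ ⟪u, c.Bw 𝔴 X u⟫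
  hC : ‖-(c.Dw 𝔴 X * c.Dw 𝔴 X) + (1 - kr 1 𝔴.starProjection) - kr 1 (c.Kw 𝔴 X)‖ ≤
    C * √(c.Fsq X)

lemma sylv_ring {A : Type} [Ring A] (x y : A) : x * (x - y) + (x - y) * y = x * x - y * y := by
  noncomm_ring

lemma sylv_ring' {A : Type} [Ring A] (a w : A) :
    w * (a * w - w * a) + (a * w - w * a) * w = a * (w * w) - (w * w) * a := by
  noncomm_ring

lemma mul_ap {V : Type} [NormedAddCommGroup V] [NormedSpace ℝ V] (f g : V →L[ℝ] V) (x : V) :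
    (f * g) x = f (g x) := rfl

namespace Pt
variable (p : Pt c 𝔴 v X R b C)
include p

lemma R_nonneg : 0 ≤ R := (norm_nonneg _).trans p.hX

lemma B_sub : ‖c.Bw 𝔴 X - kr 1 (c.om 𝔴 X)‖ ≤ C / (2 * b) * √(c.Fsq X) := by
  have h1 := sylvester (kr_sym (n := 16) (p.h.om_pd _ _ _ p.mem).1) (p.h.B_pd _ _ _ p.mem).1 p.hb
    (kr_lower p.hω) p.hB (c.Bw 𝔴 X - kr 1 (c.om 𝔴 X))
  rw [← ContinuousLinearMap.mul_def, ← ContinuousLinearMap.mul_def, sylv_ring, kr_mul,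
    p.h.B_sq _ _ _ p.mem, p.h.om_sq _ _ _ p.mem, Matrix.one_mul] at h1
  have := p.hb
  rw [div_mul_eq_mul_div, le_div_iff₀ (by positivity)]
  linarith [p.hC]

lemma comm_om (i : Fin 9) : ‖c.adw 𝔴 (cmp i X) * c.om 𝔴 X - c.om 𝔴 X * c.adw 𝔴 (cmp i X)‖ ≤
    36 * R / b * √(c.Fsq X) := by
  have h0 := (p.h.om_pd _ _ _ p.mem).1
  have h1 := sylvester h0 h0 p.hb p.hω p.hω
    (c.adw 𝔴 (cmp i X) * c.om 𝔴 X - c.om 𝔴 X * c.adw 𝔴 (cmp i X))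
  rw [← ContinuousLinearMap.mul_def, ← ContinuousLinearMap.mul_def, sylv_ring',
    p.h.om_sq _ _ _ p.mem] at h1
  have h2 := norm_comm_K c p.hp i
  have h3 := mul_le_mul_of_nonneg_right p.hX (Real.sqrt_nonneg (c.Fsq X))
  rw [div_mul_eq_mul_div, le_div_iff₀ p.hb]
  linarith

lemma norm_T (W : Tn 9 d) : ‖c.dv 𝔴 X (kr 1 (c.om 𝔴 X) W) - c.om 𝔴 X (c.dv 𝔴 X W)‖ ≤
    9 * (36 * R / b * √(c.Fsq X)) * ‖W‖ := by
  refine le_of_eq_of_le ?_ (norm_sum_cmp p.comm_om W)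
  rw [dv_apply, dv_apply, map_sum, ← Finset.sum_sub_distrib]
  simp only [cmp_kr_one, _root_.sub_apply, ContinuousLinearMap.mul_def,
    ContinuousLinearMap.comp_apply]

lemma norm_G (ξ : Lg d) : ‖c.Gw 𝔴 X ξ‖ ≤ 2 * R * ‖ξ‖ := by
  rw [← G_P, p.hG _ (𝔴.starProjection_apply_mem ξ)]
  refine (c.norm_vf_le _ _).trans ?_
  have := mul_le_mul (𝔴.norm_starProjection_apply_le ξ) p.hX (norm_nonneg _) (norm_nonneg _)
  linarith

lemma norm_Ki (ξ : Lg d) : ‖Ring.inverse (c.Kw 𝔴 X) ξ‖ ≤ R * ‖ξ‖ :=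
  (ContinuousLinearMap.le_opNorm _ _).trans (mul_le_mul_of_nonneg_right p.hK (norm_nonneg _))

lemma Ki_K (ξ : Lg d) : Ring.inverse (c.Kw 𝔴 X) (c.Kw 𝔴 X ξ) = ξ := by
  rw [← ContinuousLinearMap.comp_apply, ← ContinuousLinearMap.mul_def,
    Ring.inverse_mul_cancel _ (p.h.K_pd _ _ _ p.mem).isUnit]
  rfl

lemma om_mem {ξ : Lg d} (hξ : ξ ∈ 𝔴) : c.om 𝔴 X ξ ∈ 𝔴 := by
  rw [← Submodule.starProjection_eq_self_iff.2 hξ, ← ContinuousLinearMap.comp_apply,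
    ← ContinuousLinearMap.mul_def, p.h.om_P _ _ _ p.mem]
  exact 𝔴.starProjection_apply_mem _

lemma Ki_mem {ξ : Lg d} (hξ : ξ ∈ 𝔴) : Ring.inverse (c.Kw 𝔴 X) ξ ∈ 𝔴 := by
  obtain ⟨u, hu⟩ := (p.h.K_pd _ _ _ p.mem).isUnit
  have h1 : Commute (c.om 𝔴 X) 𝔴.starProjection := p.h.om_P _ _ _ p.mem
  have h2 : Commute (u : Lg d →L[ℝ] Lg d) 𝔴.starProjection := by
    rw [hu, ← p.h.om_sq _ _ _ p.mem]; exact h1.mul_left h1
  rw [← Submodule.starProjection_eq_self_iff.2 hξ, ← ContinuousLinearMap.comp_apply,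
    ← ContinuousLinearMap.mul_def, ← hu, Ring.inverse_unit, h2.units_inv_left.eq]
  exact 𝔴.starProjection_apply_mem _

lemma Q_apply {W : Tn 9 d} (hW : W ∈ sub 9 𝔴) : (c.Np 𝔴 X).starProjection W =
    W - c.Gw 𝔴 X (Ring.inverse (c.Kw 𝔴 X) (c.dv 𝔴 X W)) := by
  rw [p.h.Np_proj _ _ _ p.mem, ← sub_starProjection, _root_.sub_apply,
    Submodule.starProjection_eq_self_iff.2 hW]
  rfl

lemma part1 (α : Fin 16) {W : Tn 9 d} (hW : W ∈ sub 9 𝔴) :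
    ‖fderiv ℝ (c.Phi (eb α)) X W + c.Jw 𝔴 X (c.sE (eb α) (c.Aw 𝔴 X W))‖ ≤
      (108 * R ^ 2 + R * (C / (2 * b)) + 648 * R ^ 4 / b) * √(c.Fsq X) * ‖W‖ := by
  have hR := p.R_nonneg
  have hb := p.hb
  obtain ⟨n, hn⟩ : ∃ n, n = (c.Np 𝔴 X).starProjection W := ⟨_, rfl⟩
  have hn0 : n ∈ c.Np 𝔴 X := hn ▸ Submodule.starProjection_apply_mem _ _
  have hn1 : n ∈ sub 9 𝔴 := hn0.1
  have hn2 : c.dv 𝔴 X n = 0 := hn0.2
  have hn3 : ‖n‖ ≤ ‖W‖ := hn ▸ Submodule.norm_starProjection_apply_le _ _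
  obtain ⟨ξ, hξ⟩ : ∃ ξ, ξ = Ring.inverse (c.Kw 𝔴 X) (c.dv 𝔴 X W) := ⟨_, rfl⟩
  have hξ1 : ξ ∈ 𝔴 := hξ ▸ p.Ki_mem (p.h.dv_mem _ _ _)
  have hξ2 : ‖ξ‖ ≤ R * (9 * (2 * R) * ‖W‖) := by
    rw [hξ]
    refine (p.norm_Ki _).trans (mul_le_mul_of_nonneg_left ?_ hR)
    rw [dv_apply]
    exact norm_sum_cmp (fun i => (norm_adw c _ _).trans
      (by linarith [norm_cmp_le i X, p.hX])) W
  have hW' : W = n + c.vf ξ X := by rw [hn, p.Q_apply hW, ← hξ, p.hG ξ hξ1, sub_add_cancel]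
  have hΩ : kr 1 (c.om 𝔴 X) n ∈ sub 9 𝔴 := mem_sub.2 fun i => by
    rw [cmp_kr_one]; exact p.om_mem (mem_sub.1 hn1 i)
  obtain ⟨z, hz⟩ : ∃ z, z = c.Gw 𝔴 X (Ring.inverse (c.Kw 𝔴 X)
    (c.dv 𝔴 X (kr 1 (c.om 𝔴 X) n))) := ⟨_, rfl⟩
  have hA : c.Aw 𝔴 X W = kr 1 (c.om 𝔴 X) n - z := by
    rw [hz, ← p.Q_apply hΩ, hn, Ctx.Aw, ← p.h.Np_proj _ _ _ p.mem, mul_ap, mul_ap]
  have hz1 : ‖z‖ ≤ 2 * R * (R * (9 * (36 * R / b * √(c.Fsq X)) * ‖W‖)) := by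
    have h1 := p.norm_T n
    rw [hn2, map_zero, sub_zero] at h1
    rw [hz]
    refine (p.norm_G _).trans (mul_le_mul_of_nonneg_left ((p.norm_Ki _).trans
      (mul_le_mul_of_nonneg_left (h1.trans ?_) hR)) (by positivity))
    exact mul_le_mul_of_nonneg_left hn3 (by positivity)
  have hD : fderiv ℝ (c.Phi (eb α)) X W = -c.Jw 𝔴 X (c.Bw 𝔴 X (c.sE (eb α) n)) +
      kr 1 (c.ad ξ) (c.Phi (eb α) X) := by
    conv_lhs => rw [hW']
    rw [map_add, c.fderiv_Phi_vf, fderiv_off c p.hp hn1, hn2, map_zero, add_zero,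
      ← p.h.JB _ _ _ p.mem, mul_ap]
  have hE : fderiv ℝ (c.Phi (eb α)) X W + c.Jw 𝔴 X (c.sE (eb α) (c.Aw 𝔴 X W)) =
      kr 1 (c.ad ξ) (c.Phi (eb α) X) - c.Jw 𝔴 X
        ((c.Bw 𝔴 X - kr (1 : M16) (c.om 𝔴 X)) (c.sE (eb α) n) + c.sE (eb α) z) := by
    rw [hD, hA, map_sub, c.sE_kr, _root_.sub_apply, map_sub, map_add, map_sub]
    abel
  have h1 : ‖c.Phi (eb α) X‖ ≤ 3 * √(c.Fsq X) := by
    refine le_of_sq_le_sq ?_ (by positivity)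
    rw [mul_pow, Real.sq_sqrt (c.Fsq_nonneg X)]
    linarith [c.norm_Phi_le α X, c.Fsq_nonneg X]
  have h2 : ‖kr (1 : M16) (c.ad ξ)‖ ≤ 2 * (R * (9 * (2 * R) * ‖W‖)) := by
    refine (norm_kr_one_le _).trans ?_
    rw [← adw_top]
    exact (norm_adw c _ _).trans (by linarith)
  have h3 := (ContinuousLinearMap.le_opNorm _ _).trans
    (mul_le_mul h2 h1 (norm_nonneg _) (by positivity))
  have h4 : ‖(c.Bw 𝔴 X - kr (1 : M16) (c.om 𝔴 X)) (c.sE (eb α) n)‖ ≤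
      C / (2 * b) * √(c.Fsq X) * ‖W‖ :=
    (ContinuousLinearMap.le_opNorm _ _).trans (mul_le_mul p.B_sub (by rwa [norm_sE])
      (norm_nonneg _) ((norm_nonneg _).trans p.B_sub))
  have h6 : ‖(c.Bw 𝔴 X - kr (1 : M16) (c.om 𝔴 X)) (c.sE (eb α) n) + c.sE (eb α) z‖ ≤ _ :=
    norm_add_le_of_le h4 ((norm_sE c α z).trans_le hz1)
  have h5 := ((c.Jw 𝔴 X).le_opNorm _).trans (mul_le_mul p.hJ h6 (norm_nonneg _) hR)
  rw [hE]
  refine (norm_sub_le_of_le h3 h5).trans_eq ?_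
  ring

lemma trace_le : trR (c.Bw 𝔴 X * -(c.Jw 𝔴 X * c.Jw 𝔴 X)) / 4 ≤ trR (c.Aw 𝔴 X) / 2 +
    (Module.finrank ℝ (Lg d) * (324 * R ^ 3 / b) + Module.finrank ℝ (Tn 16 d) * (C / (8 * b))) *
      √(c.Fsq X) := by
  have hR := p.R_nonneg
  have hb := p.hb
  have h1 : trR (c.Bw 𝔴 X * -(c.Jw 𝔴 X * c.Jw 𝔴 X)) =
      trR ((c.Bw 𝔴 X - kr 1 (c.om 𝔴 X)) * kr 1 𝔴.starProjection) +
        16 * trR (c.om 𝔴 X * 𝔴.starProjection) := by
    rw [p.h.J_supp _ _ _ p.mem, sub_mul, trR_sub, kr_mul, trR_kr]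
    simp
  have h2 := abs_trR_le (a := (c.Bw 𝔴 X - kr 1 (c.om 𝔴 X)) * kr 1 𝔴.starProjection)
    (C := C / (2 * b) * √(c.Fsq X)) fun u => by
      rw [← sub_starProjection, mul_ap]
      exact (ContinuousLinearMap.le_opNorm _ _).trans (mul_le_mul p.B_sub
        (Submodule.norm_starProjection_apply_le _ u) (norm_nonneg _)
        ((norm_nonneg _).trans p.B_sub))
  obtain ⟨Z, hZ⟩ : ∃ Z, Z = (Ring.inverse (c.Kw 𝔴 X) ∘L c.dv 𝔴 X) ∘L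
    (kr 1 (c.om 𝔴 X) ∘L c.Gw 𝔴 X) := ⟨_, rfl⟩
  have h3 : trR (c.Aw 𝔴 X) = 9 * trR (c.om 𝔴 X * 𝔴.starProjection) - trR Z := by
    have h4 : trR (c.Aw 𝔴 X) = trR (kr 1 (c.om 𝔴 X) * (c.Np 𝔴 X).starProjection) := by
      rw [Ctx.Aw, ← p.h.Np_proj _ _ _ p.mem, mul_assoc, ContinuousLinearMap.mul_def, trR_comp,
        ← ContinuousLinearMap.mul_def, mul_assoc,
        (Submodule.isIdempotentElem_starProjection _).eq]
    rw [h4, p.h.Np_proj _ _ _ p.mem, mul_sub, trR_sub, kr_mul, trR_kr, hZ, trR_comp]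
    congr 1
    simp
  have h5 := abs_trR_le (a := Z - c.om 𝔴 X * 𝔴.starProjection)
    (C := R * (9 * (36 * R / b * √(c.Fsq X)) * (2 * R))) fun u => by
      have h6 : c.om 𝔴 X (𝔴.starProjection u) =
          Ring.inverse (c.Kw 𝔴 X) (c.om 𝔴 X (c.dv 𝔴 X (c.Gw 𝔴 X u))) := by
        rw [← G_P, p.h.dv_G _ _ _ (𝔴.starProjection_apply_mem u)]
        conv_lhs => rw [← p.Ki_K (c.om 𝔴 X _)]
        rw [← p.h.om_sq _ _ _ p.mem]
        simp only [mul_ap]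
      have h7 : (Z - c.om 𝔴 X * 𝔴.starProjection) u = Ring.inverse (c.Kw 𝔴 X)
          (c.dv 𝔴 X (kr 1 (c.om 𝔴 X) (c.Gw 𝔴 X u)) - c.om 𝔴 X (c.dv 𝔴 X (c.Gw 𝔴 X u))) := by
        rw [map_sub, ← h6, hZ, _root_.sub_apply, mul_ap]
        simp only [ContinuousLinearMap.comp_apply]
      rw [h7, mul_assoc R, mul_assoc _ (2 * R)]
      exact (p.norm_Ki _).trans (mul_le_mul_of_nonneg_left ((p.norm_T _).trans
        (mul_le_mul_of_nonneg_left (p.norm_G u) (by positivity))) hR)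
  rw [trR_sub, abs_le] at h5
  rw [abs_le] at h2
  have h8 : (Module.finrank ℝ (Lg d) * (324 * R ^ 3 / b) +
      Module.finrank ℝ (Tn 16 d) * (C / (8 * b))) * √(c.Fsq X) =
      Module.finrank ℝ (Lg d) * (R * (9 * (36 * R / b * √(c.Fsq X)) * (2 * R))) / 2 +
        Module.finrank ℝ (Tn 16 d) * (C / (2 * b) * √(c.Fsq X)) / 4 := by
    field_simp
    ring
  rw [h1, h3, h8]
  linarith [h5.2, h2.2]

end Pt

lemma norm_W {a : Lg d →L[ℝ] Lg d} (ha : a * c.aw 𝔴 v X = 1) (hR : ‖a‖ ≤ R) (hv : v ⬝ᵥ v = 1)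
    (hF : ∀ j, c.ad (cv v X) (cmp j X) ∈ 𝔴ᗮ) {W : Tn 9 d} (hW : W ∈ Wsl 𝔴 v) :
    ‖W‖ ^ 2 ≤ 9 * R ^ 2 * c.Fsq (X + W) := by
  have hR0 := (norm_nonneg _).trans hR
  have hv1 : ∀ i, |v i| ≤ 1 := fun i => by
    have := Finset.single_le_sum (f := fun i => v i * v i) (fun i _ => mul_self_nonneg _)
      (Finset.mem_univ i)
    rw [← sq_le_one_iff_abs_le_one, sq]
    exact this.trans_eq hv
  rw [norm_sq_eq_sum_cmp, Ctx.Fsq, Finset.sum_comm, Finset.mul_sum]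
  refine Finset.sum_le_sum fun j _ => ?_
  have hj : cmp j W ∈ 𝔴 := mem_sub.1 hW.1 j
  have h0 : cv v W = 0 := hW.2
  have h1 : ∑ i, v i • c.ad (cmp i (X + W)) (cmp j (X + W)) =
      c.ad (cv v X) (cmp j X) + c.ad (cv v X) (cmp j W) := by
    rw [← map_add, ← map_add, ← add_zero (cv v X), ← h0, ← map_add, cv_apply, c.ad_sum,
      _root_.sum_apply]
    exact Finset.sum_congr rfl fun i _ => by rw [c.ad_smul]; rfl
  have h2 : c.aw 𝔴 v X (cmp j W) =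
      -𝔴.starProjection (∑ i, v i • c.ad (cmp i (X + W)) (cmp j (X + W))) := by
    rw [h1, map_add, (Submodule.starProjection_apply_eq_zero_iff _).2 (hF j), zero_add]
    change -𝔴.starProjection (c.ad (cv v X) (𝔴.starProjection (cmp j W))) +
      (cmp j W - 𝔴.starProjection (cmp j W)) = _
    rw [Submodule.starProjection_eq_self_iff.2 hj, sub_self, add_zero]
  have h3 : ‖cmp j W‖ ≤ R * ∑ i, ‖c.ad (cmp i (X + W)) (cmp j (X + W))‖ := by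
    have h4 : cmp j W = a (c.aw 𝔴 v X (cmp j W)) := by
      rw [← ContinuousLinearMap.comp_apply, ← ContinuousLinearMap.mul_def, ha]; rfl
    rw [h4, h2]
    refine (a.le_opNorm _).trans (mul_le_mul hR ?_ (norm_nonneg _) hR0)
    rw [norm_neg]
    refine (𝔴.norm_starProjection_apply_le _).trans (norm_sum_le_of_le _ fun i _ => ?_)
    rw [norm_smul]
    exact mul_le_of_le_one_left (norm_nonneg _) (hv1 i)
  have h5 := sq_sum_le_card_mul_sum_sq (s := Finset.univ)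
    (f := fun i => ‖c.ad (cmp i (X + W)) (cmp j (X + W))‖)
  simp only [Finset.card_univ, Fintype.card_fin, Nat.cast_ofNat] at h5
  calc ‖cmp j W‖ ^ 2 ≤ (R * ∑ i, ‖c.ad (cmp i (X + W)) (cmp j (X + W))‖) ^ 2 := by gcongr
    _ ≤ _ := by rw [mul_pow]; nlinarith [sq_nonneg R]

lemma Fsq_le (hp : ∀ i, ∀ x ∈ 𝔴, c.ad (cmp i X) x ∈ 𝔴)
    (hF : ∀ i j, c.ad (cmp i X) (cmp j X) ∈ 𝔴ᗮ) {W : Tn 9 d} (hW : W ∈ sub 9 𝔴) :
    c.Fsq X ≤ 2 * c.Fsq (X + W) + 648 * ‖W‖ ^ 4 := by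
  have h : ∀ i j, ‖c.ad (cmp i X) (cmp j X)‖ ^ 2 ≤
      2 * ‖c.ad (cmp i (X + W)) (cmp j (X + W))‖ ^ 2 + 8 * ‖W‖ ^ 4 := by
    intro i j
    have h1 : c.ad (cmp i X) (cmp j X) = 𝔴ᗮ.starProjection
        (c.ad (cmp i (X + W)) (cmp j (X + W)) - c.ad (cmp i W) (cmp j W)) := by
      have h2 : c.ad (cmp i X) (cmp j W) - c.ad (cmp j X) (cmp i W) ∈ 𝔴ᗮᗮ :=
        𝔴.le_orthogonal_orthogonal
          (𝔴.sub_mem (hp i _ (mem_sub.1 hW j)) (hp j _ (mem_sub.1 hW i)))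
      have h3 : c.ad (cmp i (X + W)) (cmp j (X + W)) - c.ad (cmp i W) (cmp j W) =
          c.ad (cmp i X) (cmp j X) + (c.ad (cmp i X) (cmp j W) - c.ad (cmp j X) (cmp i W)) := by
        rw [map_add, map_add, c.ad_add, _root_.add_apply, map_add, map_add,
          c.ad_anti (cmp i W) (cmp j X)]
        abel
      rw [h3, map_add, Submodule.starProjection_eq_self_iff.2 (hF i j),
        (Submodule.starProjection_apply_eq_zero_iff _).2 h2, add_zero]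
    have h4 : ‖c.ad (cmp i W) (cmp j W)‖ ≤ 2 * ‖W‖ ^ 2 := (c.norm_ad_le _ _).trans (by
      have := mul_le_mul (norm_cmp_le i W) (norm_cmp_le j W) (norm_nonneg _) (norm_nonneg _)
      linarith)
    have h5 : ‖c.ad (cmp i X) (cmp j X)‖ ≤
        ‖c.ad (cmp i (X + W)) (cmp j (X + W))‖ + 2 * ‖W‖ ^ 2 := by
      rw [h1]
      exact (Submodule.norm_starProjection_apply_le _ _).trans
        ((norm_sub_le _ _).trans (by linarith))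
    have h6 := pow_le_pow_left₀ (norm_nonneg _) h5 2
    nlinarith [sq_nonneg (‖c.ad (cmp i (X + W)) (cmp j (X + W))‖ - 2 * ‖W‖ ^ 2)]
  refine (Finset.sum_le_sum fun i _ => Finset.sum_le_sum fun j _ => h i j).trans_eq ?_
  simp only [Finset.sum_add_distrib, ← Finset.mul_sum, Finset.sum_const, Finset.card_univ,
    Fintype.card_fin, Ctx.Fsq]
  simp only [nsmul_eq_mul]; push_cast; ring

end Lm2Aux

namespace Ctx

variable {N d : ℕ} {F : Type} [NormedAddCommGroup F] [InnerProductSpace ℂ F]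
  [FiniteDimensional ℂ F] (c : Ctx N d F)

open Lm2Aux in
theorem p_lm2 (h_lm1 : c.S_lm1) : c.S_lm2 := by
  intro π π' v hπ hv K hK hO hS
  obtain ⟨C, hC0, hC⟩ := exists_C1 c
  obtain ⟨b₁, hb₁, h1⟩ := exists_lower_compact hK
    (fun X hX => (h_lm1.sm_om _ _ X (hO hX)).continuousAt.continuousWithinAt) ⊤
    fun X hX u _ => (h_lm1.om_pd _ _ X (hO hX)).2 u
  obtain ⟨b₂, hb₂, h2⟩ := exists_lower_compact hK
    (fun X hX => (h_lm1.sm_B _ _ X (hO hX)).continuousAt.continuousWithinAt) ⊤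
    fun X hX u _ => (h_lm1.B_pd _ _ X (hO hX)).2 u
  obtain ⟨R, hR⟩ := hK.exists_bound_of_continuousOn (f := fun X =>
    ((X, Ring.inverse (c.Kw (c.off π π') X)),
      (c.Jw (c.off π π') X, Ring.inverse (c.aw (c.off π π') v X)))) fun X hX =>
    ((continuousAt_id.prodMk (h_lm1.sm_Kinv _ _ X (hO hX)).continuousAt).prodMk
      ((h_lm1.sm_J _ _ X (hO hX)).continuousAt.prodMk
        (h_lm1.sm_ainv _ _ X (hO hX)).continuousAt)).continuousWithinAt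
  simp only [Prod.norm_mk, max_le_iff] at hR
  have hb : 0 < min b₁ b₂ := lt_min hb₁ hb₂
  obtain ⟨M₁, hM₁⟩ : ∃ M, M = 108 * R ^ 2 + |R| * (C / (2 * min b₁ b₂)) + 648 * R ^ 4 / min b₁ b₂ :=
    ⟨_, rfl⟩
  obtain ⟨M₂, hM₂⟩ : ∃ M, M = Module.finrank ℝ (Lg d) * (324 * |R| ^ 3 / min b₁ b₂) +
    Module.finrank ℝ (Tn 16 d) * (C / (8 * min b₁ b₂)) := ⟨_, rfl⟩
  have hM₁' : 0 ≤ M₁ := by rw [hM₁]; positivity
  have hM₂' : 0 ≤ M₂ := by rw [hM₂]; positivity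
  refine ⟨min b₁ b₂, hb, M₁ + M₂ + 9 * R ^ 2 + 648, by positivity, fun X hX => ?_⟩
  have hp : ∀ i, ∀ x ∈ c.off π π', c.ad (cmp i X) x ∈ c.off π π' := fun i x hx =>
    c.ad_mem_off hπ (mem_sub.1 (hS X hX) i) hx
  have hF : ∀ y ∈ c.blk π', ∀ j, c.ad y (cmp j X) ∈ (c.off π π')ᗮ := fun y hy j =>
    Submodule.orthogonal_le inf_le_right ((c.blk π').le_orthogonal_orthogonal
      (c.ad_mem_ss hy (mem_sub.1 (hS X hX) j)).1)
  have p : Pt c (c.off π π') v X R (min b₁ b₂) C :=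
    ⟨h_lm1, hO hX, hp, h_lm1.G_eq π π' hπ X (hS X hX), (hR X hX).1.1, (hR X hX).1.2,
      (hR X hX).2.1, hb, fun u => (mul_le_mul_of_nonneg_right (min_le_left _ _)
        (sq_nonneg _)).trans (h1 X hX u trivial), fun u => (mul_le_mul_of_nonneg_right
        (min_le_right _ _) (sq_nonneg _)).trans (h2 X hX u trivial), hC _ X hp⟩
  rw [abs_of_nonneg p.R_nonneg] at hM₁ hM₂
  have hf := Real.sqrt_nonneg (c.Fsq X)
  refine ⟨fun α W hW => ⟨fderiv_mem c hp hW _, (p.part1 α hW).trans ?_⟩, fun a => ?_,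
    fun W hW => ⟨?_, ?_⟩⟩
  · rw [← hM₁]
    gcongr
    linarith [sq_nonneg R]
  · have h3 := c.car.gap (h_lm1.J_pcs _ _ X (hO hX)) (h_lm1.B_pd _ _ X (hO hX)).1
      (h_lm1.BJ _ _ X (hO hX)) (fun u => p.hB _) hb.le a
    simp only [h_lm1.JB _ _ X (hO hX)] at h3
    have h4 := p.trace_le
    rw [← hM₂] at h4
    have h5 : M₂ * √(c.Fsq X) ≤ (M₁ + M₂ + 9 * R ^ 2 + 648) * √(c.Fsq X) :=
      mul_le_mul_of_nonneg_right (by linarith [sq_nonneg R]) hf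
    have h6 := mul_le_mul_of_nonneg_right (neg_le_neg (h4.trans (add_le_add_right h5 _)))
      (sq_nonneg ‖a‖)
    exact (add_le_add_left h6 _).trans h3
  · refine (norm_W (Ring.inverse_mul_cancel _ ((isUnit_iff_det_ne_zero _).2 (hO hX).1))
      (hR X hX).2.2 hv (hF _ (cv_mem v (hS X hX))) hW).trans ?_
    exact mul_le_mul_of_nonneg_right (by linarith) (c.Fsq_nonneg _)
  · refine (Fsq_le hp (fun i => hF _ (mem_sub.1 (hS X hX) i)) hW.1).trans ?_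
    gcongr
    linarith [sq_nonneg R]

end Ctx

end Vale.Agent.P353
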