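import Vale.Agent.P353.Stmts
import Vale.Agent.P353.Psq

/-! Local data: algebraic identities and pointwise bounds. -/

noncomputable section

open MeasureTheory Filter Topology Complex Matrix
open scoped ContDiff RealInnerProductSpace

namespace Vale.Agent.P353.Lm2Aux

variable {N d : ℕ} {F : Type} [NormedAddCommGroup F] [InnerProductSpace ℂ F]
  [FiniteDimensional ℂ F] (c : Ctx N d F) {𝔴 : Submodule ℝ (Lg d)}

lemma PP (𝔴 : Submodule ℝ (Lg d)) : 𝔴.starProjection * 𝔴.starProjection = 𝔴.starProjection :=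
  (Submodule.isIdempotentElem_starProjection 𝔴).eq

lemma norm_adw (𝔴 : Submodule ℝ (Lg d)) (y : Lg d) : ‖c.adw 𝔴 y‖ ≤ 2 * ‖y‖ := by
  refine ContinuousLinearMap.opNorm_le_bound _ (by positivity) fun u => ?_
  calc ‖c.adw 𝔴 y u‖ ≤ ‖c.ad y (𝔴.starProjection u)‖ := 𝔴.norm_starProjection_apply_le _
    _ ≤ 2 * ‖y‖ * ‖𝔴.starProjection u‖ := c.norm_ad_le _ _
    _ ≤ _ := mul_le_mul_of_nonneg_left (𝔴.norm_starProjection_apply_le _) (by positivity)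

lemma sq_F (X : Tn 9 d) (i j : Fin 9) : ‖c.ad (cmp i X) (cmp j X)‖ ^ 2 ≤ c.Fsq X :=
  (Finset.single_le_sum (f := fun j => ‖c.ad (cmp i X) (cmp j X)‖ ^ 2)
    (fun _ _ => by positivity) (Finset.mem_univ j)).trans
    (Finset.single_le_sum (f := fun i => ∑ j, ‖c.ad (cmp i X) (cmp j X)‖ ^ 2)
      (fun _ _ => by positivity) (Finset.mem_univ i))

lemma norm_F (X : Tn 9 d) (i j : Fin 9) : ‖c.ad (cmp i X) (cmp j X)‖ ≤ √(c.Fsq X) :=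
  Real.le_sqrt_of_sq_le (sq_F c X i j)

lemma adw_P (y : Lg d) : c.adw 𝔴 y * 𝔴.starProjection = c.adw 𝔴 y := by
  rw [Ctx.adw, mul_assoc, PP]

lemma P_adw (y : Lg d) : 𝔴.starProjection * c.adw 𝔴 y = c.adw 𝔴 y := by
  rw [Ctx.adw, ← mul_assoc, ← mul_assoc, PP]

lemma adw_apply {y : Lg d} (hy : ∀ x ∈ 𝔴, c.ad y x ∈ 𝔴) {x : Lg d} (hx : x ∈ 𝔴) :
    c.adw 𝔴 y x = c.ad y x := by
  change 𝔴.starProjection (c.ad y (𝔴.starProjection x)) = _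
  rw [Submodule.starProjection_eq_self_iff.2 hx, Submodule.starProjection_eq_self_iff.2 (hy x hx)]

lemma adw_top (y : Lg d) : c.adw ⊤ y = c.ad y := by
  ext1 x; exact adw_apply c (fun _ _ => Submodule.mem_top) Submodule.mem_top

lemma adw_comm {y z : Lg d} (hy : ∀ x ∈ 𝔴, c.ad y x ∈ 𝔴) (hz : ∀ x ∈ 𝔴, c.ad z x ∈ 𝔴) :
    c.adw 𝔴 y * c.adw 𝔴 z - c.adw 𝔴 z * c.adw 𝔴 y = c.adw 𝔴 (c.ad y z) := by
  have h1 : ∀ y, (∀ x ∈ 𝔴, c.ad y x ∈ 𝔴) → c.adw 𝔴 y = 𝔴.starProjection * c.ad y :=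
    fun y hy => by rw [Ctx.adw, mul_assoc, c.ad_starProjection hy, ← mul_assoc, PP]
  have h2 : ∀ y, (∀ x ∈ 𝔴, c.ad y x ∈ 𝔴) → c.adw 𝔴 y = c.ad y * 𝔴.starProjection :=
    fun y hy => by rw [h1 y hy, c.ad_starProjection hy]
  have h3 : c.adw 𝔴 y * c.adw 𝔴 z = 𝔴.starProjection * c.ad y * (c.ad z * 𝔴.starProjection) := by
    rw [← h1 y hy, ← h2 z hz]
  have h4 : c.adw 𝔴 z * c.adw 𝔴 y = 𝔴.starProjection * c.ad z * (c.ad y * 𝔴.starProjection) := by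
    rw [← h1 z hz, ← h2 y hy]
  rw [h3, h4, Ctx.adw, c.jacobi]
  noncomm_ring

lemma norm_comm {X : Tn 9 d} (hp : ∀ i, ∀ x ∈ 𝔴, c.ad (cmp i X) x ∈ 𝔴) (i j : Fin 9) :
    ‖c.adw 𝔴 (cmp i X) * c.adw 𝔴 (cmp j X) - c.adw 𝔴 (cmp j X) * c.adw 𝔴 (cmp i X)‖ ≤
      2 * √(c.Fsq X) := by
  rw [adw_comm c (hp i) (hp j)]
  exact (norm_adw c _ _).trans (by have := norm_F c X i j; linarith)

lemma D_sq (a : Fin 9 → Lg d →L[ℝ] Lg d) :
    (∑ i, kr (c.γ i) (a i)) * (∑ i, kr (c.γ i) (a i)) = kr 1 (∑ i, a i * a i) +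
      (1 / 2 : ℝ) • ∑ i, ∑ j, kr (gamma2 c.γ i j) (a i * a j - a j * a i) := by
  have h0 : ∀ b : Lg d →L[ℝ] Lg d, kr (0 : M16) b = 0 := fun b => by
    have := kr_add_left (0 : M16) 0 b
    rw [add_zero] at this
    exact left_eq_add.1 this
  have h1 : ∑ i, ∑ j, kr (gamma2 c.γ i j) (a j * a i) =
      -∑ i, ∑ j, kr (gamma2 c.γ i j) (a i * a j) := by
    rw [Finset.sum_comm, ← Finset.sum_neg_distrib]
    refine Finset.sum_congr rfl fun i _ => ?_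
    rw [← Finset.sum_neg_distrib]
    exact Finset.sum_congr rfl fun j _ => by rw [gamma2_swap, kr_neg_left]
  simp only [Finset.sum_mul_sum, kr_mul, c.gam.mul_eq, kr_add_left, Finset.sum_add_distrib,
    kr_sub_right, Finset.sum_sub_distrib, h1, kr_sum_right]
  congr 1
  · refine Finset.sum_congr rfl fun i _ => ?_
    rw [Finset.sum_eq_single i (fun j _ hj => by rw [if_neg hj.symm, h0]) (by simp), if_pos rfl]
  · module

lemma exists_C1 : ∃ C : ℝ, 0 ≤ C ∧ ∀ (𝔴 : Submodule ℝ (Lg d)) (X : Tn 9 d),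
    (∀ i, ∀ x ∈ 𝔴, c.ad (cmp i X) x ∈ 𝔴) →
    ‖-(c.Dw 𝔴 X * c.Dw 𝔴 X) + (1 - kr 1 𝔴.starProjection) - kr 1 (c.Kw 𝔴 X)‖ ≤
      C * √(c.Fsq X) := by
  choose L hL using fun i j => exists_krL (d := d) (gamma2 c.γ i j)
  refine ⟨∑ i, ∑ j, ‖L i j‖, by positivity, fun 𝔴 X hp => ?_⟩
  rw [Ctx.Dw, D_sq, Ctx.Kw, kr_add_right, kr_neg_right, kr_sub_right, kr_one]
  rw [show ∀ A B C : Tn 16 d →L[ℝ] Tn 16 d, -(A + B) + C - (-A + C) = -B from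
    fun A B C => by abel, norm_neg, norm_smul, Finset.sum_mul]
  have h : ‖∑ i, ∑ j, kr (gamma2 c.γ i j) (c.adw 𝔴 (cmp i X) * c.adw 𝔴 (cmp j X) -
      c.adw 𝔴 (cmp j X) * c.adw 𝔴 (cmp i X))‖ ≤ 2 * ∑ i, (∑ j, ‖L i j‖) * √(c.Fsq X) := by
    rw [Finset.mul_sum]
    refine norm_sum_le_of_le _ fun i _ => ?_
    rw [Finset.sum_mul, Finset.mul_sum]
    refine norm_sum_le_of_le _ fun j _ => ?_
    rw [← hL]
    refine ((L i j).le_opNorm _).trans ?_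
    have := mul_le_mul_of_nonneg_left (norm_comm c hp i j) (norm_nonneg (L i j))
    linarith
  rw [show ‖(1 / 2 : ℝ)‖ = 1 / 2 by norm_num]
  linarith

lemma ring_comm {R : Type} [Ring R] (a : Fin 9 → R) (x q : R) (h2 : x * q = 0) (h3 : q * x = 0) :
    x * (-(∑ j, a j * a j) + q) - (-(∑ j, a j * a j) + q) * x =
      -∑ j, ((x * a j - a j * x) * a j + a j * (x * a j - a j * x)) := by
  have h : ∑ j, ((x * a j - a j * x) * a j + a j * (x * a j - a j * x)) =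
      x * (∑ j, a j * a j) - (∑ j, a j * a j) * x := by
    rw [Finset.mul_sum, Finset.sum_mul, ← Finset.sum_sub_distrib]
    exact Finset.sum_congr rfl fun j _ => by noncomm_ring
  rw [h, mul_add, add_mul, h2, h3]
  noncomm_ring

lemma norm_comm_K {X : Tn 9 d} (hp : ∀ i, ∀ x ∈ 𝔴, c.ad (cmp i X) x ∈ 𝔴) (i : Fin 9) :
    ‖c.adw 𝔴 (cmp i X) * c.Kw 𝔴 X - c.Kw 𝔴 X * c.adw 𝔴 (cmp i X)‖ ≤
      72 * ‖X‖ * √(c.Fsq X) := by
  obtain ⟨a, ha⟩ : ∃ a : Fin 9 → Lg d →L[ℝ] Lg d, ∀ j, a j = c.adw 𝔴 (cmp j X) :=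
    ⟨_, fun _ => rfl⟩
  have h1 : a i * c.Kw 𝔴 X - c.Kw 𝔴 X * a i =
      -∑ j, ((a i * a j - a j * a i) * a j + a j * (a i * a j - a j * a i)) := by
    have h2 : a i * (1 - 𝔴.starProjection) = 0 := by rw [mul_sub, ha, adw_P, mul_one, sub_self]
    have h3 : (1 - 𝔴.starProjection) * a i = 0 := by rw [sub_mul, ha, P_adw, one_mul, sub_self]
    simp only [Ctx.Kw, ← ha]
    exact ring_comm a (a i) _ h2 h3
  rw [← ha, h1, norm_neg]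
  have h4 : ∀ j, ‖a j‖ ≤ 2 * ‖X‖ := fun j => by
    rw [ha]; exact (norm_adw c _ _).trans (by have := norm_cmp_le j X; linarith)
  have h5 : ∀ j, ‖a i * a j - a j * a i‖ ≤ 2 * √(c.Fsq X) := fun j => by
    rw [ha, ha]; exact norm_comm c hp i j
  refine (norm_sum_le_of_le _ (n := fun _ => 8 * ‖X‖ * √(c.Fsq X)) fun j _ => ?_).trans
    (by simp; linarith)
  have h6 := (norm_mul_le _ _).trans (mul_le_mul (h5 j) (h4 j) (norm_nonneg _) (by positivity))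
  have h7 := (norm_mul_le _ _).trans (mul_le_mul (h4 j) (h5 j) (norm_nonneg _) (by positivity))
  exact (norm_add_le _ _).trans (by linarith)

lemma kr_lower {n : ℕ} {a : Lg d →L[ℝ] Lg d} {b : ℝ} (h : ∀ u, b * ‖u‖ ^ 2 ≤ ⟪u, a u⟫)
    (x : Tn n d) : b * ‖x‖ ^ 2 ≤ ⟪x, kr 1 a x⟫ := by
  rw [norm_sq_eq_sum_cmp, inner_eq_sum_cmp, Finset.mul_sum]
  exact Finset.sum_le_sum fun i _ => by rw [cmp_kr_one]; exact h _

lemma kr_sym {n : ℕ} {a : Lg d →L[ℝ] Lg d} (h : IsSym a) :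
    IsSym (kr (1 : Matrix (Fin n) (Fin n) ℝ) a) := fun u v => by
  rw [inner_kr 1 a a h, transpose_one]

lemma abs_trR_le {V : Type} [NormedAddCommGroup V] [InnerProductSpace ℝ V] [FiniteDimensional ℝ V]
    {a : V →L[ℝ] V} {C : ℝ} (h : ∀ u, ‖a u‖ ≤ C * ‖u‖) : |trR a| ≤ Module.finrank ℝ V * C := by
  rw [trR_eq_sum (stdOrthonormalBasis ℝ V)]
  refine (Finset.abs_sum_le_sum_abs _ _).trans ((Finset.sum_le_sum (g := fun _ => C)
    fun j _ => ?_).trans (by simp))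
  have h1 := (stdOrthonormalBasis ℝ V).orthonormal.1 j
  have h2 := h (stdOrthonormalBasis ℝ V j)
  refine (abs_real_inner_le_norm _ _).trans ?_
  rw [h1] at h2 ⊢; linarith

lemma trR_comp {V V' : Type} [NormedAddCommGroup V] [InnerProductSpace ℝ V]
    [FiniteDimensional ℝ V] [NormedAddCommGroup V'] [InnerProductSpace ℝ V']
    [FiniteDimensional ℝ V'] (f : V →L[ℝ] V') (g : V' →L[ℝ] V) : trR (f ∘L g) = trR (g ∘L f) :=
  LinearMap.trace_comp_comm' (g : V' →ₗ[ℝ] V) (f : V →ₗ[ℝ] V')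

lemma trR_add {V : Type} [NormedAddCommGroup V] [InnerProductSpace ℝ V] (f g : V →L[ℝ] V) :
    trR (f + g) = trR f + trR g := by
  simp [trR]

lemma trR_sub {V : Type} [NormedAddCommGroup V] [InnerProductSpace ℝ V] (f g : V →L[ℝ] V) :
    trR (f - g) = trR f - trR g := by
  simp [trR]

lemma norm_sE (α : Fin 16) (y : Tn 9 d) : ‖c.sE (eb α) y‖ = ‖y‖ := by
  have h := c.inner_sE (eb α) (eb α) y y
  have h1 : eb α ⬝ᵥ eb α = 1 := by simp [eb]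
  rw [h1, real_inner_self_eq_norm_sq, real_inner_self_eq_norm_sq] at h
  exact (sq_eq_sq₀ (norm_nonneg _) (norm_nonneg _)).1 (by linarith)

lemma dv_apply (𝔴 : Submodule ℝ (Lg d)) (X W : Tn 9 d) :
    c.dv 𝔴 X W = ∑ i, c.adw 𝔴 (cmp i X) (cmp i W) := by
  simp [Ctx.dv]

lemma norm_sum_cmp {a : Fin 9 → Lg d →L[ℝ] Lg d} {C : ℝ} (h : ∀ i, ‖a i‖ ≤ C) (W : Tn 9 d) :
    ‖∑ i, a i (cmp i W)‖ ≤ 9 * C * ‖W‖ := by
  refine (norm_sum_le_of_le _ (n := fun _ => C * ‖W‖) fun j _ => ?_).trans (by simp; linarith)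
  exact ((a j).le_opNorm _).trans (mul_le_mul (h j) (norm_cmp_le j W) (norm_nonneg _)
    ((norm_nonneg _).trans (h j)))

lemma G_P (X : Tn 9 d) (ξ : Lg d) : c.Gw 𝔴 X (𝔴.starProjection ξ) = c.Gw 𝔴 X ξ := by
  have h : ∀ i, c.adw 𝔴 (cmp i X) (𝔴.starProjection ξ) = c.adw 𝔴 (cmp i X) ξ := fun i => by
    rw [← ContinuousLinearMap.comp_apply, ← ContinuousLinearMap.mul_def, adw_P]
  simp only [Ctx.Gw, _root_.sum_apply, ContinuousLinearMap.comp_apply, _root_.neg_apply, h]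

lemma fderiv_off {X W : Tn 9 d} (hp : ∀ i, ∀ x ∈ 𝔴, c.ad (cmp i X) x ∈ 𝔴) (hW : W ∈ sub 9 𝔴)
    (e : Fin 16 → ℝ) : fderiv ℝ (c.Phi e) X W = -c.Dw 𝔴 X (c.sE e W) + tens e (c.dv 𝔴 X W) := by
  have h1 : c.Dw ⊤ X (c.sE e W) = c.Dw 𝔴 X (c.sE e W) := by
    simp only [Ctx.Dw, _root_.sum_apply]
    refine Finset.sum_congr rfl fun i _ => ext_cmp fun k => ?_
    rw [cmp_kr, cmp_kr]
    refine Finset.sum_congr rfl fun j _ => ?_
    rw [adw_top, adw_apply c (hp i) (mem_sub.1 (c.sE_mem e hW) j)]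
  have h2 : c.dv ⊤ X W = c.dv 𝔴 X W := by
    rw [dv_apply, dv_apply]
    exact Finset.sum_congr rfl fun i _ => by rw [adw_top, adw_apply c (hp i) (mem_sub.1 hW i)]
  rw [c.fderiv_Phi_eq, h1, h2]

lemma fderiv_mem {X W : Tn 9 d} (hp : ∀ i, ∀ x ∈ 𝔴, c.ad (cmp i X) x ∈ 𝔴) (hW : W ∈ sub 9 𝔴)
    (e : Fin 16 → ℝ) : fderiv ℝ (c.Phi e) X W ∈ sub 16 𝔴 := by
  rw [c.fderiv_Phi]
  refine Submodule.sum_mem _ fun i _ => Submodule.sum_mem _ fun j _ => tens_mem_sub _ ?_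
  rw [c.ad_anti]
  exact 𝔴.neg_mem (hp j _ (mem_sub.1 hW i))

end Vale.Agent.P353.Lm2Aux
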