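import Vale.Agent.P353.Stmts
import Vale.Agent.P353.Psq
import Vale.Agent.P353.Gau

/-! Local data at commuting points. -/

noncomputable section

open MeasureTheory Filter Topology Complex Matrix
open scoped ContDiff RealInnerProductSpace

namespace Vale.Agent.P353

namespace Lm3aAux

section Gen

variable {E : Type} [NormedAddCommGroup E] [InnerProductSpace ℝ E] [FiniteDimensional ℝ E]

theorem inv_intw {R : Type} [Ring R] {a b T : R} (ha : IsUnit a) (hb : IsUnit b)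
    (h : T * a = b * T) : T * Ring.inverse a = Ring.inverse b * T := by
  calc T * Ring.inverse a = Ring.inverse b * (b * T) * Ring.inverse a := by
        rw [← mul_assoc, Ring.inverse_mul_cancel _ hb, one_mul]
    _ = Ring.inverse b * T := by
        rw [← h, mul_assoc, mul_assoc, Ring.mul_inverse_cancel _ ha, mul_one]

omit [FiniteDimensional ℝ E] in
theorem pd_cube {B : E →L[ℝ] E} (h : IsPD B) : IsPD (B ^ 3) := by
  have e : ∀ u, (B ^ 3) u = B (B (B u)) := fun u => by simp [pow_succ]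
  refine ⟨fun u v => by rw [e, e, h.1, h.1, h.1], fun u hu => ?_⟩
  rw [e, ← h.1]
  refine h.2 _ fun h0 => ?_
  simpa [h0] using h.2 u hu

omit [FiniteDimensional ℝ E] in
theorem pd_half {B : E →L[ℝ] E} (h : IsPD B) : IsPD ((1 / 2 : ℝ) • B) :=
  ⟨fun u v => by simp [inner_smul_left, inner_smul_right, h.1 u v], fun u hu => by
    simpa [inner_smul_right] using h.2 u hu⟩

theorem pd_kr {n d : ℕ} {a : Lg d →L[ℝ] Lg d} (h : IsPD a) :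
    IsPD (kr (1 : Matrix (Fin n) (Fin n) ℝ) a) := by
  refine ⟨fun u v => by rw [inner_kr 1 a a h.1, Matrix.transpose_one], fun u hu => ?_⟩
  obtain ⟨i, hi⟩ : ∃ i, cmp i u ≠ 0 := by
    by_contra! h0
    exact hu (ext_cmp fun i => by rw [h0, map_zero])
  rw [inner_eq_sum_cmp]
  simp only [cmp_kr_one]
  refine Finset.sum_pos' (fun j _ => ?_) ⟨i, Finset.mem_univ _, h.2 _ hi⟩
  by_cases hj : cmp j u = 0
  · simp [hj]
  · exact (h.2 _ hj).le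

theorem proj_le {U₁ U : Submodule ℝ E} (h : U₁ ≤ U) :
    U.starProjection * U₁.starProjection = U₁.starProjection ∧
      U₁.starProjection * U.starProjection = U₁.starProjection :=
  ⟨ContinuousLinearMap.ext fun x =>
    Submodule.starProjection_eq_self_iff.2 (h (U₁.starProjection_apply_mem x)),
    Submodule.starProjection_comp_starProjection_of_le h⟩

omit [FiniteDimensional ℝ E] in
theorem form_split {U₁ U₂ : Submodule ℝ E} (h : U₁ ⟂ U₂) {A A₁ A₂ : E →L[ℝ] E}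
    (h1 : ∀ x ∈ U₁, A x = A₁ x ∧ A₁ x ∈ U₁) (h2 : ∀ x ∈ U₂, A x = A₂ x ∧ A₂ x ∈ U₂) {x y : E}
    (hx : x ∈ U₁) (hy : y ∈ U₂) : ⟪x + y, A (x + y)⟫ = ⟪x, A₁ x⟫ + ⟪y, A₂ y⟫ := by
  rw [map_add, (h1 x hx).1, (h2 y hy).1, inner_add_left, inner_add_right, inner_add_right,
    h.inner_eq hx (h2 y hy).2, h.symm.inner_eq hy (h1 x hx).2, add_zero, zero_add]

omit [FiniteDimensional ℝ E] in
theorem cube_eq {U : Submodule ℝ E} {A A₁ : E →L[ℝ] E} (h : ∀ x ∈ U, A x = A₁ x ∧ A₁ x ∈ U) :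
    ∀ x ∈ U, (A ^ 3) x = (A₁ ^ 3) x ∧ (A₁ ^ 3) x ∈ U := fun x hx => by
  have e : ∀ B : E →L[ℝ] E, (B ^ 3) x = B (B (B x)) := fun B => by simp [pow_succ]
  have h1 := h x hx
  have h2 := h _ h1.2
  have h3 := h _ h2.2
  rw [e, e, h1.1, h2.1]
  exact h3

variable [MeasurableSpace E] [BorelSpace E]

theorem int_mul {U U₁ U₂ : Submodule ℝ E} (h : U₁ ⟂ U₂) (hU : U₁ ⊔ U₂ = U) {f f₁ f₂ : E → ℝ}
    (hf : ∀ x ∈ U₁, ∀ y ∈ U₂, f (x + y) = f₁ x * f₂ y) :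
    ∫ x : U, f x = (∫ x : U₁, f₁ x) * ∫ y : U₂, f₂ y := by
  obtain ⟨e, h1, h2, -⟩ := measurePreserving_sup h hU
  rw [← h2.integral_comp' fun x : U => f x, ← integral_prod_mul]
  exact integral_congr_ae (ae_of_all _ fun p => by simp only [h1, hf _ p.1.2 _ p.2.2])

theorem int_scale (U : Submodule ℝ E) (A : E →L[ℝ] E) {g : ℝ} (hg : 0 < g) (φ : ℝ → ℝ) :
    ∫ x : U, φ (g * ⟪(x : E), A x⟫) =
      (√g ^ Module.finrank ℝ U)⁻¹ * ∫ x : U, φ (1 * ⟪(x : E), A x⟫) := by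
  rw [← smul_eq_mul, ← integral_smul_sub U (fun x => φ (1 * ⟪x, A x⟫)) (Real.sqrt_pos.2 hg)]
  refine integral_congr_ae (ae_of_all _ fun x => ?_)
  simp only [map_smul, inner_smul_left, inner_smul_right, one_mul, conj_trivial]
  rw [← mul_assoc, Real.mul_self_sqrt hg.le]

theorem int_cont {X : Type} [TopologicalSpace X] (U : Submodule ℝ E) {A : X → E →L[ℝ] E} {x : X}
    (hA : ContinuousAt A x) (h : IsPD (A x)) :
    ContinuousAt (fun y => ∫ w : U, Real.exp (-⟪(w : E), A y w⟫)) x ∧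
      0 < ∫ w : U, Real.exp (-⟪(w : E), A x w⟫) := by
  obtain ⟨k, hk, h1⟩ := h.exists_lower
  exact ⟨(contDiffAt_gaussian_integral hk fun w _ => h1 w).continuousAt.comp hA,
    GauAux.int_pos hk fun w _ => h1 w⟩

end Gen

theorem gam_sq {d : ℕ} {γ : Fin 9 → M16} (h : IsGam γ) {b : Fin 9 → Lg d →L[ℝ] Lg d}
    (hb : ∀ i j, b i * b j = b j * b i) :
    (∑ i, kr (γ i) (b i)) * ∑ i, kr (γ i) (b i) = kr 1 (∑ i, b i * b i) := by
  have h0 : ∀ a : Lg d →L[ℝ] Lg d, kr (0 : M16) a = 0 := fun a => by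
    have := kr_add_left 0 (0 : M16) a
    rwa [add_zero, left_eq_add] at this
  refine smul_right_injective _ (two_ne_zero (α := ℝ)) ?_
  simp only [Finset.sum_mul_sum, kr_mul]
  rw [two_smul]
  nth_rw 2 [Finset.sum_comm]
  rw [← Finset.sum_add_distrib, kr_sum_right, Finset.smul_sum]
  refine Finset.sum_congr rfl fun i _ => ?_
  rw [← Finset.sum_add_distrib, Finset.sum_eq_single i]
  · rw [← kr_add_left, h.anticomm, if_pos rfl, kr_smul_left]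
  · intro j _ hj
    rw [hb j i, ← kr_add_left, h.anticomm, if_neg hj.symm, h0]
  · simp

variable {N d : ℕ} {F : Type} [NormedAddCommGroup F] [InnerProductSpace ℂ F]
  [FiniteDimensional ℂ F] {c : Ctx N d F} {𝔴 𝔴₁ 𝔴₂ : Submodule ℝ (Lg d)} {y : Tn 9 d}

/-- commuting components that preserve `𝔴` -/
structure Cm0 (c : Ctx N d F) (𝔴 : Submodule ℝ (Lg d)) (y : Tn 9 d) : Prop where
  inv : ∀ i, c.ad (cmp i y) * 𝔴.starProjection = 𝔴.starProjection * c.ad (cmp i y)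
  comm : ∀ i j, c.ad (cmp i y) * c.ad (cmp j y) = c.ad (cmp j y) * c.ad (cmp i y)

/-- the same with positive frequencies -/
structure Cm (c : Ctx N d F) (𝔴 : Submodule ℝ (Lg d)) (y : Tn 9 d) : Prop extends
    Cm0 c 𝔴 y where
  pd : IsPD (c.Kw 𝔴 y)

theorem Cm0.adw (h : Cm0 c 𝔴 y) (i : Fin 9) :
    c.adw 𝔴 (cmp i y) = c.ad (cmp i y) * 𝔴.starProjection := by
  rw [Ctx.adw, ← h.inv, mul_assoc, (proj_le le_rfl).1]

theorem Cm0.adw_mul (h : Cm0 c 𝔴 y) (i j : Fin 9) : c.adw 𝔴 (cmp i y) * c.adw 𝔴 (cmp j y) =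
    c.ad (cmp i y) * c.ad (cmp j y) * 𝔴.starProjection := by
  rw [h.adw, h.adw, mul_assoc, ← mul_assoc 𝔴.starProjection, ← h.inv, mul_assoc,
    (proj_le le_rfl).1, mul_assoc]

theorem Cm0.K_eq (h : Cm0 c 𝔴 y) : c.Kw 𝔴 y =
    -((∑ i, c.ad (cmp i y) * c.ad (cmp i y)) * 𝔴.starProjection) + (1 - 𝔴.starProjection) := by
  simp only [Ctx.Kw, h.adw_mul, Finset.sum_mul]

theorem Cm0.S_comm (h : Cm0 c 𝔴 y) :
    𝔴.starProjection * ∑ i, c.ad (cmp i y) * c.ad (cmp i y) =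
      (∑ i, c.ad (cmp i y) * c.ad (cmp i y)) * 𝔴.starProjection := by
  rw [Finset.mul_sum, Finset.sum_mul]
  exact Finset.sum_congr rfl fun i _ => by rw [← mul_assoc, ← h.inv, mul_assoc, ← h.inv, mul_assoc]

theorem Cm0.K_P (h : Cm0 c 𝔴 y) (hle : 𝔴₁ ≤ 𝔴) : c.Kw 𝔴 y * 𝔴₁.starProjection =
    -((∑ i, c.ad (cmp i y) * c.ad (cmp i y)) * 𝔴₁.starProjection) := by
  rw [h.K_eq, add_mul, sub_mul, one_mul, (proj_le hle).1, sub_self, add_zero]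
  conv_rhs => rw [← (proj_le hle).1, ← mul_assoc]
  exact ContinuousLinearMap.ext fun _ => rfl

theorem Cm0.P_K (h : Cm0 c 𝔴 y) (h₁ : Cm0 c 𝔴₁ y) (hle : 𝔴₁ ≤ 𝔴) :
    𝔴₁.starProjection * c.Kw 𝔴 y =
      -((∑ i, c.ad (cmp i y) * c.ad (cmp i y)) * 𝔴₁.starProjection) := by
  rw [h.K_eq, mul_add, mul_sub, mul_neg, ← mul_assoc, h₁.S_comm, mul_assoc, (proj_le hle).2,
    mul_one, sub_self, add_zero]

theorem Cm.om_P (h : Cm c 𝔴 y) (h₁ : Cm c 𝔴₁ y) (hle : 𝔴₁ ≤ 𝔴) :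
    𝔴₁.starProjection * c.om 𝔴₁ y = c.om 𝔴 y * 𝔴₁.starProjection :=
  psq_intertwine h₁.pd h.pd ((h₁.P_K h₁.toCm0 le_rfl).trans (h.K_P hle).symm)

theorem Cm.P_om (h : Cm c 𝔴 y) (h₁ : Cm c 𝔴₁ y) (hle : 𝔴₁ ≤ 𝔴) :
    𝔴₁.starProjection * c.om 𝔴 y = c.om 𝔴 y * 𝔴₁.starProjection :=
  psq_comm h.pd ((h.P_K h₁.toCm0 hle).trans (h.K_P hle).symm)

theorem Cm.om_eq (h : Cm c 𝔴 y) (h₁ : Cm c 𝔴₁ y) (hle : 𝔴₁ ≤ 𝔴) :
    ∀ x ∈ 𝔴₁, c.om 𝔴 y x = c.om 𝔴₁ y x ∧ c.om 𝔴₁ y x ∈ 𝔴₁ := fun x hx => by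
  have e1 := DFunLike.congr_fun (h.om_P h₁ hle) x
  have e2 := DFunLike.congr_fun (h₁.om_P h₁ le_rfl) x
  rw [ContinuousLinearMap.mul_apply, ContinuousLinearMap.mul_apply,
    Submodule.starProjection_eq_self_iff.2 hx] at e1 e2
  exact ⟨e1.symm.trans e2, Submodule.starProjection_eq_self_iff.1 e2⟩

theorem Cm.kr_eq (h : Cm c 𝔴 y) (h₁ : Cm c 𝔴₁ y) (hle : 𝔴₁ ≤ 𝔴) :
    ∀ x ∈ sub 9 𝔴₁, kr (1 : Matrix (Fin 9) (Fin 9) ℝ) (c.om 𝔴 y) x =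
      kr (1 : Matrix (Fin 9) (Fin 9) ℝ) (c.om 𝔴₁ y) x ∧
      kr (1 : Matrix (Fin 9) (Fin 9) ℝ) (c.om 𝔴₁ y) x ∈ sub 9 𝔴₁ :=
  fun x hx => ⟨ext_cmp fun i => by
    rw [cmp_kr_one, cmp_kr_one, (h.om_eq h₁ hle _ (mem_sub.1 hx i)).1], mem_sub.2 fun i => by
    rw [cmp_kr_one]
    exact (h.om_eq h₁ hle _ (mem_sub.1 hx i)).2⟩

theorem Cm.adw_om (h : Cm c 𝔴 y) (i : Fin 9) :
    c.adw 𝔴 (cmp i y) * c.om 𝔴 y = c.om 𝔴 y * c.adw 𝔴 (cmp i y) := by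
  refine psq_comm h.pd ?_
  have h1 : Commute (c.ad (cmp i y)) (c.Kw 𝔴 y) := by
    rw [h.K_eq]
    exact (((Commute.sum_right _ _ _ fun j _ => Commute.mul_right (h.comm i j)
      (h.comm i j)).mul_right (h.inv i)).neg_right).add_right
      ((Commute.one_right _).sub_right (h.inv i))
  have h2 : Commute 𝔴.starProjection (c.Kw 𝔴 y) :=
    (h.P_K h.toCm0 le_rfl).trans (h.K_P le_rfl).symm
  rw [h.adw]
  exact h1.mul_left h2

theorem Cm0.D_sq (h : Cm0 c 𝔴 y) : c.Dw 𝔴 y * c.Dw 𝔴 y =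
    kr 1 ((∑ i, c.ad (cmp i y) * c.ad (cmp i y)) * 𝔴.starProjection) := by
  rw [Ctx.Dw, gam_sq c.gam fun i j => by rw [h.adw_mul, h.adw_mul, h.comm]]
  simp only [h.adw_mul, Finset.sum_mul]

theorem Cm.B_eq (h : Cm c 𝔴 y) : c.Bw 𝔴 y = kr 1 (c.om 𝔴 y) := by
  refine psq_unique (pd_kr (psq_pd h.pd)) ?_
  have e : c.om 𝔴 y * c.om 𝔴 y = c.Kw 𝔴 y := psq_mul_self h.pd
  rw [kr_mul, one_mul, e, h.D_sq, h.K_eq, kr_add_right, kr_neg_right, kr_sub_right, kr_one]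

theorem Cm.unit (h : Cm c 𝔴 y) : IsUnit (c.om 𝔴 y) := (psq_pd h.pd).isUnit

theorem Cm.J_eq (h : Cm c 𝔴 y) : c.Jw 𝔴 y = c.Dw 𝔴 y * kr 1 (Ring.inverse (c.om 𝔴 y)) := by
  rw [Ctx.Jw, h.B_eq]
  congr 1
  have h1 : IsUnit (kr (1 : M16) (c.om 𝔴 y)) := (pd_kr (psq_pd h.pd)).isUnit
  rw [← mul_one (Ring.inverse _), ← kr_one, ← Ring.mul_inverse_cancel _ h.unit, ← one_mul (1 : M16),
    ← kr_mul, ← mul_assoc, one_mul, Ring.inverse_mul_cancel _ h1, one_mul]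

theorem Cm0.D_eq (h : Cm0 c 𝔴 y) :
    c.Dw 𝔴 y = (∑ i, kr (c.γ i) (c.ad (cmp i y))) * kr 1 𝔴.starProjection := by
  simp only [Ctx.Dw, Finset.sum_mul, kr_mul, mul_one, h.adw]

theorem Cm0.P_D (h : Cm0 c 𝔴 y) : kr 1 𝔴.starProjection * c.Dw 𝔴 y = c.Dw 𝔴 y := by
  simp only [Ctx.Dw, Finset.mul_sum, kr_mul, one_mul, Ctx.adw, ← mul_assoc, (proj_le le_rfl).1]

theorem Cm.J_eq' (h : Cm c 𝔴 y) : c.Jw 𝔴 y = (∑ i, kr (c.γ i) (c.ad (cmp i y))) *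
    kr 1 (𝔴.starProjection * Ring.inverse (c.om 𝔴 y)) := by
  rw [h.J_eq, h.D_eq, mul_assoc, kr_mul, one_mul]

theorem Cm.pcs (h : Cm c 𝔴 y) : IsPCS (c.Jw 𝔴 y) := by
  have h1 : c.Dw 𝔴 y * kr 1 (Ring.inverse (c.om 𝔴 y)) =
      kr 1 (Ring.inverse (c.om 𝔴 y)) * c.Dw 𝔴 y := by
    simp only [Ctx.Dw, Finset.sum_mul, Finset.mul_sum, kr_mul, mul_one, one_mul,
      inv_intw h.unit h.unit (h.adw_om _)]
  have h2 := (pd_kr (n := 16) (psq_pd h.pd).inverse).1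
  refine ⟨fun u v => ?_, ?_⟩
  · rw [h.J_eq]
    conv_rhs => rw [h1]
    rw [ContinuousLinearMap.mul_apply, ContinuousLinearMap.mul_apply, c.Dw_skew]
    exact congrArg Neg.neg (h2 _ _)
  · have h3 : c.Jw 𝔴 y * c.Jw 𝔴 y = -kr 1 𝔴.starProjection := by
      have h4 := h.P_K h.toCm0 le_rfl
      rw [h.J_eq, mul_assoc, ← mul_assoc (kr _ _), ← h1, ← mul_assoc, ← mul_assoc, h.D_sq,
        ← neg_eq_iff_eq_neg.2 h4, ← psq_mul_self h.pd, kr_mul, kr_mul, one_mul, one_mul,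
        ← kr_neg_right, neg_mul, neg_mul, mul_assoc, mul_assoc, mul_assoc]
      congr 2
      rw [← mul_assoc (psq _) (Ring.inverse _)]
      erw [Ring.mul_inverse_cancel _ h.unit, one_mul, Ring.mul_inverse_cancel _ h.unit, mul_one]
    rw [h3, neg_mul, h.J_eq, ← mul_assoc, h.P_D]

theorem Cm.J_add (h : Cm c 𝔴 y) (h₁ : Cm c 𝔴₁ y) (h₂ : Cm c 𝔴₂ y) (ho : 𝔴₁ ⟂ 𝔴₂)
    (hs : 𝔴₁ ⊔ 𝔴₂ = 𝔴) : c.Pw 𝔴 y = c.Pw 𝔴₁ y * c.Pw 𝔴₂ y := by
  have key : ∀ {𝔲 : Submodule ℝ (Lg d)}, Cm c 𝔲 y → 𝔲 ≤ 𝔴 →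
      𝔲.starProjection * Ring.inverse (c.om 𝔴 y) = 𝔲.starProjection * Ring.inverse (c.om 𝔲 y) :=
    fun hu hle => (inv_intw h.unit h.unit (h.P_om hu hle)).trans
      (inv_intw hu.unit h.unit (h.om_P hu hle)).symm
  have e : c.Jw 𝔴 y = c.Jw 𝔴₁ y + c.Jw 𝔴₂ y := by
    have hP : 𝔴.starProjection = 𝔴₁.starProjection + 𝔴₂.starProjection := by
      rw [← Cov1Aux.sup_proj ho]
      simp only [hs]
    rw [h.J_eq', h₁.J_eq', h₂.J_eq', ← mul_add, ← kr_add_right, ← key h₁ (hs ▸ le_sup_left),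
      ← key h₂ (hs ▸ le_sup_right), ← add_mul, hP]
  have z : c.Jw 𝔴₁ y * c.Jw 𝔴₂ y = 0 := by
    have h0 : 𝔴₁.starProjection * 𝔴₂.starProjection = 0 := ho.starProjection_comp_starProjection
    rw [h₁.J_eq', h₂.J_eq, ← h₂.P_D, inv_intw h₁.unit h₁.unit (h₁.om_P h₁ le_rfl), mul_assoc,
      ← mul_assoc (kr _ _), ← mul_assoc (kr _ _), kr_mul, mul_assoc (Ring.inverse _), h0, mul_zero,
      kr_zero_right, zero_mul, zero_mul, mul_zero]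
  rw [Ctx.Pw, e, c.car.vac_add h₁.pcs h₂.pcs z]
  rfl

variable {π π' π'' σ σ' : Setoid (Fin N)}

theorem cm0 (h : σ' ≤ σ) (h' : π'' ≤ σ') (hy : y ∈ sub 9 (c.cen π'')) :
    Cm0 c (c.off σ σ') y := by
  have hb : ∀ i, cmp i y ∈ c.blk π'' := fun i => c.cen_le_blk _ (mem_sub.1 hy i)
  refine ⟨fun i => c.ad_starProjection fun x hx => c.ad_mem_off h (c.blk_mono h' (hb i)) hx,
    fun i j => ?_⟩
  rw [← sub_eq_zero, ← c.jacobi, (c.mem_cen_iff _).1 (mem_sub.1 hy i) _ (hb j), c.ad_zero]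

theorem cm (h0 : π'' ≤ π) (h : Cm0 c 𝔴 y) (hle : 𝔴 ≤ c.off π π'') (hy : y ∈ sub 9 (c.cen π''))
    (hg : y ∈ c.Gen π π'') : Cm c 𝔴 y := by
  have hs : ∀ i u v, ⟪c.adw 𝔴 (cmp i y) u, v⟫ = -⟪u, c.adw 𝔴 (cmp i y) v⟫ := fun i u v => by
    simp only [Ctx.adw, ContinuousLinearMap.mul_apply]
    rw [Submodule.inner_starProjection_left_eq_right, c.ad_skew,
      Submodule.inner_starProjection_left_eq_right]
  have e : ∀ u v, ⟪u, c.Kw 𝔴 y v⟫ = ∑ i, ⟪c.adw 𝔴 (cmp i y) u, c.adw 𝔴 (cmp i y) v⟫ +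
      ⟪u - 𝔴.starProjection u, v - 𝔴.starProjection v⟫ := fun u v => by
    have h1 := 𝔴.starProjection_inner_eq_zero v _ (𝔴.starProjection_apply_mem u)
    rw [real_inner_comm] at h1
    simp only [Ctx.Kw, ContinuousLinearMap.add_apply, ContinuousLinearMap.neg_apply,
      ContinuousLinearMap.sum_apply, ContinuousLinearMap.mul_apply, ContinuousLinearMap.sub_apply,
      ContinuousLinearMap.one_apply, inner_add_right, inner_neg_right, inner_sum, hs,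
      Finset.sum_neg_distrib]
    rw [inner_sub_left, h1, sub_zero]
  refine ⟨h, fun u v => ?_, fun u hu => ?_⟩
  · rw [real_inner_comm, e, e, real_inner_comm]
    simp only [real_inner_comm (c.adw 𝔴 _ u)]
  rw [e]
  have n1 : ∀ i ∈ Finset.univ, 0 ≤ ⟪c.adw 𝔴 (cmp i y) u, c.adw 𝔴 (cmp i y) u⟫ :=
    fun i _ => real_inner_self_nonneg
  refine lt_of_le_of_ne (add_nonneg (Finset.sum_nonneg n1) real_inner_self_nonneg) fun h1 => hu ?_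
  obtain ⟨h2, h3⟩ := (add_eq_zero_iff_of_nonneg (Finset.sum_nonneg n1)
    real_inner_self_nonneg).1 h1.symm
  have h4 : 𝔴.starProjection u = u := (sub_eq_zero.1 (inner_self_eq_zero.1 h3)).symm
  have h5 := (c.mem_off h0 u).1 (hle (Submodule.starProjection_eq_self_iff.1 h4))
  refine c.mat_injective (Matrix.ext fun a b => ?_)
  rw [map_zero, Matrix.zero_apply]
  by_contra hne
  obtain ⟨i, hi⟩ := hg a b (by_contra fun h6 => hne (h5 a b (Or.inl h6)))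
    fun h6 => hne (h5 a b (Or.inr h6))
  have h6 := inner_self_eq_zero.1 ((Finset.sum_eq_zero_iff_of_nonneg n1).1 h2 i (Finset.mem_univ _))
  rw [h.adw, ContinuousLinearMap.mul_apply, h4, c.ad_eq_zero_iff] at h6
  have h7 := congrFun (congrFun h6.eq a) b
  have hd := (mem_sub.1 hy i).1
  rw [Matrix.mul_apply, Matrix.mul_apply, Finset.sum_eq_single a (fun k _ hk => by
    rw [hd a k (Ne.symm hk), zero_mul]) (by simp), Finset.sum_eq_single b (fun k _ hk => by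
    rw [hd k b hk, mul_zero]) (by simp), mul_comm] at h7
  exact hi (mul_left_cancel₀ hne h7)

theorem cm3 (h : π' ≤ π) (h' : π'' ≤ π') (hy : y ∈ sub 9 (c.cen π'')) (hg : y ∈ c.Gen π π'') :
    Cm c (c.off π π'') y ∧ Cm c (c.off π π') y ∧ Cm c (c.off π' π'') y :=
  ⟨cm (h'.trans h) (cm0 (h'.trans h) le_rfl hy) le_rfl hy hg,
    cm (h'.trans h) (cm0 h h' hy) (c.off_sup_off h h' ▸ le_sup_left) hy hg,
    cm (h'.trans h) (cm0 h' le_rfl hy) (c.off_sup_off h h' ▸ le_sup_right) hy hg⟩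

theorem ng_mul (h : Cm c 𝔴 y) (h₁ : Cm c 𝔴₁ y) (h₂ : Cm c 𝔴₂ y) (ho : 𝔴₁ ⟂ 𝔴₂)
    (hs : 𝔴₁ ⊔ 𝔴₂ = 𝔴) (g : ℝ) : c.ng 𝔴 g y = c.ng 𝔴₁ g y * c.ng 𝔴₂ g y := by
  have l1 : 𝔴₁ ≤ 𝔴 := hs ▸ le_sup_left
  have l2 : 𝔴₂ ≤ 𝔴 := hs ▸ le_sup_right
  have f3 := fun x hx z hz => form_split ho (cube_eq (h.om_eq h₁ l1)) (cube_eq (h.om_eq h₂ l2))
    (x := x) (y := z) hx hz
  have e1 := int_mul ho hs (f := fun ξ => Real.exp (-(g * ⟪ξ, (c.om 𝔴 y ^ 3) ξ⟫)))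
    (f₁ := fun ξ => Real.exp (-(g * ⟪ξ, (c.om 𝔴₁ y ^ 3) ξ⟫)))
    (f₂ := fun ξ => Real.exp (-(g * ⟪ξ, (c.om 𝔴₂ y ^ 3) ξ⟫))) fun x hx z hz => by
      rw [f3 x hx z hz, ← Real.exp_add, mul_add, neg_add]
  have e2 := int_mul ho hs (f := fun ξ => Real.exp (-(g * ⟪ξ, (c.om 𝔴 y ^ 3) ξ⟫) / 2))
    (f₁ := fun ξ => Real.exp (-(g * ⟪ξ, (c.om 𝔴₁ y ^ 3) ξ⟫) / 2))
    (f₂ := fun ξ => Real.exp (-(g * ⟪ξ, (c.om 𝔴₂ y ^ 3) ξ⟫) / 2)) fun x hx z hz => by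
      rw [f3 x hx z hz, ← Real.exp_add, mul_add, neg_add, add_div]
  have e3 := int_mul (sub_isOrtho (n := 9) ho) ((sub_sup _ _).symm.trans (congrArg _ hs))
    (f := fun W => Real.exp (-(g * ⟪W, kr 1 (c.om 𝔴 y) W⟫)))
    (f₁ := fun W => Real.exp (-(g * ⟪W, kr 1 (c.om 𝔴₁ y) W⟫)))
    (f₂ := fun W => Real.exp (-(g * ⟪W, kr 1 (c.om 𝔴₂ y) W⟫))) fun x hx z hz => by
      rw [form_split (sub_isOrtho ho) (h.kr_eq h₁ l1) (h.kr_eq h₂ l2) hx hz, ← Real.exp_add,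
        mul_add, neg_add]
  rw [Ctx.ng, Ctx.ng, Ctx.ng, e1, e2, e3, mul_div_mul_comm, Real.sqrt_mul (div_nonneg
    (integral_nonneg fun _ => (Real.exp_pos _).le) (integral_nonneg fun _ => (Real.exp_pos _).le)),
    mul_div_mul_comm]

theorem ng_scale (c : Ctx N d F) (𝔴 : Submodule ℝ (Lg d)) (X : Tn 9 d) {g : ℝ} (hg : 0 < g) :
    c.ng 𝔴 g X = g ^ (5 / 2 * (Module.finrank ℝ 𝔴 : ℝ)) * c.ng 𝔴 1 X := by
  have hs : 0 < √g := Real.sqrt_pos.2 hg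
  have e : g ^ (5 / 2 * (Module.finrank ℝ 𝔴 : ℝ)) = √g ^ (5 * Module.finrank ℝ 𝔴) := by
    rw [Real.sqrt_eq_rpow, ← Real.rpow_natCast, ← Real.rpow_mul hg.le]
    congr 1
    push_cast
    ring
  rw [Ctx.ng, Ctx.ng, e, int_scale 𝔴 _ hg fun t => Real.exp (-t),
    int_scale 𝔴 _ hg fun t => Real.exp (-t / 2), int_scale (sub 9 𝔴) _ hg fun t => Real.exp (-t),
    finrank_sub, mul_div_mul_comm, Real.sqrt_mul (by positivity)]
  have e2 : (√g ^ Module.finrank ℝ 𝔴)⁻¹ / (√g ^ (9 * Module.finrank ℝ 𝔴))⁻¹ =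
      (√g ^ (4 * Module.finrank ℝ 𝔴)) ^ 2 := by
    field_simp
    ring
  rw [e2, Real.sqrt_sq (by positivity), mul_div_mul_comm, div_inv_eq_mul, ← pow_add]
  congr 2
  ring

end Lm3aAux

namespace Ctx

variable {N d : ℕ} {F : Type} [NormedAddCommGroup F] [InnerProductSpace ℂ F]
  [FiniteDimensional ℂ F] (c : Ctx N d F)

open Lm3aAux in
theorem p_lm3a (h_lm1 : c.S_lm1) : c.S_lm3a where
  B_eq π π' π'' v h h' y hy ho :=
    have h1 : Cm c (c.off π π') y := ⟨cm0 h h' hy, h_lm1.K_pd _ v y ho⟩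
    ⟨h1.B_eq, fun i => (h1.adw_om i).symm⟩
  om_mul π π' π'' h h' y hy hg W hW W' hW' := by
    obtain ⟨h0, h1, h2⟩ := cm3 h h' hy hg
    exact form_split (sub_isOrtho (c.off_isOrtho_off π π' π''))
      (h0.kr_eq h1 (c.off_sup_off h h' ▸ le_sup_left))
      (h0.kr_eq h2 (c.off_sup_off h h' ▸ le_sup_right)) hW hW'
  P_mul π π' π'' h h' y hy hg := by
    obtain ⟨h0, h1, h2⟩ := cm3 h h' hy hg
    exact h0.J_add h1 h2 (c.off_isOrtho_off π π' π'') (c.off_sup_off h h')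
  ng_mul π π' π'' h h' y hy hg g _ := by
    obtain ⟨h0, h1, h2⟩ := cm3 h h' hy hg
    exact ng_mul h0 h1 h2 (c.off_isOrtho_off π π' π'') (c.off_sup_off h h') g
  ng_scale 𝔴 X g hg := ng_scale c 𝔴 X hg
  ng_cont 𝔴 v X hX := by
    have h1 := (h_lm1.sm_om 𝔴 v X hX).continuousAt
    have h2 := h_lm1.om_pd 𝔴 v X hX
    obtain ⟨L, hL⟩ := exists_krL (d := d) (1 : Matrix (Fin 9) (Fin 9) ℝ)
    have a1 := int_cont 𝔴 (h1.pow 3) (pd_cube h2)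
    have a2 := int_cont (sub 9 𝔴) (A := fun Y => kr 1 (c.om 𝔴 Y))
      ((L.continuous.continuousAt.comp h1).congr (.of_forall fun Y => hL _)) (pd_kr h2)
    have a3 := int_cont 𝔴 ((h1.pow 3).const_smul (1 / 2 : ℝ)) (pd_half (pd_cube h2))
    have e : ∀ (Y : Tn 9 d) (ξ : Lg d), -(1 * ⟪ξ, (c.om 𝔴 Y ^ 3) ξ⟫) / 2 =
        -⟪ξ, ((1 / 2 : ℝ) • c.om 𝔴 Y ^ 3) ξ⟫ := fun Y ξ => by
      rw [ContinuousLinearMap.smul_apply, inner_smul_right]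
      ring
    refine ContinuousAt.continuousWithinAt ?_
    unfold ng
    simp only [e]
    simp only [one_mul]
    exact ((a1.1.div a2.1 a2.2.ne').sqrt).div a3.1 a3.2.ne'
  ng_nonneg 𝔴 g X := div_nonneg (Real.sqrt_nonneg _) (integral_nonneg fun _ => (Real.exp_pos _).le)

end Ctx

end Vale.Agent.P353
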