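import Vale.Agent.P353.Stmts
import Vale.Agent.P353.Psq
import Vale.Agent.P353.Gau

/-! Gauge integral and vanishing of the second moment. -/

noncomputable section

open MeasureTheory Filter Topology Complex Matrix
open scoped ContDiff RealInnerProductSpace

namespace Vale.Agent.P353

namespace Lm3bAux

section gen
variable {V : Type} [NormedAddCommGroup V] [InnerProductSpace ℝ V] [FiniteDimensional ℝ V]

theorem comm_proj {R : V →L[ℝ] V} (hR : IsSym R) {U : Submodule ℝ V} (h : ∀ x ∈ U, R x ∈ U)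
    (x : V) : R (U.starProjection x) = U.starProjection (R x) := by
  symm
  refine Submodule.eq_starProjection_of_mem_orthogonal (h _ (U.starProjection_apply_mem x)) ?_
  rw [← map_sub, Submodule.mem_orthogonal]
  intro u hu
  rw [← hR]
  exact (Submodule.mem_orthogonal _ _).1 (U.sub_starProjection_mem_orthogonal x) _ (h u hu)

theorem proj_sym (U : Submodule ℝ V) : IsSym U.starProjection := fun u v =>
  U.inner_starProjection_left_eq_right u v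

omit [FiniteDimensional ℝ V] in
theorem pd_cube {B : V →L[ℝ] V} (h : IsPD B) : IsPD (B ^ 3) := by
  have e : ∀ u, (B ^ 3) u = B (B (B u)) := fun u => by
    rw [pow_three]
    rfl
  refine ⟨fun u v => by rw [e, e, h.1, h.1, h.1], fun u hu => ?_⟩
  rw [e, ← h.1]
  refine h.2 _ fun h0 => ?_
  have := h.2 u hu
  rw [h0, inner_zero_right] at this
  exact lt_irrefl _ this

omit [FiniteDimensional ℝ V] in
theorem norm_of_invol {R : V →L[ℝ] V} (hR : IsSym R) (h : R * R = 1) (x : V) : ‖R x‖ = ‖x‖ := by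
  have h1 : ‖R x‖ ^ 2 = ‖x‖ ^ 2 := by
    rw [← real_inner_self_eq_norm_sq, ← real_inner_self_eq_norm_sq, hR]
    change ⟪x, (R * R) x⟫ = _
    rw [h]
    rfl
  exact (pow_left_inj₀ (norm_nonneg _) (norm_nonneg _) two_ne_zero).1 h1

variable [MeasurableSpace V] [BorelSpace V]

theorem int_pos' {B : V →L[ℝ] V} (h : IsPD B) (U : Submodule ℝ V) {t : ℝ} (ht : 0 < t) :
    0 < ∫ x : U, Real.exp (-(t * ⟪(x : V), B x⟫)) := by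
  obtain ⟨k, hk, hB⟩ := h.exists_lower
  have h1 := integrable_gaussian (U := U) hk (fun w _ => hB w) ht 0
  simp only [pow_zero, one_mul] at h1
  exact integral_exp_pos h1

end gen

theorem kr_sym {n d : ℕ} {a : Lg d →L[ℝ] Lg d} (h : IsSym a) :
    IsSym (kr (1 : Matrix (Fin n) (Fin n) ℝ) a) := fun u v => by
  rw [inner_kr 1 a a h, transpose_one]

theorem kr_lower {n d : ℕ} {a : Lg d →L[ℝ] Lg d} {k : ℝ} (h : ∀ u, k * ‖u‖ ^ 2 ≤ ⟪u, a u⟫)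
    (x : Tn n d) : k * ‖x‖ ^ 2 ≤ ⟪x, kr 1 a x⟫ := by
  rw [norm_sq_eq_sum_cmp, inner_eq_sum_cmp, Finset.mul_sum]
  exact Finset.sum_le_sum fun i _ => by rw [cmp_kr_one]; exact h _

variable {N d : ℕ} {F : Type} [NormedAddCommGroup F] [InnerProductSpace ℂ F]
  [FiniteDimensional ℂ F] (c : Ctx N d F)

theorem cmp_G (𝔴 : Submodule ℝ (Lg d)) (X : Tn 9 d) (ξ : Lg d) (i : Fin 9) :
    cmp i (c.Gw 𝔴 X ξ) = -c.adw 𝔴 (cmp i X) ξ := by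
  simp [Ctx.Gw, cmp_tens, Pi.single_apply]

theorem dv_apply (𝔴 : Submodule ℝ (Lg d)) (X W : Tn 9 d) :
    c.dv 𝔴 X W = ∑ i, c.adw 𝔴 (cmp i X) (cmp i W) := by
  simp [Ctx.dv]

theorem adw_apply (𝔴 : Submodule ℝ (Lg d)) (y ξ : Lg d) :
    c.adw 𝔴 y ξ = 𝔴.starProjection (c.ad y (𝔴.starProjection ξ)) := rfl

theorem G_proj (𝔴 : Submodule ℝ (Lg d)) (X : Tn 9 d) (ξ : Lg d) :
    c.Gw 𝔴 X (𝔴.starProjection ξ) = c.Gw 𝔴 X ξ := by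
  refine ext_cmp fun i => ?_
  rw [cmp_G, cmp_G, adw_apply, adw_apply,
    Submodule.starProjection_eq_self_iff.2 (𝔴.starProjection_apply_mem ξ)]

section gauge
variable (h1 : c.S_lm1) {𝔴 : Submodule ℝ (Lg d)} {v : Fin 9 → ℝ} {y : Tn 9 d}
  (hy : y ∈ c.Ow 𝔴 v)
include h1 hy

theorem A_eq (W : Tn 9 d) : ⟪W, c.Aw 𝔴 y W⟫ =
    ⟪(c.Np 𝔴 y).starProjection W, kr 1 (c.om 𝔴 y) ((c.Np 𝔴 y).starProjection W)⟫ := by
  rw [proj_sym, Ctx.Aw, ← h1.Np_proj 𝔴 v y hy]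
  rfl

theorem om_mem {ξ : Lg d} (hξ : ξ ∈ 𝔴) : c.om 𝔴 y ξ ∈ 𝔴 := by
  have h := congrArg (fun a : Lg d →L[ℝ] Lg d => a ξ) (h1.om_P 𝔴 v y hy)
  simp only [mul_apply_eq_comp] at h
  rw [Submodule.starProjection_eq_self_iff.2 hξ] at h
  rw [h]
  exact 𝔴.starProjection_apply_mem _

variable (hc : ∀ i, c.om 𝔴 y * c.adw 𝔴 (cmp i y) = c.adw 𝔴 (cmp i y) * c.om 𝔴 y)
include hc

omit h1 hy in
theorem om_G (ξ : Lg d) : kr 1 (c.om 𝔴 y) (c.Gw 𝔴 y ξ) = c.Gw 𝔴 y (c.om 𝔴 y ξ) := by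
  refine ext_cmp fun i => ?_
  rw [cmp_kr_one, cmp_G, cmp_G, map_neg]
  exact congrArg (fun a : Lg d →L[ℝ] Lg d => -a ξ) (hc i)

theorem quad_split {W : Tn 9 d} (hW : W ∈ sub 9 𝔴) : ∃ ξ₀ ∈ 𝔴, ∀ ξ ∈ 𝔴,
    ⟪W + c.Gw 𝔴 y ξ, kr 1 (c.om 𝔴 y) (W + c.Gw 𝔴 y ξ)⟫ =
      ⟪W, c.Aw 𝔴 y W⟫ + ⟪ξ + ξ₀, (c.om 𝔴 y ^ 3) (ξ + ξ₀)⟫ := by
  refine ⟨𝔴.starProjection (Ring.inverse (c.Kw 𝔴 y) (c.dv 𝔴 y W)),
    𝔴.starProjection_apply_mem _, fun ξ hξ => ?_⟩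
  set ζ := ξ + 𝔴.starProjection (Ring.inverse (c.Kw 𝔴 y) (c.dv 𝔴 y W)) with hζ
  have hζm : ζ ∈ 𝔴 := 𝔴.add_mem hξ (𝔴.starProjection_apply_mem _)
  set n := (c.Np 𝔴 y).starProjection W with hn
  have hn0 : c.dv 𝔴 y n = 0 := ((c.Np 𝔴 y).starProjection_apply_mem W).2
  have e : W + c.Gw 𝔴 y ξ = n + c.Gw 𝔴 y ζ := by
    rw [hn, h1.Np_proj 𝔴 v y hy, hζ, map_add, G_proj, _root_.sub_apply,
      ← sub_starProjection, Submodule.starProjection_eq_self_iff.2 hW]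
    change _ = W - c.Gw 𝔴 y (Ring.inverse (c.Kw 𝔴 y) (c.dv 𝔴 y W)) + _
    abel
  have hs : IsSym (kr (1 : Matrix (Fin 9) (Fin 9) ℝ) (c.om 𝔴 y)) := kr_sym (h1.om_pd 𝔴 v y hy).1
  have a1 : ⟪c.Gw 𝔴 y (c.om 𝔴 y ζ), n⟫ = 0 := by rw [h1.inner_G, hn0, inner_zero_right]
  have a2 : ⟪c.Gw 𝔴 y ζ, c.Gw 𝔴 y (c.om 𝔴 y ζ)⟫ = ⟪ζ, (c.om 𝔴 y ^ 3) ζ⟫ := by
    rw [h1.inner_G, h1.dv_G 𝔴 y _ (om_mem c h1 hy hζm), ← h1.om_sq 𝔴 v y hy, pow_three]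
    rfl
  rw [e, A_eq c h1 hy, ← hn, map_add _ n, inner_add_left, inner_add_right, inner_add_right,
    ← hs (c.Gw 𝔴 y ζ) n, om_G c hc, a1, a2,
    real_inner_comm (c.Gw 𝔴 y (c.om 𝔴 y ζ)) n, a1]
  ring

theorem shift {W : Tn 9 d} (hW : W ∈ sub 9 𝔴) (t : ℝ) :
    ∫ ξ : 𝔴, Real.exp (-(t * ⟪W + c.Gw 𝔴 y ξ, kr 1 (c.om 𝔴 y) (W + c.Gw 𝔴 y ξ)⟫)) =
      Real.exp (-(t * ⟪W, c.Aw 𝔴 y W⟫)) *
        ∫ ξ : 𝔴, Real.exp (-(t * ⟪(ξ : Lg d), (c.om 𝔴 y ^ 3) ξ⟫)) := by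
  obtain ⟨ξ₀, h0, h⟩ := quad_split c h1 hy hc hW
  rw [← integral_add_sub (fun ξ : Lg d => Real.exp (-(t * ⟪ξ, (c.om 𝔴 y ^ 3) ξ⟫))) h0,
    ← integral_const_mul]
  refine integral_congr_ae (ae_of_all _ fun ξ => ?_)
  simp only
  rw [h ξ ξ.2, ← Real.exp_add]
  congr 1
  ring

theorem full (hv : v ⬝ᵥ v = 1) {g : ℝ} (hg : 0 < g) :
    ∫ W : sub 9 𝔴, Real.exp (-(g * ⟪(W : Tn 9 d), kr 1 (c.om 𝔴 y) (W : Tn 9 d)⟫)) =
      c.jw 𝔴 v y * ((∫ W : Wsl 𝔴 v, Real.exp (-⟪(W : Tn 9 d), (g • c.Aw 𝔴 y) W⟫)) *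
        ∫ ξ : 𝔴, Real.exp (-(g * ⟪(ξ : Lg d), (c.om 𝔴 y ^ 3) ξ⟫))) := by
  obtain ⟨k, hk, hB⟩ := (h1.om_pd 𝔴 v y hy).exists_lower
  have i1 := integrable_gaussian (U := sub 9 𝔴) hk (fun w _ => kr_lower hB w) hg 0
  simp only [pow_zero, one_mul] at i1
  have h2 := (h1.split 𝔴 v hv y hy
    (fun W => (Real.exp (-(g * ⟪W, kr 1 (c.om 𝔴 y) W⟫)) : ℂ)) i1.ofReal).2
  simp only [integral_complex_ofReal] at h2
  have h3 : ∫ W : sub 9 𝔴, Real.exp (-(g * ⟪(W : Tn 9 d), kr 1 (c.om 𝔴 y) (W : Tn 9 d)⟫)) =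
      c.jw 𝔴 v y * ∫ W : Wsl 𝔴 v, ∫ ξ : 𝔴, Real.exp (-(g * ⟪(W : Tn 9 d) + c.Gw 𝔴 y ξ,
        kr 1 (c.om 𝔴 y) ((W : Tn 9 d) + c.Gw 𝔴 y ξ)⟫)) := by
    exact_mod_cast h2
  rw [h3, ← integral_mul_const]
  congr 1
  refine integral_congr_ae (ae_of_all _ fun W => ?_)
  simp only
  rw [shift c h1 hy hc W.2.1, _root_.smul_apply, real_inner_smul_right]

theorem gauge (hv : v ⬝ᵥ v = 1) {g : ℝ} (hg : 0 < g) {W : Tn 9 d} (hW : W ∈ Wsl 𝔴 v) :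
    c.ng 𝔴 g y * c.jw 𝔴 v y * (∫ ξ : 𝔴, Real.exp (-(g *
        ⟪W + c.Gw 𝔴 y ξ, kr 1 (c.om 𝔴 y) (W + c.Gw 𝔴 y ξ)⟫) / 2))
        = √(c.jw 𝔴 v y) * c.Gg 𝔴 v g y W := by
  have e : ∀ x : ℝ, -(g * x) / 2 = -(g / 2 * x) := fun x => by ring
  have hpd := pd_cube (h1.om_pd 𝔴 v y hy)
  have p1 := int_pos' hpd 𝔴 hg
  have p2 := int_pos' hpd 𝔴 (half_pos hg)
  have pj := h1.j_pos 𝔴 v y hy
  have sj : 0 < √(c.jw 𝔴 v y) := Real.sqrt_pos.2 pj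
  unfold Ctx.ng Ctx.Gg gauss gnorm
  simp only [e]
  rw [shift c h1 hy hc hW.1, full c h1 hy hc hv hg, _root_.smul_apply,
    real_inner_smul_right, e]
  generalize (∫ W : Wsl 𝔴 v, Real.exp (-⟪(W : Tn 9 d), (g • c.Aw 𝔴 y) W⟫)) = I at *
  generalize (∫ ξ : 𝔴, Real.exp (-(g * ⟪(ξ : Lg d), (c.om 𝔴 y ^ 3) ξ⟫))) = I₁ at *
  generalize (∫ ξ : 𝔴, Real.exp (-(g / 2 * ⟪(ξ : Lg d), (c.om 𝔴 y ^ 3) ξ⟫))) = I₂ at *
  have e2 : I₁ / (c.jw 𝔴 v y * (I * I₁)) = (c.jw 𝔴 v y * I)⁻¹ := by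
    rw [← mul_assoc, div_mul_cancel_right₀ p1.ne']
  rw [e2, Real.sqrt_inv, Real.sqrt_mul pj.le, mul_inv]
  have e3 : c.jw 𝔴 v y = √(c.jw 𝔴 v y) * √(c.jw 𝔴 v y) := (Real.mul_self_sqrt pj.le).symm
  generalize √(c.jw 𝔴 v y) = s at *
  rw [e3]
  field_simp

end gauge

/-- a sign matrix -/
def sgnU (a : Fin N) : UN N :=
  ⟨Matrix.diagonal fun k => if k = a then -1 else 1, by
    rw [Matrix.mem_unitaryGroup_iff, Matrix.star_eq_conjTranspose, Matrix.diagonal_conjTranspose,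
      Matrix.diagonal_mul_diagonal, ← Matrix.diagonal_one]
    congr 1
    funext k
    by_cases h : k = a <;> simp [h]⟩

theorem sgnU_mem (π : Setoid (Fin N)) (a : Fin N) : sgnU a ∈ Grp π := fun k _ h =>
  Matrix.diagonal_apply_ne _ fun e => h (e ▸ π.refl k)

theorem diag_of_fix {x : Lg d} (h : ∀ a, c.Ad (sgnU a) x = x) (a b : Fin N) (hab : a ≠ b) :
    c.mat x a b = 0 := by
  have h1 := congrFun (congrFun ((c.Ad_eq_iff _ _).1 (h a)).eq a) b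
  simp only [sgnU, Matrix.diagonal_mul, Matrix.mul_diagonal, if_true, if_neg hab.symm] at h1
  linear_combination (-1 / 2 : ℂ) * h1

theorem tr_fix {τ : Lg d →L[ℝ] Lg d} (hτ : ∀ x, c.mat (τ x) = (c.mat x)ᵀ) {x : Lg d}
    (h : ∀ a b, a ≠ b → c.mat x a b = 0) : τ x = x := by
  apply c.mat_injective
  rw [hτ]
  ext a b
  by_cases hab : a = b
  · rw [hab, transpose_apply]
  · rw [transpose_apply, h a b hab, h b a (Ne.symm hab)]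

theorem int_inv {U : Submodule ℝ (Tn 9 d)} {R : Tn 9 d →L[ℝ] Tn 9 d} {S : Tn 16 d →L[ℝ] Tn 16 d}
    (hR : ∀ x ∈ U, R x ∈ U ∧ ‖R x‖ = ‖x‖) {G : Tn 9 d → ℝ} {Φ : Tn 9 d → Tn 16 d}
    (hG : ∀ x, G (R x) = G x) (hΦ : ∀ x, Φ (R x) = S (Φ x))
    (hI : Integrable fun W : U => G W ^ 2 • Φ W) :
    S (∫ W : U, G W ^ 2 • Φ W) = ∫ W : U, G W ^ 2 • Φ W := by
  rw [← S.integral_comp_comm hI, ← integral_isometry (fun x hx => (hR x hx).2)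
    (map_eq_of_isometry hR) fun W => G W ^ 2 • Φ W]
  refine integral_congr_ae (ae_of_all _ fun W => ?_)
  simp only [hG, hΦ, map_smul]

theorem w2a (h1 : c.S_lm1) (h2 : c.S_lmea) {π π' : Setoid (Fin N)} {v : Fin 9 → ℝ} (hπ : π' ≤ π)
    {y : Tn 9 d} (hyc : y ∈ sub 9 (c.cen π')) (hy : y ∈ c.Ow (c.off π π') v) (e : Fin 16 → ℝ) :
    ∫ W : Wsl (c.off π π') v, c.Gg (c.off π π') v 1 y W ^ 2 • c.Phi e W = 0 := by
  by_cases hI : Integrable fun W : Wsl (c.off π π') v =>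
    c.Gg (c.off π π') v 1 y W ^ 2 • c.Phi e W
  swap
  · exact integral_undef hI
  obtain ⟨τ, hτ, hτ2, hτs, hτa⟩ := c.exists_transpose
  set 𝔴 := c.off π π' with h𝔴
  set M := ∫ W : Wsl 𝔴 v, c.Gg 𝔴 v 1 y W ^ 2 • c.Phi e W with hM
  have hdiag : ∀ α a b, a ≠ b → c.mat (cmp α M) a b = 0 := by
    intro α
    refine diag_of_fix c fun a => ?_
    have hu := sgnU_mem π' a
    have hiff := c.Ad_mem_iff (u := sgnU a) (𝔟 := 𝔴) fun x hx => c.Ad_mem_off hπ hu hx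
    have hyu : c.Ad9 (sgnU a) y = y := ext_cmp fun i => by
      rw [Ctx.Ad9, cmp_kr_one, c.Ad_cen hu (mem_sub.1 hyc i)]
    have h := int_inv (U := Wsl 𝔴 v) (R := c.Ad9 (sgnU a)) (S := kr 1 (c.Ad (sgnU a)))
      (fun x hx => ⟨(h2.W _ 𝔴 𝔴 hiff v x).2 hx, c.norm_Ad9 _ x⟩) (G := c.Gg 𝔴 v 1 y)
      (Φ := c.Phi e) (fun x => by
        conv_lhs => rw [← hyu]
        exact h2.G _ 𝔴 𝔴 hiff v 1 y x) (c.Phi_Ad9 e _) hI
    rw [← cmp_kr_one, h]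
  have hτw : ∀ x ∈ 𝔴, τ x ∈ 𝔴 := by
    intro x hx
    rw [h𝔴, c.mem_off hπ] at hx ⊢
    intro a b hab
    rw [hτ, transpose_apply]
    exact hx b a (hab.imp (fun h h' => h (π.symm h')) fun h => π'.symm h)
  have hτy : ∀ i, τ (cmp i y) = cmp i y := fun i => tr_fix c hτ (mem_sub.1 hyc i).1
  have hadw : ∀ i x, τ (c.adw 𝔴 (cmp i y) x) = -c.adw 𝔴 (cmp i y) (τ x) := by
    intro i x
    rw [adw_apply, adw_apply, comm_proj hτs hτw, hτa, hτy, comm_proj hτs hτw, map_neg]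
  have hK : τ * c.Kw 𝔴 y = c.Kw 𝔴 y * τ := by
    ext1 x
    simp only [Ctx.Kw, mul_apply_eq_comp, _root_.add_apply,
      _root_.neg_apply, _root_.sum_apply, _root_.sub_apply,
      one_apply_eq_self, map_add, map_neg, map_sum, map_sub, hadw, neg_neg,
      comm_proj hτs hτw]
  have hom : τ * c.om 𝔴 y = c.om 𝔴 y * τ := psq_comm (h1.K_pd 𝔴 v y hy) hK
  have hs9 : IsSym (kr (1 : Matrix (Fin 9) (Fin 9) ℝ) τ) := kr_sym hτs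
  have h99 : kr (1 : Matrix (Fin 9) (Fin 9) ℝ) τ * kr 1 τ = 1 := by
    rw [kr_mul, hτ2, Matrix.mul_one, kr_one]
  have hsub : ∀ x ∈ sub 9 𝔴, kr 1 τ x ∈ sub 9 𝔴 := fun x hx => mem_sub.2 fun i => by
    rw [cmp_kr_one]
    exact hτw _ (mem_sub.1 hx i)
  have hNp : ∀ x ∈ c.Np 𝔴 y, kr 1 τ x ∈ c.Np 𝔴 y := by
    intro x hx
    refine ⟨hsub x hx.1, ?_⟩
    have h0 : c.dv 𝔴 y x = 0 := hx.2
    change c.dv 𝔴 y (kr 1 τ x) = 0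
    have h3 := congrArg τ h0
    rw [dv_apply, map_sum, map_zero] at h3
    simp only [hadw, Finset.sum_neg_distrib, neg_eq_zero] at h3
    rw [dv_apply]
    simpa only [cmp_kr_one] using h3
  have hA : ∀ x, ⟪kr 1 τ x, c.Aw 𝔴 y (kr 1 τ x)⟫ = ⟪x, c.Aw 𝔴 y x⟫ := by
    intro x
    rw [A_eq c h1 hy, A_eq c h1 hy, ← comm_proj hs9 hNp, hs9]
    congr 1
    change (kr (1 : Matrix (Fin 9) (Fin 9) ℝ) τ * kr 1 (c.om 𝔴 y) * kr 1 τ :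
      Tn 9 d →L[ℝ] Tn 9 d) _ = _
    rw [kr_mul, kr_mul, hom, mul_assoc (c.om 𝔴 y), hτ2]
    simp only [mul_one]
  have h := int_inv (U := Wsl 𝔴 v) (R := kr 1 τ) (S := -kr 1 τ)
    (fun x hx => ⟨⟨hsub x hx.1, ?_⟩, norm_of_invol hs9 h99 x⟩) (G := c.Gg 𝔴 v 1 y)
    (Φ := c.Phi e) (fun x => ?_) (fun x => ?_) hI
  · refine ext_cmp fun α => ?_
    have h3 := congrArg (cmp α) h
    rw [← hM, _root_.neg_apply, map_neg, cmp_kr_one, tr_fix c hτ (hdiag α)] at h3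
    rw [map_zero]
    have h4 : (2 : ℝ) • cmp α M = 0 := by
      rw [two_smul]
      nth_rewrite 1 [← h3]
      exact neg_add_cancel _
    exact (smul_eq_zero.1 h4).resolve_left two_ne_zero
  · have h0 : cv v x = 0 := hx.2
    change cv v (kr 1 τ x) = 0
    rw [cv_kr_one, h0, map_zero]
  · simp only [Ctx.Gg, gauss, one_smul, hA]
  · simp only [Ctx.Phi, _root_.neg_apply, map_smul, map_sum, kr_tens, cmp_kr_one,
      Matrix.one_mulVec, hτa, map_neg, neg_neg]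

end Lm3bAux

namespace Ctx

variable {N d : ℕ} {F : Type} [NormedAddCommGroup F] [InnerProductSpace ℂ F]
  [FiniteDimensional ℂ F] (c : Ctx N d F)

theorem p_lm3b (h_lm1 : c.S_lm1) (h_lmea : c.S_lmea) (h_lm3a : c.S_lm3a) : c.S_lm3b where
  gauge π π' π'' v h h' hv y hyc hy _ hg _ hW :=
    Lm3bAux.gauge c h_lm1 hy (h_lm3a.B_eq π π' π'' v h h' y hyc hy).2 hv hg hW
  w2a _ _ _ h _ hyc hy e := Lm3bAux.w2a c h_lm1 h_lmea h hyc hy e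

end Ctx

end Vale.Agent.P353
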