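import Vale.Agent.P353.Bas3
import Vale.Agent.P353.Gam1
import Vale.Agent.P353.Psq
import Vale.Agent.P353.Cov1
import Vale.Agent.P353.Car3

/-! Schur multipliers and Clifford sums. -/

noncomputable section

open MeasureTheory Filter Topology Complex Matrix
open scoped ContDiff RealInnerProductSpace

namespace Vale.Agent.P353

namespace Lm4Aux

section Abs

variable {V : Type} [NormedAddCommGroup V] [InnerProductSpace ℝ V] [FiniteDimensional ℝ V]

theorem ker_T {J₀ J T D B : V →L[ℝ] V} (h₀ : IsSkew J₀) (hT : IsSkew T) (hD : IsSkew D)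
    (hB : IsPD B) (hJB : J * B = D) (hBJ : B * J = J * B) (h1 : T * J₀ = -(J₀ * T))
    (h2 : T * B = B * T) (h3 : T * D + D * T = T * T + T * T) {u : V} (hu : (J + J₀) u = 0) :
    T u = 0 := by
  obtain ⟨w, rfl⟩ : ∃ w, B w = u := by
    obtain ⟨b, hb⟩ := hB.isUnit
    exact ⟨(↑b⁻¹ : V →L[ℝ] V) u, by
      rw [← mul_apply_eq_comp, ← hb, Units.mul_inv, one_apply_eq_self]⟩
  have a1 : ∀ x, T (J₀ x) = -J₀ (T x) := fun x => DFunLike.congr_fun h1 x
  have a2 : ∀ x, T (B x) = B (T x) := fun x => DFunLike.congr_fun h2 x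
  have a3 : T (D w) + D (T w) = T (T w) + T (T w) := DFunLike.congr_fun h3 w
  have a4 : J (B w) = D w := DFunLike.congr_fun hJB w
  have a5 : B (D w) = D (B w) := by
    have : B * D = D * B := by rw [← hJB, ← mul_assoc, hBJ]
    exact DFunLike.congr_fun this w
  have b1 : ⟪T (B w), J₀ (B w)⟫ = 0 := by
    have e1 := hT (B w) (J₀ (B w))
    have e2 := h₀ (B w) (T (B w))
    rw [a1, inner_neg_right, neg_neg] at e1
    rw [real_inner_comm] at e2
    linarith
  have b2 : ⟪T (B w), D w⟫ = 0 := by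
    have e1 : J (B w) + J₀ (B w) = 0 := hu
    have e2 : ⟪T (B w), J (B w) + J₀ (B w)⟫ = 0 := by rw [e1, inner_zero_right]
    rwa [inner_add_right, b1, add_zero, a4] at e2
  have b3 : ⟪T w, B (T w)⟫ = 0 := by
    have e1 := hT (B w) (D w)
    have e2 : ⟪T (B w), D w⟫ = -⟪B w, D (T w)⟫ := by
      rw [a2, hB.1, a5, real_inner_comm, hD]
    have e3 : ⟪B w, T (D w) + D (T w)⟫ = ⟪B w, T (T w) + T (T w)⟫ := by rw [a3]
    have e4 := hT (B w) (T w)
    rw [inner_add_right, inner_add_right] at e3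
    rw [a2, real_inner_comm] at e4
    linarith
  have b4 : T w = 0 := by
    by_contra hne
    exact (hB.2 _ hne).ne' b3
  rw [a2, b4, map_zero]

theorem anti_J {J R D B P : V →L[ℝ] V} (hB : IsPD B) (hJB : J * B = D)
    (hBB : B * B = -(D * D) + (1 - P)) (h1 : R * D = -(D * R)) (h2 : R * P = P * R) :
    R * J = -(J * R) := by
  have h3 : R * B = B * R := by
    refine PsqAux.intw hB hB (T := R) ?_
    change R * (B * B) = (B * B) * R
    rw [hBB, mul_add, add_mul, mul_sub, sub_mul, h2, mul_one, one_mul, mul_neg, neg_mul,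
      ← mul_assoc, h1, neg_mul, mul_assoc, h1, mul_neg, neg_neg, mul_assoc]
  refine hB.isUnit.mul_right_cancel ?_
  rw [mul_assoc, hJB, h1, neg_mul, mul_assoc, h3, ← mul_assoc J, hJB]

theorem isUnit_of_ker {T : V →L[ℝ] V} (h : ∀ u, T u = 0 → u = 0) : IsUnit T := by
  rw [isUnit_iff_det_ne_zero]
  intro h0
  have h1 : LinearMap.det (T : V →ₗ[ℝ] V) = 0 := h0
  rw [LinearMap.det_eq_zero_iff_ker_ne_bot] at h1
  exact h1 (LinearMap.ker_eq_bot'.2 h)

end Abs

theorem exists_dir (p q : Fin 9 → ℝ) : ∃ e : Fin 9 → ℝ, e ⬝ᵥ e = 1 ∧ (∀ i : Fin 9, i.val < 3 →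
    e i = 0) ∧ e ⬝ᵥ p = 0 ∧ e ⬝ᵥ q = 0 := by
  let M : Matrix (Fin 5) (Fin 9) ℝ :=
    Matrix.of ![Pi.single 0 1, Pi.single 1 1, Pi.single 2 1, p, q]
  have h := LinearMap.ker_ne_bot_of_finrank_lt (f := Matrix.toLin' M) (by simp)
  obtain ⟨e, he, hne⟩ := (Submodule.ne_bot_iff _).1 h
  have he' : M *ᵥ e = 0 := by simpa using he
  have h0 := congrFun he' 0
  have h1 := congrFun he' 1
  have h2 := congrFun he' 2
  have h3 := congrFun he' 3
  have h4 := congrFun he' 4
  simp [M, Matrix.mulVec] at h0 h1 h2 h3 h4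
  have hp : 0 < e ⬝ᵥ e := lt_of_le_of_ne (Finset.sum_nonneg fun i _ => mul_self_nonneg _)
    fun h => hne (dotProduct_self_eq_zero.1 h.symm)
  refine ⟨(√(e ⬝ᵥ e))⁻¹ • e, ?_, fun i hi => ?_, ?_, ?_⟩
  · rw [smul_dotProduct, dotProduct_smul, smul_eq_mul, smul_eq_mul, ← mul_assoc, ← mul_inv,
      Real.mul_self_sqrt hp.le, inv_mul_cancel₀ hp.ne']
  · have : e i = 0 := by
      obtain ⟨i, hi'⟩ := i
      simp only at hi
      interval_cases i
      exacts [h0, h1, h2]
    simp [this]
  · rw [smul_dotProduct, dotProduct_comm e p, show p ⬝ᵥ e = 0 from h3, smul_zero]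
  · rw [smul_dotProduct, dotProduct_comm e q, show q ⬝ᵥ e = 0 from h4, smul_zero]

section Cl

variable {d : ℕ} {γ : Fin 9 → M16}

/-- Clifford sum -/
def G (γ : Fin 9 → M16) (A : Fin 9 → Lg d →L[ℝ] Lg d) : Tn 16 d →L[ℝ] Tn 16 d :=
  ∑ i, kr (γ i) (A i)

theorem G_anti (h : IsGam γ) {A A' : Fin 9 → Lg d →L[ℝ] Lg d}
    (hc : ∀ i j, A i * A' j = A' j * A i) :
    G γ A * G γ A' + G γ A' * G γ A = kr 1 (∑ i, A i * A' i) + kr 1 (∑ i, A i * A' i) := by
  have e1 : G γ A * G γ A' = ∑ i, ∑ j, kr (γ i * γ j) (A i * A' j) := by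
    simp only [G, Finset.sum_mul, Finset.mul_sum, kr_mul]
    exact Finset.sum_comm
  have e2 : G γ A' * G γ A = ∑ i, ∑ j, kr (γ j * γ i) (A i * A' j) := by
    simp only [G, Finset.sum_mul, Finset.mul_sum, kr_mul, hc]
  have e3 : ∀ i j, kr (γ i * γ j) (A i * A' j) + kr (γ j * γ i) (A i * A' j) =
      if i = j then kr 1 (A i * A' j) + kr 1 (A i * A' j) else 0 := by
    intro i j
    rw [← kr_add_left, h.anticomm]
    split_ifs
    · rw [two_smul, kr_add_left]
    · have := kr_add_left (0 : M16) 0 (A i * A' j)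
      rwa [add_zero, left_eq_add] at this
  rw [e1, e2, ← Finset.sum_add_distrib, kr_sum_right, ← Finset.sum_add_distrib]
  refine Finset.sum_congr rfl fun i _ => ?_
  rw [← Finset.sum_add_distrib]
  simp only [e3, Finset.sum_ite_eq, Finset.mem_univ, if_true]

theorem G_comm {A : Fin 9 → Lg d →L[ℝ] Lg d} {b : Lg d →L[ℝ] Lg d}
    (hc : ∀ i, b * A i = A i * b) : G γ A * kr 1 b = kr 1 b * G γ A := by
  simp only [G, Finset.sum_mul, Finset.mul_sum, kr_mul, hc, mul_one, one_mul]

theorem G_mul {A : Fin 9 → Lg d →L[ℝ] Lg d} {b : Lg d →L[ℝ] Lg d}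
    (hc : ∀ i, A i * b = A i) : G γ A * kr 1 b = G γ A := by
  simp only [G, Finset.sum_mul, kr_mul, hc, mul_one]

theorem mul_G {A : Fin 9 → Lg d →L[ℝ] Lg d} {b : Lg d →L[ℝ] Lg d}
    (hc : ∀ i, b * A i = A i) : kr 1 b * G γ A = G γ A := by
  simp only [G, Finset.mul_sum, kr_mul, hc, one_mul]

theorem G_Gm (h : IsGam γ) {A : Fin 9 → Lg d →L[ℝ] Lg d} {b : Lg d →L[ℝ] Lg d}
    (hc : ∀ i, b * A i = A i * b) (h0 : ∀ i : Fin 9, i.val < 3 → A i = 0) :
    G γ A * kr (Gm γ) b = -(kr (Gm γ) b * G γ A) := by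
  simp only [G, Finset.sum_mul, Finset.mul_sum, kr_mul, hc, ← Finset.sum_neg_distrib]
  refine Finset.sum_congr rfl fun i _ => ?_
  by_cases hi : i.val < 3
  · rw [h0 i hi, zero_mul, kr_zero_right, kr_zero_right, neg_zero]
  · rw [h.Gm_comm, if_neg hi, neg_one_smul, kr_neg_left, neg_neg]

theorem G_skew (h : IsGam γ) {A : Fin 9 → Lg d →L[ℝ] Lg d} (hA : ∀ i, IsSkew (A i)) :
    IsSkew (G γ A) := by
  intro u v
  simp only [G, _root_.sum_apply, sum_inner, inner_sum, ← Finset.sum_neg_distrib]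
  refine Finset.sum_congr rfl fun i _ => ?_
  rw [inner_kr (γ i) (A i) (-A i) (fun x y => by rw [hA i x y]; simp), h.symm, kr_neg_right]
  simp

end Cl

variable {N d : ℕ} {F : Type} [NormedAddCommGroup F] [InnerProductSpace ℂ F]
  [FiniteDimensional ℂ F] (c : Ctx N d F)

/-- `T` is the Schur multiplier with symbol `m` -/
def IsM (T : Lg d →L[ℝ] Lg d) (m : Fin N → Fin N → ℂ) : Prop :=
  ∀ x a b, c.mat (T x) a b = m a b * c.mat x a b

variable {c}

theorem IsM.ext {T T' : Lg d →L[ℝ] Lg d} {m m' : Fin N → Fin N → ℂ} (h : IsM c T m)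
    (h' : IsM c T' m') (hm : ∀ a b, m a b = m' a b) : T = T' := by
  refine ContinuousLinearMap.ext fun x => c.mat_injective ?_
  ext a b
  rw [h, h', hm]

theorem IsM.mul {T T' : Lg d →L[ℝ] Lg d} {m m' : Fin N → Fin N → ℂ} (h : IsM c T m)
    (h' : IsM c T' m') : IsM c (T * T') fun a b => m a b * m' a b := fun x a b => by
  rw [mul_apply_eq_comp, h, h', mul_assoc]

theorem IsM.comm {T T' : Lg d →L[ℝ] Lg d} {m m' : Fin N → Fin N → ℂ} (h : IsM c T m)
    (h' : IsM c T' m') : T * T' = T' * T :=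
  (h.mul h').ext (h'.mul h) fun _ _ => mul_comm _ _

theorem IsM.zero : IsM c 0 fun _ _ => 0 := fun x a b => by simp

theorem IsM.sum {T : Fin 9 → Lg d →L[ℝ] Lg d} {m : Fin 9 → Fin N → Fin N → ℂ}
    (h : ∀ i, IsM c (T i) (m i)) : IsM c (∑ i, T i) fun a b => ∑ i, m i a b := fun x a b => by
  rw [_root_.sum_apply, map_sum, Matrix.sum_apply, Finset.sum_mul]
  exact Finset.sum_congr rfl fun i _ => h i x a b

theorem exists_isM (c : Ctx N d F) {E : Fin N → Fin N → ℝ} (hs : ∀ a b, E a b = E b a)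
    (h0 : ∀ a, E a a = 0) : ∃ T, IsM c T fun a b => E a b := by
  let L : Lg d →ₗ[ℝ] Matrix (Fin N) (Fin N) ℂ :=
    { toFun := fun x => Matrix.of fun a b => (E a b : ℂ) * c.mat x a b
      map_add' := fun x y => by ext a b; simp [mul_add]
      map_smul' := fun t x => by ext a b; simp [mul_left_comm] }
  refine ⟨LinearMap.toContinuousLinearMap (c.co ∘ₗ L), fun x a b => ?_⟩
  have : c.mat (c.co (L x)) = L x := by
    refine c.span _ ?_ ?_
    · ext a b
      simp [L, hs a b, (c.mat_herm x).apply]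
    · simp [L, Matrix.trace, h0]
  exact congrFun (congrFun this a) b

open Classical in
/-- the symbol of the projection onto the off diagonal part -/
def ind (π π' : Setoid (Fin N)) (a b : Fin N) : ℝ := if π a b ∧ ¬ π' a b then 1 else 0

theorem isM_proj (c : Ctx N d F) {π π' : Setoid (Fin N)} (h : π' ≤ π) :
    IsM c (c.off π π').starProjection fun a b => ind π π' a b := by
  classical
  intro x a b
  have key : (c.off π π').starProjection x =
      (c.blk π).starProjection x - (c.blk π').starProjection x := by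
    refine Submodule.eq_starProjection_of_mem_orthogonal ?_ ?_
    · rw [c.mem_off h]
      intro a b hab
      rw [map_sub, Matrix.sub_apply, c.mat_blk_proj, c.mat_blk_proj]
      by_cases h2 : π' a b
      · rw [if_pos (h h2), if_pos h2, sub_self]
      · rw [if_neg (hab.resolve_right h2), if_neg h2, sub_self]
    · rw [← sub_add]
      refine add_mem (Submodule.orthogonal_le inf_le_left
        (Submodule.sub_starProjection_mem_orthogonal x)) ?_
      exact (c.off_isOrtho_blk π π').symm (Submodule.starProjection_apply_mem _ x)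
  rw [key, map_sub, Matrix.sub_apply, c.mat_blk_proj, c.mat_blk_proj]
  unfold ind
  by_cases h2 : π' a b
  · simp [h h2, h2]
  · by_cases h1 : π a b <;> simp [h1, h2]

theorem isM_ad (c : Ctx N d F) {π' : Setoid (Fin N)} {y : Lg d} (hy : y ∈ c.cen π') :
    IsM c (c.ad y) fun a b => -I * Bas3Aux.dif c a b y := by
  intro x a b
  have e1 : (c.mat y * c.mat x) a b = c.mat y a a * c.mat x a b := by
    rw [Matrix.mul_apply, Finset.sum_eq_single a (fun k _ hk => by
      rw [hy.1 a k hk.symm, zero_mul]) (by simp)]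
  have e2 : (c.mat x * c.mat y) a b = c.mat x a b * c.mat y b b := by
    rw [Matrix.mul_apply, Finset.sum_eq_single b (fun k _ hk => by
      rw [hy.1 k b hk, mul_zero]) (by simp)]
  have e3 : ((Bas3Aux.dif c a b y : ℝ) : ℂ) = c.mat y a a - c.mat y b b := by
    rw [← (c.mat_herm y).coe_re_apply_self a, ← (c.mat_herm y).coe_re_apply_self b]
    simp [Bas3Aux.dif]
  rw [c.mat_ad, Matrix.smul_apply, Matrix.sub_apply, e1, e2, smul_eq_mul]
  simp only [e3]
  ring

theorem isM_adw (c : Ctx N d F) {π π' : Setoid (Fin N)} (h : π' ≤ π) {y : Lg d}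
    (hy : y ∈ c.cen π') : IsM c (c.adw (c.off π π') y) fun a b =>
      ind π π' a b * (-I * Bas3Aux.dif c a b y) * ind π π' a b :=
  ((isM_proj c h).mul (isM_ad c hy)).mul (isM_proj c h)

theorem adw_skew (c : Ctx N d F) (𝔴 : Submodule ℝ (Lg d)) (y : Lg d) : IsSkew (c.adw 𝔴 y) := by
  intro u v
  simp only [Ctx.adw, mul_apply_eq_comp]
  rw [Submodule.inner_starProjection_left_eq_right, c.ad_skew,
    Submodule.inner_starProjection_left_eq_right]

theorem ind_sq (π π' : Setoid (Fin N)) (a b : Fin N) :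
    (ind π π' a b : ℂ) * ind π π' a b = ind π π' a b := by
  unfold ind
  split_ifs <;> simp

theorem unit_of (c : Ctx N d F) {π π' : Setoid (Fin N)} (h : π' ≤ π) {y : Tn 9 d}
    (hy : y ∈ sub 9 (c.cen π')) (hg : y ∈ c.Good π π') {J : Tn 16 d →L[ℝ] Tn 16 d}
    {o : Lg d →L[ℝ] Lg d} (hB : IsPD (kr (1 : M16) o)) (hJB : J * kr 1 o = c.Dw (c.off π π') y)
    (hBJ : kr 1 o * J = J * kr 1 o)
    (ho : ∀ i, o * c.adw (c.off π π') (cmp i y) = c.adw (c.off π π') (cmp i y) * o)
    (hJ : IsPCS J) (hs : -(J * J) = kr 1 (c.off π π').starProjection) :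
    IsUnit (J + kr (Gm c.γ) (c.off π π').starProjection +
      (1 + kr (Gm c.γ) (c.off π π').starProjection * kr (Gm c.γ) (c.off π π').starProjection)) := by
  have h₀ := c.isPCS_Gm (c.off π π')
  have hs₀ := c.Gm_supp (c.off π π')
  have hP := isM_proj c h
  have hA := fun i => isM_adw c h (mem_sub.1 hy i)
  set A : Fin 9 → Lg d →L[ℝ] Lg d := fun i => c.adw (c.off π π') (cmp i y) with hAdef
  let A' : Fin 9 → Lg d →L[ℝ] Lg d := fun i => if 3 ≤ i.val then A i else 0
  have hA' : ∀ i, IsM c (A' i) fun a b => if 3 ≤ i.val then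
      ind π π' a b * (-I * Bas3Aux.dif c a b (cmp i y)) * ind π π' a b else 0 := by
    intro i
    by_cases hi : 3 ≤ i.val
    · simp only [A', if_pos hi]; exact hA i
    · simp only [A', if_neg hi]; exact IsM.zero
  have hTT := G_anti c.gam (A := A') (A' := A') fun i j => (hA' i).comm (hA' j)
  refine isUnit_of_ker fun u hu => ?_
  have h1 : (J + kr (Gm c.γ) (c.off π π').starProjection) u = 0 := by
    rw [← (Car3Aux.pair_alg h₀ hJ (neg_injective (hs₀.trans hs.symm))).2.1, mul_apply_eq_comp, hu,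
      map_zero]
  have h2 : kr (1 : M16) (c.off π π').starProjection u = u := by
    rw [_root_.add_apply, h1, zero_add, _root_.add_apply, one_apply_eq_self] at hu
    rw [← hs₀, _root_.neg_apply]
    exact (eq_neg_of_add_eq_zero_left hu).symm
  have h3 : G c.γ A' u = 0 := by
    refine ker_T h₀.1 (G_skew c.gam fun i => ?_) (G_skew c.gam fun i => adw_skew c _ _) hB hJB hBJ
      (G_Gm c.gam (fun i => hP.comm (hA' i)) fun i hi => if_neg (by omega)) (G_comm fun i => ?_)
      ?_ h1
    · by_cases hi : 3 ≤ i.val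
      · simp only [A', if_pos hi]; exact adw_skew c _ _
      · simp only [A', if_neg hi]; exact fun _ _ => by simp
    · by_cases hi : 3 ≤ i.val
      · simp only [A', if_pos hi]; exact ho i
      · simp only [A', if_neg hi, mul_zero, zero_mul]
    · rw [hTT, G_anti c.gam (A := A') (A' := A) fun i j => (hA' i).comm (hA j)]
      refine congrArg (fun b => kr (1 : M16) b + kr 1 b) (Finset.sum_congr rfl fun i _ => ?_)
      by_cases hi : 3 ≤ i.val
      · simp only [A', if_pos hi]
      · simp only [A', if_neg hi, zero_mul]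
  have h4 : kr (1 : M16) (∑ i, A' i * A' i) u = 0 := by
    have := DFunLike.congr_fun hTT u
    rw [_root_.add_apply, mul_apply_eq_comp, h3, map_zero, add_zero, _root_.add_apply,
      ← two_smul ℝ] at this
    exact (smul_eq_zero.1 this.symm).resolve_left two_ne_zero
  refine ext_cmp fun α => c.mat_injective ?_
  ext a b
  have h5 := IsM.sum (fun i => (hA' i).mul (hA' i)) (cmp α u) a b
  have h6 := hP (cmp α u) a b
  rw [← cmp_kr_one, h4, map_zero, map_zero, Matrix.zero_apply] at h5
  rw [← cmp_kr_one, h2] at h6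
  rw [map_zero, map_zero, Matrix.zero_apply]
  by_cases hab : π a b ∧ ¬ π' a b
  · have h7 : ind π π' a b = 1 := if_pos hab
    refine (mul_eq_zero.1 h5.symm).resolve_left ?_
    obtain ⟨i, hi, hne⟩ := hg a b hab.1 hab.2
    have h8 : 0 < ∑ j : Fin 9, if 3 ≤ j.val then Bas3Aux.dif c a b (cmp j y) ^ 2 else 0 := by
      refine Finset.sum_pos' (fun j _ => by split_ifs <;> positivity) ⟨i, Finset.mem_univ _, ?_⟩
      rw [if_pos hi]
      exact pow_pos (a := |Bas3Aux.dif c a b (cmp i y)|)
        (abs_pos.2 fun h0 => hne ((Bas3Aux.mat_diag_eq_iff c _ a b).2 h0)) 2 |>.trans_eq (sq_abs _)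
    intro h9
    apply h8.ne'
    rw [← Complex.ofReal_eq_zero, ← neg_eq_zero, ← h9, Complex.ofReal_sum,
      ← Finset.sum_neg_distrib]
    refine Finset.sum_congr rfl fun j _ => ?_
    simp only [h7]
    split_ifs
    · push_cast
      linear_combination (-(Bas3Aux.dif c a b (cmp j y) : ℂ) ^ 2) * Complex.I_mul_I
    · simp
  · have h7 : ind π π' a b = 0 := if_neg hab
    rw [h6]
    simp [h7]

theorem anti_alg {A : Type} [Ring A] {g p x : A} (h1 : x * p = x) (h2 : p * x = x)
    (h3 : g * x = -(x * g)) : (g + (1 - p)) * x = -(x * (g + (1 - p))) := by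
  rw [add_mul, mul_add, sub_mul, mul_sub, h1, h2, one_mul, mul_one, sub_self, add_zero, add_zero, h3]

theorem exists_R (c : Ctx N d F) {π π' : Setoid (Fin N)} (h : π' ≤ π) {y z : Tn 9 d}
    (hy : y ∈ sub 9 (c.cen π')) (hz : z ∈ sub 9 (c.cen π')) : ∃ R : Tn 16 d →L[ℝ] Tn 16 d,
    IsUnit R ∧ R * kr (Gm c.γ) (c.off π π').starProjection =
      -(kr (Gm c.γ) (c.off π π').starProjection * R) ∧
    R * kr 1 (c.off π π').starProjection = kr 1 (c.off π π').starProjection * R ∧
    ∀ t : ℝ, R * c.Dw (c.off π π') (y + t • z) = -(c.Dw (c.off π π') (y + t • z) * R) := by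
  choose f f1 f2 f3 f4 using fun a b : Fin N =>
    exists_dir (fun i => Bas3Aux.dif c a b (cmp i y)) fun i => Bas3Aux.dif c a b (cmp i z)
  obtain ⟨e, es, e1, e2, e3⟩ : ∃ e : Fin N → Fin N → Fin 9 → ℝ, (∀ a b, e a b = e b a) ∧
      (∀ a b, e a b ⬝ᵥ e a b = 1) ∧ (∀ a b, ∀ i : Fin 9, i.val < 3 → e a b i = 0) ∧
      ∀ a b (t : ℝ), ∑ i, e a b i * Bas3Aux.dif c a b (cmp i (y + t • z)) = 0 := by
    have k : ∀ a b (t : ℝ), ∑ i, f a b i * Bas3Aux.dif c a b (cmp i (y + t • z)) = 0 := by
      intro a b t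
      have k1 : ∑ i, f a b i * Bas3Aux.dif c a b (cmp i y) = 0 := f3 a b
      have k2 : ∑ i, f a b i * Bas3Aux.dif c a b (cmp i z) = 0 := f4 a b
      simp only [map_add, map_smul, smul_eq_mul, mul_add, Finset.sum_add_distrib, k1,
        mul_left_comm _ t, ← Finset.mul_sum, k2, mul_zero, add_zero]
    refine ⟨fun a b => f (min a b) (max a b), fun a b => by simp only [min_comm a, max_comm a],
      fun a b => f1 _ _, fun a b => f2 _ _, fun a b t => ?_⟩
    rcases le_total a b with hab | hab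
    · simp only [min_eq_left hab, max_eq_right hab, k]
    · simp only [min_eq_right hab, max_eq_left hab]
      rw [← neg_eq_zero, ← k b a t, ← Finset.sum_neg_distrib]
      refine Finset.sum_congr rfl fun i _ => ?_
      simp only [Bas3Aux.dif, LinearMap.coe_mk, AddHom.coe_mk]
      ring
  have hind : ∀ a b, ind π π' a b = ind π π' b a := fun a b => by
    unfold ind
    rw [π.comm' (x := a), π'.comm' (x := a)]
  choose H hH using fun i : Fin 9 => exists_isM c (E := fun a b => ind π π' a b * e a b i)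
    (fun a b => by rw [hind, es]) fun a => by
      rw [show ind π π' a a = 0 from if_neg fun h => h.2 (π'.refl' a), zero_mul]
  have hP := isM_proj c h
  have hHP : ∀ i, H i * (c.off π π').starProjection = H i := fun i =>
    ((hH i).mul hP).ext (hH i) fun a b => by
      push_cast
      linear_combination (e a b i : ℂ) * ind_sq π π' a b
  have hPP : (c.off π π').starProjection * (c.off π π').starProjection =
      (c.off π π').starProjection := (hP.mul hP).ext hP fun a b => ind_sq π π' a b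
  have g1 : G c.γ H * kr 1 (c.off π π').starProjection = G c.γ H := G_mul hHP
  have g2 : kr 1 (c.off π π').starProjection * G c.γ H = G c.γ H :=
    mul_G fun i => (hP.comm (hH i)).trans (hHP i)
  have g3 : kr (1 : M16) (c.off π π').starProjection * kr 1 (c.off π π').starProjection =
      kr 1 (c.off π π').starProjection := by rw [kr_mul, one_mul, hPP]
  have g4 : G c.γ H * G c.γ H = kr 1 (c.off π π').starProjection := by
    have k := G_anti c.gam (A := H) (A' := H) fun i j => (hH i).comm (hH j)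
    have k2 : ∑ i, H i * H i = (c.off π π').starProjection :=
      (IsM.sum fun i => (hH i).mul (hH i)).ext hP fun a b => by
        have k3 : ((∑ i, e a b i * e a b i : ℝ) : ℂ) = 1 := by
          rw [show ∑ i, e a b i * e a b i = 1 from e1 a b, Complex.ofReal_one]
        rw [← ind_sq, ← mul_one (_ * _), ← k3, Complex.ofReal_sum, Finset.mul_sum]
        refine Finset.sum_congr rfl fun i _ => ?_
        push_cast
        ring
    rw [k2] at k
    refine ContinuousLinearMap.ext fun u => ?_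
    have k4 := DFunLike.congr_fun k u
    rw [_root_.add_apply, _root_.add_apply, ← two_smul ℝ, ← two_smul ℝ] at k4
    exact smul_right_injective _ two_ne_zero k4
  refine ⟨G c.γ H + (1 - kr 1 (c.off π π').starProjection), ?_, ?_, ?_, fun t => ?_⟩
  · have k : (G c.γ H + (1 - kr 1 (c.off π π').starProjection)) *
        (G c.γ H + (1 - kr 1 (c.off π π').starProjection)) = 1 := by
      simp only [add_mul, mul_add, sub_mul, mul_sub, g1, g2, g3, g4, one_mul, mul_one]
      abel
    exact ⟨⟨_, _, k, k⟩, rfl⟩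
  · refine anti_alg (by rw [kr_mul, mul_one, hPP]) (by rw [kr_mul, one_mul, hPP])
      (G_Gm c.gam (fun i => hP.comm (hH i)) fun i hi => (hH i).ext IsM.zero fun a b => ?_)
    simp [e2 a b i hi]
  · simp only [add_mul, mul_add, sub_mul, mul_sub, g1, g2, one_mul, mul_one]
  · have hA := fun i => isM_adw c h (mem_sub.1 (add_mem hy (Submodule.smul_mem _ t hz)) i)
    obtain ⟨A, hAe⟩ : ∃ A : Fin 9 → Lg d →L[ℝ] Lg d,
      ∀ i, A i = c.adw (c.off π π') (cmp i (y + t • z)) := ⟨_, fun _ => rfl⟩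
    have g0 : c.Dw (c.off π π') (y + t • z) = G c.γ A := by simp only [Ctx.Dw, G, hAe]
    have g5 : G c.γ A * kr 1 (c.off π π').starProjection = G c.γ A :=
      G_mul fun i => by simp only [hAe, Ctx.adw, mul_assoc, hPP]
    have g6 : kr 1 (c.off π π').starProjection * G c.γ A = G c.γ A :=
      mul_G fun i => by simp only [hAe, Ctx.adw, ← mul_assoc, hPP]
    simp only [← hAe] at hA
    have k := G_anti c.gam (A := H) (A' := A) fun i j => (hH i).comm (hA j)
    have k2 : ∑ i, H i * A i = 0 :=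
      (IsM.sum fun i => (hH i).mul (hA i)).ext IsM.zero fun a b => by
        have k3 := congrArg (fun r : ℝ => (r : ℂ)) (e3 a b t)
        simp only [Complex.ofReal_sum, Complex.ofReal_zero] at k3
        rw [← mul_zero (-I * (ind π π' a b : ℂ) ^ 3), ← k3, Finset.mul_sum]
        refine Finset.sum_congr rfl fun i _ => ?_
        push_cast
        ring
    rw [k2, kr_zero_right, add_zero] at k
    rw [g0]
    exact anti_alg g5 g6 (eq_neg_of_add_eq_zero_left k)

end Lm4Aux

end Vale.Agent.P353
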