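import Vale.Agent.P353.Stmts
import Vale.Agent.P353.Psq
import Vale.Agent.P353.Car3
import Vale.Agent.P353.Lm4Aux

/-! Overlap and flatness. -/

noncomputable section

open MeasureTheory Filter Topology Complex Matrix
open scoped ContDiff RealInnerProductSpace

namespace Vale.Agent.P353

namespace Lm4Aux

variable {N d : ℕ} {F : Type} [NormedAddCommGroup F] [InnerProductSpace ℂ F]
  [FiniteDimensional ℂ F] {c : Ctx N d F}

theorem anti_J' {J R D B P : Tn 16 d →L[ℝ] Tn 16 d} (hB : IsPD B) (hJB : J * B = D)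
    (hBB : B * B = -(D * D) + (1 - P)) (h1 : R * D = -(D * R)) (h2 : R * P = P * R) :
    R * J = -(J * R) := anti_J hB hJB hBB h1 h2

theorem ov_pos' (c : Ctx N d F) {J₀ J : Tn 16 d →L[ℝ] Tn 16 d} (h₀ : IsPCS J₀) (hJ : IsPCS J)
    (hs : J₀ * J₀ = J * J) (ht : IsUnit (J + J₀ + (1 + J₀ * J₀))) : 0 < ov c.θ J₀ J :=
  have := c.ntriv
  c.car.ov_pos h₀ hJ hs ht

theorem flat' (c : Ctx N d F) {J₀ J₁ J' R : Tn 16 d →L[ℝ] Tn 16 d} {J : ℝ → Tn 16 d →L[ℝ] Tn 16 d}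
    (h₀ : IsPCS J₀) (hJ : ∀ᶠ t in 𝓝 (0 : ℝ), IsPCS (J t) ∧ J₀ * J₀ = J t * J t)
    (hd : HasDerivAt J J' 0) (h1 : J 0 = J₁) (ht : IsUnit (J₁ + J₀ + (1 + J₀ * J₀)))
    (hR : IsUnit R) (hR₀ : R * J₀ = -(J₀ * R)) (hR₁ : ∀ᶠ t in 𝓝 (0 : ℝ), R * J t = -(J t * R)) :
    vac c.θ J₁ * deriv (fun t => (((√(ov c.θ J₀ (J t)))⁻¹ : ℝ) : ℂ) •
      (vac c.θ (J t) * vac c.θ J₀)) 0 = 0 := by
  have := c.ntriv
  subst h1
  exact c.car.flat h₀ hJ hd ht hR hR₀ hR₁.self_of_nhds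
    ((hd.const_mul R).unique ((hd.mul_const R).neg.congr_of_eventuallyEq hR₁))

theorem sq_eq (h1 : c.S_lm1) {𝔴 : Submodule ℝ (Lg d)} {v : Fin 9 → ℝ} {X : Tn 9 d}
    (hX : X ∈ c.Ow 𝔴 v) :
    kr (Gm c.γ) 𝔴.starProjection * kr (Gm c.γ) 𝔴.starProjection = c.Jw 𝔴 X * c.Jw 𝔴 X :=
  neg_injective ((c.Gm_supp 𝔴).trans (h1.J_supp 𝔴 v X hX).symm)

theorem unit (h1 : c.S_lm1) (h3 : c.S_lm3a) {π π' : Setoid (Fin N)} (h : π' ≤ π) {y : Tn 9 d}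
    (hy : y ∈ sub 9 (c.cen π')) (hg : y ∈ c.Good π π') {v : Fin 9 → ℝ}
    (hv : y ∈ c.Ow (c.off π π') v) :
    IsUnit (c.Jw (c.off π π') y + kr (Gm c.γ) (c.off π π').starProjection +
      (1 + kr (Gm c.γ) (c.off π π').starProjection * kr (Gm c.γ) (c.off π π').starProjection)) := by
  obtain ⟨e1, e2⟩ := h3.B_eq π π' π' v h le_rfl y hy hv
  exact unit_of c h hy hg (e1 ▸ h1.B_pd _ v y hv) (e1 ▸ h1.JB _ v y hv) (e1 ▸ h1.BJ _ v y hv) e2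
    (h1.J_pcs _ v y hv) (h1.J_supp _ v y hv)

theorem ov_pos (h1 : c.S_lm1) (h3 : c.S_lm3a) {π π' : Setoid (Fin N)} (h : π' ≤ π) {y : Tn 9 d}
    (hy : y ∈ sub 9 (c.cen π')) (hg : y ∈ c.Good π π') {v : Fin 9 → ℝ}
    (hv : y ∈ c.Ow (c.off π π') v) : 0 < c.ovw (c.off π π') y := by
  have := ov_pos' c (c.isPCS_Gm (c.off π π')) (h1.J_pcs _ v y hv) (sq_eq h1 hv)
    (unit h1 h3 h hy hg hv)
  exact this

theorem ov_sm (h1 : c.S_lm1) {𝔴 : Submodule ℝ (Lg d)} {v : Fin 9 → ℝ} {X : Tn 9 d}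
    (hX : X ∈ c.Ow 𝔴 v) : ContDiffAt ℝ ∞ (c.ovw 𝔴) X := by
  have e : c.ovw 𝔴 = fun X => reCLM (((Car3Aux.trC F).restrictScalars ℝ) (c.P0 𝔴 * c.Pw 𝔴 X)) /
      (Car3Aux.trC F (c.P0 𝔴)).re := funext fun X => Car3Aux.ov_eq _ _
  rw [e]
  exact (reCLM.contDiff.contDiffAt.comp X (((Car3Aux.trC F).restrictScalars ℝ).contDiff.contDiffAt.comp
    X (contDiffAt_const.mul (h1.sm_P 𝔴 v X hX)))).div_const _

theorem inv_sm (h1 : c.S_lm1) {𝔴 : Submodule ℝ (Lg d)} {v : Fin 9 → ℝ} {X : Tn 9 d}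
    (hX : X ∈ c.Ow 𝔴 v) (hp : 0 < c.ovw 𝔴 X) :
    ContDiffAt ℝ ∞ (fun Y => (√(c.ovw 𝔴 Y))⁻¹) X :=
  ((ov_sm h1 hX).sqrt hp.ne').inv (Real.sqrt_pos.2 hp).ne'

theorem flat (h1 : c.S_lm1) (h3 : c.S_lm3a) {π π' : Setoid (Fin N)} (h : π' ≤ π) {y z : Tn 9 d}
    (hy : y ∈ sub 9 (c.cen π')) (hg : y ∈ c.Good π π') {v : Fin 9 → ℝ}
    (hv : y ∈ c.Ow (c.off π π') v) (hz : z ∈ sub 9 (c.cen π')) :
    c.Pw (c.off π π') y * fderiv ℝ (fun X => (((√(c.ovw (c.off π π') X))⁻¹ : ℝ) : ℂ) •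
      (c.Pw (c.off π π') X * c.P0 (c.off π π'))) y z = 0 := by
  obtain ⟨R, hR, r1, r2, r3⟩ := exists_R c h hy hz
  have hl : HasDerivAt (fun t : ℝ => y + t • z) z 0 := by
    simpa using ((hasDerivAt_id (0 : ℝ)).smul_const z).const_add y
  have h0 : y = y + (0 : ℝ) • z := by simp
  have hev : ∀ᶠ t in 𝓝 (0 : ℝ), y + t • z ∈ c.Ow (c.off π π') v :=
    hl.continuousAt.eventually_mem ((h1.isOpen _ v).mem_nhds (h0 ▸ hv))
  have hanti : ∀ᶠ t in 𝓝 (0 : ℝ), R * c.Jw (c.off π π') (y + t • z) =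
      -(c.Jw (c.off π π') (y + t • z) * R) := by
    filter_upwards [hev] with t ht
    exact anti_J' (h1.B_pd _ v _ ht) (h1.JB _ v _ ht) (h1.B_sq _ v _ ht) (r3 t) r2
  have hJ : HasDerivAt (fun t : ℝ => c.Jw (c.off π π') (y + t • z))
      (fderiv ℝ (c.Jw (c.off π π')) y z) 0 :=
    ((h1.sm_J _ v y hv).differentiableAt (by simp)).hasFDerivAt.comp_hasDerivAt_of_eq 0 hl h0
  have hf : DifferentiableAt ℝ (fun X => (((√(c.ovw (c.off π π') X))⁻¹ : ℝ) : ℂ) •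
      (c.Pw (c.off π π') X * c.P0 (c.off π π'))) y :=
    ((ofRealCLM.contDiff.contDiffAt.comp y (inv_sm h1 hv (ov_pos h1 h3 h hy hg hv))).smul
      ((h1.sm_P _ v y hv).mul contDiffAt_const)).differentiableAt (by simp)
  have key := flat' c (c.isPCS_Gm (c.off π π'))
    (hev.mono fun t ht => ⟨h1.J_pcs _ v _ ht, sq_eq h1 ht⟩) hJ
    (congrArg (c.Jw (c.off π π')) h0.symm) (unit h1 h3 h hy hg hv) hR r1 hanti
  rw [← (hf.hasFDerivAt.comp_hasDerivAt_of_eq 0 hl h0).deriv]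
  exact key

end Lm4Aux

namespace Ctx

variable {N d : ℕ} {F : Type} [NormedAddCommGroup F] [InnerProductSpace ℂ F]
  [FiniteDimensional ℂ F] (c : Ctx N d F)

theorem p_lm4 (h_lm1 : c.S_lm1) (h_lmea : c.S_lmea) (h_lm3a : c.S_lm3a)
    (h_orb : c.S_orb) : c.S_lm4 := by
  have _ := h_lmea
  have := c.ntriv
  obtain ⟨𝒱, -, hdir⟩ := h_orb.dir
  have hPP : ∀ 𝔴 v, ∀ X ∈ c.Ow 𝔴 v,
      c.Pw 𝔴 X * c.P0 𝔴 * c.Pw 𝔴 X = (c.ovw 𝔴 X : ℂ) • c.Pw 𝔴 X ∧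
      c.P0 𝔴 * c.Pw 𝔴 X * c.P0 𝔴 = (c.ovw 𝔴 X : ℂ) • c.P0 𝔴 := fun 𝔴 v X hX =>
    ⟨c.car.vac_vac_vac (c.isPCS_Gm 𝔴) (h_lm1.J_pcs 𝔴 v X hX) (Lm4Aux.sq_eq h_lm1 hX),
      c.car.vac_vac_vac' (c.isPCS_Gm 𝔴) (h_lm1.J_pcs 𝔴 v X hX) (Lm4Aux.sq_eq h_lm1 hX)⟩
  refine ⟨fun π π' h y hy hg => ?_, fun 𝔴 v X hX => Lm4Aux.ov_sm h_lm1 hX, hPP,
    fun π π' h y hy hg z hz => ?_, fun π 𝔞 π' h η Z hη => ?_, fun π π' h y hy hg β hβ => ?_,
    fun π π' h y hy z β hβ => ?_⟩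
  · obtain ⟨v, -, hv⟩ := hdir π π' h y hy (c.Good_subset_Gen π π' hg)
    exact Lm4Aux.ov_pos h_lm1 h_lm3a h hy hg hv
  · obtain ⟨v, -, hv⟩ := hdir π π' h y hy (c.Good_subset_Gen π π' hg)
    exact Lm4Aux.flat h_lm1 h_lm3a h hy hg hv hz
  · obtain ⟨hs, K, hK, hKZ, hKC, h0⟩ := hη
    have hp := (c.CS 𝔞 π').starProjection.contDiff (n := ∞)
    refine ⟨contDiff_iff_contDiffAt.2 fun x => ?_, K, hK, hKZ, hKC, fun x hx hxK => ?_⟩
    · by_cases hx : (c.CS 𝔞 π').starProjection x ∈ K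
      · have hy : (c.CS 𝔞 π').starProjection x ∈ sub 9 (c.cen π') :=
          sub_mono inf_le_right (hKC hx)
        obtain ⟨v, -, hv⟩ := hdir π π' h _ hy (c.Good_subset_Gen π π' (hKZ hx).1)
        exact (hs.comp hp).contDiffAt.mul ((Lm4Aux.inv_sm h_lm1 hv
          (Lm4Aux.ov_pos h_lm1 h_lm3a h hy (hKZ hx).1 hv)).comp x hp.contDiffAt)
      · refine (contDiffAt_const (c := (0 : ℝ))).congr_of_eventuallyEq ?_
        filter_upwards [hp.continuous.continuousAt.eventually_mem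
          (hK.isClosed.isOpen_compl.mem_nhds hx)] with x' hx'
        rw [hatη, h0 _ (Submodule.starProjection_apply_mem _ _) hx', zero_div]
    · rw [hatη, Submodule.starProjection_eq_self_iff.2 hx, h0 x hx hxK, zero_div]
  · obtain ⟨v, -, hv⟩ := hdir π π' h y hy hg
    have e0 : c.Pw (c.off π π') y * c.Pw (c.off π π') y = c.Pw (c.off π π') y := vac_idem _
    have e1 : (inner ℂ (opL _ (c.Pw (c.off π π') y) (opL _ (c.P0 (c.off π π')) β))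
        (opL _ (c.Pw (c.off π π') y) (opL _ (c.P0 (c.off π π')) β)) : ℂ) =
        c.ovw (c.off π π') y * inner ℂ β β := by
      rw [inner_opL (a := c.Pw (c.off π π') y) (b := c.Pw (c.off π π') y) (vac_symm _),
        inner_opL (a := c.P0 (c.off π π')) (b := c.P0 (c.off π π')) (vac_symm _),
        ← mul_apply_eq_comp, ← mul_apply_eq_comp, ← mul_apply_eq_comp, ← opL_mul, ← opL_mul,
        ← opL_mul, mul_assoc (c.P0 (c.off π π')), e0, (hPP _ v y hv).2, opL_smul,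
        _root_.smul_apply, hβ.2, inner_smul_right]
    rw [hβ.2, inner_self_eq_norm_sq_to_K, inner_self_eq_norm_sq_to_K] at e1
    exact Complex.ofReal_injective (by push_cast; exact e1)
  · refine ⟨?_, ?_⟩
    · rw [opL_smul, _root_.smul_apply]
      exact Submodule.smul_mem _ z (c.theta_cen_mem_B hy hβ.1)
    · have e1 := c.P0_theta (𝔴 := c.off π π')
        (sub_mono ((c.cen_le_blk π').trans (c.off_isOrtho_blk π π').symm) hy)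
      rw [← mul_apply_eq_comp, ← opL_mul, mul_smul_comm, e1, ← smul_mul_assoc, opL_mul,
        mul_apply_eq_comp, hβ.2]

end Ctx

end Vale.Agent.P353
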