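import Vale.Agent.P353.Stmts
import Vale.Agent.P353.Psq
import Vale.Agent.P353.Car3

/-! Local data: equivariance. -/

noncomputable section

open MeasureTheory Filter Topology Complex Matrix
open scoped ContDiff RealInnerProductSpace

namespace Vale.Agent.P353

namespace LmeaAux

section Ring

variable {A : Type} [Ring A] {R R' a a' : A}

theorem sc_eq (h : R * R' = 1) (s : SemiconjBy R a a') : R * a * R' = a' := by
  rw [s.eq, mul_assoc, h, mul_one]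

theorem sc_symm (h : R * R' = 1) (h' : R' * R = 1) (s : SemiconjBy R a a') :
    SemiconjBy R' a' a := by
  rw [SemiconjBy, ← sc_eq h s, ← mul_assoc, ← mul_assoc, h', one_mul]

theorem sc_unit (h : R * R' = 1) (h' : R' * R = 1) (s : SemiconjBy R a a') (ha : IsUnit a) :
    IsUnit a' := by
  rw [← sc_eq h s]
  exact (IsUnit.mul ⟨⟨R, R', h, h'⟩, rfl⟩ ha).mul ⟨⟨R', R, h', h⟩, rfl⟩

theorem sc_inverse (h : R * R' = 1) (h' : R' * R = 1) (s : SemiconjBy R a a') :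
    SemiconjBy R (Ring.inverse a) (Ring.inverse a') := by
  by_cases ha : IsUnit a
  · have ha' := sc_unit h h' s ha
    calc R * Ring.inverse a = Ring.inverse a' * (a' * R) * Ring.inverse a := by
          rw [← mul_assoc, Ring.inverse_mul_cancel _ ha', one_mul]
      _ = Ring.inverse a' * R := by
          rw [← s.eq, mul_assoc, mul_assoc, Ring.mul_inverse_cancel _ ha, mul_one]
  · rw [Ring.inverse_non_unit _ ha,
      Ring.inverse_non_unit _ fun ha' => ha (sc_unit h' h (sc_symm h h' s) ha')]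
    exact SemiconjBy.zero_right R

theorem sc_sum {ι : Type} (t : Finset ι) {f f' : ι → A} (s : ∀ i, SemiconjBy R (f i) (f' i)) :
    SemiconjBy R (∑ i ∈ t, f i) (∑ i ∈ t, f' i) := by
  rw [SemiconjBy, Finset.mul_sum, Finset.sum_mul]
  exact Finset.sum_congr rfl fun i _ => s i

end Ring

section Iso

variable {V : Type} [NormedAddCommGroup V] [InnerProductSpace ℝ V] {R R' a a' : V →L[ℝ] V}

theorem sc_app (s : SemiconjBy R a a') (x : V) : R (a x) = a' (R x) := DFunLike.congr_fun s.eq x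

theorem sc_of_app (s : ∀ x, R (a x) = a' (R x)) : SemiconjBy R a a' := ContinuousLinearMap.ext s

/-- an isometry together with its inverse -/
structure Isom (R R' : V →L[ℝ] V) : Prop where
  l : R * R' = 1
  r : R' * R = 1
  inner : ∀ x y, ⟪R x, R y⟫ = ⟪x, y⟫

theorem Isom.app (h : Isom R R') (x : V) : R (R' x) = x := DFunLike.congr_fun h.l x

theorem Isom.symm (h : Isom R R') : Isom R' R :=
  ⟨h.r, h.l, fun x y => by rw [← h.inner, h.app, h.app]⟩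

theorem Isom.norm (h : Isom R R') (x : V) : ‖R x‖ = ‖x‖ := by
  rw [norm_eq_sqrt_real_inner, h.inner, ← norm_eq_sqrt_real_inner]

theorem Isom.form (h : Isom R R') (s : SemiconjBy R a a') (x y : V) :
    ⟪R x, a' (R y)⟫ = ⟪x, a y⟫ := by
  rw [← h.inner x, sc_app s]

theorem Isom.pd (h : Isom R R') (s : SemiconjBy R a a') (ha : IsPD a) : IsPD a' := by
  refine ⟨fun x y => ?_, fun x hx => ?_⟩
  · rw [← h.app x, ← h.app y, real_inner_comm, h.form s, h.form s, real_inner_comm, ha.1]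
  · rw [← h.app x, h.form s]
    exact ha.2 _ fun h0 => hx (by rw [← h.app x, h0, map_zero])

theorem Isom.root (h : Isom R R') (s : SemiconjBy R a a') {B : V →L[ℝ] V} (hB : IsPD B)
    (hK : B * B = a) : IsPD (R * B * R') ∧ R * B * R' * (R * B * R') = a' := by
  have s1 : SemiconjBy R B (R * B * R') := by rw [SemiconjBy, mul_assoc _ R', h.r, mul_one]
  refine ⟨h.pd s1 hB, ?_⟩
  rw [← sc_eq h.l s, ← hK, sc_eq h.l (s1.mul_right s1)]

variable [FiniteDimensional ℝ V]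

theorem Isom.psq (h : Isom R R') (s : SemiconjBy R a a') : SemiconjBy R (psq a) (psq a') := by
  by_cases ha : ∃ B : V →L[ℝ] V, IsPD B ∧ B * B = a
  · obtain ⟨B, hB, hK⟩ := ha
    obtain ⟨h1, h2⟩ := h.root s hB hK
    rw [psq_unique hB hK, psq_unique h1 h2, SemiconjBy, mul_assoc _ R', h.r, mul_one]
  · have ha' : ¬ ∃ B : V →L[ℝ] V, IsPD B ∧ B * B = a' := fun ⟨B, hB, hK⟩ =>
      ha ⟨_, h.symm.root (sc_symm h.l h.r s) hB hK⟩
    rw [P353.psq, P353.psq, dif_neg ha, dif_neg ha']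
    exact SemiconjBy.zero_right R

omit [FiniteDimensional ℝ V] in
theorem Isom.det (h : Isom R R') (s : SemiconjBy R a a') : a'.det = a.det := by
  have hm : ∀ x y : V →L[ℝ] V, (x * y).det = x.det * y.det := fun x y =>
    LinearMap.det.map_mul (x : V →ₗ[ℝ] V) (y : V →ₗ[ℝ] V)
  have h1 : (1 : V →L[ℝ] V).det = 1 := LinearMap.det.map_one
  rw [← sc_eq h.l s, hm, hm, mul_right_comm, ← hm, h.l, h1, one_mul]

theorem Isom.integral [MeasurableSpace V] [BorelSpace V] (h : Isom R R') {U U' : Submodule ℝ V}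
    (hU : ∀ x, R x ∈ U' ↔ x ∈ U) {f f' : V → ℝ} (hf : ∀ x, f' (R x) = f x) :
    ∫ x : U', f' x = ∫ x : U, f x := by
  have hm : U.map (R : V →ₗ[ℝ] V) = U' := by
    ext y
    constructor
    · rintro ⟨x, hx, rfl⟩
      exact (hU x).2 hx
    · intro hy
      exact ⟨R' y, (hU _).1 (by rwa [h.app]), h.app y⟩
  rw [← integral_isometry (fun x _ => h.norm x) hm f']
  simp only [hf]

theorem integral_eq_bot [MeasurableSpace V] [BorelSpace V] {U : Submodule ℝ V} (hU : U = ⊥)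
    (f : V → ℝ) : ∫ x : U, f x = f 0 := by
  subst hU
  exact integral_bot f

end Iso

theorem trace_sc {F : Type} [NormedAddCommGroup F] [InnerProductSpace ℂ F] [FiniteDimensional ℂ F]
    {R R' a a' : F →L[ℂ] F} (h : R * R' = 1) (h' : R' * R = 1) (s : SemiconjBy R a a') :
    LinearMap.trace ℂ F (a' : F →L[ℂ] F) = LinearMap.trace ℂ F (a : F →L[ℂ] F) := by
  have hm : ∀ x y : F →L[ℂ] F, LinearMap.trace ℂ F (x * y : F →L[ℂ] F)
      = LinearMap.trace ℂ F (y * x : F →L[ℂ] F) := fun x y =>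
    LinearMap.trace_mul_comm ℂ (x : F →ₗ[ℂ] F) (y : F →ₗ[ℂ] F)
  rw [← sc_eq h s, hm, ← mul_assoc, h', one_mul]

theorem sc_kr {n d : ℕ} {R a a' : Lg d →L[ℝ] Lg d} (M : Matrix (Fin n) (Fin n) ℝ)
    (s : SemiconjBy R a a') : SemiconjBy (kr 1 R) (kr M a) (kr M a') := by
  rw [SemiconjBy, kr_mul, kr_mul, s.eq, Matrix.one_mul, Matrix.mul_one]

theorem Isom.kr {d : ℕ} {R R' : Lg d →L[ℝ] Lg d} (h : Isom R R') (n : ℕ) :
    Isom (kr (1 : Matrix (Fin n) (Fin n) ℝ) R) (kr 1 R') :=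
  ⟨by rw [kr_mul, h.l, Matrix.one_mul, kr_one], by rw [kr_mul, h.r, Matrix.one_mul, kr_one],
    fun x y => by simp only [inner_eq_sum_cmp, cmp_kr_one, h.inner]⟩

variable {N d : ℕ} {F : Type} [NormedAddCommGroup F] [InnerProductSpace ℂ F]
  [FiniteDimensional ℂ F] (c : Ctx N d F) {u : UN N} {𝔴 𝔴' : Submodule ℝ (Lg d)}

theorem isom (u : UN N) : Isom (c.Ad u) (c.Ad u⁻¹) :=
  ⟨by rw [← c.Ad_mul, mul_inv_cancel, c.Ad_one], by rw [← c.Ad_mul, inv_mul_cancel, c.Ad_one],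
    c.inner_Ad u⟩

theorem isom9 (u : UN N) : Isom (c.Ad9 u) (c.Ad9 u⁻¹) := (isom c u).kr 9

theorem cmp_Ad9 (u : UN N) (i : Fin 9) (X : Tn 9 d) : cmp i (c.Ad9 u X) = c.Ad u (cmp i X) :=
  cmp_kr_one _ _ _

theorem cv_Ad9 (u : UN N) (v : Fin 9 → ℝ) (X : Tn 9 d) : cv v (c.Ad9 u X) = c.Ad u (cv v X) :=
  cv_kr_one _ _ _

variable (h : ∀ x, c.Ad u x ∈ 𝔴' ↔ x ∈ 𝔴)
include h

theorem sc_P : SemiconjBy (c.Ad u) 𝔴.starProjection 𝔴'.starProjection := c.Ad_starProjection h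

theorem sc_adw (y : Lg d) : SemiconjBy (c.Ad u) (c.adw 𝔴 y) (c.adw 𝔴' (c.Ad u y)) :=
  have h1 : SemiconjBy (c.Ad u) (c.ad y) (c.ad (c.Ad u y)) := sc_of_app (c.Ad_ad u y)
  ((sc_P c h).mul_right h1).mul_right (sc_P c h)

theorem sc_adw9 (X : Tn 9 d) (i : Fin 9) :
    SemiconjBy (c.Ad u) (c.adw 𝔴 (cmp i X)) (c.adw 𝔴' (cmp i (c.Ad9 u X))) := by
  rw [cmp_Ad9]
  exact sc_adw c h _

theorem sc_Kw (X : Tn 9 d) : SemiconjBy (c.Ad u) (c.Kw 𝔴 X) (c.Kw 𝔴' (c.Ad9 u X)) :=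
  (sc_sum _ fun i => (sc_adw9 c h X i).mul_right (sc_adw9 c h X i)).neg_right.add_right
    ((SemiconjBy.one_right _).sub_right (sc_P c h))

theorem sc_om (X : Tn 9 d) : SemiconjBy (c.Ad u) (c.om 𝔴 X) (c.om 𝔴' (c.Ad9 u X)) :=
  (isom c u).psq (sc_Kw c h X)

theorem sc_aw (v : Fin 9 → ℝ) (X : Tn 9 d) :
    SemiconjBy (c.Ad u) (c.aw 𝔴 v X) (c.aw 𝔴' v (c.Ad9 u X)) := by
  unfold Ctx.aw
  rw [cv_Ad9]
  exact (sc_adw c h _).neg_right.add_right ((SemiconjBy.one_right _).sub_right (sc_P c h))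

theorem sc_Dw (X : Tn 9 d) : SemiconjBy (kr 1 (c.Ad u)) (c.Dw 𝔴 X) (c.Dw 𝔴' (c.Ad9 u X)) :=
  sc_sum _ fun i => sc_kr _ (sc_adw9 c h X i)

theorem sc_Jw (X : Tn 9 d) : SemiconjBy (kr 1 (c.Ad u)) (c.Jw 𝔴 X) (c.Jw 𝔴' (c.Ad9 u X)) :=
  (sc_Dw c h X).mul_right (sc_inverse ((isom c u).kr 16).l ((isom c u).kr 16).r
    (((isom c u).kr 16).psq (((sc_Dw c h X).mul_right (sc_Dw c h X)).neg_right.add_right
      ((SemiconjBy.one_right _).sub_right (sc_kr _ (sc_P c h))))))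

theorem sc_Pw (X : Tn 9 d) : SemiconjBy (c.U u) (c.Pw 𝔴 X) (c.Pw 𝔴' (c.Ad9 u X)) := by
  rw [SemiconjBy, Ctx.Pw, Ctx.Pw, c.U_vac, sc_eq ((isom c u).kr 16).l (sc_Jw c h X)]

theorem Gw_Ad (X : Tn 9 d) (ξ : Lg d) :
    c.Ad9 u (c.Gw 𝔴 X ξ) = c.Gw 𝔴' (c.Ad9 u X) (c.Ad u ξ) := by
  simp only [Ctx.Gw, _root_.sum_apply, ContinuousLinearMap.comp_apply, map_sum]
  refine Finset.sum_congr rfl fun i _ => ?_
  rw [← sc_app (sc_adw9 c h X i).neg_right, Ctx.Ad9, kr_tens, Matrix.one_mulVec]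

theorem dv_Ad (X W : Tn 9 d) : c.Ad u (c.dv 𝔴 X W) = c.dv 𝔴' (c.Ad9 u X) (c.Ad9 u W) := by
  simp only [Ctx.dv, _root_.sum_apply, ContinuousLinearMap.comp_apply, map_sum]
  refine Finset.sum_congr rfl fun i _ => ?_
  rw [cmp_Ad9 c u i W, sc_app (sc_adw9 c h X i)]

theorem sc_PN (X : Tn 9 d) : SemiconjBy (c.Ad9 u) (c.PN 𝔴 X) (c.PN 𝔴' (c.Ad9 u X)) := by
  refine sc_of_app fun W => ?_
  simp only [Ctx.PN, ContinuousLinearMap.comp_apply]
  rw [Gw_Ad c h, ← dv_Ad c h, sc_app (sc_inverse (isom c u).l (isom c u).r (sc_Kw c h X))]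

theorem sc_Aw (X : Tn 9 d) : SemiconjBy (c.Ad9 u) (c.Aw 𝔴 X) (c.Aw 𝔴' (c.Ad9 u X)) :=
  have h1 : SemiconjBy (c.Ad9 u) (kr 1 𝔴.starProjection - c.PN 𝔴 X)
      (kr 1 𝔴'.starProjection - c.PN 𝔴' (c.Ad9 u X)) :=
    SemiconjBy.sub_right (sc_kr _ (sc_P c h)) (sc_PN c h X)
  (h1.mul_right (sc_kr _ (sc_om c h X))).mul_right h1

theorem mem_sub_iff (W : Tn 9 d) : c.Ad9 u W ∈ sub 9 𝔴' ↔ W ∈ sub 9 𝔴 := by
  simp only [mem_sub, cmp_Ad9, h]

theorem mem_Wsl_iff (v : Fin 9 → ℝ) (W : Tn 9 d) : c.Ad9 u W ∈ Wsl 𝔴' v ↔ W ∈ Wsl 𝔴 v := by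
  refine and_congr (mem_sub_iff c h W) ?_
  change cv v (c.Ad9 u W) = 0 ↔ cv v W = 0
  rw [cv_Ad9, ← norm_eq_zero, c.norm_Ad, norm_eq_zero]

end LmeaAux

open LmeaAux

namespace Ctx

variable {N d : ℕ} {F : Type} [NormedAddCommGroup F] [InnerProductSpace ℂ F]
  [FiniteDimensional ℂ F] (c : Ctx N d F)

theorem p_lmea : c.S_lmea where
  om u 𝔴 𝔴' h X := (sc_om c h X).eq.symm
  P u 𝔴 𝔴' h X := (sc_Pw c h X).eq.symm
  A u 𝔴 𝔴' h X := (sc_Aw c h X).eq.symm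
  j u 𝔴 𝔴' h v X := by rw [jw, jw, (isom c u).det (sc_aw c h v X)]
  O u 𝔴 𝔴' h v X := by
    simp only [Ow, Set.mem_ofPred_eq]
    rw [(isom c u).det (sc_aw c h v X), ((isom c u).kr 16).det ((sc_Dw c h X).add_right
      ((SemiconjBy.one_right _).sub_right (sc_kr _ (sc_P c h))))]
  W u 𝔴 𝔴' h v W := mem_Wsl_iff c h v W
  G u 𝔴 𝔴' h v g X W := by
    have h1 : ∀ x, ⟪c.Ad9 u x, (g • c.Aw 𝔴' (c.Ad9 u X)) (c.Ad9 u x)⟫ = ⟪x, (g • c.Aw 𝔴 X) x⟫ :=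
      fun x => by
        rw [_root_.smul_apply, _root_.smul_apply, real_inner_smul_right, real_inner_smul_right,
          (isom9 c u).form (sc_Aw c h X)]
    simp only [Gg, gauss, gnorm]
    rw [h1, (isom9 c u).integral (mem_Wsl_iff c h v)
      (f' := fun x => Real.exp (-⟪x, (g • c.Aw 𝔴' (c.Ad9 u X)) x⟫))
      (f := fun x => Real.exp (-⟪x, (g • c.Aw 𝔴 X) x⟫)) fun x => by rw [h1]]
  ng u 𝔴 𝔴' h g X := by
    have h1 : ∀ x, ⟪c.Ad u x, (c.om 𝔴' (c.Ad9 u X) ^ 3) (c.Ad u x)⟫ = ⟪x, (c.om 𝔴 X ^ 3) x⟫ :=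
      fun x => (isom c u).form ((sc_om c h X).pow_right 3) x x
    have h2 : ∀ x, ⟪c.Ad9 u x, kr 1 (c.om 𝔴' (c.Ad9 u X)) (c.Ad9 u x)⟫
        = ⟪x, kr 1 (c.om 𝔴 X) x⟫ :=
      fun x => (isom9 c u).form (sc_kr _ (sc_om c h X)) x x
    unfold Ctx.ng
    rw [(isom c u).integral h
        (f' := fun x => Real.exp (-(g * ⟪x, (c.om 𝔴' (c.Ad9 u X) ^ 3) x⟫)))
        (f := fun x => Real.exp (-(g * ⟪x, (c.om 𝔴 X ^ 3) x⟫)))
        fun x => congrArg (fun t => Real.exp (-(g * t))) (h1 x),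
      (isom c u).integral h
        (f' := fun x => Real.exp (-(g * ⟪x, (c.om 𝔴' (c.Ad9 u X) ^ 3) x⟫) / 2))
        (f := fun x => Real.exp (-(g * ⟪x, (c.om 𝔴 X ^ 3) x⟫) / 2))
        fun x => congrArg (fun t => Real.exp (-(g * t) / 2)) (h1 x),
      (isom9 c u).integral (mem_sub_iff c h)
        (f' := fun x => Real.exp (-(g * ⟪x, kr 1 (c.om 𝔴' (c.Ad9 u X)) x⟫)))
        (f := fun x => Real.exp (-(g * ⟪x, kr 1 (c.om 𝔴 X) x⟫)))
        fun x => congrArg (fun t => Real.exp (-(g * t))) (h2 x)]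
  ov u 𝔴 𝔴' h X := by
    have h1 : SemiconjBy (c.U u) (vac c.θ (kr (Gm c.γ) 𝔴.starProjection))
        (vac c.θ (kr (Gm c.γ) 𝔴'.starProjection)) := c.U_P0 h
    have h2 : SemiconjBy (c.U u) (vac c.θ (c.Jw 𝔴 X)) (vac c.θ (c.Jw 𝔴' (c.Ad9 u X))) :=
      sc_Pw c h X
    rw [ovw, ovw, P353.ov, P353.ov, trace_sc (c.U_mul_inv u) (c.U_inv_mul u) (h1.mul_right h2),
      trace_sc (c.U_mul_inv u) (c.U_inv_mul u) h1]
  bot g X := by
    have hJ : c.Jw ⊥ X = 0 := by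
      simp only [Jw, Dw, adw, Submodule.starProjection_bot, mul_zero, kr_zero_right,
        Finset.sum_const_zero, zero_mul]
    refine ⟨by rw [Pw, hJ, vac_zero], ?_, ?_⟩
    · unfold Ctx.ng
      rw [integral_bot fun x => Real.exp (-(g * ⟪x, (c.om ⊥ X ^ 3) x⟫)),
        integral_bot fun x => Real.exp (-(g * ⟪x, (c.om ⊥ X ^ 3) x⟫) / 2),
        integral_eq_bot sub_bot fun x => Real.exp (-(g * ⟪x, kr 1 (c.om ⊥ X) x⟫))]
      simp
    · have := c.ntriv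
      rw [ovw, hJ, Submodule.starProjection_bot, kr_zero_right, P353.ov, vac_zero, one_mul]
      refine div_self ?_
      have h1 : LinearMap.trace ℂ F (1 : F →L[ℂ] F) = Module.finrank ℂ F := LinearMap.trace_one ℂ F
      rw [h1, Complex.natCast_re]
      exact Nat.cast_ne_zero.2 Module.finrank_pos.ne'

end Ctx

end Vale.Agent.P353
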