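import Vale.Agent.P353.Stmts

/-! Equivariance of the amplitudes. -/

noncomputable section

open MeasureTheory Filter Topology Complex Matrix
open scoped ContDiff RealInnerProductSpace

namespace Vale.Agent.P353

namespace LmebAux

variable {N d : ℕ} {F : Type} [NormedAddCommGroup F] [InnerProductSpace ℂ F]
  [FiniteDimensional ℂ F] (c : Ctx N d F)
variable {π π' π'' : Setoid (Fin N)} {𝔞 𝔟 𝔟' : Submodule ℝ (Lg d)} {w : Equiv.Perm (Fin N)}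

theorem proj9 {u : UN N} (h : ∀ x, c.Ad u x ∈ 𝔟' ↔ x ∈ 𝔟) (x : Tn 9 d) :
    (sub 9 𝔟').starProjection (c.Ad9 u x) = c.Ad9 u ((sub 9 𝔟).starProjection x) := by
  rw [sub_starProjection, sub_starProjection]
  refine ext_cmp fun i => ?_
  simp only [Ctx.Ad9, cmp_kr_one]
  exact (DFunLike.congr_fun (c.Ad_starProjection h) (cmp i x)).symm

theorem finrank9 {u : UN N} (h : ∀ x, c.Ad u x ∈ 𝔟' ↔ x ∈ 𝔟) :
    Module.finrank ℝ (sub 9 𝔟') = Module.finrank ℝ (sub 9 𝔟) := by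
  obtain ⟨e, -, -⟩ := measurePreserving_isometry (R := c.Ad9 u) (U₁ := sub 9 𝔟)
    (fun x _ => c.norm_Ad9 u x) (Cov4Aux.map_Ad9 c h)
  exact e.toLinearEquiv.finrank_eq.symm

theorem mem_a (h : c.Th π 𝔞) (hw : Maps π π' π'' w) (x : Lg d) :
    c.Ad (permU w) x ∈ 𝔞 ↔ x ∈ 𝔞 :=
  c.Ad_mem_iff (fun _ hx => h.Ad_mem c (permU_mem_Grp hw.1) hx) x

theorem mem_cen (h : c.Th π 𝔞) (hw : Maps π π' π'' w) (x : Lg d) :
    c.Ad (permU w) x ∈ 𝔞 ⊓ c.cen π'' ↔ x ∈ 𝔞 ⊓ c.cen π' := by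
  rw [Submodule.mem_inf, Submodule.mem_inf, mem_a c h hw, c.perm_mem_cen hw]

theorem projC (h : c.Th π 𝔞) (hw : Maps π π' π'' w) (x : Tn 9 d) :
    (c.CS 𝔞 π'').starProjection (c.Ad9 (permU w) x) =
      c.Ad9 (permU w) ((c.CS 𝔞 π').starProjection x) :=
  proj9 c (mem_cen c h hw) x

theorem quad (hA : c.S_lmea) {u : UN N} (h : ∀ x, c.Ad u x ∈ 𝔟' ↔ x ∈ 𝔟) (y W : Tn 9 d) :
    ⟪c.Ad9 u W, kr 1 (c.om 𝔟' (c.Ad9 u y)) (c.Ad9 u W)⟫ = ⟪W, kr 1 (c.om 𝔟 y) W⟫ := by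
  have h1 : kr 1 (c.om 𝔟' (c.Ad9 u y)) (c.Ad9 u W) = c.Ad9 u (kr 1 (c.om 𝔟 y) W) := by
    refine ext_cmp fun i => ?_
    have h2 := DFunLike.congr_fun (hA.om u 𝔟 𝔟' h y) (cmp i W)
    rw [cmp_kr_one]
    conv_lhs => rw [show c.Ad9 u W = kr 1 (c.Ad u) W from rfl, cmp_kr_one]
    conv_rhs => rw [Ctx.Ad9, cmp_kr_one, cmp_kr_one]
    exact h2
  rw [h1, c.inner_Ad9]

theorem dil_act {u : UN N} (h : ∀ x, c.Ad u x ∈ 𝔟' ↔ x ∈ 𝔟) (l : ℝ) (b : Tn 9 d → F)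
    (x : Tn 9 d) :
    dil (sub 9 𝔟') l (c.actF u b) (c.Ad9 u x) = c.U u (dil (sub 9 𝔟) l b x) := by
  unfold dil Ctx.actF
  rw [finrank9 c h, map_smul, map_smul, c.Ad9_inv_apply]

theorem Om_act (hA : c.S_lmea) (h : c.Th π 𝔞) (hw : Maps π π' π'' w) (g : ℝ) (η : Tn 9 d → ℝ)
    (b : Tn 9 d → F) (x : Tn 9 d) :
    c.Om π 𝔞 π'' g (fun x => η (c.Ad9 (permU w)⁻¹ x)) (c.actF (permU w) b) (c.Ad9 (permU w) x) =
      c.U (permU w) (c.Om π 𝔞 π' g η b x) := by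
  have hO := c.perm_mem_off hw
  have hS := c.perm_mem_ss hw
  simp only [Ctx.Om]
  rw [projC c h hw, proj9 c hO, proj9 c hS, ← map_sub, c.norm_Ad9]
  split_ifs with hx
  · rw [hA.ng _ _ _ hO, quad c hA hO, c.Ad9_inv_apply, dil_act c hS, map_smul]
    congr 1
    exact DFunLike.congr_fun (hA.P _ _ _ hO _) _
  · rw [map_zero]

theorem lamf (hA : c.S_lmea) (h : c.Th π 𝔞) (hw : Maps π π' π'' w) (g : ℝ) {ψ : Tn 9 d → F}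
    (hψ : ψ ∈ c.D π 𝔞) (η : Tn 9 d → ℝ) (b : Tn 9 d → F) :
    c.Lamf π 𝔞 π'' g ψ (fun x => η (c.Ad9 (permU w)⁻¹ x)) (c.actF (permU w) b) =
      c.Lamf π 𝔞 π' g ψ η b := by
  unfold Ctx.Lamf ip
  rw [← integral_isometry (R := c.Ad9 (permU w)) (U₁ := sub 9 𝔞) (U₂ := sub 9 𝔞)
    (fun x _ => c.norm_Ad9 _ x) (Cov4Aux.map_Ad9 c (mem_a c h hw))
    (fun x => inner ℂ (c.Om π 𝔞 π'' g (fun x => η (c.Ad9 (permU w)⁻¹ x))
      (c.actF (permU w) b) x) (ψ x))]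
  refine integral_congr_ae (Eventually.of_forall fun x => ?_)
  simp only
  rw [Om_act c hA h hw, (c.mem_D.1 hψ).2 _ (permU_mem_Grp hw.1) x x.2, c.inner_U]

theorem lam (hA : c.S_lmea) (hL : c.S_lama) (h : c.Th π 𝔞) (h' : π' ≤ π) (hw : Maps π π' π'' w)
    {g : ℝ} (hg : 0 < g) {ψ : Tn 9 d → F} (hψ : ψ ∈ c.D π 𝔞) (η : Tn 9 d → ℝ)
    (β : LL (sub 9 (c.ss π')) F) :
    c.Lam π 𝔞 π'' g ψ (fun x => η (c.Ad9 (permU w)⁻¹ x)) (c.act (permU w) π' π'' β) =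
      c.Lam π 𝔞 π' g ψ η β := by
  unfold Ctx.Lam
  rw [← lamf c hA h hw g hψ η]
  refine hL.congrb π 𝔞 π'' h (hw.le h') g hg ψ _ _ _ ?_
  filter_upwards [coe_L2 (Cov4Aux.memLp_actF c (c.perm_mem_ss hw) (memLp_rep β))] with x hx
  rw [rep_coe]
  exact hx

theorem hat_act (hA : c.S_lmea) (h : c.Th π 𝔞) (hw : Maps π π' π'' w) (η : Tn 9 d → ℝ) :
    c.hatη π 𝔞 π'' (fun x => η (c.Ad9 (permU w)⁻¹ x)) =
      fun x => c.hatη π 𝔞 π' η (c.Ad9 (permU w)⁻¹ x) := by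
  funext x
  obtain ⟨y, rfl⟩ : ∃ y, x = c.Ad9 (permU w) y := ⟨_, (c.Ad9_apply_inv _ x).symm⟩
  simp only [Ctx.hatη]
  rw [projC c h hw, c.Ad9_inv_apply, c.Ad9_inv_apply, hA.ov _ _ _ (c.perm_mem_off hw)]

theorem smr (h : c.Th π 𝔞) (hw : Maps π π' π'' w) {η : Tn 9 d → ℝ} {Z : Set (Tn 9 d)}
    (hη : SmR (c.CS 𝔞 π') η Z) :
    SmR (c.CS 𝔞 π'') (fun x => η (c.Ad9 (permU w)⁻¹ x)) (c.Ad9 (permU w)⁻¹ ⁻¹' Z) := by
  obtain ⟨h1, K, hK, hZ, hC, h0⟩ := hη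
  have hm := mem_cen c h hw
  refine ⟨h1.comp (c.Ad9 (permU w)⁻¹).contDiff, c.Ad9 (permU w) '' K,
    hK.image (c.Ad9 (permU w)).continuous, ?_, ?_, ?_⟩
  · rintro _ ⟨y, hy, rfl⟩
    rw [Set.mem_preimage, c.Ad9_inv_apply]
    exact hZ hy
  · rintro _ ⟨y, hy, rfl⟩
    exact (Cov4Aux.Ad9_mem_iff c hm y).2 (hC hy)
  · intro x hx hxK
    refine h0 _ (Cov4Aux.inv_mem c hm hx) fun hy => hxK ⟨_, hy, c.Ad9_apply_inv _ x⟩

end LmebAux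

namespace Ctx

variable {N d : ℕ} {F : Type} [NormedAddCommGroup F] [InnerProductSpace ℂ F]
  [FiniteDimensional ℂ F] (c : Ctx N d F)

theorem p_lmeb (h_lmea : c.S_lmea) (h_lama : c.S_lama) : c.S_lmeb where
  lam := fun _ _ _ _ _ h h' hw _ hg _ hψ η β => LmebAux.lam c h_lmea h_lama h h' hw hg hψ η β
  lamh := fun _ _ _ _ _ h h' hw _ hg _ hψ η β => by
    unfold Lamh
    rw [LmebAux.hat_act c h_lmea h hw]
    exact LmebAux.lam c h_lmea h_lama h h' hw hg hψ _ β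
  smr := fun _ _ _ _ _ h hw _ _ hη => LmebAux.smr c h hw hη

end Ctx

end Vale.Agent.P353
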