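import Vale.Agent.P353.Stmts
import Vale.Agent.P353.Gau

/-! Lower bound at strong coupling. -/

noncomputable section

open MeasureTheory Filter Topology Complex Matrix
open scoped ContDiff RealInnerProductSpace

namespace Vale.Agent.P353

namespace LoAux

section Lin

variable {E F : Type} [NormedAddCommGroup F] [InnerProductSpace ℂ F] {D : Submodule ℂ (E → F)}
  {L : (E → F) → ℂ}

theorem lin_zero (h : ∀ φ ∈ D, ∀ ψ ∈ D, ∀ z : ℂ, L (φ + z • ψ) = L φ + z * L ψ) : L 0 = 0 := by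
  have := h 0 D.zero_mem 0 D.zero_mem 1
  simpa using this

theorem lin_sum (h : ∀ φ ∈ D, ∀ ψ ∈ D, ∀ z : ℂ, L (φ + z • ψ) = L φ + z * L ψ) {ι : Type}
    (s : Finset ι) {f : ι → E → F} (hf : ∀ i, f i ∈ D) :
    L (∑ i ∈ s, f i) = ∑ i ∈ s, L (f i) := by
  classical
  induction s using Finset.induction_on with
  | empty => simpa using lin_zero h
  | insert a s ha ih =>
    have h1 := h (f a) (hf a) (∑ i ∈ s, f i) (D.sum_mem fun i _ => hf i) 1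
    rw [one_smul, one_mul] at h1
    rw [Finset.sum_insert ha, Finset.sum_insert ha, h1, ih]

theorem lin_smul (h : ∀ φ ∈ D, ∀ ψ ∈ D, ∀ z : ℂ, L (φ + z • ψ) = L φ + z * L ψ) (z : ℂ)
    {ψ : E → F} (hψ : ψ ∈ D) : L (z • ψ) = z * L ψ := by
  have := h 0 D.zero_mem ψ hψ z
  rwa [zero_add, lin_zero h, zero_add] at this

end Lin

theorem num {x y : ℂ} {e t s : ℝ} (he : 0 ≤ e) (hs : 0 ≤ s) (ht : t ≤ 256 * s ^ 2)
    (h1 : ‖x - y‖ ^ 2 ≤ (e / 32) ^ 2 * t) (h2 : ‖y‖ ^ 2 ≤ (e / 32) ^ 2 * t) : ‖x‖ ≤ e * s := by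
  have h3 : (e / 32) ^ 2 * t ≤ (e * s / 2) ^ 2 := by
    have := mul_le_mul_of_nonneg_left ht (sq_nonneg (e / 32))
    nlinarith
  have h4 : 0 ≤ e * s / 2 := by positivity
  have h5 := abs_le_of_sq_le_sq' (h1.trans h3) h4
  have h6 := abs_le_of_sq_le_sq' (h2.trans h3) h4
  have h7 : ‖x‖ ≤ ‖x - y‖ + ‖y‖ := by simpa using norm_add_le (x - y) y
  linarith [h5.2, h6.2]

variable {N d : ℕ} {F : Type} [NormedAddCommGroup F] [InnerProductSpace ℂ F]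
  [FiniteDimensional ℂ F] (c : Ctx N d F)

/-- trial functions of a channel -/
structure Dat (π p : Setoid (Fin N)) (β : LL (sub 9 (c.ss p)) F) (K₀ : Set (Tn 9 d)) (k K : ℝ)
    (φ : ℝ → Tn 9 d → F) : Prop where
  le : p ≤ π
  mem : β ∈ c.V p 1 0
  cpt : IsCompact K₀
  cs : K₀ ⊆ c.CS (c.ss π) p
  good : K₀ ⊆ c.Good π p
  bd : ∀ᶠ g in atTop, φ g ∈ c.D0 π ∧ nrm (sub 9 (c.ss π)) (φ g) ≤ K
  ng : ∃ K', ∀ᶠ g in atTop, c.NG (c.ss π) g (φ g) ≤ K'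
  supp : ∀ δ > 0, ∀ᶠ g in atTop, ∀ x ∈ sub 9 (c.ss π), φ g x ≠ 0 →
    ∃ u ∈ Grp π, ∃ y ∈ K₀, ‖x - c.Ad9 u y‖ ≤ δ
  low : ∀ η, SmR (c.CS (c.ss π) p) η (c.Good π p) → (∀ x, 0 ≤ η x) →
    (∀ y ∈ K₀, η y = gauss (c.CS (c.ss π) p) (Afree d) y) →
    ∀ᶠ g in atTop, k ≤ ‖c.Lamh π (c.ss π) p g (φ g) η β‖

variable {c} {π p : Setoid (Fin N)}

theorem Dat.mono {β : LL (sub 9 (c.ss p)) F} {K₀ : Set (Tn 9 d)} {k K k' K' : ℝ}
    {φ : ℝ → Tn 9 d → F} (h : Dat c π p β K₀ k K φ) (hk : k' ≤ k) (hK : K ≤ K') :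
    Dat c π p β K₀ k' K' φ :=
  ⟨h.le, h.mem, h.cpt, h.cs, h.good, h.bd.mono fun _ hg => ⟨hg.1, hg.2.trans hK⟩, h.ng, h.supp,
    fun η h1 h2 h3 => (h.low η h1 h2 h3).mono fun _ hg => hk.trans hg⟩

theorem sum_NE (h_spec : c.S_spec) {g : ℝ} (hg : 0 < g) {φ : Tn 9 d → F} (hφ : φ ∈ c.D0 π)
    (α : Fin 16) : c.NE (c.ss π) g 1 (c.Q (c.ss π) g 1 (eb α) φ) ≤
      256 * (1 * √(nrm (sub 9 (c.ss π)) φ) + √(nrm (sub 9 (c.ss π)) (c.Ham (c.ss π) g 1 φ))) ^ 2 := by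
  obtain ⟨h1, h2⟩ := h_spec.second π g 1 hg one_pos φ hφ
  have h3 : nrm (sub 9 (c.ss π)) (c.Q (c.ss π) g 1 (eb α) φ) ≤ c.En (c.ss π) g 1 φ :=
    Finset.single_le_sum (f := fun α => nrm (sub 9 (c.ss π)) (c.Q (c.ss π) g 1 (eb α) φ))
      (fun _ _ => nrm_nonneg _ _) (Finset.mem_univ α)
  have h4 : c.En (c.ss π) g 1 (c.Q (c.ss π) g 1 (eb α) φ) ≤
      ∑ α, c.En (c.ss π) g 1 (c.Q (c.ss π) g 1 (eb α) φ) :=
    Finset.single_le_sum (f := fun α => c.En (c.ss π) g 1 (c.Q (c.ss π) g 1 (eb α) φ))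
      (fun _ _ => en_nonneg _ _ _ _) (Finset.mem_univ α)
  have h5 := Real.sq_sqrt (nrm_nonneg (sub 9 (c.ss π)) (c.Ham (c.ss π) g 1 φ))
  have h6 := Real.sqrt_nonneg (nrm (sub 9 (c.ss π)) φ)
  have h7 := Real.sqrt_nonneg (nrm (sub 9 (c.ss π)) (c.Ham (c.ss π) g 1 φ))
  unfold Ctx.NE
  generalize √(nrm (sub 9 (c.ss π)) φ) = a at h1 h2 h6 ⊢
  generalize √(nrm (sub 9 (c.ss π)) (c.Ham (c.ss π) g 1 φ)) = b at h1 h2 h5 h7 ⊢
  nlinarith [mul_nonneg h6 h7, sq_nonneg a]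

theorem func (h_spec : c.S_spec) (h_wif : c.S_wif) (h_lq : c.S_lq) (hp : p ≤ π)
    {β : LL (sub 9 (c.ss p)) F} (hβ : β ∈ c.V p 1 0) {K₀ : Set (Tn 9 d)} (h1 : IsCompact K₀)
    (h2 : K₀ ⊆ c.CS (c.ss π) p) (h3 : K₀ ⊆ c.Good π p) {ε : ℝ} (hε : 0 < ε) :
    ∃ (η : Tn 9 d → ℝ) (L : ℝ → (Tn 9 d → F) → ℂ), SmR (c.CS (c.ss π) p) η (c.Good π p) ∧
      (∀ x, 0 ≤ η x) ∧ (∀ y ∈ K₀, η y = gauss (c.CS (c.ss π) p) (Afree d) y) ∧
      (∀ g > 0, LinOn (c.D0 π) (L g) ∧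
        ∃ B, ∀ φ ∈ c.D0 π, ‖L g φ‖ ^ 2 ≤ B * nrm (sub 9 (c.ss π)) φ) ∧
      (∀ᶠ g in atTop, ∀ φ ∈ c.D0 π, ‖L g (c.Ham (c.ss π) g 1 φ)‖ ≤
        ε * (1 * √(nrm (sub 9 (c.ss π)) φ) + √(nrm (sub 9 (c.ss π)) (c.Ham (c.ss π) g 1 φ)))) ∧
      ∀ ε' > 0, ∀ᶠ g in atTop, ∀ ψ ∈ c.D0 π,
        ‖L g ψ - c.Lamh π (c.ss π) p g ψ η β‖ ^ 2 ≤ ε' * c.NG (c.ss π) g ψ := by
  have hε' : 0 < (ε / 32) ^ 2 := by positivity
  obtain ⟨hBK, hq⟩ := h_lq π p hp β hβ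
  obtain ⟨η, e1, e2, e3, e4⟩ := hq K₀ h1 h2 h3 _ hε'
  obtain ⟨L, K, l1, l2⟩ := h_wif π (c.ss π) p (c.Th_ss π) hp η e1 β hBK 1 (by simp)
  refine ⟨η, L, e1, e2, e3, fun g hg => ⟨fun φ hφ ψ hψ z => ?_, K, fun φ hφ => ?_⟩, ?_,
    fun ε' h' => ?_⟩
  · exact (l1 g hg).1 φ (c.mem_D0.1 hφ).1 ψ (c.mem_D0.1 hψ).1 z
  · exact (l1 g hg).2 φ (c.mem_D0.1 hφ).1
  · filter_upwards [e4, l2 _ hε', eventually_gt_atTop 0] with g a1 a2 hg φ hφ
    have hQ : ∀ α, c.Q (c.ss π) g 1 (eb α) φ ∈ c.D0 π := fun α => c.Q_mem_D0 g 1 _ hφ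
    have hQQ : ∀ α, c.Q (c.ss π) g 1 (eb α) (c.Q (c.ss π) g 1 (eb α) φ) ∈ c.D π (c.ss π) :=
      fun α => (c.mem_D0.1 (c.Q_mem_D0 g 1 _ (hQ α))).1
    have hs : 0 ≤ 1 * √(nrm (sub 9 (c.ss π)) φ) +
        √(nrm (sub 9 (c.ss π)) (c.Ham (c.ss π) g 1 φ)) := by positivity
    have hb : ∀ α, ‖L g (c.Q (c.ss π) g 1 (eb α) (c.Q (c.ss π) g 1 (eb α) φ))‖ ≤ ε *
        (1 * √(nrm (sub 9 (c.ss π)) φ) + √(nrm (sub 9 (c.ss π)) (c.Ham (c.ss π) g 1 φ))) :=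
      fun α => num hε.le hs (sum_NE h_spec hg hφ α) ((a2 _ (c.mem_D0.1 (hQ α)).1).2 α)
        (a1 _ (hQ α) α)
    generalize ε * (1 * √(nrm (sub 9 (c.ss π)) φ) +
      √(nrm (sub 9 (c.ss π)) (c.Ham (c.ss π) g 1 φ))) = t at hb ⊢
    rw [Ctx.Ham, lin_smul (l1 g hg).1 _ (Submodule.sum_mem _ fun α _ => hQQ α),
      lin_sum (l1 g hg).1 _ hQQ, norm_mul]
    have h4 := (norm_sum_le _ _).trans (Finset.sum_le_sum fun α (_ : α ∈ Finset.univ) => hb α)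
    rw [Finset.sum_const, Finset.card_univ, Fintype.card_fin, nsmul_eq_mul] at h4
    have h5 : ‖(1 / 16 : ℂ)‖ = 1 / 16 := by simp
    rw [h5]
    push_cast at h4
    linarith
  · filter_upwards [l2 ε' h'] with g a1 ψ hψ
    exact (a1 ψ (c.mem_D0.1 hψ).1).1

theorem main (h_spec : c.S_spec) (h_wif : c.S_wif) (h_lq : c.S_lq) {J : Type} [Fintype J]
    {p : J → Setoid (Fin N)} {β : ∀ j, LL (sub 9 (c.ss (p j))) F} {K₀ : J → Set (Tn 9 d)}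
    {φ : J → ℝ → Tn 9 d → F} {k K ε : ℝ} (hε : 0 < ε) (hK : 0 ≤ K)
    (hD : ∀ j, Dat c π (p j) (β j) (K₀ j) k (K ^ 2) (φ j))
    (hoff : ∀ i j, i ≠ j → ∀ η, SmR (c.CS (c.ss π) (p i)) η (c.Good π (p i)) →
      (∀ y ∈ K₀ i, η y = gauss (c.CS (c.ss π) (p i)) (Afree d) y) →
      ∀ᶠ g in atTop, ‖c.Lamh π (c.ss π) (p i) g (φ j g) η (β i)‖ ≤ ε / 2)
    (hc : Fintype.card J * ε * (1 + 17 * K) < k - ε / 2) :
    ∀ᶠ g in atTop, Fintype.card J ≤ Module.finrank ℂ (c.V π g 1) := by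
  choose η L f1 f2 f3 f4 f5 f6 using fun j =>
    func h_spec h_wif h_lq (hD j).le (hD j).mem (hD j).cpt (hD j).cs (hD j).good hε
  have hcl : ∀ i j, ∀ᶠ g in atTop,
      ‖L i g (φ j g) - c.Lamh π (c.ss π) (p i) g (φ j g) (η i) (β i)‖ ≤ ε / 2 := by
    intro i j
    obtain ⟨K', hK'⟩ := (hD j).ng
    have h1 : 0 < |K'| + 1 := by positivity
    filter_upwards [f6 i ((ε / 2) ^ 2 / (|K'| + 1)) (by positivity), hK', (hD j).bd] with g a1 a2 a3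
    have h2 := a1 _ a3.1
    have h3 : (ε / 2) ^ 2 / (|K'| + 1) * c.NG (c.ss π) g (φ j g) ≤ (ε / 2) ^ 2 := by
      rw [div_mul_eq_mul_div, div_le_iff₀ h1]
      exact mul_le_mul_of_nonneg_left (a2.trans ((le_abs_self _).trans (by linarith)))
        (sq_nonneg _)
    exact (abs_le_of_sq_le_sq' (h2.trans h3) (by positivity)).2
  have e1 := eventually_all.2 f5
  have e2 := eventually_all.2 fun j => (hD j).bd
  have e3 := eventually_all.2 fun i => eventually_all.2 (hcl i)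
  have e4 := eventually_all.2 fun j => (hD j).low (η j) (f1 j) (f2 j) (f3 j)
  have e5 := eventually_all.2 fun i => eventually_all.2 fun j => eventually_all.2 fun h : i ≠ j =>
    hoff i j h (η i) (f1 i) (f3 i)
  filter_upwards [e1, e2, e3, e4, e5, eventually_gt_atTop 0] with g a1 a2 a3 a4 a5 hg
  refine h_spec.crit π g 1 hg one_pos J (fun j => L j g) (fun j => (f4 j g hg).1)
    (fun j => (f4 j g hg).2) ε (k - ε / 2) K hε.le hK a1 (fun j => φ j g) (fun j => (a2 j).1)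
    (fun j => (a2 j).2) (fun j => ?_) (fun i j h => ?_) hc
  · have h1 := norm_sub_norm_le (c.Lamh π (c.ss π) (p j) g (φ j g) (η j) (β j)) (L j g (φ j g))
    rw [norm_sub_rev] at h1
    linarith [a3 j j, a4 j]
  · have h1 := norm_sub_norm_le (L i g (φ j g)) (c.Lamh π (c.ss π) (p i) g (φ j g) (η i) (β i))
    linarith [a3 i j, a5 i j h]

theorem far (h_orb : c.S_orb) (h_lam : c.S_lam) {p' : Setoid (Fin N)}
    {β' : LL (sub 9 (c.ss p')) F} {K₀ : Set (Tn 9 d)} {k K : ℝ} {φ : ℝ → Tn 9 d → F}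
    (h : Dat c π p' β' K₀ k K φ) (hp : p ≤ π) (hw : ∀ w, ¬ Maps π p' p w) {η : Tn 9 d → ℝ}
    (hη : SmR (c.CS (c.ss π) p) η (c.Good π p)) (β : LL (sub 9 (c.ss p)) F) :
    ∀ᶠ g in atTop, c.Lamh π (c.ss π) p g (φ g) η β = 0 := by
  obtain ⟨-, K₁, k1, k2, k3, k4⟩ := hη
  obtain ⟨δ, hδ, hs⟩ := h_orb.sep π p' p h.le hp K₀ K₁ h.cpt k1
    (fun y hy => ⟨sub_mono inf_le_right (h.cs hy), c.Good_subset_Gen _ _ (h.good hy)⟩)
    (fun y hy => ⟨sub_mono inf_le_right (k3 hy), c.Good_subset_Gen _ _ (k2 hy)⟩)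
    fun w hm => absurd hm (hw w)
  have hδ' : 0 < δ / 3 := by positivity
  filter_upwards [h_lam.loc π (c.ss π) p K₁ _ hδ', h.supp _ hδ'] with g a1 a2
  rw [(a1 (φ g) 0 η β k4 fun x hx y hy hxy => ?_).2, (h_lam.zero π (c.ss π) p g η β).2]
  by_contra h0
  obtain ⟨u, hu, y', hy', h1⟩ := a2 x hx h0
  have h2 := hs u hu y' hy' y hy
  have h3 := norm_sub_le_norm_sub_add_norm_sub y x (c.Ad9 u y')
  rw [norm_sub_rev y x] at h3
  linarith

theorem CS_self {x : Tn 9 d} (hx : x ∈ c.CS (c.ss π) π) : x = 0 := by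
  rwa [Ctx.CS, c.ss_inf_cen, sub_bot, Submodule.mem_bot] at hx

theorem self_lim (h_lam : c.S_lam) (h_lmea : c.S_lmea) {b : Tn 9 d → F} (hb : b ∈ c.D0 π)
    {η : Tn 9 d → ℝ} (hη : SmR (c.CS (c.ss π) π) η (c.Good π π)) (β : LL (sub 9 (c.ss π)) F) :
    Tendsto (fun g => c.Lamh π (c.ss π) π g (dil (sub 9 (c.ss π)) (ell g) b) η β) atTop
      (𝓝 ((η 0 : ℂ) * inner ℂ β (L2 _ b))) := by
  refine Metric.tendsto_nhds.2 fun ε hε => ?_
  have h1 : 0 < nrm (sub 9 (c.ss π)) b + 1 := by linarith [nrm_nonneg (sub 9 (c.ss π)) b]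
  filter_upwards [h_lam.self π (c.ss π) (c.Th_ss π) η (hη.mono fun _ _ _ => trivial) β
    ((ε / 2) ^ 2 / (nrm (sub 9 (c.ss π)) b + 1)) (by positivity), eventually_gt_atTop 0]
    with g a1 hg
  have h2 := a1 _ (dil_mem_Tst (ell_pos hg) hb).1
  have h3 : c.Lamh π (c.ss π) π g (dil (sub 9 (c.ss π)) (ell g) b) η β =
      c.Lam π (c.ss π) π g (dil (sub 9 (c.ss π)) (ell g) b) η β := by
    refine (h_lam.congrη π (c.ss π) π g _ _ η β fun y hy => ?_).1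
    rw [Ctx.hatη, c.off_self, (h_lmea.bot 1 _).2.2, Real.sqrt_one, div_one,
      Submodule.starProjection_eq_self_iff.2 hy]
  have h4 : ip (sub 9 (c.ss π)) (fun x => (η ((c.CS (c.ss π) π).starProjection x) : ℂ) •
      dil (sub 9 (c.ss π)) (ell g) (rep _ β) ((sub 9 (c.ss π)).starProjection x))
      (dil (sub 9 (c.ss π)) (ell g) b) = (η 0 : ℂ) * inner ℂ β (L2 _ b) := by
    have h5 := inner_L2 (memLp_rep β) hb.1.memLp
    rw [L2_rep] at h5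
    rw [h5, ← ip_dil _ (ell_pos hg) (rep _ β) b, ip, ip, ← integral_const_mul]
    refine integral_congr_ae (ae_of_all _ fun x => ?_)
    simp only
    rw [CS_self (Submodule.starProjection_apply_mem _ _),
      Submodule.starProjection_eq_self_iff.2 x.2, inner_smul_left, Complex.conj_ofReal]
  rw [h4, nrm_dil _ (ell_pos hg)] at h2
  have h6 : (ε / 2) ^ 2 / (nrm (sub 9 (c.ss π)) b + 1) * nrm (sub 9 (c.ss π)) b ≤ (ε / 2) ^ 2 := by
    rw [div_mul_eq_mul_div, div_le_iff₀ h1]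
    exact mul_le_mul_of_nonneg_left (by linarith) (sq_nonneg _)
  rw [dist_eq_norm, h3]
  linarith [(abs_le_of_sq_le_sq' (h2.trans h6) (by positivity)).2]

theorem dat_self (h_lam : c.S_lam) (h_lmea : c.S_lmea) {β : LL (sub 9 (c.ss π)) F}
    (hβ : β ∈ c.V π 1 0) (hn : ‖β‖ = 1) {b : Tn 9 d → F} (hb : b ∈ c.D0 π)
    (hc : ‖L2 _ b - β‖ ≤ 1 / 4) :
    Dat c π π β {0} (gauss (c.CS (c.ss π) π) (Afree d) 0 / 2) 4
      fun g => dil (sub 9 (c.ss π)) (ell g) b := by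
  refine ⟨le_rfl, hβ, isCompact_singleton, Set.singleton_subset_iff.2 (Submodule.zero_mem _),
    Set.singleton_subset_iff.2 fun a a' h h' => absurd h h', ?_,
    ⟨nrm (sub 9 (c.ss π)) b + grad (sub 9 (c.ss π)) b, ?_⟩, fun δ hδ => ?_,
    fun η h1 _ h3 => ?_⟩
  · filter_upwards [eventually_gt_atTop 0] with g hg
    refine ⟨dil_mem_Tst (ell_pos hg) hb, ?_⟩
    rw [nrm_dil _ (ell_pos hg), ← norm_L2_sq hb.1.memLp]
    have h1 := norm_sub_norm_le (L2 (sub 9 (c.ss π)) b) β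
    have h2 := norm_nonneg (L2 (sub 9 (c.ss π)) b)
    nlinarith
  · filter_upwards [eventually_gt_atTop 0, tendsto_ell.eventually_le_const one_pos] with g hg hl
    have h1 := ell_pos hg
    have h2 := mul_ell_pow hg
    have h3 : 1 ≤ ell g ^ 2 * g := by
      have : 0 ≤ ell g ^ 2 * g * (1 - ell g) := mul_nonneg (by positivity) (by linarith)
      nlinarith
    rw [Ctx.NG, nrm_dil _ h1, grad_dil _ h1, div_div]
    exact add_le_add le_rfl (div_le_self (grad_nonneg _ _) h3)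
  · obtain ⟨R, hR⟩ := hb.1.exists_bound
    have h1 : Tendsto (fun g => ell g * R) atTop (𝓝 0) := by
      simpa using tendsto_ell.mul_const R
    filter_upwards [eventually_gt_atTop 0, h1.eventually_le_const hδ] with g hg hl x hx h0
    refine ⟨1, one_mem_Grp π, 0, rfl, ?_⟩
    have h2 := ell_pos hg
    have h3 : ‖(ell g)⁻¹ • x‖ ≤ R := by
      by_contra h4
      refine h0 ?_
      rw [dil, hR _ (Submodule.smul_mem _ _ hx) (not_le.1 h4), smul_zero]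
    rw [norm_smul, norm_inv, Real.norm_of_nonneg h2.le, inv_mul_le_iff₀ h2] at h3
    rw [map_zero, sub_zero]
    exact h3.trans hl
  · have h4 : 0 < gauss (c.CS (c.ss π) π) (Afree d) 0 :=
      gauss_pos one_pos (fun w _ => by simpa using (Ctx.Afree_bounds w).2.2) 0
    refine (self_lim h_lam h_lmea hb h1 β).norm.eventually_const_le ?_
    have h5 : ‖inner ℂ β (L2 _ b - β)‖ ≤ 1 / 4 := by
      refine (norm_inner_le_norm _ _).trans ?_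
      rwa [hn, one_mul]
    have h6 : inner ℂ β β = (1 : ℂ) := by
      rw [inner_self_eq_norm_sq_to_K, hn]
      simp
    rw [inner_sub_right, h6] at h5
    have h7 := norm_sub_norm_le (1 : ℂ) (inner ℂ β (L2 _ b))
    rw [norm_sub_rev, norm_one] at h7
    rw [norm_mul, Complex.norm_real, h3 0 rfl, Real.norm_of_nonneg h4.le]
    nlinarith

theorem dat_lt (h_sg : c.S_sg) (h_loch : c.S_loch)
    (H : ∀ π' < π, Module.finrank ℂ (c.V π' 1 0) = 1) (hp : p < π) :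
    ∃ β K₀ k K φ, 0 < k ∧ Dat c π p β K₀ k K φ := by
  obtain ⟨v, hv, -⟩ := finrank_eq_one_iff'.1 (H p hp)
  obtain ⟨K₀, h1, h2, h3, k, hk, K, φ, h4, h5, h6⟩ := h_loch π p hp.le v.1 v.2
    (fun h => hv (Subtype.ext h))
    fun w hw => h_sg p (fun π'' h => H π'' (h.trans_lt hp)) π w hw v.1 v.2
  refine ⟨v.1, K₀, k, K, φ, hk, hp.le, v.2, h1, h2, h3, ?_, ⟨K, h4.mono fun _ h => h.2⟩, h5, h6⟩
  filter_upwards [h4, eventually_gt_atTop 0] with g a1 hg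
  exact ⟨a1.1, le_trans (le_add_of_nonneg_right (div_nonneg (grad_nonneg _ _) hg.le)) a1.2⟩

end LoAux

open LoAux

namespace Ctx

variable {N d : ℕ} {F : Type} [NormedAddCommGroup F] [InnerProductSpace ℂ F]
  [FiniteDimensional ℂ F] (c : Ctx N d F)

theorem p_lo (h_lm4 : c.S_lm4) (h_orb : c.S_orb) (h_lam : c.S_lam) (h_spec : c.S_spec)
    (h_sg : c.S_sg) (h_wif : c.S_wif) (h_loch : c.S_loch) (h_lq : c.S_lq)
    (h_lmea : c.S_lmea) : c.S_lo := by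
  classical
  have _h := h_lm4
  intro π R hR H n β hβ hV
  have hπ : π ∈ R := by
    obtain ⟨π'', h1, w, h2⟩ := hR.2.1 π le_rfl
    rwa [h2.symm.eq_self] at h1
  have hlt : ∀ r : R.erase π, r.1 < π := fun r =>
    lt_of_le_of_ne (hR.1 _ (Finset.mem_of_mem_erase r.2)) (Finset.ne_of_mem_erase r.2)
  choose β' K₀ k K φ hk hD using fun r : R.erase π => dat_lt h_sg h_loch H (hlt r)
  have hγ : 0 < gauss (c.CS (c.ss π) π) (Afree d) 0 :=
    gauss_pos one_pos (fun w _ => by simpa using (Ctx.Afree_bounds w).2.2) 0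
  obtain ⟨k₁, ⟨a1, a2⟩, hk₁⟩ : ∃ k₁ : ℝ, ((∀ r, k₁ ≤ k r) ∧
      k₁ ≤ gauss (c.CS (c.ss π) π) (Afree d) 0 / 2) ∧ k₁ ∈ Set.Ioi (0 : ℝ) := by
    have e1 : ∀ᶠ t in 𝓝[>] (0 : ℝ), ∀ r, t ≤ k r := eventually_all.2 fun r =>
      (eventually_le_nhds (hk r)).filter_mono nhdsWithin_le_nhds
    have e2 : ∀ᶠ t in 𝓝[>] (0 : ℝ), t ≤ gauss (c.CS (c.ss π) π) (Afree d) 0 / 2 :=
      (eventually_le_nhds (half_pos hγ)).filter_mono nhdsWithin_le_nhds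
    exact ((e1.and e2).and self_mem_nhdsWithin).exists
  replace hk₁ : 0 < k₁ := hk₁
  obtain ⟨M, hM⟩ := Finite.exists_le K
  obtain ⟨K₁, b1, b2, b3⟩ : ∃ K₁ : ℝ, 0 ≤ K₁ ∧ 4 ≤ K₁ ^ 2 ∧ M ≤ K₁ ^ 2 :=
    ⟨|M| + 2, by positivity, by nlinarith [abs_nonneg M],
      by nlinarith [abs_nonneg M, le_abs_self M]⟩
  obtain ⟨ε, hε, hc⟩ : ∃ ε : ℝ, 0 < ε ∧
      Fintype.card (Fin n ⊕ R.erase π) * ε * (1 + 17 * K₁) < k₁ - ε / 2 := by
    generalize Fintype.card (Fin n ⊕ R.erase π) = m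
    have h1 : (0 : ℝ) < m * (1 + 17 * K₁) + 1 := by positivity
    refine ⟨k₁ / 2 / (m * (1 + 17 * K₁) + 1), by positivity, ?_⟩
    have h2 := div_mul_cancel₀ (k₁ / 2) h1.ne'
    have h3 : 0 < k₁ / 2 / (m * (1 + 17 * K₁) + 1) := by positivity
    generalize k₁ / 2 / (m * (1 + 17 * K₁) + 1) = e at h2 h3 ⊢
    nlinarith
  have hτ : 0 < min (1 / 4) (ε / 4 / gauss (c.CS (c.ss π) π) (Afree d) 0) := by positivity
  choose b hb hb' using fun i => (mem_Ker_iff (fun α => c.contDiff_beta 1 0 (eb α))).1 (hV i) _ hτ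
  have hS : ∀ i, Dat c π π (β i) {0} k₁ (K₁ ^ 2) fun g => dil (sub 9 (c.ss π)) (ell g) (b i) :=
    fun i => (dat_self h_lam h_lmea (hV i) (hβ.1 i) (hb i)
      ((hb' i).1.trans (min_le_left _ _))).mono a2 b2
  have hD' : ∀ r : R.erase π, Dat c π r.1 (β' r) (K₀ r) k₁ (K₁ ^ 2) (φ r) := fun r =>
    (hD r).mono (a1 r) ((hM r).trans b3)
  have hz : ∀ {f : ℝ → ℂ}, (∀ᶠ g in atTop, f g = 0) → ∀ᶠ g in atTop, ‖f g‖ ≤ ε / 2 := fun h =>
    h.mono fun g hg => by rw [hg, norm_zero]; positivity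
  have key := main (π := π) h_spec h_wif h_lq (J := Fin n ⊕ R.erase π)
    (p := Sum.elim (fun _ => π) fun r => r.1)
    (β := fun j => Sum.rec (motive := fun j => LL (sub 9 (c.ss (Sum.elim (fun _ => π)
      (fun r : R.erase π => r.1) j))) F) β β' j)
    (K₀ := Sum.elim (fun _ => {0}) K₀)
    (φ := Sum.elim (fun i g => dil (sub 9 (c.ss π)) (ell g) (b i)) φ) hε b1
    (by
      rintro (i | r)
      exacts [hS i, hD' r])
    (by
      rintro (i | r) (j | s) hij η h1 h2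
      · refine (self_lim h_lam h_lmea (hb j) h1 (β i)).norm.eventually_le_const ?_
        have h3 : η 0 = gauss (c.CS (c.ss π) π) (Afree d) 0 := h2 0 rfl
        have h4 : ‖inner ℂ (β i) (L2 _ (b j) - β j)‖ ≤
            ε / 4 / gauss (c.CS (c.ss π) π) (Afree d) 0 := by
          refine (norm_inner_le_norm _ _).trans ?_
          rw [hβ.1 i, one_mul]
          exact (hb' j).1.trans (min_le_right _ _)
        rw [inner_sub_right, hβ.2 fun h => hij (congrArg _ h), sub_zero, le_div_iff₀ hγ] at h4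
        rw [norm_mul, Complex.norm_real, h3, Real.norm_of_nonneg hγ.le]
        linarith
      · exact hz (far h_orb h_lam (hD' s) le_rfl (fun w hw => (hlt s).ne
          (hR.2.2 _ (Finset.mem_of_mem_erase s.2) _ hπ w hw)) h1 (β i))
      · exact hz (far h_orb h_lam (hS j) (hlt r).le (fun w hw => (hlt r).ne hw.eq_self) h1 (β' r))
      · exact hz (far h_orb h_lam (hD' s) (hlt r).le (fun w hw => hij (congrArg _ (Subtype.ext
          (hR.2.2 _ (Finset.mem_of_mem_erase s.2) _ (Finset.mem_of_mem_erase r.2) w hw).symm)))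
          h1 (β' r)))
    hc
  rwa [Fintype.card_sum, Fintype.card_fin, Fintype.card_coe, Finset.card_erase_of_mem hπ] at key

end Ctx

end Vale.Agent.P353
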