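import Vale.Agent.P353.Ctx

/-! Born-Oppenheimer data: fast oscillators, slices, the localization map, amplitudes. -/

noncomputable section

open MeasureTheory Filter Topology Complex Matrix
open scoped ContDiff RealInnerProductSpace

namespace Vale.Agent.P353

namespace Ctx

variable {N d : ℕ} {F : Type} [NormedAddCommGroup F] [InnerProductSpace ℂ F]
  [FiniteDimensional ℂ F] (c : Ctx N d F) (𝔴 : Submodule ℝ (Lg d))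

/-- compression of `ad y` to `𝔴` -/
def adw (y : Lg d) : Lg d →L[ℝ] Lg d := 𝔴.starProjection * c.ad y * 𝔴.starProjection

/-- squared boson frequencies (identity on the complement of `𝔴`) -/
def Kw (X : Tn 9 d) : Lg d →L[ℝ] Lg d :=
  -(∑ i, c.adw 𝔴 (cmp i X) * c.adw 𝔴 (cmp i X)) + (1 - 𝔴.starProjection)

/-- boson frequencies -/
def om (X : Tn 9 d) : Lg d →L[ℝ] Lg d := psq (c.Kw 𝔴 X)

/-- fermion mass operator -/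
def Dw (X : Tn 9 d) : Tn 16 d →L[ℝ] Tn 16 d := ∑ i, kr (c.γ i) (c.adw 𝔴 (cmp i X))

/-- fermion frequencies -/
def Bw (X : Tn 9 d) : Tn 16 d →L[ℝ] Tn 16 d :=
  psq (-(c.Dw 𝔴 X * c.Dw 𝔴 X) + (1 - kr 1 𝔴.starProjection))

/-- complex structure of the fast fermions -/
def Jw (X : Tn 9 d) : Tn 16 d →L[ℝ] Tn 16 d := c.Dw 𝔴 X * Ring.inverse (c.Bw 𝔴 X)

/-- vacuum of the fast fermions -/
def Pw (X : Tn 9 d) : F →L[ℂ] F := vac c.θ (c.Jw 𝔴 X)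

/-- gauge directions `ξ ↦ (br ξ (X i))_i` -/
def Gw (X : Tn 9 d) : Lg d →L[ℝ] Tn 9 d :=
  ∑ i, tens (Pi.single i 1) ∘L (-c.adw 𝔴 (cmp i X))

/-- the adjoint of `Gw`, `W ↦ ∑ br (X i) (W i)` -/
def dv (X : Tn 9 d) : Tn 9 d →L[ℝ] Lg d := ∑ i, c.adw 𝔴 (cmp i X) ∘L cmp i

/-- projection onto the gauge directions -/
def PN (X : Tn 9 d) : Tn 9 d →L[ℝ] Tn 9 d :=
  c.Gw 𝔴 X ∘L Ring.inverse (c.Kw 𝔴 X) ∘L c.dv 𝔴 X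

/-- gauge invariant frequency form -/
def Aw (X : Tn 9 d) : Tn 9 d →L[ℝ] Tn 9 d :=
  (kr 1 𝔴.starProjection - c.PN 𝔴 X) * kr 1 (c.om 𝔴 X) * (kr 1 𝔴.starProjection - c.PN 𝔴 X)

/-- overlap with the reference vacuum -/
def ovw (X : Tn 9 d) : ℝ := ov c.θ (kr (Gm c.γ) 𝔴.starProjection) (c.Jw 𝔴 X)

/-- normalization of the amplitude -/
def ng (g : ℝ) (X : Tn 9 d) : ℝ :=
  √((∫ ξ : 𝔴, Real.exp (-(g * ⟪(ξ : Lg d), (c.om 𝔴 X ^ 3) ξ⟫))) /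
      ∫ W : sub 9 𝔴, Real.exp (-(g * ⟪(W : Tn 9 d), kr 1 (c.om 𝔴 X) (W : Tn 9 d)⟫))) /
    ∫ ξ : 𝔴, Real.exp (-(g * ⟪(ξ : Lg d), (c.om 𝔴 X ^ 3) ξ⟫) / 2)

variable (v : Fin 9 → ℝ)

/-- `ξ ↦ br ξ (X v)` on `𝔴`, the identity on the complement -/
def aw (X : Tn 9 d) : Lg d →L[ℝ] Lg d := -c.adw 𝔴 (cv v X) + (1 - 𝔴.starProjection)

/-- Jacobian of the slice -/
def jw (X : Tn 9 d) : ℝ := |(c.aw 𝔴 v X).det|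

/-- the open set where all the data are smooth -/
def Ow : Set (Tn 9 d) :=
  {X | (c.aw 𝔴 v X).det ≠ 0 ∧ (c.Dw 𝔴 X + (1 - kr 1 𝔴.starProjection)).det ≠ 0}

/-- gauge parameter that moves in the direction `v ⊗ η` -/
def zet (X : Tn 9 d) (η : Lg d) : Lg d := Ring.inverse (c.aw 𝔴 v X) η

end Ctx

/-- fast directions in the slice -/
def Wsl {d : ℕ} (𝔴 : Submodule ℝ (Lg d)) (v : Fin 9 → ℝ) : Submodule ℝ (Tn 9 d) :=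
  sub 9 𝔴 ⊓ LinearMap.ker (cv v : Tn 9 d →L[ℝ] Lg d).toLinearMap

/-- the microscopic length -/
def ell (g : ℝ) : ℝ := g ^ (-(1 / 3 : ℝ))

/-- `L²` preserving dilation on `U` -/
def dil {E F : Type} [NormedAddCommGroup E] [InnerProductSpace ℝ E] [NormedAddCommGroup F]
    [InnerProductSpace ℂ F] (U : Submodule ℝ E) (l : ℝ) (b : E → F) (x : E) : F :=
  ((l ^ (-(Module.finrank ℝ U : ℝ) / 2) : ℝ) : ℂ) • b (l⁻¹ • x)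

namespace Ctx

variable {N d : ℕ} {F : Type} [NormedAddCommGroup F] [InnerProductSpace ℂ F]
  [FiniteDimensional ℂ F] (c : Ctx N d F)

/-- normalized Gaussian on the slice -/
def Gg (𝔴 : Submodule ℝ (Lg d)) (v : Fin 9 → ℝ) (g : ℝ) (X W : Tn 9 d) : ℝ :=
  gauss (Wsl 𝔴 v) (g • c.Aw 𝔴 X) W

/-- projection on the ground state of the fast variables -/
def T0 (𝔴 : Submodule ℝ (Lg d)) (v : Fin 9 → ℝ) (g : ℝ) (ψ : Tn 9 d → F) (X : Tn 9 d) : F :=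
  ∫ W : Wsl 𝔴 v, (c.Gg 𝔴 v g X W : ℂ) • c.Pw 𝔴 X (ψ (X + W))

/-- cutoff times the square root of the Jacobian -/
def kap (𝔴 : Submodule ℝ (Lg d)) (v : Fin 9 → ℝ) (χ : Tn 9 d → ℝ) (X : Tn 9 d) : ℝ :=
  χ X * √(c.jw 𝔴 v X)

/-- the localization map to the theory with bosons in `𝔞'` -/
def Tr (𝔞' 𝔴 : Submodule ℝ (Lg d)) (v : Fin 9 → ℝ) (χ : Tn 9 d → ℝ) (g : ℝ) (ψ : Tn 9 d → F)
    (x : Tn 9 d) : F :=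
  (c.kap 𝔴 v χ ((sub 9 𝔞').starProjection x) : ℂ) • c.T0 𝔴 v g ψ ((sub 9 𝔞').starProjection x)

/-- zero order kernel of the error term in the slice identity -/
def Rk (𝔞' 𝔴 : Submodule ℝ (Lg d)) (v : Fin 9 → ℝ) (χ : Tn 9 d → ℝ) (g m : ℝ) (e : Fin 16 → ℝ)
    (X W : Tn 9 d) : F →L[ℂ] F :=
  ∑ k, (-I) • (c.θ (c.sE e (onb (sub 9 𝔞') k)) *
      fderiv ℝ (fun Y => ((c.kap 𝔴 v χ Y * c.Gg 𝔴 v g Y W : ℝ) : ℂ) • c.Pw 𝔴 Y) X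
        (onb (sub 9 𝔞') k)) -
    ((c.kap 𝔴 v χ X * c.Gg 𝔴 v g X W : ℝ) : ℂ) • (c.Pw 𝔴 X *
      ((g : ℂ) • ((-I) • c.θ (c.sE e (c.Aw 𝔴 X W)) + c.θ (c.Phi e (X + W) - c.Phi e X)) +
        (m : ℂ) • c.θ (c.Km e W) +
        ∑ a, (-I) • (c.θ (c.sE e (tens v (onb 𝔴 a))) * c.Gs (c.zet 𝔴 v X (onb 𝔴 a))) +
        ∑ a, (I * ((g * ⟪c.vf (c.zet 𝔴 v X (onb 𝔴 a)) W, c.Aw 𝔴 X W⟫ : ℝ) : ℂ)) •
          c.θ (c.sE e (tens v (onb 𝔴 a)))))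

/-- first order part of the error term in the slice identity -/
def Rd (𝔞' 𝔴 : Submodule ℝ (Lg d)) (v : Fin 9 → ℝ) (χ : Tn 9 d → ℝ) (g : ℝ) (e : Fin 16 → ℝ)
    (ψ : Tn 9 d → F) (X W : Tn 9 d) : F :=
  ∑ a, (-I * ((c.kap 𝔴 v χ X * c.Gg 𝔴 v g X W : ℝ) : ℂ)) •
    c.Pw 𝔴 X (c.θ (c.sE e (tens v (onb 𝔴 a))) (fderiv ℝ ψ (X + W)
      ((sub 9 𝔞').starProjection (c.vf (c.zet 𝔴 v X (onb 𝔴 a)) W))))

/-- the trial function of the cluster `π'` in the theory `(π, 𝔞)` -/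
def Om (π : Setoid (Fin N)) (𝔞 : Submodule ℝ (Lg d)) (π' : Setoid (Fin N)) (g : ℝ)
    (η : Tn 9 d → ℝ) (b : Tn 9 d → F) (x : Tn 9 d) : F :=
  let y := (c.CS 𝔞 π').starProjection x
  let W := (sub 9 (c.off π π')).starProjection x
  if ‖x - y‖ ≤ g ^ (-(1 / 6 : ℝ)) then
    ((c.ng (c.off π π') g y * Real.exp (-(g * ⟪W, kr 1 (c.om (c.off π π') y) W⟫) / 2) * η y : ℝ) :
      ℂ) • c.Pw (c.off π π') y
        (dil (sub 9 (c.ss π')) (ell g) b ((sub 9 (c.ss π')).starProjection x))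
  else 0

/-- amplitude against a function -/
def Lamf (π : Setoid (Fin N)) (𝔞 : Submodule ℝ (Lg d)) (π' : Setoid (Fin N)) (g : ℝ)
    (ψ : Tn 9 d → F) (η : Tn 9 d → ℝ) (b : Tn 9 d → F) : ℂ :=
  ip (sub 9 𝔞) (c.Om π 𝔞 π' g η b) ψ

/-- amplitude -/
def Lam (π : Setoid (Fin N)) (𝔞 : Submodule ℝ (Lg d)) (π' : Setoid (Fin N)) (g : ℝ)
    (ψ : Tn 9 d → F) (η : Tn 9 d → ℝ) (β : LL (sub 9 (c.ss π')) F) : ℂ :=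
  c.Lamf π 𝔞 π' g ψ η (rep (sub 9 (c.ss π')) β)

/-- test function divided by the square root of the overlap -/
def hatη (π : Setoid (Fin N)) (𝔞 : Submodule ℝ (Lg d)) (π' : Setoid (Fin N)) (η : Tn 9 d → ℝ)
    (x : Tn 9 d) : ℝ :=
  η ((c.CS 𝔞 π').starProjection x) / √(c.ovw (c.off π π') ((c.CS 𝔞 π').starProjection x))

/-- amplitude in the flat trivialization -/
def Lamh (π : Setoid (Fin N)) (𝔞 : Submodule ℝ (Lg d)) (π' : Setoid (Fin N)) (g : ℝ)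
    (ψ : Tn 9 d → F) (η : Tn 9 d → ℝ) (β : LL (sub 9 (c.ss π')) F) : ℂ :=
  c.Lam π 𝔞 π' g ψ (c.hatη π 𝔞 π' η) β

/-- amplitude against the free supercharge applied to `η ⊗ β` -/
def LamQ (π : Setoid (Fin N)) (𝔞 : Submodule ℝ (Lg d)) (π' : Setoid (Fin N)) (g m : ℝ)
    (e : Fin 16 → ℝ) (ψ : Tn 9 d → F) (η : Tn 9 d → ℝ) (β : LL (sub 9 (c.ss π')) F) : ℂ :=
  ∑ k, (c.Lamh π 𝔞 π' g ψ (fun x => fderiv ℝ η x (onb (c.CS 𝔞 π') k))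
      (opL _ ((-I) • c.θ (c.sE e (onb (c.CS 𝔞 π') k))) β) +
    c.Lamh π 𝔞 π' g ψ (fun x => ⟪onb (c.CS 𝔞 π') k, x⟫ * η x)
      (opL _ ((m : ℂ) • c.θ (c.Km e (onb (c.CS 𝔞 π') k))) β))

/-- bounded sequences of the massless theory at strong coupling -/
def Bdd (π : Setoid (Fin N)) (𝔞 : Submodule ℝ (Lg d)) (g : ℕ → ℝ) (ψ : ℕ → Tn 9 d → F) : Prop :=
  Tendsto g atTop atTop ∧ (∀ n, 1 ≤ g n) ∧ (∀ n, ψ n ∈ c.D π 𝔞) ∧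
    (∃ R, ∀ n, ∀ x ∈ sub 9 𝔞, R < ‖x‖ → ψ n x = 0) ∧
    ∃ C, ∀ n, nrm (sub 9 𝔞) (ψ n) + c.En 𝔞 (g n) 0 (ψ n) ≤ C

/-- the amplitudes of the cluster `π'` vanish -/
def Null (π : Setoid (Fin N)) (𝔞 : Submodule ℝ (Lg d)) (π' : Setoid (Fin N)) (g : ℕ → ℝ)
    (ψ : ℕ → Tn 9 d → F) : Prop :=
  ∀ η, SmR (c.CS 𝔞 π') η (c.Gen π π') → ∀ β ∈ c.B π',
    Tendsto (fun n => c.Lam π 𝔞 π' (g n) (ψ n) η β) atTop (𝓝 0)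

/-- vanishing amplitudes imply vanishing norm -/
def CC (π : Setoid (Fin N)) : Prop :=
  ∀ 𝔞, c.Th π 𝔞 → ∀ g ψ, c.Bdd π 𝔞 g ψ → (∀ π' ≤ π, c.Null π 𝔞 π' g ψ) →
    Tendsto (fun n => nrm (sub 9 𝔞) (ψ n)) atTop (𝓝 0)

/-- the same away from the deepest stratum -/
def CCo (π : Setoid (Fin N)) : Prop :=
  ∀ 𝔞, c.Th π 𝔞 → ∀ g ψ, c.Bdd π 𝔞 g ψ → (∀ π' < π, c.Null π 𝔞 π' g ψ) → ∀ r > 0,
    Tendsto (fun n => mass (sub 9 𝔞) {x | r ≤ ‖(sub 9 (c.ss π)).starProjection x‖} (ψ n))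
      atTop (𝓝 0)

/-- cluster Hardy inequality -/
def CH (π : Setoid (Fin N)) : Prop :=
  ∀ ε > 0, ∃ C G : ℝ, ∀ g, G ≤ g → ∀ ψ ∈ c.D π (c.ss π),
    mass (sub 9 (c.ss π)) {x | 1 ≤ ‖x‖ ∧ ‖x‖ ≤ 2} ψ ≤
      ε * wnrm (sub 9 (c.ss π)) wt ψ + C * c.En (c.ss π) g 0 ψ

/-- the orthogonal slice at a point -/
def Yz (π : Setoid (Fin N)) (z : Tn 9 d) : Submodule ℝ (Tn 9 d) :=
  sub 9 (c.ss π) ⊓ ⨅ ξ ∈ c.blk π, (Submodule.span ℝ {c.vf ξ z})ᗮ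

/-- semiclassical data at a classical vacuum -/
structure VacData (π : Setoid (Fin N)) (z : Tn 9 d) (A : Tn 9 d →L[ℝ] Tn 9 d) (Ω : F) : Prop where
  unit : ‖Ω‖ = 1
  P0 : c.P0 (c.ss π)ᗮ Ω = Ω
  sym : IsSym A
  range : ∀ W, A W ∈ c.Yz π z
  pos : ∃ a > 0, ∀ W ∈ c.Yz π z, a * ‖W‖ ^ 2 ≤ ⟪W, A W⟫
  inv : ∀ u ∈ Grp π, c.Ad9 u z = z → c.U u Ω = Ω ∧ ∀ W, A (c.Ad9 u W) = c.Ad9 u (A W)
  ann : ∀ e, ∀ W ∈ c.Yz π z,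
    I • c.θ (c.sE e (A W)) Ω + c.θ (fderiv ℝ (c.beta 1 1 e) z W) Ω = 0
  hess : ∀ W ∈ c.Yz π z, ∑ α, ‖fderiv ℝ (c.beta 1 1 (eb α)) z W‖ ^ 2 = 16 * ‖A W‖ ^ 2
  gap : ∃ b > 0, ∀ a : F, c.P0 (c.ss π)ᗮ a = a →
    -(8 * trR A) * ‖a‖ ^ 2 + b * ‖a - inner ℂ Ω a • Ω‖ ^ 2 ≤
      (inner ℂ a (bil c.θ (sub 9 (c.ss π)) (fun α => c.sE (eb α))
        (fun α => c.beta 1 1 (eb α)) z a)).re

/-- semiclassical amplitude at a vacuum -/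
def Lz (π : Setoid (Fin N)) (z : Tn 9 d) (A : Tn 9 d →L[ℝ] Tn 9 d) (Ω : F) (ϑ : Tn 9 d → ℝ)
    (g : ℝ) (ψ : Tn 9 d → F) : ℂ :=
  ∫ W : c.Yz π z, ((ϑ W * gauss (c.Yz π z) (g • A) W : ℝ) : ℂ) * inner ℂ Ω (ψ (z + W))

end Ctx

end Vale.Agent.P353
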