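import Vale.Agent.P353.Stmts
import Vale.Agent.P353.Gau

/-! Energy bound for the localization map. -/

noncomputable section

open MeasureTheory Filter Topology Complex Matrix
open scoped ContDiff RealInnerProductSpace

namespace Vale.Agent.P353

namespace Loc2Aux

/-- Cauchy-Schwarz inequality -/
theorem cs {α V : Type} [MeasurableSpace α] {μ : Measure α} [NormedAddCommGroup V]
    [NormedSpace ℝ V] {r : α → V} {p q : α → ℝ} (hp : Integrable p μ) (hq : Integrable q μ)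
    (p0 : ∀ w, 0 ≤ p w) (q0 : ∀ w, 0 ≤ q w) (h : ∀ w, ‖r w‖ ^ 2 ≤ p w * q w) {A : ℝ} (hA : 0 < A)
    (hA' : ∫ w, p w ∂μ ≤ A) : ‖∫ w, r w ∂μ‖ ^ 2 ≤ A * ∫ w, q w ∂μ := by
  have hB : 0 ≤ ∫ w, q w ∂μ := integral_nonneg q0
  rcases (norm_nonneg (∫ w, r w ∂μ)).eq_or_lt with h0 | h0
  · rw [← h0]
    simpa using mul_nonneg hA.le hB
  obtain ⟨x, hx⟩ : ∃ x, x = ‖∫ w, r w ∂μ‖ := ⟨_, rfl⟩
  rw [← hx] at h0 ⊢
  have ht : 0 < x / A := div_pos h0 hA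
  have h1 : ‖∫ w, r w ∂μ‖ ≤ ∫ w, (x / A / 2 * p w + A / x / 2 * q w) ∂μ := by
    refine norm_integral_le_of_norm_le ((hp.const_mul _).add (hq.const_mul _))
      (Eventually.of_forall fun w => ?_)
    have a1 : 0 ≤ x / A / 2 * p w := mul_nonneg (by positivity) (p0 w)
    have a2 : 0 ≤ A / x / 2 * q w := mul_nonneg (by positivity) (q0 w)
    have a3 : (x / A / 2 * p w) * (A / x / 2 * q w) = p w * q w / 4 := by field_simp; ring
    refine le_of_sq_le_sq ?_ (add_nonneg a1 a2)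
    nlinarith [sq_nonneg (x / A / 2 * p w - A / x / 2 * q w), h w]
  rw [integral_add (hp.const_mul _) (hq.const_mul _), integral_const_mul, integral_const_mul,
    ← hx] at h1
  have h2 : x / A / 2 * ∫ w, p w ∂μ ≤ x / 2 := by
    have := mul_le_mul_of_nonneg_left hA' (show 0 ≤ x / A / 2 by positivity)
    rwa [show x / A / 2 * A = x / 2 by field_simp] at this
  have h3 : x ≤ A / x * ∫ w, q w ∂μ := by linarith
  have h4 := mul_le_mul_of_nonneg_left h3 h0.le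
  rwa [← mul_assoc, mul_div_cancel₀ _ h0.ne', ← sq] at h4

variable {E : Type} [NormedAddCommGroup E] [InnerProductSpace ℝ E] [FiniteDimensional ℝ E]
  [MeasurableSpace E] [BorelSpace E] {U U₁ U₂ : Submodule ℝ E}

theorem int_slice (h2 : U₂ ≤ U) {f : E → ℝ} (hf : Continuous f)
    (hs : HasCompactSupport fun x : U => f x) {X : E} (hX : X ∈ U) :
    Integrable fun W : U₂ => f (X + W) :=
  Continuous.integrable_of_hasCompactSupport (by fun_prop) (hasCompactSupport_slice h2 hs hX)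

theorem int_outer (h : U₁ ⟂ U₂) (h1 : U₁ ≤ U) (h2 : U₂ ≤ U) {f j : E → ℝ} (hf : Continuous f)
    (hs : HasCompactSupport fun x : U => f x) (hj : Continuous j) :
    Integrable fun X : U₁ => j X * ∫ W : U₂, f (X + W) := by
  have s1 : HasCompactSupport fun y : ↥(U₁ ⊔ U₂) => f y := by
    simpa using hasCompactSupport_slice (sup_le h1 h2) hs U.zero_mem
  have s2 : Integrable fun y : ↥(U₁ ⊔ U₂) => j (U₁.starProjection y) * f y :=
    Continuous.integrable_of_hasCompactSupport (by fun_prop) s1.mul_left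
  refine (integrable_integral_sup h rfl (f := fun y => j (U₁.starProjection y) * f y) s2).congr
    (Eventually.of_forall fun X => ?_)
  have e : ∀ W : U₂, U₁.starProjection ((X : E) + W) = X := fun W => by
    rw [map_add, Submodule.starProjection_eq_self_iff.2 X.2,
      (Submodule.starProjection_apply_eq_zero_iff U₁).2 (h.symm W.2), add_zero]
  simp only [e]
  exact integral_const_mul _ _

theorem moment (U : Submodule ℝ E) {a : ℝ} (ha : 0 < a) (M : ℝ) : ∃ K > 0,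
    ∀ A : E →L[ℝ] E, (∀ w ∈ U, a * ‖w‖ ^ 2 ≤ ⟪w, A w⟫) → ‖A‖ ≤ M → ∀ g > 0,
      (Integrable fun x : U => (1 + (g * ‖(x : E)‖ ^ 2) ^ 2) * gauss U (g • A) x ^ 2) ∧
      ∫ x : U, (1 + (g * ‖(x : E)‖ ^ 2) ^ 2) * gauss U (g • A) x ^ 2 ≤ K := by
  obtain ⟨K, hK⟩ := gauss_moment U ha M 2
  refine ⟨1 + |K|, by positivity, fun A hA hM g hg => ?_⟩
  have hA' : ∀ w ∈ U, g * a * ‖w‖ ^ 2 ≤ ⟪w, (g • A) w⟫ := fun w hw => by
    rw [_root_.smul_apply, real_inner_smul_right, mul_assoc]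
    exact mul_le_mul_of_nonneg_left (hA w hw) hg.le
  have i0 : Integrable fun x : U => gauss U (g • A) x ^ 2 := by
    simpa using integrable_gauss_sq (mul_pos hg ha) hA' 0
  have i1 : Integrable fun x : U => (g * ‖(x : E)‖ ^ 2) ^ 2 * gauss U (g • A) x ^ 2 :=
    ((integrable_gauss_sq (mul_pos hg ha) hA' 4).const_mul (g ^ 2)).congr
      (Eventually.of_forall fun x => by ring)
  simp only [add_mul, one_mul]
  refine ⟨i0.add i1, ?_⟩
  rw [integral_add i0 i1, integral_gauss_sq (mul_pos hg ha) hA']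
  linarith [hK A hA hM g hg, le_abs_self K]

theorem num1 {r M G g w n f f' C : ℝ} (hr : 0 ≤ r) (hg : 0 ≤ g) (hf : 0 ≤ f)
    (hC : 0 ≤ C) (hf' : 0 ≤ f') (h : r ≤ M * G * (1 + g * w ^ 2 + g * √f * w) * n)
    (hn : n ≠ 0 → f ≤ C * f') :
    r ^ 2 ≤ (1 + (g * w ^ 2) ^ 2) * G ^ 2 * (M ^ 2 * (4 + 2 * C) * (n ^ 2 + g * (f' * n ^ 2))) := by
  by_cases h0 : n = 0
  · subst h0
    rw [mul_zero] at h
    rw [le_antisymm h hr]
    simp
  have h1 := pow_le_pow_left₀ hr h 2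
  have h2 : (g * √f * w) ^ 2 = g * f * (g * w ^ 2) := by
    rw [mul_pow, mul_pow, Real.sq_sqrt hf]
    ring
  obtain ⟨s, hs⟩ : ∃ s, s = g * w ^ 2 := ⟨_, rfl⟩
  have hs0 : 0 ≤ s := by rw [hs]; positivity
  rw [← hs] at h1 h2 ⊢
  have h3 : g * f * s ≤ g * (C * f') * (1 + s ^ 2) :=
    mul_le_mul (mul_le_mul_of_nonneg_left (hn h0) hg) (by nlinarith [sq_nonneg (s - 1)]) hs0
      (by positivity)
  have h4 : (1 + s + g * √f * w) ^ 2 ≤ (1 + s ^ 2) * ((4 + 2 * C) * (1 + g * f')) := by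
    have a1 : (1 + s + g * √f * w) ^ 2 ≤ 4 * (1 + s ^ 2) + 2 * (g * √f * w) ^ 2 := by
      nlinarith [sq_nonneg (1 + s - g * √f * w), sq_nonneg (s - 1)]
    have a2 : 0 ≤ (1 + s ^ 2) * (2 * C + 4 * (g * f')) := by positivity
    nlinarith
  refine h1.trans ?_
  have h5 := mul_le_mul_of_nonneg_left h4 (show 0 ≤ M ^ 2 * G ^ 2 * n ^ 2 by positivity)
  calc _ = M ^ 2 * G ^ 2 * n ^ 2 * (1 + s + g * √f * w) ^ 2 := by ring
    _ ≤ _ := h5
    _ = _ := by ring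

theorem num2 {r M G g w x q : ℝ} (hr : 0 ≤ r) (hg : 0 < g) (hq : 0 ≤ q) (hx0 : 0 ≤ x) (hx : x ≤ 1)
    (h : r ≤ M * x * G * w * √q) :
    r ^ 2 ≤ (1 + (g * w ^ 2) ^ 2) * G ^ 2 * (M ^ 2 * (q / g)) := by
  have h1 := pow_le_pow_left₀ hr h 2
  have h2 : x ^ 2 * (g * w ^ 2) ≤ 1 + (g * w ^ 2) ^ 2 := by
    have a1 : x ^ 2 ≤ 1 := by nlinarith
    have a2 : 0 ≤ g * w ^ 2 := by positivity
    nlinarith [sq_nonneg (g * w ^ 2 - 1)]
  have h3 := mul_le_mul_of_nonneg_right h2 (show 0 ≤ G ^ 2 * (M ^ 2 * (q / g)) by positivity)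
  refine h1.trans ?_
  calc _ = x ^ 2 * (g * w ^ 2) * (G ^ 2 * (M ^ 2 * (q / g))) := by
        rw [mul_pow, Real.sq_sqrt hq]
        field_simp
    _ ≤ _ := h3
    _ = _ := by ring

theorem three {V : Type} [NormedAddCommGroup V] (a b c : V) :
    ‖a + b + c‖ ^ 2 ≤ 3 * ‖a‖ ^ 2 + 3 * (‖b‖ ^ 2 + ‖c‖ ^ 2) := by
  have h := pow_le_pow_left₀ (norm_nonneg _) (norm_add₃_le (a := a) (b := b) (c := c)) 2
  nlinarith [sq_nonneg (‖a‖ - ‖b‖), sq_nonneg (‖a‖ - ‖c‖), sq_nonneg (‖b‖ - ‖c‖)]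

variable {N d : ℕ} {F : Type} [NormedAddCommGroup F] [InnerProductSpace ℂ F]
  [FiniteDimensional ℂ F] (c : Ctx N d F)

/-- the density that controls the error terms -/
def dn (𝔞 : Submodule ℝ (Lg d)) (g : ℝ) (ψ : Tn 9 d → F) (x : Tn 9 d) : ℝ :=
  ‖ψ x‖ ^ 2 + g * (c.Fsq x * ‖ψ x‖ ^ 2) + gsq (sub 9 𝔞) ψ x / g

variable {π π' : Setoid (Fin N)} {𝔞 : Submodule ℝ (Lg d)} {v : Fin 9 → ℝ}

theorem dens (h : c.Th π 𝔞) {g : ℝ} (hg : 0 < g) {ψ : Tn 9 d → F} (hψ : ψ ∈ c.D π 𝔞) :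
    c.Dens π 𝔞 (dn c 𝔞 g ψ) := by
  have hs := (c.mem_D.1 hψ).1
  have c1 : Continuous ψ := hs.1.continuous
  have c2 := c.contDiff_Fsq.continuous
  have c3 := hs.gsq_support.1
  refine ⟨by unfold dn; fun_prop, fun x => ?_, fun u hu x hx => ?_, ?_⟩
  · have := c.Fsq_nonneg x
    have := gsq_nonneg (sub 9 𝔞) ψ x
    unfold dn
    positivity
  · have e1 := c.invR_normsq hψ u hu x hx
    have e2 := c.invR_gsq h hψ u hu x hx
    simp only at e1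
    simp only [dn, e1, e2, c.Fsq_Ad9]
  · refine (hs.2.union hs.gsq_support.2).of_isClosed_subset isClosed_closure ?_
    unfold tsupport
    rw [← closure_union]
    refine closure_mono fun x hx => ?_
    by_contra h0
    simp only [Set.mem_union, Function.mem_support, not_or, not_not] at h0
    exact hx (by simp [dn, h0.1, h0.2])

theorem int_dn {g : ℝ} {ψ : Tn 9 d → F} (hψ : Sm (sub 9 𝔞) ψ) :
    ∫ x : sub 9 𝔞, dn c 𝔞 g ψ x =
      nrm (sub 9 𝔞) ψ + g * wnrm (sub 9 𝔞) c.Fsq ψ + grad (sub 9 𝔞) ψ / g := by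
  have i1 : Integrable fun x : sub 9 𝔞 => ‖ψ x‖ ^ 2 := by
    simpa using hψ.integrable_wnrm (w := fun _ => 1) continuousOn_const
  have i2 : Integrable fun x : sub 9 𝔞 => g * (c.Fsq x * ‖ψ x‖ ^ 2) :=
    (hψ.integrable_wnrm c.contDiff_Fsq.continuous.continuousOn).const_mul g
  have i3 : Integrable fun x : sub 9 𝔞 => gsq (sub 9 𝔞) ψ x / g := by
    simpa using (hψ.integrable_wgsq (w := fun _ => 1) continuousOn_const).div_const g
  unfold dn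
  have i4 : Integrable fun x : sub 9 𝔞 => ‖ψ x‖ ^ 2 + g * (c.Fsq x * ‖ψ x‖ ^ 2) := i1.add i2
  rw [integral_add i4 i3, integral_add i1 i2, integral_const_mul, integral_div]
  rfl

theorem le_U (h : c.Lc π 𝔞 π' v) :
    c.Sl 𝔞 π' ≤ sub 9 𝔞 ∧ Wsl (c.off π π') v ≤ sub 9 𝔞 ∧ c.Sl 𝔞 π' ⟂ Wsl (c.off π π') v :=
  ⟨sub_mono inf_le_left, inf_le_left.trans (sub_mono ((c.off_le_ss h.2.1).trans h.1.1)),
    (sub_isOrtho ((c.off_isOrtho_blk π π').symm.mono_left inf_le_right)).mono_right inf_le_left⟩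

/-- pointwise bound of the two error terms -/
theorem pointwise (h_lm1 : c.S_lm1) (h_lm2 : c.S_lm2) (h_rpt : c.S_rpt) {χ : Tn 9 d → ℝ}
    (h : c.Lc π 𝔞 π' v) (hχ : c.Cut π 𝔞 π' v χ) (R : ℝ) : ∃ C : ℝ, 0 ≤ C ∧ ∀ g, 1 ≤ g →
    ∀ ψ ∈ c.D π 𝔞, c.Supp 𝔞 R ψ → ∀ α, ∀ X ∈ c.Sl 𝔞 π',
      ‖∫ W : Wsl (c.off π π') v,
        c.Rk (𝔞 ⊓ c.blk π') (c.off π π') v χ g 0 (eb α) X W (ψ (X + W))‖ ^ 2 +
      ‖∫ W : Wsl (c.off π π') v, c.Rd (𝔞 ⊓ c.blk π') (c.off π π') v χ g (eb α) ψ X W‖ ^ 2 ≤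
      C * (c.jw (c.off π π') v X * ∫ W : Wsl (c.off π π') v, dn c 𝔞 g ψ (X + W)) := by
  obtain ⟨K, hK, hKO, hKS, hK0, M, hM, H⟩ := h_rpt π 𝔞 π' v χ h hχ
  obtain ⟨a, ha, MA, hA⟩ := h_lm1.A_unif _ v K hK hKO
  obtain ⟨b, -, M2, hM2, H2⟩ := h_lm2 π π' v h.2.1 h.2.2 K hK hKO
    fun X hX => sub_mono inf_le_right (hKS hX)
  obtain ⟨k, hk, hj⟩ := hK.exists_forall_le' (h_lm1.j_cont (c.off π π') v).continuousOn
    fun X hX => h_lm1.j_pos _ v X (hKO hX)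
  obtain ⟨B, hB⟩ := hK.isBounded.exists_norm_le
  obtain ⟨A, hA0, hmom⟩ := moment (Wsl (c.off π π') v) ha MA
  obtain ⟨u1, u2, -⟩ := le_U c h
  obtain ⟨C, hC⟩ : ∃ C, C = 2 + M2 * (R + B) ^ 2 * M2 := ⟨_, rfl⟩
  have hC0 : 0 ≤ C := by rw [hC]; positivity
  refine ⟨A * (M ^ 2 * (4 + 2 * C) + M ^ 2) / k, by positivity, fun g hg ψ hψ hR α X hX => ?_⟩
  have hg0 : 0 < g := by linarith
  obtain ⟨d1, d2, -, d4⟩ := dens c h.1 hg0 hψ
  have hI : 0 ≤ ∫ W : Wsl (c.off π π') v, dn c 𝔞 g ψ (X + W) := integral_nonneg fun W => d2 _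
  by_cases hXK : X ∈ K
  swap
  · have e1 : ∀ W : Wsl (c.off π π') v,
        c.Rk (𝔞 ⊓ c.blk π') (c.off π π') v χ g 0 (eb α) X W = 0 :=
      fun W => (H g hg 0 (by simp) α X hX W W.2).1 hXK
    have e2 : ∀ W : Wsl (c.off π π') v,
        c.Rd (𝔞 ⊓ c.blk π') (c.off π π') v χ g (eb α) ψ X W = 0 := fun W => by
      have := (H g hg 0 (by simp) α X hX W W.2).2.2.2 ψ
      rw [hK0 X hX hXK] at this
      simpa using this
    have : 0 ≤ c.jw (c.off π π') v X := abs_nonneg _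
    simp only [e1, e2, _root_.zero_apply, integral_zero, norm_zero]
    norm_num
    positivity
  obtain ⟨m1, m2⟩ := hmom _ (hA X hXK).2 (hA X hXK).1 g hg0
  have iq := int_slice u2 d1 d4 (u1 hX)
  have q1 : ∀ x, ‖ψ x‖ ^ 2 + g * (c.Fsq x * ‖ψ x‖ ^ 2) ≤ dn c 𝔞 g ψ x := fun x =>
    le_add_of_nonneg_right (div_nonneg (gsq_nonneg _ _ _) hg0.le)
  have q2 : ∀ x, gsq (sub 9 𝔞) ψ x / g ≤ dn c 𝔞 g ψ x := fun x =>
    le_add_of_nonneg_left (by have := c.Fsq_nonneg x; positivity)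
  have b1 := cs (r := fun W : Wsl (c.off π π') v =>
      c.Rk (𝔞 ⊓ c.blk π') (c.off π π') v χ g 0 (eb α) X W (ψ (X + W))) m1
    (iq.const_mul (M ^ 2 * (4 + 2 * C))) (fun W => by positivity)
    (fun W => mul_nonneg (by positivity) (d2 _)) (fun W => by
      refine (num1 (norm_nonneg _) hg0.le (c.Fsq_nonneg X) hC0 (c.Fsq_nonneg (X + W))
        ((ContinuousLinearMap.le_opNorm _ _).trans (mul_le_mul_of_nonneg_right
          (H g hg 0 (by simp) α X hX W W.2).2.1 (norm_nonneg _))) fun h0 => ?_).trans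
        (mul_le_mul_of_nonneg_left (mul_le_mul_of_nonneg_left (q1 _) (by positivity))
          (by positivity))
      obtain ⟨t1, t2⟩ := (H2 X hXK).2.2 W W.2
      have t3 : ‖X + W‖ ≤ R := by
        by_contra h1
        exact h0 (by rw [hR _ (add_mem (u1 hX) (u2 W.2)) (not_le.1 h1), norm_zero])
      have t4 : ‖(W : Tn 9 d)‖ ≤ R + B := by
        have := norm_sub_le (X + W) X
        rw [add_sub_cancel_left] at this
        linarith [hB X hXK]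
      have t5 : ‖(W : Tn 9 d)‖ ^ 4 ≤ (R + B) ^ 2 * (M2 * c.Fsq (X + W)) := by
        rw [show ‖(W : Tn 9 d)‖ ^ 4 = ‖(W : Tn 9 d)‖ ^ 2 * ‖(W : Tn 9 d)‖ ^ 2 by ring]
        exact mul_le_mul (pow_le_pow_left₀ (norm_nonneg _) t4 2) t1 (by positivity) (by positivity)
      have t6 := mul_le_mul_of_nonneg_left t5 hM2
      rw [hC]
      linarith) hA0 m2
  have b2 := cs (r := fun W : Wsl (c.off π π') v =>
      c.Rd (𝔞 ⊓ c.blk π') (c.off π π') v χ g (eb α) ψ X W) m1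
    (iq.const_mul (M ^ 2)) (fun W => by positivity)
    (fun W => mul_nonneg (by positivity) (d2 _)) (fun W =>
      (num2 (norm_nonneg _) hg0 (gsq_nonneg _ _ _) (hχ.2 X).1 (hχ.2 X).2
        ((H g hg 0 (by simp) α X hX W W.2).2.2.2 ψ)).trans
        (mul_le_mul_of_nonneg_left (mul_le_mul_of_nonneg_left (q2 _) (by positivity))
          (by positivity))) hA0 m2
  rw [integral_const_mul] at b1 b2
  have b3 := mul_le_mul_of_nonneg_left (mul_le_mul_of_nonneg_right (hj X hXK) hI)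
    (show 0 ≤ A * (M ^ 2 * (4 + 2 * C) + M ^ 2) / k by positivity)
  refine le_trans ?_ b3
  rw [← mul_assoc, div_mul_cancel₀ _ hk.ne']
  linarith

end Loc2Aux

open Loc2Aux

namespace Ctx

variable {N d : ℕ} {F : Type} [NormedAddCommGroup F] [InnerProductSpace ℂ F]
  [FiniteDimensional ℂ F] (c : Ctx N d F)

theorem p_loc2 (h_lm1 : c.S_lm1) (h_lm2 : c.S_lm2) (h_s1 : c.S_s1) (h_cr : c.S_cr)
    (h_tb : c.S_tb) (h_si : c.S_si) (h_rpt : c.S_rpt) : c.S_loc2 := by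
  intro π 𝔞 π' v χ h hχ R
  obtain ⟨C, hC, H⟩ := pointwise c h_lm1 h_lm2 h_rpt h hχ R
  obtain ⟨K1, hK1, H1⟩ := h_s1 π 𝔞 π' v h
  obtain ⟨K2, hK2, H2⟩ := h_cr R
  obtain ⟨K3, hK3, H3⟩ := h_tb.bd π 𝔞 π' v h
  obtain ⟨u1, u2, u3⟩ := le_U c h
  refine ⟨3 * K3 + 48 * (C * (K1 * (1 + K2))), fun g hg ψ hψ hR => ?_⟩
  have hg0 : 0 < g := by linarith
  have hs := (c.mem_D.1 hψ).1
  have hd := dens c h.1 hg0 hψ
  have hn := nrm_nonneg (sub 9 𝔞) ψ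
  have he : 0 ≤ c.En 𝔞 g 0 ψ := en_nonneg _ _ _ _
  have s1 : ∫ x : sub 9 𝔞, dn c 𝔞 g ψ x ≤ (1 + K2) * c.NE 𝔞 g 0 ψ := by
    have a1 := div_le_div_of_nonneg_right (H2 π 𝔞 h.1 g hg ψ hs hR) hg0.le
    have a2 : c.En 𝔞 g 0 ψ / g ≤ c.En 𝔞 g 0 ψ := div_le_self he hg
    have a3 := mul_le_mul_of_nonneg_left a2 hK2
    have e1 : (grad (sub 9 𝔞) ψ + g ^ 2 * wnrm (sub 9 𝔞) c.Fsq ψ) / g =
        g * wnrm (sub 9 𝔞) c.Fsq ψ + grad (sub 9 𝔞) ψ / g := by field_simp; ring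
    have e2 : K2 * (c.En 𝔞 g 0 ψ + g * nrm (sub 9 𝔞) ψ) / g =
        K2 * (c.En 𝔞 g 0 ψ / g) + K2 * nrm (sub 9 𝔞) ψ := by field_simp
    rw [e1, e2] at a1
    rw [int_dn c hs, NE]
    nlinarith
  have io := int_outer u3 u1 u2 hd.1 hd.2.2.2 (h_lm1.j_cont (c.off π π') v)
  have s2 : ∀ α, nrm (c.Sl 𝔞 π') (c.Q (𝔞 ⊓ c.blk π') g 0 (eb α) (c.TT π 𝔞 π' v χ g ψ)) ≤
      3 * K3 * nrm (sub 9 𝔞) (c.Q 𝔞 g 0 (eb α) ψ) + 3 * (C * (K1 * (1 + K2))) * c.NE 𝔞 g 0 ψ := by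
    intro α
    have hQ := c.Q_mem_D h.1 g 0 (eb α) hψ
    have i1 : Integrable fun X : c.Sl 𝔞 π' => ‖c.TT π 𝔞 π' v χ g (c.Q 𝔞 g 0 (eb α) ψ) X‖ ^ 2 := by
      simpa using (h_tb.sm π 𝔞 π' v χ h hχ g hg0 _ (c.mem_D.1 hQ).1).integrable_wnrm
        (w := fun _ => 1) continuousOn_const
    have a1 := integral_mono_of_nonneg (f := fun X : c.Sl 𝔞 π' =>
        ‖c.Q (𝔞 ⊓ c.blk π') g 0 (eb α) (c.TT π 𝔞 π' v χ g ψ) X‖ ^ 2)
      (Eventually.of_forall fun X => sq_nonneg _)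
      ((i1.const_mul 3).add ((io.const_mul C).const_mul 3)) (Eventually.of_forall fun X => by
        simp only [Pi.add_apply]
        rw [(h_si π 𝔞 π' v χ h hχ g hg0 0 (eb α) ψ hψ X X.2).2.2]
        refine (three _ _ _).trans ?_
        linarith [H g hg ψ hψ hR α X X.2])
    simp only [Pi.add_apply] at a1
    rw [integral_add (i1.const_mul 3) ((io.const_mul C).const_mul 3), integral_const_mul,
      integral_const_mul, integral_const_mul] at a1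
    have a2 := H3 χ hχ g hg0 _ hQ
    have a3 := mul_le_mul_of_nonneg_left ((H1 _ hd).trans (mul_le_mul_of_nonneg_left s1 hK1)) hC
    unfold nrm at a2 ⊢
    linarith
  have s3 : c.En (𝔞 ⊓ c.blk π') g 0 (c.TT π 𝔞 π' v χ g ψ) ≤ 3 * K3 * c.En 𝔞 g 0 ψ +
      16 * (3 * (C * (K1 * (1 + K2))) * c.NE 𝔞 g 0 ψ) := by
    refine (Finset.sum_le_sum (s := Finset.univ) fun α _ => s2 α).trans_eq ?_
    rw [Finset.sum_add_distrib, ← Finset.mul_sum, Finset.sum_const, Finset.card_univ,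
      Fintype.card_fin, nsmul_eq_mul]
    rfl
  have s4 : c.En 𝔞 g 0 ψ ≤ c.NE 𝔞 g 0 ψ := le_add_of_nonneg_left hn
  have s5 := mul_le_mul_of_nonneg_left s4 hK3
  linarith

end Ctx

end Vale.Agent.P353
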