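import Vale.Agent.P353.Stmts
import Vale.Agent.P353.Gau

/-! Local mass bound. -/

noncomputable section

open MeasureTheory Filter Topology Complex Matrix
open scoped ContDiff RealInnerProductSpace

namespace Vale.Agent.P353

namespace Loc3Aux

variable {E : Type} [NormedAddCommGroup E] [InnerProductSpace ℝ E] [FiniteDimensional ℝ E]
  [MeasurableSpace E] [BorelSpace E]

theorem ball_le {U₁ U₂ : Submodule ℝ E} (h : U₁ ⟂ U₂) {f : E → ℝ} (hf0 : ∀ x, 0 ≤ f x)
    (hi : Integrable fun x : (U₁ ⊔ U₂ : Submodule ℝ E) => f x) {y : E} (hy : y ∈ U₁) (ρ : ℝ) :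
    ∫ x in {x : (U₁ ⊔ U₂ : Submodule ℝ E) | ‖(x : E) - y‖ < ρ}, f x ≤
      ∫ X in {X : U₁ | (X : E) ∈ Metric.closedBall y ρ}, ∫ W : U₂, f (X + W) := by
  have hS : MeasurableSet {x : E | U₁.starProjection x ∈ Metric.closedBall y ρ} :=
    (Metric.isClosed_closedBall.preimage U₁.starProjection.continuous).measurableSet
  have hS' : MeasurableSet
      {x : (U₁ ⊔ U₂ : Submodule ℝ E) | U₁.starProjection x ∈ Metric.closedBall y ρ} :=
    measurable_subtype_coe hS
  have hK : MeasurableSet {X : U₁ | (X : E) ∈ Metric.closedBall y ρ} :=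
    measurable_subtype_coe Metric.isClosed_closedBall.measurableSet
  have h1 : ∫ x in {x : (U₁ ⊔ U₂ : Submodule ℝ E) | ‖(x : E) - y‖ < ρ}, f x ≤
      ∫ x in {x : (U₁ ⊔ U₂ : Submodule ℝ E) | U₁.starProjection x ∈ Metric.closedBall y ρ},
        f x := by
    refine setIntegral_mono_set hi.integrableOn (Eventually.of_forall fun x => hf0 x)
      (LE.le.eventuallyLE fun x hx => ?_)
    show U₁.starProjection x ∈ Metric.closedBall y ρ
    rw [Metric.mem_closedBall, dist_eq_norm, ← Submodule.starProjection_eq_self_iff.2 hy,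
      ← map_sub]
    exact (U₁.norm_starProjection_apply_le _).trans (le_of_lt hx)
  refine h1.trans_eq ?_
  rw [← integral_indicator hS', ← integral_indicator hK]
  have h2 := integral_sup h rfl
    (f := {x : E | U₁.starProjection x ∈ Metric.closedBall y ρ}.indicator f) (hi.indicator hS')
  refine h2.trans (integral_congr_ae (Eventually.of_forall fun X => ?_))
  have h3 : ∀ W : U₂, U₁.starProjection ((X : E) + W) = X := fun W => by
    rw [map_add, Submodule.starProjection_eq_self_iff.2 X.2,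
      (Submodule.starProjection_apply_eq_zero_iff U₁).2 (h.symm W.2), add_zero]
  by_cases hX : (X : E) ∈ Metric.closedBall y ρ
  · rw [Set.indicator_of_mem (show X ∈ {X : U₁ | (X : E) ∈ Metric.closedBall y ρ} from hX)]
    refine integral_congr_ae (Eventually.of_forall fun W => ?_)
    exact Set.indicator_of_mem (by rw [Set.mem_ofPred_eq, h3]; exact hX) _
  · rw [Set.indicator_of_notMem (show X ∉ {X : U₁ | (X : E) ∈ Metric.closedBall y ρ} from hX)]
    refine (integral_congr_ae (Eventually.of_forall fun W => ?_)).trans (integral_zero _ _)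
    exact Set.indicator_of_notMem (by rw [Set.mem_ofPred_eq, h3]; exact hX) _

theorem slice_le {F : Type} [NormedAddCommGroup F] [InnerProductSpace ℂ F] {U : Submodule ℝ E}
    {φ : U → F} {G : U → ℝ} (hφ : Continuous φ) (hG : Continuous G)
    (h1 : Integrable fun W => ‖φ W‖ ^ 2) (h2 : Integrable fun W => G W ^ 2)
    (h3 : ∫ W, G W ^ 2 = 1) (t : F) :
    ∫ W, ‖φ W‖ ^ 2 ≤ 2 * (∫ W, ‖φ W - (G W : ℂ) • t‖ ^ 2) + 2 * ‖t‖ ^ 2 := by
  have hn : ∀ W, ‖(G W : ℂ) • t‖ ^ 2 = G W ^ 2 * ‖t‖ ^ 2 := fun W => by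
    rw [norm_smul, mul_pow, Complex.norm_real, Real.norm_eq_abs, sq_abs]
  have h4 : Integrable fun W => ‖φ W - (G W : ℂ) • t‖ ^ 2 := by
    refine ((h1.const_mul 2).add ((h2.mul_const (‖t‖ ^ 2)).const_mul 2)).mono'
      (Continuous.aestronglyMeasurable (by fun_prop)) (Eventually.of_forall fun W => ?_)
    rw [Real.norm_of_nonneg (sq_nonneg _), Pi.add_apply, ← hn]
    have := pow_le_pow_left₀ (norm_nonneg _) (norm_sub_le (φ W) ((G W : ℂ) • t)) 2
    nlinarith [sq_nonneg (‖φ W‖ - ‖(G W : ℂ) • t‖)]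
  have h5 := integral_mono h1 ((h4.const_mul 2).add ((h2.mul_const (‖t‖ ^ 2)).const_mul 2))
    fun W => by
      show ‖φ W‖ ^ 2 ≤ 2 * ‖φ W - (G W : ℂ) • t‖ ^ 2 + 2 * (G W ^ 2 * ‖t‖ ^ 2)
      rw [← hn]
      have h6 := norm_add_le (φ W - (G W : ℂ) • t) ((G W : ℂ) • t)
      rw [sub_add_cancel] at h6
      have := pow_le_pow_left₀ (norm_nonneg _) h6 2
      nlinarith [sq_nonneg (‖φ W - (G W : ℂ) • t‖ - ‖(G W : ℂ) • t‖)]
  refine h5.trans_eq ?_
  rw [integral_add' (h4.const_mul 2) ((h2.mul_const (‖t‖ ^ 2)).const_mul 2), integral_const_mul,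
    integral_const_mul, integral_mul_const, h3, one_mul]

theorem integrable_sq {F : Type} [NormedAddCommGroup F] {U : Submodule ℝ E} {φ : U → F}
    (hφ : Continuous φ) (hs : HasCompactSupport φ) : Integrable fun x => ‖φ x‖ ^ 2 := by
  have h1 : Continuous fun x => ‖φ x‖ ^ 2 := hφ.norm.pow 2
  have h2 : HasCompactSupport fun x => ‖φ x‖ ^ 2 :=
    hs.comp_left (g := fun a => ‖a‖ ^ 2) (by simp)
  exact h1.integrable_of_hasCompactSupport h2

end Loc3Aux

open Loc3Aux

namespace Ctx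

variable {N d : ℕ} {F : Type} [NormedAddCommGroup F] [InnerProductSpace ℂ F]
  [FiniteDimensional ℂ F] (c : Ctx N d F)

theorem p_loc3 (h_lm1 : c.S_lm1) (h_orb : c.S_orb) (h_chart : c.S_chart) (h_tb : c.S_tb)
    (h_exc : c.S_exc) : c.S_loc3 := by
  intro π 𝔞 π' v χ hL hχ y hy hev
  have hyO : y ∈ c.Ow (c.off π π') v := by
    obtain ⟨K, -, hK, -, h0⟩ := hχ.1.2
    by_contra hn
    have := h0 y hy fun h => hn (hK h)
    rw [hev.self_of_nhds] at this
    exact one_ne_zero this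
  obtain ⟨ρ, hρ, hball⟩ := Metric.nhds_basis_closedBall.mem_iff.1
    (hev.and ((h_lm1.isOpen _ v).mem_nhds hyO))
  have hKc : IsCompact (Metric.closedBall y ρ) := isCompact_closedBall y ρ
  have hKO : Metric.closedBall y ρ ⊆ c.Ow (c.off π π') v := fun X hX => (hball hX).2
  obtain ⟨k, hk, hkj⟩ : ∃ k > 0, ∀ X ∈ Metric.closedBall y ρ, k ≤ c.jw (c.off π π') v X := by
    obtain ⟨X₀, hX₀, hmin⟩ := hKc.exists_isMinOn ⟨y, Metric.mem_closedBall_self hρ.le⟩
      (h_lm1.j_cont (c.off π π') v).continuousOn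
    exact ⟨_, h_lm1.j_pos _ v X₀ (hKO hX₀), fun X hX => hmin hX⟩
  obtain ⟨a, ha, M, hA⟩ := h_lm1.A_unif _ v _ hKc hKO
  have hT := h_orb.trans π 𝔞 π' v hL y hy hyO
  obtain ⟨r, hr, K, hlow⟩ := h_chart.low π 𝔞 _ _ y hT ρ hρ
  have hO : c.Sl 𝔞 π' ⟂ Wsl (c.off π π') v :=
    (sub_isOrtho ((c.off_isOrtho_blk π π').symm.mono_left inf_le_right)).mono_right inf_le_left
  have hY : c.Sl 𝔞 π' ⊔ Wsl (c.off π π') v ≤ sub 9 𝔞 := hT.2.2.1
  refine ⟨r, hr, (|K| + 1) * (2 / k), fun R ε hε => ?_⟩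
  have hK1 : 0 < |K| + 1 := by positivity
  filter_upwards [h_exc π 𝔞 π' v hL _ hKc hKO R (ε / (2 * (|K| + 1))) (by positivity),
    eventually_gt_atTop 0] with g hg hg0 ψ hψ hR
  obtain ⟨hi, hle⟩ := hg ψ hψ hR
  have hc : Continuous ψ := hψ.1.1.continuous
  have hD : c.Dens π 𝔞 fun x => ‖ψ x‖ ^ 2 :=
    ⟨hc.norm.pow 2, fun _ => sq_nonneg _, c.invR_normsq hψ,
      hψ.1.2.comp_left (g := fun a => ‖a‖ ^ 2) (by simp)⟩
  have hiY : Integrable fun x : (c.Sl 𝔞 π' ⊔ Wsl (c.off π π') v : Submodule ℝ (Tn 9 d)) =>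
      ‖ψ x‖ ^ 2 := by
    refine integrable_sq (hc.comp continuous_subtype_val) ?_
    simpa only [zero_add] using hasCompactSupport_slice hY hψ.1.2 (zero_mem _)
  have h1 := hlow _ hD
  have h2 := ball_le hO (f := fun x => ‖ψ x‖ ^ 2) (fun _ => sq_nonneg _) hiY hy ρ
  have hTT := h_tb.sm π 𝔞 π' v χ hL hχ g hg0 ψ hψ.1
  have hiT : Integrable fun X : c.Sl 𝔞 π' => ‖c.TT π 𝔞 π' v χ g ψ X‖ ^ 2 :=
    integrable_sq (hTT.1.continuous.comp continuous_subtype_val) hTT.2
  have hKm : MeasurableSet {X : c.Sl 𝔞 π' | (X : Tn 9 d) ∈ Metric.closedBall y ρ} :=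
    measurable_subtype_coe Metric.isClosed_closedBall.measurableSet
  have h3 := setIntegral_mono_on
    (integrable_integral_sup hO rfl (f := fun x => ‖ψ x‖ ^ 2) hiY).integrableOn
    ((hi.const_mul 2).add (hiT.integrableOn.const_mul (2 / k))) hKm fun X hX => by
      have hXO := hKO hX
      have hAg : ∀ w ∈ Wsl (c.off π π') v,
          g * a * ‖w‖ ^ 2 ≤ ⟪w, (g • c.Aw (c.off π π') X) w⟫ := fun w hw => by
        rw [_root_.smul_apply, real_inner_smul_right, mul_assoc]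
        exact mul_le_mul_of_nonneg_left ((hA X hX).2 w hw) hg0.le
      have h4 := slice_le (φ := fun W : Wsl (c.off π π') v => ψ (X + W))
        (G := fun W => c.Gg (c.off π π') v g X W) (by fun_prop)
        ((contDiff_gauss _ _).continuous.comp continuous_subtype_val)
        (integrable_sq (by fun_prop)
          (hasCompactSupport_slice (le_sup_right.trans hY) hψ.1.2 (hY (Submodule.mem_sup_left X.2))))
        (by simpa only [pow_zero, one_mul, Gg] using integrable_gauss_sq (mul_pos hg0 ha) hAg 0)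
        (integral_gauss_sq (mul_pos hg0 ha) hAg) (c.T0 (c.off π π') v g ψ X)
      have h5 : ‖c.TT π 𝔞 π' v χ g ψ X‖ ^ 2
          = c.jw (c.off π π') v X * ‖c.T0 (c.off π π') v g ψ X‖ ^ 2 := by
        unfold TT Tr kap
        rw [Submodule.starProjection_eq_self_iff.2 X.2, (hball hX).1, one_mul, norm_smul, mul_pow,
          Complex.norm_real, Real.norm_eq_abs, sq_abs,
          Real.sq_sqrt (h_lm1.j_pos _ v X hXO).le]
      refine h4.trans (add_le_add le_rfl ?_)
      beta_reduce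
      rw [h5, div_mul_eq_mul_div, le_div_iff₀ hk]
      have := mul_le_mul_of_nonneg_right (hkj X hX) (sq_nonneg ‖c.T0 (c.off π π') v g ψ X‖)
      linarith
  rw [integral_add' (hi.const_mul 2) (hiT.integrableOn.const_mul (2 / k)), integral_const_mul,
    integral_const_mul] at h3
  have h6 : ∫ X in {X : c.Sl 𝔞 π' | (X : Tn 9 d) ∈ Metric.closedBall y ρ},
      ‖c.TT π 𝔞 π' v χ g ψ X‖ ^ 2 ≤ nrm (c.Sl 𝔞 π') (c.TT π 𝔞 π' v χ g ψ) :=
    setIntegral_le_integral hiT (Eventually.of_forall fun _ => sq_nonneg _)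
  have h7 := h2.trans (h3.trans (add_le_add (mul_le_mul_of_nonneg_left hle zero_le_two)
    (mul_le_mul_of_nonneg_left h6 (by positivity))))
  have h8 : (0 : ℝ) ≤ ∫ x in {x : (c.Sl 𝔞 π' ⊔ Wsl (c.off π π') v : Submodule ℝ (Tn 9 d)) |
      ‖(x : Tn 9 d) - y‖ < ρ}, ‖ψ x‖ ^ 2 := integral_nonneg fun _ => sq_nonneg _
  have h9 : mass (sub 9 𝔞) (Metric.ball y r) ψ
      = ∫ x in {x : sub 9 𝔞 | ‖(x : Tn 9 d) - y‖ < r}, ‖ψ x‖ ^ 2 := by
    unfold mass
    simp only [Metric.mem_ball, dist_eq_norm]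
  rw [h9]
  refine h1.trans ((mul_le_mul_of_nonneg_right ((le_abs_self K).trans (lt_add_one _).le) h8).trans
    ((mul_le_mul_of_nonneg_left h7 hK1.le).trans_eq ?_))
  field_simp
  ring

end Ctx

end Vale.Agent.P353
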