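import Vale.Agent.P353.Stmts
import Vale.Agent.P353.Gau

/-! Sum over the Weyl images. -/

noncomputable section

open MeasureTheory Filter Topology Complex Matrix
open scoped ContDiff RealInnerProductSpace

namespace Vale.Agent.P353

namespace LochAux

variable {E : Type} [NormedAddCommGroup E] [InnerProductSpace ℝ E] [FiniteDimensional ℝ E]
  [MeasurableSpace E] [BorelSpace E] {C : Submodule ℝ E} {Z : Set E}

theorem smR_zero : SmR C (fun _ => (0 : ℝ)) Z :=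
  ⟨contDiff_const, ∅, isCompact_empty, Set.empty_subset _, Set.empty_subset _, fun _ _ _ => rfl⟩

theorem tendsto_add {L : ℝ → (E → ℝ) → ℂ} (hL : ∀ᶠ g in atTop, LinR C Z (L g)) {η η' : E → ℝ}
    (h : SmR C η Z) (h' : SmR C η' Z) {a a' : ℂ} (ha : Tendsto (fun g => L g η) atTop (𝓝 a))
    (ha' : Tendsto (fun g => L g η') atTop (𝓝 a')) :
    Tendsto (fun g => L g fun x => η x + η' x) atTop (𝓝 (a + a')) := by
  refine (ha.add ha').congr' ?_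
  filter_upwards [hL] with g hg
  simpa using (hg η η' h h' 1).symm

theorem tendsto_sum {L : ℝ → (E → ℝ) → ℂ} (hL : ∀ᶠ g in atTop, LinR C Z (L g)) {ι : Type}
    (η : ι → E → ℝ) (z : ℂ) (h : ∀ i, SmR C (η i) Z)
    (ht : ∀ i, ∃ t : ℝ, 0 ≤ t ∧ Tendsto (fun g => L g (η i)) atTop (𝓝 (t * z))) (s : Finset ι) :
    SmR C (fun x => ∑ i ∈ s, η i x) Z ∧
      ∃ t : ℝ, 0 ≤ t ∧ Tendsto (fun g => L g fun x => ∑ i ∈ s, η i x) atTop (𝓝 (t * z)) := by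
  classical
  induction s using Finset.induction_on with
  | empty =>
    refine ⟨by simpa using smR_zero, 0, le_rfl, ?_⟩
    simp only [Finset.sum_empty, Complex.ofReal_zero, zero_mul]
    refine tendsto_const_nhds.congr' ?_
    filter_upwards [hL] with g hg
    symm
    simpa using (hg _ _ smR_zero smR_zero 1).symm
  | insert i s hi ih =>
    obtain ⟨h1, t, ht0, ht1⟩ := ih
    obtain ⟨t', ht0', ht1'⟩ := ht i
    simp only [Finset.sum_insert hi]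
    refine ⟨(h i).add h1, t' + t, add_nonneg ht0' ht0, ?_⟩
    have := tendsto_add hL (h i) h1 ht1' ht1
    rwa [← add_mul, ← Complex.ofReal_add] at this

theorem integral_pos {η κ γ : E → ℝ} {O : Set E} (hO : IsOpen O) (h : SmR C η O)
    (hκ : ContinuousOn κ O) (hγ : Continuous γ) (h0 : ∀ x, 0 ≤ η x) (hκ0 : ∀ y ∈ O, 0 < κ y)
    (hγ0 : ∀ x, 0 < γ x) {y₀ : E} (hy : y₀ ∈ C) (hy' : η y₀ ≠ 0) :
    0 < ∫ y : C, γ y * η y * κ y := by
  obtain ⟨hη, K, hK, hKO, hKC, hK0⟩ := h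
  have hin : ∀ y : C, η y ≠ 0 → (y : E) ∈ K := fun y hy => by
    by_contra hn; exact hy (hK0 y y.2 hn)
  have hc : Continuous fun y : C => γ y * η y * κ y := by
    refine continuous_iff_continuousAt.2 fun y => ?_
    by_cases hy : (y : E) ∈ O
    · exact (((hγ.mul hη.continuous).comp continuous_subtype_val).continuousAt).mul
        ((hκ.continuousAt (hO.mem_nhds hy)).comp continuous_subtype_val.continuousAt)
    · have hev : ∀ᶠ x : C in 𝓝 y, (x : E) ∈ Kᶜ :=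
        continuous_subtype_val.continuousAt.eventually
          (hK.isClosed.isOpen_compl.mem_nhds fun hk => hy (hKO hk))
      refine (continuousAt_const (y := (0 : ℝ))).congr (hev.mono fun x hx => ?_)
      simp only [hK0 x x.2 hx, mul_zero, zero_mul]
  have hs : HasCompactSupport fun y : C => γ y * η y * κ y := by
    refine HasCompactSupport.intro
      (C.closed_of_finiteDimensional.isClosedEmbedding_subtypeVal.isCompact_preimage hK)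
      fun x hx => ?_
    simp only [hK0 x x.2 hx, mul_zero, zero_mul]
  refine hc.integral_pos_of_hasCompactSupport_nonneg_nonzero hs (fun y => ?_) (x := ⟨y₀, hy⟩) ?_
  · by_cases hy : η y = 0
    · simp [hy]
    · exact mul_nonneg (mul_nonneg (hγ0 _).le (h0 _)) (hκ0 _ (hKO (hin y hy))).le
  · exact mul_ne_zero (mul_ne_zero (hγ0 _).ne' hy') (hκ0 _ (hKO (hin ⟨y₀, hy⟩ hy'))).ne'

theorem integral_nonneg' {η η₀ κ : E → ℝ} {O : Set E} (h : SmR C η₀ O) (h0 : ∀ x, 0 ≤ η x)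
    (h0' : ∀ x, 0 ≤ η₀ x) (hκ0 : ∀ y ∈ O, 0 < κ y) : 0 ≤ ∫ y : C, η y * η₀ y * κ y := by
  obtain ⟨-, K, -, hKO, -, hK0⟩ := h
  refine integral_nonneg fun y => ?_
  by_cases hy : (y : E) ∈ K
  · exact mul_nonneg (mul_nonneg (h0 _) (h0' _)) (hκ0 _ (hKO hy)).le
  · simp [hK0 y y.2 hy]

end LochAux

namespace Ctx

variable {N d : ℕ} {F : Type} [NormedAddCommGroup F] [InnerProductSpace ℂ F]
  [FiniteDimensional ℂ F] (c : Ctx N d F)

theorem loch_test {π' : Setoid (Fin N)} {β : LL (sub 9 (c.ss π')) F} (hβ : β ∈ c.V π' 1 0)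
    (h0 : β ≠ 0) : ∃ b ∈ c.D0 π', inner ℂ β (L2 _ b) ≠ 0 := by
  rw [Ctx.V, mem_Ker_iff fun α => c.contDiff_beta 1 0 (eb α)] at hβ
  have hp : 0 < ‖β‖ := norm_pos_iff.2 h0
  obtain ⟨b, hb, h1, -⟩ := hβ (‖β‖ / 2) (by positivity)
  refine ⟨b, hb, fun h => ?_⟩
  have h2 := norm_inner_le_norm (𝕜 := ℂ) β (L2 _ b - β)
  rw [inner_sub_right, h, zero_sub, norm_neg, inner_self_eq_norm_sq_to_K] at h2
  simp only [norm_pow, RCLike.norm_ofReal, abs_norm] at h2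
  nlinarith

theorem loch_far (h_orb : c.S_orb) (h_lam : c.S_lam) {π π' : Setoid (Fin N)} (hπ : π' ≤ π)
    {K₀ : Set (Tn 9 d)} (hK : IsCompact K₀) (hKC : K₀ ⊆ c.CS (c.ss π) π') (hKG : K₀ ⊆ c.Good π π')
    {φ : ℝ → Tn 9 d → F} (hφ : ∀ δ > 0, ∀ᶠ g in atTop, ∀ x ∈ sub 9 (c.ss π), φ g x ≠ 0 →
      ∃ u ∈ Grp π, ∃ y ∈ K₀, ‖x - c.Ad9 u y‖ ≤ δ) {η : Tn 9 d → ℝ}
    (hη : SmR (c.CS (c.ss π) π') η
      (c.Good π π' ∩ (⋃ w : {w // Maps π π' π' w}, c.Ad9 (permU w.1) '' K₀)ᶜ))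
    (β : LL (sub 9 (c.ss π')) F) :
    Tendsto (fun g => c.Lamh π (c.ss π) π' g (φ g) η β) atTop (𝓝 0) := by
  obtain ⟨-, K, hK1, hKZ, hKC1, hK0⟩ := hη
  have hcen : ∀ y ∈ c.CS (c.ss π) π', y ∈ sub 9 (c.cen π') := fun y hy => sub_mono inf_le_right hy
  obtain ⟨δ, hδ, hsep⟩ := h_orb.sep π π' π' hπ hπ K₀ K hK hK1
    (fun y hy => ⟨hcen y (hKC hy), c.Good_subset_Gen π π' (hKG hy)⟩)
    (fun y hy => ⟨hcen y (hKC1 hy), c.Good_subset_Gen π π' (hKZ hy).1⟩)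
    (fun w hw y hy hk => (hKZ hk).2 (Set.mem_iUnion.2 ⟨⟨w, hw⟩, y, hy, rfl⟩))
  refine tendsto_const_nhds.congr' ?_
  filter_upwards [h_lam.loc π (c.ss π) π' K (δ / 3) (by positivity), hφ (δ / 3) (by positivity)]
    with g h1 h2
  rw [(h1 (φ g) 0 η β hK0 fun x hx y hy hxy => ?_).2, (h_lam.zero π (c.ss π) π' g η β).2]
  by_contra hne
  obtain ⟨u, hu, y', hy', h3⟩ := h2 x hx hne
  have h4 := hsep u hu y' hy' y hy
  have h5 := norm_sub_le_norm_sub_add_norm_sub y x (c.Ad9 u y')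
  rw [norm_sub_rev y x] at h5
  linarith

theorem loch_near (h_lme : c.S_lme) {π π' : Setoid (Fin N)} (hπ : π' ≤ π)
    {β : LL (sub 9 (c.ss π')) F} {w : Equiv.Perm (Fin N)} (hw : Maps π π' π' w)
    (hact : c.act (permU w) π' π' β = β) {O : Set (Tn 9 d)} {φ : ℝ → Tn 9 d → F}
    (h1 : ∀ᶠ g in atTop, φ g ∈ c.D π (c.ss π)) {z : ℂ}
    (h3 : ∀ η, SmR (c.CS (c.ss π) π') η O → (∀ x, 0 ≤ η x) → ∃ t : ℝ, 0 ≤ t ∧
      Tendsto (fun g => c.Lamh π (c.ss π) π' g (φ g) η β) atTop (𝓝 (t * z))) {η : Tn 9 d → ℝ}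
    (hη : SmR (c.CS (c.ss π) π') η (c.Ad9 (permU w)⁻¹ ⁻¹' O)) (h0 : ∀ x, 0 ≤ η x) :
    ∃ t : ℝ, 0 ≤ t ∧
      Tendsto (fun g => c.Lamh π (c.ss π) π' g (φ g) η β) atTop (𝓝 (t * z)) := by
  have h4 := h_lme.smr π (c.ss π) π' π' w⁻¹ (c.Th_ss π) hw.symm _ _ hη
  rw [permU_inv, inv_inv] at h4
  obtain ⟨t, ht0, ht⟩ := h3 _ (h4.mono fun x _ hx => by
    rwa [Set.mem_preimage, Set.mem_preimage, c.Ad9_inv_apply] at hx) fun x => h0 _
  refine ⟨t, ht0, ht.congr' ?_⟩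
  filter_upwards [h1, eventually_gt_atTop 0] with g hg hg0
  have h5 := h_lme.lamh π (c.ss π) π' π' w (c.Th_ss π) hπ hw g hg0 (φ g) hg
    (fun x => η (c.Ad9 (permU w) x)) β
  rw [hact] at h5
  rw [← h5]
  congr 1
  funext x
  rw [c.Ad9_apply_inv]

theorem loch_cover {π π' : Setoid (Fin N)} {K₀ O : Set (Tn 9 d)} (hK : IsCompact K₀) (hO : IsOpen O)
    (hKO : K₀ ⊆ O) : ∃ V : Option {w // Maps π π' π' w} → Set (Tn 9 d), (∀ i, IsOpen (V i)) ∧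
      (∀ x, ∃ i, x ∈ V i) ∧ V none = (⋃ w : {w // Maps π π' π' w}, c.Ad9 (permU w.1) '' K₀)ᶜ ∧
      ∀ w, V (some w) = c.Ad9 (permU w.1)⁻¹ ⁻¹' O := by
  refine ⟨fun i => i.elim (⋃ w : {w // Maps π π' π' w}, c.Ad9 (permU w.1) '' K₀)ᶜ
    fun w => c.Ad9 (permU w.1)⁻¹ ⁻¹' O, ?_, fun x => ?_, rfl, fun _ => rfl⟩
  · rintro (_ | w)
    · exact (isCompact_iUnion fun w => hK.image (c.Ad9 _).continuous).isClosed.isOpen_compl
    · exact hO.preimage (c.Ad9 _).continuous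
  · by_cases hx : x ∈ ⋃ w : {w // Maps π π' π' w}, c.Ad9 (permU w.1) '' K₀
    · obtain ⟨w, y, hy, rfl⟩ := Set.mem_iUnion.1 hx
      refine ⟨some w, ?_⟩
      simp only [Option.elim_some, Set.mem_preimage, c.Ad9_inv_apply]
      exact hKO hy
    · exact ⟨none, hx⟩

theorem loch_cone (h_lme : c.S_lme) (h_orb : c.S_orb) (h_lam : c.S_lam) {π π' : Setoid (Fin N)}
    (hπ : π' ≤ π) {β : LL (sub 9 (c.ss π')) F}
    (hact : ∀ w, Maps π π' π' w → c.act (permU w) π' π' β = β) {K₀ O : Set (Tn 9 d)}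
    (hK : IsCompact K₀) (hO : IsOpen O) (hKO : K₀ ⊆ O) (hKC : K₀ ⊆ c.CS (c.ss π) π')
    (hKG : K₀ ⊆ c.Good π π') {φ : ℝ → Tn 9 d → F} (h1 : ∀ᶠ g in atTop, φ g ∈ c.D π (c.ss π))
    (h2 : ∀ δ > 0, ∀ᶠ g in atTop, ∀ x ∈ sub 9 (c.ss π), φ g x ≠ 0 →
      ∃ u ∈ Grp π, ∃ y ∈ K₀, ‖x - c.Ad9 u y‖ ≤ δ) {z : ℂ}
    (h3 : ∀ η, SmR (c.CS (c.ss π) π') η O → (∀ x, 0 ≤ η x) → ∃ t : ℝ, 0 ≤ t ∧
      Tendsto (fun g => c.Lamh π (c.ss π) π' g (φ g) η β) atTop (𝓝 (t * z)))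
    (hL : ∀ᶠ g in atTop, LinR (c.CS (c.ss π) π') (c.Good π π')
      fun η => c.Lamh π (c.ss π) π' g (φ g) η β) {η : Tn 9 d → ℝ}
    (hη : SmR (c.CS (c.ss π) π') η (c.Good π π')) (h0 : ∀ x, 0 ≤ η x) :
    ∃ t : ℝ, 0 ≤ t ∧
      Tendsto (fun g => c.Lamh π (c.ss π) π' g (φ g) η β) atTop (𝓝 (t * z)) := by
  obtain ⟨V, hV1, hV2, hV3, hV4⟩ := c.loch_cover (π := π) (π' := π') hK hO hKO
  obtain ⟨s, ρ, hρ, hsum⟩ := hη.partition V hV1 fun x _ _ => hV2 x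
  have h4 : ∀ i, ∃ t : ℝ, 0 ≤ t ∧ Tendsto (fun g => c.Lamh π (c.ss π) π' g (φ g)
      (fun x => ρ i x * η x) β) atTop (𝓝 (t * z)) := by
    rintro (_ | w)
    · refine ⟨0, le_rfl, ?_⟩
      rw [Complex.ofReal_zero, zero_mul]
      exact c.loch_far h_orb h_lam hπ hK hKC hKG h2 (hV3 ▸ (hρ none).2.2) β
    · exact c.loch_near h_lme hπ w.2 (hact w.1 w.2) h1 h3
        ((hρ (some w)).2.2.mono fun x _ hx => hV4 w ▸ hx.2)
        fun x => mul_nonneg ((hρ _).2.1 _).1 (h0 _)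
  obtain ⟨-, t, ht0, ht⟩ := LochAux.tendsto_sum hL (fun i x => ρ i x * η x) z
    (fun i => (hρ i).2.2.mono fun x _ hx => hx.1) h4 s
  refine ⟨t, ht0, ht.congr fun g => ?_⟩
  exact (h_lam.congrη π (c.ss π) π' g (φ g) _ _ β hsum).2

theorem p_loch (h_lme : c.S_lme) (h_lm4 : c.S_lm4) (h_orb : c.S_orb) (h_lam : c.S_lam)
    (h_la : c.S_la) : c.S_loch := by
  intro π π' hπ β hβ hβ0 hact
  obtain ⟨y₀, hy₀, hy₀G⟩ := h_orb.good π (c.ss π) π' (c.Th_ss π) hπ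
  obtain ⟨b, hb, hz⟩ := c.loch_test hβ hβ0
  obtain ⟨r, hr, hball, κ, hκ, hκ0, hla⟩ := h_la π π' hπ y₀ hy₀ hy₀G b hb
  obtain ⟨η₀, hη₀, hη₀1, hη₀y⟩ := exists_SmR_one (U := c.CS (c.ss π) π')
    (isCompact_singleton (x := y₀)) Metric.isOpen_ball
    (Set.singleton_subset_iff.2 (Metric.mem_ball_self hr))
  have hy1 : η₀ y₀ = 1 := hη₀y.self_of_nhdsSet y₀ rfl
  obtain ⟨K, φ, h1, h2, h3'⟩ := hla η₀ hη₀
  have h3 := fun η hη => h3' η hη β hβ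
  clear h3' hla
  obtain ⟨K₀, hK, hKO, hKC, hK0⟩ := hη₀.2
  generalize inner ℂ β (L2 (sub 9 (c.ss π')) b) = z at hz h3
  have hk₀0 : 0 < ∫ y : c.CS (c.ss π) π', gauss (c.CS (c.ss π) π') (Afree d) y * η₀ y * κ y :=
    LochAux.integral_pos Metric.isOpen_ball hη₀ hκ
      (contDiff_gauss _ _).continuous (fun x => (hη₀1 x).1) hκ0
      (gauss_pos one_pos fun w _ => by simpa using (Afree_bounds w).2.2) hy₀ (by simp [hy1])
  generalize hk₀ : ∫ y : c.CS (c.ss π) π', gauss (c.CS (c.ss π) π') (Afree d) y * η₀ y * κ y = k₀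
    at hk₀0
  have hz0 : 0 < ‖z‖ := norm_pos_iff.2 hz
  have h2' : ∀ δ > 0, ∀ᶠ g in atTop, ∀ x ∈ sub 9 (c.ss π), φ g x ≠ 0 →
      ∃ u ∈ Grp π, ∃ y ∈ K₀, ‖x - c.Ad9 u y‖ ≤ δ := by
    intro δ hδ
    filter_upwards [h2 δ hδ] with g hg x hx hne
    obtain ⟨u, hu, y, -, hy, h4⟩ := hg x hx hne
    refine ⟨u, hu, y, closure_minimal (fun y hy => ?_) hK.isClosed hy, h4⟩
    by_contra hn
    exact hy.2 (hK0 y hy.1 hn)
  have h1' : ∀ᶠ g in atTop, φ g ∈ c.D π (c.ss π) := h1.mono fun g hg => (c.mem_D0.1 hg.1).1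
  have hL : ∀ᶠ g in atTop, LinR (c.CS (c.ss π) π') (c.Good π π')
      fun η => c.Lamh π (c.ss π) π' g (φ g) η β := by
    filter_upwards [h1', eventually_gt_atTop 0] with g hg hg0
    exact h_lam.linηh π (c.ss π) π' (c.Th_ss π) hπ g hg0 (φ g) (c.mem_D.1 hg).1 β
  refine ⟨K₀, hK, hKC, hKO.trans hball, k₀ * ‖z‖ / 2, by positivity, K, φ, h1, h2', ?_⟩
  intro η hη hη0 hηK
  obtain ⟨χ, hχ, hχ1, hχK⟩ := exists_SmR_one (U := c.CS (c.ss π) π') hK Metric.isOpen_ball hKO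
  have h4 : SmR (c.CS (c.ss π) π') (fun x => η x * χ x) (Metric.ball y₀ r) := hχ.mul' hη.1
  have h5 : SmR (c.CS (c.ss π) π') (fun x => (1 - χ x) * η x) (c.Good π π') :=
    hη.mul' (contDiff_const.sub hχ.1)
  obtain ⟨t, ht0, ht⟩ := c.loch_cone h_lme h_orb h_lam hπ hact hK Metric.isOpen_ball hKO hKC
    (hKO.trans hball) h1' h2' (fun η hη h0 => ⟨_, LochAux.integral_nonneg' hη₀ h0
      (fun x => (hη₀1 x).1) hκ0, h3 η hη⟩) hL h5
    fun x => mul_nonneg (sub_nonneg.2 (hχ1 x).2) (hη0 x)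
  have h6 := h3 _ h4
  have e : ∫ y : c.CS (c.ss π) π', η y * χ y * η₀ y * κ y = k₀ := by
    rw [← hk₀]
    refine integral_congr_ae (Eventually.of_forall fun y => ?_)
    by_cases hy : (y : Tn 9 d) ∈ K₀
    · simp only [hηK y hy, hχK.self_of_nhdsSet _ hy, mul_one]
    · simp only [hK0 y y.2 hy, mul_zero, zero_mul]
  rw [e] at h6
  have h7 := LochAux.tendsto_add hL (h4.mono fun x _ hx => hball hx) h5 h6 ht
  have e2 : (fun x => η x * χ x + (1 - χ x) * η x) = η := by funext x; ring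
  rw [e2, ← add_mul, ← Complex.ofReal_add] at h7
  refine (h7.norm.eventually (lt_mem_nhds ?_)).mono fun g hg => hg.le
  rw [norm_mul, Complex.norm_real, Real.norm_of_nonneg (by positivity)]
  nlinarith [mul_nonneg ht0 hz0.le, mul_pos hk₀0 hz0]

end Ctx

end Vale.Agent.P353
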