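import Vale.Agent.P353.Stmts
import Vale.Agent.P353.Gau
import Vale.Agent.P353.Cut6

/-! Approximate free vacuum. -/

noncomputable section

open MeasureTheory Filter Topology Complex Matrix
open scoped ContDiff RealInnerProductSpace

namespace Vale.Agent.P353

namespace LqAux

theorem lin_sum {E ι : Type} [AddCommGroup E] [Module ℝ E] {f : E → ℂ}
    (h : ∀ y y' (t : ℝ), f (y + t • y') = f y + t * f y') (s : Finset ι) (a : ι → ℝ) (v : ι → E) :
    f (∑ k ∈ s, a k • v k) = ∑ k ∈ s, a k * f (v k) := by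
  classical
  induction s using Finset.induction_on with
  | empty => simpa using h 0 0 1
  | insert i s hi ih => rw [Finset.sum_insert hi, Finset.sum_insert hi, add_comm, h, ih, add_comm]

theorem bound {ι κ : Type} [Finite ι] [Finite κ] (f : ι → κ → ℝ) :
    ∃ M : ℝ, 0 ≤ M ∧ ∀ i k, f i k ≤ M := by
  obtain ⟨M, hM⟩ := Finite.bddAbove_range fun p : ι × κ => f p.1 p.2
  exact ⟨|M|, abs_nonneg _, fun i k => (hM ⟨(i, k), rfl⟩).trans (le_abs_self M)⟩

section gen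

variable {E : Type} [NormedAddCommGroup E] [InnerProductSpace ℝ E] [FiniteDimensional ℝ E]
  [MeasurableSpace E] [BorelSpace E] {C : Submodule ℝ E}

theorem swap {A : E →L[ℝ] E} (hA : IsSym A) (hC : ∀ x ∈ C, A x ∈ C) {B : E → E → ℂ}
    (h1 : ∀ z y y' (t : ℝ), B (y + t • y') z = B y z + t * B y' z)
    (h2 : ∀ z y y' (t : ℝ), B z (y + t • y') = B z y + t * B z y') :
    ∑ k, B (A (onb C k)) (onb C k) = ∑ k, B (onb C k) (A (onb C k)) := by
  have e1 : ∀ k, B (A (onb C k)) (onb C k) =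
      ∑ l, (⟪onb C l, A (onb C k)⟫ : ℝ) * B (onb C l) (onb C k) := fun k => by
    rw [← lin_sum (f := fun y => B y (onb C k)) (h1 _), sum_onb_self (hC _ (onb_mem C k))]
  have e2 : ∀ l, B (onb C l) (A (onb C l)) =
      ∑ k, (⟪onb C l, A (onb C k)⟫ : ℝ) * B (onb C l) (onb C k) := fun l => by
    simp only [← hA (onb C l), real_inner_comm (onb C _) (A _)]
    rw [← lin_sum (h2 _), sum_onb_self (hC _ (onb_mem C l))]
  simp only [e1, e2]
  exact Finset.sum_comm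

theorem gU_sq (f : E → ℝ) (x : E) : ‖gU C f x‖ ^ 2 = ∑ k, fderiv ℝ f x (onb C k) ^ 2 := by
  rw [← real_inner_self_eq_norm_sq]
  nth_rewrite 2 [gU]
  simp only [inner_sum, real_inner_smul_right, inner_gU f x (onb_mem C _), sq]

theorem int_sq {η : E → ℝ} {Z : Set E} (h : SmR C η Z) :
    Integrable fun x : C => η x ^ 2 := by
  obtain ⟨hη, K, hK, -, -, h0⟩ := h
  refine ((hη.continuous.comp continuous_subtype_val).pow 2).integrable_of_hasCompactSupport
    (HasCompactSupport.intro (C.closed_of_finiteDimensional.isClosedEmbedding_subtypeVal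
      |>.isCompact_preimage hK) fun x hx => ?_)
  simp [h0 x x.2 hx]

end gen

variable {N d : ℕ} {F : Type} [NormedAddCommGroup F] [InnerProductSpace ℂ F]
  [FiniteDimensional ℂ F] (c : Ctx N d F) {π π' : Setoid (Fin N)}

theorem fix {𝔟 : Submodule ℝ (Lg d)} (h : 𝔟 ≤ (c.ss π')ᗮ) {β : LL (sub 9 (c.ss π')) F}
    (hβ : β ∈ c.V π' 1 0) : opL _ (c.P0 𝔟) β = β := by
  have e : c.P0 𝔟 * c.P0 (c.ss π')ᗮ = c.P0 (c.ss π')ᗮ := by
    rw [← Submodule.sup_orthogonal_inf_of_hasOrthogonalProjection h,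
      c.P0_sup (𝔟.isOrtho_orthogonal_right.mono_right inf_le_left), ← mul_assoc, Ctx.P0, vac_idem]
  rw [← (c.mem_V_iff.1 hβ).2, ← mul_apply_eq_comp, ← opL_mul, e]

theorem cancel (h4 : c.S_lm4) (hl : c.S_lam) (h : π' ≤ π) {β : LL (sub 9 (c.ss π')) F}
    (hβ : β ∈ c.V π' 1 0) {χ : Tn 9 d → ℝ} (hχ : SmR (c.CS (c.ss π) π') χ (c.Good π π'))
    {g : ℝ} (hg : 0 < g) {ψ : Tn 9 d → F} (hψ : Sm (sub 9 (c.ss π)) ψ) (e : Fin 16 → ℝ) :
    c.LamQ π (c.ss π) π' g 1 e ψ (fun x => gauss (c.CS (c.ss π) π') (Afree d) x * χ x) β =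
      ∑ k, c.Lamh π (c.ss π) π' g ψ (fun x => gauss (c.CS (c.ss π) π') (Afree d) x *
        fderiv ℝ χ x (onb (c.CS (c.ss π) π') k))
        (opL _ ((-I) • c.θ (c.sE e (onb (c.CS (c.ss π) π') k))) β) := by
  have hG := contDiff_gauss (c.CS (c.ss π) π') (Afree d)
  have hη := hχ.mul' hG
  have hy : ∀ y : Tn 9 d, SmR (c.CS (c.ss π) π') (fun x => ⟪y, x⟫ *
      (gauss (c.CS (c.ss π) π') (Afree d) x * χ x)) (c.Good π π') :=
    fun y => hη.mul' (contDiff_const.inner ℝ contDiff_id)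
  have l1 := hl.linηh π _ π' (c.Th_ss π) h g hg ψ hψ
  have l2 : ∀ η, SmR (c.CS (c.ss π) π') η (c.Good π π') → ∀ b b' (t : ℝ),
      c.Lamh π (c.ss π) π' g ψ η (b + (t : ℂ) • b') =
        c.Lamh π (c.ss π) π' g ψ η b + t * c.Lamh π (c.ss π) π' g ψ η b' := fun η hη b b' t => by
    have := hl.linβ π _ π' (c.Th_ss π) h _ ((h4.hat π _ π' h η Set.univ
      (by rwa [Set.inter_univ])).mono fun x _ hx => c.Good_subset_Gen π π' hx.1) g hg ψ hψ b b' t
    rwa [conj_ofReal] at this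
  have s1 := swap Ctx.Afree_sym (C := c.CS (c.ss π) π') (fun x hx => Ctx.Afree_mem hx)
    (B := fun y z => c.Lamh π (c.ss π) π' g ψ (fun x => ⟪y, x⟫ *
      (gauss (c.CS (c.ss π) π') (Afree d) x * χ x)) (opL _ ((-I) • c.θ (c.sE e z)) β))
    (fun z y y' t => by
      rw [← l1 _ _ _ (hy y) (hy y') t]
      simp only [inner_add_left, real_inner_smul_left, add_mul, mul_assoc])
    (fun z y y' t => by
      rw [← l2 _ (hy z), map_add, map_smul, map_add, theta_smul, smul_add, smul_comm, opL_add,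
        opL_smul (t : ℂ)]
      rfl)
  have s2 : ∀ y ∈ c.CS (c.ss π) π', opL _ (((1 : ℝ) : ℂ) • c.θ (c.Km e y)) β =
      opL _ ((-I) • c.θ (c.sE e (Afree d y))) β := fun y hy => by
    have a := c.free_ann _ e hy
    rw [add_mul, add_eq_zero_iff_neg_eq, ← neg_mul, ← neg_smul] at a
    rw [← fix c (𝔟 := c.ss π ⊓ c.cen π') (inf_le_right.trans (c.ss_isOrtho_cen π').ge) hβ,
      ← mul_apply_eq_comp, ← mul_apply_eq_comp, ← opL_mul, ← opL_mul, a, ofReal_one, one_smul]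
  have s3 : ∀ y ∈ c.CS (c.ss π) π', ∀ b, c.Lamh π (c.ss π) π' g ψ (fun x => fderiv ℝ
      (fun x => gauss (c.CS (c.ss π) π') (Afree d) x * χ x) x y) b =
      c.Lamh π (c.ss π) π' g ψ (fun x => gauss (c.CS (c.ss π) π') (Afree d) x * fderiv ℝ χ x y) b -
      c.Lamh π (c.ss π) π' g ψ (fun x => ⟪Afree d y, x⟫ *
        (gauss (c.CS (c.ss π) π') (Afree d) x * χ x)) b := fun y hy' b => by
    have a := l1 b _ _ ((hχ.fderiv hy').mul' hG) (hy (Afree d y)) (-1)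
    rw [ofReal_neg, ofReal_one, neg_one_mul, ← sub_eq_add_neg] at a
    refine Eq.trans (congrArg (fun η => c.Lamh π (c.ss π) π' g ψ η b) (funext fun x => ?_)) a
    rw [fderiv_fun_mul (hG.differentiable (by simp) x) (hχ.1.differentiable (by simp) x)]
    simp only [_root_.add_apply, _root_.smul_apply, smul_eq_mul, fderiv_gauss Ctx.Afree_sym,
      Ctx.Afree_sym y x]
    ring
  simp only [Ctx.LamQ, s2 _ (onb_mem _ _), s3 _ (onb_mem _ _), Finset.sum_add_distrib,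
    Finset.sum_sub_distrib, s1, sub_add_cancel]

end LqAux

namespace Ctx

variable {N d : ℕ} {F : Type} [NormedAddCommGroup F] [InnerProductSpace ℂ F]
  [FiniteDimensional ℂ F] (c : Ctx N d F)

theorem p_lq (h_lm4 : c.S_lm4) (h_lam : c.S_lam) (h_ub : c.S_ub) : c.S_lq := by
  intro π π' h β hβ
  have hBK : β ∈ c.BK π π' := ⟨(c.mem_V_iff.1 hβ).1,
    LqAux.fix c (inf_le_right.trans (Submodule.orthogonal_le inf_le_left)) hβ⟩
  refine ⟨hBK, fun K₀ hK hKC hKG ε hε => ?_⟩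
  obtain ⟨K, K0, hub⟩ := h_ub π _ π' (c.Th_ss π) h
  obtain ⟨𝒦, h1, h2⟩ := c.exists_bad (c.Th_ss π) h
  have hA : ∀ w ∈ c.CS (c.ss π) π', 1 * ‖w‖ ^ 2 ≤ ⟪w, Afree d w⟫ := fun w _ =>
    (one_mul _).trans_le (Afree_bounds w).2.2
  have hG := contDiff_gauss (c.CS (c.ss π) π') (Afree d)
  obtain ⟨M, M0, hM⟩ := LqAux.bound fun α k => ‖opL _ ((-I) • c.θ (c.sE (eb α)
    (onb (c.CS (c.ss π) π') k))) β‖ ^ 2
  obtain ⟨δ, δ0, hδ⟩ : ∃ δ > 0, (Module.finrank ℝ (c.CS (c.ss π) π') : ℝ) ^ 2 *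
      ((K * M + 1) * δ) ≤ ε := by
    generalize (Module.finrank ℝ (c.CS (c.ss π) π') : ℝ) = n
    refine ⟨ε / ((n ^ 2 + 1) * (K * M + 1)), by positivity, ?_⟩
    rw [← mul_assoc, ← mul_div_assoc, div_le_iff₀ (by positivity)]
    nlinarith [mul_nonneg hε.le (mul_nonneg K0 M0)]
  obtain ⟨χ, c1, c2, c3, -, c4⟩ := exists_cut h1 hK (fun x hx => (h2 x (hKC hx)).1 (hKG hx))
    (w := fun x => gauss (c.CS (c.ss π) π') (Afree d) x ^ 2)
    (M := gnorm (c.CS (c.ss π) π') (Afree d) ^ 2) (fun x => ⟨sq_nonneg _, by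
      rw [GauAux.gauss_sq]
      exact mul_le_of_le_one_right (sq_nonneg _) (Real.exp_le_one_iff.2
        (neg_nonpos.2 ((sq_nonneg _).trans (Afree_bounds x).2.2)))⟩)
    (by simpa using integrable_gauss_sq one_pos hA 0) δ0
  have hχ := c1.mono fun x hx hx' => (h2 x hx).2 hx'
  have hk := fun k => (hχ.fderiv (onb_mem (c.CS (c.ss π) π') k)).mul' hG
  have c5 : ∀ k, ∫ y : c.CS (c.ss π) π', (gauss (c.CS (c.ss π) π') (Afree d) y *
      fderiv ℝ χ y (onb (c.CS (c.ss π) π') k)) ^ 2 ≤ δ := fun k => by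
    refine le_trans (Finset.single_le_sum (f := fun k => ∫ y : c.CS (c.ss π) π',
      (gauss (c.CS (c.ss π) π') (Afree d) y * fderiv ℝ χ y (onb (c.CS (c.ss π) π') k)) ^ 2)
      (fun _ _ => integral_nonneg fun _ => sq_nonneg _) (Finset.mem_univ k)) ?_
    rw [← integral_finsetSum _ fun k _ => LqAux.int_sq (hk k)]
    simpa only [LqAux.gU_sq, Finset.mul_sum, mul_pow] using c4
  refine ⟨_, hχ.mul' hG, fun x => mul_nonneg (gauss_nonneg _ _ _) (c2 x).1,
    fun y hy => by rw [c3 y hy, mul_one], ?_⟩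
  filter_upwards [eventually_gt_atTop 0, eventually_all.2 fun α => eventually_all.2 fun k =>
    (hub 1 abs_one.le).2 _ (hk k) _ (h_lm4.theta_BK π π' h _ (c.sE_mem (eb α)
      (sub_mono inf_le_right (onb_mem (c.CS (c.ss π) π') k))) (-I) β hBK) δ δ0] with g hg H ψ hψ α
  have hD := (c.mem_D0.1 hψ).1
  have n0 := nrm_nonneg (sub 9 (c.ss π)) ψ
  have n1 : nrm (sub 9 (c.ss π)) ψ ≤ c.NE (c.ss π) g 1 ψ :=
    le_add_of_nonneg_right (en_nonneg _ _ _ _)
  rw [LqAux.cancel c h_lm4 h_lam h hβ hχ hg hD.1]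
  refine (pow_le_pow_left₀ (norm_nonneg _) (norm_sum_le _ _) 2).trans
    (sq_sum_le_card_mul_sum_sq.trans ((mul_le_mul_of_nonneg_left (Finset.sum_le_card_nsmul _ _
      ((K * M + 1) * δ * c.NE (c.ss π) g 1 ψ) fun k _ => (H α k ψ hD).trans ?_)
        (Nat.cast_nonneg _)).trans ?_))
  · have a := mul_le_mul (mul_le_mul (mul_le_mul_of_nonneg_left (c5 k) K0) (hM α k) (sq_nonneg _)
      (by positivity)) n1 n0 (by positivity)
    linarith
  · rw [Finset.card_fin, nsmul_eq_mul]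
    linarith [mul_le_mul_of_nonneg_right hδ (n0.trans n1)]

end Ctx

end Vale.Agent.P353
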