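import Vale.Agent.P353.Stmts

/-! The main induction. -/

noncomputable section

open MeasureTheory Filter Topology Complex Matrix
open scoped ContDiff RealInnerProductSpace

namespace Vale.Agent.P353

namespace Ctx

variable {N d : ℕ} {F : Type} [NormedAddCommGroup F] [InnerProductSpace ℂ F]
  [FiniteDimensional ℂ F] (c : Ctx N d F)

theorem p_main (h_const : c.S_const) (h_fd : c.S_fd) (h_du : c.S_du) (h_dl : c.S_dl)
    (h_lo : c.S_lo) (h_up : c.S_up) : c.S_main := by
  intro π
  induction π using setoid_induction with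
  | h π ih =>
  obtain ⟨R, hR⟩ := exists_isRep π
  have hpos : 0 < R.card := Finset.card_pos.2 ⟨π, hR.self_mem⟩
  have ha : ∀ g > 0, Module.finrank ℂ (c.V π g 1) = R.card := by
    intro g hg
    obtain ⟨g', ⟨h1, h2⟩, h3⟩ :=
      (((h_du π R hR).and (h_dl π R hR)).and (eventually_gt_atTop 0)).exists
    rw [h_const π g 1 g' g' hg one_pos h3 h3]
    exact le_antisymm h1 h2
  have hfd := (h_fd π).1
  have hup := h_up π R hR ih hfd R.card ha
  set n := Module.finrank ℂ (c.V π 1 0) with hn
  let b := stdOrthonormalBasis ℂ (c.V π 1 0)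
  have hb : Orthonormal ℂ fun i => (b i : LL (sub 9 (c.ss π)) F) :=
    b.orthonormal.comp_linearIsometry (c.V π 1 0).subtypeₗᵢ
  obtain ⟨g, h1, h2⟩ :=
    ((h_lo π R hR ih n _ hb fun i => (b i).2).and (eventually_gt_atTop 0)).exists
  rw [ha g h2] at h1
  omega

end Ctx

end Vale.Agent.P353
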