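import Vale.Agent.P353.Cov1

/-! The canonical implementer of the adjoint action, without a context. -/

noncomputable section

open Complex Matrix
open scoped RealInnerProductSpace

namespace Vale.Agent.P353.MkCtxAux

variable {N d : ℕ}

/-- an orthonormal basis of the traceless Hermitian matrices -/
structure TB (T : Fin d → Matrix (Fin N) (Fin N) ℂ) : Prop where
  herm : ∀ A, (T A).IsHermitian
  trace0 : ∀ A, (T A).trace = 0
  orth : ∀ A B, (T A * T B).trace = if A = B then 1 else 0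
  span : ∀ M : Matrix (Fin N) (Fin N) ℂ, M.IsHermitian → M.trace = 0 → matT T (coT T M) = M

theorem co_mat {T : Fin d → Matrix (Fin N) (Fin N) ℂ}
    (orth : ∀ A B, (T A * T B).trace = if A = B then 1 else 0) (x : Lg d) :
    coT T (matT T x) = x := by
  ext A
  change (trace (T A * ∑ B, x B • T B)).re = x A
  simp [Matrix.mul_sum, trace_sum, orth, apply_ite]

namespace TB

variable {T : Fin d → Matrix (Fin N) (Fin N) ℂ} (c : TB T)
include c

theorem mat_herm (x : Lg d) : (matT T x).IsHermitian := by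
  change (∑ A, x A • T A).IsHermitian
  rw [Matrix.IsHermitian, conjTranspose_sum]
  exact Finset.sum_congr rfl fun A _ => by rw [conjTranspose_smul, (c.herm A).eq, star_trivial]

theorem mat_trace (x : Lg d) : (matT T x).trace = 0 := by
  change (∑ A, x A • T A).trace = 0
  simp [trace_sum, c.trace0]

theorem mat_injective : Function.Injective (matT T) :=
  Function.LeftInverse.injective (co_mat c.orth)

theorem inner_eq_trace (x y : Lg d) : ((⟪x, y⟫ : ℝ) : ℂ) = (matT T x * matT T y).trace := by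
  change _ = ((∑ A, x A • T A) * ∑ B, y B • T B).trace
  simp [Matrix.mul_sum, Matrix.sum_mul, trace_sum, c.orth, PiLp.inner_apply, mul_comm]

theorem mat_ad (x y : Lg d) :
    matT T (adT T x y) = (-I) • (matT T x * matT T y - matT T y * matT T x) := by
  refine c.span _ ?_ ?_
  · rw [Matrix.IsHermitian, conjTranspose_smul, conjTranspose_sub, conjTranspose_mul,
      conjTranspose_mul, (c.mat_herm x).eq, (c.mat_herm y).eq, star_neg, star_def, conj_I,
      neg_smul, ← smul_neg, neg_sub]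
  · rw [trace_smul, trace_sub, trace_mul_comm, sub_self, smul_zero]

theorem ad_skew (x : Lg d) : IsSkew (adT T x) := fun u v => by
  rw [← ofReal_inj, ofReal_neg, c.inner_eq_trace, c.inner_eq_trace, c.mat_ad, c.mat_ad]
  simp only [Matrix.smul_mul, Matrix.mul_smul, trace_smul, Matrix.sub_mul, Matrix.mul_sub,
    trace_sub, ← Matrix.mul_assoc, trace_mul_cycle (matT T u) (matT T v) (matT T x), smul_eq_mul]
  ring

theorem mat_Ad (u : UN N) (x : Lg d) : matT T (AdT T u x) =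
    (u : Matrix (Fin N) (Fin N) ℂ) * matT T x * star (u : Matrix (Fin N) (Fin N) ℂ) := by
  refine c.span _ (isHermitian_mul_mul_conjTranspose _ (c.mat_herm x)) ?_
  rw [trace_mul_cycle, UnitaryGroup.star_mul_self, Matrix.one_mul, c.mat_trace]

theorem Ad_mul (u u' : UN N) : AdT T (u * u') = AdT T u * AdT T u' :=
  ContinuousLinearMap.ext fun z => c.mat_injective <| by
    rw [mul_apply_eq_comp, c.mat_Ad, c.mat_Ad, c.mat_Ad, Submonoid.coe_mul, star_mul]
    simp only [Matrix.mul_assoc]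

theorem Ad_one : AdT T 1 = 1 :=
  ContinuousLinearMap.ext fun z => c.mat_injective <| by
  rw [c.mat_Ad, OneMemClass.coe_one, star_one, Matrix.one_mul, Matrix.mul_one]
  rfl

theorem Ad_exp {y : Lg d} {t : ℝ} {u : UN N}
    (h : (u : Matrix (Fin N) (Fin N) ℂ) = NormedSpace.exp ((-I) • (matT T y + (t : ℂ) • 1))) :
    AdT T u = NormedSpace.exp (adT T y) :=
  ContinuousLinearMap.ext fun x => c.mat_injective <| by
    have hs : ((-I) • (matT T y + (t : ℂ) • 1))ᴴ = -((-I) • (matT T y + (t : ℂ) • 1)) := by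
      rw [conjTranspose_smul, conjTranspose_add, conjTranspose_smul, conjTranspose_one,
        (c.mat_herm y).eq, star_def, conj_ofReal, map_neg, conj_I, neg_smul (-I)]
    rw [c.mat_Ad, h, star_eq_conjTranspose, ← Matrix.exp_conjTranspose, hs]
    refine (Bas2Aux.exp_conj_mat (matT T) (adT T y) _ (fun v => ?_) x).symm
    simp only [c.mat_ad, Matrix.smul_mul, Matrix.mul_smul, Matrix.add_mul, Matrix.mul_add,
      Matrix.one_mul, Matrix.mul_one, smul_sub, smul_add]
    abel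

theorem exists_log (u : UN N) : ∃ (y : Lg d) (t : ℝ),
    (u : Matrix (Fin N) (Fin N) ℂ) = NormedSpace.exp ((-I) • (matT T y + (t : ℂ) • 1)) := by
  obtain ⟨A, hA, hu, -⟩ := Bas2Aux.exists_log u
  have h1 : ((A.trace.re : ℝ) : ℂ) = A.trace := by
    rw [← conj_eq_iff_re, ← star_def, ← trace_conjTranspose, hA.eq]
  have h2 : matT T (coT T (A - ((A.trace.re / N : ℝ) : ℂ) • 1)) =
      A - ((A.trace.re / N : ℝ) : ℂ) • 1 := by
    refine c.span _ (hA.sub ?_) ?_
    · rw [Matrix.IsHermitian, conjTranspose_smul, conjTranspose_one, star_def, conj_ofReal]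
    · rcases Nat.eq_zero_or_pos N with rfl | hN
      · simp [trace]
      · have : (N : ℂ) ≠ 0 := Nat.cast_ne_zero.2 hN.ne'
        rw [trace_sub, trace_smul, trace_one, Fintype.card_fin, ofReal_div, h1, ofReal_natCast,
          smul_eq_mul, div_mul_cancel₀ _ this, sub_self]
  refine ⟨coT T (A - ((A.trace.re / N : ℝ) : ℂ) • 1), A.trace.re / N, ?_⟩
  rw [h2, sub_add_cancel]
  exact hu

end TB

variable {F : Type} [NormedAddCommGroup F] [InnerProductSpace ℂ F] [FiniteDimensional ℂ F]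
  {θ : Tn 16 d →L[ℝ] F →L[ℂ] F} {γ : Fin 9 → M16}

omit [FiniteDimensional ℂ F] in
theorem impl_unique (hi : Irred θ) {Ω : F} (hΩ : Ω ≠ 0) {R : Tn 16 d → Tn 16 d}
    {V V' : F →L[ℂ] F} (hV : ∀ y, V * θ y = θ (R y) * V) (hV' : ∀ y, V' * θ y = θ (R y) * V')
    (h : V Ω = V' Ω) : V = V' := by
  rcases hi (LinearMap.eqLocus (V : F →ₗ[ℂ] F) (V' : F →ₗ[ℂ] F)) (fun u a ha => by
    have h1 : V a = V' a := ha
    change (V * θ u) a = (V' * θ u) a
    rw [hV, hV', mul_apply_eq_comp, mul_apply_eq_comp, h1]) with h1 | h1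
  · have h2 : Ω ∈ LinearMap.eqLocus (V : F →ₗ[ℂ] F) (V' : F →ₗ[ℂ] F) := h
    rw [h1] at h2
    exact absurd h2 hΩ
  · ext a
    have h2 : a ∈ LinearMap.eqLocus (V : F →ₗ[ℂ] F) (V' : F →ₗ[ℂ] F) := h1 ▸ Submodule.mem_top
    exact h2

theorem J_sq (hγ : IsGam γ) :
    kr (Gm γ) (1 : Lg d →L[ℝ] Lg d) * kr (Gm γ) 1 = -1 := by
  rw [kr_mul, hγ.Gm_sq, mul_one, kr_neg_left, kr_one]

theorem J_skew (hγ : IsGam γ) : IsSkew (kr (Gm γ) (1 : Lg d →L[ℝ] Lg d)) :=
  Cov1Aux.skew_kr hγ.Gm_transpose fun _ _ => rfl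

theorem exp_fock (h : IsCAR θ) (hγ : IsGam γ) {Ω : F} (hΩ : vac θ (kr (Gm γ) 1) Ω = Ω)
    {a : Lg d →L[ℝ] Lg d} (ha : IsSkew a) : NormedSpace.exp (dG θ (kr 1 a)) Ω = Ω := by
  refine Cov1Aux.exp_fix ?_
  rw [← hΩ, ← mul_apply_eq_comp,
    h.dG_vac ⟨J_skew hγ, by rw [J_sq hγ, neg_one_mul]⟩ (Cov1Aux.skew_kr_one ha), kr_mul, trR_kr,
    mul_one, hγ.trace_Gm]
  · simp
  · rw [kr_mul, kr_mul, mul_one, one_mul, one_mul, mul_one]
  · rw [J_sq hγ, neg_neg, one_mul]

/-- the implementer of the adjoint action that fixes the vacuum -/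
theorem exists_U {T : Fin d → Matrix (Fin N) (Fin N) ℂ} (c : TB T) (h : IsCAR θ) (hi : Irred θ)
    (hγ : IsGam γ) {Ω : F} (h0 : Ω ≠ 0) (hΩ : vac θ (kr (Gm γ) 1) Ω = Ω) :
    ∃ V : UN N →* (F →L[ℂ] F), (∀ u a, ‖V u a‖ = ‖a‖) ∧
      (∀ u y, V u * θ y = θ (kr 1 (AdT T u) y) * V u) ∧ (∀ u, V u Ω = Ω) ∧
      ∀ (y : Lg d) (t : ℝ) (u : UN N),
        (u : Matrix (Fin N) (Fin N) ℂ) = NormedSpace.exp ((-I) • (matT T y + (t : ℂ) • 1)) →
          V u = NormedSpace.exp (dG θ (kr 1 (adT T y))) := by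
  have key : ∀ (y : Lg d) (t : ℝ) (u : UN N),
      (u : Matrix (Fin N) (Fin N) ℂ) = NormedSpace.exp ((-I) • (matT T y + (t : ℂ) • 1)) →
        ∀ w, NormedSpace.exp (dG θ (kr 1 (adT T y))) * θ w =
          θ (kr 1 (AdT T u) w) * NormedSpace.exp (dG θ (kr 1 (adT T y))) := by
    intro y t u hu w
    rw [h.exp_dG_theta (Cov1Aux.skew_kr_one (c.ad_skew y)), exp_kr_one, c.Ad_exp hu]
  choose y t hy using c.exists_log
  refine ⟨⟨⟨fun u => NormedSpace.exp (dG θ (kr 1 (adT T (y u)))), ?_⟩, fun u u' => ?_⟩,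
    fun u => h.norm_exp_dG (Cov1Aux.skew_kr_one (c.ad_skew _)), fun u => key _ _ u (hy u),
    fun u => exp_fock h hγ hΩ (c.ad_skew _), fun y' t' u hu =>
      impl_unique hi h0 (key _ _ u (hy u)) (key _ _ u hu)
        ((exp_fock h hγ hΩ (c.ad_skew _)).trans (exp_fock h hγ hΩ (c.ad_skew _)).symm)⟩
  · refine impl_unique hi h0 (key _ _ 1 (hy 1)) (fun w => ?_) (exp_fock h hγ hΩ (c.ad_skew _))
    rw [c.Ad_one, kr_one, one_mul, mul_one]
    rfl
  · refine impl_unique hi h0 (key _ _ _ (hy (u * u'))) (fun w => ?_) ?_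
    · have e := kr_mul (1 : M16) 1 (AdT T u) (AdT T u')
      rw [mul_one] at e
      rw [mul_assoc, key _ _ _ (hy u'), ← mul_assoc, key _ _ _ (hy u), mul_assoc, c.Ad_mul, ← e]
      rfl
    · rw [mul_apply_eq_comp, exp_fock h hγ hΩ (c.ad_skew _),
        exp_fock h hγ hΩ (c.ad_skew _), exp_fock h hγ hΩ (c.ad_skew _)]

end Vale.Agent.P353.MkCtxAux
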