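import Vale.Agent.P353.MkCtxA
import Vale.Agent.P353.MkCtxB

/-! Construction of the context from the data of the problem. -/

noncomputable section

open MeasureTheory Filter Topology Complex Matrix
open scoped ContDiff RealInnerProductSpace

namespace Vale.Agent.P353

/-- the data of the problem -/
structure Data (N d : ℕ) (F : Type) [NormedAddCommGroup F] [InnerProductSpace ℂ F]
    [FiniteDimensional ℂ F] (T : Fin d → Matrix (Fin N) (Fin N) ℂ) (f : Fin d → Fin d → Fin d → ℝ) (γ : Fin 9 → M16)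
    (θ : Fin 16 → Fin d → F →L[ℂ] F)
    (U : Matrix.specialUnitaryGroup (Fin N) ℂ →* (F ≃ₗᵢ[ℂ] F)) : Prop where
  herm : ∀ A, (T A).IsHermitian
  trace0 : ∀ A, (T A).trace = 0
  orth : ∀ A B, (T A * T B).trace = if A = B then 1 else 0
  span : ∀ M : Matrix (Fin N) (Fin N) ℂ, M.IsHermitian → M.trace = 0 →
    ∃ x : Fin d → ℝ, M = ∑ A, (x A : ℂ) • T A
  str : ∀ A B, T A * T B - T B * T A = ∑ C, (Complex.I * f A B C) • T C
  gsymm : ∀ i, (γ i).IsSymm
  ganti : ∀ i j, γ i * γ j + γ j * γ i = if i = j then (2 : ℝ) • (1 : M16) else 0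
  tsymm : ∀ α A, IsSelfAdjoint (θ α A)
  tanti : ∀ α β A B, θ α A * θ β B + θ β B * θ α A = if α = β ∧ A = B then 1 else 0
  ntriv : Nontrivial F
  irr : ∀ W : Submodule ℂ F, (∀ α A, ∀ a ∈ W, θ α A a ∈ W) → W = ⊥ ∨ W = ⊤
  impl : ∀ g α A a, U g (θ α A a) = ∑ B, (adMat T g B A : ℂ) • θ α B (U g a)

variable {N d : ℕ} {F : Type} [NormedAddCommGroup F] [InnerProductSpace ℂ F]
  [FiniteDimensional ℂ F] {T : Fin d → Matrix (Fin N) (Fin N) ℂ} {f : Fin d → Fin d → Fin d → ℝ}
  {γ : Fin 9 → M16} {θ : Fin 16 → Fin d → F →L[ℂ] F}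
  {U : Matrix.specialUnitaryGroup (Fin N) ℂ →* (F ≃ₗᵢ[ℂ] F)}

namespace MkCtxAux

/-- the generators as a linear map -/
def thetaL (θ : Fin 16 → Fin d → F →L[ℂ] F) : Tn 16 d →L[ℝ] F →L[ℂ] F :=
  LinearMap.toContinuousLinearMap
    { toFun := fun y => ∑ p, y p • θ p.1 p.2
      map_add' := fun x y => by simp [add_smul, Finset.sum_add_distrib]
      map_smul' := fun c x => by simp [Finset.smul_sum, smul_smul] }

omit [FiniteDimensional ℂ F] in
theorem thetaL_apply (y : Tn 16 d) : thetaL θ y = ∑ p, ((y p : ℝ) : ℂ) • θ p.1 p.2 := rfl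

omit [FiniteDimensional ℂ F] in
theorem thetaL_single (α : Fin 16) (A : Fin d) :
    thetaL θ (EuclideanSpace.single (α, A) 1) = θ α A := by
  rw [thetaL_apply, Finset.sum_eq_single (α, A)]
  · simp
  · intro p _ hp
    simp [hp]
  · simp

theorem tb (h : Data N d F T f γ θ U) : TB T := by
  refine ⟨h.herm, h.trace0, h.orth, fun M hM h0 => ?_⟩
  obtain ⟨x, hx⟩ := h.span M hM h0
  have e : M = matT T (WithLp.toLp 2 x) := hx
  rw [e, co_mat h.orth]

theorem gam (h : Data N d F T f γ θ U) : IsGam γ := by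
  refine ⟨h.gsymm, fun i => ?_, fun i j hij => ?_⟩
  · have h1 := h.ganti i i
    rw [if_pos rfl, ← two_smul ℝ] at h1
    exact smul_right_injective M16 two_ne_zero h1
  · have h1 := h.ganti i j
    rw [if_neg hij] at h1
    exact eq_neg_of_add_eq_zero_left h1

theorem car (h : Data N d F T f γ θ U) : IsCAR (thetaL θ) := by
  refine ⟨fun u a b => ?_, fun u v => ?_⟩
  · simp only [thetaL_apply, _root_.sum_apply, _root_.smul_apply, sum_inner,
      inner_sum, inner_smul_left, inner_smul_right, conj_ofReal]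
    exact Finset.sum_congr rfl fun p _ => congrArg _ ((h.tsymm p.1 p.2).isSymmetric a b)
  · have e : ∀ p q : Fin 16 × Fin d, θ p.1 p.2 * θ q.1 q.2 + θ q.1 q.2 * θ p.1 p.2 =
        if p = q then 1 else 0 := fun p q => by
      rw [h.tanti]
      simp only [Prod.ext_iff]
    rw [thetaL_apply, thetaL_apply, Finset.sum_mul_sum, Finset.sum_mul_sum, Finset.sum_comm (f :=
      fun q p => ((v q : ℝ) : ℂ) • θ q.1 q.2 * ((u p : ℝ) : ℂ) • θ p.1 p.2),
      ← Finset.sum_add_distrib, PiLp.inner_apply, ofReal_sum, Finset.sum_smul]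
    refine Finset.sum_congr rfl fun p _ => ?_
    rw [← Finset.sum_add_distrib]
    simp only [smul_mul_smul_comm, mul_comm ((v _ : ℝ) : ℂ), ← smul_add, e, smul_ite, smul_zero,
      Finset.sum_ite_eq, Finset.mem_univ, if_true]
    simp [mul_comm]

theorem irred (h : Data N d F T f γ θ U) : Irred (thetaL θ) := fun W hW =>
  h.irr W fun α A => thetaL_single (θ := θ) α A ▸ hW _

theorem implem (h : Data N d F T f γ θ U) (g : SU N) (u : UN N)
    (hu : (u : Matrix (Fin N) (Fin N) ℂ) = g) (y : Tn 16 d) :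
    ((U g).toContinuousLinearEquiv : F →L[ℂ] F) * thetaL θ y =
      thetaL θ (kr 1 (AdT T u) y) * ((U g).toContinuousLinearEquiv : F →L[ℂ] F) := by
  have e : ∀ p : Fin 16 × Fin d,
      kr 1 (AdT T u) y p = ∑ A, y (p.1, A) * adMat T g p.2 A := fun p => by
    change cmp p.1 (kr 1 (AdT T u) y) p.2 = _
    rw [cmp_kr_one]
    change (trace (T p.2 * ((u : Matrix (Fin N) (Fin N) ℂ) * (∑ A, y (p.1, A) • T A) *
      star (u : Matrix (Fin N) (Fin N) ℂ)))).re = _
    simp [hu, adMat, Matrix.mul_sum, Matrix.sum_mul, trace_sum]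
  ext a
  change U g (thetaL θ y a) = thetaL θ (kr 1 (AdT T u) y) (U g a)
  simp only [thetaL_apply, _root_.sum_apply, _root_.smul_apply, map_sum, map_smul,
    h.impl, e, Fintype.sum_prod_type, ofReal_sum, ofReal_mul, Finset.sum_smul, Finset.smul_sum,
    smul_smul]
  exact Finset.sum_congr rfl fun α _ => Finset.sum_comm

end MkCtxAux

open MkCtxAux in
theorem Data.exists_ctx (hN : 1 ≤ N) (h : Data N d F T f γ θ U) : ∃ c : Ctx N d F,
    c.T = T ∧ c.γ = γ ∧ (∀ α A, c.θ (EuclideanSpace.single (α, A) 1) = θ α A) ∧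
      ∀ (g : Matrix.specialUnitaryGroup (Fin N) ℂ) (u : UN N),
        (u : Matrix (Fin N) (Fin N) ℂ) = g → ∀ a, c.U u a = U g a := by
  obtain ⟨n, rfl⟩ : ∃ n, N = n + 1 := ⟨N - 1, by omega⟩
  have := h.ntriv
  obtain ⟨Ω, h1, h2⟩ := (car h).rank_one (irred h) (J_skew (gam h)) (J_sq (gam h))
  have h0 : Ω ≠ 0 := by
    rintro rfl
    simp at h1
  have h11 : inner ℂ Ω Ω = 1 := by
    rw [inner_self_eq_norm_sq_to_K, h1]
    simp
  have hΩ : vac (thetaL θ) (kr (Gm γ) 1) Ω = Ω := by rw [h2, h11, one_smul]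
  obtain ⟨V, v1, v2, v3, v4⟩ := exists_U (tb h) (car h) (irred h) (gam h) h0 hΩ
  have hU : ∀ g, U g Ω = inner ℂ Ω (U g Ω) • Ω := by
    intro g
    have hm : ∀ u : UN (n + 1), kr (1 : M16) (AdT T u) * kr 1 (AdT T u⁻¹) = 1 := fun u => by
      rw [kr_mul, mul_one, ← (tb h).Ad_mul, mul_inv_cancel, (tb h).Ad_one, kr_one]
    have h3 := vac_conj (hm ⟨g, g.2.1⟩) (by simpa using hm (⟨g, g.2.1⟩ : UN (n + 1))⁻¹)
      (U g).norm_map (implem h g ⟨g, g.2.1⟩ rfl) (kr (Gm γ) 1)
    rw [kr_mul, kr_mul, mul_one, mul_one, one_mul, ← (tb h).Ad_mul, mul_inv_cancel,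
      (tb h).Ad_one] at h3
    have h4 := congrArg (fun a : F →L[ℂ] F => a Ω) h3
    simp only [mul_apply_eq_comp, hΩ, h2] at h4
    exact h4
  let χ : SU (n + 1) →* ℂ :=
    { toFun := fun g => inner ℂ Ω (U g Ω)
      map_one' := by rw [map_one]; exact h11
      map_mul' := fun g g' => by
        rw [map_mul, LinearIsometryEquiv.coe_mul, Function.comp_apply, hU g', map_smul,
          inner_smul_right, inner_smul_right, h11, mul_one, mul_comm] }
  refine ⟨⟨T, γ, thetaL θ, V, h.herm, h.trace0, h.orth, (tb h).span, gam h, car h, irred h, this,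
    v1, v2, v4⟩, rfl, rfl, thetaL_single, fun g u hu a => ?_⟩
  have h3 : U g Ω = Ω := by
    have h4 : inner ℂ Ω (U g Ω) = 1 := char_trivial χ g
    rw [hU g, h4, one_smul]
  exact DFunLike.congr_fun
    (impl_unique (irred h) h0 (v2 u) (implem h g u hu) ((v3 u).trans h3.symm)) a

end Vale.Agent.P353
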