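import Vale.Agent.P353.Bas3a
import Vale.Agent.P353.Bas2Aux

/-! Every character of the special unitary group is trivial. -/

noncomputable section

open Complex Matrix

namespace Vale.Agent.P353.MkCtxAux

variable {n : ℕ}

/-- special unitary group -/
abbrev SU (N : ℕ) : Type := Matrix.specialUnitaryGroup (Fin N) ℂ

theorem char_conj (χ : SU (n + 1) →* ℂ) (w : UN (n + 1)) {g g' : SU (n + 1)}
    (h : (w : Matrix (Fin (n + 1)) (Fin (n + 1)) ℂ) * g = g' * w) : χ g' = χ g := by
  obtain ⟨z, hz⟩ := IsAlgClosed.exists_pow_nat_eq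
    (star (w : Matrix (Fin (n + 1)) (Fin (n + 1)) ℂ).det) n.succ_pos
  have hd := det_of_mem_unitary w.2
  have h1 : star z * z = 1 := by
    have h2 : ‖z‖ ^ (n + 1) = 1 := by
      rw [← norm_pow, hz, norm_star]
      exact CStarRing.norm_of_mem_unitary hd
    rw [star_def, conj_mul', (pow_eq_one_iff_of_nonneg (norm_nonneg z) n.succ_ne_zero).mp h2]
    simp
  let w' : SU (n + 1) := ⟨z • (w : Matrix (Fin (n + 1)) (Fin (n + 1)) ℂ), by
    rw [mem_specialUnitaryGroup_iff, mem_unitaryGroup_iff', star_smul, smul_mul_smul_comm, h1,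
      UnitaryGroup.star_mul_self, one_smul, det_smul, Fintype.card_fin, hz]
    exact ⟨rfl, hd.1⟩⟩
  have h3 : w' * g = g' * w' := Subtype.ext (by
    change z • (w : Matrix (Fin (n + 1)) (Fin (n + 1)) ℂ) * g = g' * z • w
    rw [Matrix.smul_mul, Matrix.mul_smul, h])
  have h4 := congrArg χ h3
  rw [map_mul, map_mul, mul_comm] at h4
  exact (mul_right_cancel₀ ((Group.isUnit w').map χ).ne_zero h4).symm

/-- diagonal elements of the special unitary group -/
def Dg (t : Fin (n + 1) → ℝ) : SU (n + 1) :=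
  ⟨diagonal fun k => cexp (((t k - (∑ j, t j) / (n + 1) : ℝ) : ℂ) * I), by
    rw [mem_specialUnitaryGroup_iff, mem_unitaryGroup_iff', star_eq_conjTranspose,
      diagonal_conjTranspose, diagonal_mul_diagonal, det_diagonal, ← Complex.exp_sum,
      ← Finset.sum_mul, ← ofReal_sum, Finset.sum_sub_distrib, Finset.sum_const, Finset.card_univ,
      Fintype.card_fin, nsmul_eq_mul, Nat.cast_succ, mul_div_cancel₀ _ (by positivity), sub_self]
    refine ⟨?_, by simp⟩
    rw [← diagonal_one]
    refine congrArg diagonal (funext fun k => ?_)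
    rw [Pi.star_apply, star_def, conj_mul', norm_exp_ofReal_mul_I]
    simp⟩

theorem Dg_add (s t : Fin (n + 1) → ℝ) : Dg (s + t) = Dg s * Dg t := Subtype.ext (by
  change diagonal _ = diagonal _ * diagonal _
  rw [diagonal_mul_diagonal]
  refine congrArg diagonal (funext fun k => ?_)
  rw [← Complex.exp_add]
  simp only [Pi.add_apply, Finset.sum_add_distrib]
  push_cast
  ring_nf)

theorem Dg_const (r : ℝ) : Dg (fun _ : Fin (n + 1) => r) = 1 := Subtype.ext (by
  change diagonal _ = 1
  rw [← diagonal_one]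
  refine congrArg diagonal (funext fun k => ?_)
  rw [Finset.sum_const, Finset.card_univ, Fintype.card_fin, nsmul_eq_mul, Nat.cast_succ,
    mul_div_cancel_left₀ _ (by positivity), sub_self]
  simp)

theorem char_perm (χ : SU (n + 1) →* ℂ) (t : Fin (n + 1) → ℝ) (σ : Equiv.Perm (Fin (n + 1))) :
    χ (Dg t) = χ (Dg fun k => t (σ k)) := by
  refine char_conj χ (permU σ) ?_
  ext a b
  simp only [Dg]
  rw [mul_diagonal, diagonal_mul, permU_apply, Equiv.sum_comp σ t]
  split_ifs with h
  · rw [h, mul_comm]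
  · rw [zero_mul, mul_zero]

theorem char_sum (χ : SU (n + 1) →* ℂ) {ι : Type} (s : Finset ι) (t : ι → Fin (n + 1) → ℝ) :
    χ (Dg (∑ j ∈ s, t j)) = ∏ j ∈ s, χ (Dg (t j)) := by
  classical
  induction s using Finset.induction_on with
  | empty =>
    rw [Finset.sum_empty, Finset.prod_empty]
    exact (congrArg χ (Dg_const 0)).trans (map_one χ)
  | insert i s hi ih => rw [Finset.sum_insert hi, Finset.prod_insert hi, Dg_add, map_mul, ih]

theorem char_Dg (χ : SU (n + 1) →* ℂ) (t : Fin (n + 1) → ℝ) : χ (Dg t) = 1 := by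
  have h1 : t = ∑ _j : Fin (n + 1), fun k => t k / (n + 1) := by
    funext k
    rw [Finset.sum_apply, Finset.sum_const, Finset.card_univ, Fintype.card_fin, nsmul_eq_mul,
      Nat.cast_succ, mul_div_cancel₀ _ (by positivity)]
  have h2 : (∑ j : Fin (n + 1), fun k => t (Equiv.addRight j k) / (n + 1)) =
      fun _ => ∑ j, t j / (n + 1) := by
    funext k
    rw [Finset.sum_apply]
    exact Equiv.sum_comp (Equiv.addLeft k) fun j => t j / (n + 1)
  rw [h1, char_sum, Finset.prod_congr rfl fun j _ =>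
    char_perm χ (fun k => t k / (n + 1)) (Equiv.addRight j), ← char_sum, h2, Dg_const, map_one]

theorem char_trivial (χ : SU (n + 1) →* ℂ) (g : SU (n + 1)) : χ g = 1 := by
  obtain ⟨A, hA, hg, -⟩ := Bas2Aux.exists_log (n := Fin (n + 1)) ⟨g, g.2.1⟩
  have hW := hA.spectral_theorem
  rw [Unitary.conjStarAlgAut_apply] at hW
  set W := hA.eigenvectorUnitary
  set l := hA.eigenvalues
  have hinv : (W : Matrix (Fin (n + 1)) (Fin (n + 1)) ℂ)⁻¹ =
      star (W : Matrix (Fin (n + 1)) (Fin (n + 1)) ℂ) := inv_eq_left_inv W.2.1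
  have hu : IsUnit (W : Matrix (Fin (n + 1)) (Fin (n + 1)) ℂ) := (Unitary.toUnits W).isUnit
  have h1 : (g : Matrix (Fin (n + 1)) (Fin (n + 1)) ℂ) =
      W * diagonal (fun k => cexp (((-l k : ℝ) : ℂ) * I)) *
        star (W : Matrix (Fin (n + 1)) (Fin (n + 1)) ℂ) := by
    refine hg.trans ?_
    rw [hW, ← Matrix.smul_mul, ← Matrix.mul_smul, ← hinv,
      Matrix.exp_conj _ _ hu, ← diagonal_smul, Matrix.exp_diagonal]
    refine congrArg (fun v => (W : Matrix (Fin (n + 1)) (Fin (n + 1)) ℂ) * diagonal v * _)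
      (funext fun k => ?_)
    rw [Pi.coe_exp, Complex.exp_eq_exp_ℂ]
    refine congrArg _ ?_
    simp [mul_comm]
  have h2 : cexp (((-∑ k, l k : ℝ) : ℂ) * I) = 1 := by
    have h3 := (mem_specialUnitaryGroup_iff.mp g.2).2
    rw [h1, det_mul_comm, ← Matrix.mul_assoc,
      UnitaryGroup.star_mul_self, Matrix.one_mul, det_diagonal, ← Complex.exp_sum,
      ← Finset.sum_mul, ← ofReal_sum, Finset.sum_neg_distrib] at h3
    exact h3
  have h4 : (Dg fun k => -l k + if k = 0 then ∑ j, l j else 0 : SU (n + 1)) =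
      diagonal (fun k => cexp (((-l k : ℝ) : ℂ) * I)) := by
    change diagonal _ = _
    refine congrArg diagonal (funext fun k => ?_)
    rw [Finset.sum_add_distrib, Finset.sum_ite_eq', if_pos (Finset.mem_univ _),
      Finset.sum_neg_distrib, neg_add_cancel, zero_div, sub_zero]
    dsimp only
    split_ifs
    · rw [ofReal_add, add_mul, Complex.exp_add, ← neg_neg (∑ j, l j), ofReal_neg (-_), neg_mul,
        Complex.exp_neg, h2, inv_one, mul_one]
    · rw [add_zero]
  rw [← char_Dg χ fun k => -l k + if k = 0 then ∑ j, l j else 0]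
  refine char_conj χ W ?_
  rw [h4, h1, Matrix.mul_assoc, UnitaryGroup.star_mul_self, Matrix.mul_one]

end Vale.Agent.P353.MkCtxAux
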