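import Vale.Agent.P353.Stmts
import Vale.Agent.P353.Psq

/-! Multiplication by smooth functions. -/

noncomputable section

open MeasureTheory Filter Topology Complex Matrix
open scoped ContDiff RealInnerProductSpace

namespace Vale.Agent.P353

namespace MulAux

section Gen

variable {E : Type} [NormedAddCommGroup E] [InnerProductSpace ℝ E] [FiniteDimensional ℝ E]
  [MeasurableSpace E] [BorelSpace E]

omit [FiniteDimensional ℝ E] in
theorem vol_bot : (volume : Measure (⊥ : Submodule ℝ E)) Set.univ = 1 := by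
  rw [← (stdOrthonormalBasis ℝ (⊥ : Submodule ℝ E)).volume_parallelepiped]
  congr 1
  exact (Set.Nonempty.eq_univ
    ⟨0, (mem_parallelepiped_iff _ _).2 ⟨0, ⟨le_rfl, zero_le_one⟩, by simp⟩⟩).symm

theorem drop {U U' V : Submodule ℝ E} (hU : U' = U) (hV : V = ⊥) (S : Set E) {δ : ℝ} (hδ : 0 ≤ δ)
    (Φ : E → E → ENNReal) :
    ∫⁻ X in {X : U | (X : E) ∈ S}, Φ X 0 =
      ∫⁻ X in {X : U' | (X : E) ∈ S}, ∫⁻ W in {W : V | ‖(W : E)‖ ≤ δ}, Φ X W := by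
  subst hU hV
  refine lintegral_congr fun X => ?_
  have h1 : ∀ W : (⊥ : Submodule ℝ E), (W : E) = 0 := fun W => (Submodule.mem_bot ℝ).1 W.2
  have h2 : {W : (⊥ : Submodule ℝ E) | ‖(W : E)‖ ≤ δ} = Set.univ :=
    Set.eq_univ_of_forall fun W => by
      show ‖(W : E)‖ ≤ δ
      rw [h1 W, norm_zero]
      exact hδ
  rw [h2]
  simp only [h1, Measure.restrict_univ, lintegral_const, vol_bot, mul_one]

variable {F : Type} [NormedAddCommGroup F] [InnerProductSpace ℂ F] [FiniteDimensional ℂ F]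

theorem integrable_ip {U : Submodule ℝ E} {φ ψ : E → F} (h : MemLp (fun x : U => φ x) 2 volume)
    (h' : MemLp (fun x : U => ψ x) 2 volume) :
    Integrable (fun x : U => inner ℂ (φ x) (ψ x)) := by
  refine (L2.integrable_inner (𝕜 := ℂ) (L2 U φ) (L2 U ψ)).congr ?_
  filter_upwards [coe_L2 h, coe_L2 h'] with x h1 h2
  rw [h1, h2]

end Gen

variable {N d : ℕ} {F : Type} [NormedAddCommGroup F] [InnerProductSpace ℂ F]
  [FiniteDimensional ℂ F] {c : Ctx N d F} {π π' : Setoid (Fin N)} {𝔞 : Submodule ℝ (Lg d)}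

theorem Ow_bot (v : Fin 9 → ℝ) (X : Tn 9 d) : X ∈ c.Ow ⊥ v := by
  have h1 : ∀ y, c.adw ⊥ y = 0 := fun y => by
    rw [Ctx.adw, Submodule.starProjection_bot, mul_zero]
  refine ⟨?_, ?_⟩
  · rw [Ctx.aw, h1, Submodule.starProjection_bot, neg_zero, zero_add, sub_zero]
    exact (isUnit_iff_det_ne_zero _).1 isUnit_one
  · simp only [Ctx.Dw, h1, kr_zero_right, Submodule.starProjection_bot, Finset.sum_const_zero,
      zero_add, sub_zero]
    exact (isUnit_iff_det_ne_zero _).1 isUnit_one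

theorem ub_self (h_ub0 : c.S_ub0) (hT : c.Th π 𝔞) (hπ : π' ≤ π) {K : Set (Tn 9 d)}
    (hK : IsCompact K) (h1 : K ⊆ c.CS 𝔞 π') (h2 : K ⊆ c.Gen π π') {a : ℝ} (ha : 0 < a) :
    ∃ δ > 0, ∃ M : ℝ, ∀ g, 1 ≤ g → ∀ b : Tn 9 d → ℝ,
      MemLp (fun x : sub 9 (c.ss π') => b x) 2 volume → ∀ h : Tn 9 d → ℝ, c.Dens π 𝔞 h →
      ∫⁻ X in {X : sub 9 𝔞 | (X : Tn 9 d) ∈ {X : Tn 9 d | (c.CS 𝔞 π').starProjection X ∈ K ∧
          ‖X - (c.CS 𝔞 π').starProjection X‖ ≤ δ}}, ENNReal.ofReal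
          (g ^ (5 / 2 * (Module.finrank ℝ (c.off π π') : ℝ)) *
            Real.exp (-(a * g * ‖(sub 9 (c.off π π')).starProjection X‖ ^ 2)) *
            |b ((sub 9 (c.ss π')).starProjection X)| * h X) ≤
      ENNReal.ofReal (M * √(∫ x : sub 9 (c.ss π'), b x ^ 2) * √(∫ x : sub 9 𝔞, h x ^ 2)) := by
  have hv : (Pi.single 0 1 : Fin 9 → ℝ) ⬝ᵥ Pi.single 0 1 = 1 := by simp
  obtain ⟨δ, hδ, M, hM⟩ := h_ub0 π 𝔞 π (Pi.single 0 1) π' ⟨hT, le_rfl, hv⟩ hπ K hK h1 h2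
    (fun X _ => by rw [c.off_self]; exact Ow_bot _ X) a ha
  refine ⟨δ, hδ, M, fun g hg b hb h hh => le_trans (le_of_eq ?_)
    (hM g hg 1 (by rw [sub_self, norm_zero]; exact hδ.le) (fun x hx => hx) b hb h hh)⟩
  have e1 : c.Sl 𝔞 π = sub 9 𝔞 := by rw [Ctx.Sl, inf_eq_left.2 hT.2]
  have e2 : Wsl (c.off π π) (Pi.single 0 1) = ⊥ := by rw [c.off_self, Wsl, sub_bot, bot_inf_eq]
  have e3 : (Module.finrank ℝ (c.off π π) : ℝ) = 0 := by
    rw [c.off_self, finrank_bot, Nat.cast_zero]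
  refine Eq.trans ?_ (drop e1 e2 {X : Tn 9 d | (c.CS 𝔞 π').starProjection X ∈ K ∧
    ‖X - (c.CS 𝔞 π').starProjection X‖ ≤ δ} hδ.le fun X W => ENNReal.ofReal
      (g ^ (5 / 2 * (Module.finrank ℝ (c.off π π') : ℝ) +
          2 * (Module.finrank ℝ (c.off π π) : ℝ)) *
        Real.exp (-(a * g * (‖(sub 9 (c.off π π')).starProjection X‖ ^ 2 + ‖W‖ ^ 2))) *
        |b ((sub 9 (c.ss π')).starProjection X)| * h ((1 : Tn 9 d →L[ℝ] Tn 9 d) (X + W))))
  simp only [e3, mul_zero, add_zero, norm_zero, one_apply_eq_self, ne_eq,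
    OfNat.ofNat_ne_zero, not_false_eq_true, zero_pow]

theorem om_bound (h_lm1 : c.S_lm1) (h_lm3a : c.S_lm3a) (h_orb : c.S_orb) (hπ : π' ≤ π)
    {K : Set (Tn 9 d)} (hK : IsCompact K) (h1 : K ⊆ c.CS 𝔞 π') (h2 : K ⊆ c.Gen π π') :
    ∃ a > 0, ∃ M : ℝ, ∀ y ∈ K, c.ng (c.off π π') 1 y ≤ M ∧
      ∀ W : Tn 9 d, 2 * a * ‖W‖ ^ 2 ≤ ⟪W, kr 1 (c.om (c.off π π') y) W⟫ := by
  obtain ⟨𝒱, -, h𝒱⟩ := h_orb.dir
  have hO : ∀ y ∈ K, ∃ v, y ∈ c.Ow (c.off π π') v := fun y hy => by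
    obtain ⟨v, -, hv⟩ := h𝒱 π π' hπ y (sub_mono inf_le_right (h1 hy)) (h2 hy)
    exact ⟨v, hv⟩
  have c1 : ContinuousOn (c.om (c.off π π')) K := fun y hy => by
    obtain ⟨v, hv⟩ := hO y hy
    exact (h_lm1.sm_om _ v y hv).continuousAt.continuousWithinAt
  have c2 : ContinuousOn (c.ng (c.off π π') 1) K := fun y hy => by
    obtain ⟨v, hv⟩ := hO y hy
    exact ((h_lm3a.ng_cont _ v).continuousAt ((h_lm1.isOpen _ v).mem_nhds hv)).continuousWithinAt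
  obtain ⟨k, hk, hk'⟩ := exists_lower_compact hK c1 ⊤ fun y hy u _ hu => by
    obtain ⟨v, hv⟩ := hO y hy
    exact (h_lm1.om_pd _ v y hv).2 u hu
  obtain ⟨M, hM⟩ := hK.exists_bound_of_continuousOn c2
  refine ⟨k / 2, half_pos hk, M, fun y hy => ⟨(le_abs_self _).trans (hM y hy), fun W => ?_⟩⟩
  rw [inner_eq_sum_cmp, norm_sq_eq_sum_cmp, Finset.mul_sum]
  refine Finset.sum_le_sum fun i _ => ?_
  rw [cmp_kr_one, mul_div_cancel₀ k two_ne_zero]
  exact hk' y hy _ Submodule.mem_top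

theorem dens {ψ : Tn 9 d → F} (h : ψ ∈ c.D π 𝔞) : c.Dens π 𝔞 fun x => ‖ψ x‖ := by
  refine ⟨h.1.1.continuous.norm, fun x => norm_nonneg _, fun u hu x hx => ?_, h.1.2.norm⟩
  have h1 := h.2 (c.Ad9 u, c.U u) ⟨u, hu, rfl⟩ x hx
  simp only at h1
  show ‖ψ (c.Ad9 u x)‖ = ‖ψ x‖
  rw [h1, c.Uiso]

theorem Om_mul (g : ℝ) (f η : Tn 9 d → ℝ) (b : Tn 9 d → F) (x : Tn 9 d) :
    c.Om π 𝔞 π' g (fun x => f x * η x) b x =
      (f ((c.CS 𝔞 π').starProjection x) : ℂ) • c.Om π 𝔞 π' g η b x := by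
  simp only [Ctx.Om]
  split_ifs
  · rw [smul_smul, ← Complex.ofReal_mul]
    congr 2
    ring
  · rw [smul_zero]

theorem Om_le (h_lm3a : c.S_lm3a) {K : Set (Tn 9 d)} {a M₁ M₂ g : ℝ} (hg : 0 < g)
    (hK : ∀ y ∈ K, c.ng (c.off π π') 1 y ≤ M₁ ∧
      ∀ W : Tn 9 d, 2 * a * ‖W‖ ^ 2 ≤ ⟪W, kr 1 (c.om (c.off π π') y) W⟫)
    {η : Tn 9 d → ℝ} (hη : ∀ y ∈ K, ‖η y‖ ≤ M₂) (b : Tn 9 d → F) {x : Tn 9 d}
    (hx : (c.CS 𝔞 π').starProjection x ∈ K) :
    ‖c.Om π 𝔞 π' g η b x‖ ≤ M₁ * M₂ * (g ^ (5 / 2 * (Module.finrank ℝ (c.off π π') : ℝ)) *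
      Real.exp (-(a * g * ‖(sub 9 (c.off π π')).starProjection x‖ ^ 2)) *
      ‖dil (sub 9 (c.ss π')) (ell g) b ((sub 9 (c.ss π')).starProjection x)‖) := by
  obtain ⟨k1, k2⟩ := hK _ hx
  have k3 := hη _ hx
  have k4 := h_lm3a.ng_nonneg (c.off π π') 1 ((c.CS 𝔞 π').starProjection x)
  have k5 : 0 ≤ M₁ := k4.trans k1
  have k6 : 0 ≤ M₂ := (norm_nonneg _).trans k3
  have k7 : 0 ≤ g ^ (5 / 2 * (Module.finrank ℝ (c.off π π') : ℝ)) := Real.rpow_nonneg hg.le _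
  simp only [Ctx.Om]
  split_ifs
  · rw [norm_smul, Complex.norm_real, h_lm3a.ng_scale _ _ g hg, norm_mul, norm_mul, norm_mul,
      Real.norm_of_nonneg k7, Real.norm_of_nonneg k4, Real.norm_of_nonneg (Real.exp_pos _).le]
    have k8 : Real.exp (-(g * ⟪(sub 9 (c.off π π')).starProjection x,
        kr 1 (c.om (c.off π π') ((c.CS 𝔞 π').starProjection x))
          ((sub 9 (c.off π π')).starProjection x)⟫) / 2) ≤
        Real.exp (-(a * g * ‖(sub 9 (c.off π π')).starProjection x‖ ^ 2)) := by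
      refine Real.exp_le_exp.2 ?_
      have := mul_le_mul_of_nonneg_left (k2 ((sub 9 (c.off π π')).starProjection x)) hg.le
      linarith
    have k9 := norm_vac_le (θ := c.θ) (c.Jw (c.off π π') ((c.CS 𝔞 π').starProjection x))
      (dil (sub 9 (c.ss π')) (ell g) b ((sub 9 (c.ss π')).starProjection x))
    calc _ ≤ g ^ (5 / 2 * (Module.finrank ℝ (c.off π π') : ℝ)) * M₁ *
          Real.exp (-(a * g * ‖(sub 9 (c.off π π')).starProjection x‖ ^ 2)) * M₂ *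
          ‖dil (sub 9 (c.ss π')) (ell g) b ((sub 9 (c.ss π')).starProjection x)‖ := by
          gcongr
          exact k9
      _ = _ := by ring
  · rw [norm_zero]
    positivity

theorem Om_ne {K : Set (Tn 9 d)} {g : ℝ} {η : Tn 9 d → ℝ}
    (hη : ∀ y ∈ c.CS 𝔞 π', y ∉ K → η y = 0) {b : Tn 9 d → F} {x : Tn 9 d}
    (hx : c.Om π 𝔞 π' g η b x ≠ 0) : (c.CS 𝔞 π').starProjection x ∈ K ∧
      ‖x - (c.CS 𝔞 π').starProjection x‖ ≤ g ^ (-(1 / 6 : ℝ)) := by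
  refine ⟨by_contra fun h => hx ?_, by_contra fun h => hx ?_⟩
  · simp only [Ctx.Om, hη _ (Submodule.starProjection_apply_mem _ x) h, mul_zero,
      Complex.ofReal_zero, zero_smul, ite_self]
  · simp only [Ctx.Om, if_neg h]

end MulAux

open MulAux

namespace Ctx

variable {N d : ℕ} {F : Type} [NormedAddCommGroup F] [InnerProductSpace ℂ F]
  [FiniteDimensional ℂ F] (c : Ctx N d F)

theorem p_mul (h_lm1 : c.S_lm1) (h_lm3a : c.S_lm3a) (h_orb : c.S_orb) (h_lam : c.S_lam)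
    (h_ub0 : c.S_ub0) : c.S_mul := by
  intro π 𝔞 π' hT hπ η hη β f hf ε hε
  have hη' := hη.mul' hf
  obtain ⟨hη1, K, hK, h2, h1, h0⟩ := id hη
  obtain ⟨a, ha, M₁, hM₁⟩ := om_bound h_lm1 h_lm3a h_orb hπ hK h1 h2
  obtain ⟨M₂, hM₂⟩ := hK.exists_bound_of_continuousOn hη1.continuous.continuousOn
  obtain ⟨δ, hδ, M, hM⟩ := ub_self h_ub0 hT hπ hK h1 h2 ha
  obtain ⟨R, hR⟩ := hK.isBounded.exists_norm_le
  obtain ⟨L, hL⟩ := (hf.of_le (m := 1) (by exact_mod_cast le_top)).locallyLipschitz.locallyLipschitzOn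
    (s := Metric.closedBall 0 (R + 1)) |>.exists_lipschitzOnWith_of_compact
      (isCompact_closedBall _ _)
  obtain ⟨C, hC⟩ : ∃ C : ℝ, C = L * |M₁ * M₂| * (|M| * √(nrm (sub 9 (c.ss π')) (rep _ β))) :=
    ⟨_, rfl⟩
  have t1 : Tendsto (fun g : ℝ => g ^ (-(1 / 6 : ℝ))) atTop (𝓝 0) :=
    tendsto_rpow_neg_atTop (by norm_num)
  have t2 : Tendsto (fun g : ℝ => (g ^ (-(1 / 6 : ℝ)) * C) ^ 2) atTop (𝓝 0) := by
    have := (t1.mul_const C).pow 2
    rwa [zero_mul, zero_pow two_ne_zero] at this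
  filter_upwards [eventually_ge_atTop 1, t1.eventually_le_const hδ,
    t1.eventually_le_const one_pos, t2.eventually_le_const hε] with g hg e1 e2 e3 ψ hψ
  have hg0 : 0 < g := one_pos.trans_le hg
  obtain ⟨t, ht⟩ : ∃ t, t = g ^ (-(1 / 6 : ℝ)) := ⟨_, rfl⟩
  rw [← ht] at e1 e2 e3
  have ht0 : 0 ≤ t := ht ▸ Real.rpow_nonneg hg0.le _
  have m1 := h_lam.memLp π 𝔞 π' hT hπ η hη g hg0 _ (memLp_rep β)
  have m2 := h_lam.memLp π 𝔞 π' hT hπ _ hη' g hg0 _ (memLp_rep β)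
  have m3 := memLp_dil (ell_pos hg0) (memLp_rep β)
  have hb := hM g hg (fun x => ‖dil (sub 9 (c.ss π')) (ell g) (rep _ β) x‖) m3.norm _ (dens hψ)
  have n1 : ∫ x : sub 9 (c.ss π'), ‖dil (sub 9 (c.ss π')) (ell g) (rep _ β) x‖ ^ 2 =
      nrm (sub 9 (c.ss π')) (rep _ β) := nrm_dil _ (ell_pos hg0) _
  have n2 : ∫ x : sub 9 𝔞, ‖ψ x‖ ^ 2 = nrm (sub 9 𝔞) ψ := rfl
  rw [n1, n2] at hb
  have hS : MeasurableSet {X : sub 9 𝔞 | (X : Tn 9 d) ∈ {X : Tn 9 d |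
      (c.CS 𝔞 π').starProjection X ∈ K ∧ ‖X - (c.CS 𝔞 π').starProjection X‖ ≤ δ}} := by
    refine IsClosed.measurableSet (IsClosed.preimage continuous_subtype_val ?_)
    exact (hK.isClosed.preimage (c.CS 𝔞 π').starProjection.continuous).inter
      (isClosed_le (continuous_id.sub (c.CS 𝔞 π').starProjection.continuous).norm continuous_const)
  have key : ‖c.Lam π 𝔞 π' g (fun x => (f x : ℂ) • ψ x) η β -
      c.Lam π 𝔞 π' g ψ (fun x => f x * η x) β‖ ≤ t * C * √(nrm (sub 9 𝔞) ψ) := by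
    rw [Lam, Lam, Lamf, Lamf, ip, ip, ← integral_sub
      (integrable_ip (ψ := fun x => (f x : ℂ) • ψ x) m1 (hψ.1.mulR hf).memLp)
      (integrable_ip m2 hψ.1.memLp)]
    have hA : 0 ≤ t * (L * |M₁ * M₂|) := by positivity
    rw [← ENNReal.ofReal_le_ofReal_iff (by rw [hC]; positivity), ofReal_norm]
    refine (enorm_integral_le_lintegral_enorm _).trans ?_
    have e4 : t * C * √(nrm (sub 9 𝔞) ψ) = t * (L * |M₁ * M₂|) *
        (|M| * √(nrm (sub 9 (c.ss π')) (rep _ β)) * √(nrm (sub 9 𝔞) ψ)) := by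
      rw [hC]; ring
    rw [e4, ENNReal.ofReal_mul hA]
    refine le_trans ?_ (mul_le_mul_right (hb.trans (ENNReal.ofReal_le_ofReal ?_)) _)
    · rw [← lintegral_const_mul' _ _ ENNReal.ofReal_ne_top, ← lintegral_indicator hS]
      refine lintegral_mono fun x => ?_
      rw [Om_mul, inner_smul_left, inner_smul_right, Complex.conj_ofReal, ← sub_mul]
      by_cases hx : c.Om π 𝔞 π' g η (rep _ β) x = 0
      · rw [hx, inner_zero_left, mul_zero, enorm_zero]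
        exact zero_le
      · obtain ⟨k1, k2⟩ := Om_ne h0 hx
        rw [← ht] at k2
        have k0 : x ∈ {X : sub 9 𝔞 | (X : Tn 9 d) ∈ {X : Tn 9 d |
            (c.CS 𝔞 π').starProjection X ∈ K ∧ ‖X - (c.CS 𝔞 π').starProjection X‖ ≤ δ}} :=
          ⟨k1, k2.trans e1⟩
        rw [Set.indicator_of_mem k0, ← ofReal_norm, ← ENNReal.ofReal_mul hA]
        refine ENNReal.ofReal_le_ofReal ?_
        have k3 := Om_le h_lm3a hg0 hM₁ hM₂ (rep _ β) k1
        have k4 : ‖(f x : ℂ) - f ((c.CS 𝔞 π').starProjection x)‖ ≤ L * t := by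
          have k5 := hR _ k1
          have k6 : ‖(x : Tn 9 d)‖ ≤ R + 1 := by
            have := norm_add_le ((x : Tn 9 d) - (c.CS 𝔞 π').starProjection x)
              ((c.CS 𝔞 π').starProjection x)
            rw [sub_add_cancel] at this
            linarith
          have k7 := hL.norm_sub_le (mem_closedBall_zero_iff.2 k6)
            (mem_closedBall_zero_iff.2 (k5.trans (le_add_of_nonneg_right zero_le_one)))
          rw [← Complex.ofReal_sub, Complex.norm_real]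
          exact k7.trans (mul_le_mul_of_nonneg_left k2 L.2)
        have k8 : 0 ≤ g ^ (5 / 2 * (Module.finrank ℝ (c.off π π') : ℝ)) := Real.rpow_nonneg hg0.le _
        rw [norm_mul, abs_norm]
        calc _ ≤ L * t * (|M₁ * M₂| * (g ^ (5 / 2 * (Module.finrank ℝ (c.off π π') : ℝ)) *
              Real.exp (-(a * g * ‖(sub 9 (c.off π π')).starProjection x‖ ^ 2)) *
              ‖dil (sub 9 (c.ss π')) (ell g) (rep _ β) ((sub 9 (c.ss π')).starProjection x)‖) *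
              ‖ψ x‖) := by
              refine mul_le_mul k4 ((norm_inner_le_norm _ _).trans ?_) (norm_nonneg _)
                (by positivity)
              refine mul_le_mul_of_nonneg_right (k3.trans ?_) (norm_nonneg _)
              exact mul_le_mul_of_nonneg_right (le_abs_self _) (by positivity)
          _ = _ := by ring
    · gcongr
      exact le_abs_self M
  calc _ ≤ (t * C * √(nrm (sub 9 𝔞) ψ)) ^ 2 := pow_le_pow_left₀ (norm_nonneg _) key 2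
    _ = (t * C) ^ 2 * nrm (sub 9 𝔞) ψ := by rw [mul_pow, Real.sq_sqrt (nrm_nonneg _ _)]
    _ ≤ _ := mul_le_mul_of_nonneg_right e3 (nrm_nonneg _ _)

end Ctx

end Vale.Agent.P353
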