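import Vale.Agent.P353.Bas2

/-! The cubic term. -/

noncomputable section

open MeasureTheory Filter Topology Complex Matrix
open scoped ContDiff RealInnerProductSpace

namespace Vale.Agent.P353

namespace My0Aux

theorem exists_proj {E : Type} [NormedAddCommGroup E] [InnerProductSpace ℝ E] [CompleteSpace E]
    {K : Set E} (h0 : K.Nonempty) (h1 : IsClosed K) (h2 : Convex ℝ K) :
    ∃ P : E → E, ∀ y, P y ∈ K ∧ ∀ w ∈ K, ⟪y - P y, w - P y⟫ ≤ 0 := by
  choose P h3 h4 using exists_norm_eq_iInf_of_complete_convex h0 h1.isComplete h2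
  exact ⟨P, fun y => ⟨h3 y, (norm_eq_iInf_iff_real_inner_le_zero h2 (h3 y)).1 (h4 y)⟩⟩

theorem lip {E : Type} [NormedAddCommGroup E] [InnerProductSpace ℝ E] {y y' v v' : E}
    (h : ⟪y - v, v' - v⟫ ≤ 0) (h' : ⟪y' - v', v - v'⟫ ≤ 0) : ‖v - v'‖ ≤ ‖y - y'‖ := by
  have e : v - v' = y - y' - (y - v) + (y' - v') := by abel
  have h1 : ‖v - v'‖ * ‖v - v'‖ ≤ ‖y - y'‖ * ‖v - v'‖ := by
    rw [← neg_sub v v', inner_neg_right] at h
    have h2 := real_inner_le_norm (y - y') (v - v')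
    have h3 : ⟪v - v', v - v'⟫ = ⟪y - y' - (y - v) + (y' - v'), v - v'⟫ := by rw [← e]
    rw [inner_add_left, inner_sub_left (y - y'), real_inner_self_eq_norm_mul_norm] at h3
    linarith
  rcases (norm_nonneg (v - v')).eq_or_lt with h0 | h0
  · rw [← h0]
    exact norm_nonneg _
  · exact le_of_mul_le_mul_right h1 h0

variable {N : ℕ}

/-- the permutohedron inequalities -/
def Ok (k : Fin N → ℝ) : Prop :=
  ∀ S : Finset (Fin N), ∑ a ∈ S, k a ≤ S.card * ((N : ℝ) - S.card) / 2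

theorem ok_mulVec {k : Fin N → ℝ} (hk : Ok k) {D : Matrix (Fin N) (Fin N) ℝ}
    (hD : D ∈ doublyStochastic ℝ (Fin N)) : Ok (D *ᵥ k) := by
  obtain ⟨w, h0, h1, rfl⟩ := exists_eq_sum_perm_of_mem_doublyStochastic hD
  intro S
  simp only [Matrix.sum_mulVec, Matrix.smul_mulVec, permMatrix_mulVec, Finset.sum_apply,
    Pi.smul_apply, smul_eq_mul, Function.comp_apply]
  rw [Finset.sum_comm, ← one_mul (_ / 2), ← h1, Finset.sum_mul]
  refine Finset.sum_le_sum fun σ _ => ?_
  have := hk (S.map σ.toEmbedding)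
  rw [Finset.sum_map, Finset.card_map] at this
  rw [← Finset.mul_sum]
  exact mul_le_mul_of_nonneg_left this (h0 σ)

theorem ok_move {k : Fin N → ℝ} (hk : Ok k) {a b : Fin N} (h : k a - k b ≤ 1) :
    Ok fun i => k i + (1 - (k a - k b)) / 2 *
      ((if i = a then 1 else 0) - if i = b then 1 else 0) := by
  intro S
  have h0 := hk S
  rw [Finset.sum_add_distrib, ← Finset.mul_sum, Finset.sum_sub_distrib, Finset.sum_ite_eq',
    Finset.sum_ite_eq']
  split_ifs with ha hb
  · linarith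
  · have h1 := hk (S.erase a)
    have h2 := hk (insert b S)
    have h3 := Finset.add_sum_erase S k ha
    have h4 : ((S.erase a).card : ℝ) = S.card - 1 := by
      rw [← Finset.card_erase_add_one ha]
      push_cast
      ring
    rw [Finset.sum_insert hb, Finset.card_insert_of_notMem hb, Nat.cast_succ] at h2
    rw [h4] at h1
    linarith
  · linarith
  · linarith

theorem ok_abs {k : Fin N → ℝ} (hk : Ok k) (h0 : ∑ a, k a = 0) (a : Fin N) : |k a| ≤ N := by
  have h1 := hk {a}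
  have h2 := hk (Finset.univ.erase a)
  have h3 := Finset.add_sum_erase _ k (Finset.mem_univ a)
  have h4 : ((Finset.univ.erase a).card : ℝ) = N - 1 := by
    rw [eq_sub_iff_add_eq, ← Nat.cast_succ, Nat.succ_eq_add_one,
      Finset.card_erase_add_one (Finset.mem_univ a), Finset.card_fin]
  have h5 : (0 : ℝ) ≤ N := N.cast_nonneg
  rw [Finset.sum_singleton, Finset.card_singleton, Nat.cast_one] at h1
  rw [h4] at h2
  exact abs_le.2 ⟨by linarith, by linarith⟩

theorem uni_ds (u : UN N) :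
    (Matrix.of fun a b => normSq (u.1 a b)) ∈ doublyStochastic ℝ (Fin N) := by
  refine mem_doublyStochastic_iff_sum.2 ⟨fun a b => normSq_nonneg _, fun a => ?_, fun b => ?_⟩
  · have := congrArg (fun M => (M a a).re) u.2.2
    simpa [Matrix.mul_apply, normSq_apply] using this
  · have := congrArg (fun M => (M b b).re) u.2.1
    simpa [Matrix.mul_apply, normSq_apply] using this

variable {d : ℕ} {F : Type} [NormedAddCommGroup F] [InnerProductSpace ℂ F]
  [FiniteDimensional ℂ F] (c : Ctx N d F)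

/-- `y` is the diagonal matrix with entries `k` -/
def Dg (y : Lg d) (k : Fin N → ℝ) : Prop := c.mat y = diagonal fun a => (k a : ℂ)

/-- the convex set -/
def KK : Set (Lg d) := {y | ∀ u, Ok fun a => (c.mat (c.Ad u y) a a).re}

variable {c}

theorem exists_dg (y : Lg d) : ∃ u k, Dg c (c.Ad u y) k :=
  ⟨star (c.mat_herm y).eigenvectorUnitary, (c.mat_herm y).eigenvalues, by
    rw [Dg, c.mat_Ad]
    exact (c.mat_herm y).conjStarAlgAut_star_eigenvectorUnitary⟩

theorem Dg.mem {y : Lg d} {k : Fin N → ℝ} (h : Dg c y k) (hk : Ok k) : y ∈ KK c := fun u => by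
  refine (congrArg Ok (funext fun a => ?_)).mpr (ok_mulVec hk (uni_ds u))
  rw [c.mat_Ad, h, Matrix.mul_apply, re_sum]
  refine Finset.sum_congr rfl fun b _ => ?_
  simp [normSq_apply]
  ring

theorem Dg.ok {y : Lg d} {k : Fin N → ℝ} (h : Dg c y k) (hy : y ∈ KK c) : Ok k := by
  have := hy 1
  rw [c.Ad_one, one_apply_eq_self, h] at this
  simpa using this

theorem Ad_mem {y : Lg d} (hy : y ∈ KK c) (u : UN N) : c.Ad u y ∈ KK c := fun v => by
  rw [← mul_apply_eq_comp, ← c.Ad_mul]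
  exact hy _

theorem kk_eq : ∃ L : UN N × Finset (Fin N) → Lg d →ₗ[ℝ] ℝ,
    KK c = ⋂ p, {y | L p y ≤ p.2.card * ((N : ℝ) - p.2.card) / 2} :=
  ⟨fun p => ∑ a ∈ p.2, reLm ∘ₗ entryLinearMap ℝ ℂ a a ∘ₗ c.mat ∘ₗ (c.Ad p.1).toLinearMap, by
    ext y
    simp [KK, Ok]⟩

theorem norm_le {y : Lg d} (hy : y ∈ KK c) : ‖y‖ ≤ N * N := by
  obtain ⟨u, k, h⟩ := exists_dg (c := c) y
  have h0 : ∑ a, k a = 0 := by
    have := c.mat_trace (c.Ad u y)
    rw [h, trace_diagonal] at this
    exact_mod_cast this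
  refine le_of_sq_le_sq ?_ (by positivity)
  rw [← c.norm_Ad u, c.norm_sq_eq, h]
  refine (Finset.sum_le_sum fun a _ => Finset.sum_le_sum (g := fun _ => (N : ℝ) ^ 2)
    fun b _ => ?_).trans (le_of_eq (by simp only [Finset.sum_const, Finset.card_fin]; ring))
  refine pow_le_pow_left₀ (norm_nonneg _) ?_ 2
  rw [diagonal_apply]
  split_ifs
  · rw [norm_real]
    exact ok_abs (h.ok (Ad_mem hy u)) h0 a
  · simp

theorem Dg.ad {y : Lg d} {k : Fin N → ℝ} (h : Dg c y k) (x : Lg d) (a b : Fin N) :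
    ‖c.mat (c.ad y x) a b‖ = |k a - k b| * ‖c.mat x a b‖ := by
  rw [c.mat_ad, h, Matrix.smul_apply, Matrix.sub_apply, diagonal_mul, mul_diagonal, norm_smul,
    norm_neg, norm_I, one_mul, mul_comm _ (k b : ℂ), ← sub_mul, norm_mul, ← ofReal_sub, norm_real,
    Real.norm_eq_abs]

theorem diag_ineq {w y : Lg d} {μ k : Fin N → ℝ} (hw : Dg c w μ) (hy : Dg c y k)
    (h : ∀ a b, |μ a - μ b| ≤ |k a - k b| ^ 2) (x z : Lg d) :
    |⟪w, c.ad x z⟫| ≤ ‖c.ad y x‖ * ‖c.ad y z‖ := by
  have h1 := Real.sum_mul_le_sqrt_mul_sqrt Finset.univ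
    (fun p : Fin N × Fin N => ‖c.mat (c.ad y x) p.1 p.2‖) fun p => ‖c.mat (c.ad y z) p.2 p.1‖
  rw [Fintype.sum_prod_type, Fintype.sum_prod_type, Fintype.sum_prod_type_right
    (fun p : Fin N × Fin N => ‖c.mat (c.ad y z) p.2 p.1‖ ^ 2), ← c.norm_sq_eq, ← c.norm_sq_eq,
    Real.sqrt_sq (norm_nonneg _), Real.sqrt_sq (norm_nonneg _)] at h1
  rw [← c.inner_ad_cyc, ← Real.norm_eq_abs, ← norm_real, c.inner_eq_trace]
  refine le_trans ((norm_sum_le _ _).trans (Finset.sum_le_sum fun a _ => ?_)) h1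
  rw [diag_apply, Matrix.mul_apply]
  refine (norm_sum_le _ _).trans (Finset.sum_le_sum fun b _ => ?_)
  rw [norm_mul, hw.ad, hy.ad, hy.ad, abs_sub_comm (k b), mul_mul_mul_comm, ← sq, mul_assoc]
  exact mul_le_mul_of_nonneg_right (h a b) (by positivity)

theorem dg_of_fix {y v : Lg d} {k : Fin N → ℝ} (hy : Dg c y k)
    (h : ∀ u, c.Ad u y = y → c.Ad u v = v) : Dg c v fun a => (c.mat v a a).re := by
  ext a b
  rw [diagonal_apply]
  split_ifs with hab
  · subst hab
    exact (conj_eq_iff_re.1 ((c.mat_herm v).apply a a)).symm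
  · have hu : (diagonal fun i => if i = a then -1 else 1) ∈ Matrix.unitaryGroup (Fin N) ℂ := by
      rw [mem_unitaryGroup_iff, star_eq_conjTranspose, diagonal_conjTranspose,
        diagonal_mul_diagonal, ← diagonal_one]
      congr 1
      ext i
      by_cases hi : i = a <;> simp [hi]
    have h1 := (c.Ad_eq_iff ⟨_, hu⟩ v).1 (h _ ((c.Ad_eq_iff _ y).2 (by
      rw [hy]
      exact commute_diagonal _ _)))
    have h2 := congrFun (congrFun h1.eq a) b
    rw [diagonal_mul, mul_diagonal, if_pos rfl, if_neg (Ne.symm hab)] at h2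
    linear_combination (-1 / 2 : ℂ) * h2

theorem exists_dir (a b : Fin N) :
    ∃ e : Lg d, Dg c e fun i => (if i = a then 1 else 0) - if i = b then 1 else 0 :=
  ⟨c.co _, c.span _ (isHermitian_diagonal_iff.2 fun _ => conj_ofReal _) (by
    rw [trace_diagonal, ← ofReal_sum]
    simp)⟩

theorem Dg.add_smul {y e : Lg d} {k m : Fin N → ℝ} (hy : Dg c y k) (he : Dg c e m) (t : ℝ) :
    Dg c (y + t • e) fun a => k a + t * m a := by
  rw [Dg, map_add, map_smul, hy, he, ← diagonal_smul, diagonal_add]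
  congr 1
  ext a
  simp

theorem Dg.inner {y e : Lg d} {k m : Fin N → ℝ} (hy : Dg c y k) (he : Dg c e m) :
    ⟪y, e⟫ = ∑ a, k a * m a := by
  have := c.inner_eq_trace y e
  rw [hy, he, diagonal_mul_diagonal, trace_diagonal] at this
  exact_mod_cast this

theorem gap {y v : Lg d} {l k : Fin N → ℝ} (hy : Dg c y l) (hv : Dg c v k) (hK : v ∈ KK c)
    (h : ∀ w ∈ KK c, ⟪y - v, w - v⟫ ≤ 0) {a b : Fin N} (hab : l b - k b < l a - k a) :
    1 ≤ k a - k b := by
  by_contra! h1
  obtain ⟨e, he⟩ := exists_dir (c := c) a b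
  have h2 := h _ ((hv.add_smul he _).mem (ok_move (hv.ok hK) h1.le))
  rw [add_sub_cancel_left, inner_smul_right, inner_sub_left, hy.inner he, hv.inner he] at h2
  simp only [mul_sub, mul_ite, mul_one, mul_zero, Finset.sum_sub_distrib, Finset.sum_ite_eq',
    Finset.mem_univ, if_true] at h2
  nlinarith

end My0Aux

namespace Ctx

variable {N d : ℕ} {F : Type} [NormedAddCommGroup F] [InnerProductSpace ℂ F]
  [FiniteDimensional ℂ F] (c : Ctx N d F)

open My0Aux in
theorem exists_kappa : ∃ (κ : Lg d → Lg d) (K : ℝ), LipschitzWith 1 κ ∧ (∀ y, ‖κ y‖ ≤ K) ∧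
    ∀ y x z, |⟪y - κ y, c.ad x z⟫| ≤ ‖c.ad y x‖ * ‖c.ad y z‖ := by
  obtain ⟨L, hL⟩ := kk_eq (c := c)
  obtain ⟨P, hP⟩ := exists_proj (K := KK c) ⟨0, fun u S => by
      have : (S.card : ℝ) ≤ N := by exact_mod_cast S.card_le_univ.trans_eq (Fintype.card_fin N)
      simp only [map_zero, Matrix.zero_apply, zero_re, Finset.sum_const_zero]
      exact div_nonneg (mul_nonneg (Nat.cast_nonneg _) (sub_nonneg.2 this)) zero_le_two⟩
    (hL ▸ isClosed_iInter fun p =>
      isClosed_le (L p).continuous_of_finiteDimensional continuous_const)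
    (hL ▸ convex_iInter fun p => convex_halfSpace_le (L p).isLinear _)
  have eqv : ∀ u y, P (c.Ad u y) = c.Ad u (P y) := fun u y => by
    have := lip ((hP (c.Ad u y)).2 _ (Ad_mem (hP y).1 u)) (y' := c.Ad u y) (by
      rw [← map_sub, c.inner_Ad_left, map_sub, ← mul_apply_eq_comp _ (c.Ad u),
        ← c.Ad_mul, inv_mul_cancel, c.Ad_one]
      exact (hP y).2 _ (Ad_mem (hP _).1 _))
    rwa [sub_self, norm_zero, norm_le_zero_iff, sub_eq_zero] at this
  refine ⟨P, N * N, LipschitzWith.mk_one fun y y' => ?_, fun y => norm_le (hP y).1,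
    fun y x z => ?_⟩
  · rw [dist_eq_norm, dist_eq_norm]
    exact lip ((hP y).2 _ (hP y').1) ((hP y').2 _ (hP y).1)
  obtain ⟨u, l, hl⟩ := exists_dg (c := c) y
  rw [← c.inner_Ad u, ← c.norm_Ad u, ← c.norm_Ad u (c.ad y z), c.Ad_ad, c.Ad_ad, c.Ad_ad, map_sub,
    ← eqv]
  generalize c.Ad u y = y at hl
  have hk := dg_of_fix (v := P y) hl fun u h => by rw [← eqv, h]
  generalize (fun a => (c.mat (P y) a a).re) = k at hk
  have key : ∀ a b, l b - k b < l a - k a → |l a + -1 * k a - (l b + -1 * k b)| ≤ |l a - l b| ^ 2 :=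
    fun a b h => by
    have := gap hl hk (hP y).1 (hP y).2 h
    rw [abs_of_pos (by linarith), sq_abs]
    nlinarith
  have hw := hl.add_smul hk (-1)
  rw [neg_one_smul, ← sub_eq_add_neg] at hw
  refine diag_ineq hw hl (fun a b => ?_) _ _
  rcases lt_trichotomy (l b - k b) (l a - k a) with h | h | h
  · exact key a b h
  · rw [show l a + -1 * k a - (l b + -1 * k b) = 0 by linarith, abs_zero]
    positivity
  · rw [abs_sub_comm, abs_sub_comm (l a)]
    exact key b a h

end Ctx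

end Vale.Agent.P353
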