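import Vale.Agent.P353.Stmts
import Vale.Agent.P353.My0

/-! Coercivity estimates. -/

noncomputable section

open MeasureTheory Filter Topology Complex Matrix
open scoped ContDiff RealInnerProductSpace

namespace Vale.Agent.P353

namespace My1Aux

variable {N d : ℕ} {F : Type} [NormedAddCommGroup F] [InnerProductSpace ℂ F]
  [FiniteDimensional ℂ F] (c : Ctx N d F)

theorem le_Fsq (x : Tn 9 d) (i j : Fin 9) : ‖c.ad (cmp i x) (cmp j x)‖ ^ 2 ≤ c.Fsq x :=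
  (Finset.single_le_sum (f := fun j => ‖c.ad (cmp i x) (cmp j x)‖ ^ 2) (fun _ _ => sq_nonneg _)
    (Finset.mem_univ j)).trans (Finset.single_le_sum
      (f := fun i => ∑ j, ‖c.ad (cmp i x) (cmp j x)‖ ^ 2)
      (fun _ _ => Finset.sum_nonneg fun _ _ => sq_nonneg _) (Finset.mem_univ i))

theorem cubic : ∃ K : ℝ, 0 ≤ K ∧ ∀ t : ℝ, 0 < t → ∀ x : Tn 9 d,
    t * |⟪cmp 0 x, c.ad (cmp 1 x) (cmp 2 x)⟫| ≤
      c.Fsq x + t ^ 2 * (K * ‖c.ad (cmp 1 x) (cmp 2 x)‖) := by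
  obtain ⟨κ, K, -, h1, h2⟩ := c.exists_kappa
  refine ⟨K, (norm_nonneg _).trans (h1 0), fun t ht x => ?_⟩
  have h3 := h2 (t⁻¹ • cmp 0 x) (cmp 1 x) (cmp 2 x)
  have h4 := (abs_real_inner_le_norm (κ (t⁻¹ • cmp 0 x)) (c.ad (cmp 1 x) (cmp 2 x))).trans
    (mul_le_mul_of_nonneg_right (h1 _) (norm_nonneg _))
  have h5 := (abs_sub_abs_le_abs_sub _ _).trans ((congrArg _ (inner_sub_left _ _ _)).ge.trans h3)
  simp only [c.ad_smul, _root_.smul_apply, norm_smul, real_inner_smul_left, abs_mul,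
    Real.norm_eq_abs, abs_of_pos (inv_pos.2 ht)] at h5
  have h6 := mul_le_mul_of_nonneg_left (sub_le_iff_le_add.1 h5 |>.trans (add_le_add le_rfl h4))
    (sq_nonneg t)
  have h7 : ‖c.ad (cmp 0 x) (cmp 1 x)‖ * ‖c.ad (cmp 0 x) (cmp 2 x)‖ ≤ c.Fsq x := by
    nlinarith [le_Fsq c x 0 1, le_Fsq c x 0 2,
      sq_nonneg (‖c.ad (cmp 0 x) (cmp 1 x)‖ - ‖c.ad (cmp 0 x) (cmp 2 x)‖)]
  refine le_trans (le_of_eq ?_) (h6.trans (le_trans (le_of_eq ?_) (add_le_add h7 le_rfl)))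
  · field_simp
  · field_simp

theorem master : ∃ K : ℝ, 0 ≤ K ∧ ∀ π 𝔞, c.Th π 𝔞 → ∀ g m : ℝ, ∀ ψ : Tn 9 d → F,
    Sm (sub 9 𝔞) ψ → ∀ (w w' : Tn 9 d → ℝ) (a a' A : ℝ), Continuous w → Continuous w' →
    (∀ x ∈ sub 9 𝔞, ψ x ≠ 0 →
      a * w x + a' * w' x + K * (|g| * ‖x‖ + |m|) ≤ c.Pot g m x / 2 + A) →
    8 * grad (sub 9 𝔞) ψ + (a * wnrm (sub 9 𝔞) w ψ + a' * wnrm (sub 9 𝔞) w' ψ) ≤
      c.En 𝔞 g m ψ + A * nrm (sub 9 𝔞) ψ := by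
  obtain ⟨K, hK⟩ := c.norm_bil_le
  refine ⟨|K|, abs_nonneg _, fun π 𝔞 h g m ψ hψ w w' a a' A hw hw' hA => ?_⟩
  obtain ⟨i1, e1⟩ := Cov4Aux.energy' c.car (fun α => c.contDiff_beta g m (eb α))
    (c.iso (sub 9 𝔞) g m) hψ
  have i2 := (Cov4Aux.integrable_gsq le_rfl hψ).const_mul 8
  have i3 := (hψ.integrable_wnrm hw.continuousOn).const_mul a
  have i4 := (hψ.integrable_wnrm hw'.continuousOn).const_mul a'
  have i5 : Integrable fun x : sub 9 𝔞 => A * ‖ψ x‖ ^ 2 :=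
    hψ.integrable_wnrm (w := fun _ => A) continuousOn_const
  have i6 : Integrable fun x : sub 9 𝔞 => a * (w x * ‖ψ x‖ ^ 2) + a' * (w' x * ‖ψ x‖ ^ 2) :=
    i3.add i4
  rw [Ctx.En, e1, grad, wnrm, wnrm, nrm, ← integral_const_mul, ← integral_const_mul,
    ← integral_const_mul, ← integral_const_mul, ← integral_add i3 i4, ← integral_add i2 i6,
    ← integral_add i1 i5]
  refine integral_mono (i2.add i6) (i1.add i5) fun x => ?_
  simp only [Cov4Aux.dens]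
  by_cases h0 : ψ x = 0
  · simp [h0]
  have h1 := mul_le_mul_of_nonneg_right (hA x x.2 h0) (sq_nonneg ‖ψ x‖)
  have h2 := (hK π 𝔞 h g m x x.2).trans (mul_le_mul_of_nonneg_right (le_abs_self K)
    (by positivity))
  have h3 := (abs_le.1 ((abs_re_le_norm _).trans ((norm_inner_le_norm (𝕜 := ℂ) (ψ x) _).trans
    (mul_le_mul_of_nonneg_left ((ContinuousLinearMap.le_opNorm _ (ψ x)).trans
      (mul_le_mul_of_nonneg_right h2 (norm_nonneg _))) (norm_nonneg _))))).1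
  rw [Ctx.Pot] at h1
  linarith

theorem En_nn (𝔞 : Submodule ℝ (Lg d)) (g m : ℝ) (ψ : Tn 9 d → F) : 0 ≤ c.En 𝔞 g m ψ :=
  en_nonneg _ _ _ _

omit [InnerProductSpace ℂ F] [FiniteDimensional ℂ F] in
theorem wnrm_nn (U : Submodule ℝ (Tn 9 d)) {w : Tn 9 d → ℝ} (hw : ∀ x, 0 ≤ w x)
    (ψ : Tn 9 d → F) : 0 ≤ wnrm U w ψ :=
  integral_nonneg fun x => mul_nonneg (hw x) (sq_nonneg _)

theorem Pot_nn (g m : ℝ) (x : Tn 9 d) : 0 ≤ c.Pot g m x :=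
  Finset.sum_nonneg fun _ _ => sq_nonneg _

theorem young {k : ℝ} (hk : 0 < k) (B r : ℝ) : B * r ≤ k / 4 * r ^ 2 + B ^ 2 / k := by
  have h : B ^ 2 / k = k * (B / k) ^ 2 := by field_simp
  have h' : B = k * (B / k) := by field_simp
  rw [h]
  nth_rewrite 1 [h']
  nlinarith [mul_nonneg hk.le (sq_nonneg (r / 2 - B / k))]

theorem fin {E n A : ℝ} (hE : 0 ≤ E) (hn : 0 ≤ n) : E + A * n ≤ (1 + |A|) * (E + n) := by
  nlinarith [mul_le_mul_of_nonneg_right (le_abs_self A) hn, mul_nonneg (abs_nonneg A) hE]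

end My1Aux

open My1Aux

namespace Ctx

variable {N d : ℕ} {F : Type} [NormedAddCommGroup F] [InnerProductSpace ℂ F]
  [FiniteDimensional ℂ F] (c : Ctx N d F)

theorem p_myp : c.S_myp := by
  intro g₀ g₁ m₀ m₁ hg hm
  obtain ⟨K, K0, hK⟩ := cubic c
  refine ⟨min (2 * g₀ ^ 2) (16 * m₀ ^ 2), by positivity, (9216 * m₁ ^ 2 * K) ^ 2 / (8 * g₀ ^ 2),
    fun g ⟨g0, _⟩ m ⟨m0, m1⟩ x => ?_⟩
  have gp := hg.trans_le g0
  have mp := hm.trans_le m0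
  have h1 := mul_le_mul_of_nonneg_left (hK (48 * m / g) (by positivity) x)
    (show 0 ≤ 4 * g ^ 2 by positivity)
  have h2 := young (show 0 < 8 * g₀ ^ 2 by positivity) (9216 * m₁ ^ 2 * K)
    ‖c.ad (cmp 1 x) (cmp 2 x)‖
  have h3 := mul_le_mul (pow_le_pow_left₀ hg.le g0 2) (le_Fsq c x 1 2) (sq_nonneg _) (sq_nonneg _)
  have h4 := mul_le_mul_of_nonneg_right (pow_le_pow_left₀ mp.le m1 2)
    (mul_nonneg K0 (norm_nonneg (c.ad (cmp 1 x) (cmp 2 x))))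
  have h5 := mul_le_mul_of_nonneg_left (neg_abs_le ⟪cmp 0 x, c.ad (cmp 1 x) (cmp 2 x)⟫)
    (show 0 ≤ 192 * g * m by positivity)
  have h6 := mul_le_mul ((min_le_left (2 * g₀ ^ 2) (16 * m₀ ^ 2)).trans
    (mul_le_mul_of_nonneg_left (pow_le_pow_left₀ hg.le g0 2) zero_le_two)) (le_refl (c.Fsq x))
    (c.Fsq_nonneg x) (by positivity)
  have h7 := mul_le_mul ((min_le_right (2 * g₀ ^ 2) (16 * m₀ ^ 2)).trans
    (mul_le_mul_of_nonneg_left (pow_le_pow_left₀ hm.le m0 2) (by norm_num)))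
    (pow_le_pow_left₀ (norm_nonneg _) (Afree_bounds x).1 2) (sq_nonneg _) (by positivity)
  have e1 : ∀ T, 4 * g ^ 2 * (48 * m / g * T) = 192 * g * m * T := fun T => by
    field_simp
    ring
  have e2 : ∀ P T, 4 * g ^ 2 * (P + (48 * m / g) ^ 2 * T) = 4 * g ^ 2 * P + 9216 * (m ^ 2 * T) :=
    fun P T => by
      field_simp
      ring
  rw [e1, e2] at h1
  rw [Pot_eq]
  linarith

theorem p_my1 : c.S_my1 := by
  intro g₀ g₁ m₀ m₁ hg hm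
  obtain ⟨k, k0, K₁, h1⟩ := c.p_myp g₀ g₁ m₀ m₁ hg hm
  obtain ⟨K, K0, hK⟩ := master c
  refine ⟨(1 + 4 / k) * (1 + |K₁ / 2 + (K * g₁) ^ 2 / k + K * m₁|),
    fun π 𝔞 h g hg' m hm' ψ hψ => ?_⟩
  have h2 := (hK π 𝔞 h g m ψ hψ c.Fsq (fun x => ‖x‖ ^ 2) (k / 4) (k / 4)
    (K₁ / 2 + (K * g₁) ^ 2 / k + K * m₁) c.contDiff_Fsq.continuous (by fun_prop) fun x _ _ => by
      rw [abs_of_pos (hg.trans_le hg'.1), abs_of_pos (hm.trans_le hm'.1)]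
      linarith [h1 g hg' m hm' x, young k0 (K * g₁) ‖x‖, mul_le_mul_of_nonneg_left hm'.2 K0,
        mul_le_mul_of_nonneg_left hg'.2 (mul_nonneg K0 (norm_nonneg x)),
        mul_nonneg k0.le (c.Fsq_nonneg x)]).trans (fin (En_nn c _ _ _ _) (nrm_nonneg _ _))
  rw [mul_assoc, NE, add_comm (nrm _ _)]
  refine le_trans ?_ (mul_le_mul_of_nonneg_left h2 (by positivity))
  have a1 := grad_nonneg (sub 9 𝔞) ψ
  have a2 := wnrm_nn (sub 9 𝔞) c.Fsq_nonneg ψ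
  have a3 := wnrm_nn (sub 9 𝔞) (w := fun x => ‖x‖ ^ 2) (fun _ => sq_nonneg _) ψ
  have a4 : 4 / k * (k / 4) = 1 := by field_simp
  have a5 : 0 < 4 / k := by positivity
  generalize 4 / k = q at a4 a5
  have a6 : ∀ X Y Z : ℝ, (1 + q) * (8 * X + (k / 4 * Y + k / 4 * Z)) =
      8 * X + k / 4 * (Y + Z) + 8 * (q * X) + (q * (k / 4)) * (Y + Z) := fun X Y Z => by ring
  rw [a6, a4]
  nlinarith [mul_nonneg a5.le a1, mul_nonneg k0.le (add_nonneg a2 a3)]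

theorem p_cr : c.S_cr := by
  intro R
  obtain ⟨K, K0, hK⟩ := master c
  refine ⟨1 + |K * R|, by positivity, fun π 𝔞 h g hg ψ hψ hs => ?_⟩
  have g0 := zero_le_one.trans hg
  have h2 := hK π 𝔞 h g 0 ψ hψ c.Fsq c.Fsq (g ^ 2) 0 (K * R * g) c.contDiff_Fsq.continuous
    c.contDiff_Fsq.continuous fun x hx h0 => by
      rw [abs_of_nonneg g0, abs_zero, Pot_eq]
      linarith [mul_le_mul_of_nonneg_left (not_lt.1 fun h => h0 (hs x hx h)) (mul_nonneg K0 g0),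
        mul_nonneg (sq_nonneg g) (c.Fsq_nonneg x)]
  rw [mul_assoc] at h2
  linarith [fin (A := K * R) (En_nn c 𝔞 g 0 ψ) (mul_nonneg g0 (nrm_nonneg (sub 9 𝔞) ψ)),
    grad_nonneg (sub 9 𝔞) ψ]

theorem p_crd : c.S_crd := by
  obtain ⟨k, k0, K₁, h1⟩ := c.p_myp 1 1 1 1 one_pos one_pos
  obtain ⟨K, K0, hK⟩ := master c
  refine ⟨4 * (1 + |K₁ / 4 + K ^ 2 / k + K|), by positivity,
    (eventually_ge_atTop 1).mono fun g hg π 𝔞 h ψ hψ => ?_⟩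
  have g0 := zero_le_one.trans hg
  have hc := (c.contDiff_Pot 1 1).continuous
  have h2 := hK π 𝔞 h g g ψ hψ _ _ (g ^ 2 / 4) 0 ((K₁ / 4 + K ^ 2 / k + K) * g) hc hc
    fun x _ _ => by
      have a1 : K * ‖x‖ ≤ g * c.Pot 1 1 x / 4 + (K₁ / 4 + K ^ 2 / k) := by
        linarith [h1 1 ⟨le_rfl, le_rfl⟩ 1 ⟨le_rfl, le_rfl⟩ x, young k0 K ‖x‖,
          mul_nonneg k0.le (c.Fsq_nonneg x), le_mul_of_one_le_left (Pot_nn c 1 1 x) hg]
      rw [abs_of_nonneg g0, c.Pot_gg g]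
      linarith [mul_le_mul_of_nonneg_left a1 g0]
  rw [mul_assoc] at h2
  linarith [fin (A := K₁ / 4 + K ^ 2 / k + K) (En_nn c 𝔞 g g ψ)
    (mul_nonneg g0 (nrm_nonneg (sub 9 𝔞) ψ)), grad_nonneg (sub 9 𝔞) ψ]

end Ctx

end Vale.Agent.P353
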