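import Vale.Agent.P353.Ga2

/-! Auxiliary estimates for the tightness at strong coupling. -/

noncomputable section

open MeasureTheory Filter Topology Complex Matrix
open scoped ContDiff RealInnerProductSpace

namespace Vale.Agent.P353

namespace My2Aux

open Ga2Aux

variable {E : Type} [NormedAddCommGroup E] [InnerProductSpace ℝ E] [FiniteDimensional ℝ E]
  [MeasurableSpace E] [BorelSpace E]
variable {S : Type} [NormedAddCommGroup S] [InnerProductSpace ℝ S] [FiniteDimensional ℝ S]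
variable {F : Type} [NormedAddCommGroup F] [InnerProductSpace ℂ F] [FiniteDimensional ℂ F]
variable {θ : S →L[ℝ] F →L[ℂ] F} {U : Submodule ℝ E}

/-- pairing of the potential with a Lipschitz field -/
theorem lip_pair (h : IsCAR θ) (s : Fin 16 → E →L[ℝ] S) : ∃ K : ℝ, ∀ (U : Submodule ℝ E)
    (β u : Fin 16 → E → S) (L : NNReal), (∀ α, ContDiff ℝ ∞ (β α)) →
      (∀ α, LipschitzWith L (u α)) → (∀ x ∈ U, ∀ y ∈ U, ∑ α, ⟪s α y, u α x⟫ = 0) →
      ∀ ψ : E → F, Sm U ψ → ∀ t > 0,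
        |wnrm U (fun x => ∑ α, ⟪u α x, β α x⟫) ψ| ≤
          t * en θ U 1 s β ψ + wnrm U (fun x => ∑ α, ‖u α x‖ ^ 2) ψ / t + K * L * nrm U ψ := by
  obtain ⟨b, hb⟩ : ∃ b, b = stdOrthonormalBasis ℝ S := ⟨_, rfl⟩
  refine ⟨Module.finrank ℝ E * ∑ α, ∑ _j : Fin (Module.finrank ℝ S), ‖s α‖,
    fun U β u L hβ hu ho ψ hψ t ht => ?_⟩
  have hth : ∀ w : S, ContDiff ℝ ∞ fun y => θ w (ψ y) := fun w =>
    ((θ w).restrictScalars ℝ).contDiff.comp hψ.1
  obtain ⟨g, hg⟩ : ∃ g : Fin (Module.finrank ℝ U) → Fin 16 → Fin (Module.finrank ℝ S) → E → ℝ,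
      g = fun k α j y => (inner ℂ (θ (b j) (ψ y)) (θ (s α (onb U k)) (ψ y))).im := ⟨_, rfl⟩
  have g1 : ∀ k α j, ContDiff ℝ ∞ (g k α j) := fun k α j => by
    rw [hg]; exact contDiff_im (hth _) (hth _)
  have g2 : ∀ k α j, HasCompactSupport fun x : U => g k α j x := fun k α j =>
    hcs_of hψ.2 fun x hx => by simp [hg, hx]
  have a1 : ∀ α j, LipschitzWith L fun x => ⟪b j, u α x⟫ := fun α j => by
    refine LipschitzWith.of_dist_le_mul fun x y => ?_
    rw [Real.dist_eq, ← inner_sub_right]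
    refine (abs_real_inner_le_norm _ _).trans ?_
    rw [b.orthonormal.1 j, one_mul, ← dist_eq_norm]
    exact (hu α).dist_le_mul x y
  have hQ := fun α => hψ.dop (θ := θ) 1 (s α) (hβ α)
  have i0 : ∀ {φ : E → F}, Sm U φ → Integrable fun x : U => ‖φ x‖ ^ 2 := fun {φ} hφ => by
    simpa only [one_mul] using hφ.integrable_wnrm (w := fun _ => 1) continuousOn_const
  have i1 : ∀ k α j, Integrable fun x : U => ⟪b j, u α x⟫ * fderiv ℝ (g k α j) x (onb U k) :=
    fun k α j => Continuous.integrable_of_hasCompactSupport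
      (((a1 α j).continuous.mul (contDiff_dir (g1 k α j) _).continuous).comp
        continuous_subtype_val)
      (hcs_fderiv ((g1 k α j).differentiable (by simp)) (g2 k α j) (onb_mem U k)).mul_left
  have i2 : ∀ α, Integrable fun x : U =>
      2 * (inner ℂ (θ (u α x) (ψ x)) (dop θ U 1 (s α) (β α) ψ x)).re := fun α =>
    integrable_of (g := fun x => 2 * (inner ℂ (θ (u α x) (ψ x)) (dop θ U 1 (s α) (β α) ψ x)).re)
      hψ.2 (continuous_const.mul (continuous_re.comp (((θ.continuous.comp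
        (hu α).continuous).clm_apply hψ.1.continuous).inner (hQ α).1.continuous)))
      fun x hx => by simp [hx]
  have i3 : ∀ α, Integrable fun x : U => ‖u α x‖ ^ 2 * ‖ψ x‖ ^ 2 := fun α =>
    hψ.integrable_wnrm (w := fun x => ‖u α x‖ ^ 2) ((hu α).continuous.norm.pow 2).continuousOn
  have e1 : ∀ x : U, (∑ α, ⟪u α x, β α x⟫) * ‖ψ x‖ ^ 2 =
      ∑ α, 2 * (inner ℂ (θ (u α x) (ψ x)) (dop θ U 1 (s α) (β α) ψ x)).re -
        ∑ k, ∑ α, ∑ j, ⟪b j, u α x⟫ * fderiv ℝ (g k α j) x (onb U k) := fun x => by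
    rw [hg, hb]
    exact pair_point h s β (fun α => u α x) (ho x x.2) (hψ.1.differentiable (by simp) x)
  have e2 : ∀ α, |∫ x : U, 2 * (inner ℂ (θ (u α x) (ψ x)) (dop θ U 1 (s α) (β α) ψ x)).re| ≤
      t * nrm U (dop θ U 1 (s α) (β α) ψ) + (∫ x : U, ‖u α x‖ ^ 2 * ‖ψ x‖ ^ 2) / t := by
    intro α
    rw [nrm, ← integral_const_mul, ← integral_div,
      ← integral_add ((i0 (hQ α)).const_mul t) ((i3 α).div_const t), ← Real.norm_eq_abs]
    exact norm_integral_le_of_norm_le (((i0 (hQ α)).const_mul t).fun_add ((i3 α).div_const t))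
      (Eventually.of_forall fun x => pair_bound h _ _ _ ht)
  have e3 : ∀ k α j, |∫ x : U, ⟪b j, u α x⟫ * fderiv ℝ (g k α j) x (onb U k)| ≤
      ‖s α‖ * L * nrm U ψ := by
    intro k α j
    refine (ibp_lip (a1 α j) (g1 k α j) (g2 k α j) (onb_mem U k)).trans ?_
    have n1 : ‖onb U k‖ = 1 := (stdOrthonormalBasis ℝ U).orthonormal.1 k
    rw [n1, mul_one, mul_comm _ (L : ℝ), mul_assoc, nrm, ← integral_const_mul ‖s α‖]
    refine mul_le_mul_of_nonneg_left (integral_mono_of_nonneg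
      (Eventually.of_forall fun x => abs_nonneg _) ((i0 hψ).const_mul _)
      (Eventually.of_forall fun x => ?_)) L.coe_nonneg
    have := im_bound h (b j) (s α (onb U k)) (ψ x)
    rw [b.orthonormal.1 j, one_mul] at this
    rw [hg]
    exact this.trans (mul_le_mul_of_nonneg_right ((s α).unit_le_opNorm _ n1.le) (sq_nonneg _))
  have i4 := fun k α => integrable_finsetSum Finset.univ fun j _ => i1 k α j
  have i5 := fun k => integrable_finsetSum Finset.univ fun α _ => i4 k α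
  have e4 : wnrm U (fun x => ∑ α, ‖u α x‖ ^ 2) ψ = ∑ α, ∫ x : U, ‖u α x‖ ^ 2 * ‖ψ x‖ ^ 2 := by
    simp only [wnrm, Finset.sum_mul]
    exact integral_finsetSum _ fun α _ => i3 α
  rw [e4, wnrm]
  simp only [e1]
  rw [integral_sub (integrable_finsetSum _ fun α _ => i2 α) (integrable_finsetSum _ fun k _ => i5 k),
    integral_finsetSum _ fun α _ => i2 α, integral_finsetSum _ fun k _ => i5 k]
  refine (abs_sub _ _).trans (add_le_add ?_ ?_)
  · rw [en, Finset.mul_sum, Finset.sum_div, ← Finset.sum_add_distrib]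
    exact (Finset.abs_sum_le_sum_abs _ _).trans (Finset.sum_le_sum fun α _ => e2 α)
  · have e5 : 0 ≤ (∑ α, ∑ _j : Fin (Module.finrank ℝ S), ‖s α‖) * L * nrm U ψ :=
      mul_nonneg (by positivity) (nrm_nonneg U ψ)
    refine (Finset.abs_sum_le_sum_abs _ _).trans ((Finset.sum_le_card_nsmul _ _
      ((∑ α, ∑ _j : Fin (Module.finrank ℝ S), ‖s α‖) * L * nrm U ψ) fun k _ => ?_).trans ?_)
    swap
    · rw [Finset.card_fin, nsmul_eq_mul, mul_assoc (Module.finrank ℝ E : ℝ),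
        mul_assoc (Module.finrank ℝ E : ℝ)]
      exact mul_le_mul_of_nonneg_right (by exact_mod_cast U.finrank_le) e5
    simp only [Finset.sum_mul]
    rw [integral_finsetSum _ fun α _ => i4 k α]
    refine (Finset.abs_sum_le_sum_abs _ _).trans (Finset.sum_le_sum fun α _ => ?_)
    rw [integral_finsetSum _ fun j _ => i1 k α j]
    exact (Finset.abs_sum_le_sum_abs _ _).trans (Finset.sum_le_sum fun j _ => e3 k α j)

theorem wnrm_mono {ψ : E → F} (hψ : Sm U ψ) {w w' : E → ℝ} (hw : Continuous w)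
    (hw' : Continuous w') (h : ∀ x ∈ U, w x ≤ w' x) : wnrm U w ψ ≤ wnrm U w' ψ :=
  integral_mono (hψ.integrable_wnrm hw.continuousOn) (hψ.integrable_wnrm hw'.continuousOn)
    fun x => mul_le_mul_of_nonneg_right (h x x.2) (sq_nonneg _)

theorem wnrm_lin {ψ : E → F} (hψ : Sm U ψ) {w w' : E → ℝ} (hw : Continuous w)
    (hw' : Continuous w') (a b : ℝ) :
    wnrm U (fun x => a * w x + b * w' x) ψ = a * wnrm U w ψ + b * wnrm U w' ψ := by
  simp only [wnrm, add_mul, mul_assoc]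
  rw [integral_add ((hψ.integrable_wnrm hw.continuousOn).const_mul a)
    ((hψ.integrable_wnrm hw'.continuousOn).const_mul b), integral_const_mul, integral_const_mul]

omit [FiniteDimensional ℂ F] [InnerProductSpace ℂ F] in
theorem wnrm_one (ψ : E → F) : wnrm U (fun _ => 1) ψ = nrm U ψ := by
  simp only [wnrm, nrm, one_mul]

omit [FiniteDimensional ℂ F] [InnerProductSpace ℂ F] in
theorem wnrm_mul (ψ : E → F) (a : ℝ) (w : E → ℝ) :
    wnrm U (fun x => a * w x) ψ = a * wnrm U w ψ := by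
  simp only [wnrm, mul_assoc, integral_const_mul]

omit [FiniteDimensional ℂ F] in
theorem wnrm_mulR (ψ : E → F) (f w : E → ℝ) :
    wnrm U w (fun x => (f x : ℂ) • ψ x) = wnrm U (fun x => w x * f x ^ 2) ψ := by
  simp only [wnrm, norm_smul, mul_pow, norm_real, Real.norm_eq_abs, sq_abs, mul_assoc]

/-- lower bound for an operator expectation -/
theorem re_ge {ψ : E → F} (hψ : Sm U ψ) {a : E → F →L[ℂ] F} {w : E → ℝ} (hw : Continuous w)
    (h : ∀ x ∈ U, ‖a x‖ ≤ w x) :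
    -wnrm U w ψ ≤ ∫ x : U, (inner ℂ (ψ x) (a x (ψ x))).re := by
  refine (abs_le.1 ((Real.norm_eq_abs _).ge.trans (norm_integral_le_of_norm_le
    (hψ.integrable_wnrm hw.continuousOn) (Eventually.of_forall fun x => ?_)))).1
  refine (abs_re_le_norm _).trans ((norm_inner_le_norm _ _).trans ?_)
  rw [mul_comm (w x), sq, mul_assoc, mul_comm _ (w x)]
  exact mul_le_mul_of_nonneg_left (((a x).le_opNorm _).trans
    (mul_le_mul_of_nonneg_right (h x x.2) (norm_nonneg _))) (norm_nonneg _)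

omit [FiniteDimensional ℝ E] [MeasurableSpace E] [BorelSpace E] in
/-- the regularized norm and the weight -/
theorem exists_rho : ∃ ρ f : E → ℝ, (∀ x, 1 ≤ ρ x) ∧ (∀ x, ‖x‖ ≤ ρ x) ∧
    (∀ x, ρ x ^ 2 = 1 + ‖x‖ ^ 2) ∧ (∀ x y, |ρ x - ρ y| ≤ ‖x - y‖) ∧ ContDiff ℝ ∞ f ∧
      (∀ x, f x ^ 2 = (ρ x)⁻¹) ∧ ∀ x, |f x| ≤ 1 ∧ ‖fderiv ℝ f x‖ ≤ 1 := by
  obtain ⟨ρ, hρ⟩ : ∃ ρ : E → ℝ, ρ = fun x => √(1 + ‖x‖ ^ 2) := ⟨_, rfl⟩
  have h3 : ∀ x, ρ x ^ 2 = 1 + ‖x‖ ^ 2 := fun x => by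
    rw [hρ]
    exact Real.sq_sqrt (by positivity)
  have h0 : ∀ x, 0 ≤ ρ x := fun x => by
    rw [hρ]
    exact Real.sqrt_nonneg _
  have h1 : ∀ x, 1 ≤ ρ x := fun x => abs_le_of_sq_le_sq' (by nlinarith [h3 x]) (h0 x) |>.2
  have h2 : ∀ x, ‖x‖ ≤ ρ x := fun x => abs_le_of_sq_le_sq' (by nlinarith [h3 x]) (h0 x) |>.2
  have h4 : ∀ x y, |ρ x - ρ y| ≤ ‖x - y‖ := fun x y => by
    refine le_trans (sq_le_sq.1 ?_) (abs_norm_sub_norm_le x y)
    have : 1 + ‖x‖ * ‖y‖ ≤ ρ x * ρ y := abs_le_of_sq_le_sq' (by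
      rw [mul_pow, h3, h3]
      nlinarith [sq_nonneg (‖x‖ - ‖y‖)]) (mul_nonneg (h0 x) (h0 y)) |>.2
    nlinarith [h3 x, h3 y]
  have h5 : ContDiff ℝ ∞ ρ := by
    rw [hρ]
    exact (contDiff_const.add (contDiff_norm_sq ℝ)).sqrt fun x => by positivity
  have h6 : ∀ x, 1 ≤ √(ρ x) := fun x => Real.one_le_sqrt.2 (h1 x)
  have h7 : LipschitzWith 1 fun x => (√(ρ x))⁻¹ := LipschitzWith.mk_one fun x y => by
    have a1 := h6 x
    have a2 := h6 y
    have a3 := Real.sq_sqrt (h0 x)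
    have a4 := Real.sq_sqrt (h0 y)
    rw [dist_eq_norm x, Real.dist_eq, inv_sub_inv (by positivity) (by positivity), abs_div,
      abs_sub_comm]
    refine (div_le_self (abs_nonneg _) ?_).trans (le_trans ?_ (h4 x y))
    · exact (one_le_mul_of_one_le_of_one_le a1 a2).trans (le_abs_self _)
    · rw [show ρ x - ρ y = (√(ρ x) - √(ρ y)) * (√(ρ x) + √(ρ y)) by linarith, abs_mul]
      exact le_mul_of_one_le_right (abs_nonneg _) (le_trans (by linarith) (le_abs_self _))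
  refine ⟨ρ, fun x => (√(ρ x))⁻¹, h1, h2, h3, h4, (h5.sqrt fun x => ?_).inv fun x => ?_,
    fun x => ?_, fun x => ⟨?_, ?_⟩⟩
  · linarith [h1 x]
  · linarith [h6 x]
  · rw [inv_pow, Real.sq_sqrt (h0 x)]
  · rw [abs_of_nonneg (inv_nonneg.2 (Real.sqrt_nonneg _))]
    exact inv_le_one_of_one_le₀ (h6 x)
  · exact norm_fderiv_le_of_lipschitz ℝ h7

omit [FiniteDimensional ℝ E] [MeasurableSpace E] [BorelSpace E] in
theorem scale_le {κ : E → E} {K : ℝ} (hκ : LipschitzWith 1 κ) (hK : ∀ y, ‖κ y‖ ≤ K) (a b : E)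
    {s t : ℝ} (hs : 0 < s) (ht : 0 < t) : ‖s • κ (s⁻¹ • a) - t • κ (t⁻¹ • b)‖ ≤
      |s - t| * K + ‖a - b‖ + |s - t| * (‖a‖ / s) := by
  have e1 : s • κ (s⁻¹ • a) - t • κ (t⁻¹ • b) =
      (s - t) • κ (s⁻¹ • a) + t • (κ (s⁻¹ • a) - κ (t⁻¹ • b)) := by module
  have e2 : t • (s⁻¹ • a - t⁻¹ • b) = a - b - ((s - t) / s) • a := by
    match_scalars
    · field_simp
      ring
    · field_simp
  have h1 := hκ.dist_le_mul (s⁻¹ • a) (t⁻¹ • b)
  rw [dist_eq_norm, dist_eq_norm, NNReal.coe_one, one_mul] at h1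
  have h2 := norm_sub_le (a - b) (((s - t) / s) • a)
  rw [← e2, norm_smul, norm_smul, Real.norm_eq_abs, Real.norm_eq_abs, abs_div, abs_of_pos hs,
    div_mul_eq_mul_div, mul_div_assoc] at h2
  rw [e1]
  refine (norm_add_le _ _).trans ?_
  rw [norm_smul, norm_smul, Real.norm_eq_abs, Real.norm_eq_abs, add_assoc]
  exact add_le_add (mul_le_mul_of_nonneg_left (hK _) (abs_nonneg _))
    ((mul_le_mul_of_nonneg_left h1 (abs_nonneg _)).trans h2)

end My2Aux

end Vale.Agent.P353
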