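import Vale.Agent.P353.Stmts
import Vale.Agent.P353.My0
import Vale.Agent.P353.My2Aux

/-! Tightness at strong coupling. -/

noncomputable section

open MeasureTheory Filter Topology Complex Matrix
open scoped ContDiff RealInnerProductSpace

namespace Vale.Agent.P353

namespace My2Aux

open Ga2Aux

variable {N d : ℕ} {F : Type} [NormedAddCommGroup F] [InnerProductSpace ℂ F]
  [FiniteDimensional ℂ F] (c : Ctx N d F) {𝔞 : Submodule ℝ (Lg d)}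

theorem en_eq (g m : ℝ) {ψ : Tn 9 d → F} (hψ : Sm (sub 9 𝔞) ψ) : c.En 𝔞 g m ψ =
    8 * grad (sub 9 𝔞) ψ + wnrm (sub 9 𝔞) (c.Pot g m) ψ / 2 + ∫ x : sub 9 𝔞, (inner ℂ (ψ x)
      (bil c.θ (sub 9 𝔞) (fun α => c.sE (eb α)) (fun α => c.beta g m (eb α)) x (ψ x))).re := by
  have := c.car.energy 1 (fun α => c.contDiff_beta g m (eb α)) (c.iso (sub 9 𝔞) g m) hψ
  rw [one_pow, mul_one, one_mul] at this
  exact this

theorem cont_ad (i j : Fin 9) : Continuous fun x : Tn 9 d => c.ad (cmp i x) (cmp j x) := by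
  obtain ⟨A, hA⟩ := c.exists_adL
  simp only [← hA]
  exact (A.continuous.comp (cmp i).continuous).clm_apply (cmp j).continuous

theorem mass_le : ∃ K, ∀ π 𝔞, c.Th π 𝔞 → ∀ g ψ, Sm (sub 9 𝔞) ψ →
    c.En 𝔞 g 0 ψ + 8 * wnrm (sub 9 𝔞) (fun x => ‖x‖ ^ 2) ψ + 96 * g * wnrm (sub 9 𝔞)
      (fun x => ⟪cmp 0 x, c.ad (cmp 1 x) (cmp 2 x)⟫) ψ ≤ c.En 𝔞 g 1 ψ + K * nrm (sub 9 𝔞) ψ := by
  obtain ⟨K, hK⟩ := c.norm_bil_le
  refine ⟨K, fun π 𝔞 h g ψ hψ => ?_⟩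
  have hi : ∀ g m, Integrable fun x : sub 9 𝔞 => (inner ℂ (ψ x)
      (bil c.θ (sub 9 𝔞) (fun α => c.sE (eb α)) (fun α => c.beta g m (eb α)) x (ψ x))).re :=
    fun g m => integrable_of (g := fun x => (inner ℂ (ψ x)
      (bil c.θ (sub 9 𝔞) (fun α => c.sE (eb α)) (fun α => c.beta g m (eb α)) x (ψ x))).re) hψ.2
      (contDiff_re hψ.1 (hψ.clm (contDiff_bil _ fun α => c.contDiff_beta g m (eb α))).1).continuous
      fun x hx => by simp [hx]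
  have e1 : ∀ x : sub 9 𝔞, (inner ℂ (ψ x)
      (bil c.θ (sub 9 𝔞) (fun α => c.sE (eb α)) (fun α => c.beta g 1 (eb α)) x (ψ x))).re =
      (inner ℂ (ψ x)
        (bil c.θ (sub 9 𝔞) (fun α => c.sE (eb α)) (fun α => c.beta g 0 (eb α)) x (ψ x))).re +
      (inner ℂ (ψ x)
        (bil c.θ (sub 9 𝔞) (fun α => c.sE (eb α)) (fun α => c.beta 0 1 (eb α)) x (ψ x))).re := by
    intro x
    rw [← add_re, ← inner_add_right, ← _root_.add_apply, c.bil_eq h g 1 x.2, c.bil_eq h g 0 x.2,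
      c.bil_eq h 0 1 x.2, ← smul_add, ← dG_add]
    refine congrArg (fun a => (inner ℂ (ψ x) (((-8 * I) • dG c.θ a) (ψ x))).re) ?_
    module
  have e2 := re_ge hψ (w := fun _ => K * 1) continuous_const fun x hx => by
    simpa only [abs_zero, zero_mul, zero_add, abs_one] using hK π 𝔞 h 0 1 x hx
  have hT : Continuous fun x : Tn 9 d => ⟪cmp 0 x, c.ad (cmp 1 x) (cmp 2 x)⟫ :=
    (cmp 0).continuous.inner (cont_ad c 1 2)
  have hW : Continuous fun x : Tn 9 d => ‖x‖ ^ 2 := continuous_norm.pow 2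
  have hP := fun m => (c.contDiff_Pot g m).continuous
  have e3 := wnrm_mono hψ (w := fun x => 1 * c.Pot g 0 x + 1 * (16 * ‖x‖ ^ 2 + 192 * g *
    ⟪cmp 0 x, c.ad (cmp 1 x) (cmp 2 x)⟫)) (by fun_prop) (hP 1) fun x _ => by
      have := pow_le_pow_left₀ (norm_nonneg _) (Ctx.Afree_bounds x).1 2
      rw [c.Pot_eq, c.Pot_eq]
      linarith
  rw [wnrm_lin hψ (hP 0) (by fun_prop), wnrm_lin hψ hW hT] at e3
  rw [wnrm_mul, wnrm_one] at e2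
  rw [en_eq c g 0 hψ, en_eq c g 1 hψ]
  simp only [e1]
  rw [integral_add (hi g 0) (hi 0 1)]
  linarith

theorem curv_le : ∃ K, ∀ π 𝔞, c.Th π 𝔞 → ∀ g, 0 ≤ g → ∀ ψ, Sm (sub 9 𝔞) ψ →
    4 * g ^ 2 * wnrm (sub 9 𝔞) c.Fsq ψ ≤
      c.En 𝔞 g 0 ψ + |K| * g * wnrm (sub 9 𝔞) (fun x => ‖x‖) ψ := by
  obtain ⟨K, hK⟩ := c.norm_bil_le
  refine ⟨K, fun π 𝔞 h g hg ψ hψ => ?_⟩
  have e2 := re_ge hψ (w := fun x => |K| * g * ‖x‖) (by fun_prop) fun x hx => by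
    refine (hK π 𝔞 h g 0 x hx).trans ?_
    rw [abs_zero, add_zero, abs_of_nonneg hg, mul_assoc]
    exact mul_le_mul_of_nonneg_right (le_abs_self K) (by positivity)
  have e3 : c.Pot g 0 = fun x => 8 * g ^ 2 * c.Fsq x := funext fun x => by
    rw [c.Pot_eq]
    ring
  rw [wnrm_mul] at e2
  rw [en_eq c g 0 hψ, e3, wnrm_mul]
  linarith [grad_nonneg (sub 9 𝔞) ψ]

theorem u_norm (v : Lg d) :
    ∑ α, ‖(tens (gamma2 c.γ 1 2 *ᵥ eb α) v : Tn 16 d)‖ ^ 2 = 16 * ‖v‖ ^ 2 := by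
  simp only [← real_inner_self_eq_norm_sq, inner_tens]
  rw [← Finset.sum_mul, sum_eb_dot, c.gam.gamma2_transpose, c.gam.trace_gamma2_mul,
    if_pos ⟨rfl, rfl⟩, if_neg (by decide), sub_zero, mul_one]

theorem u_orth (y : Tn 9 d) (v : Lg d) :
    ∑ α, ⟪c.sE (eb α) y, tens (gamma2 c.γ 1 2 *ᵥ eb α) v⟫ = 0 := by
  simp only [c.sE_apply, sum_inner, inner_tens]
  rw [Finset.sum_comm]
  refine Finset.sum_eq_zero fun i _ => ?_
  rw [← Finset.sum_mul, sum_eb_dot, c.gam.symm, c.gam.gamma2_ne (by decide), ← Matrix.mul_assoc,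
    c.gam.trace_three, zero_mul]

theorem u_Phi (x : Tn 9 d) (v : Lg d) :
    ∑ α, ⟪tens (gamma2 c.γ 1 2 *ᵥ eb α) v, c.Phi (eb α) x⟫ =
      -16 * ⟪v, c.ad (cmp 1 x) (cmp 2 x)⟫ := by
  have e : ∀ i j, ∑ α, ((gamma2 c.γ 1 2 *ᵥ eb α) ⬝ᵥ (gamma2 c.γ j i *ᵥ eb α)) *
      ⟪v, c.ad (cmp i x) (cmp j x)⟫ =
      (if j = 1 then if i = 2 then 16 * ⟪v, c.ad (cmp i x) (cmp j x)⟫ else 0 else 0) -
        if j = 2 then if i = 1 then 16 * ⟪v, c.ad (cmp i x) (cmp j x)⟫ else 0 else 0 := by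
    intro i j
    rw [← Finset.sum_mul, sum_eb_dot, c.gam.gamma2_transpose, c.gam.trace_gamma2_mul]
    simp only [eq_comm (b := i), eq_comm (b := j), ← ite_and, and_comm]
    split_ifs <;> ring
  simp only [Ctx.Phi, real_inner_smul_right, inner_sum, inner_tens]
  rw [← Finset.mul_sum, Finset.sum_comm, Finset.sum_congr rfl fun i _ => Finset.sum_comm]
  simp only [e, Finset.sum_sub_distrib, Finset.sum_ite_eq', Finset.mem_univ, if_true]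
  rw [c.ad_anti (cmp 2 x), inner_neg_right]
  ring

theorem pair_le : ∃ K, ∀ 𝔞 g (k : Tn 9 d → Lg d), LipschitzWith 3 k → ∀ ψ, Sm (sub 9 𝔞) ψ →
    -(96 * g * wnrm (sub 9 𝔞) (fun x => ⟪k x, c.ad (cmp 1 x) (cmp 2 x)⟫) ψ) ≤ c.En 𝔞 g 0 ψ / 2 +
      1152 * wnrm (sub 9 𝔞) (fun x => ‖k x‖ ^ 2) ψ + K * nrm (sub 9 𝔞) ψ := by
  obtain ⟨K, hK⟩ := lip_pair c.car fun α => c.sE (eb α)
  refine ⟨72 * K, fun 𝔞 g k hk ψ hψ => ?_⟩
  have h1 := (abs_le.1 (hK (sub 9 𝔞) (fun α => c.beta g 0 (eb α))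
    (fun α x => tens (gamma2 c.γ 1 2 *ᵥ eb α) (k x)) 12 (fun α => c.contDiff_beta g 0 (eb α))
    (fun α => LipschitzWith.of_dist_le_mul fun x y => ?_) (fun x _ y _ => u_orth c y _) ψ hψ
    (1 / 12) (by norm_num))).2
  · have e : ∀ x, ∑ α, ⟪tens (gamma2 c.γ 1 2 *ᵥ eb α) (k x), c.beta g 0 (eb α) x⟫ =
        -16 * g * ⟪k x, c.ad (cmp 1 x) (cmp 2 x)⟫ := fun x => by
      simp only [Ctx.beta, zero_smul, add_zero, real_inner_smul_right]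
      rw [← Finset.mul_sum, u_Phi]
      ring
    simp only [e, u_norm, wnrm_mul, NNReal.coe_ofNat] at h1
    rw [Ctx.En]
    linarith
  · have h2 := hk.dist_le_mul x y
    have h3 := Finset.single_le_sum (f := fun α =>
      ‖(tens (gamma2 c.γ 1 2 *ᵥ eb α) (k x - k y) : Tn 16 d)‖ ^ 2) (fun _ _ => sq_nonneg _)
      (Finset.mem_univ α)
    rw [u_norm] at h3
    have h4 : ‖(tens (gamma2 c.γ 1 2 *ᵥ eb α) (k x - k y) : Tn 16 d)‖ ≤ 4 * ‖k x - k y‖ :=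
      (abs_le_of_sq_le_sq' (by linarith) (by positivity)).2
    rw [dist_eq_norm] at h2
    rw [dist_eq_norm, ← map_sub]
    push_cast at h2 ⊢
    linarith

theorem kappa_le {κ : Lg d → Lg d}
    (h : ∀ y x z, |⟪y - κ y, c.ad x z⟫| ≤ ‖c.ad y x‖ * ‖c.ad y z‖) {t : ℝ} (ht : 0 < t)
    (x : Tn 9 d) : -(t⁻¹ * c.Fsq x) + ⟪t • κ (t⁻¹ • cmp 0 x), c.ad (cmp 1 x) (cmp 2 x)⟫ ≤
      ⟪cmp 0 x, c.ad (cmp 1 x) (cmp 2 x)⟫ := by
  have h1 := mul_le_mul_of_nonneg_left (abs_le.1 (h (t⁻¹ • cmp 0 x) (cmp 1 x) (cmp 2 x))).1 ht.le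
  have h2 : ∀ j, ‖c.ad (cmp 0 x) (cmp j x)‖ ≤ √(c.Fsq x) := fun j =>
    Real.le_sqrt_of_sq_le ((Finset.single_le_sum (f := fun j => ‖c.ad (cmp 0 x) (cmp j x)‖ ^ 2)
      (fun _ _ => sq_nonneg _) (Finset.mem_univ j)).trans (Finset.single_le_sum
        (f := fun i => ∑ j, ‖c.ad (cmp i x) (cmp j x)‖ ^ 2)
        (fun _ _ => Finset.sum_nonneg fun _ _ => sq_nonneg _) (Finset.mem_univ 0)))
  have h3 := mul_le_mul (h2 1) (h2 2) (norm_nonneg _) (Real.sqrt_nonneg _)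
  rw [Real.mul_self_sqrt (c.Fsq_nonneg x)] at h3
  have h4 := mul_le_mul_of_nonneg_left h3 (inv_pos.2 ht).le
  rw [c.ad_smul, _root_.smul_apply, _root_.smul_apply, norm_smul, norm_smul,
    Real.norm_of_nonneg (inv_pos.2 ht).le, ← real_inner_smul_left, smul_sub, smul_smul,
    mul_inv_cancel₀ ht.ne', one_smul, inner_sub_left, mul_mul_mul_comm, mul_neg, ← mul_assoc t,
    ← mul_assoc t, mul_inv_cancel₀ ht.ne', one_mul] at h1
  linarith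

end My2Aux

namespace Ctx

variable {N d : ℕ} {F : Type} [NormedAddCommGroup F] [InnerProductSpace ℂ F]
  [FiniteDimensional ℂ F] (c : Ctx N d F)

open My2Aux in
theorem p_my2 : c.S_my2 := by
  obtain ⟨κ, K, hκ, hK, hκ'⟩ := c.exists_kappa
  obtain ⟨ρ, f, r1, r2, r3, r4, f1, f2, f3⟩ := exists_rho (E := Tn 9 d)
  obtain ⟨K₁, h₁⟩ := mass_le c
  obtain ⟨K₂, h₂⟩ := curv_le c
  obtain ⟨K₃, h₃⟩ := pair_le c
  have hK0 : 0 ≤ K := (norm_nonneg _).trans (hK 0)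
  obtain ⟨A, hA⟩ : ∃ A, A = 17 * (K + 1) := ⟨_, rfl⟩
  have hA0 : 0 < A := by rw [hA]; positivity
  have hAK : A⁻¹ * K ≤ 1 / 17 := by
    rw [inv_mul_le_iff₀ hA0, hA]
    linarith
  have ht : ∀ x, 0 < A⁻¹ * ρ x := fun x => mul_pos (inv_pos.2 hA0) (by linarith [r1 x])
  obtain ⟨k, hk⟩ : ∃ k : Tn 9 d → Lg d,
      k = fun x => (A⁻¹ * ρ x) • κ ((A⁻¹ * ρ x)⁻¹ • cmp 0 x) := ⟨_, rfl⟩
  have k1 : LipschitzWith 3 k := LipschitzWith.of_dist_le_mul fun x y => by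
    have a1 := scale_le hκ hK (cmp 0 x) (cmp 0 y) (ht x) (ht y)
    have a2 := norm_cmp_le 0 (x - y)
    have a3 : A⁻¹ * (‖cmp 0 x‖ / (A⁻¹ * ρ x)) ≤ 1 := by
      rw [← mul_div_assoc, div_le_one (ht x)]
      exact mul_le_mul_of_nonneg_left ((norm_cmp_le 0 x).trans (r2 x)) (inv_pos.2 hA0).le
    have a4 := mul_le_mul (r4 x y) a3 (mul_nonneg (inv_pos.2 hA0).le
      (div_nonneg (norm_nonneg _) (ht x).le)) (norm_nonneg _)
    have a5 := mul_le_mul (r4 x y) hAK (by positivity) (norm_nonneg _)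
    rw [← mul_sub, abs_mul, abs_of_pos (inv_pos.2 hA0)] at a1
    rw [map_sub] at a2
    rw [dist_eq_norm, dist_eq_norm, hk, NNReal.coe_ofNat]
    linarith [norm_nonneg (x - y)]
  have k2 : ∀ x, ‖k x‖ ^ 2 ≤ 1 / 289 * 1 + 1 / 289 * ‖x‖ ^ 2 := fun x => by
    have a1 : ‖k x‖ ≤ ρ x * (1 / 17) := by
      rw [hk, norm_smul, Real.norm_of_nonneg (ht x).le, mul_comm A⁻¹, mul_assoc]
      exact mul_le_mul_of_nonneg_left ((mul_le_mul_of_nonneg_left (hK _)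
        (inv_pos.2 hA0).le).trans hAK) (by linarith [r1 x])
    have a2 := pow_le_pow_left₀ (norm_nonneg _) a1 2
    rw [mul_pow, r3] at a2
    linarith
  have k3 : ∀ x, -A * (c.Fsq x * f x ^ 2) + 1 * ⟪k x, c.ad (cmp 1 x) (cmp 2 x)⟫ ≤
      ⟪cmp 0 x, c.ad (cmp 1 x) (cmp 2 x)⟫ := fun x => by
    have a1 := kappa_le c hκ' (ht x) x
    have a2 : (A⁻¹ * ρ x)⁻¹ * c.Fsq x = A * (c.Fsq x * f x ^ 2) := by
      rw [f2, mul_inv, inv_inv]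
      ring
    rw [hk]
    linarith
  refine ⟨|K₁ + K₃ + 8 + 24 * A * abs K₂| + 1, ?_⟩
  filter_upwards [eventually_ge_atTop (96 * A)] with g hg π 𝔞 h ψ hψ
  have hg0 : 0 < g := by linarith
  have cF : Continuous fun x => c.Fsq x * f x ^ 2 :=
    c.contDiff_Fsq.continuous.mul (f1.continuous.pow 2)
  have ck : Continuous fun x => ⟪k x, c.ad (cmp 1 x) (cmp 2 x)⟫ :=
    k1.continuous.inner (cont_ad c 1 2)
  have cW : Continuous fun x : Tn 9 d => ‖x‖ ^ 2 := continuous_norm.pow 2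
  have b1 := h₁ π 𝔞 h g ψ hψ
  have b2 := h₂ π 𝔞 h g hg0.le _ (hψ.mulR f1)
  have b3 := h₃ 𝔞 g k k1 ψ hψ
  have b4 := c.car.en_mulR_le' 1 (fun α => c.contDiff_beta g 0 (eb α)) (c.iso (sub 9 𝔞) g 0) hψ f1
    (M := 1) fun x _ _ => f3 x
  have b5 := wnrm_mono hψ (w := fun x => ‖k x‖ ^ 2) (k1.continuous.norm.pow 2) (by fun_prop)
    fun x _ => k2 x
  have b6 := wnrm_mono hψ (by fun_prop) ((cmp 0).continuous.inner (cont_ad c 1 2)) fun x _ => k3 x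
  have b7 := wnrm_mono hψ (w := fun x => ‖x‖ * f x ^ 2) (w' := fun _ => 1)
    (continuous_norm.mul (f1.continuous.pow 2)) continuous_const fun x _ => by
      rw [f2, ← div_eq_mul_inv, div_le_one (by linarith [r1 x])]
      exact r2 x
  have b8 := nrm_nonneg (sub 9 𝔞) ψ
  have b9 : 0 ≤ c.En 𝔞 g 0 ψ := en_nonneg _ _ _ _
  have b10 : 0 ≤ c.En 𝔞 g 1 ψ := en_nonneg _ _ _ _
  rw [wnrm_lin hψ continuous_const cW, wnrm_one] at b5
  rw [wnrm_lin hψ cF ck] at b6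
  rw [wnrm_one] at b7
  rw [wnrm_mulR, wnrm_mulR] at b2
  change c.En 𝔞 g 0 _ ≤ _ * c.En 𝔞 g 0 ψ + _ at b4
  rw [NE]
  generalize wnrm (sub 9 𝔞) (fun x => c.Fsq x * f x ^ 2) ψ = X at b2 b6
  have d1 := mul_le_mul_of_nonneg_left b7 (mul_nonneg (abs_nonneg K₂) hg0.le)
  have d2 := mul_le_mul_of_nonneg_left b6 hg0.le
  have d3 : 96 * g * (A * X) ≤ c.En 𝔞 g 0 ψ / 2 + (4 + 24 * A * |K₂|) * nrm (sub 9 𝔞) ψ := by
    refine le_of_mul_le_mul_left ?_ hg0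
    have d4 := mul_le_mul_of_nonneg_left (show 4 * g ^ 2 * X ≤ 2 * c.En 𝔞 g 0 ψ +
      16 * nrm (sub 9 𝔞) ψ + |K₂| * g * nrm (sub 9 𝔞) ψ by linarith) hA0.le
    have d5 := mul_le_mul_of_nonneg_right hg b8
    have d6 := mul_le_mul_of_nonneg_right hg b9
    linarith
  have d7 := mul_le_mul_of_nonneg_right (le_abs_self (K₁ + K₃ + 8 + 24 * A * |K₂|)) b8
  have d8 := mul_nonneg (abs_nonneg (K₁ + K₃ + 8 + 24 * A * |K₂|)) b10
  have d9 := mul_nonneg (abs_nonneg (K₁ + K₃ + 8 + 24 * A * |K₂|)) b8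
  linarith

end Ctx

end Vale.Agent.P353
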