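import Vale.Agent.P353.La1Aux

/-! Generic estimates for Gaussian kernels with frozen coefficients. -/

noncomputable section

open MeasureTheory Filter Topology Complex
open scoped ContDiff RealInnerProductSpace

namespace Vale.Agent.P353.Nc1Aux

open La1Aux

variable {E : Type} [NormedAddCommGroup E] [InnerProductSpace ℝ E] [FiniteDimensional ℝ E]
  [MeasurableSpace E] [BorelSpace E]
variable {F : Type} [NormedAddCommGroup F] [InnerProductSpace ℂ F] [FiniteDimensional ℂ F]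
variable {U 𝒲 V : Submodule ℝ E}

omit [InnerProductSpace ℂ F] [FiniteDimensional ℂ F] in
theorem slice_int {κ : U × 𝒲 → F} (hc : Continuous κ) (hs : HasCompactSupport κ) (X : U) :
    Integrable fun W : 𝒲 => κ (X, W) := by
  have h1 : Isometry fun W : 𝒲 => (X, W) := Isometry.of_dist_eq fun a b => by simp
  exact (hc.comp (Continuous.prodMk_right X)).integrable_of_hasCompactSupport
    (hs.comp_isClosedEmbedding h1.isClosedEmbedding)

omit [FiniteDimensional ℂ F] in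
theorem pair_int {Ω : U → F} (hΩ : MemLp Ω 2 volume) {κ : U × 𝒲 → F} (hc : Continuous κ)
    (hs : HasCompactSupport κ) :
    Integrable (fun p : U × 𝒲 => inner ℂ (Ω p.1) (κ p)) (volume.prod volume) := by
  obtain ⟨M, hM⟩ := hc.bounded_above_of_compact_support hs
  have k1 : IsCompact (Prod.fst '' tsupport κ) := hs.isCompact.image continuous_fst
  have k2 : IsCompact (Prod.snd '' tsupport κ) := hs.isCompact.image continuous_snd
  have i1 := (integrable_indicator_iff k1.measurableSet).2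
    ((hΩ.norm.locallyIntegrable one_le_two).integrableOn_isCompact k1)
  have i2 := (integrable_indicator_iff k2.measurableSet).2
    ((continuous_const (y := M)).continuousOn.integrableOn_compact (μ := volume) k2)
  refine (i1.mul_prod i2).mono' ((hΩ.1.comp_quasiMeasurePreserving
    Measure.quasiMeasurePreserving_fst).inner hc.aestronglyMeasurable) (.of_forall fun p => ?_)
  by_cases hp : p ∈ tsupport κ
  · rw [Set.indicator_of_mem (Set.mem_image_of_mem _ hp),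
      Set.indicator_of_mem (Set.mem_image_of_mem _ hp)]
    exact (norm_inner_le_norm _ _).trans (mul_le_mul_of_nonneg_left (hM p) (norm_nonneg _))
  · rw [image_eq_zero_of_notMem_tsupport hp, inner_zero_right, norm_zero]
    exact mul_nonneg (Set.indicator_nonneg (fun _ _ => norm_nonneg _) _)
      (Set.indicator_nonneg (fun _ _ => (norm_nonneg _).trans (hM 0)) _)

theorem diff_le {Ω : U → F} (hΩ : MemLp Ω 2 volume) {κ₁ κ₂ : U × 𝒲 → F} (h₁ : Continuous κ₁)
    (s₁ : HasCompactSupport κ₁) (h₂ : Continuous κ₂) (s₂ : HasCompactSupport κ₂) :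
    ENNReal.ofReal ‖(∫ X : U, inner ℂ (Ω X) (∫ W : 𝒲, κ₁ (X, W))) -
      ∫ X : U, ∫ W : 𝒲, inner ℂ (Ω X) (κ₂ (X, W))‖ ≤
      ∫⁻ X : U, ∫⁻ W : 𝒲, ENNReal.ofReal (‖Ω X‖ * ‖κ₁ (X, W) - κ₂ (X, W)‖) := by
  have := FiniteDimensional.complete ℂ F
  have e : ∀ X : U, inner ℂ (Ω X) (∫ W : 𝒲, κ₁ (X, W)) = ∫ W : 𝒲, inner ℂ (Ω X) (κ₁ (X, W)) :=
    fun X => (integral_inner (slice_int h₁ s₁ X) _).symm
  simp only [e]
  rw [← integral_sub (pair_int hΩ h₁ s₁).integral_prod_left (pair_int hΩ h₂ s₂).integral_prod_left,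
    ofReal_norm]
  refine (enorm_integral_le_lintegral_enorm _).trans (lintegral_mono fun X => ?_)
  beta_reduce
  rw [← integral_sub ((slice_int h₁ s₁ X).const_inner (𝕜 := ℂ) (Ω X))
    ((slice_int h₂ s₂ X).const_inner (𝕜 := ℂ) (Ω X))]
  refine (enorm_integral_le_lintegral_enorm _).trans (lintegral_mono fun W => ?_)
  beta_reduce
  rw [← inner_sub_right, ← ofReal_norm]
  exact ENNReal.ofReal_le_ofReal (norm_inner_le_norm _ _)

theorem split {T u : U → 𝒲 → ℝ} {S : Set U} {B : Set 𝒲} (hS : MeasurableSet S)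
    (hB : MeasurableSet B) {t : ℝ} (ht : 0 ≤ t) {w : U × 𝒲 → ℝ}
    (hw : Integrable w (volume.prod volume)) (h0 : ∀ p, 0 ≤ w p)
    (h : ∀ X W, T X W ≤ w (X, W) ∨ (X ∈ S ∧ W ∈ B ∧ T X W ≤ t * u X W)) :
    ∫⁻ X, ∫⁻ W, ENNReal.ofReal (T X W) ≤
      ENNReal.ofReal t * (∫⁻ X in S, ∫⁻ W in B, ENNReal.ofReal (u X W)) +
        ENNReal.ofReal (∫ p, w p ∂(volume.prod volume)) := by
  have m : AEMeasurable (fun p => ENNReal.ofReal (w p)) (volume.prod volume) :=
    hw.1.aemeasurable.ennreal_ofReal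
  rw [ofReal_integral_eq_lintegral_ofReal hw (.of_forall h0), lintegral_prod _ m,
    ← lintegral_const_mul' _ _ ENNReal.ofReal_ne_top, ← lintegral_indicator hS,
    ← lintegral_add_right' _ m.lintegral_prod_right']
  refine lintegral_mono_ae ?_
  filter_upwards [hw.prod_right_ae] with X hX
  by_cases hXS : X ∈ S
  · rw [Set.indicator_of_mem hXS, ← lintegral_const_mul' _ _ ENNReal.ofReal_ne_top,
      ← lintegral_indicator hB, ← lintegral_add_right' _ hX.1.aemeasurable.ennreal_ofReal]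
    refine lintegral_mono fun W => ?_
    rcases h X W with h' | ⟨-, h1, h2⟩
    · exact le_add_left (ENNReal.ofReal_le_ofReal h')
    · beta_reduce
      rw [Set.indicator_of_mem h1, ← ENNReal.ofReal_mul ht]
      exact le_add_right (ENNReal.ofReal_le_ofReal h2)
  · refine le_add_left (lintegral_mono fun W => ENNReal.ofReal_le_ofReal ?_)
    exact (h X W).resolve_right fun h' => hXS h'.1

omit [MeasurableSpace E] [BorelSpace E] in
theorem add_supp {G : Type} [Zero G] (hU : U ⟂ 𝒲) (h1 : U ≤ V) (h2 : 𝒲 ≤ V) {ψ : E → G} {R : ℝ}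
    (hR : ∀ x ∈ V, R < ‖x‖ → ψ x = 0) : HasCompactSupport fun p : U × 𝒲 => ψ (p.1 + p.2) := by
  refine HasCompactSupport.intro (isCompact_closedBall 0 R) fun p hp => hR _
    (V.add_mem (h1 p.1.2) (h2 p.2.2)) ?_
  rw [mem_closedBall_zero_iff, not_le] at hp
  refine hp.trans_le (max_le ?_ ?_)
  · have h := U.norm_starProjection_apply_le (p.1 + p.2 : E)
    rwa [proj_left hU p.1.2 p.2.2] at h
  · have h := 𝒲.norm_starProjection_apply_le (p.1 + p.2 : E)
    rwa [proj_right hU p.1.2 p.2.2] at h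

/-- the Gaussian kernel -/
def kk (A : E → E →L[ℝ] E) (q : E → F →L[ℂ] F) (s g : ℝ) (X W : E) : F →L[ℂ] F :=
  ((g ^ s * Real.exp (-(g / 2) * ⟪W, A X W⟫) : ℝ) : ℂ) • q X

variable {A : E → E →L[ℝ] E} {q : E → F →L[ℂ] F} {K : Set E} {a : ℝ}

omit [FiniteDimensional ℝ E] [MeasurableSpace E] [BorelSpace E] [FiniteDimensional ℂ F] in
theorem kk_cont (hK : IsClosed K) (hA : ∀ X ∈ K, ContinuousAt A X) (hq : ∀ X ∈ K, ContinuousAt q X)
    (h0 : ∀ X ∈ U, X ∉ K → q X = 0) (s g : ℝ) {Z : Type} [TopologicalSpace Z] {f₁ f₂ : Z → E}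
    (h₁ : Continuous f₁) (h₂ : Continuous f₂) (hU : ∀ z, f₁ z ∈ U) :
    Continuous fun z => kk A q s g (f₁ z) (f₂ z) := by
  refine continuous_iff_continuousAt.2 fun z => ?_
  by_cases hz : f₁ z ∈ K
  · exact (Complex.continuous_ofReal.continuousAt.comp (continuousAt_const.mul
      (continuousAt_const.mul (h₂.continuousAt.inner (((hA _ hz).comp h₁.continuousAt).clm_apply
        h₂.continuousAt))).rexp)).smul ((hq _ hz).comp h₁.continuousAt)
  · refine (continuousAt_const (y := 0)).congr ?_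
    filter_upwards [h₁.continuousAt.eventually (hK.isOpen_compl.mem_nhds hz)] with y hy
    rw [kk, h0 _ (hU y) hy, smul_zero]

theorem exp_sub_le {s t m : ℝ} (hs : s ≤ m) (ht : t ≤ m) :
    |Real.exp s - Real.exp t| ≤ |s - t| * Real.exp m := by
  wlog h : t ≤ s
  · rw [abs_sub_comm, abs_sub_comm s]; exact this ht hs (not_le.1 h).le
  rw [abs_of_nonneg (sub_nonneg.2 (Real.exp_le_exp.2 h)), abs_of_nonneg (sub_nonneg.2 h)]
  have h1 : Real.exp t = Real.exp s * Real.exp (t - s) := by rw [← Real.exp_add]; congr; ring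
  have h2 := Real.add_one_le_exp (t - s)
  have h3 := Real.exp_le_exp.2 hs
  have h4 := Real.exp_pos s
  nlinarith

omit [FiniteDimensional ℝ E] [MeasurableSpace E] [BorelSpace E] [FiniteDimensional ℂ F] in
theorem kk_diff (hK : IsCompact K) (hA : ContinuousOn A K) (hq : ContinuousOn q K) (ha : 0 < a)
    (pos : ∀ X ∈ K, ∀ W ∈ 𝒲, a * ‖W‖ ^ 2 ≤ ⟪W, A X W⟫) (s : ℝ) {τ : ℝ} (hτ : 0 < τ) :
    ∃ δ > 0, ∀ g > 0, ∀ X ∈ K, ∀ y ∈ K, ‖X - y‖ ≤ δ → ∀ W ∈ 𝒲,
      ‖kk A q s g X W - kk A q s g y W‖ ≤ τ * (g ^ s * Real.exp (-(a / 4 * (g * ‖W‖ ^ 2)))) := by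
  obtain ⟨M₀, hM₀⟩ := hK.exists_bound_of_continuousOn hq
  obtain ⟨M, hM0, hM⟩ : ∃ M > (0 : ℝ), ∀ X ∈ K, ‖q X‖ ≤ M :=
    ⟨|M₀| + 1, by positivity, fun X hX => by linarith [hM₀ X hX, le_abs_self M₀]⟩
  obtain ⟨δ₁, hδ₁, h1⟩ := Metric.uniformContinuousOn_iff_le.1
    (hK.uniformContinuousOn_of_continuous hq) (τ / 2) (half_pos hτ)
  obtain ⟨δ₂, hδ₂, h2⟩ := Metric.uniformContinuousOn_iff_le.1
    (hK.uniformContinuousOn_of_continuous hA) (τ * a / (4 * M)) (by positivity)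
  refine ⟨min δ₁ δ₂, lt_min hδ₁ hδ₂, fun g hg X hX y hy hXy W hW => ?_⟩
  have b1 := h1 X hX y hy (by rw [dist_eq_norm]; exact hXy.trans (min_le_left _ _))
  have b2 := h2 X hX y hy (by rw [dist_eq_norm]; exact hXy.trans (min_le_right _ _))
  rw [dist_eq_norm] at b1 b2
  have hp : 0 ≤ g ^ s := by positivity
  obtain ⟨t, ht⟩ : ∃ t, t = a / 4 * (g * ‖W‖ ^ 2) := ⟨_, rfl⟩
  have t0 : 0 ≤ t := by rw [ht]; positivity
  have p : ∀ Z ∈ K, -(g / 2) * ⟪W, A Z W⟫ ≤ -t + -t := fun Z hZ => by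
    have := mul_le_mul_of_nonneg_left (pos Z hZ W hW) hg.le
    linarith
  have b3 := exp_sub_le (p X hX) (p y hy)
  have b4 : |-(g / 2) * ⟪W, A X W⟫ - -(g / 2) * ⟪W, A y W⟫| ≤ τ / (2 * M) * t := by
    rw [← mul_sub, ← inner_sub_right, ← sub_apply, abs_mul, abs_neg, abs_of_pos (half_pos hg)]
    calc _ ≤ g / 2 * (τ * a / (4 * M) * ‖W‖ ^ 2) := by
          gcongr
          exact (GauAux.abs_inner_le W _).trans (by gcongr)
      _ = _ := by rw [ht]; field_simp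
  have b5 : t * Real.exp (-t) ≤ 1 := by
    rw [Real.exp_neg, mul_inv_le_iff₀ (Real.exp_pos t)]
    linarith [Real.add_one_le_exp t]
  have b6 : Real.exp (-(g / 2) * ⟪W, A X W⟫) ≤ Real.exp (-t) :=
    Real.exp_le_exp.2 (by linarith [p X hX])
  have b7 : |Real.exp (-(g / 2) * ⟪W, A X W⟫) - Real.exp (-(g / 2) * ⟪W, A y W⟫)| ≤
      τ / (2 * M) * Real.exp (-t) := by
    refine b3.trans ?_
    rw [Real.exp_add]
    calc _ ≤ τ / (2 * M) * t * (Real.exp (-t) * Real.exp (-t)) := by gcongr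
      _ = τ / (2 * M) * Real.exp (-t) * (t * Real.exp (-t)) := by ring
      _ ≤ _ := mul_le_of_le_one_right (by positivity) b5
  have e : kk A q s g X W - kk A q s g y W =
      ((g ^ s * Real.exp (-(g / 2) * ⟪W, A X W⟫) : ℝ) : ℂ) • (q X - q y) +
      ((g ^ s * (Real.exp (-(g / 2) * ⟪W, A X W⟫) - Real.exp (-(g / 2) * ⟪W, A y W⟫)) : ℝ) : ℂ) •
        q y := by
    rw [kk, kk, smul_sub, mul_sub, Complex.ofReal_sub, sub_smul]; abel
  rw [e, ← ht]
  refine (norm_add_le _ _).trans ?_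
  rw [norm_smul, norm_smul, Complex.norm_real, Complex.norm_real, Real.norm_eq_abs,
    Real.norm_eq_abs, abs_mul, abs_mul, abs_of_nonneg hp, abs_of_pos (Real.exp_pos _)]
  calc _ ≤ g ^ s * Real.exp (-t) * (τ / 2) + g ^ s * (τ / (2 * M) * Real.exp (-t)) * M := by
        gcongr
        exact hM y hy
    _ = _ := by field_simp; ring

theorem opt {x A B n : ℝ} (hA : 0 ≤ A) (hn : 0 ≤ n) (h : ∀ l > 0, x ≤ l * A + l⁻¹ * (B * n)) :
    x ≤ (A + B) * √n := by
  rcases hn.eq_or_lt with rfl | hn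
  · rw [Real.sqrt_zero, mul_zero]
    refine le_of_forall_pos_le_add fun ε hε => ?_
    have h1 := h (ε / (A + 1)) (by positivity)
    have h2 : ε / (A + 1) * A ≤ ε := by
      rw [div_mul_eq_mul_div, div_le_iff₀ (by positivity)]; nlinarith
    linarith
  · have h1 := Real.sqrt_pos.2 hn
    refine (h _ h1).trans_eq ?_
    nth_rewrite 3 [← Real.mul_self_sqrt hn.le]
    field_simp

theorem fin {D ε m t M n A B : ℝ} (hD : 0 ≤ D) (hε : 0 < ε) (hm : 0 ≤ m) (ht : 0 ≤ t)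
    (hA : 0 ≤ A) (hB : 0 ≤ B) (h1 : t * (|M| * √n) ≤ √ε / 2) (h2 : A + B ≤ √ε / 2)
    (h : ∀ l > 0, ENNReal.ofReal D ≤ ENNReal.ofReal t * ENNReal.ofReal (M * √n * √m) +
      ENNReal.ofReal (l * A + l⁻¹ * (B * m))) : D ^ 2 ≤ ε * m := by
  have h3 : D - t * (|M| * √n * √m) ≤ (A + B) * √m := opt hA hm fun l hl => by
    have h4 : ENNReal.ofReal (M * √n * √m) ≤ ENNReal.ofReal (|M| * √n * √m) :=
      ENNReal.ofReal_le_ofReal (by gcongr; exact le_abs_self M)
    have h5 := (h l hl).trans (add_le_add_left (mul_le_mul_right h4 _) _)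
    rw [← ENNReal.ofReal_mul ht, ← ENNReal.ofReal_add (by positivity) (by positivity),
      ENNReal.ofReal_le_ofReal_iff (by positivity)] at h5
    linarith
  have h4 := Real.sqrt_nonneg m
  have h5 : D ≤ √ε * √m := by
    nlinarith [mul_le_mul_of_nonneg_right h1 h4, mul_le_mul_of_nonneg_right h2 h4]
  calc _ ≤ _ := pow_le_pow_left₀ hD h5 2
    _ = _ := by rw [mul_pow, Real.sq_sqrt hε.le, Real.sq_sqrt hm]

theorem far {g a k δ t t' b p w j l : ℝ} (hg : 1 ≤ g) (ha : 0 < a) (hk : 0 ≤ k) (hδ : 0 ≤ δ)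
    (ht : δ ≤ t) (hw : 1 ≤ w) (hj : 1 ≤ j) (hl : 0 < l) (hb : 0 ≤ b) (hp : 0 ≤ p) :
    Real.exp (-(k * (g * t' ^ 2))) * Real.exp (-(a / 4 * (g * t ^ 2))) * b * p ≤
      Real.exp (-(a / 8 * δ ^ 2) * g) *
        (l * (b ^ 2 * w * Real.exp (-(a / 4 * t ^ 2))) + l⁻¹ * (j * p ^ 2)) := by
  have h1 : Real.exp (-(k * (g * t' ^ 2))) ≤ 1 :=
    Real.exp_le_one_iff.2 (neg_nonpos.2 (by positivity))
  have h2 : Real.exp (-(a / 4 * (g * t ^ 2))) ≤
      Real.exp (-(a / 8 * δ ^ 2) * g) * Real.exp (-(a / 8 * t ^ 2)) := by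
    rw [← Real.exp_add]
    refine Real.exp_le_exp.2 ?_
    have := pow_le_pow_left₀ hδ ht 2
    nlinarith [mul_le_mul_of_nonneg_left this (by positivity : 0 ≤ a * g),
      mul_le_mul_of_nonneg_left hg (by positivity : 0 ≤ a * t ^ 2)]
  have h3 : Real.exp (-(a / 4 * t ^ 2)) = Real.exp (-(a / 8 * t ^ 2)) ^ 2 := by
    rw [sq (Real.exp _), ← Real.exp_add]; congr; ring
  rw [h3]
  have h4 := Real.exp_pos (-(a / 8 * t ^ 2))
  generalize Real.exp (-(a / 8 * t ^ 2)) = e at *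
  have h5 : e * b * p ≤ l * (b ^ 2 * w * e ^ 2) + l⁻¹ * (j * p ^ 2) := by
    have h6 : e * b * p ≤ l * (b ^ 2 * e ^ 2) + l⁻¹ * p ^ 2 := by
      have h7 : l⁻¹ * (l * (e * b) - p) ^ 2 =
          l * (b ^ 2 * e ^ 2) + l⁻¹ * p ^ 2 - 2 * (e * b * p) := by field_simp; ring
      have h8 : 0 ≤ l⁻¹ * (l * (e * b) - p) ^ 2 := by positivity
      have h9 : 0 ≤ e * b * p := by positivity
      linarith
    refine h6.trans (add_le_add ?_ ?_)
    · gcongr; exact le_mul_of_one_le_right (sq_nonneg b) hw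
    · gcongr; exact le_mul_of_one_le_left (sq_nonneg p) hj
  calc _ ≤ 1 * (Real.exp (-(a / 8 * δ ^ 2) * g) * e) * b * p := by gcongr
    _ = Real.exp (-(a / 8 * δ ^ 2) * g) * (e * b * p) := by ring
    _ ≤ _ := by gcongr

end Vale.Agent.P353.Nc1Aux
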