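import Vale.Agent.P353.Stmts
import Vale.Agent.P353.Gau
import Vale.Agent.P353.Psq
import Vale.Agent.P353.Nc1Aux

/-! Freezing the coefficients. -/

noncomputable section

open MeasureTheory Filter Topology Complex Matrix
open scoped ContDiff RealInnerProductSpace

namespace Vale.Agent.P353

namespace Nc1Aux

open La1Aux

variable {N d : ℕ} {F : Type} [NormedAddCommGroup F] [InnerProductSpace ℂ F]
  [FiniteDimensional ℂ F] (c : Ctx N d F) {π π' π'' : Setoid (Fin N)} {𝔞 : Submodule ℝ (Lg d)}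
  {v : Fin 9 → ℝ}

/-- the slow factor of the kernel -/
def qn (𝔴 : Submodule ℝ (Lg d)) (v : Fin 9 → ℝ) (χ : Tn 9 d → ℝ) (X : Tn 9 d) : F →L[ℂ] F :=
  ((χ X * √(c.jw 𝔴 v X) * gnorm (Wsl 𝔴 v) (c.Aw 𝔴 X) : ℝ) : ℂ) • c.Pw 𝔴 X

theorem kk_apply (𝔴 : Submodule ℝ (Lg d)) (v : Fin 9 → ℝ) (χ : Tn 9 d → ℝ) {g : ℝ} (hg : 0 < g)
    (X W : Tn 9 d) (a : F) :
    kk (c.Aw 𝔴) (qn c 𝔴 v χ) ((Module.finrank ℝ (Wsl 𝔴 v) : ℝ) / 4) g X W a =
      ((χ X * √(c.jw 𝔴 v X) * c.Gg 𝔴 v g X W : ℝ) : ℂ) • c.Pw 𝔴 X a := by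
  rw [kk, qn, Ctx.Gg, gauss_eq _ _ hg, smul_smul, ← Complex.ofReal_mul, _root_.smul_apply]
  congr 2
  ring

theorem TT_eq (χ : Tn 9 d → ℝ) {g : ℝ} (hg : 0 < g) (ψ : Tn 9 d → F) (X : c.Sl 𝔞 π') :
    c.TT π 𝔞 π' v χ g ψ X = ∫ W : Wsl (c.off π π') v, kk (c.Aw (c.off π π'))
      (qn c (c.off π π') v χ) ((Module.finrank ℝ (Wsl (c.off π π') v) : ℝ) / 4) g X W
        (ψ (X + W)) := by
  rw [Ctx.TT, Ctx.Tr, Submodule.starProjection_eq_self_iff.2 X.2, Ctx.T0, ← integral_smul]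
  simp only [kk_apply c _ v χ hg, Ctx.kap, smul_smul, Complex.ofReal_mul]

theorem Om_mul (χ η : Tn 9 d → ℝ) (g : ℝ) (b : Tn 9 d → F) (X : Tn 9 d) :
    c.Om π 𝔞 π' g (fun x => χ x * η x) b X =
      (χ ((c.CS 𝔞 π').starProjection X) : ℂ) • c.Om π 𝔞 π' g η b X := by
  simp only [Ctx.Om]
  split_ifs
  · rw [smul_smul, ← Complex.ofReal_mul]
    congr 2
    ring
  · rw [smul_zero]

theorem Mid_eq (h : π'' ≤ π') (χ η : Tn 9 d → ℝ) {g : ℝ} (hg : 0 < g) (ψ : Tn 9 d → F)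
    (β : LL (sub 9 (c.ss π'')) F) : c.Mid π 𝔞 π' π'' v g ψ (fun x => χ x * η x) β =
      ∫ X : c.Sl 𝔞 π', ∫ W : Wsl (c.off π π') v,
        inner ℂ (c.Om π' (𝔞 ⊓ c.blk π') π'' g η (rep _ β) X) (kk (c.Aw (c.off π π'))
          (qn c (c.off π π') v χ) ((Module.finrank ℝ (Wsl (c.off π π') v) : ℝ) / 4) g
            ((c.CS 𝔞 π'').starProjection X) W (ψ (X + W))) := by
  simp only [Ctx.Mid, kk_apply c _ v χ hg, Om_mul, c.CS_inf h, map_smul, inner_smul_left,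
    inner_smul_right, Complex.conj_ofReal, Ctx.Pw, vac_symm, Complex.ofReal_mul]
  congr 1
  ext X
  congr 1
  ext W
  ring

theorem Om_bound (h_lm1 : c.S_lm1) (h_lm3 : c.S_lm3) (h_orb : c.S_orb) (h : π' ≤ π)
    {η : Tn 9 d → ℝ} (hη : Continuous η) {K : Set (Tn 9 d)} (hK : IsCompact K)
    (h1 : K ⊆ c.Gen π π') (h2 : K ⊆ c.CS 𝔞 π') (h0 : ∀ x ∈ c.CS 𝔞 π', x ∉ K → η x = 0) :
    ∃ k > 0, ∃ M > (0 : ℝ), ∀ g > 0, ∀ (b : Tn 9 d → F) (X : Tn 9 d), c.Om π 𝔞 π' g η b X ≠ 0 →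
      (c.CS 𝔞 π').starProjection X ∈ K ∧
      ‖X - (c.CS 𝔞 π').starProjection X‖ ≤ g ^ (-(1 / 6 : ℝ)) ∧
      ‖c.Om π 𝔞 π' g η b X‖ ≤ M * (g ^ (5 / 2 * (Module.finrank ℝ (c.off π π') : ℝ)) *
        Real.exp (-(k * (g * ‖(sub 9 (c.off π π')).starProjection X‖ ^ 2))) *
        ‖dil (sub 9 (c.ss π')) (ell g) b ((sub 9 (c.ss π')).starProjection X)‖) := by
  obtain ⟨𝒱, -, h𝒱⟩ := h_orb.dir
  have hO : ∀ y ∈ K, ∃ v, y ∈ c.Ow (c.off π π') v := fun y hy =>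
    let ⟨v, _, hv⟩ := h𝒱 π π' h y (sub_mono inf_le_right (h2 hy)) (h1 hy); ⟨v, hv⟩
  obtain ⟨k, hk, hom⟩ := exists_lower_compact (K := c.om (c.off π π')) hK
    (fun y hy => let ⟨v, hv⟩ := hO y hy; (h_lm1.sm_om _ v y hv).continuousAt.continuousWithinAt) ⊤
    fun y hy u _ hu => let ⟨v, hv⟩ := hO y hy; (h_lm1.om_pd _ v y hv).2 u hu
  obtain ⟨M, hM⟩ := hK.exists_bound_of_continuousOn (f := fun y => c.ng (c.off π π') 1 y * η y)
    fun y hy => let ⟨v, hv⟩ := hO y hy; (((h_lm3.ng_cont _ v).continuousAt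
      ((h_lm1.isOpen _ v).mem_nhds hv)).mul hη.continuousAt).continuousWithinAt
  refine ⟨k / 2, half_pos hk, |M| + 1, by positivity, fun g hg b X hX => ?_⟩
  simp only [Ctx.Om] at hX ⊢
  split_ifs at hX ⊢ with hc
  swap
  · exact (hX rfl).elim
  have hy : (c.CS 𝔞 π').starProjection X ∈ K := by_contra fun h' =>
    hX (by rw [h0 _ (Submodule.starProjection_apply_mem _ X) h']; simp)
  refine ⟨hy, hc, ?_⟩
  have e1 := hM _ hy
  have e2 : ∀ W : Tn 9 d, k * ‖W‖ ^ 2 ≤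
      ⟪W, kr 1 (c.om (c.off π π') ((c.CS 𝔞 π').starProjection X)) W⟫ := fun W => by
    rw [inner_eq_sum_cmp, norm_sq_eq_sum_cmp, Finset.mul_sum]
    exact Finset.sum_le_sum fun i _ => by rw [cmp_kr_one]; exact hom _ hy _ trivial
  have e3 := mul_le_mul_of_nonneg_left (e2 ((sub 9 (c.off π π')).starProjection X)) hg.le
  rw [norm_smul, h_lm3.ng_scale _ _ g hg, Complex.norm_real, mul_right_comm, mul_assoc (g ^ _),
    norm_mul, norm_mul, Real.norm_of_nonneg (Real.exp_pos _).le,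
    Real.norm_of_nonneg (by positivity)]
  calc _ ≤ g ^ (5 / 2 * (Module.finrank ℝ (c.off π π') : ℝ)) * (|M| + 1) *
        Real.exp (-(k / 2 * (g * ‖(sub 9 (c.off π π')).starProjection X‖ ^ 2))) *
        ‖dil (sub 9 (c.ss π')) (ell g) b ((sub 9 (c.ss π')).starProjection X)‖ := by
        gcongr
        · linarith [le_abs_self M]
        · linarith
        · exact norm_vac_le _ _
    _ = _ := by ring

theorem decay (p : ℝ) {a : ℝ} (ha : 0 < a) :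
    Tendsto (fun g : ℝ => g ^ p * Real.exp (-a * g)) atTop (𝓝 0) :=
  tendsto_rpow_mul_exp_neg_mul_atTop_nhds_zero p a ha

theorem dens_norm {ψ : Tn 9 d → F} (hψ : ψ ∈ c.D π 𝔞) : c.Dens π 𝔞 (fun x => ‖ψ x‖) ∧
    c.Dens π 𝔞 fun x => ‖ψ x‖ ^ 2 := by
  obtain ⟨h1, h2⟩ := c.mem_D.1 hψ
  exact ⟨⟨h1.1.continuous.norm, fun _ => norm_nonneg _, fun u hu x hx => by
      simp only [h2 u hu x hx, c.Uiso], h1.2.norm⟩,
    h1.1.continuous.norm.pow 2, fun _ => sq_nonneg _, c.invR_normsq hψ,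
    h1.2.mono fun x hx h => hx (by simp [h])⟩

end Nc1Aux

open La1Aux Nc1Aux

namespace Ctx

variable {N d : ℕ} {F : Type} [NormedAddCommGroup F] [InnerProductSpace ℂ F]
  [FiniteDimensional ℂ F] (c : Ctx N d F)

theorem p_nc1 (h_lm1 : c.S_lm1) (h_lm3 : c.S_lm3) (h_orb : c.S_orb) (h_lam : c.S_lam)
    (h_tb : c.S_tb) (h_s1 : c.S_s1) (h_ub0 : c.S_ub0) : c.S_nc1 := by
  intro π 𝔞 π' v χ π'' hL hχ h'' η hη β ε hε
  have hT := hL.1.inf c hL.2.1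
  obtain ⟨K₀, hK₀, hK₀O, -, hχ0⟩ := hχ.1.2
  obtain ⟨Kη, hKη, hKηG, hKηC, hη0⟩ := hη.2
  have hCU : c.CS 𝔞 π'' ≤ c.Sl 𝔞 π' :=
    sub_mono (inf_le_inf_left _ ((c.cen_le_blk π'').trans (c.blk_mono h'')))
  have hSU : sub 9 (c.ss π'') ≤ c.Sl 𝔞 π' := sub_mono ((c.ss_mono h'').trans hT.1)
  have hUW : c.Sl 𝔞 π' ⟂ Wsl (c.off π π') v :=
    (sub_isOrtho ((c.off_isOrtho_blk π π').symm.mono_left inf_le_right)).mono_right inf_le_left
  have hUV : c.Sl 𝔞 π' ≤ sub 9 𝔞 := sub_mono inf_le_left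
  have hWV : Wsl (c.off π π') v ≤ sub 9 𝔞 :=
    inf_le_left.trans (sub_mono ((c.off_le_ss hL.2.1).trans hL.1.1))
  obtain ⟨δ₀, hδ₀, hK₁O⟩ := hK₀.exists_cthickening_subset_open (h_lm1.isOpen _ v) hK₀O
  have hK₁ := hK₀.cthickening (r := δ₀)
  have hK₀₁ : K₀ ⊆ Metric.cthickening δ₀ K₀ := Metric.self_subset_cthickening K₀
  have hnear : ∀ x y : Tn 9 d, y ∈ K₀ → ‖x - y‖ ≤ δ₀ → x ∈ Metric.cthickening δ₀ K₀ :=
    fun x y hy h => Metric.mem_cthickening_of_dist_le x y δ₀ K₀ hy (by rwa [dist_eq_norm])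
  generalize Metric.cthickening δ₀ K₀ = K₁ at hK₁O hK₁ hK₀₁ hnear
  obtain ⟨a, ha, M₀, hA⟩ := h_lm1.A_unif _ v _ hK₁ hK₁O
  have cA : ∀ X ∈ K₁, ContinuousAt (c.Aw (c.off π π')) X :=
    fun X hX => (h_lm1.sm_A _ v X (hK₁O hX)).continuousAt
  have cq : ∀ X ∈ K₁, ContinuousAt (qn c (c.off π π') v χ) X := fun X hX =>
    (Complex.continuous_ofReal.continuousAt.comp ((hχ.1.1.continuous.continuousAt.mul
      (h_lm1.j_cont _ v).sqrt.continuousAt).mul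
        ((contDiffAt_gnorm ha (hA X hX).2).continuousAt.comp (cA X hX)))).smul
      (h_lm1.sm_P _ v X (hK₁O hX)).continuousAt
  have q0 : ∀ X ∈ c.Sl 𝔞 π', X ∉ K₀ → qn c (c.off π π') v χ X = 0 := fun X hX h => by
    simp [qn, hχ0 X hX h]
  obtain ⟨k, hk, M, hM, hΩ⟩ := Om_bound c (𝔞 := 𝔞 ⊓ c.blk π') h_lm1 h_lm3 h_orb h''
    hη.1.continuous hKη hKηG (by rwa [c.CS_inf h'']) (by rwa [c.CS_inf h''])
  rw [c.CS_inf h''] at hΩ
  obtain ⟨δ₁, hδ₁, M₁, hub⟩ := h_ub0 π 𝔞 π' v π'' hL h'' (Kη ∩ K₁) (hKη.inter hK₁)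
    (fun y hy => hKηC hy.1) (fun y hy => h_orb.gen π π' π'' v hL.2.1 h'' y
      (sub_mono inf_le_right (hKηC hy.1)) (hK₁O hy.2) (hKηG hy.1)) (fun y hy => hK₁O hy.2)
    (min k (a / 4)) (lt_min hk (by positivity))
  obtain ⟨Ks, hKs, hs1⟩ := h_s1 π 𝔞 π' v hL
  obtain ⟨j₀, hj₀, hj⟩ := hK₁.exists_forall_le' (h_lm1.j_cont _ v).continuousOn
    fun X hX => h_lm1.j_pos _ v X (hK₁O hX)
  obtain ⟨R₁, hR₁⟩ := hK₁.isBounded.exists_norm_le
  obtain ⟨Mw, hMw, w, w0, w1, hw⟩ := slab hSU R₁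
  have gi := GauAux.integrable_exp_sq (W := Wsl (c.off π π') v) (by positivity : 0 < a / 4)
  obtain ⟨I, hI⟩ : ∃ I, I = ∫ W : Wsl (c.off π π') v, Real.exp (-(a / 4 * ‖W‖ ^ 2)) := ⟨_, rfl⟩
  have I0 : 0 ≤ I := hI ▸ integral_nonneg fun _ => (Real.exp_pos _).le
  obtain ⟨n, hn⟩ : ∃ n, n = nrm (sub 9 (c.ss π'')) (rep _ β) := ⟨_, rfl⟩
  have n0 : 0 ≤ n := hn ▸ nrm_nonneg _ _
  have he : 0 < √ε / 2 := half_pos (Real.sqrt_pos.2 hε)
  obtain ⟨τ, hτ, hτε⟩ : ∃ τ > 0, τ * M * (|M₁| * √n) ≤ √ε / 2 :=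
    ⟨√ε / 2 / (M * (|M₁| * √n) + 1), by positivity, by
      rw [mul_assoc, div_mul_eq_mul_div, div_le_iff₀ (by positivity)]
      gcongr; linarith⟩
  obtain ⟨δ₂, hδ₂, hkk⟩ := kk_diff hK₁ (fun X hX => (cA X hX).continuousWithinAt)
    (fun X hX => (cq X hX).continuousWithinAt) ha (fun X hX => (hA X hX).2)
    ((Module.finrank ℝ (Wsl (c.off π π') v) : ℝ) / 4) hτ
  obtain ⟨p, hp⟩ : ∃ p, p = 5 / 2 * (Module.finrank ℝ (c.off π' π'') : ℝ) +
    2 * (Module.finrank ℝ (c.off π π') : ℝ) := ⟨_, rfl⟩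
  have t1 := tendsto_rpow_neg_atTop (y := 1 / 6) (by norm_num)
  have t2 := ((decay p (by positivity : 0 < a / 8 * δ₁ ^ 2)).const_mul (τ * M)).mul_const
    (n * Mw * I + j₀⁻¹ * Ks)
  rw [mul_zero, zero_mul] at t2
  filter_upwards [eventually_ge_atTop 1, t1.eventually (ge_mem_nhds hδ₀),
    t1.eventually (ge_mem_nhds hδ₁), t1.eventually (ge_mem_nhds hδ₂),
    t2.eventually (ge_mem_nhds he)] with g hg g0 g1 g2 g3 ψ hψ
  have hg0 : 0 < g := by linarith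
  have hψS : Sm (sub 9 𝔞) ψ := hψ.1
  obtain ⟨R, hR⟩ := hψS.exists_bound
  have hΩm := h_lam.memLp π' _ π'' hT h'' η (by rwa [c.CS_inf h'']) g hg0 _ (memLp_rep β)
  have hB := memLp_dil (ell_pos hg0) (memLp_rep β)
  have hBn : ∫ x : sub 9 (c.ss π''), ‖dil (sub 9 (c.ss π'')) (ell g) (rep _ β) x‖ ^ 2 = n :=
    (nrm_dil _ (ell_pos hg0) _).trans hn.symm
  have cψ : Continuous fun p : c.Sl 𝔞 π' × Wsl (c.off π π') v => ψ (p.1 + p.2) :=
    hψS.1.continuous.comp (by fun_prop)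
  have sψ := add_supp hUW hUV hWV hR
  have ck := fun f₁ h₁ hU => (kk_cont (U := c.Sl 𝔞 π') hK₀.isClosed (fun X hX => cA X (hK₀₁ hX))
    (fun X hX => cq X (hK₀₁ hX)) q0 ((Module.finrank ℝ (Wsl (c.off π π') v) : ℝ) / 4) g
    (f₁ := f₁) (f₂ := fun p : c.Sl 𝔞 π' × Wsl (c.off π π') v => p.2) h₁ (by fun_prop)
      hU).clm_apply cψ
  have key := diff_le hΩm (ck (fun p => p.1) (by fun_prop) fun p => p.1.2)
    (sψ.mono fun p hp h => hp (by simp only [h, map_zero]))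
    (ck (fun p => (c.CS 𝔞 π'').starProjection p.1) (by fun_prop)
      fun p => hCU (Submodule.starProjection_apply_mem _ _))
    (sψ.mono fun p hp h => hp (by simp only [h, map_zero]))
  have hu := hub g hg 1 (by simpa using hδ₁.le) (fun x hx => hx)
    (fun x => ‖dil (sub 9 (c.ss π'')) (ell g) (rep _ β) x‖) hB.norm _ (dens_norm c hψ).1
  rw [hBn, ← hp] at hu
  rw [Ctx.Lam, Ctx.Lamf, ip, Mid_eq c h'' χ η hg0]
  simp only [TT_eq c χ hg0]
  obtain ⟨μ, hμ⟩ : ∃ μ, μ = τ * M * (g ^ p * Real.exp (-(a / 8 * δ₁ ^ 2) * g)) := ⟨_, rfl⟩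
  have μ0 : 0 ≤ μ := by rw [hμ]; positivity
  rw [← hμ, mul_add] at g3
  refine fin (M := M₁) (n := n) (norm_nonneg _) hε (nrm_nonneg _ _) (by positivity)
    (by positivity) (by positivity) hτε g3 fun l hl => ?_
  dsimp only at key
  refine le_trans key ?_
  obtain ⟨i1, i2⟩ := hw (fun x => ‖dil (sub 9 (c.ss π'')) (ell g) (rep _ β) x‖ ^ 2)
    (hB.integrable_norm_pow two_ne_zero)
  have i3 := i1.mul_prod gi
  have i4 : Integrable (fun p : c.Sl 𝔞 π' × Wsl (c.off π π') v =>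
      c.jw (c.off π π') v p.1 * ‖ψ (p.1 + p.2)‖ ^ 2) (volume.prod volume) :=
    (((h_lm1.j_cont _ v).comp (by fun_prop)).mul (cψ.norm.pow 2)).integrable_of_hasCompactSupport
      (sψ.mono fun p hp h => hp (by simp [h]))
  have i5 := ((i3.const_mul l).add ((i4.const_mul j₀⁻¹).const_mul l⁻¹)).const_mul μ
  refine (split ?_ ?_ (by positivity) i5 (fun p => ?_) ?_).trans
    (add_le_add (mul_le_mul_right hu _) (ENNReal.ofReal_le_ofReal ?_))
  · refine IsClosed.measurableSet (IsClosed.and ((hKη.inter hK₁).isClosed.preimage ?_)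
      (isClosed_le ?_ continuous_const)) <;> fun_prop
  · exact (isClosed_le (by fun_prop) continuous_const).measurableSet
  · have := w0 p.1
    have : 0 ≤ c.jw (c.off π π') v p.1 := abs_nonneg _
    simp only [Pi.add_apply]
    positivity
  · rintro ⟨X, hX⟩ ⟨W, hW⟩
    have hw0 := w0 X
    have hj0 : 0 ≤ c.jw (c.off π π') v X := abs_nonneg _
    simp only [Pi.add_apply, Submodule.coe_norm, Set.mem_setOf_eq]
    by_cases h0 : c.Om π' (𝔞 ⊓ c.blk π') π'' g η (rep _ β) X = 0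
    · left; rw [h0, norm_zero, zero_mul]; positivity
    obtain ⟨y1, y2, y3⟩ := hΩ g hg0 _ X h0
    have yU := hCU (Submodule.starProjection_apply_mem _ X)
    by_cases h1 : X ∉ K₀ ∧ (c.CS 𝔞 π'').starProjection X ∉ K₀
    · left
      simp only [Nc1Aux.kk, q0 _ hX h1.1, q0 _ yU h1.2, smul_zero, sub_zero, _root_.zero_apply,
        norm_zero, mul_zero]
      positivity
    have h2 : X ∈ K₁ ∧ (c.CS 𝔞 π'').starProjection X ∈ K₁ := by
      rcases not_and_or.1 h1 with h | h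
      · exact ⟨hK₀₁ (not_not.1 h), hnear _ _ (not_not.1 h) (by rw [norm_sub_rev]; linarith)⟩
      · exact ⟨hnear _ _ (not_not.1 h) (y2.trans g0), hK₀₁ (not_not.1 h)⟩
    have h3 := hkk g hg0 _ h2.1 _ h2.2 (y2.trans g2) W hW
    have h4 := mul_le_mul y3 ((ContinuousLinearMap.le_opNorm _ (ψ (X + W))).trans
      (mul_le_mul_of_nonneg_right h3 (norm_nonneg _))) (norm_nonneg _) (by positivity)
    rw [_root_.sub_apply] at h4
    have h5 : g ^ p = g ^ (5 / 2 * (Module.finrank ℝ (c.off π' π'') : ℝ)) *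
        g ^ ((Module.finrank ℝ (Wsl (c.off π π') v) : ℝ) / 4) := by
      rw [← Real.rpow_add hg0, finrank_Wsl _ hL.2.2, hp]; congr 1; push_cast; ring
    by_cases h6 : ‖W‖ ≤ δ₁
    · refine Or.inr ⟨⟨⟨y1, h2.2⟩, y2.trans g1⟩, h6, h4.trans ?_⟩
      have h7 : Real.exp (-(k * (g * ‖(sub 9 (c.off π' π'')).starProjection X‖ ^ 2))) *
          Real.exp (-(a / 4 * (g * ‖W‖ ^ 2))) ≤ Real.exp (-(min k (a / 4) * g *
            (‖(sub 9 (c.off π' π'')).starProjection X‖ ^ 2 + ‖W‖ ^ 2))) := by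
        rw [← Real.exp_add, ← neg_add, mul_assoc (min _ _), mul_add g, mul_add]
        gcongr
        exacts [min_le_left _ _, min_le_right _ _]
      rw [abs_norm, one_apply_eq_self, h5]
      refine le_trans (le_of_eq ?_) (mul_le_mul_of_nonneg_left (mul_le_mul_of_nonneg_right
        (mul_le_mul_of_nonneg_right (mul_le_mul_of_nonneg_left h7 (by positivity))
          (norm_nonneg _)) (norm_nonneg _)) (by positivity))
      ring
    · have h7 := far (t' := ‖(sub 9 (c.off π' π'')).starProjection X‖) hg ha hk.le hδ₁.le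
        (not_le.1 h6).le (w1 _ (hR₁ _ h2.1)) ((le_inv_mul_iff₀ hj₀).2 (by simpa using hj _ h2.1))
        hl (norm_nonneg (dil (sub 9 (c.ss π'')) (ell g) (rep _ β)
          ((sub 9 (c.ss π'')).starProjection X))) (norm_nonneg (ψ (X + W)))
      have h8 := mul_le_mul_of_nonneg_left h7 (by positivity : 0 ≤ τ * M * g ^ p)
      refine Or.inl (h4.trans (le_trans (le_of_eq ?_) (h8.trans_eq ?_)))
      · rw [h5]; ring
      · rw [hμ]; ring
  · have h1 := hs1 _ (dens_norm c hψ).2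
    simp only [Pi.add_apply]
    rw [integral_const_mul, integral_add (i3.const_mul l) ((i4.const_mul j₀⁻¹).const_mul l⁻¹),
      integral_const_mul, integral_const_mul, integral_const_mul, integral_prod_mul
        (f := fun X : c.Sl 𝔞 π' => ‖dil (sub 9 (c.ss π'')) (ell g) (rep _ β)
          ((sub 9 (c.ss π'')).starProjection X)‖ ^ 2 * w X)
        (g := fun W : Wsl (c.off π π') v => Real.exp (-(a / 4 * ‖W‖ ^ 2))), i2, hBn, ← hI,
      integral_prod _ i4]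
    simp only [integral_const_mul]
    calc _ ≤ μ * (l * (n * Mw * I) + l⁻¹ * (j₀⁻¹ * (Ks * nrm (sub 9 𝔞) ψ))) := by
          gcongr; exact h1
      _ = _ := by ring

end Ctx

end Vale.Agent.P353
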