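import Vale.Agent.P353.Nc2AuxE

/-! Averaging over the gauge directions. -/

noncomputable section

open MeasureTheory Filter Topology Complex Matrix
open scoped ContDiff RealInnerProductSpace ENNReal

namespace Vale.Agent.P353

namespace Nc2Aux

variable {N d : ℕ} {F : Type} [NormedAddCommGroup F] [InnerProductSpace ℂ F]
  [FiniteDimensional ℂ F] (c : Ctx N d F) {π π' π'' : Setoid (Fin N)}
  {𝔞 : Submodule ℝ (Lg d)} {v : Fin 9 → ℝ}

theorem cont_Ph (a g : ℝ) : Continuous fun p : Tn 9 d × Tn 9 d => Ph c π π' π'' a g p.1 p.2 := by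
  unfold Ph
  fun_prop

theorem cont_Lt : Continuous fun p : (Lg d × ℝ) × Tn 9 d => Lt c 𝔞 π'' p.1.1 p.1.2 p.2 := by
  obtain ⟨L, hL⟩ := c.exists_vfL
  simp only [Lt_apply, ← hL]
  fun_prop

theorem pull {α β : Type} [MeasurableSpace α] [MeasurableSpace β] (μ : Measure α) (ν : Measure β)
    {r B : ℝ} (hr : 0 ≤ r) {H : α → β → ℝ≥0∞} (h : ∫⁻ x, ∫⁻ y, H x y ∂ν ∂μ ≤ ENNReal.ofReal B) :
    ∫⁻ x, ∫⁻ y, ENNReal.ofReal r * H x y ∂ν ∂μ ≤ ENNReal.ofReal (r * B) := by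
  simp_rw [lintegral_const_mul' _ _ ENNReal.ofReal_ne_top]
  rw [ENNReal.ofReal_mul hr]
  gcongr

theorem tendsto_c1 (a M C : ℝ) : Tendsto (c1 a M C) atTop (𝓝 0) := by
  have h1 : Tendsto (fun g : ℝ => (√g)⁻¹) atTop (𝓝 0) :=
    tendsto_inv_atTop_zero.comp Real.tendsto_sqrt_atTop
  have := ((h1.const_mul C).add (tendsto_r.const_mul (2 * (1 + 2 * M ^ 2)))).const_mul
    (M ^ 5 * (√a)⁻¹)
  simp only [mul_zero, add_zero] at this
  exact this

theorem tendsto_c3 {a δ : ℝ} (ha : 0 < a) (hδ : 0 < δ) (M P : ℝ) :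
    Tendsto (c3 a M P δ) atTop (𝓝 0) := by
  have := (tendsto_rpow_mul_exp_neg_mul_atTop_nhds_zero P (a * δ ^ 2 / 2)
    (by positivity)).const_mul (M ^ 4)
  rw [mul_zero] at this
  exact this

/-- the estimate at fixed coupling -/
theorem fixed (h1 : c.S_lm1) (h3 : c.S_lm3) (hl : c.S_lam) (hL : c.Lc π 𝔞 π' v) (h'' : π'' ≤ π')
    {K : Set (Tn 9 d)} (hK : IsCompact K) (hC : K ⊆ c.CS 𝔞 π'') (hG : K ⊆ c.Gen π π'')
    (hO : K ⊆ c.Ow (c.off π π') v) {η : Tn 9 d → ℝ} (hη0 : ContDiff ℝ ∞ η)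
    (hη : ∀ x ∈ c.CS 𝔞 π'', x ∉ K → η x = 0) (β : LL (sub 9 (c.ss π'')) F) {g : ℝ} (hg : 0 < g)
    {a M : ℝ} (hU : Unif c π π' π'' v K η a M) {ψ : Tn 9 d → F} (hψ : Sm (sub 9 𝔞) ψ) {B : ℝ}
    (hB : 0 ≤ B) (h : ∫⁻ X : c.Sl 𝔞 π', ∫⁻ W : Wsl (c.off π π') v, ∫⁻ ξ : c.off π π',
      DD c π π' v g ψ (c.Om π' (𝔞 ⊓ c.blk π') π'' g η (rep _ β) X)
        ((c.CS 𝔞 π'').starProjection X) X W ξ ≤ ENNReal.ofReal B) :
    ‖c.Mid π 𝔞 π' π'' v g ψ η β - c.Lam π 𝔞 π'' g ψ η β‖ ≤ B := by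
  have hm1 := hl.memLp π 𝔞 π'' hL.1 (h''.trans hL.2.1) η ⟨hη0, K, hK, hG, hC, hη⟩ g hg
    (rep _ β) (memLp_rep β)
  have hm2 := hl.memLp π' (𝔞 ⊓ c.blk π') π'' (hL.1.inf c hL.2.1) h'' η
    (by
      rw [c.CS_inf h'']
      exact ⟨hη0, K, hK, fun y hy a b hab hn => hG hy a b (hL.2.1 hab) hn, hC, hη⟩) g hg
    (rep _ β) (memLp_rep β)
  have hi : Integrable fun x : sub 9 𝔞 => inner ℂ (c.Om π 𝔞 π'' g η (rep _ β) x) (ψ x) :=
    (hm1.norm.integrable_mul hψ.memLp.norm).mono' (hm1.1.inner hψ.memLp.1)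
      (Eventually.of_forall fun x => norm_inner_le_norm _ _)
  have hs : c.Sl 𝔞 π' ⊔ sub 9 (c.off π π') = sub 9 𝔞 := by
    rw [← sub_sup, hL.1.sup_off c hL.2.1]
  have hp := (integrable_sup (Sl_ortho c) hs
    (f := fun x => inner ℂ (c.Om π 𝔞 π'' g η (rep _ β) x) (ψ x))).1 hi
  rw [Ctx.Lam, Ctx.Lamf, ip, integral_sup (Sl_ortho c) hs
    (f := fun x => inner ℂ (c.Om π 𝔞 π'' g η (rep _ β) x) (ψ x)) hi, Ctx.Mid]
  refine diff_le (meas_mid c h1 hK hO hg hψ.1.continuous hm2.1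
    fun X hX => Om_zero c h'' hη g _ fun h => hX h.1) hp.integral_prod_left hB
    (le_trans (lintegral_mono_ae ?_) h)
  filter_upwards [hp.prod_right_ae] with X hX
  exact point c h1 h3 hL h'' hG hO hη hU hg _ hψ X.2 hX

end Nc2Aux

open Nc2Aux

namespace Ctx

variable {N d : ℕ} {F : Type} [NormedAddCommGroup F] [InnerProductSpace ℂ F]
  [FiniteDimensional ℂ F] (c : Ctx N d F)

theorem p_nc2 (h_lm1 : c.S_lm1) (h_lm3 : c.S_lm3) (h_orb : c.S_orb) (h_lam : c.S_lam)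
    (h_ub0 : c.S_ub0) (h_s1 : c.S_s1) : c.S_nc2 := by
  intro π 𝔞 π' v π'' hL h'' η hη β ε hε
  obtain ⟨hη0, K, hK, hKZ, hC, hη⟩ := hη
  have hG : K ⊆ c.Gen π π'' := fun y hy => (hKZ hy).1
  have hO : K ⊆ c.Ow (c.off π π') v := fun y hy => (hKZ hy).2
  obtain ⟨a, M, hU⟩ := exists_unif c h_lm1 h_lm3.toS_lm3a h_orb hL.2.1 h'' hK hC hG hO
    hη0.continuous
  have ha := hU.a_pos
  have hM : 0 < M := zero_lt_one.trans_le hU.M_one
  obtain ⟨δ₀, hδ₀, Mu, hub⟩ := h_ub0 π 𝔞 π' v π'' hL h'' K hK hC hG hO a ha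
  obtain ⟨δ₁, hδ₁, A, B, hA, hB, hfar⟩ := far c h_lm1 h_s1 hL h'' hK hO ha
  obtain ⟨C, hC0, hftc⟩ := ftc c
  set δ := min δ₀ δ₁ with hδd
  have hδ : 0 < δ := lt_min hδ₀ hδ₁
  set P : ℝ := 5 / 2 * (Module.finrank ℝ (c.off π' π'') : ℝ) +
    2 * (Module.finrank ℝ (c.off π π') : ℝ) with hP
  set cE : ℝ := (Real.pi / a) ^ ((Module.finrank ℝ (c.off π π') : ℝ) / 2) with hcE
  have hcE0 : 0 ≤ cE := by positivity
  set T : ℝ → ℝ := fun g => ∫ x : sub 9 (c.ss π''),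
    (wtl a g (x : Tn 9 d) * ‖dil (sub 9 (c.ss π'')) (ell g) (rep _ β) x‖) ^ 2 with hT
  set n₀ : ℝ := nrm (sub 9 (c.ss π'')) (rep _ β) with hn₀
  have hn0 : 0 ≤ n₀ := nrm_nonneg _ _
  set q : ℝ → ℝ := fun g => cE * (c1 a M C g * (|Mu| * √n₀) + M ^ 4 * (|Mu| * √(T g))) +
    cE * c3 a M P δ g * (A * n₀) + cE * c3 a M P δ g * B with hq
  have hq0 : Tendsto q atTop (𝓝 0) := by
    have t1 := (tendsto_c1 a M C).mul_const (|Mu| * √n₀)
    have t2 := (((tail (sub 9 (c.ss π'')) β ha).sqrt).const_mul |Mu|).const_mul (M ^ 4)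
    have t3 := (tendsto_c3 ha hδ M P).const_mul cE
    have := (((t1.add t2).const_mul cE).add (t3.mul_const (A * n₀))).add (t3.mul_const B)
    simpa using this
  have ev1 : ∀ᶠ g in atTop, q g ^ 2 ≤ ε := by
    have := hq0.pow 2
    rw [zero_pow two_ne_zero] at this
    exact (this.eventually (gt_mem_nhds hε)).mono fun _ h => h.le
  have ev2 : ∀ᶠ g : ℝ in atTop, M * g ^ (-(1 / 6 : ℝ)) ≤ δ / 2 := by
    have := tendsto_r.const_mul M
    rw [mul_zero] at this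
    exact (this.eventually (gt_mem_nhds (half_pos hδ))).mono fun _ h => h.le
  filter_upwards [ev1, ev2, eventually_ge_atTop 1] with g e1 e2 hg ψ hψ
  have hg0 : 0 < g := zero_lt_one.trans_le hg
  have hsm := (c.mem_D.1 hψ).1
  have hden := dens_Dens c hL.1 hg0 hψ
  have hh := sqrt_Dens c hden
  have hNG := integral_dens c g hsm
  have hNG0 : 0 ≤ c.NG 𝔞 g ψ := hNG ▸ integral_nonneg fun _ => dens_nonneg hg0 ψ _
  have hNG2 : ∫ x : sub 9 𝔞, √(dens 𝔞 g ψ x) ^ 2 = c.NG 𝔞 g ψ := by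
    simp_rw [Real.sq_sqrt (dens_nonneg hg0 ψ _)]
    exact hNG
  set t := √(c.NG 𝔞 g ψ) with ht
  have ht0 : 0 ≤ t := Real.sqrt_nonneg _
  have ht2 : t ^ 2 = c.NG 𝔞 g ψ := Real.sq_sqrt hNG0
  set b₀ : Tn 9 d → ℝ := fun x => ‖dil (sub 9 (c.ss π'')) (ell g) (rep _ β) x‖ with hb₀
  have mb₀ : Measurable b₀ := meas_dil _ _ β
  have lb₀ : MemLp (fun x : sub 9 (c.ss π'') => b₀ x) 2 volume :=
    (memLp_dil (ell_pos hg0) (memLp_rep β)).norm
  have ib₀ : ∫ x : sub 9 (c.ss π''), b₀ x ^ 2 = n₀ := nrm_dil _ (ell_pos hg0) _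
  have lb₁ : MemLp (fun x : sub 9 (c.ss π'') => wtl a g (x : Tn 9 d) * b₀ x) 2 volume := by
    refine lb₀.mono (((wtl_meas a g).mul mb₀).comp measurable_subtype_coe).aestronglyMeasurable
      (Eventually.of_forall fun x => ?_)
    rw [norm_mul, Real.norm_of_nonneg (wtl_mem ha hg0 _).1]
    exact mul_le_of_le_one_left (norm_nonneg _) (wtl_mem ha hg0 _).2
  have hc1 : 0 ≤ c1 a M C g := by unfold c1; positivity
  have hc3 : 0 ≤ c3 a M P δ g := by unfold c3; positivity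
  -- the crude bound on the smaller region
  have ub : ∀ L : Tn 9 d →L[ℝ] Tn 9 d, ‖L - 1‖ ≤ δ → (∀ x ∈ sub 9 𝔞, L x ∈ sub 9 𝔞) →
      ∀ b : Tn 9 d → ℝ, MemLp (fun x : sub 9 (c.ss π'') => b x) 2 volume →
      ∫⁻ X in {X : c.Sl 𝔞 π' | (c.CS 𝔞 π'').starProjection X ∈ K ∧
          ‖(X : Tn 9 d) - (c.CS 𝔞 π'').starProjection X‖ ≤ δ},
        ∫⁻ W in {W : Wsl (c.off π π') v | ‖(W : Tn 9 d)‖ ≤ δ}, ENNReal.ofReal
          (Ph c π π' π'' a g X W * |b ((sub 9 (c.ss π'')).starProjection X)| *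
            √(dens 𝔞 g ψ (L (X + W)))) ≤
        ENNReal.ofReal (|Mu| * √(∫ x : sub 9 (c.ss π''), b x ^ 2) * t) := by
    intro L hL1 hL2 b hb
    have := hub g hg L (hL1.trans (min_le_left _ _)) hL2 b hb _ hh
    rw [hNG2] at this
    refine le_trans ?_ (this.trans (ENNReal.ofReal_le_ofReal ?_))
    · have hδδ : δ ≤ δ₀ := min_le_left _ _
      refine (lintegral_mono_set ?_).trans (lintegral_mono fun X => lintegral_mono_set ?_)
      · exact fun X hX => ⟨hX.1, hX.2.trans hδδ⟩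
      · exact fun W hW => le_trans (α := ℝ) hW hδδ
    · gcongr
      exact le_abs_self _
  have key : ∀ τ > 0, ‖c.Mid π 𝔞 π' π'' v g ψ η β - c.Lam π 𝔞 π'' g ψ η β‖ ≤
      cE * (c1 a M C g * (|Mu| * √n₀) + M ^ 4 * (|Mu| * √(T g))) * t +
      (τ * (cE * c3 a M P δ g * (A * n₀)) + τ⁻¹ * (cE * c3 a M P δ g * B * t ^ 2)) := by
    intro τ hτ
    refine fixed c h_lm1 h_lm3 h_lam hL h'' hK hC hG hO hη0 hη β hg0 hU hsm (by positivity) ?_
    have ms : Measurable fun X : Tn 9 d => b₀ ((sub 9 (c.ss π'')).starProjection X) :=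
      mb₀.comp (Continuous.measurable (by fun_prop))
    have mw : Measurable fun X : Tn 9 d => wtl a g ((sub 9 (c.ss π'')).starProjection X) :=
      (wtl_meas a g).comp (Continuous.measurable (by fun_prop))
    have mb := main_bound (μ := (volume : Measure (c.Sl 𝔞 π')))
      (ν := (volume : Measure (Wsl (c.off π π') v))) (κ := (volume : Measure (c.off π π')))
      (D := fun X W ξ => DD c π π' v g ψ (c.Om π' (𝔞 ⊓ c.blk π') π'' g η (rep _ β) X)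
        ((c.CS 𝔞 π'').starProjection X) X W ξ)
      (B := {W | ‖(W : Tn 9 d)‖ ≤ δ}) (Ξ := {ξ | ‖(ξ : Lg d)‖ ≤ δ / 2})
      (meas_S c (π'' := π'') hK δ)
      (isClosed_le (by fun_prop) continuous_const).measurableSet
      (isClosed_le (by fun_prop) continuous_const).measurableSet
      (E := fun ξ => ENNReal.ofReal (g ^ ((Module.finrank ℝ (c.off π π') : ℝ) / 2) *
        Real.exp (-(a * g * ‖(ξ : Lg d)‖ ^ 2))))
      (Continuous.measurable (by fun_prop)).ennreal_ofReal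
      (H₁ := fun X W ξ t => ENNReal.ofReal (c1 a M C g) * ENNReal.ofReal (Ph c π π' π'' a g X W *
        |b₀ ((sub 9 (c.ss π'')).starProjection X)| * √(dens 𝔞 g ψ (Lt c 𝔞 π'' ξ t (X + W)))))
      (H₂ := fun X W => ENNReal.ofReal (M ^ 4) * ENNReal.ofReal (Ph c π π' π'' a g X W *
        |wtl a g ((sub 9 (c.ss π'')).starProjection X) *
          b₀ ((sub 9 (c.ss π'')).starProjection X)| *
        √(dens 𝔞 g ψ ((1 : Tn 9 d →L[ℝ] Tn 9 d) (X + W)))))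
      (H₃ := fun X W => ENNReal.ofReal (c3 a M P δ g) *
        (ENNReal.ofReal (τ * b₀ ((sub 9 (c.ss π'')).starProjection X) ^ 2 *
          Real.exp (-(a * ‖(W : Tn 9 d)‖ ^ 2))) + ENNReal.ofReal (τ⁻¹ * dens 𝔞 g ψ (X + W))))
      ?_ ?_ ?_ ?_
      (fun X hX W ξ => tri c h_lm1 h_lm3.toS_lm3a hL h'' hU hC0 hg hδ e2 hτ _
        (hftc hL.1 hg0 ψ hψ) X.2 hX.1 W.2 ξ.2)
      (fun ξ hξ t ht => pull _ _ hc1 (ub (Lt c 𝔞 π'' ξ t)
        ((Lt_norm c _ ht).trans (by linarith [show ‖(ξ : Lg d)‖ ≤ δ / 2 from hξ]))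
        (fun x hx => Lt_mem c hL.1 ξ.2.1 t hx) b₀ lb₀))
      (pull _ _ (by positivity) (ub 1 (by simpa using hδ.le) (fun x hx => hx)
        (fun x => wtl a g x * b₀ x) lb₁))
      (pull _ _ hc3 (hfar δ (min_le_right _ _) b₀ mb₀ lb₀.integrable_sq _ hden τ hτ))
    · refine mb.trans (le_of_eq ?_)
      have hgl := gaussian_lintegral (c.off π π') ha hg0
      simp only [Submodule.coe_norm] at hgl
      rw [hgl, ib₀, hNG, ← ht2, ← ENNReal.ofReal_add (by positivity) (by positivity),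
        ← ENNReal.ofReal_add (by positivity) (by positivity), ← ENNReal.ofReal_mul hcE0]
      congr 1
      ring
    · refine Measurable.const_mul (Measurable.ennreal_ofReal (Measurable.mul (Measurable.mul
        (Continuous.measurable ?_) ?_) (Continuous.measurable ?_))) _
      · exact (cont_Ph c a g).comp (f := fun p : (c.Sl 𝔞 π' × Wsl (c.off π π') v) ×
          (c.off π π' × ℝ) => ((p.1.1 : Tn 9 d), (p.1.2 : Tn 9 d))) (by fun_prop)
      · exact (ms.comp (Continuous.measurable (by fun_prop))).abs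
      · exact hh.1.comp ((cont_Lt c).comp (f := fun p : (c.Sl 𝔞 π' × Wsl (c.off π π') v) ×
          (c.off π π' × ℝ) => (((p.2.1 : Lg d), p.2.2), (p.1.1 : Tn 9 d) + p.1.2)) (by fun_prop))
    · refine Measurable.const_mul (Measurable.ennreal_ofReal (Measurable.mul (Measurable.mul
        (Continuous.measurable ?_) ?_) (Continuous.measurable ?_))) _
      · exact (cont_Ph c a g).comp (f := fun p : c.Sl 𝔞 π' × Wsl (c.off π π') v =>
          ((p.1 : Tn 9 d), (p.2 : Tn 9 d))) (by fun_prop)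
      · exact ((mw.mul ms).comp (Continuous.measurable (by fun_prop))).abs
      · exact hh.1.comp (by fun_prop)
    · refine Measurable.const_mul (Measurable.add (Measurable.ennreal_ofReal (Measurable.mul
        (Measurable.const_mul (Measurable.pow_const ?_ _) _) (Continuous.measurable ?_)))
        (Measurable.ennreal_ofReal (Continuous.measurable ?_))) _
      · exact ms.comp (Continuous.measurable (by fun_prop))
      · fun_prop
      · exact continuous_const.mul (hden.1.comp (by fun_prop))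
    · intro X hX W ξ
      have hr : g ^ (-(1 / 6 : ℝ)) ≤ δ := by
        have := le_mul_of_one_le_left (Real.rpow_pos_of_pos hg0 (-(1 / 6 : ℝ))).le hU.M_one
        linarith
      rw [Om_zero c h'' hη g _ fun h => hX ⟨h.1, h.2.trans hr⟩]
      simp [DD]
  have fin := le_of_tau ht0 (by positivity) (by positivity) key
  calc _ ≤ (q g * t) ^ 2 := pow_le_pow_left₀ (norm_nonneg _) fin 2
    _ = q g ^ 2 * c.NG 𝔞 g ψ := by rw [mul_pow, ht2]
    _ ≤ _ := mul_le_mul_of_nonneg_right e1 hNG0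

theorem p_nc (h_orb : c.S_orb) (h_nc1 : c.S_nc1) (h_nc2 : c.S_nc2) : c.S_nc := by
  intro π 𝔞 π' v χ π'' hL hχ h'' η hη
  have hs : SmR (c.CS 𝔞 π'') (fun x => χ x * η x) (c.Gen π π'' ∩ c.Ow (c.off π π') v) := by
    obtain ⟨⟨h1, K₁, hK₁, hO₁, -, hz₁⟩, -⟩ := hχ
    obtain ⟨h2, K₂, hK₂, hO₂, hC₂, hz₂⟩ := hη
    refine ⟨h1.mul h2, K₂ ∩ K₁, hK₂.inter_right hK₁.isClosed, fun y hy => ⟨?_, hO₁ hy.2⟩,
      fun y hy => hC₂ hy.1, fun y hy hn => ?_⟩
    · exact h_orb.gen π π' π'' v hL.2.1 h'' y (CS_le_cen c (hC₂ hy.1)) (hO₁ hy.2) (hO₂ hy.1)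
    · by_cases h : y ∈ K₂
      · simp [hz₁ y (CS_le_Sl c h'' hy) fun h' => hn ⟨h, h'⟩]
      · simp [hz₂ y hy h]
  refine ⟨hs.mono fun _ _ h => h.1, fun β ε hε => ?_⟩
  filter_upwards [h_nc1 π 𝔞 π' v χ π'' hL hχ h'' η hη β (ε / 4) (by positivity),
    h_nc2 π 𝔞 π' v π'' hL h'' _ hs β (ε / 4) (by positivity), eventually_gt_atTop 0]
    with g e1 e2 hg ψ hψ
  have h1 := e1 ψ hψ
  have h2 := e2 ψ hψ
  have h3 : nrm (sub 9 𝔞) ψ ≤ c.NG 𝔞 g ψ :=
    le_add_of_nonneg_right (div_nonneg (grad_nonneg _ _) hg.le)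
  have h4 := norm_sub_le_norm_sub_add_norm_sub
    (c.Lam π' (𝔞 ⊓ c.blk π') π'' g (c.TT π 𝔞 π' v χ g ψ) η β)
    (c.Mid π 𝔞 π' π'' v g ψ (fun x => χ x * η x) β)
    (c.Lam π 𝔞 π'' g ψ (fun x => χ x * η x) β)
  have h5 := pow_le_pow_left₀ (norm_nonneg _) h4 2
  have h6 := mul_le_mul_of_nonneg_left h3 hε.le
  generalize ‖c.Lam π' (𝔞 ⊓ c.blk π') π'' g (c.TT π 𝔞 π' v χ g ψ) η β -
    c.Mid π 𝔞 π' π'' v g ψ (fun x => χ x * η x) β‖ = x at *
  generalize ‖c.Mid π 𝔞 π' π'' v g ψ (fun x => χ x * η x) β -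
    c.Lam π 𝔞 π'' g ψ (fun x => χ x * η x) β‖ = y at *
  nlinarith [sq_nonneg (x - y)]

end Ctx

end Vale.Agent.P353
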