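import Vale.Agent.P353.Fub

/-! Abstract measure theoretic lemmas for the gauge average. -/

noncomputable section

open MeasureTheory Filter Topology Set
open scoped ContDiff RealInnerProductSpace ENNReal

namespace Vale.Agent.P353.Nc2Aux

section Abstract

variable {α β γ : Type} [MeasurableSpace α] [MeasurableSpace β] [MeasurableSpace γ]

theorem diff_le {μ : Measure α} {M F : α → ℂ} (hM : AEStronglyMeasurable M μ)
    (hF : Integrable F μ) {B : ℝ} (hB : 0 ≤ B)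
    (h : ∫⁻ x, ‖M x - F x‖ₑ ∂μ ≤ ENNReal.ofReal B) : ‖∫ x, M x ∂μ - ∫ x, F x ∂μ‖ ≤ B := by
  have hD : Integrable (fun x => M x - F x) μ :=
    ⟨hM.sub hF.1, lt_of_le_of_lt h ENNReal.ofReal_lt_top⟩
  have hMi : Integrable M μ := by
    have := hD.add hF
    refine this.congr (Eventually.of_forall fun x => ?_)
    simp
  rw [← integral_sub hMi hF]
  have h2 := (enorm_integral_le_lintegral_enorm (μ := μ) fun x => M x - F x).trans h
  rwa [← ofReal_norm, ENNReal.ofReal_le_ofReal_iff hB] at h2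

theorem inner_diff {ν : Measure β} {κ : Measure γ} [SFinite ν] [SFinite κ] {m u : β → ℂ}
    {k : β → γ → ℝ} {P : β × γ → ℂ} (hm : Integrable m ν) (hk : ∀ y, Integrable (k y) κ)
    (he : ∀ y, m y = ((∫ z, k y z ∂κ : ℝ) : ℂ) * u y) (hP : Integrable P (ν.prod κ)) :
    ‖∫ y, m y ∂ν - ∫ y, ∫ z, P (y, z) ∂κ ∂ν‖ₑ ≤
      ∫⁻ y, ∫⁻ z, ‖(k y z : ℂ) * u y - P (y, z)‖ₑ ∂κ ∂ν := by
  rw [← integral_sub hm hP.integral_prod_left]
  refine (enorm_integral_le_lintegral_enorm _).trans (lintegral_mono_ae ?_)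
  filter_upwards [hP.prod_right_ae] with y hy
  have h1 : Integrable (fun z => (k y z : ℂ) * u y) κ := (hk y).ofReal.mul_const _
  rw [he y, ← integral_complex_ofReal, ← integral_mul_const, ← integral_sub h1 hy]
  exact enorm_integral_le_lintegral_enorm _

theorem swap3 {μ : Measure α} {ν : Measure β} {κ : Measure γ} [SFinite μ] [SFinite ν] [SFinite κ]
    {H : α → β → γ → ℝ≥0∞} (hH : Measurable fun p : (α × γ) × β => H p.1.1 p.2 p.1.2) :
    ∫⁻ x, ∫⁻ y, ∫⁻ z, H x y z ∂κ ∂ν ∂μ = ∫⁻ z, ∫⁻ x, ∫⁻ y, H x y z ∂ν ∂μ ∂κ := by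
  have h1 : ∀ x, ∫⁻ y, ∫⁻ z, H x y z ∂κ ∂ν = ∫⁻ z, ∫⁻ y, H x y z ∂ν ∂κ := fun x =>
    lintegral_lintegral_swap (f := fun y z => H x y z)
      (hH.comp (f := fun q : β × γ => ((x, q.2), q.1)) (by fun_prop)).aemeasurable
  simp_rw [h1]
  exact lintegral_lintegral_swap (f := fun x z => ∫⁻ y, H x y z ∂ν)
    (Measurable.lintegral_prod_right' (f := fun p : (α × γ) × β => H p.1.1 p.2 p.1.2)
      hH).aemeasurable

theorem main_bound {μ : Measure α} {ν : Measure β} {κ : Measure γ} [SFinite μ] [SFinite ν]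
    [SFinite κ] {D : α → β → γ → ℝ≥0∞} {S : Set α} {B : Set β} {Ξ : Set γ}
    (hS : MeasurableSet S) (hB : MeasurableSet B) (hΞ : MeasurableSet Ξ) {E : γ → ℝ≥0∞}
    (hE : Measurable E) {H₁ : α → β → γ → ℝ → ℝ≥0∞} {H₂ H₃ : α → β → ℝ≥0∞}
    (m₁ : Measurable fun p : (α × β) × (γ × ℝ) => H₁ p.1.1 p.1.2 p.2.1 p.2.2)
    (m₂ : Measurable fun p : α × β => H₂ p.1 p.2) (m₃ : Measurable fun p : α × β => H₃ p.1 p.2)
    (hD0 : ∀ x, x ∉ S → ∀ y z, D x y z = 0)
    (hD : ∀ x ∈ S, ∀ y z,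
      (y ∈ B ∧ z ∈ Ξ ∧ D x y z ≤ E z * ∫⁻ t in Ioc (0 : ℝ) 1, H₁ x y z t) ∨
      (y ∈ B ∧ D x y z ≤ E z * H₂ x y) ∨ D x y z ≤ E z * H₃ x y)
    {b₁ b₂ b₃ : ℝ≥0∞}
    (h₁ : ∀ z ∈ Ξ, ∀ t ∈ Ioc (0 : ℝ) 1, ∫⁻ x in S, ∫⁻ y in B, H₁ x y z t ∂ν ∂μ ≤ b₁)
    (h₂ : ∫⁻ x in S, ∫⁻ y in B, H₂ x y ∂ν ∂μ ≤ b₂) (h₃ : ∫⁻ x in S, ∫⁻ y, H₃ x y ∂ν ∂μ ≤ b₃) :
    ∫⁻ x, ∫⁻ y, ∫⁻ z, D x y z ∂κ ∂ν ∂μ ≤ (∫⁻ z, E z ∂κ) * (b₁ + b₂ + b₃) := by
  set I : α → β → γ → ℝ≥0∞ := fun x y z => ∫⁻ t in Ioc (0 : ℝ) 1, H₁ x y z t with hI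
  have mI : Measurable fun p : (α × β) × γ => I p.1.1 p.1.2 p.2 :=
    Measurable.lintegral_prod_right'
      (f := fun q : ((α × β) × γ) × ℝ => H₁ q.1.1.1 q.1.1.2 q.1.2 q.2)
      (m₁.comp (f := fun q : ((α × β) × γ) × ℝ => (q.1.1, (q.1.2, q.2))) (by fun_prop))
  -- the three pieces
  set T₁ : α → β → γ → ℝ≥0∞ := fun x y z =>
    B.indicator (fun y => Ξ.indicator (fun z => E z * I x y z) z) y with hT₁
  set R : α → β → ℝ≥0∞ := fun x y => B.indicator (H₂ x) y + H₃ x y with hR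
  have mR2 : Measurable fun p : α × β => B.indicator (H₂ p.1) p.2 := by
    have : (fun p : α × β => B.indicator (H₂ p.1) p.2)
        = (Prod.snd ⁻¹' B).indicator fun p : α × β => H₂ p.1 p.2 := by
      ext p
      by_cases hp : p.2 ∈ B <;> simp [hp]
    rw [this]
    exact m₂.indicator (measurable_snd hB)
  have mR : Measurable fun p : α × β => R p.1 p.2 := mR2.add m₃
  have hle : ∀ x ∈ S, ∀ y z, D x y z ≤ T₁ x y z + E z * R x y := by
    intro x hx y z
    rcases hD x hx y z with ⟨hy, hz, h⟩ | ⟨hy, h⟩ | h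
    · refine h.trans (le_trans ?_ le_self_add)
      simp [hT₁, hy, hz, hI]
    · refine h.trans (le_trans ?_ le_add_self)
      gcongr
      simp [hR, hy]
    · refine h.trans (le_trans ?_ le_add_self)
      gcongr
      simp [hR]
  set cE := ∫⁻ z, E z ∂κ with hcE
  have step1 : ∫⁻ x, ∫⁻ y, ∫⁻ z, D x y z ∂κ ∂ν ∂μ
      = ∫⁻ x in S, ∫⁻ y, ∫⁻ z, D x y z ∂κ ∂ν ∂μ := by
    rw [← lintegral_indicator hS]
    refine lintegral_congr fun x => ?_
    by_cases hx : x ∈ S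
    · simp [hx]
    · simp [hx, hD0 x hx]
  have step2 : ∀ x ∈ S, ∫⁻ y, ∫⁻ z, D x y z ∂κ ∂ν ≤
      (∫⁻ y in B, ∫⁻ z in Ξ, E z * I x y z ∂κ ∂ν) + cE * ∫⁻ y, R x y ∂ν := by
    intro x hx
    have mRx : Measurable (R x) := mR.comp (f := fun y => (x, y)) (by fun_prop)
    calc ∫⁻ y, ∫⁻ z, D x y z ∂κ ∂ν
        ≤ ∫⁻ y, (B.indicator (fun y => ∫⁻ z in Ξ, E z * I x y z ∂κ) y + cE * R x y) ∂ν := by
          refine lintegral_mono fun y => ?_
          calc ∫⁻ z, D x y z ∂κ ≤ ∫⁻ z, (T₁ x y z + E z * R x y) ∂κ :=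
                lintegral_mono fun z => hle x hx y z
            _ = ∫⁻ z, T₁ x y z ∂κ + cE * R x y := by
                rw [lintegral_add_right _ (hE.mul_const _), lintegral_mul_const _ hE]
            _ = _ := by
                congr 1
                by_cases hy : y ∈ B
                · simp only [hT₁, indicator_of_mem hy]
                  exact lintegral_indicator hΞ _
                · simp [hT₁, hy]
      _ = _ := by
          rw [lintegral_add_right _ (mRx.const_mul _), lintegral_const_mul _ mRx,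
            lintegral_indicator hB]
  have mRI : Measurable fun x => ∫⁻ y, R x y ∂ν :=
    Measurable.lintegral_prod_right' (f := fun p : α × β => R p.1 p.2) mR
  have step3 : ∫⁻ x in S, ∫⁻ y in B, ∫⁻ z in Ξ, E z * I x y z ∂κ ∂ν ∂μ ≤ cE * b₁ := by
    have mm : Measurable fun p : (α × γ) × β => E p.1.2 * I p.1.1 p.2 p.1.2 :=
      (hE.comp (by fun_prop)).mul
        (mI.comp (f := fun p : (α × γ) × β => ((p.1.1, p.2), p.1.2)) (by fun_prop))
    rw [swap3 (H := fun x y z => E z * I x y z) mm]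
    calc ∫⁻ z in Ξ, ∫⁻ x in S, ∫⁻ y in B, E z * I x y z ∂ν ∂μ ∂κ
        ≤ ∫⁻ z in Ξ, E z * b₁ ∂κ := by
          refine setLIntegral_mono' hΞ fun z hz => ?_
          have mz : Measurable fun p : α × β => I p.1 p.2 z :=
            mI.comp (f := fun p : α × β => (p, z)) (by fun_prop)
          have e1 : ∀ x, ∫⁻ y in B, E z * I x y z ∂ν = E z * ∫⁻ y in B, I x y z ∂ν := fun x =>
            lintegral_const_mul _ (mz.comp (f := fun y => (x, y)) (by fun_prop))
          simp_rw [e1]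
          rw [lintegral_const_mul _
            (Measurable.lintegral_prod_right' (f := fun p : α × β => I p.1 p.2 z) mz)]
          gcongr
          have mt : Measurable fun p : (α × ℝ) × β => H₁ p.1.1 p.2 z p.1.2 :=
            m₁.comp (f := fun p : (α × ℝ) × β => ((p.1.1, p.2), (z, p.1.2))) (by fun_prop)
          simp only [hI]
          rw [swap3 (H := fun x y t => H₁ x y z t) mt]
          calc ∫⁻ t in Ioc (0 : ℝ) 1, ∫⁻ x in S, ∫⁻ y in B, H₁ x y z t ∂ν ∂μ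
              ≤ ∫⁻ _ in Ioc (0 : ℝ) 1, b₁ := setLIntegral_mono' measurableSet_Ioc (h₁ z hz)
            _ = b₁ := by simp
      _ ≤ ∫⁻ z, E z * b₁ ∂κ := setLIntegral_le_lintegral _ _
      _ = cE * b₁ := lintegral_mul_const _ hE
  have step4 : ∫⁻ x in S, ∫⁻ y, R x y ∂ν ∂μ ≤ b₂ + b₃ := by
    have e1 : ∀ x, ∫⁻ y, R x y ∂ν = (∫⁻ y in B, H₂ x y ∂ν) + ∫⁻ y, H₃ x y ∂ν := fun x => by
      have m3x : Measurable (H₃ x) := m₃.comp (f := fun y => (x, y)) (by fun_prop)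
      simp only [hR]
      rw [lintegral_add_right _ m3x, lintegral_indicator hB]
    simp_rw [e1]
    rw [lintegral_add_right _
      (Measurable.lintegral_prod_right' (f := fun p : α × β => H₃ p.1 p.2) m₃)]
    exact add_le_add h₂ h₃
  calc ∫⁻ x, ∫⁻ y, ∫⁻ z, D x y z ∂κ ∂ν ∂μ
      ≤ ∫⁻ x in S, ((∫⁻ y in B, ∫⁻ z in Ξ, E z * I x y z ∂κ ∂ν) + cE * ∫⁻ y, R x y ∂ν) ∂μ := by
        rw [step1]
        exact setLIntegral_mono' hS step2
    _ = ∫⁻ x in S, ∫⁻ y in B, ∫⁻ z in Ξ, E z * I x y z ∂κ ∂ν ∂μ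
        + cE * ∫⁻ x in S, ∫⁻ y, R x y ∂ν ∂μ := by
        rw [lintegral_add_right _ (mRI.const_mul _), lintegral_const_mul _ mRI]
    _ ≤ cE * b₁ + cE * (b₂ + b₃) := by gcongr
    _ = _ := by ring

end Abstract

section Euclid

variable {E : Type} [NormedAddCommGroup E] [InnerProductSpace ℝ E] [FiniteDimensional ℝ E]
  [MeasurableSpace E] [BorelSpace E]

/-- integrals over a bounded set of functions of a projection -/
theorem slab {U U₁ : Submodule ℝ E} (h : U₁ ≤ U) (R : ℝ) : ∃ C : ℝ, 0 ≤ C ∧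
    ∀ f : E → ℝ≥0∞, Measurable f → ∫⁻ x in {x : U | ‖(x : E)‖ ≤ R}, f (U₁.starProjection x) ≤
      ENNReal.ofReal C * ∫⁻ x : U₁, f x := by
  set U₂ : Submodule ℝ E := U₁ᗮ ⊓ U with hU₂
  have ho : U₁ ⟂ U₂ := (Submodule.isOrtho_orthogonal_right U₁).mono_right inf_le_left
  have hs : U₁ ⊔ U₂ = U := Submodule.sup_orthogonal_inf_of_hasOrthogonalProjection h
  have hfin : volume (Metric.closedBall (0 : U₂) R) ≠ ⊤ := measure_closedBall_lt_top.ne
  refine ⟨(volume (Metric.closedBall (0 : U₂) R)).toReal, ENNReal.toReal_nonneg, fun f hf => ?_⟩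
  rw [ENNReal.ofReal_toReal hfin]
  have hm : MeasurableSet {x : E | ‖x‖ ≤ R} :=
    (isClosed_le continuous_norm continuous_const).measurableSet
  set G : E → ℝ≥0∞ := {x : E | ‖x‖ ≤ R}.indicator fun x => f (U₁.starProjection x) with hG
  have mG : Measurable G := (hf.comp U₁.starProjection.continuous.measurable).indicator hm
  have e1 : ∫⁻ x in {x : U | ‖(x : E)‖ ≤ R}, f (U₁.starProjection x) = ∫⁻ x : U, G x := by
    have hm' : MeasurableSet {x : U | ‖(x : E)‖ ≤ R} := measurable_subtype_coe hm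
    rw [← lintegral_indicator hm']
    rfl
  have hf' : Measurable fun x : U₁ => f x := hf.comp measurable_subtype_coe
  rw [e1, lintegral_sup ho hs (mG.comp measurable_subtype_coe).aemeasurable,
    ← lintegral_const_mul _ hf']
  refine lintegral_mono fun x => ?_
  calc ∫⁻ y : U₂, G (x + y)
      ≤ ∫⁻ y : U₂, (Metric.closedBall (0 : U₂) R).indicator (fun _ => f x) y := by
        refine lintegral_mono fun y => ?_
        by_cases hy : ‖(x : E) + y‖ ≤ R
        · have h0 : ⟪(x : E), (y : E)⟫ = 0 := ho.inner_eq x.2 y.2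
          have h1 : ‖(y : E)‖ ≤ ‖(x : E) + y‖ := by
            have := norm_add_sq_eq_norm_sq_add_norm_sq_real h0
            exact abs_le_of_sq_le_sq' (by nlinarith [mul_self_nonneg ‖(x : E)‖])
              (norm_nonneg _) |>.2
          have h2 : U₁.starProjection ((x : E) + y) = x := by
            rw [map_add, Submodule.starProjection_eq_self_iff.2 x.2,
              (Submodule.starProjection_apply_eq_zero_iff _).2 y.2.1, add_zero]
          have h3 : y ∈ Metric.closedBall (0 : U₂) R := by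
            simpa using h1.trans hy
          simp [hG, hy, h2, h3]
        · simp [hG, hy]
    _ = _ := by
        rw [lintegral_indicator measurableSet_closedBall, setLIntegral_const, mul_comm]

theorem gaussian_lintegral (V : Type) [NormedAddCommGroup V] [InnerProductSpace ℝ V]
    [FiniteDimensional ℝ V] [MeasurableSpace V] [BorelSpace V] {a g : ℝ} (ha : 0 < a)
    (hg : 0 < g) : ∫⁻ ξ : V, ENNReal.ofReal (g ^ ((Module.finrank ℝ V : ℝ) / 2) *
      Real.exp (-(a * g * ‖ξ‖ ^ 2))) =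
        ENNReal.ofReal ((Real.pi / a) ^ ((Module.finrank ℝ V : ℝ) / 2)) := by
  have hb : 0 < a * g := mul_pos ha hg
  have hi : Integrable fun ξ : V => Real.exp (-(a * g) * ‖ξ‖ ^ 2) := by
    have := (GaussianFourier.integrable_cexp_neg_mul_sq_norm_add (b := ((a * g : ℝ) : ℂ))
      (by simpa using hb) 0 (0 : V)).norm
    refine this.congr (Eventually.of_forall fun ξ => ?_)
    simp only [zero_mul, add_zero, Complex.norm_exp]
    congr 1
    norm_cast
  have h2 := GaussianFourier.integral_rexp_neg_mul_sq_norm (V := V) hb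
  have e : ∀ ξ : V, -(a * g * ‖ξ‖ ^ 2) = -(a * g) * ‖ξ‖ ^ 2 := fun ξ => by ring
  simp_rw [e]
  rw [← ofReal_integral_eq_lintegral_ofReal (hi.const_mul _)
    (Eventually.of_forall fun ξ => by positivity), integral_const_mul, h2,
    ← Real.mul_rpow hg.le (by positivity)]
  congr 2
  field_simp

end Euclid

theorem mul_exp_le (s : ℝ) {b : ℝ} (hb : 0 < b) :
    s * Real.exp (-(b * s ^ 2)) ≤ (√b)⁻¹ := by
  have h1 : √b * s ≤ Real.exp (b * s ^ 2) := by
    have h2 := Real.add_one_le_exp (b * s ^ 2)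
    have h3 : (√b * s) ^ 2 = b * s ^ 2 := by rw [mul_pow, Real.sq_sqrt hb.le]
    nlinarith [sq_nonneg (√b * s - 1), sq_nonneg (√b * s)]
  have hq : 0 < √b := Real.sqrt_pos.2 hb
  rw [Real.exp_neg, ← div_eq_mul_inv, div_le_iff₀ (Real.exp_pos _), inv_mul_eq_div,
    le_div_iff₀ hq]
  linarith

theorem le_of_tau {x c A B t : ℝ} (ht : 0 ≤ t) (hA : 0 ≤ A) (hB : 0 ≤ B)
    (h : ∀ τ > 0, x ≤ c * t + (τ * A + τ⁻¹ * (B * t ^ 2))) : x ≤ (c + A + B) * t := by
  refine le_of_forall_pos_le_add fun θ hθ => ?_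
  have hp : 0 < t + θ / (A + 1) := by positivity
  refine (h _ hp).trans ?_
  have h1 : (t + θ / (A + 1))⁻¹ * (B * t ^ 2) ≤ B * t := by
    rw [inv_mul_le_iff₀ hp]
    have : 0 ≤ θ / (A + 1) * (B * t) := by positivity
    nlinarith
  have h2 : θ / (A + 1) * A ≤ θ := by
    rw [div_mul_eq_mul_div, div_le_iff₀ (by positivity)]
    nlinarith
  nlinarith

end Vale.Agent.P353.Nc2Aux
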