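import Vale.Agent.P353.Stmts
import Vale.Agent.P353.Gau
import Vale.Agent.P353.Psq
import Vale.Agent.P353.Nc2AuxA

/-! Model specific lemmas for the gauge average. -/

noncomputable section

open MeasureTheory Filter Topology Complex Matrix
open scoped ContDiff RealInnerProductSpace ENNReal

namespace Vale.Agent.P353.Nc2Aux

variable {N d : ℕ} {F : Type} [NormedAddCommGroup F] [InnerProductSpace ℂ F]
  [FiniteDimensional ℂ F] (c : Ctx N d F) {π π' π'' : Setoid (Fin N)}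
  {𝔞 : Submodule ℝ (Lg d)} {v : Fin 9 → ℝ}

theorem proj_zero {𝔟 𝔟' : Submodule ℝ (Lg d)} (h : 𝔟 ⟂ 𝔟') {x : Tn 9 d} (hx : x ∈ sub 9 𝔟) :
    (sub 9 𝔟').starProjection x = 0 :=
  (Submodule.starProjection_apply_eq_zero_iff _).2 (sub_isOrtho h hx)

theorem cen_le (h'' : π'' ≤ π') : 𝔞 ⊓ c.cen π'' ≤ c.blk π' :=
  inf_le_right.trans ((c.cen_le_blk π'').trans (c.blk_mono h''))

theorem CS_le_blk (h'' : π'' ≤ π') : c.CS 𝔞 π'' ≤ sub 9 (c.blk π') := sub_mono (cen_le c h'')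

theorem CS_le_cen : c.CS 𝔞 π'' ≤ sub 9 (c.cen π'') := sub_mono inf_le_right

theorem CS_le_Sl (h'' : π'' ≤ π') : c.CS 𝔞 π'' ≤ c.Sl 𝔞 π' :=
  sub_mono (le_inf inf_le_left (cen_le c h''))

theorem py (h'' : π'' ≤ π') (X : Tn 9 d) {Z : Tn 9 d} (hZ : Z ∈ sub 9 (c.off π π')) :
    (c.CS 𝔞 π'').starProjection (X + Z) = (c.CS 𝔞 π'').starProjection X := by
  have : (c.CS 𝔞 π'').starProjection Z = 0 :=
    proj_zero ((c.off_isOrtho_blk π π').mono_right (cen_le c h'')) hZ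
  rw [map_add, this, add_zero]

theorem ps (h'' : π'' ≤ π') (X : Tn 9 d) {Z : Tn 9 d} (hZ : Z ∈ sub 9 (c.off π π')) :
    (sub 9 (c.ss π'')).starProjection (X + Z) = (sub 9 (c.ss π'')).starProjection X := by
  have : (sub 9 (c.ss π'')).starProjection Z = 0 :=
    proj_zero ((c.off_isOrtho_blk π π').mono_right (inf_le_left.trans (c.blk_mono h''))) hZ
  rw [map_add, this, add_zero]

theorem pw (h' : π' ≤ π) (h'' : π'' ≤ π') {X : Tn 9 d} (hX : X ∈ sub 9 (c.blk π')) {Z : Tn 9 d}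
    (hZ : Z ∈ sub 9 (c.off π π')) :
    (sub 9 (c.off π π'')).starProjection (X + Z) = Z + (sub 9 (c.off π' π'')).starProjection X := by
  have e : (sub 9 (c.off π π'')).starProjection =
      (sub 9 (c.off π π')).starProjection + (sub 9 (c.off π' π'')).starProjection := by
    rw [← Cov1Aux.sup_proj (sub_isOrtho (c.off_isOrtho_off π π' π''))]
    congr 1
    rw [← sub_sup, c.off_sup_off h' h'']
  have h1 : (sub 9 (c.off π π')).starProjection X = 0 :=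
    proj_zero (c.off_isOrtho_blk π π').symm hX
  have h2 : (sub 9 (c.off π π')).starProjection Z = Z :=
    Submodule.starProjection_eq_self_iff.2 hZ
  have h3 : (sub 9 (c.off π' π'')).starProjection Z = 0 :=
    proj_zero (c.off_isOrtho_off π π' π'') hZ
  rw [e, _root_.add_apply, map_add, map_add, h1, h2, h3, zero_add, add_zero]

theorem norm_split {X y Z : Tn 9 d} (hX : X ∈ sub 9 (c.blk π')) (hy : y ∈ sub 9 (c.blk π'))
    (hZ : Z ∈ sub 9 (c.off π π')) : ‖X + Z - y‖ ^ 2 = ‖X - y‖ ^ 2 + ‖Z‖ ^ 2 := by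
  have h0 : ⟪X - y, Z⟫ = 0 :=
    (sub_isOrtho (c.off_isOrtho_blk π π').symm).inner_eq (Submodule.sub_mem _ hX hy) hZ
  have := norm_add_sq_eq_norm_sq_add_norm_sq_real h0
  rw [show X + Z - y = X - y + Z by abel]
  nlinarith

theorem decomp (h : c.Th π 𝔞) (h' : π' ≤ π) (h'' : π'' ≤ π') {X : Tn 9 d} (hX : X ∈ c.Sl 𝔞 π') :
    ‖X - (c.CS 𝔞 π'').starProjection X‖ ^ 2 = ‖(sub 9 (c.ss π'')).starProjection X‖ ^ 2 +
      ‖(sub 9 (c.off π' π'')).starProjection X‖ ^ 2 := by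
  have hT := h.inf c h'
  have o1 : c.CS 𝔞 π'' ⟂ sub 9 (c.ss π'') := Cov4Aux.CS_ortho c 𝔞 π''
  have o3 : sub 9 (c.ss π'') ⟂ sub 9 (c.off π' π'') :=
    sub_isOrtho ((c.off_isOrtho_blk π' π'').symm.mono_left inf_le_left)
  have o2 : c.CS 𝔞 π'' ⊔ sub 9 (c.ss π'') ⟂ sub 9 (c.off π' π'') := by
    rw [Submodule.isOrtho_sup_left]
    exact ⟨sub_isOrtho ((c.off_isOrtho_blk π' π'').symm.mono_left (cen_le c le_rfl)), o3⟩
  have e : c.Sl 𝔞 π' = c.CS 𝔞 π'' ⊔ sub 9 (c.ss π'') ⊔ sub 9 (c.off π' π'') := by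
    rw [← c.CS_inf h'', Ctx.CS, ← sub_sup, ← sub_sup, hT.cen_sup_ss c h'', hT.sup_off c h'']
  have e2 : X = (c.CS 𝔞 π'').starProjection X + (sub 9 (c.ss π'')).starProjection X +
      (sub 9 (c.off π' π'')).starProjection X := by
    rw [e] at hX
    have := Submodule.starProjection_eq_self_iff.2 hX
    rw [Cov1Aux.sup_proj o2, Cov1Aux.sup_proj o1] at this
    exact this.symm
  have e3 : X - (c.CS 𝔞 π'').starProjection X = (sub 9 (c.ss π'')).starProjection X +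
      (sub 9 (c.off π' π'')).starProjection X := by
    rw [sub_eq_iff_eq_add]
    nth_rewrite 1 [e2]
    abel
  have := norm_add_sq_eq_norm_sq_add_norm_sq_real (o3.inner_eq
    ((sub 9 (c.ss π'')).starProjection_apply_mem X)
    ((sub 9 (c.off π' π'')).starProjection_apply_mem X))
  rw [e3]
  nlinarith

theorem norm_Pw_le (𝔴 : Submodule ℝ (Lg d)) (y : Tn 9 d) (a : F) : ‖c.Pw 𝔴 y a‖ ≤ ‖a‖ :=
  Submodule.norm_starProjection_apply_le _ a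

theorem inner_Pw (𝔴 : Submodule ℝ (Lg d)) (y : Tn 9 d) (a b : F) :
    inner ℂ (c.Pw 𝔴 y a) b = inner ℂ a (c.Pw 𝔴 y b) :=
  Submodule.inner_starProjection_left_eq_right _ a b

theorem Om_fac (h3 : c.S_lm3a) (h' : π' ≤ π) (h'' : π'' ≤ π') {K : Set (Tn 9 d)}
    (hK : K ⊆ c.Gen π π'') {η : Tn 9 d → ℝ} (hη : ∀ x ∈ c.CS 𝔞 π'', x ∉ K → η x = 0) {g : ℝ}
    (hg : 0 < g) (b : Tn 9 d → F) {X : Tn 9 d} (hX : X ∈ sub 9 (c.blk π')) {Z : Tn 9 d}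
    (hZ : Z ∈ sub 9 (c.off π π')) :
    c.Om π 𝔞 π'' g η b (X + Z) =
      if ‖X + Z - (c.CS 𝔞 π'').starProjection X‖ ≤ g ^ (-(1 / 6 : ℝ)) then
        ((c.ng (c.off π π') g ((c.CS 𝔞 π'').starProjection X) * Real.exp (-(g *
          ⟪Z, kr 1 (c.om (c.off π π') ((c.CS 𝔞 π'').starProjection X)) Z⟫) / 2) : ℝ) : ℂ) •
          c.Pw (c.off π π') ((c.CS 𝔞 π'').starProjection X)
            (c.Om π' (𝔞 ⊓ c.blk π') π'' g η b X)
      else 0 := by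
  have hy : (c.CS 𝔞 π'').starProjection X ∈ c.CS 𝔞 π'' := Submodule.starProjection_apply_mem _ _
  simp only [Ctx.Om, c.CS_inf h'', py c h'' X hZ, ps c h'' X hZ, pw c h' h'' hX hZ]
  set y := (c.CS 𝔞 π'').starProjection X with hyd
  split_ifs with h1 h2
  · by_cases hyK : y ∈ K
    · have hc := CS_le_cen c hy
      rw [h3.om_mul π π' π'' h' h'' y hc (hK hyK) Z hZ _ (Submodule.starProjection_apply_mem _ _),
        h3.P_mul π π' π'' h' h'' y hc (hK hyK), h3.ng_mul π π' π'' h' h'' y hc (hK hyK) g hg,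
        map_smul, smul_smul, mul_apply_eq_comp, ← Complex.ofReal_mul, mul_add,
        neg_add, add_div, Real.exp_add]
      congr 2
      ring
    · simp [hη y hy hyK]
  · exfalso
    have := norm_split c hX (CS_le_blk c h'' hy) hZ
    refine h2 (le_trans ?_ h1)
    exact (abs_le_of_sq_le_sq' (by nlinarith [sq_nonneg ‖Z‖]) (norm_nonneg _)).2
  · rfl

theorem Om_zero (h'' : π'' ≤ π') {K : Set (Tn 9 d)} {η : Tn 9 d → ℝ}
    (hη : ∀ x ∈ c.CS 𝔞 π'', x ∉ K → η x = 0) (g : ℝ) (b : Tn 9 d → F) {X : Tn 9 d}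
    (h : ¬ ((c.CS 𝔞 π'').starProjection X ∈ K ∧
      ‖X - (c.CS 𝔞 π'').starProjection X‖ ≤ g ^ (-(1 / 6 : ℝ)))) :
    c.Om π' (𝔞 ⊓ c.blk π') π'' g η b X = 0 := by
  have hy : (c.CS 𝔞 π'').starProjection X ∈ c.CS 𝔞 π'' := Submodule.starProjection_apply_mem _ _
  simp only [Ctx.Om, c.CS_inf h'']
  split_ifs with h1
  · have : (c.CS 𝔞 π'').starProjection X ∉ K := fun h2 => h ⟨h2, h1⟩
    simp [hη _ hy this]
  · rfl

theorem Om_norm (h3 : c.S_lm3a) (h'' : π'' ≤ π') (η : Tn 9 d → ℝ) (g : ℝ) (b : Tn 9 d → F)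
    (X : Tn 9 d) : ‖c.Om π' (𝔞 ⊓ c.blk π') π'' g η b X‖ ≤
      c.ng (c.off π' π'') g ((c.CS 𝔞 π'').starProjection X) * Real.exp (-(g *
        ⟪(sub 9 (c.off π' π'')).starProjection X,
          kr 1 (c.om (c.off π' π'') ((c.CS 𝔞 π'').starProjection X))
            ((sub 9 (c.off π' π'')).starProjection X)⟫) / 2) *
        |η ((c.CS 𝔞 π'').starProjection X)| *
        ‖dil (sub 9 (c.ss π'')) (ell g) b ((sub 9 (c.ss π'')).starProjection X)‖ := by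
  have h0 := h3.ng_nonneg (c.off π' π'') g ((c.CS 𝔞 π'').starProjection X)
  simp only [Ctx.Om, c.CS_inf h'']
  split_ifs with h1
  · rw [norm_smul, Complex.norm_real, Real.norm_eq_abs, abs_mul, abs_mul, abs_of_nonneg h0,
      abs_of_pos (Real.exp_pos _)]
    exact mul_le_mul_of_nonneg_left (norm_Pw_le c _ _ _) (by positivity)
  · rw [norm_zero]
    positivity

theorem kr_lower {a : Lg d →L[ℝ] Lg d} {k : ℝ} (h : ∀ u, k * ‖u‖ ^ 2 ≤ ⟪u, a u⟫) (Z : Tn 9 d) :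
    k * ‖Z‖ ^ 2 ≤ ⟪Z, kr 1 a Z⟫ := by
  rw [inner_eq_sum_cmp, norm_sq_eq_sum_cmp, Finset.mul_sum]
  exact Finset.sum_le_sum fun i _ => by rw [cmp_kr_one]; exact h _

theorem om_unif (h1 : c.S_lm1) (𝔴 : Submodule ℝ (Lg d)) {K : Set (Tn 9 d)} (hK : IsCompact K)
    (hO : ∀ y ∈ K, ∃ v, y ∈ c.Ow 𝔴 v) :
    ∃ a > 0, ∀ y ∈ K, ∀ Z : Tn 9 d, a * ‖Z‖ ^ 2 ≤ ⟪Z, kr 1 (c.om 𝔴 y) Z⟫ := by
  obtain ⟨k, hk, h⟩ := exists_lower_compact (K := c.om 𝔴) hK (fun y hy => by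
    obtain ⟨v, hv⟩ := hO y hy
    exact (h1.sm_om 𝔴 v y hv).continuousAt.continuousWithinAt) ⊤ (fun y hy u _ hu => by
    obtain ⟨v, hv⟩ := hO y hy
    exact (h1.om_pd 𝔴 v y hv).2 u hu)
  exact ⟨k, hk, fun y hy Z => kr_lower (fun u => h y hy u trivial) Z⟩

theorem bdd_on {V : Type} [NormedAddCommGroup V] {K : Set (Tn 9 d)} (hK : IsCompact K)
    {f : Tn 9 d → V} (hf : ∀ y ∈ K, ContinuousAt f y) : ∃ M, 1 ≤ M ∧ ∀ y ∈ K, ‖f y‖ ≤ M := by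
  obtain ⟨M, hM⟩ := hK.exists_bound_of_continuousOn fun y hy => (hf y hy).continuousWithinAt
  exact ⟨max M 1, le_max_right _ _, fun y hy => (hM y hy).trans (le_max_left _ _)⟩

theorem ng_unif (h1 : c.S_lm1) (h3 : c.S_lm3a) (𝔴 : Submodule ℝ (Lg d)) {K : Set (Tn 9 d)}
    (hK : IsCompact K) (hO : ∀ y ∈ K, ∃ v, y ∈ c.Ow 𝔴 v) :
    ∃ M, 1 ≤ M ∧ ∀ y ∈ K, c.ng 𝔴 1 y ≤ M := by
  obtain ⟨M, hM1, hM⟩ := bdd_on hK (f := c.ng 𝔴 1) fun y hy => by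
    obtain ⟨v, hv⟩ := hO y hy
    exact (h3.ng_cont 𝔴 v).continuousAt ((h1.isOpen 𝔴 v).mem_nhds hv)
  exact ⟨M, hM1, fun y hy => (le_abs_self _).trans (hM y hy)⟩

theorem split_unif (h1 : c.S_lm1) (h' : π' ≤ π) {K : Set (Tn 9 d)} (hK : IsCompact K)
    (hb : K ⊆ sub 9 (c.blk π')) (hO : K ⊆ c.Ow (c.off π π') v) :
    ∃ M, 1 ≤ M ∧ ∀ y ∈ K, ∀ W ∈ Wsl (c.off π π') v, ∀ ξ ∈ c.off π π',
      ‖ξ‖ ≤ M * ‖W + c.vf ξ y‖ ∧ ‖W‖ ≤ M * ‖W + c.vf ξ y‖ := by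
  obtain ⟨M₀, hM₀, h₀⟩ := bdd_on hK (f := fun y => Ring.inverse (c.aw (c.off π π') v y))
    fun y hy => (h1.sm_ainv _ v y (hO hy)).continuousAt
  obtain ⟨M₁, hM₁, h₁⟩ := bdd_on hK (f := fun y => y) fun y _ => continuousAt_id
  set C := ‖(cv v : Tn 9 d →L[ℝ] Lg d)‖ with hC
  have hC0 : 0 ≤ C := norm_nonneg _
  have q1 : 0 ≤ M₀ * C := by positivity
  have q2 : 0 ≤ 2 * (M₀ * C) * M₁ := by positivity
  refine ⟨1 + M₀ * C + 2 * (M₀ * C) * M₁, by linarith, fun y hy W hW ξ hξ => ?_⟩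
  have hu : IsUnit (c.aw (c.off π π') v y) := (isUnit_iff_det_ne_zero _).2 (hO hy).1
  have e1 : cv v (W + c.vf ξ y) = c.aw (c.off π π') v y ξ := by
    have h0 : cv v W = 0 := hW.2
    rw [map_add, h0, zero_add, ← h1.G_eq π π' h' y (hb hy) ξ hξ, h1.cv_G _ v y ξ hξ]
  have e2 : ξ = Ring.inverse (c.aw (c.off π π') v y) (cv v (W + c.vf ξ y)) := by
    rw [e1, ← mul_apply_eq_comp, Ring.inverse_mul_cancel _ hu]
    rfl
  have hZ := norm_nonneg (W + c.vf ξ y)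
  have b1 : ‖ξ‖ ≤ M₀ * C * ‖W + c.vf ξ y‖ := by
    nth_rewrite 1 [e2]
    refine (ContinuousLinearMap.le_opNorm _ _).trans ?_
    rw [mul_assoc]
    exact mul_le_mul (h₀ y hy) (ContinuousLinearMap.le_opNorm _ _) (norm_nonneg _) (by linarith)
  have b2 : ‖c.vf ξ y‖ ≤ 2 * (M₀ * C * ‖W + c.vf ξ y‖) * M₁ :=
    (c.norm_vf_le ξ y).trans (mul_le_mul (by linarith) (h₁ y hy) (norm_nonneg _)
      (by linarith [norm_nonneg ξ]))
  have b3 : ‖W‖ ≤ ‖W + c.vf ξ y‖ + ‖c.vf ξ y‖ := by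
    simpa using norm_sub_le (W + c.vf ξ y) (c.vf ξ y)
  have p1 : 0 ≤ M₀ * C * ‖W + c.vf ξ y‖ := by positivity
  have p2 : 0 ≤ M₀ * C * ‖W + c.vf ξ y‖ * M₁ := by positivity
  constructor <;> nlinarith

/-- the density controlling the function and its gradient -/
def dens (𝔞 : Submodule ℝ (Lg d)) (g : ℝ) (ψ : Tn 9 d → F) (x : Tn 9 d) : ℝ :=
  ‖ψ x‖ ^ 2 + gsq (sub 9 𝔞) ψ x / g

theorem dens_nonneg {g : ℝ} (hg : 0 < g) (ψ : Tn 9 d → F) (x : Tn 9 d) : 0 ≤ dens 𝔞 g ψ x :=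
  add_nonneg (sq_nonneg _) (div_nonneg (gsq_nonneg _ _ _) hg.le)

theorem dens_Dens (h : c.Th π 𝔞) {g : ℝ} (hg : 0 < g) {ψ : Tn 9 d → F} (hψ : ψ ∈ c.D π 𝔞) :
    c.Dens π 𝔞 (dens 𝔞 g ψ) := by
  have hs := (c.mem_D.1 hψ).1
  refine ⟨(hs.1.continuous.norm.pow 2).add (hs.gsq_support.1.div_const g), dens_nonneg hg ψ,
    fun u hu x hx => ?_, ?_⟩
  · have h1 := c.invR_normsq hψ u hu x hx
    have h2 := c.invR_gsq h hψ u hu x hx
    simp only at h1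
    simp only [dens, h1, h2]
  · refine HasCompactSupport.add ?_ ?_
    · exact hs.2.comp_left (g := fun a : F => ‖a‖ ^ 2) (by simp)
    · exact hs.gsq_support.2.comp_left (g := fun a : ℝ => a / g) (by simp)

theorem sqrt_Dens {f : Tn 9 d → ℝ} (h : c.Dens π 𝔞 f) : c.Dens π 𝔞 fun x => √(f x) :=
  ⟨h.1.sqrt, fun _ => Real.sqrt_nonneg _, fun u hu x hx => by simp only [h.2.2.1 u hu x hx],
    h.2.2.2.comp_left (g := fun a : ℝ => √a) (by simp)⟩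

theorem integral_dens (g : ℝ) {ψ : Tn 9 d → F} (hψ : Sm (sub 9 𝔞) ψ) :
    ∫ x : sub 9 𝔞, dens 𝔞 g ψ x = c.NG 𝔞 g ψ := by
  have h1 : Integrable fun x : sub 9 𝔞 => ‖ψ x‖ ^ 2 := by
    simpa using hψ.integrable_wnrm (w := fun _ => 1) continuousOn_const
  have h2 : Integrable fun x : sub 9 𝔞 => gsq (sub 9 𝔞) ψ x := by
    simpa using hψ.integrable_wgsq (w := fun _ => 1) continuousOn_const
  simp only [dens, Ctx.NG, nrm, grad]
  rw [integral_add h1 (h2.div_const g), integral_div]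

theorem norm_le_dens {g : ℝ} (hg : 0 < g) (ψ : Tn 9 d → F) (x : Tn 9 d) :
    ‖ψ x‖ ≤ √(dens 𝔞 g ψ x) :=
  Real.le_sqrt_of_sq_le (le_add_of_nonneg_right (div_nonneg (gsq_nonneg _ _ _) hg.le))

theorem fderiv_le_dens {g : ℝ} (hg : 0 < g) (ψ : Tn 9 d → F) (x : Tn 9 d) {w : Tn 9 d}
    (hw : w ∈ sub 9 𝔞) : ‖fderiv ℝ ψ x w‖ ≤ ‖w‖ * (√g * √(dens 𝔞 g ψ x)) := by
  have h1 := norm_fderiv_sq_le ψ x hw
  have h2 : gsq (sub 9 𝔞) ψ x ≤ g * dens 𝔞 g ψ x := by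
    rw [dens, mul_add, mul_div_cancel₀ _ hg.ne']
    exact le_add_of_nonneg_left (by positivity)
  refine (abs_le_of_sq_le_sq' ?_ (by positivity)).2
  rw [mul_pow, mul_pow, Real.sq_sqrt hg.le, Real.sq_sqrt (dens_nonneg hg ψ x)]
  exact h1.trans (mul_le_mul_of_nonneg_left h2 (sq_nonneg _))

theorem ftc : ∃ C, 0 ≤ C ∧ ∀ {π : Setoid (Fin N)} {𝔞 : Submodule ℝ (Lg d)}, c.Th π 𝔞 →
    ∀ {g : ℝ}, 0 < g → ∀ ψ ∈ c.D π 𝔞, ∀ ξ ∈ c.blk π, ∀ x ∈ sub 9 𝔞, ∀ y ∈ sub 9 𝔞, ∀ ρ : ℝ,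
      (∀ t ∈ Set.Icc (0 : ℝ) 1, ‖x + t • c.vf ξ y - y‖ ≤ ρ) →
      ‖ψ x - ψ (x + c.vf ξ y)‖ₑ ≤ ∫⁻ t in Set.Ioc (0 : ℝ) 1,
        ENNReal.ofReal (‖ξ‖ * (C + 2 * ρ * √g) * √(dens 𝔞 g ψ (x + t • c.vf ξ y))) := by
  obtain ⟨L, hL⟩ := c.exists_GsL
  have hL0 : 0 ≤ ‖L‖ := L.opNorm_nonneg
  refine ⟨‖L‖, hL0, ?_⟩
  intro π 𝔞 h g hg ψ hψ ξ hξ x hx y hy ρ hρ
  obtain ⟨hs, hi⟩ := c.mem_D.1 hψ
  have hd : Differentiable ℝ ψ := hs.1.differentiable (by simp)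
  set z := c.vf ξ y with hz
  have hzm : z ∈ sub 9 𝔞 := h.vf_mem c hξ hy
  have hder : ∀ t : ℝ, HasDerivAt (fun t : ℝ => ψ (x + t • z)) (fderiv ℝ ψ (x + t • z) z) t := by
    intro t
    have h1 : HasDerivAt (fun t : ℝ => x + t • z) z t := by
      simpa using ((hasDerivAt_id t).smul_const z).const_add x
    exact (hd _).hasFDerivAt.comp_hasDerivAt t h1
  have hc : Continuous fun t : ℝ => fderiv ℝ ψ (x + t • z) z :=
    ((hs.1.continuous_fderiv (by simp)).comp (by fun_prop)).clm_apply continuous_const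
  have : CompleteSpace F := FiniteDimensional.complete ℂ F
  have e := intervalIntegral.integral_eq_sub_of_hasDerivAt (fun t _ => hder t)
    (hc.intervalIntegrable 0 1)
  simp only [one_smul, zero_smul, add_zero] at e
  rw [enorm_sub_rev, ← e, intervalIntegral.integral_of_le zero_le_one]
  refine (enorm_integral_le_lintegral_enorm _).trans
    (setLIntegral_mono' measurableSet_Ioc fun t ht => ?_)
  rw [← ofReal_norm]
  refine ENNReal.ofReal_le_ofReal ?_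
  set xt := x + t • z with hxt
  have hxm : xt ∈ sub 9 𝔞 := Submodule.add_mem _ hx (Submodule.smul_mem _ _ hzm)
  have e2 : fderiv ℝ ψ xt z = c.Gs ξ (ψ xt) - fderiv ℝ ψ xt (c.vf ξ (xt - y)) := by
    rw [← c.gauss_law h hd hi hξ hxm, ← map_sub, ← map_sub, sub_sub_cancel]
  have b1 : ‖c.Gs ξ (ψ xt)‖ ≤ ‖L‖ * ‖ξ‖ * √(dens 𝔞 g ψ xt) := by
    rw [← hL]
    exact (ContinuousLinearMap.le_opNorm _ _).trans (mul_le_mul (L.le_opNorm ξ)
      (norm_le_dens hg ψ xt) (norm_nonneg _) (by positivity))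
  have b2 := fderiv_le_dens hg ψ xt (h.vf_mem c hξ (Submodule.sub_mem _ hxm hy))
  have b3 : ‖c.vf ξ (xt - y)‖ ≤ 2 * ‖ξ‖ * ρ := (c.norm_vf_le _ _).trans
    (mul_le_mul_of_nonneg_left (hρ t (Set.Ioc_subset_Icc_self ht)) (by positivity))
  have b4 := mul_le_mul_of_nonneg_right b3
    (show 0 ≤ √g * √(dens 𝔞 g ψ xt) by positivity)
  rw [e2]
  refine (norm_sub_le _ _).trans ?_
  nlinarith

end Vale.Agent.P353.Nc2Aux
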