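import Vale.Agent.P353.Nc2AuxB

/-! Far region, tails and measurability for the gauge average. -/

noncomputable section

open MeasureTheory Filter Topology Complex Matrix
open scoped ContDiff RealInnerProductSpace ENNReal

namespace Vale.Agent.P353.Nc2Aux

variable {N d : ℕ} {F : Type} [NormedAddCommGroup F] [InnerProductSpace ℂ F]
  [FiniteDimensional ℂ F] (c : Ctx N d F) {π π' π'' : Setoid (Fin N)}
  {𝔞 : Submodule ℝ (Lg d)} {v : Fin 9 → ℝ}

theorem Wsl_le (hL : c.Lc π 𝔞 π' v) : Wsl (c.off π π') v ≤ sub 9 𝔞 :=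
  inf_le_left.trans (sub_mono ((c.off_le_ss hL.2.1).trans hL.1.1))

theorem off_le (hL : c.Lc π 𝔞 π' v) : sub 9 (c.off π π') ≤ sub 9 𝔞 :=
  sub_mono ((c.off_le_ss hL.2.1).trans hL.1.1)

theorem Sl_le : c.Sl 𝔞 π' ≤ sub 9 𝔞 := sub_mono inf_le_left

theorem Sl_ortho : c.Sl 𝔞 π' ⟂ sub 9 (c.off π π') :=
  sub_isOrtho ((c.off_isOrtho_blk π π').symm.mono_left inf_le_right)

theorem meas_S {K : Set (Tn 9 d)} (hK : IsCompact K) (δ : ℝ) :
    MeasurableSet {X : c.Sl 𝔞 π' | (c.CS 𝔞 π'').starProjection X ∈ K ∧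
      ‖(X : Tn 9 d) - (c.CS 𝔞 π'').starProjection X‖ ≤ δ} := by
  have h1 : Continuous fun X : c.Sl 𝔞 π' => (c.CS 𝔞 π'').starProjection (X : Tn 9 d) := by
    fun_prop
  have h2 : Continuous fun X : c.Sl 𝔞 π' =>
      ‖(X : Tn 9 d) - (c.CS 𝔞 π'').starProjection X‖ := by fun_prop
  exact ((hK.isClosed.preimage h1).inter (isClosed_le h2 continuous_const)).measurableSet

theorem slice_int (h1 : c.S_lm1) (hL : c.Lc π 𝔞 π' v) {f : Tn 9 d → ℝ} (hf : c.Dens π 𝔞 f) :
    Integrable fun X : c.Sl 𝔞 π' =>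
      c.jw (c.off π π') v X * ∫ W : Wsl (c.off π π') v, f (X + W) := by
  have ho : c.Sl 𝔞 π' ⟂ Wsl (c.off π π') v := (Sl_ortho c).mono_right inf_le_left
  have hY : c.Sl 𝔞 π' ⊔ Wsl (c.off π π') v ≤ sub 9 𝔞 := sup_le (Sl_le c) (Wsl_le c hL)
  have hs := hasCompactSupport_slice hY hf.2.2.2 (Submodule.zero_mem _)
  simp only [zero_add] at hs
  have hi : Integrable fun x : ↥(c.Sl 𝔞 π' ⊔ Wsl (c.off π π') v) =>
      c.jw (c.off π π') v ((c.Sl 𝔞 π').starProjection x) * f x :=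
    Continuous.integrable_of_hasCompactSupport
      (((h1.j_cont _ v).comp (by fun_prop)).mul (hf.1.comp continuous_subtype_val)) hs.mul_left
  have := integrable_integral_sup ho rfl
    (f := fun x => c.jw (c.off π π') v ((c.Sl 𝔞 π').starProjection x) * f x) hi
  refine this.congr (Eventually.of_forall fun X => ?_)
  simp only
  rw [← integral_const_mul]
  refine integral_congr_ae (Eventually.of_forall fun W => ?_)
  have h0 : (c.Sl 𝔞 π').starProjection (W : Tn 9 d) = 0 :=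
    (Submodule.starProjection_apply_eq_zero_iff _).2 (ho.symm W.2)
  simp only [map_add, h0, Submodule.starProjection_eq_self_iff.2 X.2, add_zero]

theorem far (h1 : c.S_lm1) (hs1 : c.S_s1) (hL : c.Lc π 𝔞 π' v) (h'' : π'' ≤ π')
    {K : Set (Tn 9 d)} (hK : IsCompact K) (hO : K ⊆ c.Ow (c.off π π') v) {a : ℝ} (ha : 0 < a) :
    ∃ δ₁ > 0, ∃ A B : ℝ, 0 ≤ A ∧ 0 ≤ B ∧ ∀ δ ≤ δ₁, ∀ b : Tn 9 d → ℝ, Measurable b →
      (Integrable fun x : sub 9 (c.ss π'') => b x ^ 2) → ∀ f, c.Dens π 𝔞 f → ∀ τ > 0,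
      ∫⁻ X in {X : c.Sl 𝔞 π' | (c.CS 𝔞 π'').starProjection X ∈ K ∧
          ‖(X : Tn 9 d) - (c.CS 𝔞 π'').starProjection X‖ ≤ δ}, ∫⁻ W : Wsl (c.off π π') v,
        (ENNReal.ofReal (τ * b ((sub 9 (c.ss π'')).starProjection X) ^ 2 *
          Real.exp (-(a * ‖(W : Tn 9 d)‖ ^ 2))) + ENNReal.ofReal (τ⁻¹ * f (X + W))) ≤
      ENNReal.ofReal (τ * (A * ∫ x : sub 9 (c.ss π''), b x ^ 2) +
        τ⁻¹ * (B * ∫ x : sub 9 𝔞, f x)) := by
  obtain ⟨δ₁, hδ₁, hth⟩ := hK.exists_cthickening_subset_open (h1.isOpen _ v) hO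
  have hK' : IsCompact (Metric.cthickening δ₁ K) := hK.cthickening
  obtain ⟨k, hk, hkj⟩ : ∃ k > 0, ∀ x ∈ Metric.cthickening δ₁ K, k ≤ c.jw (c.off π π') v x := by
    rcases (Metric.cthickening δ₁ K).eq_empty_or_nonempty with he | hne
    · exact ⟨1, one_pos, by simp [he]⟩
    · obtain ⟨x₀, hx₀, hmin⟩ := hK'.exists_isMinOn hne (h1.j_cont (c.off π π') v).continuousOn
      exact ⟨_, h1.j_pos _ v x₀ (hth hx₀), fun x hx => hmin hx⟩
  obtain ⟨R, -, hR⟩ := bdd_on hK' (f := fun y => y) fun y _ => continuousAt_id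
  have hle : sub 9 (c.ss π'') ≤ c.Sl 𝔞 π' :=
    sub_mono ((c.ss_mono h'').trans (hL.1.inf c hL.2.1).1)
  obtain ⟨C, hC0, hC⟩ := slab hle R
  obtain ⟨Ks, hKs0, hKs⟩ := hs1 π 𝔞 π' v hL
  set G : ℝ := (Real.pi / a) ^ ((Module.finrank ℝ (Wsl (c.off π π') v) : ℝ) / 2) with hG
  have hG0 : 0 ≤ G := by positivity
  refine ⟨δ₁, hδ₁, G * C, k⁻¹ * Ks, by positivity, by positivity, ?_⟩
  intro δ hδ b hb hbi f hf τ hτ
  set S := {X : c.Sl 𝔞 π' | (c.CS 𝔞 π'').starProjection X ∈ K ∧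
    ‖(X : Tn 9 d) - (c.CS 𝔞 π'').starProjection X‖ ≤ δ} with hS
  have hSm : MeasurableSet S := meas_S c hK δ
  have hSK : ∀ X ∈ S, (X : Tn 9 d) ∈ Metric.cthickening δ₁ K := fun X hX =>
    Metric.mem_cthickening_of_dist_le _ _ _ _ hX.1 (by rw [dist_eq_norm]; exact hX.2.trans hδ)
  have hgauss : ∫⁻ W : Wsl (c.off π π') v, ENNReal.ofReal (Real.exp (-(a * ‖(W : Tn 9 d)‖ ^ 2)))
      = ENNReal.ofReal G := by
    have := gaussian_lintegral (Wsl (c.off π π') v) ha one_pos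
    simpa using this
  have hI0 : 0 ≤ ∫ x : sub 9 (c.ss π''), b x ^ 2 := integral_nonneg fun _ => sq_nonneg _
  have hf0 : 0 ≤ ∫ x : sub 9 𝔞, f x := integral_nonneg fun _ => hf.2.1 _
  have mb : Measurable fun x : Tn 9 d => ENNReal.ofReal (b x ^ 2) := (hb.pow_const 2).ennreal_ofReal
  have mb' : Measurable fun X : c.Sl 𝔞 π' =>
      ENNReal.ofReal (b ((sub 9 (c.ss π'')).starProjection X) ^ 2) :=
    mb.comp (Continuous.measurable (by fun_prop))
  have step : ∀ X ∈ S, ∫⁻ W : Wsl (c.off π π') v,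
      (ENNReal.ofReal (τ * b ((sub 9 (c.ss π'')).starProjection X) ^ 2 *
        Real.exp (-(a * ‖(W : Tn 9 d)‖ ^ 2))) + ENNReal.ofReal (τ⁻¹ * f (X + W))) ≤
      ENNReal.ofReal (τ * G) * ENNReal.ofReal (b ((sub 9 (c.ss π'')).starProjection X) ^ 2) +
        ENNReal.ofReal (τ⁻¹ * k⁻¹ *
          (c.jw (c.off π π') v X * ∫ W : Wsl (c.off π π') v, f (X + W))) := by
    intro X hX
    have m1 : Measurable fun W : Wsl (c.off π π') v =>
        ENNReal.ofReal (τ * b ((sub 9 (c.ss π'')).starProjection X) ^ 2 *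
          Real.exp (-(a * ‖(W : Tn 9 d)‖ ^ 2))) :=
      (Continuous.measurable (by fun_prop)).ennreal_ofReal
    rw [lintegral_add_left m1]
    refine add_le_add (le_of_eq ?_) ?_
    · simp_rw [ENNReal.ofReal_mul
        (show 0 ≤ τ * b ((sub 9 (c.ss π'')).starProjection X) ^ 2 by positivity)]
      rw [lintegral_const_mul' _ _ ENNReal.ofReal_ne_top, hgauss,
        ← ENNReal.ofReal_mul (by positivity), ← ENNReal.ofReal_mul (by positivity)]
      congr 1
      ring
    · have hi : Integrable fun W : Wsl (c.off π π') v => f (X + W) :=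
        Continuous.integrable_of_hasCompactSupport (hf.1.comp (by fun_prop))
          (hasCompactSupport_slice (Wsl_le c hL) hf.2.2.2 (Sl_le c X.2))
      rw [← ofReal_integral_eq_lintegral_ofReal (hi.const_mul _)
        (Eventually.of_forall fun W => mul_nonneg (by positivity) (hf.2.1 _)), integral_const_mul]
      refine ENNReal.ofReal_le_ofReal ?_
      have h0 : 0 ≤ ∫ W : Wsl (c.off π π') v, f (X + W) := integral_nonneg fun _ => hf.2.1 _
      have h2 : 1 ≤ k⁻¹ * c.jw (c.off π π') v X := by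
        rw [le_inv_mul_iff₀ hk, mul_one]
        exact hkj _ (hSK X hX)
      calc τ⁻¹ * ∫ W : Wsl (c.off π π') v, f (X + W)
          = τ⁻¹ * (1 * ∫ W : Wsl (c.off π π') v, f (X + W)) := by rw [one_mul]
        _ ≤ τ⁻¹ * ((k⁻¹ * c.jw (c.off π π') v X) * ∫ W : Wsl (c.off π π') v, f (X + W)) := by
          gcongr
        _ = _ := by ring
  refine (setLIntegral_mono' hSm step).trans ?_
  rw [lintegral_add_left (mb'.const_mul _), ENNReal.ofReal_add (by positivity) (by positivity)]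
  refine add_le_add ?_ ?_
  · rw [lintegral_const_mul _ mb']
    have h2 : ∫⁻ X in S, ENNReal.ofReal (b ((sub 9 (c.ss π'')).starProjection X) ^ 2) ≤
        ENNReal.ofReal C * ENNReal.ofReal (∫ x : sub 9 (c.ss π''), b x ^ 2) := by
      rw [ofReal_integral_eq_lintegral_ofReal hbi (Eventually.of_forall fun _ => sq_nonneg _)]
      exact (lintegral_mono_set fun X hX => hR _ (hSK X hX)).trans (hC _ mb)
    refine (mul_le_mul_right h2 _).trans (le_of_eq ?_)
    rw [← ENNReal.ofReal_mul hC0, ← ENNReal.ofReal_mul (by positivity)]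
    congr 1
    ring
  · refine (setLIntegral_le_lintegral _ _).trans ?_
    rw [← ofReal_integral_eq_lintegral_ofReal ((slice_int c h1 hL hf).const_mul _)
      (Eventually.of_forall fun X => mul_nonneg (by positivity)
        (mul_nonneg (abs_nonneg _) (integral_nonneg fun _ => hf.2.1 _))), integral_const_mul]
    refine ENNReal.ofReal_le_ofReal ?_
    calc _ ≤ τ⁻¹ * k⁻¹ * (Ks * ∫ x : sub 9 𝔞, f x) :=
          mul_le_mul_of_nonneg_left (hKs f hf) (by positivity)
      _ = _ := by ring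

theorem tendsto_r : Tendsto (fun g : ℝ => g ^ (-(1 / 6 : ℝ))) atTop (𝓝 0) :=
  tendsto_rpow_neg_atTop (by norm_num)

theorem r_sq {g : ℝ} (hg : 0 < g) : (g ^ (-(1 / 6 : ℝ))) ^ 2 = ell g := by
  rw [ell, ← Real.rpow_natCast, ← Real.rpow_mul hg.le]
  norm_num

/-- weight of the tail -/
def wtl (a g : ℝ) (σ : Tn 9 d) : ℝ :=
  if g ^ (-(1 / 6 : ℝ)) / 2 ≤ ‖σ‖ then 1 else Real.exp (-(a * g * (g ^ (-(1 / 6 : ℝ))) ^ 2 / 2))

theorem wtl_meas (a g : ℝ) : Measurable (wtl (d := d) a g) :=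
  Measurable.ite (isClosed_le continuous_const continuous_norm).measurableSet measurable_const
    measurable_const

theorem wtl_mem {a g : ℝ} (ha : 0 < a) (hg : 0 < g) (σ : Tn 9 d) :
    0 ≤ wtl a g σ ∧ wtl a g σ ≤ 1 := by
  unfold wtl
  split_ifs
  · exact ⟨zero_le_one, le_rfl⟩
  · exact ⟨(Real.exp_pos _).le, Real.exp_le_one_iff.2 (neg_nonpos.2 (by positivity))⟩

omit [InnerProductSpace ℂ F] [FiniteDimensional ℂ F] in
theorem meas_rep (U : Submodule ℝ (Tn 9 d)) (β : LL U F) : Measurable fun x => ‖rep U β x‖ :=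
  (Lp.stronglyMeasurable β).norm.measurable.comp U.orthogonalProjectionOnto.continuous.measurable

omit [FiniteDimensional ℂ F] in
theorem meas_dil (U : Submodule ℝ (Tn 9 d)) (l : ℝ) (β : LL U F) :
    Measurable fun x => ‖dil U l (rep U β) x‖ := by
  simp only [dil, norm_smul]
  exact ((meas_rep U β).comp (by fun_prop)).const_mul _

theorem tail (U : Submodule ℝ (Tn 9 d)) (β : LL U F) {a : ℝ} (ha : 0 < a) :
    Tendsto (fun g => ∫ x : U, (wtl a g (x : Tn 9 d) * ‖dil U (ell g) (rep U β) x‖) ^ 2) atTop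
      (𝓝 0) := by
  have hi : Integrable fun x : U => ‖rep U β x‖ ^ 2 :=
    (memLp_two_iff_integrable_sq_norm (memLp_rep β).1).1 (memLp_rep β)
  have key : Tendsto (fun g => ∫ x : U, wtl a g (ell g • (x : Tn 9 d)) ^ 2 * ‖rep U β x‖ ^ 2)
      atTop (𝓝 (∫ _ : U, (0 : ℝ))) := by
    refine tendsto_integral_filter_of_dominated_convergence (fun x : U => ‖rep U β x‖ ^ 2) ?_ ?_
      hi (Eventually.of_forall fun x => ?_)
    · refine Eventually.of_forall fun g => ?_
      have m1 : Measurable fun x : U => wtl a g (ell g • (x : Tn 9 d)) :=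
        (wtl_meas a g).comp (Continuous.measurable (by fun_prop))
      exact (m1.pow_const 2).aestronglyMeasurable.mul hi.1
    · filter_upwards [eventually_gt_atTop 0] with g hg
      refine Eventually.of_forall fun x => ?_
      obtain ⟨h0, h1⟩ := wtl_mem ha hg (ell g • (x : Tn 9 d))
      rw [Real.norm_of_nonneg (by positivity)]
      exact mul_le_of_le_one_left (sq_nonneg _) (pow_le_one₀ h0 h1)
    · have t1 : Tendsto (fun g : ℝ => a * g ^ (2 / 3 : ℝ) / 2) atTop atTop :=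
        ((tendsto_rpow_atTop (by norm_num)).const_mul_atTop ha).atTop_div_const two_pos
      have t2 := ((Real.tendsto_exp_neg_atTop_nhds_zero.comp t1).pow 2).mul_const
        (‖rep U β x‖ ^ 2)
      simp only [ne_eq, OfNat.ofNat_ne_zero, not_false_eq_true, zero_pow, zero_mul] at t2
      refine t2.congr' ?_
      have t3 : ∀ᶠ g : ℝ in atTop, g ^ (-(1 / 6 : ℝ)) * ‖(x : Tn 9 d)‖ < 1 / 2 := by
        have := tendsto_r.mul_const ‖(x : Tn 9 d)‖
        rw [zero_mul] at this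
        exact this.eventually (gt_mem_nhds (by norm_num))
      filter_upwards [eventually_gt_atTop 0, t3] with g hg h3
      have hr : 0 < g ^ (-(1 / 6 : ℝ)) := Real.rpow_pos_of_pos hg _
      have h4 : ¬ g ^ (-(1 / 6 : ℝ)) / 2 ≤ ‖ell g • (x : Tn 9 d)‖ := by
        rw [norm_smul, Real.norm_of_nonneg (ell_pos hg).le, ← r_sq hg, not_le]
        nlinarith
      have h5 : g * (g ^ (-(1 / 6 : ℝ))) ^ 2 = g ^ (2 / 3 : ℝ) := by
        rw [r_sq hg, ell]
        nth_rewrite 1 [← Real.rpow_one g]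
        rw [← Real.rpow_add hg]
        norm_num
      simp only [wtl, if_neg h4, Function.comp, mul_assoc a g, h5]
  rw [integral_zero] at key
  refine key.congr' ?_
  filter_upwards [eventually_gt_atTop 0] with g hg
  have := wnrm_dil U (ell_pos hg) (fun x => wtl a g x ^ 2) (rep U β)
  simp only [wnrm] at this
  simp only [mul_pow]
  exact this.symm

theorem meas_mid (h1 : c.S_lm1) {K : Set (Tn 9 d)} (hK : IsCompact K)
    (hO : K ⊆ c.Ow (c.off π π') v) {g : ℝ} (hg : 0 < g) {ψ : Tn 9 d → F} (hψ : Continuous ψ)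
    {Ω : Tn 9 d → F} (hΩ : AEStronglyMeasurable (fun X : c.Sl 𝔞 π' => Ω X) volume)
    (h0 : ∀ X, (c.CS 𝔞 π'').starProjection X ∉ K → Ω X = 0) :
    AEStronglyMeasurable (fun X : c.Sl 𝔞 π' => ∫ W : Wsl (c.off π π') v,
      ((√(c.jw (c.off π π') v ((c.CS 𝔞 π'').starProjection X)) *
        c.Gg (c.off π π') v g ((c.CS 𝔞 π'').starProjection X) W : ℝ) : ℂ) *
      inner ℂ (c.Pw (c.off π π') ((c.CS 𝔞 π'').starProjection X) (Ω X)) (ψ (X + W))) volume := by
  set T : Set (c.Sl 𝔞 π' × Wsl (c.off π π') v) :=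
    {p | (c.CS 𝔞 π'').starProjection p.1 ∈ K} with hT
  have hTm : MeasurableSet T := (hK.isClosed.preimage (by fun_prop)).measurableSet
  set Λ : c.Sl 𝔞 π' × Wsl (c.off π π') v → F := fun p =>
    ((√(c.jw (c.off π π') v ((c.CS 𝔞 π'').starProjection p.1)) *
      c.Gg (c.off π π') v g ((c.CS 𝔞 π'').starProjection p.1) p.2 : ℝ) : ℂ) •
      c.Pw (c.off π π') ((c.CS 𝔞 π'').starProjection p.1) (ψ (p.1 + p.2)) with hΛ
  have hy : Continuous fun p : c.Sl 𝔞 π' × Wsl (c.off π π') v =>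
      (c.CS 𝔞 π'').starProjection (p.1 : Tn 9 d) := by fun_prop
  have hc : ContinuousOn Λ T := by
    intro p hp
    refine ContinuousAt.continuousWithinAt ?_
    have c1 : ContinuousAt (fun p : c.Sl 𝔞 π' × Wsl (c.off π π') v =>
        √(c.jw (c.off π π') v ((c.CS 𝔞 π'').starProjection p.1))) p :=
      (((h1.j_cont _ v).comp hy).sqrt).continuousAt
    have c2 : ContinuousAt (fun p : c.Sl 𝔞 π' × Wsl (c.off π π') v =>
        c.Gg (c.off π π') v g ((c.CS 𝔞 π'').starProjection p.1) p.2) p :=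
      ContinuousAt.comp₂ (f := fun q : Tn 9 d × Tn 9 d => c.Gg (c.off π π') v g q.1 q.2)
        (h1.sm_G _ v g hg _ (hO hp) (p.2 : Tn 9 d)).continuousAt hy.continuousAt
        (continuous_subtype_val.comp continuous_snd).continuousAt
    have c3 : ContinuousAt (fun p : c.Sl 𝔞 π' × Wsl (c.off π π') v =>
        c.Pw (c.off π π') ((c.CS 𝔞 π'').starProjection p.1)) p :=
      ContinuousAt.comp (f := fun p : c.Sl 𝔞 π' × Wsl (c.off π π') v =>
        (c.CS 𝔞 π'').starProjection (p.1 : Tn 9 d)) (g := c.Pw (c.off π π'))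
        (h1.sm_P _ v _ (hO hp)).continuousAt hy.continuousAt
    have c4 : ContinuousAt (fun p : c.Sl 𝔞 π' × Wsl (c.off π π') v =>
        ψ ((p.1 : Tn 9 d) + p.2)) p := (hψ.comp (by fun_prop)).continuousAt
    exact (Complex.continuous_ofReal.continuousAt.comp (c1.mul c2)).smul (c3.clm_apply c4)
  have hm : AEStronglyMeasurable (T.indicator Λ) (volume.prod volume) :=
    (aestronglyMeasurable_indicator_iff hTm).2 (hc.aestronglyMeasurable hTm)
  have hm2 : AEStronglyMeasurable (fun p : c.Sl 𝔞 π' × Wsl (c.off π π') v =>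
      inner ℂ (Ω p.1) (T.indicator Λ p)) (volume.prod volume) := hΩ.comp_fst.inner hm
  refine hm2.integral_prod_right'.congr (Eventually.of_forall fun X => ?_)
  refine integral_congr_ae (Eventually.of_forall fun W => ?_)
  by_cases hX : (c.CS 𝔞 π'').starProjection X ∈ K
  · have : (X, W) ∈ T := hX
    simp only [Set.indicator_of_mem this, hΛ, inner_smul_right, inner_Pw]
  · simp [h0 X hX]

end Vale.Agent.P353.Nc2Aux
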