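import Vale.Agent.P353.Nc2AuxC

/-! Pointwise estimates for the gauge average. -/

noncomputable section

open MeasureTheory Filter Topology Complex Matrix
open scoped ContDiff RealInnerProductSpace ENNReal

namespace Vale.Agent.P353.Nc2Aux

variable {N d : ℕ} {F : Type} [NormedAddCommGroup F] [InnerProductSpace ℂ F]
  [FiniteDimensional ℂ F] (c : Ctx N d F) {π π' π'' : Setoid (Fin N)}
  {𝔞 : Submodule ℝ (Lg d)} {v : Fin 9 → ℝ}

/-- uniform constants on the support -/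
structure Unif (π π' π'' : Setoid (Fin N)) (v : Fin 9 → ℝ) (K : Set (Tn 9 d)) (η : Tn 9 d → ℝ)
    (a M : ℝ) : Prop where
  a_pos : 0 < a
  M_one : 1 ≤ M
  om1 : ∀ y ∈ K, ∀ Z : Tn 9 d,
    2 * a * (1 + 2 * M ^ 2) * ‖Z‖ ^ 2 ≤ ⟪Z, kr 1 (c.om (c.off π π') y) Z⟫
  om2 : ∀ y ∈ K, ∀ Z : Tn 9 d,
    2 * a * (1 + 2 * M ^ 2) * ‖Z‖ ^ 2 ≤ ⟪Z, kr 1 (c.om (c.off π' π'') y) Z⟫
  ng1 : ∀ y ∈ K, c.ng (c.off π π') 1 y ≤ M
  ng2 : ∀ y ∈ K, c.ng (c.off π' π'') 1 y ≤ M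
  jb : ∀ y ∈ K, c.jw (c.off π π') v y ≤ M
  ηb : ∀ y ∈ K, |η y| ≤ M
  nb : ∀ y ∈ K, ‖y‖ ≤ M
  spl : ∀ y ∈ K, ∀ W ∈ Wsl (c.off π π') v, ∀ ξ ∈ c.off π π',
    ‖ξ‖ ≤ M * ‖W + c.vf ξ y‖ ∧ ‖W‖ ≤ M * ‖W + c.vf ξ y‖

theorem exists_unif (h1 : c.S_lm1) (h3 : c.S_lm3a) (ho : c.S_orb) (h' : π' ≤ π) (h'' : π'' ≤ π')
    {K : Set (Tn 9 d)} (hK : IsCompact K) (hC : K ⊆ c.CS 𝔞 π'') (hG : K ⊆ c.Gen π π'')
    (hO : K ⊆ c.Ow (c.off π π') v) {η : Tn 9 d → ℝ} (hη : Continuous η) :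
    ∃ a M, Unif c π π' π'' v K η a M := by
  have hO1 : ∀ y ∈ K, ∃ v, y ∈ c.Ow (c.off π π') v := fun y hy => ⟨v, hO hy⟩
  have hO2 : ∀ y ∈ K, ∃ v, y ∈ c.Ow (c.off π' π'') v := fun y hy => by
    obtain ⟨𝒱, -, h⟩ := ho.dir
    obtain ⟨w, -, hw⟩ := h π' π'' h'' y (CS_le_cen c (hC hy))
      fun a b hab hn => hG hy a b (h' hab) hn
    exact ⟨w, hw⟩
  obtain ⟨a₁, ha₁, b₁⟩ := om_unif c h1 _ hK hO1
  obtain ⟨a₂, ha₂, b₂⟩ := om_unif c h1 _ hK hO2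
  obtain ⟨M₁, m₁, n₁⟩ := ng_unif c h1 h3 _ hK hO1
  obtain ⟨M₂, -, n₂⟩ := ng_unif c h1 h3 _ hK hO2
  obtain ⟨M₃, -, n₃⟩ := bdd_on hK (f := c.jw (c.off π π') v)
    fun y _ => (h1.j_cont _ v).continuousAt
  obtain ⟨M₄, -, n₄⟩ := bdd_on hK (f := η) fun y _ => hη.continuousAt
  obtain ⟨M₅, -, n₅⟩ := bdd_on hK (f := fun y => y) fun y _ => continuousAt_id
  obtain ⟨M₆, -, n₆⟩ := split_unif c h1 h' hK (fun y hy => CS_le_blk c h'' (hC hy)) hO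
  set M := max (max (max M₁ M₂) (max M₃ M₄)) (max M₅ M₆) with hM
  have l₁ : M₁ ≤ M := by simp [hM]
  have l₂ : M₂ ≤ M := by simp [hM]
  have l₃ : M₃ ≤ M := by simp [hM]
  have l₄ : M₄ ≤ M := by simp [hM]
  have l₅ : M₅ ≤ M := by simp [hM]
  have l₆ : M₆ ≤ M := by simp [hM]
  have hp : 0 < 2 * (1 + 2 * M ^ 2) := by positivity
  have e : 2 * (min a₁ a₂ / (2 * (1 + 2 * M ^ 2))) * (1 + 2 * M ^ 2) = min a₁ a₂ := by
    field_simp
  refine ⟨min a₁ a₂ / (2 * (1 + 2 * M ^ 2)), M, div_pos (lt_min ha₁ ha₂) hp, m₁.trans l₁,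
    fun y hy Z => ?_, fun y hy Z => ?_, fun y hy => (n₁ y hy).trans l₁,
    fun y hy => (n₂ y hy).trans l₂, fun y hy => ((le_abs_self _).trans (n₃ y hy)).trans l₃,
    fun y hy => (n₄ y hy).trans l₄, fun y hy => (n₅ y hy).trans l₅, fun y hy W hW ξ hξ => ?_⟩
  · rw [e]
    exact (mul_le_mul_of_nonneg_right (min_le_left _ _) (sq_nonneg _)).trans (b₁ y hy Z)
  · rw [e]
    exact (mul_le_mul_of_nonneg_right (min_le_right _ _) (sq_nonneg _)).trans (b₂ y hy Z)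
  · exact ⟨(n₆ y hy W hW ξ hξ).1.trans (mul_le_mul_of_nonneg_right l₆ (norm_nonneg _)),
      (n₆ y hy W hW ξ hξ).2.trans (mul_le_mul_of_nonneg_right l₆ (norm_nonneg _))⟩

/-- the Gaussian kernel -/
def kw (𝔴 : Submodule ℝ (Lg d)) (v : Fin 9 → ℝ) (g : ℝ) (y Z : Tn 9 d) : ℝ :=
  c.jw 𝔴 v y * (c.ng 𝔴 g y * Real.exp (-(g * ⟪Z, kr 1 (c.om 𝔴 y) Z⟫) / 2))

theorem kw_nonneg (h3 : c.S_lm3a) (𝔴 : Submodule ℝ (Lg d)) (v : Fin 9 → ℝ) (g : ℝ)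
    (y Z : Tn 9 d) : 0 ≤ kw c 𝔴 v g y Z :=
  mul_nonneg (abs_nonneg _) (mul_nonneg (h3.ng_nonneg _ _ _) (Real.exp_pos _).le)

/-- the error density -/
def DD (π π' : Setoid (Fin N)) (v : Fin 9 → ℝ) (g : ℝ) (ψ : Tn 9 d → F) (oo : F) (y X W : Tn 9 d)
    (ξ : Lg d) : ℝ≥0∞ :=
  ENNReal.ofReal (kw c (c.off π π') v g y (W + c.vf ξ y) * ‖oo‖) *
    ‖ψ (X + W) - (if ‖X + (W + c.vf ξ y) - y‖ ≤ g ^ (-(1 / 6 : ℝ)) then
      ψ (X + (W + c.vf ξ y)) else 0)‖ₑ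

theorem point (h1 : c.S_lm1) (h3 : c.S_lm3) (hL : c.Lc π 𝔞 π' v) (h'' : π'' ≤ π')
    {K : Set (Tn 9 d)} (hG : K ⊆ c.Gen π π'') (hO : K ⊆ c.Ow (c.off π π') v) {η : Tn 9 d → ℝ}
    (hη : ∀ x ∈ c.CS 𝔞 π'', x ∉ K → η x = 0) {a M : ℝ} (hU : Unif c π π' π'' v K η a M) {g : ℝ}
    (hg : 0 < g) (b : Tn 9 d → F) {ψ : Tn 9 d → F} (hψ : Sm (sub 9 𝔞) ψ) {X : Tn 9 d}
    (hX : X ∈ c.Sl 𝔞 π') (hi : Integrable fun Z : sub 9 (c.off π π') =>
      inner ℂ (c.Om π 𝔞 π'' g η b (X + Z)) (ψ (X + Z))) :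
    ‖(∫ W : Wsl (c.off π π') v, ((√(c.jw (c.off π π') v ((c.CS 𝔞 π'').starProjection X)) *
        c.Gg (c.off π π') v g ((c.CS 𝔞 π'').starProjection X) W : ℝ) : ℂ) *
        inner ℂ (c.Pw (c.off π π') ((c.CS 𝔞 π'').starProjection X)
          (c.Om π' (𝔞 ⊓ c.blk π') π'' g η b X)) (ψ (X + W))) -
      ∫ Z : sub 9 (c.off π π'), inner ℂ (c.Om π 𝔞 π'' g η b (X + Z)) (ψ (X + Z))‖ₑ ≤
      ∫⁻ W : Wsl (c.off π π') v, ∫⁻ ξ : c.off π π',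
        DD c π π' v g ψ (c.Om π' (𝔞 ⊓ c.blk π') π'' g η b X)
          ((c.CS 𝔞 π'').starProjection X) X W ξ := by
  have hXb : X ∈ sub 9 (c.blk π') := sub_mono inf_le_right hX
  have hy : (c.CS 𝔞 π'').starProjection X ∈ c.CS 𝔞 π'' := Submodule.starProjection_apply_mem _ _
  have fac := fun Z hZ => Om_fac c h3.toS_lm3a hL.2.1 h'' hG hη hg b hXb (Z := Z) hZ
  by_cases hyK : (c.CS 𝔞 π'').starProjection X ∈ K
  swap
  · have h0 := Om_zero c h'' hη g b (X := X) fun h => hyK h.1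
    have h2 : ∀ Z : sub 9 (c.off π π'), c.Om π 𝔞 π'' g η b (X + Z) = 0 := fun Z => by
      rw [fac Z Z.2, h0]
      simp
    simp [h0, h2]
  set y := (c.CS 𝔞 π'').starProjection X with hyd
  set oo := c.Om π' (𝔞 ⊓ c.blk π') π'' g η b X with hoo
  have hGv : ∀ ξ : c.off π π', c.Gw (c.off π π') y ξ = c.vf ξ y := fun ξ =>
    h1.G_eq π π' hL.2.1 y (CS_le_blk c h'' hy) ξ ξ.2
  obtain ⟨s1, s2⟩ := h1.split _ v hL.2.2 y (hO hyK)
    (fun Z => inner ℂ (c.Om π 𝔞 π'' g η b (X + Z)) (ψ (X + Z))) hi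
  simp only [hGv] at s1 s2
  have s3 : ∫ Z : sub 9 (c.off π π'), inner ℂ (c.Om π 𝔞 π'' g η b (X + Z)) (ψ (X + Z)) =
      ∫ W : Wsl (c.off π π') v, ∫ ξ : c.off π π', (c.jw (c.off π π') v y : ℂ) *
        inner ℂ (c.Om π 𝔞 π'' g η b (X + (W + c.vf ξ y))) (ψ (X + (W + c.vf ξ y))) := by
    rw [s2, ← integral_const_mul]
    simp only [integral_const_mul]
  rw [s3]
  have ha := hU.a_pos
  have hM : 0 < M := zero_lt_one.trans_le hU.M_one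
  refine (inner_diff (u := fun W : Wsl (c.off π π') v =>
      inner ℂ (c.Pw (c.off π π') y oo) (ψ (X + W)))
    (k := fun (W : Wsl (c.off π π') v) (ξ : c.off π π') =>
      kw c (c.off π π') v g y (W + c.vf ξ y))
    (P := fun p : Wsl (c.off π π') v × c.off π π' => (c.jw (c.off π π') v y : ℂ) *
      inner ℂ (c.Om π 𝔞 π'' g η b (X + (p.1 + c.vf p.2 y))) (ψ (X + (p.1 + c.vf p.2 y))))
    ?_ (fun W => ?_) (fun W => ?_) (s1.const_mul _)).trans ?_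
  · refine Continuous.integrable_of_hasCompactSupport ?_ ?_
    · have c1 : Continuous fun W : Wsl (c.off π π') v => c.Gg (c.off π π') v g y W :=
        (contDiff_gauss _ _).continuous.comp continuous_subtype_val
      have c2 : Continuous fun W : Wsl (c.off π π') v => ψ (X + W) :=
        hψ.1.continuous.comp (by fun_prop)
      exact (Complex.continuous_ofReal.comp (continuous_const.mul c1)).mul
        (continuous_const.inner c2)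
    · exact ((hasCompactSupport_slice (Wsl_le c hL) hψ.2 (Sl_le c hX)).comp_left
        (g := fun z : F => inner ℂ (c.Pw (c.off π π') y oo) z) (by simp)).mul_left
  · obtain ⟨L, hLv⟩ := c.exists_vfL
    have hi0 := integrable_gaussian (U := c.off π π') (A := 1) one_pos
      (fun w _ => by simp) (mul_pos hg ha) 0
    have hc : Continuous fun ξ : c.off π π' => kw c (c.off π π') v g y (W + c.vf ξ y) := by
      simp only [kw, ← hLv]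
      fun_prop
    refine (hi0.const_mul (c.jw (c.off π π') v y * c.ng (c.off π π') g y)).mono'
      hc.aestronglyMeasurable (Eventually.of_forall fun ξ => ?_)
    rw [Real.norm_of_nonneg (kw_nonneg c h3.toS_lm3a _ _ _ _ _), kw, pow_zero, one_mul, mul_assoc]
    refine mul_le_mul_of_nonneg_left (mul_le_mul_of_nonneg_left (Real.exp_le_exp.2 ?_)
      (h3.ng_nonneg _ _ _)) (abs_nonneg _)
    have q1 := hU.om1 y hyK (W + c.vf ξ y)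
    have q2 := pow_le_pow_left₀ (norm_nonneg _) (hU.spl y hyK W W.2 ξ ξ.2).1 2
    have q3 : ⟪(ξ : Lg d), (1 : Lg d →L[ℝ] Lg d) ξ⟫ = ‖(ξ : Lg d)‖ ^ 2 := by
      simp
    rw [q3]
    have q4 : 2 * a * ‖(ξ : Lg d)‖ ^ 2 ≤
        ⟪(W : Tn 9 d) + c.vf ξ y, 
          kr 1 (c.om (c.off π π') y) ((W : Tn 9 d) + c.vf ξ y)⟫ := by
      have : 0 ≤ a * ‖(W : Tn 9 d) + c.vf ξ y‖ ^ 2 := by positivity
      have : 0 ≤ a * (M * ‖(W : Tn 9 d) + c.vf ξ y‖) ^ 2 := by positivity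
      nlinarith [mul_le_mul_of_nonneg_left q2 ha.le]
    nlinarith [mul_le_mul_of_nonneg_left q4 hg.le]
  · have := h3.gauge π π' π'' v hL.2.1 h'' hL.2.2 y (CS_le_cen c hy) (hO hyK) g hg W W.2
    simp only [hGv] at this
    simp only [kw, integral_const_mul]
    rw [← this]
    congr 2
    ring
  · refine lintegral_mono fun W => lintegral_mono fun ξ => ?_
    have hZ : (W : Tn 9 d) + c.vf ξ y ∈ sub 9 (c.off π π') :=
      Submodule.add_mem _ W.2.1 (hGv ξ ▸ h1.G_mem _ y ξ)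
    have e : ((kw c (c.off π π') v g y (W + c.vf ξ y) : ℝ) : ℂ) *
        inner ℂ (c.Pw (c.off π π') y oo) (ψ (X + W)) - (c.jw (c.off π π') v y : ℂ) *
        inner ℂ (c.Om π 𝔞 π'' g η b (X + (W + c.vf ξ y))) (ψ (X + (W + c.vf ξ y))) =
        ((kw c (c.off π π') v g y (W + c.vf ξ y) : ℝ) : ℂ) * inner ℂ (c.Pw (c.off π π') y oo)
          (ψ (X + W) - (if ‖X + (W + c.vf ξ y) - y‖ ≤ g ^ (-(1 / 6 : ℝ)) then
            ψ (X + (W + c.vf ξ y)) else 0)) := by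
      rw [fac _ hZ]
      split_ifs
      · rw [inner_smul_left, Complex.conj_ofReal, inner_sub_right, kw]
        push_cast
        ring
      · simp
    simp only
    rw [e, DD, ← ofReal_norm, ← ofReal_norm, ← ENNReal.ofReal_mul
      (mul_nonneg (kw_nonneg c h3.toS_lm3a _ _ _ _ _) (norm_nonneg _))]
    refine ENNReal.ofReal_le_ofReal ?_
    rw [norm_mul, Complex.norm_real, Real.norm_of_nonneg (kw_nonneg c h3.toS_lm3a _ _ _ _ _),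
      mul_assoc]
    refine mul_le_mul_of_nonneg_left ((norm_inner_le_norm _ _).trans ?_)
      (kw_nonneg c h3.toS_lm3a _ _ _ _ _)
    exact mul_le_mul_of_nonneg_right (norm_Pw_le c _ _ _) (norm_nonneg _)

theorem weight (h3 : c.S_lm3a) (h'' : π'' ≤ π') {K : Set (Tn 9 d)} {η : Tn 9 d → ℝ} {a M : ℝ}
    (hU : Unif c π π' π'' v K η a M) {g : ℝ} (hg : 0 < g) (b : Tn 9 d → F) {X : Tn 9 d}
    (hyK : (c.CS 𝔞 π'').starProjection X ∈ K) {W : Tn 9 d} (hW : W ∈ Wsl (c.off π π') v)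
    {ξ : Lg d} (hξ : ξ ∈ c.off π π') :
    kw c (c.off π π') v g ((c.CS 𝔞 π'').starProjection X)
        (W + c.vf ξ ((c.CS 𝔞 π'').starProjection X)) * ‖c.Om π' (𝔞 ⊓ c.blk π') π'' g η b X‖ ≤
      (g ^ ((Module.finrank ℝ (c.off π π') : ℝ) / 2) * Real.exp (-(a * g * ‖ξ‖ ^ 2))) *
      (M ^ 4 * (g ^ (5 / 2 * (Module.finrank ℝ (c.off π' π'') : ℝ) +
          2 * (Module.finrank ℝ (c.off π π') : ℝ)) *
        Real.exp (-(a * g * (‖(sub 9 (c.off π' π'')).starProjection X‖ ^ 2 + ‖W‖ ^ 2))) *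
        (Real.exp (-(a * g * (‖W + c.vf ξ ((c.CS 𝔞 π'').starProjection X)‖ ^ 2 +
          ‖(sub 9 (c.off π' π'')).starProjection X‖ ^ 2))) *
        ‖dil (sub 9 (c.ss π'')) (ell g) b ((sub 9 (c.ss π'')).starProjection X)‖))) := by
  have h0 := Om_norm c (𝔞 := 𝔞) h3 h'' η g b X
  set y := (c.CS 𝔞 π'').starProjection X with hyd
  set p := (sub 9 (c.off π' π'')).starProjection X with hp
  set Z := W + c.vf ξ y with hZ
  set n := ‖dil (sub 9 (c.ss π'')) (ell g) b ((sub 9 (c.ss π'')).starProjection X)‖ with hn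
  set d₁ : ℝ := (Module.finrank ℝ (c.off π π') : ℝ) with hd₁
  set d₂ : ℝ := (Module.finrank ℝ (c.off π' π'') : ℝ) with hd₂
  have ha := hU.a_pos
  have hM : 0 < M := zero_lt_one.trans_le hU.M_one
  have hn0 : 0 ≤ n := norm_nonneg _
  have e1 : Real.exp (-(g * ⟪Z, kr 1 (c.om (c.off π π') y) Z⟫) / 2) *
      Real.exp (-(g * ⟪p, kr 1 (c.om (c.off π' π'') y) p⟫) / 2) ≤
      Real.exp (-(a * g * ‖ξ‖ ^ 2)) * Real.exp (-(a * g * (‖p‖ ^ 2 + ‖W‖ ^ 2))) *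
        Real.exp (-(a * g * (‖Z‖ ^ 2 + ‖p‖ ^ 2))) := by
    rw [← Real.exp_add, ← Real.exp_add, ← Real.exp_add]
    refine Real.exp_le_exp.2 ?_
    have q1 := hU.om1 y hyK Z
    have q2 := hU.om2 y hyK p
    have q3 := pow_le_pow_left₀ (norm_nonneg _) (hU.spl y hyK W hW ξ hξ).1 2
    have q4 := pow_le_pow_left₀ (norm_nonneg _) (hU.spl y hyK W hW ξ hξ).2 2
    have q5 : 1 ≤ M ^ 2 := one_le_pow₀ hU.M_one
    have q6 : a * (‖ξ‖ ^ 2 + (‖p‖ ^ 2 + ‖W‖ ^ 2) + (‖Z‖ ^ 2 + ‖p‖ ^ 2)) ≤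
        (⟪Z, kr 1 (c.om (c.off π π') y) Z⟫ + ⟪p, kr 1 (c.om (c.off π' π'') y) p⟫) / 2 := by
      have r1 := mul_le_mul_of_nonneg_left q3 ha.le
      have r2 := mul_le_mul_of_nonneg_left q4 ha.le
      have r3 := mul_le_mul_of_nonneg_left q5 (show 0 ≤ a * ‖p‖ ^ 2 by positivity)
      have r4 : 0 ≤ a * ‖p‖ ^ 2 := by positivity
      nlinarith
    nlinarith [mul_le_mul_of_nonneg_left q6 hg.le]
  have e2 : g ^ (5 / 2 * d₁) * g ^ (5 / 2 * d₂) = g ^ (d₁ / 2) * g ^ (5 / 2 * d₂ + 2 * d₁) := by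
    rw [← Real.rpow_add hg, ← Real.rpow_add hg]
    congr 1
    ring
  have n1 := h3.ng_nonneg (c.off π π') 1 y
  have n2 := h3.ng_nonneg (c.off π' π'') 1 y
  have j0 : 0 ≤ c.jw (c.off π π') v y := abs_nonneg _
  calc kw c (c.off π π') v g y Z * ‖c.Om π' (𝔞 ⊓ c.blk π') π'' g η b X‖
      ≤ kw c (c.off π π') v g y Z * (c.ng (c.off π' π'') g y *
          Real.exp (-(g * ⟪p, kr 1 (c.om (c.off π' π'') y) p⟫) / 2) * |η y| * n) :=
        mul_le_mul_of_nonneg_left h0 (kw_nonneg c h3 _ _ _ _ _)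
    _ = (c.jw (c.off π π') v y * c.ng (c.off π π') 1 y * c.ng (c.off π' π'') 1 y * |η y|) *
          (g ^ (5 / 2 * d₁) * g ^ (5 / 2 * d₂)) *
          (Real.exp (-(g * ⟪Z, kr 1 (c.om (c.off π π') y) Z⟫) / 2) *
            Real.exp (-(g * ⟪p, kr 1 (c.om (c.off π' π'') y) p⟫) / 2)) * n := by
        rw [kw, h3.ng_scale _ y g hg, h3.ng_scale (c.off π' π'') y g hg]
        ring
    _ ≤ (M * M * M * M) * (g ^ (5 / 2 * d₁) * g ^ (5 / 2 * d₂)) *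
          (Real.exp (-(a * g * ‖ξ‖ ^ 2)) * Real.exp (-(a * g * (‖p‖ ^ 2 + ‖W‖ ^ 2))) *
            Real.exp (-(a * g * (‖Z‖ ^ 2 + ‖p‖ ^ 2)))) * n := by
        gcongr
        exacts [hU.jb y hyK, hU.ng1 y hyK, hU.ng2 y hyK, hU.ηb y hyK]
    _ = _ := by
        rw [e2]
        ring

end Vale.Agent.P353.Nc2Aux
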