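import Vale.Agent.P353.Nc2AuxD

/-! The three regions for the gauge average. -/

noncomputable section

open MeasureTheory Filter Topology Complex Matrix
open scoped ContDiff RealInnerProductSpace ENNReal

namespace Vale.Agent.P353.Nc2Aux

variable {N d : ℕ} {F : Type} [NormedAddCommGroup F] [InnerProductSpace ℂ F]
  [FiniteDimensional ℂ F] (c : Ctx N d F) {π π' π'' : Setoid (Fin N)}
  {𝔞 : Submodule ℝ (Lg d)} {v : Fin 9 → ℝ}

/-- the kernel of the crude bound -/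
def Ph (π π' π'' : Setoid (Fin N)) (a g : ℝ) (X W : Tn 9 d) : ℝ :=
  g ^ (5 / 2 * (Module.finrank ℝ (c.off π' π'') : ℝ) + 2 * (Module.finrank ℝ (c.off π π') : ℝ)) *
    Real.exp (-(a * g * (‖(sub 9 (c.off π' π'')).starProjection X‖ ^ 2 + ‖W‖ ^ 2)))

/-- the linear map that moves along the gauge direction -/
def Lt (𝔞 : Submodule ℝ (Lg d)) (π'' : Setoid (Fin N)) (ξ : Lg d) (t : ℝ) : Tn 9 d →L[ℝ] Tn 9 d :=
  1 + t • (c.vf ξ ∘L (c.CS 𝔞 π'').starProjection)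

theorem Lt_apply (ξ : Lg d) (t : ℝ) (x : Tn 9 d) :
    Lt c 𝔞 π'' ξ t x = x + t • c.vf ξ ((c.CS 𝔞 π'').starProjection x) := rfl

theorem Lt_norm (ξ : Lg d) {t : ℝ} (ht : t ∈ Set.Ioc (0 : ℝ) 1) :
    ‖Lt c 𝔞 π'' ξ t - 1‖ ≤ 2 * ‖ξ‖ := by
  refine ContinuousLinearMap.opNorm_le_bound _ (by positivity) fun x => ?_
  have : (Lt c 𝔞 π'' ξ t - 1) x = t • c.vf ξ ((c.CS 𝔞 π'').starProjection x) := by
    simp [Lt]
  rw [this, norm_smul, Real.norm_of_nonneg ht.1.le]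
  have h1 := c.norm_vf_le ξ ((c.CS 𝔞 π'').starProjection x)
  have h2 := mul_le_mul_of_nonneg_left ((c.CS 𝔞 π'').norm_starProjection_apply_le x)
    (show 0 ≤ 2 * ‖ξ‖ by positivity)
  have h3 := mul_le_of_le_one_left (norm_nonneg (c.vf ξ ((c.CS 𝔞 π'').starProjection x))) ht.2
  linarith

theorem Lt_mem (h : c.Th π 𝔞) {ξ : Lg d} (hξ : ξ ∈ c.blk π) (t : ℝ) {x : Tn 9 d}
    (hx : x ∈ sub 9 𝔞) : Lt c 𝔞 π'' ξ t x ∈ sub 9 𝔞 := by
  have h1 : c.CS 𝔞 π'' ≤ sub 9 𝔞 := sub_mono inf_le_left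
  have h2 := h.vf_mem c hξ (h1 (Submodule.starProjection_apply_mem _ x))
  rw [Lt_apply]
  exact Submodule.add_mem _ hx (Submodule.smul_mem _ _ h2)

/-- coefficient of the main region -/
def c1 (a M C g : ℝ) : ℝ :=
  M ^ 5 * (√a)⁻¹ * (C * (√g)⁻¹ + 2 * (1 + 2 * M ^ 2) * g ^ (-(1 / 6 : ℝ)))

/-- coefficient of the far region -/
def c3 (a M P δ g : ℝ) : ℝ := M ^ 4 * (g ^ P * Real.exp (-(a * δ ^ 2 / 2) * g))

theorem real1 {a g M C r E Φ n h k Z p ξ : ℝ} (ha : 0 < a) (hg : 0 < g) (hM : 0 < M)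
    (hC : 0 ≤ C) (hr : 0 < r) (hE : 0 ≤ E) (hΦ : 0 ≤ Φ) (hn : 0 ≤ n) (hh : 0 ≤ h) (hξ : 0 ≤ ξ)
    (hZ : ξ ≤ M * Z) (hk : k ≤ E * (M ^ 4 * (Φ * (Real.exp (-(a * g * (Z ^ 2 + p ^ 2))) * n)))) :
    k * (ξ * (C + 2 * ((1 + 2 * M ^ 2) * r) * √g) * h) ≤
      E * (M ^ 5 * (√a)⁻¹ * (C * (√g)⁻¹ + 2 * (1 + 2 * M ^ 2) * r) * (Φ * n * h)) := by
  have hsa : 0 < √a := Real.sqrt_pos.2 ha
  have hsg : 0 < √g := Real.sqrt_pos.2 hg
  have q1 : Real.exp (-(a * g * (Z ^ 2 + p ^ 2))) * ξ ≤ M * ((√a)⁻¹ * (√g)⁻¹) := by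
    have q2 := mul_exp_le Z (mul_pos ha hg)
    rw [Real.sqrt_mul ha.le, mul_inv] at q2
    have q3 : Real.exp (-(a * g * (Z ^ 2 + p ^ 2))) ≤ Real.exp (-(a * g * Z ^ 2)) :=
      Real.exp_le_exp.2 (by nlinarith [show 0 ≤ a * g * p ^ 2 by positivity])
    calc _ ≤ Real.exp (-(a * g * Z ^ 2)) * (M * Z) := by gcongr
      _ = M * (Z * Real.exp (-(a * g * Z ^ 2))) := by ring
      _ ≤ _ := by gcongr
  calc k * (ξ * (C + 2 * ((1 + 2 * M ^ 2) * r) * √g) * h)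
      ≤ E * (M ^ 4 * (Φ * (Real.exp (-(a * g * (Z ^ 2 + p ^ 2))) * n))) *
        (ξ * (C + 2 * ((1 + 2 * M ^ 2) * r) * √g) * h) := by gcongr
    _ = E * M ^ 4 * Φ * n * h * (C + 2 * ((1 + 2 * M ^ 2) * r) * √g) *
        (Real.exp (-(a * g * (Z ^ 2 + p ^ 2))) * ξ) := by ring
    _ ≤ E * M ^ 4 * Φ * n * h * (C + 2 * ((1 + 2 * M ^ 2) * r) * √g) *
        (M * ((√a)⁻¹ * (√g)⁻¹)) := by gcongr
    _ = _ := by field_simp

theorem real2 {a g r u s p Z A : ℝ} (ha : 0 < a) (hg : 0 < g) (hr : 0 < r) (hs : 0 ≤ s)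
    (h1 : u ^ 2 = A + Z ^ 2) (h2 : A = s ^ 2 + p ^ 2) (hu : r < u) :
    Real.exp (-(a * g * (Z ^ 2 + p ^ 2))) ≤
      if r / 2 ≤ s then 1 else Real.exp (-(a * g * r ^ 2 / 2)) := by
  split_ifs with hs2
  · exact Real.exp_le_one_iff.2 (neg_nonpos.2 (by positivity))
  · refine Real.exp_le_exp.2 (neg_le_neg ?_)
    have q2 : r ^ 2 ≤ u ^ 2 := pow_le_pow_left₀ hr.le hu.le 2
    have q3 : s ^ 2 ≤ (r / 2) ^ 2 := pow_le_pow_left₀ hs (not_le.1 hs2).le 2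
    have q4 : r ^ 2 / 2 ≤ Z ^ 2 + p ^ 2 := by nlinarith [sq_nonneg r]
    nlinarith [mul_le_mul_of_nonneg_left q4 (mul_pos ha hg).le]

theorem real3 {a g M δ τ P E n k Z p W x f : ℝ} (ha : 0 < a) (hg : 1 ≤ g) (hM : 0 < M)
    (hδ : 0 < δ) (hτ : 0 < τ) (hE : 0 ≤ E) (hn : 0 ≤ n) (hf : 0 ≤ f) (hx0 : 0 ≤ x) (hx : x ≤ √f)
    (hW : δ < W) (hk : k ≤ E * (M ^ 4 * (g ^ P * Real.exp (-(a * g * (p ^ 2 + W ^ 2))) *
      (Real.exp (-(a * g * (Z ^ 2 + p ^ 2))) * n)))) :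
    k * x ≤ E * (c3 a M P δ g * (τ * n ^ 2 * Real.exp (-(a * W ^ 2)) + τ⁻¹ * f)) := by
  have hg0 : 0 < g := zero_lt_one.trans_le hg
  have hc3 : 0 ≤ c3 a M P δ g := by unfold c3; positivity
  set e := Real.exp (-(a * W ^ 2) / 2) with he
  have he0 : 0 < e := Real.exp_pos _
  have he2 : Real.exp (-(a * W ^ 2)) = e ^ 2 := by
    rw [sq e, he, ← Real.exp_add]
    congr 1
    ring
  have q1 : g ^ P * Real.exp (-(a * g * (p ^ 2 + W ^ 2))) ≤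
      g ^ P * Real.exp (-(a * δ ^ 2 / 2) * g) * e := by
    rw [mul_assoc (g ^ P), he, ← Real.exp_add]
    refine mul_le_mul_of_nonneg_left (Real.exp_le_exp.2 ?_) (by positivity)
    have q2 : δ ^ 2 ≤ W ^ 2 := pow_le_pow_left₀ hδ.le hW.le 2
    have q3 := mul_le_mul_of_nonneg_left q2 (mul_pos ha hg0).le
    have q4 := mul_le_mul_of_nonneg_left hg (show 0 ≤ a * W ^ 2 by positivity)
    have q5 : 0 ≤ a * g * p ^ 2 := by positivity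
    nlinarith
  have q2 : Real.exp (-(a * g * (Z ^ 2 + p ^ 2))) ≤ 1 :=
    Real.exp_le_one_iff.2 (neg_nonpos.2 (by positivity))
  have hh0 := Real.sqrt_nonneg f
  have q3 : e * n * √f ≤ τ * n ^ 2 * e ^ 2 + τ⁻¹ * f := by
    have q4 : 0 ≤ τ⁻¹ * (τ * (e * n) - √f) ^ 2 := by positivity
    have q5 : τ⁻¹ * (τ * (e * n) - √f) ^ 2 =
        τ * n ^ 2 * e ^ 2 + τ⁻¹ * √f ^ 2 - 2 * (e * n * √f) := by
      field_simp
      ring
    have q6 : 0 ≤ e * n * √f := by positivity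
    rw [Real.sq_sqrt hf] at q5
    linarith
  calc k * x ≤ E * (M ^ 4 * (g ^ P * Real.exp (-(a * δ ^ 2 / 2) * g) * e * (1 * n))) * √f := by
        refine mul_le_mul (hk.trans ?_) hx hx0 (by positivity)
        gcongr
    _ = E * (c3 a M P δ g * (e * n * √f)) := by
        unfold c3
        ring
    _ ≤ _ := by
        rw [he2]
        gcongr

theorem real4 {u v t M r : ℝ} (ht : t ∈ Set.Icc (0 : ℝ) 1) (hu : u ≤ r) (hv0 : 0 ≤ v)
    (hv : v ≤ 2 * (M * r) * M) : u + (1 - t) * v ≤ (1 + 2 * M ^ 2) * r := by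
  have := mul_le_of_le_one_left hv0 (show 1 - t ≤ 1 by linarith [ht.1])
  nlinarith

theorem real5 {u A Z : ℝ} (hu : 0 ≤ u) (h : u ^ 2 = A ^ 2 + Z ^ 2) : Z ≤ u :=
  (abs_le_of_sq_le_sq' (by nlinarith [sq_nonneg A]) hu).2

theorem tri (h1 : c.S_lm1) (h3 : c.S_lm3a) (hL : c.Lc π 𝔞 π' v) (h'' : π'' ≤ π')
    {K : Set (Tn 9 d)} {η : Tn 9 d → ℝ} {a M : ℝ} (hU : Unif c π π' π'' v K η a M) {C g δ τ : ℝ}
    (hC0 : 0 ≤ C) (hg : 1 ≤ g) (hδ0 : 0 < δ) (hδ : M * g ^ (-(1 / 6 : ℝ)) ≤ δ / 2) (hτ : 0 < τ)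
    (b : Tn 9 d → F) {ψ : Tn 9 d → F}
    (hC : ∀ ξ ∈ c.blk π, ∀ x ∈ sub 9 𝔞, ∀ y ∈ sub 9 𝔞, ∀ ρ : ℝ,
      (∀ t ∈ Set.Icc (0 : ℝ) 1, ‖x + t • c.vf ξ y - y‖ ≤ ρ) →
      ‖ψ x - ψ (x + c.vf ξ y)‖ₑ ≤ ∫⁻ t in Set.Ioc (0 : ℝ) 1,
        ENNReal.ofReal (‖ξ‖ * (C + 2 * ρ * √g) * √(dens 𝔞 g ψ (x + t • c.vf ξ y))))
    {X : Tn 9 d} (hX : X ∈ c.Sl 𝔞 π') (hyK : (c.CS 𝔞 π'').starProjection X ∈ K) {W : Tn 9 d}
    (hW : W ∈ Wsl (c.off π π') v) {ξ : Lg d} (hξ : ξ ∈ c.off π π') :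
    (‖W‖ ≤ δ ∧ ‖ξ‖ ≤ δ / 2 ∧
      DD c π π' v g ψ (c.Om π' (𝔞 ⊓ c.blk π') π'' g η b X) ((c.CS 𝔞 π'').starProjection X) X W ξ ≤
        ENNReal.ofReal (g ^ ((Module.finrank ℝ (c.off π π') : ℝ) / 2) *
          Real.exp (-(a * g * ‖ξ‖ ^ 2))) * ∫⁻ t in Set.Ioc (0 : ℝ) 1,
          ENNReal.ofReal (c1 a M C g) * ENNReal.ofReal (Ph c π π' π'' a g X W *
            |‖dil (sub 9 (c.ss π'')) (ell g) b ((sub 9 (c.ss π'')).starProjection X)‖| *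
            √(dens 𝔞 g ψ (Lt c 𝔞 π'' ξ t (X + W))))) ∨
    (‖W‖ ≤ δ ∧
      DD c π π' v g ψ (c.Om π' (𝔞 ⊓ c.blk π') π'' g η b X) ((c.CS 𝔞 π'').starProjection X) X W ξ ≤
        ENNReal.ofReal (g ^ ((Module.finrank ℝ (c.off π π') : ℝ) / 2) *
          Real.exp (-(a * g * ‖ξ‖ ^ 2))) * (ENNReal.ofReal (M ^ 4) *
          ENNReal.ofReal (Ph c π π' π'' a g X W *
            |wtl a g ((sub 9 (c.ss π'')).starProjection X) *
              ‖dil (sub 9 (c.ss π'')) (ell g) b ((sub 9 (c.ss π'')).starProjection X)‖| *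
            √(dens 𝔞 g ψ ((1 : Tn 9 d →L[ℝ] Tn 9 d) (X + W)))))) ∨
    DD c π π' v g ψ (c.Om π' (𝔞 ⊓ c.blk π') π'' g η b X) ((c.CS 𝔞 π'').starProjection X) X W ξ ≤
      ENNReal.ofReal (g ^ ((Module.finrank ℝ (c.off π π') : ℝ) / 2) *
        Real.exp (-(a * g * ‖ξ‖ ^ 2))) *
        (ENNReal.ofReal (c3 a M (5 / 2 * (Module.finrank ℝ (c.off π' π'') : ℝ) +
          2 * (Module.finrank ℝ (c.off π π') : ℝ)) δ g) *
        (ENNReal.ofReal (τ * ‖dil (sub 9 (c.ss π'')) (ell g) b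
          ((sub 9 (c.ss π'')).starProjection X)‖ ^ 2 * Real.exp (-(a * ‖W‖ ^ 2))) +
          ENNReal.ofReal (τ⁻¹ * dens 𝔞 g ψ (X + W)))) := by
  have hg0 : 0 < g := zero_lt_one.trans_le hg
  have hw := weight c (𝔞 := 𝔞) h3 h'' hU hg0 b hyK hW hξ
  have hdec := decomp c hL.1 hL.2.1 h'' hX
  have hy : (c.CS 𝔞 π'').starProjection X ∈ c.CS 𝔞 π'' := Submodule.starProjection_apply_mem _ _
  have hpy := py c (𝔞 := 𝔞) h'' X hW.1
  change _ ≤ _ * (M ^ 4 * (Ph c π π' π'' a g X W * _)) at hw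
  have hPh : Ph c π π' π'' a g X W = g ^ (5 / 2 * (Module.finrank ℝ (c.off π' π'') : ℝ) +
      2 * (Module.finrank ℝ (c.off π π') : ℝ)) * Real.exp (-(a * g *
      (‖(sub 9 (c.off π' π'')).starProjection X‖ ^ 2 + ‖W‖ ^ 2))) := rfl
  unfold DD
  simp only [Lt_apply, hpy]
  set y := (c.CS 𝔞 π'').starProjection X with hyd
  set p := (sub 9 (c.off π' π'')).starProjection X with hp
  set s := (sub 9 (c.ss π'')).starProjection X with hs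
  set n := ‖dil (sub 9 (c.ss π'')) (ell g) b s‖ with hn
  set E := g ^ ((Module.finrank ℝ (c.off π π') : ℝ) / 2) * Real.exp (-(a * g * ‖ξ‖ ^ 2)) with hE
  set P := 5 / 2 * (Module.finrank ℝ (c.off π' π'') : ℝ) +
    2 * (Module.finrank ℝ (c.off π π') : ℝ) with hP
  set Φ := Ph c π π' π'' a g X W with hΦ
  set r := g ^ (-(1 / 6 : ℝ)) with hr
  set k := kw c (c.off π π') v g y (W + c.vf ξ y) * ‖c.Om π' (𝔞 ⊓ c.blk π') π'' g η b X‖ with hk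
  have hk0 : 0 ≤ k := mul_nonneg (kw_nonneg c h3 _ _ _ _ _) (norm_nonneg _)
  have ha := hU.a_pos
  have hM : 0 < M := zero_lt_one.trans_le hU.M_one
  have hr0 : 0 < r := Real.rpow_pos_of_pos hg0 _
  have hn0 : 0 ≤ n := norm_nonneg _
  have hE0 : 0 ≤ E := by positivity
  have hΦ0 : 0 ≤ Φ := by rw [hPh]; positivity
  have hZ : W + c.vf ξ y ∈ sub 9 (c.off π π') := Submodule.add_mem _ hW.1
    (h1.G_eq π π' hL.2.1 y (CS_le_blk c h'' hy) ξ hξ ▸ h1.G_mem _ y ξ)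
  have hsp := norm_split c (sub_mono inf_le_right hX) (CS_le_blk c h'' hy) hZ
  obtain ⟨sξ, sW⟩ := hU.spl y hyK W hW ξ hξ
  set Z := W + c.vf ξ y with hZd
  have hd0 := Real.sqrt_nonneg (dens 𝔞 g ψ (X + W))
  split_ifs with hcut
  · left
    have hZr : ‖Z‖ ≤ r := (real5 (norm_nonneg _) hsp).trans hcut
    have hMr := mul_le_mul_of_nonneg_left hZr hM.le
    refine ⟨by linarith, by linarith, ?_⟩
    have hXW : X + W ∈ sub 9 𝔞 := Submodule.add_mem _ (Sl_le c hX) (Wsl_le c hL hW)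
    have hvf : ‖c.vf ξ y‖ ≤ 2 * (M * r) * M := (c.norm_vf_le ξ y).trans
      (mul_le_mul (by linarith) (hU.nb y hyK) (norm_nonneg _) (by positivity))
    have hf := hC ξ hξ.1 (X + W) hXW y (sub_mono inf_le_left hy) ((1 + 2 * M ^ 2) * r)
      fun t ht => by
        have e : X + W + t • c.vf ξ y - y = (X + Z - y) - (1 - t) • c.vf ξ y := by
          rw [hZd, sub_smul, one_smul]
          abel
        rw [e]
        refine (norm_sub_le _ _).trans ?_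
        rw [norm_smul, Real.norm_of_nonneg (by linarith [ht.2])]
        exact real4 ht hcut (norm_nonneg _) hvf
    rw [add_assoc X W] at hf
    refine (mul_le_mul_right hf _).trans ?_
    rw [← lintegral_const_mul' _ _ ENNReal.ofReal_ne_top,
      ← lintegral_const_mul' _ _ ENNReal.ofReal_ne_top]
    refine lintegral_mono fun t => ?_
    have hc1 : 0 ≤ c1 a M C g := by unfold c1; positivity
    rw [← ENNReal.ofReal_mul hk0, ← ENNReal.ofReal_mul hc1, ← ENNReal.ofReal_mul hE0,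
      abs_of_nonneg hn0]
    refine ENNReal.ofReal_le_ofReal ?_
    exact real1 ha hg0 hM hC0 hr0 hE0 hΦ0 hn0 (Real.sqrt_nonneg _) (norm_nonneg _) sξ hw
  · right
    rw [sub_zero, ← ofReal_norm, ← ENNReal.ofReal_mul hk0]
    have hψd := norm_le_dens (𝔞 := 𝔞) hg0 ψ (X + W)
    by_cases hWδ : ‖W‖ ≤ δ
    · left
      refine ⟨hWδ, ?_⟩
      rw [← ENNReal.ofReal_mul (by positivity), ← ENNReal.ofReal_mul hE0,
        abs_of_nonneg (mul_nonneg (wtl_mem ha hg0 s).1 hn0), one_apply_eq_self]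
      refine ENNReal.ofReal_le_ofReal ?_
      have q1 : Real.exp (-(a * g * (‖Z‖ ^ 2 + ‖p‖ ^ 2))) ≤ wtl a g s :=
        real2 ha hg0 hr0 (norm_nonneg s) hsp hdec (not_le.1 hcut)
      have := (wtl_mem ha hg0 s).1
      calc k * ‖ψ (X + W)‖
          ≤ E * (M ^ 4 * (Φ * (wtl a g s * n))) * √(dens 𝔞 g ψ (X + W)) := by
            refine mul_le_mul (hw.trans ?_) hψd (norm_nonneg _) (by positivity)
            gcongr
        _ = _ := by ring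
    · right
      have hdn := dens_nonneg (𝔞 := 𝔞) hg0 ψ (X + W)
      have hc3 : 0 ≤ c3 a M P δ g := by unfold c3; positivity
      rw [← ENNReal.ofReal_add (by positivity) (by positivity), ← ENNReal.ofReal_mul hc3,
        ← ENNReal.ofReal_mul hE0]
      refine ENNReal.ofReal_le_ofReal ?_
      exact real3 ha hg hM hδ0 hτ hE0 hn0 hdn (norm_nonneg _) hψd (not_le.1 hWδ) hw

end Vale.Agent.P353.Nc2Aux
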