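import Vale.Agent.P353.Stmts

/-! No mass at intermediate scales. -/

noncomputable section

open MeasureTheory Filter Topology Complex Matrix
open scoped ContDiff RealInnerProductSpace

namespace Vale.Agent.P353

namespace NiAux

section Gen

variable {E : Type} [NormedAddCommGroup E] [InnerProductSpace ℝ E] [FiniteDimensional ℝ E]
  [MeasurableSpace E] [BorelSpace E]
variable {F : Type} [NormedAddCommGroup F] [InnerProductSpace ℂ F] [FiniteDimensional ℂ F]
variable {U : Submodule ℝ E}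

omit [InnerProductSpace ℂ F] [FiniteDimensional ℂ F] in
theorem mass_eq {O : Set E} (hO : MeasurableSet O) (ψ : E → F) :
    mass U O ψ = ∫ x : U, O.indicator (fun x => ‖ψ x‖ ^ 2) x := by
  exact (integral_indicator (measurable_subtype_coe hO)).symm

theorem int_sq {ψ : E → F} (h : Sm U ψ) : Integrable fun x : U => ‖ψ x‖ ^ 2 := by
  simpa using h.integrable_wnrm (w := fun _ => 1) continuousOn_const

theorem int_ind {O : Set E} (hO : MeasurableSet O) {ψ : E → F} (h : Sm U ψ) :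
    Integrable fun x : U => O.indicator (fun x => ‖ψ x‖ ^ 2) x :=
  (int_sq h).indicator (measurable_subtype_coe hO)

theorem mass_le_sum {ι : Type} (T : Finset ι) {O : Set E} {A : ι → Set E} (hO : MeasurableSet O)
    (hA : ∀ i, MeasurableSet (A i)) (hc : ∀ x ∈ O, ∃ i ∈ T, x ∈ A i) {ψ : E → F} (h : Sm U ψ) :
    mass U O ψ ≤ ∑ i ∈ T, mass U (A i) ψ := by
  simp only [mass_eq hO, fun i => mass_eq (U := U) (hA i) ψ]
  rw [← integral_finsetSum _ fun i _ => int_ind (hA i) h]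
  refine integral_mono (int_ind hO h) (integrable_finsetSum _ fun i _ => int_ind (hA i) h)
    fun x => ?_
  have h0 : ∀ i, 0 ≤ (A i).indicator (fun x => ‖ψ x‖ ^ 2) x := fun i =>
    Set.indicator_nonneg (fun _ _ => sq_nonneg _) _
  by_cases hx : (x : E) ∈ O
  · obtain ⟨i, hi, hxi⟩ := hc x hx
    refine le_trans ?_ (Finset.single_le_sum (fun i _ => h0 i) hi)
    simp only [Set.indicator_of_mem hx, Set.indicator_of_mem hxi, le_refl]
  · simp only [Set.indicator_of_notMem hx]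
    exact Finset.sum_nonneg fun i _ => h0 i

omit [InnerProductSpace ℂ F] [FiniteDimensional ℂ F] in
theorem mass_univ (ψ : E → F) : mass U Set.univ ψ = nrm U ψ := by
  simp [mass, nrm]

theorem wt_step {u : ℝ} (hu : 0 ≤ u) :
    u / (1 + u) ^ 2 ≤ 4 / 3 * (1 / (1 + u / 4) - 1 / (1 + u)) := by
  have e : 4 / 3 * (1 / (1 + u / 4) - 1 / (1 + u)) = u / ((1 + u) * (1 + u / 4)) := by
    field_simp
    ring
  rw [e]
  apply div_le_div_of_nonneg_left hu (by positivity)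
  nlinarith

omit [FiniteDimensional ℝ E] [MeasurableSpace E] [BorelSpace E] in
theorem sum_wt {s : ℝ} (hs : 0 < s) (x : E) (n : ℕ) :
    ∑ k ∈ Finset.range n, wt ((s * 2 ^ k)⁻¹ • x) ≤ 4 / 3 := by
  set h : ℕ → ℝ := fun k => 1 / (1 + (‖x‖ / (s * 2 ^ k)) ^ 2) with hh
  have h1 : ∀ k, wt ((s * 2 ^ k)⁻¹ • x) ≤ 4 / 3 * (h (k + 1) - h k) := fun k => by
    have e1 : ‖(s * 2 ^ k)⁻¹ • x‖ = ‖x‖ / (s * 2 ^ k) := by
      rw [norm_smul, Real.norm_of_nonneg (by positivity), div_eq_inv_mul]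
    have e2 : (‖x‖ / (s * 2 ^ (k + 1))) ^ 2 = (‖x‖ / (s * 2 ^ k)) ^ 2 / 4 := by
      field_simp
      ring
    simp only [wt, hh, e1, e2]
    exact wt_step (sq_nonneg _)
  refine (Finset.sum_le_sum fun k _ => h1 k).trans ?_
  rw [← Finset.mul_sum, Finset.sum_range_sub]
  have h2 : h n ≤ 1 := by
    simp only [hh]
    rw [div_le_one (by positivity)]
    nlinarith [sq_nonneg (‖x‖ / (s * 2 ^ n))]
  have h3 : 0 ≤ h 0 := by simp only [hh]; positivity
  linarith

omit [InnerProductSpace ℝ E] [FiniteDimensional ℝ E] [MeasurableSpace E] [BorelSpace E] in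
theorem continuous_wt : Continuous (wt : E → ℝ) := by
  unfold wt
  exact Continuous.div (by fun_prop) (by fun_prop) fun x => by positivity

theorem sum_wnrm {s : ℝ} (hs : 0 < s) (n : ℕ) {ψ : E → F} (h : Sm U ψ) :
    ∑ k ∈ Finset.range n, wnrm U (fun x => wt ((s * 2 ^ k)⁻¹ • x)) ψ ≤ 4 / 3 * nrm U ψ := by
  have hi : ∀ k : ℕ, Integrable fun x : U => wt ((s * 2 ^ k)⁻¹ • (x : E)) * ‖ψ x‖ ^ 2 := fun k =>
    h.integrable_wnrm (w := fun x => wt ((s * 2 ^ k)⁻¹ • x))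
      (continuous_wt.comp (continuous_const_smul _)).continuousOn
  simp only [wnrm, nrm]
  rw [← integral_finsetSum _ fun k _ => hi k, ← integral_const_mul]
  refine integral_mono (integrable_finsetSum _ fun k _ => hi k) ((int_sq h).const_mul _)
    fun x => ?_
  simp only [← Finset.sum_mul]
  exact mul_le_mul_of_nonneg_right (sum_wt hs _ n) (sq_nonneg _)

theorem sum_sq {s : ℝ} (n : ℕ) :
    ∑ k ∈ Finset.range (n + 1), (s * 2 ^ k) ^ 2 ≤ 2 * (s * 2 ^ n) ^ 2 := by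
  induction n with
  | zero => simp; nlinarith [sq_nonneg s]
  | succ n ih =>
    rw [Finset.sum_range_succ]
    have e : (s * 2 ^ (n + 1)) ^ 2 = 4 * (s * 2 ^ n) ^ 2 := by ring
    rw [e]
    nlinarith [sq_nonneg (s * 2 ^ n)]

omit [InnerProductSpace ℝ E] [FiniteDimensional ℝ E] in
theorem meas_ann {f : E → E} (hf : Continuous f) (a b : ℝ) :
    MeasurableSet {x | a ≤ ‖f x‖ ∧ ‖f x‖ ≤ b} :=
  ((isClosed_le continuous_const hf.norm).inter (isClosed_le hf.norm continuous_const)).measurableSet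

end Gen

variable {N d : ℕ} {F : Type} [NormedAddCommGroup F] [InnerProductSpace ℂ F]
  [FiniteDimensional ℂ F] (c : Ctx N d F)

theorem slice {π : Setoid (Fin N)} {ε C G : ℝ} (hε : 0 ≤ ε) (hC : 0 ≤ C)
    (h : ∀ g, G ≤ g → ∀ ψ ∈ c.D π (c.ss π),
      mass (sub 9 (c.ss π)) {x | 1 ≤ ‖x‖ ∧ ‖x‖ ≤ 2} ψ ≤
        ε * wnrm (sub 9 (c.ss π)) wt ψ + C * c.En (c.ss π) g 0 ψ)
    {g s r : ℝ} (hg : 0 < g) (hs : 0 < s) (hG : G ≤ g * s ^ 3) {φ : Tn 9 d → F}
    (hφ : φ ∈ c.D π (c.ss π)) :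
    mass (sub 9 (c.ss π)) {x | s ≤ ‖x‖ ∧ ‖x‖ ≤ r} φ ≤
      4 / 3 * ε * nrm (sub 9 (c.ss π)) φ + 2 * C * r ^ 2 * c.En (c.ss π) g 0 φ := by
  have hsm : Sm (sub 9 (c.ss π)) φ := hφ.1
  have hE : 0 ≤ c.En (c.ss π) g 0 φ := en_nonneg _ _ _ _
  have hN := nrm_nonneg (sub 9 (c.ss π)) φ
  rcases lt_or_ge r s with hr | hr
  · have e : {x : Tn 9 d | s ≤ ‖x‖ ∧ ‖x‖ ≤ r} = ∅ :=
      Set.eq_empty_of_forall_notMem fun x hx => by linarith [hx.1, hx.2]
    rw [e, mass_eq MeasurableSet.empty]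
    simp only [Set.indicator_empty, integral_zero]
    positivity
  obtain ⟨n, hn1, hn2⟩ := exists_nat_pow_near (x := r / s) (y := 2)
    (by rw [le_div_iff₀ hs]; linarith) one_lt_two
  have h1 : ∀ k : ℕ, mass (sub 9 (c.ss π))
      {x : Tn 9 d | 1 ≤ ‖(s * 2 ^ k)⁻¹ • x‖ ∧ ‖(s * 2 ^ k)⁻¹ • x‖ ≤ 2} φ ≤
      ε * wnrm (sub 9 (c.ss π)) (fun x => wt ((s * 2 ^ k)⁻¹ • x)) φ +
        C * ((s * 2 ^ k) ^ 2 * c.En (c.ss π) g 0 φ) := fun k => by
    have hk : 0 < s * 2 ^ k := by positivity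
    have h2 : s ≤ s * 2 ^ k := le_mul_of_one_le_right hs.le (one_le_pow₀ one_le_two)
    have h3 : G ≤ g * (s * 2 ^ k) ^ 3 :=
      hG.trans (mul_le_mul_of_nonneg_left (pow_le_pow_left₀ hs.le h2 3) hg.le)
    have h4 := h _ h3 _ (dil_mem_Tst (inv_pos.2 hk) hφ)
    rw [mass_dil _ (inv_pos.2 hk), wnrm_dil _ (inv_pos.2 hk), c.En_dil _ (inv_pos.2 hk)] at h4
    have e1 : g * (s * 2 ^ k) ^ 3 * (s * 2 ^ k)⁻¹ ^ 3 = g := by field_simp
    have e2 : c.En (c.ss π) g 0 φ / (s * 2 ^ k)⁻¹ ^ 2 = (s * 2 ^ k) ^ 2 * c.En (c.ss π) g 0 φ := by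
      field_simp
    rw [e1, zero_mul, e2] at h4
    exact h4
  refine (mass_le_sum (Finset.range (n + 1)) (meas_ann continuous_id' s r)
    (fun k : ℕ => meas_ann (continuous_const_smul (s * 2 ^ k)⁻¹) 1 2) ?_ hsm).trans ?_
  · intro x hx
    obtain ⟨k, hk1, hk2⟩ := exists_nat_pow_near (x := ‖x‖ / s) (y := 2)
      (by rw [le_div_iff₀ hs]; linarith [hx.1]) one_lt_two
    have hk : 0 < s * 2 ^ k := by positivity
    have e1 : ‖(s * 2 ^ k)⁻¹ • x‖ = ‖x‖ / (s * 2 ^ k) := by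
      rw [norm_smul, Real.norm_of_nonneg (by positivity), div_eq_inv_mul]
    refine ⟨k, Finset.mem_range.2 ?_, ?_, ?_⟩
    · have h2 : ‖x‖ / s ≤ r / s := div_le_div_of_nonneg_right hx.2 hs.le
      exact (pow_lt_pow_iff_right₀ (one_lt_two (α := ℝ))).1 (by linarith)
    · rw [e1, le_div_iff₀ hk]
      rw [le_div_iff₀ hs] at hk1
      linarith
    · rw [e1, div_le_iff₀ hk]
      rw [div_lt_iff₀ hs, pow_succ] at hk2
      linarith
  · refine (Finset.sum_le_sum fun k _ => h1 k).trans ?_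
    rw [Finset.sum_add_distrib, ← Finset.mul_sum, ← Finset.mul_sum, ← Finset.sum_mul]
    have h2 := mul_le_mul_of_nonneg_left (sum_wnrm hs (n + 1) hsm) hε
    have h3 : (s * 2 ^ n) ^ 2 ≤ r ^ 2 := by
      rw [le_div_iff₀ hs] at hn1
      exact pow_le_pow_left₀ (by positivity) (by linarith) 2
    have h4 := mul_le_mul_of_nonneg_left (mul_le_mul_of_nonneg_right
      ((sum_sq (s := s) n).trans (mul_le_mul_of_nonneg_left h3 zero_le_two)) hE) hC
    linarith

end NiAux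

namespace Ctx

variable {N d : ℕ} {F : Type} [NormedAddCommGroup F] [InnerProductSpace ℂ F]
  [FiniteDimensional ℂ F] (c : Ctx N d F)

theorem p_ni : c.S_ni := by
  intro π hch 𝔞 hT ε hε
  obtain ⟨C₀, G, h₀⟩ := hch (3 / 4 * ε) (by positivity)
  set C := max C₀ 0 with hC
  have hC0 : 0 ≤ C := le_max_right _ _
  have h : ∀ g, G ≤ g → ∀ ψ ∈ c.D π (c.ss π),
      mass (sub 9 (c.ss π)) {x | 1 ≤ ‖x‖ ∧ ‖x‖ ≤ 2} ψ ≤
        3 / 4 * ε * wnrm (sub 9 (c.ss π)) wt ψ + C * c.En (c.ss π) g 0 ψ := fun g hg ψ hψ => by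
    have hE : 0 ≤ c.En (c.ss π) g 0 ψ := en_nonneg _ _ _ _
    have := mul_le_mul_of_nonneg_right (le_max_left C₀ 0) hE
    linarith [h₀ g hg ψ hψ]
  set r := min 1 (ε / (2 * C + 1)) with hr
  have hr0 : 0 < r := lt_min one_pos (by positivity)
  have hr1 : 2 * C * r ^ 2 ≤ ε := by
    have k1 : r ≤ 1 := min_le_left _ _
    have k2 : r ≤ ε / (2 * C + 1) := min_le_right _ _
    rw [le_div_iff₀ (by positivity)] at k2
    have k3 : r ^ 2 ≤ r := by nlinarith
    nlinarith [mul_le_mul_of_nonneg_left k3 hC0]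
  have hR1 : 1 ≤ max G 1 := le_max_right _ _
  refine ⟨max G 1, by linarith, r, hr0, fun g hg ψ hψ => ?_⟩
  have hs : 0 < max G 1 * ell g := mul_pos (by linarith) (ell_pos hg)
  have hG : G ≤ g * (max G 1 * ell g) ^ 3 := by
    have e : g * (max G 1 * ell g) ^ 3 = max G 1 ^ 3 * (g * ell g ^ 3) := by ring
    rw [e, mul_ell_pow hg, mul_one]
    exact (le_max_left G 1).trans (le_self_pow₀ hR1 (by norm_num))
  set s := max G 1 * ell g
  have hsm : Sm (sub 9 𝔞) ψ := hψ.1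
  have ho := Cov4Aux.CS_ortho c 𝔞 π
  have hu := Cov4Aux.CS_sup c hT
  have hm := NiAux.meas_ann (sub 9 (c.ss π) : Submodule ℝ (Tn 9 d)).starProjection.continuous s r
  have hi := NiAux.int_ind hm hsm
  have e1 : ∀ y : c.CS 𝔞 π, (∫ x : sub 9 (c.ss π),
      {x | s ≤ ‖(sub 9 (c.ss π)).starProjection x‖ ∧
        ‖(sub 9 (c.ss π)).starProjection x‖ ≤ r}.indicator (fun x => ‖ψ x‖ ^ 2) (y + x)) =
      mass (sub 9 (c.ss π)) {x | s ≤ ‖x‖ ∧ ‖x‖ ≤ r} fun x => ψ (y + x) := fun y => by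
    rw [NiAux.mass_eq (NiAux.meas_ann continuous_id' s r)]
    refine integral_congr_ae (Eventually.of_forall fun x => ?_)
    have k1 : (sub 9 (c.ss π)).starProjection ((y : Tn 9 d) + x) = x := by
      rw [map_add, Submodule.starProjection_eq_self_iff.2 x.2,
        (Submodule.starProjection_apply_eq_zero_iff _).2 (ho y.2), zero_add]
    simp only [Set.indicator, Set.mem_ofPred_eq, k1]
  obtain ⟨k1, k2⟩ := c.En_split hT g hsm
  have k3 := integrable_integral_sup ho hu (f := fun x => ‖ψ x‖ ^ 2) (NiAux.int_sq hsm)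
  have k4 := integral_sup ho hu (f := fun x => ‖ψ x‖ ^ 2) (NiAux.int_sq hsm)
  have k5 : 0 ≤ ∫ x : sub 9 𝔞, gsq (c.CS 𝔞 π) ψ x := integral_nonneg fun x => gsq_nonneg _ _ _
  have k6 := integrable_integral_sup ho hu hi
  rw [NiAux.mass_eq hm, integral_sup ho hu hi]
  refine (integral_mono k6 ((k3.const_mul ε).add (k1.const_mul ε)) fun y => ?_).trans ?_
  · have k7 := NiAux.slice c (r := r) (by positivity) hC0 h hg hs hG (c.slice_mem_D hT hψ y.2)
    have hE : 0 ≤ c.En (c.ss π) g 0 fun x => ψ (y + x) := en_nonneg _ _ _ _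
    have k8 := mul_le_mul_of_nonneg_right hr1 hE
    simp only [e1 y, Pi.add_apply]
    simp only [nrm] at k7
    linarith
  · simp only [Pi.add_apply]
    rw [integral_add (k3.const_mul ε) (k1.const_mul ε), integral_const_mul, integral_const_mul,
      ← k4, NE, k2, nrm]
    nlinarith

theorem p_cc (h_cco : c.S_cco) (h_ch : c.S_ch) (h_ni : c.S_ni)
    (h_core : c.S_core) : c.S_cc := by
  intro π
  induction π using setoid_induction with
  | h π ih =>
  intro 𝔞 hT g ψ hB hN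
  have hco := h_cco π ih
  obtain ⟨K, hK⟩ := hB.2.2.2.2
  have hK0 : 0 ≤ K := le_trans (add_nonneg (nrm_nonneg _ _) (en_nonneg _ _ _ _)) (hK 0)
  refine tendsto_order.2 ⟨fun a ha => Eventually.of_forall fun n => ha.trans_le (nrm_nonneg _ _),
    fun a ha => ?_⟩
  obtain ⟨R, -, r, hr, h⟩ := h_ni π (h_ch π hco) 𝔞 hT (a / 3 / (K + 1)) (by positivity)
  have h1 := h_core π 𝔞 hT g ψ hB (hN π le_rfl) R
  have h2 := hco 𝔞 hT g ψ hB (fun π' h' => hN π' h'.le) r hr
  filter_upwards [h1.eventually (gt_mem_nhds (show 0 < a / 3 by positivity)),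
    h2.eventually (gt_mem_nhds (show 0 < a / 3 by positivity))] with n k1 k2
  have k3 := h (g n) (by linarith [hB.2.1 n]) (ψ n) (hB.2.2.1 n)
  have k4 : a / 3 / (K + 1) * c.NE 𝔞 (g n) 0 (ψ n) ≤ a / 3 := by
    rw [div_mul_eq_mul_div, div_le_iff₀ (by positivity)]
    exact mul_le_mul_of_nonneg_left ((hK n).trans (by linarith)) (by positivity)
  have hP := (sub 9 (c.ss π) : Submodule ℝ (Tn 9 d)).starProjection.continuous
  have k5 := NiAux.mass_le_sum (U := sub 9 𝔞) (Finset.univ : Finset (Fin 3))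
    (A := ![{x | ‖(sub 9 (c.ss π)).starProjection x‖ ≤ R * ell (g n)},
      {x | R * ell (g n) ≤ ‖(sub 9 (c.ss π)).starProjection x‖ ∧
        ‖(sub 9 (c.ss π)).starProjection x‖ ≤ r},
      {x | r ≤ ‖(sub 9 (c.ss π)).starProjection x‖}]) MeasurableSet.univ
    (fun i => by
      fin_cases i
      · exact (isClosed_le hP.norm continuous_const).measurableSet
      · exact NiAux.meas_ann hP _ _
      · exact (isClosed_le continuous_const hP.norm).measurableSet)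
    (fun x _ => by
      rcases le_total ‖(sub 9 (c.ss π)).starProjection x‖ (R * ell (g n)) with h3 | h3
      · exact ⟨0, Finset.mem_univ _, h3⟩
      · rcases le_total ‖(sub 9 (c.ss π)).starProjection x‖ r with h4 | h4
        · exact ⟨1, Finset.mem_univ _, h3, h4⟩
        · exact ⟨2, Finset.mem_univ _, h4⟩) (hB.2.2.1 n).1
  rw [NiAux.mass_univ, Fin.sum_univ_three] at k5
  simp only [Matrix.cons_val_zero, Matrix.cons_val_one, Matrix.cons_val] at k5
  linarith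

end Ctx

end Vale.Agent.P353
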