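import Vale.Agent.P353.Stmts

/-! Orbits of commuting configurations. -/

noncomputable section

open MeasureTheory Filter Topology Complex Matrix
open scoped ContDiff RealInnerProductSpace

namespace Vale.Agent.P353

namespace OrbaAux

variable {N : ℕ}

theorem simdiag {ι : Type} (M : ι → Matrix (Fin N) (Fin N) ℂ) (hM : ∀ i, (M i).IsHermitian)
    (hc : ∀ i j, Commute (M i) (M j)) : ∃ u : UN N, ∀ i, ∃ δ : Fin N → ℂ,
      (u : Matrix (Fin N) (Fin N) ℂ) * M i * star (u : Matrix (Fin N) (Fin N) ℂ) = diagonal δ := by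
  classical
  let T : ι → EuclideanSpace ℂ (Fin N) →ₗ[ℂ] EuclideanSpace ℂ (Fin N) := fun i =>
    Matrix.toEuclideanLin (M i)
  have hT : ∀ i, (T i).IsSymmetric := fun i => Matrix.isSymmetric_toEuclideanLin_iff.2 (hM i)
  have hC : Pairwise (Function.onFun Commute T) := fun i j _ => by
    change T i ∘ₗ T j = T j ∘ₗ T i
    simp only [T]
    rw [← Matrix.toLpLin_mul_same, ← Matrix.toLpLin_mul_same, (hc i j).eq]
  let V : (ι → ℂ) → Submodule ℂ (EuclideanSpace ℂ (Fin N)) := fun α =>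
    ⨅ j, Module.End.eigenspace (T j) (α j)
  have hO : OrthogonalFamily ℂ (fun α => V α) fun α => (V α).subtypeₗᵢ :=
    LinearMap.IsSymmetric.orthogonalFamily_iInf_eigenspaces hT
  have hI : DirectSum.IsInternal V :=
    LinearMap.IsSymmetric.directSum_isInternal_of_pairwise_commute hT hC
  let _ := hO.independent.fintypeNeBotOfFiniteDimensional
  have hI' := DirectSum.isInternal_ne_bot_iff.2 hI
  have hO' := hO.comp (f := fun α : {α // V α ≠ ⊥} => α.1) Subtype.val_injective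
  have hn : Module.finrank ℂ (EuclideanSpace ℂ (Fin N)) = N := finrank_euclideanSpace_fin
  let b := hI'.subordinateOrthonormalBasis hn hO'
  have hb : ∀ k, ∃ α, b k ∈ V α := fun k => ⟨_, hI'.subordinateOrthonormalBasis_subordinate hn k hO'⟩
  choose α hα using hb
  let W : UN N := ⟨(EuclideanSpace.basisFun (Fin N) ℂ).toBasis.toMatrix b.toBasis,
    (EuclideanSpace.basisFun (Fin N) ℂ).toMatrix_orthonormalBasis_mem_unitary b⟩
  have hW : ∀ a k, (W : Matrix (Fin N) (Fin N) ℂ) a k = b k a := fun _ _ => rfl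
  refine ⟨star W, fun i => ⟨fun k => α k i, ?_⟩⟩
  have e : M i * (W : Matrix (Fin N) (Fin N) ℂ)
      = (W : Matrix (Fin N) (Fin N) ℂ) * diagonal fun k => α k i := by
    ext a k
    have h1 := Module.End.mem_eigenspace_iff.1 ((Submodule.mem_iInf _).1 (hα k) i)
    have h2 : (M i *ᵥ (b k).ofLp) a = α k i * b k a := congrArg (fun v => v.ofLp a) h1
    rw [mul_diagonal, hW, mul_comm, ← h2]
    rfl
  rw [Unitary.coe_star, star_star, mul_assoc, e, ← mul_assoc, Unitary.coe_star_mul_self, one_mul]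

theorem permdet (u : UN N) :
    ∃ w : Equiv.Perm (Fin N), ∀ b, (u : Matrix (Fin N) (Fin N) ℂ) (w b) b ≠ 0 := by
  by_contra h
  push Not at h
  have h0 : (u : Matrix (Fin N) (Fin N) ℂ).det = 0 := by
    rw [Matrix.det_apply]
    refine Finset.sum_eq_zero fun w _ => ?_
    obtain ⟨b, hb⟩ := h w
    rw [Finset.prod_eq_zero (f := fun i => (u : Matrix (Fin N) (Fin N) ℂ) (w i) i)
      (Finset.mem_univ b) hb, smul_zero]
  have h1 := congrArg Matrix.det (Unitary.coe_star_mul_self u)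
  rw [Matrix.det_mul, h0, mul_zero, Matrix.det_one] at h1
  exact zero_ne_one h1

theorem inter {u : UN N} {X Y : Matrix (Fin N) (Fin N) ℂ} (hX : ∀ a b, a ≠ b → X a b = 0)
    (hY : ∀ a b, a ≠ b → Y a b = 0)
    (h : (u : Matrix (Fin N) (Fin N) ℂ) * X * star (u : Matrix (Fin N) (Fin N) ℂ) = Y) {a b : Fin N}
    (hab : (u : Matrix (Fin N) (Fin N) ℂ) a b ≠ 0) : Y a a = X b b := by
  have e : Y * (u : Matrix (Fin N) (Fin N) ℂ) = u * X := by
    rw [← h, mul_assoc, Unitary.coe_star_mul_self, mul_one]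
  have e1 := congrFun (congrFun e a) b
  rw [Matrix.mul_apply, Matrix.mul_apply,
    Finset.sum_eq_single a (fun k _ hk => by rw [hY a k hk.symm, zero_mul]) (by simp),
    Finset.sum_eq_single b (fun k _ hk => by rw [hX k b hk, mul_zero]) (by simp), mul_comm] at e1
  exact mul_left_cancel₀ hab e1

theorem permU_inv_mul (w : Equiv.Perm (Fin N)) (u : UN N) (a b : Fin N) :
    ((permU w⁻¹ * u : UN N) : Matrix (Fin N) (Fin N) ℂ) a b
      = (u : Matrix (Fin N) (Fin N) ℂ) (w a) b := by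
  rw [Submonoid.coe_mul, Matrix.mul_apply, Finset.sum_eq_single (w a) (fun k _ hk => by
    rw [permU_apply, if_neg (fun h => hk (by rw [h]; simp)), zero_mul]) (by simp), permU_apply]
  simp

variable {d : ℕ} {F : Type} [NormedAddCommGroup F] [InnerProductSpace ℂ F]
  [FiniteDimensional ℂ F] (c : Ctx N d F)

theorem cmp_Ad9 (u : UN N) (i : Fin 9) (x : Tn 9 d) : cmp i (c.Ad9 u x) = c.Ad u (cmp i x) :=
  cmp_kr_one _ i x

theorem blockdiag (π : Setoid (Fin N)) (x : Fin 9 → Lg d) (hx : ∀ i, x i ∈ c.blk π)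
    (hc : ∀ i j, Commute (c.mat (x i)) (c.mat (x j))) :
    ∃ u ∈ Grp π, ∀ i a b, a ≠ b → c.mat (c.Ad u (x i)) a b = 0 := by
  let l : Fin N → ℕ := fun a => (Quotient.mk π a).out
  have hl : ∀ a b, (l a : ℂ) = l b ↔ π a b := fun a b => by
    rw [Nat.cast_inj, Fin.val_inj, Quotient.out_inj, Quotient.eq]
  have hD : ∀ i, Commute (diagonal fun a => (l a : ℂ)) (c.mat (x i)) := fun i => by
    change _ * _ = _ * _
    ext a b
    rw [diagonal_mul, mul_diagonal]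
    by_cases h : π a b
    · rw [(hl a b).2 h, mul_comm]
    · rw [hx i a b h, mul_zero, zero_mul]
  obtain ⟨u, hu⟩ := simdiag (fun o : Option (Fin 9) =>
      o.elim (diagonal fun a => (l a : ℂ)) fun i => c.mat (x i)) (by
      rintro (_ | i)
      · exact Matrix.isHermitian_diagonal_of_self_adjoint _ (funext fun a => star_natCast _)
      · exact c.mat_herm _) (by
      rintro (_ | i) (_ | j)
      · exact Commute.refl _
      · exact hD j
      · exact (hD i).symm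
      · exact hc i j)
  obtain ⟨w, hw⟩ := permdet u
  obtain ⟨δ, hδ⟩ := hu none
  have key : ∀ a b, (u : Matrix (Fin N) (Fin N) ℂ) a b ≠ 0 → δ a = l b := fun a b hab => by
    simpa using inter (fun _ _ h => diagonal_apply_ne _ h) (fun _ _ h => diagonal_apply_ne _ h) hδ hab
  refine ⟨permU w⁻¹ * u, fun a b hab => ?_, fun i a b hab => ?_⟩
  · rw [permU_inv_mul]
    by_contra h
    exact hab ((hl a b).1 ((key _ _ (hw a)).symm.trans (key _ _ h)))
  · obtain ⟨δ', hδ'⟩ := hu (some i)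
    have h1 := c.mat_Ad_permU w⁻¹ (c.Ad u (x i)) (w a) (w b)
    simp only [Equiv.Perm.coe_inv, Equiv.symm_apply_apply] at h1
    rw [c.Ad_mul, mul_apply_eq_comp, h1, c.mat_Ad]
    exact (congrFun (congrFun hδ' _) _).trans (diagonal_apply_ne _ (w.injective.ne hab))

theorem diag (π : Setoid (Fin N)) (𝔞 : Submodule ℝ (Lg d)) (h : c.Th π 𝔞) (x : Tn 9 d)
    (hx : x ∈ sub 9 𝔞) (h0 : c.Fsq x = 0) : ∃ u ∈ Grp π, ∃ π' ≤ π,
      c.Ad9 u x ∈ c.CS 𝔞 π' ∧ c.Ad9 u x ∈ c.Gen π π' ∧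
        (π' = π → (sub 9 (c.ss π)).starProjection x = 0) := by
  have hc : ∀ i j, Commute (c.mat (cmp i x)) (c.mat (cmp j x)) := fun i j => by
    have h1 := (Finset.sum_eq_zero_iff_of_nonneg fun i _ =>
      Finset.sum_nonneg fun j _ => sq_nonneg _).1 h0 i (Finset.mem_univ i)
    have h2 := (Finset.sum_eq_zero_iff_of_nonneg fun j _ => sq_nonneg _).1 h1 j (Finset.mem_univ j)
    exact (c.ad_eq_zero_iff _ _).1 (norm_eq_zero.1 (pow_eq_zero_iff two_ne_zero |>.1 h2))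
  obtain ⟨u, hu, hd⟩ := blockdiag c π (fun i => cmp i x) (fun i => h.2 (mem_sub.1 hx i)) hc
  let π' : Setoid (Fin N) :=
    ⟨fun a b => π a b ∧ ∀ i, c.mat (cmp i (c.Ad9 u x)) a a = c.mat (cmp i (c.Ad9 u x)) b b,
      fun a => ⟨π.refl a, fun _ => rfl⟩, fun h => ⟨π.symm h.1, fun i => (h.2 i).symm⟩,
      fun h h' => ⟨π.trans h.1 h'.1, fun i => (h.2 i).trans (h'.2 i)⟩⟩
  have hcen : ∀ i, cmp i (c.Ad9 u x) ∈ c.cen π' := fun i =>
    ⟨fun a b hab => by rw [cmp_Ad9]; exact hd i a b hab, fun a b hab => hab.2 i⟩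
  refine ⟨u, hu, π', fun _ _ h => h.1, mem_sub.2 fun i => ⟨mem_sub.1 (h.Ad9_mem c hu hx) i, hcen i⟩,
    fun a b hab hab' => ?_, fun e => ?_⟩
  · by_contra hn
    push Not at hn
    exact hab' ⟨hab, hn⟩
  · rw [Submodule.starProjection_apply_eq_zero_iff, sub_orthogonal]
    refine mem_sub.2 fun i => (c.ss_isOrtho_cen π).symm ?_
    have h1 := hcen i
    rw [e] at h1
    have h2 := c.Ad_cen (inv_mem_Grp hu) h1
    rw [← cmp_Ad9, c.Ad9_inv_apply] at h2
    rwa [h2]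

theorem ent {u : UN N} {π' π'' : Setoid (Fin N)} {y : Tn 9 d} (hy : y ∈ sub 9 (c.cen π'))
    (hy' : c.Ad9 u y ∈ sub 9 (c.cen π'')) {a b : Fin N}
    (hab : (u : Matrix (Fin N) (Fin N) ℂ) a b ≠ 0) (i : Fin 9) :
    c.mat (cmp i (c.Ad9 u y)) a a = c.mat (cmp i y) b b :=
  inter (mem_sub.1 hy i).1 (mem_sub.1 hy' i).1 (by rw [cmp_Ad9, c.mat_Ad]) hab

theorem stab (π π' : Setoid (Fin N)) (y : Tn 9 d) (hy : y ∈ sub 9 (c.cen π'))
    (hg : y ∈ c.Gen π π') (u : UN N) (hu : u ∈ Grp π) (h : c.Ad9 u y = y) : u ∈ Grp π' := by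
  intro a b hab
  by_contra h0
  obtain ⟨i, hi⟩ := hg a b (by
    by_contra h1
    exact h0 (hu a b h1)) hab
  have h1 := ent c hy (h.symm ▸ hy) h0 i
  rw [h] at h1
  exact hi h1

theorem perm (π π' π'' : Setoid (Fin N)) (h' : π' ≤ π) (h'' : π'' ≤ π) (y : Tn 9 d)
    (hy : y ∈ sub 9 (c.cen π')) (hg : y ∈ c.Gen π π') (u : UN N) (hu : u ∈ Grp π)
    (hy' : c.Ad9 u y ∈ sub 9 (c.cen π'')) (hg' : c.Ad9 u y ∈ c.Gen π π'') :
    ∃ w, Maps π π' π'' w ∧ c.Ad9 u y = c.Ad9 (permU w) y := by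
  obtain ⟨w, hw⟩ := permdet u
  have h1 : ∀ a, π (w a) a := fun a => by
    by_contra h
    exact hw a (hu _ _ h)
  have h2 := fun a => ent c hy hy' (hw a)
  refine ⟨w, ⟨h1, fun a b => ⟨fun hab => ?_, fun hab => ?_⟩⟩, ext_cmp fun i => ?_⟩
  · by_contra hn
    obtain ⟨i, hi⟩ := hg a b (π.trans (π.symm (h1 a)) (π.trans (h'' hab) (h1 b))) hn
    exact hi ((h2 a i).symm.trans (((mem_sub.1 hy' i).2 _ _ hab).trans (h2 b i)))
  · by_contra hn
    obtain ⟨i, hi⟩ := hg' (w a) (w b) (π.trans (h1 a) (π.trans (h' hab) (π.symm (h1 b)))) hn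
    exact hi ((h2 a i).trans (((mem_sub.1 hy i).2 _ _ hab).trans (h2 b i).symm))
  · refine c.mat_injective ?_
    ext a b
    obtain ⟨a, rfl⟩ := w.surjective a
    obtain ⟨b, rfl⟩ := w.surjective b
    rw [cmp_Ad9 c (permU w), c.mat_Ad_permU]
    by_cases hab : a = b
    · subst hab
      exact h2 a i
    · rw [(mem_sub.1 hy i).1 a b hab, (mem_sub.1 hy' i).1 _ _ (w.injective.ne hab)]

theorem sep (π π' π'' : Setoid (Fin N)) (h' : π' ≤ π) (h'' : π'' ≤ π) (K' K'' : Set (Tn 9 d))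
    (c' : IsCompact K') (c'' : IsCompact K'')
    (g' : ∀ y ∈ K', y ∈ sub 9 (c.cen π') ∧ y ∈ c.Gen π π')
    (g'' : ∀ y ∈ K'', y ∈ sub 9 (c.cen π'') ∧ y ∈ c.Gen π π'')
    (h : ∀ w, Maps π π' π'' w → ∀ y ∈ K', c.Ad9 (permU w) y ∉ K'') :
    ∃ δ > 0, ∀ u ∈ Grp π, ∀ y' ∈ K', ∀ y'' ∈ K'', δ ≤ ‖y'' - c.Ad9 u y'‖ := by
  have hc : Continuous fun p : (UN N × Tn 9 d) × Tn 9 d => ‖p.2 - c.Ad9 p.1.1 p.1.2‖ :=
    (continuous_snd.sub (c.continuous_Ad9.comp continuous_fst)).norm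
  obtain ⟨δ, hδ, H⟩ := (((isCompact_Grp π).prod c').prod c'').exists_forall_le' hc.continuousOn
    (a := 0) (by
      rintro ⟨⟨u, y'⟩, y''⟩ ⟨⟨hu, hy'⟩, hy''⟩
      refine norm_pos_iff.2 (sub_ne_zero.2 fun e => ?_)
      simp only at e hu hy' hy''
      subst e
      obtain ⟨w, hw, e⟩ := perm c π π' π'' h' h'' y' (g' _ hy').1 (g' _ hy').2 u hu (g'' _ hy'').1
        (g'' _ hy'').2
      exact h w hw y' hy' (e ▸ hy''))
  exact ⟨δ, hδ, fun u hu y' hy' y'' hy'' => H ((u, y'), y'') ⟨⟨hu, hy'⟩, hy''⟩⟩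

theorem good (π : Setoid (Fin N)) (𝔞 : Submodule ℝ (Lg d)) (π' : Setoid (Fin N)) (h : c.Th π 𝔞)
    (h' : π' ≤ π) : ∃ y ∈ c.CS 𝔞 π', y ∈ c.Good π π' := by
  obtain ⟨𝒦, h1, h2⟩ := c.exists_bad h h'
  obtain ⟨x, hx⟩ := Submodule.exists_forall_notMem_of_forall_ne_top
    (fun K : 𝒦 => K.1.comap (c.CS 𝔞 π').subtype) (by
      intro K hK
      have h3 := Submodule.finrank_mono (Submodule.comap_subtype_eq_top.1 hK)
      have h4 := (h1 K.1 K.2).2
      omega)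
  exact ⟨x.1, x.2, (h2 x.1 x.2).2 fun K hK => hx ⟨K, hK⟩⟩

end OrbaAux

namespace Ctx

variable {N d : ℕ} {F : Type} [NormedAddCommGroup F] [InnerProductSpace ℂ F]
  [FiniteDimensional ℂ F] (c : Ctx N d F)

theorem p_orba : c.S_orba where
  diag := OrbaAux.diag c
  stab := OrbaAux.stab c
  perm := OrbaAux.perm c
  sep := OrbaAux.sep c
  fix := fun π π' w _ hw y hy hg h y' hy' => ext_cmp fun i => by
    rw [OrbaAux.cmp_Ad9]
    exact c.Ad_cen (OrbaAux.stab c π π' y hy hg _ (permU_mem_Grp hw.1) h) (mem_sub.1 hy' i)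
  good := OrbaAux.good c

end Ctx

end Vale.Agent.P353
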