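import Vale.Agent.P353.Stmts
import Vale.Agent.P353.Psq

/-! Directions and transversality. -/

noncomputable section

open MeasureTheory Filter Topology Complex Matrix
open scoped ContDiff RealInnerProductSpace

namespace Vale.Agent.P353

namespace OrbbAux

theorem det_ne_iff {V : Type} [NormedAddCommGroup V] [InnerProductSpace ℝ V]
    [FiniteDimensional ℝ V] (a : V →L[ℝ] V) : a.det ≠ 0 ↔ ∀ x, a x = 0 → x = 0 := by
  rw [ContinuousLinearMap.det, Ne, LinearMap.det_eq_zero_iff_ker_ne_bot, not_not,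
    LinearMap.ker_eq_bot']
  rfl

theorem split_zero {V : Type} [NormedAddCommGroup V] [InnerProductSpace ℝ V]
    [FiniteDimensional ℝ V] {W : Submodule ℝ V} {x y : V} (hy : y ∈ W)
    (h : y + (x - W.starProjection x) = 0) : x ∈ W ∧ y = 0 := by
  have h1 : x - W.starProjection x ∈ W := by
    rw [eq_neg_of_add_eq_zero_right h]
    exact W.neg_mem hy
  have h2 : x ∈ W := by
    have := W.add_mem h1 (W.starProjection_apply_mem x)
    rwa [sub_add_cancel] at this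
  rw [Submodule.starProjection_eq_self_iff.2 h2, sub_self, add_zero] at h
  exact ⟨h2, h⟩

theorem finrank_sup_ortho {V : Type} [NormedAddCommGroup V] [InnerProductSpace ℝ V]
    [FiniteDimensional ℝ V] {W W' : Submodule ℝ V} (h : W ⟂ W') :
    Module.finrank ℝ (W ⊔ W' : Submodule ℝ V) = Module.finrank ℝ W + Module.finrank ℝ W' := by
  have := Submodule.finrank_sup_add_finrank_inf_eq W W'
  rwa [h.disjoint.eq_bot, finrank_bot, add_zero] at this

/-- Finitely many points of the moment curve suffice. -/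
theorem exists_moment {ι : Type} (s : Finset ι) (δ : ι → Fin 9 → ℝ) (hδ : ∀ j ∈ s, δ j ≠ 0)
    {n : ℕ} (hn : s.card ≤ n) :
    ∃ t ∈ Finset.range (8 * n + 1), ∀ j ∈ s, ∑ i : Fin 9, (t : ℝ) ^ i.val * δ j i ≠ 0 := by
  classical
  set q : ι → Polynomial ℝ := fun j => ∑ i : Fin 9, Polynomial.monomial i.val (δ j i) with hq
  have h1 : ∀ j ∈ s, q j ≠ 0 := fun j hj h0 => hδ j hj (funext fun i => by
    have := congrArg (Polynomial.coeff · i.val) h0
    simpa [hq, Polynomial.coeff_monomial, Fin.val_inj] using this)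
  have h2 : ∀ j, (q j).natDegree ≤ 8 := fun j =>
    Polynomial.natDegree_sum_le_of_forall_le _ _ fun i _ =>
      (Polynomial.natDegree_monomial_le _).trans (by omega)
  have h3 : (∏ j ∈ s, q j).natDegree ≤ 8 * n := by
    refine (Polynomial.natDegree_prod_le _ _).trans ((Finset.sum_le_card_nsmul _ _ 8
      fun j _ => h2 j).trans ?_)
    rw [smul_eq_mul, mul_comm]
    exact Nat.mul_le_mul_left _ hn
  by_contra hc
  push Not at hc
  refine Finset.prod_ne_zero_iff.2 h1 (Polynomial.eq_zero_of_natDegree_lt_card_of_eval_eq_zero' _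
    ((Finset.range (8 * n + 1)).image fun t : ℕ => (t : ℝ)) (fun x hx => ?_) ?_)
  · obtain ⟨t, ht, rfl⟩ := Finset.mem_image.1 hx
    obtain ⟨j, hj, h0⟩ := hc t ht
    rw [Polynomial.eval_prod]
    refine Finset.prod_eq_zero hj ?_
    simpa [hq, Polynomial.eval_finsetSum, mul_comm] using h0
  · rw [Finset.card_image_of_injective _ Nat.cast_injective, Finset.card_range]
    omega

/-- The normalized moment curve. -/
def mv (t : ℕ) : Fin 9 → ℝ :=
  (√(∑ i : Fin 9, (t : ℝ) ^ i.val * (t : ℝ) ^ i.val))⁻¹ • fun i : Fin 9 => (t : ℝ) ^ i.val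

theorem mv_pos (t : ℕ) : 0 < ∑ i : Fin 9, (t : ℝ) ^ i.val * (t : ℝ) ^ i.val :=
  Finset.sum_pos' (fun _ _ => mul_self_nonneg _) ⟨0, Finset.mem_univ _, by simp⟩

theorem mv_unit (t : ℕ) : mv t ⬝ᵥ mv t = 1 := by
  rw [mv, smul_dotProduct, dotProduct_smul, smul_smul, ← mul_inv, Real.mul_self_sqrt (mv_pos t).le,
    smul_eq_mul]
  exact inv_mul_cancel₀ (mv_pos t).ne'

theorem sq_sum {d : ℕ} {γ : Fin 9 → M16} (h : IsGam γ) (a : Fin 9 → Lg d →L[ℝ] Lg d)
    (hc : ∀ i j, a i * a j = a j * a i) :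
    (∑ i, kr (γ i) (a i)) * (∑ i, kr (γ i) (a i)) = ∑ i, kr (1 : M16) (a i) * kr 1 (a i) := by
  have h1 : (∑ i, kr (γ i) (a i)) * (∑ i, kr (γ i) (a i)) =
      ∑ i, ∑ j, kr (γ i * γ j) (a i * a j) := by
    simp only [Finset.sum_mul_sum, kr_mul]
  have h2 : ∑ i, ∑ j, kr (γ i * γ j) (a i * a j) = ∑ i, ∑ j, kr (γ j * γ i) (a i * a j) := by
    rw [Finset.sum_comm]
    exact Finset.sum_congr rfl fun i _ => Finset.sum_congr rfl fun j _ => by rw [hc]
  have h3 : (2 : ℝ) • ∑ i, ∑ j, kr (γ i * γ j) (a i * a j) =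
      (2 : ℝ) • ∑ i, kr (1 : M16) (a i) * kr 1 (a i) := by
    rw [two_smul ℝ (∑ i, ∑ j, kr (γ i * γ j) (a i * a j))]
    nth_rewrite 2 [h2]
    rw [← Finset.sum_add_distrib, Finset.smul_sum]
    refine Finset.sum_congr rfl fun i _ => ?_
    rw [← Finset.sum_add_distrib, Finset.sum_eq_single i, ← kr_add_left, h.anticomm, if_pos rfl,
      kr_smul_left, kr_mul, one_mul]
    · intro j _ hj
      rw [h.anti j i hj, kr_neg_left, add_neg_cancel]
    · simp
  rw [h1]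
  exact smul_right_injective _ two_ne_zero h3

variable {N d : ℕ} {F : Type} [NormedAddCommGroup F] [InnerProductSpace ℂ F]
  [FiniteDimensional ℂ F] (c : Ctx N d F) {π π' π'' : Setoid (Fin N)}

theorem ad_entry {y : Lg d} (hy : y ∈ c.cen π') (ξ : Lg d) (a b : Fin N) :
    c.mat (c.ad y ξ) a b = -I * ((c.mat y a a - c.mat y b b) * c.mat ξ a b) := by
  rw [c.mat_ad, Matrix.smul_apply, Matrix.sub_apply, Matrix.mul_apply, Matrix.mul_apply,
    Finset.sum_eq_single a (fun x _ hx => by rw [hy.1 a x hx.symm, zero_mul]) (by simp),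
    Finset.sum_eq_single b (fun x _ hx => by rw [hy.1 x b hx, mul_zero]) (by simp), smul_eq_mul]
  ring

theorem zero_of (h : π' ≤ π) {ξ : Lg d} (hξ : ξ ∈ c.off π π')
    (H : ∀ a b, π a b → ¬ π' a b → ∃ z ∈ c.cen π', c.mat z a a ≠ c.mat z b b ∧ c.ad z ξ = 0) :
    ξ = 0 := by
  refine c.mat_injective (Matrix.ext fun a b => ?_)
  rw [map_zero, Matrix.zero_apply]
  by_cases h1 : ¬ π a b ∨ π' a b
  · exact (c.mem_off h ξ).1 hξ a b h1
  · push Not at h1
    obtain ⟨z, hz, h2, h3⟩ := H a b h1.1 h1.2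
    have h4 := ad_entry c hz ξ a b
    rw [h3, map_zero, Matrix.zero_apply] at h4
    simpa [sub_ne_zero.2 h2] using h4

theorem adw_eq (h : π' ≤ π) {y : Lg d} (hy : y ∈ c.blk π') :
    c.adw (c.off π π') y = c.ad y * (c.off π π').starProjection := by
  rw [Ctx.adw, ← c.ad_starProjection fun x hx => c.ad_mem_off h hy hx, mul_assoc,
    (Submodule.isIdempotentElem_starProjection _).eq]

theorem adw_apply (h : π' ≤ π) {y ξ : Lg d} (hy : y ∈ c.blk π') (hξ : ξ ∈ c.off π π') :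
    c.adw (c.off π π') y ξ = c.ad y ξ := by
  rw [adw_eq c h hy, mul_apply_eq_comp, Submodule.starProjection_eq_self_iff.2 hξ]

theorem adw_mem (𝔴 : Submodule ℝ (Lg d)) (y ξ : Lg d) : c.adw 𝔴 y ξ ∈ 𝔴 :=
  𝔴.starProjection_apply_mem _

theorem adw_skew (𝔴 : Submodule ℝ (Lg d)) (y : Lg d) : IsSkew (c.adw 𝔴 y) := fun u v => by
  change ⟪𝔴.starProjection (c.ad y (𝔴.starProjection u)), v⟫ =
    -⟪u, 𝔴.starProjection (c.ad y (𝔴.starProjection v))⟫
  rw [𝔴.inner_starProjection_left_eq_right, c.ad_skew y, 𝔴.inner_starProjection_left_eq_right]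

theorem aw_det (h : π' ≤ π) {y : Tn 9 d} (hy : y ∈ sub 9 (c.cen π')) {v : Fin 9 → ℝ}
    (hv : ∀ a b, π a b → ¬ π' a b → c.mat (cv v y) a a ≠ c.mat (cv v y) b b) :
    (c.aw (c.off π π') v y).det ≠ 0 := by
  refine (det_ne_iff _).2 fun ξ hξ => ?_
  obtain ⟨h1, h2⟩ := split_zero (W := c.off π π') (x := ξ)
    ((c.off π π').neg_mem (adw_mem c _ (cv v y) ξ)) hξ
  rw [neg_eq_zero, adw_apply c h (c.cen_le_blk _ (cv_mem v hy)) h1] at h2
  exact zero_of c h h1 fun a b k1 k2 => ⟨_, cv_mem v hy, hv a b k1 k2, h2⟩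

theorem Dw_det (h : π' ≤ π) {y : Tn 9 d} (hy : y ∈ sub 9 (c.cen π')) (hg : y ∈ c.Gen π π') :
    (c.Dw (c.off π π') y + (1 - kr 1 (c.off π π').starProjection)).det ≠ 0 := by
  refine (det_ne_iff _).2 fun x hx => ?_
  have hb : ∀ i, cmp i y ∈ c.blk π' := fun i => c.cen_le_blk _ (mem_sub.1 hy i)
  have h0 : c.Dw (c.off π π') y x ∈ sub 16 (c.off π π') := by
    rw [Ctx.Dw, _root_.sum_apply]
    refine Submodule.sum_mem _ fun i _ => mem_sub.2 fun α => ?_
    rw [cmp_kr]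
    exact Submodule.sum_mem _ fun β _ => Submodule.smul_mem _ _ (adw_mem c _ _ _)
  rw [← sub_starProjection] at hx
  obtain ⟨h1, h2⟩ := split_zero (x := x) h0 hx
  have h3 := sq_sum c.gam (fun i => c.adw (c.off π π') (cmp i y)) fun i j => by
    have e : c.ad (cmp i y) * c.ad (cmp j y) = c.ad (cmp j y) * c.ad (cmp i y) := by
      rw [← sub_eq_zero, ← c.jacobi, (c.mem_cen_iff _).1 (mem_sub.1 hy i) _ (hb j), c.ad_zero]
    have e' : ∀ i j, c.adw (c.off π π') (cmp i y) * c.adw (c.off π π') (cmp j y) =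
        c.ad (cmp i y) * c.ad (cmp j y) * (c.off π π').starProjection := fun i j => by
      refine ContinuousLinearMap.ext fun u => ?_
      rw [mul_apply_eq_comp, adw_apply c h (hb i) (adw_mem c _ _ _), adw_eq c h (hb j)]
      rfl
    simp only [e', e]
  have h4 : ∑ i, ‖kr (1 : M16) (c.adw (c.off π π') (cmp i y)) x‖ ^ 2 = 0 := by
    have e : ⟪(c.Dw (c.off π π') y * c.Dw (c.off π π') y) x, x⟫ = 0 := by
      rw [mul_apply_eq_comp, h2, map_zero, inner_zero_left]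
    have h3' : c.Dw (c.off π π') y * c.Dw (c.off π π') y = _ := h3
    rw [h3', _root_.sum_apply, sum_inner] at e
    rw [← neg_eq_zero, ← Finset.sum_neg_distrib, ← e]
    refine Finset.sum_congr rfl fun i _ => ?_
    rw [mul_apply_eq_comp, Cov1Aux.skew_kr_one (adw_skew c _ _),
      real_inner_self_eq_norm_sq]
  refine ext_cmp fun α => ?_
  rw [map_zero]
  refine zero_of c h (mem_sub.1 h1 α) fun a b k1 k2 => ?_
  obtain ⟨i, hi⟩ := hg a b k1 k2
  refine ⟨_, mem_sub.1 hy i, hi, ?_⟩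
  have h5 := (Finset.sum_eq_zero_iff_of_nonneg fun _ _ => sq_nonneg _).1 h4 i (Finset.mem_univ _)
  rw [← adw_apply c h (hb i) (mem_sub.1 h1 α), ← cmp_kr_one,
    norm_eq_zero.1 (pow_eq_zero_iff two_ne_zero |>.1 h5), map_zero]

theorem dir : ∃ 𝒱 : Finset (Fin 9 → ℝ), (∀ v ∈ 𝒱, v ⬝ᵥ v = 1) ∧ ∀ π π', π' ≤ π →
    ∀ y ∈ sub 9 (c.cen π'), y ∈ c.Gen π π' → ∃ v ∈ 𝒱, y ∈ c.Ow (c.off π π') v := by
  classical
  refine ⟨(Finset.range (8 * (N * N) + 1)).image mv, fun v hv => ?_, fun π π' h y hy hg => ?_⟩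
  · obtain ⟨t, -, rfl⟩ := Finset.mem_image.1 hv
    exact mv_unit t
  obtain ⟨t, ht, H⟩ := exists_moment
    (Finset.univ.filter fun p : Fin N × Fin N => π p.1 p.2 ∧ ¬ π' p.1 p.2)
    (fun p i => Bas3Aux.dif c p.1 p.2 (cmp i y)) (fun p hp h0 => by
      obtain ⟨i, hi⟩ := hg p.1 p.2 (Finset.mem_filter.1 hp).2.1 (Finset.mem_filter.1 hp).2.2
      exact hi ((Bas3Aux.mat_diag_eq_iff c _ _ _).2 (congrFun h0 i))) (n := N * N)
    ((Finset.card_filter_le _ _).trans (by simp))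
  refine ⟨mv t, Finset.mem_image_of_mem _ ht, aw_det c h hy fun a b k1 k2 h0 => ?_, Dw_det c h hy hg⟩
  have h1 : Bas3Aux.dif c a b (cv (mv t) y) = 0 := (Bas3Aux.mat_diag_eq_iff c _ _ _).1 h0
  simp only [cv_apply, map_sum, map_smul, mv, Pi.smul_apply, smul_eq_mul, mul_assoc,
    ← Finset.mul_sum, mul_eq_zero, inv_eq_zero] at h1
  exact h1.elim (Real.sqrt_pos.2 (mv_pos t)).ne'
    (H (a, b) (Finset.mem_filter.2 ⟨Finset.mem_univ _, k1, k2⟩))

theorem gen {v : Fin 9 → ℝ} (h : π' ≤ π) (h' : π'' ≤ π') {y : Tn 9 d} (hy : y ∈ sub 9 (c.cen π''))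
    (ho : y ∈ c.Ow (c.off π π') v) (hg : y ∈ c.Gen π' π'') : y ∈ c.Gen π π'' := by
  intro a b k1 k2
  by_cases k3 : π' a b
  · exact hg a b k3 k2
  by_contra hc
  push Not at hc
  have hab : a ≠ b := fun e => k3 (e ▸ π'.refl' a)
  have hM : c.mat (c.co (Matrix.single a b 1 + Matrix.single b a 1)) =
      Matrix.single a b 1 + Matrix.single b a 1 := c.span _ (by
    simp [Matrix.IsHermitian, Matrix.conjTranspose_single, add_comm]) (by
    simp [Matrix.trace_single_eq_of_ne, hab, hab.symm])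
  set ξ := c.co (Matrix.single a b 1 + Matrix.single b a 1) with hξ
  have he : ∀ p q, c.mat ξ p q ≠ 0 → (p = a ∧ q = b) ∨ (p = b ∧ q = a) := fun p q hpq => by
    by_contra h0
    refine hpq ?_
    rw [not_or] at h0
    rw [hM, Matrix.add_apply, Matrix.single_apply_of_ne _ _ _ _ _ fun e => h0.1 ⟨e.1.symm, e.2.symm⟩,
      Matrix.single_apply_of_ne _ _ _ _ _ fun e => h0.2 ⟨e.1.symm, e.2.symm⟩, add_zero]
  have h1 : ξ ∈ c.off π π' := (c.mem_off h ξ).2 fun p q hpq => by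
    by_contra h0
    rcases he p q h0 with ⟨rfl, rfl⟩ | ⟨rfl, rfl⟩
    · exact hpq.elim (fun e => e k1) k3
    · exact hpq.elim (fun e => e (π.symm' k1)) fun e => k3 (π'.symm' e)
  have h2 : c.mat (cv v y) a a = c.mat (cv v y) b b := by
    simp only [cv_apply, map_sum, map_smul, Matrix.sum_apply, Matrix.smul_apply, hc]
  have h3 : c.ad (cv v y) ξ = 0 := by
    refine c.mat_injective (Matrix.ext fun p q => ?_)
    rw [ad_entry c (cv_mem v hy), map_zero, Matrix.zero_apply]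
    by_cases h0 : c.mat ξ p q = 0
    · simp [h0]
    · rcases he p q h0 with ⟨rfl, rfl⟩ | ⟨rfl, rfl⟩ <;> simp [h2]
  have h4 := (det_ne_iff _).1 ho.1 ξ (by
    change -c.adw (c.off π π') (cv v y) ξ + (ξ - (c.off π π').starProjection ξ) = 0
    rw [adw_apply c h (c.blk_mono h' (c.cen_le_blk _ (cv_mem v hy))) h1, h3,
      Submodule.starProjection_eq_self_iff.2 h1, sub_self, neg_zero, add_zero])
  have h5 := congrFun (congrFun hM a) b
  rw [h4] at h5
  simp [hab.symm] at h5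

theorem trans {𝔞 : Submodule ℝ (Lg d)} {v : Fin 9 → ℝ} (hL : c.Lc π 𝔞 π' v) {X : Tn 9 d}
    (hX : X ∈ c.Sl 𝔞 π') (ho : X ∈ c.Ow (c.off π π') v) :
    c.Trans π 𝔞 (c.off π π') (c.Sl 𝔞 π' ⊔ Wsl (c.off π π') v) X := by
  obtain ⟨hT, h, hv⟩ := hL
  have o1 : (𝔞 ⊓ c.blk π') ⟂ c.off π π' := (c.off_isOrtho_blk π π').symm.mono_left inf_le_right
  refine ⟨hT, inf_le_left, sup_le (sub_mono inf_le_left)
    (inf_le_left.trans (sub_mono ((c.off_le_ss h).trans hT.1))), Submodule.mem_sup_left hX, ?_,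
    fun ξ hξ hY => ?_⟩
  · have o2 : c.Sl 𝔞 π' ⟂ Wsl (c.off π π') v := (sub_isOrtho o1).mono_right inf_le_left
    rw [finrank_sup_ortho o2, finrank_sub, finrank_sub, finrank_Wsl _ hv]
    have := finrank_sup_ortho o1
    rw [hT.sup_off c h] at this
    omega
  · have hb : cv v X ∈ c.blk π' := (cv_mem v hX).2
    obtain ⟨s, hs, W, hW, e⟩ := Submodule.mem_sup.1 hY
    have h1 : c.ad (cv v X) ξ = -cv v s := by
      have e1 := congrArg (cv v) e
      have e2 : cv v W = 0 := hW.2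
      rw [map_add, e2, add_zero, Ctx.vf, cv_kr_one] at e1
      rw [c.ad_anti, e1]
    have h2 : c.ad (cv v X) ξ = 0 := by
      refine (Submodule.disjoint_def.1 (c.off_isOrtho_blk π π').disjoint) _
        (c.ad_mem_off h hb hξ) ?_
      rw [h1]
      exact (c.blk π').neg_mem (cv_mem v hs).2
    refine (det_ne_iff _).1 ho.1 ξ ?_
    change -c.adw (c.off π π') (cv v X) ξ + (ξ - (c.off π π').starProjection ξ) = 0
    rw [adw_apply c h hb hξ, h2, Submodule.starProjection_eq_self_iff.2 hξ, sub_self, neg_zero,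
      add_zero]

theorem mem_Yz (z y : Tn 9 d) :
    y ∈ c.Yz π z ↔ y ∈ sub 9 (c.ss π) ∧ ∀ ξ ∈ c.blk π, ⟪c.vf ξ z, y⟫ = 0 := by
  simp only [Ctx.Yz, Submodule.mem_inf, Submodule.mem_iInf,
    Submodule.mem_orthogonal_singleton_iff_inner_right]

theorem yz {z : Tn 9 d} (hz : z ∈ sub 9 (c.ss π)) : ∃ 𝔪, c.Trans π (c.ss π) 𝔪 (c.Yz π z) z ∧
    (∀ u ∈ Grp π, c.Ad9 u z = z → ∀ y ∈ c.Yz π z, c.Ad9 u y ∈ c.Yz π z) ∧
    ∀ ζ ∈ c.blk π ⊓ 𝔪ᗮ, c.vf ζ z = 0 := by
  let L : Lg d →ₗ[ℝ] Tn 9 d :=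
    { toFun := fun ξ => c.vf ξ z
      map_add' := fun x y => by
        rw [Ctx.vf, c.ad_add, kr_add_right]
        rfl
      map_smul' := fun t x => by
        rw [Ctx.vf, c.ad_smul, kr_smul_right]
        rfl }
  set K := c.blk π ⊓ LinearMap.ker L with hK
  have hKb : K ≤ c.blk π := inf_le_left
  have hs := Submodule.sup_orthogonal_inf_of_hasOrthogonalProjection hKb
  have h0 : ∀ ξ ∈ Kᗮ ⊓ c.blk π, L ξ = 0 → ξ = 0 := fun ξ hξ h =>
    (Submodule.disjoint_def.1 K.orthogonal_disjoint) _ ⟨hξ.2, h⟩ hξ.1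
  have hY : c.Yz π z = ((c.blk π).map L)ᗮ ⊓ sub 9 (c.ss π) := by
    ext y
    rw [mem_Yz, and_comm, Submodule.mem_inf, Submodule.mem_orthogonal]
    exact and_congr_left fun _ => ⟨by rintro h _ ⟨ξ, hξ, rfl⟩; exact h ξ hξ,
      fun h ξ hξ => h _ ⟨ξ, hξ, rfl⟩⟩
  refine ⟨Kᗮ ⊓ c.blk π, ⟨c.Th_ss π, inf_le_right, inf_le_left, ?_, ?_, fun ξ hξ h => ?_⟩,
    fun u hu huz y hy => ?_, fun ζ hζ => ?_⟩
  · refine (mem_Yz c z z).2 ⟨hz, fun ξ _ => ?_⟩
    have := c.vf_skew ξ z z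
    rw [real_inner_comm] at this
    linarith [real_inner_comm z (c.vf ξ z)]
  · have h1 : (c.blk π).map L ≤ sub 9 (c.ss π) := by
      rintro _ ⟨ξ, hξ, rfl⟩
      exact (c.Th_ss π).vf_mem c hξ hz
    have h2 : (c.blk π).map L = LinearMap.range (L.domRestrict (Kᗮ ⊓ c.blk π)) := by
      rw [LinearMap.range_domRestrict]
      nth_rewrite 1 [← hs]
      rw [Submodule.map_sup, (Submodule.map_le_iff_le_comap.2 (show K ≤ Submodule.comap L ⊥ from
        inf_le_right)).antisymm bot_le, bot_sup_eq]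
    rw [hY, ← Submodule.finrank_add_inf_finrank_orthogonal h1, h2,
      LinearMap.finrank_range_of_inj]
    exact (injective_iff_map_eq_zero _).2 fun ξ hξ => Subtype.ext (h0 ξ ξ.2 hξ)
  · exact h0 ξ hξ (inner_self_eq_zero.1 (((mem_Yz c z _).1 h).2 ξ hξ.2))
  · rw [mem_Yz] at hy ⊢
    refine ⟨(c.Th_ss π).Ad9_mem c hu hy.1, fun ξ hξ => ?_⟩
    have e : c.vf ξ z = c.Ad9 u (c.vf (c.Ad u⁻¹ ξ) z) := ext_cmp fun i => by
      have e1 := congrArg (cmp i) huz
      rw [Ctx.Ad9, cmp_kr_one] at e1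
      rw [Ctx.Ad9, Ctx.vf, Ctx.vf, cmp_kr_one, cmp_kr_one, cmp_kr_one, c.Ad_ad,
        Bas3Aux.Ad_apply_inv, e1]
    rw [e, c.inner_Ad9]
    exact hy.2 _ (c.Ad_mem_blk (inv_mem_Grp hu) hξ)
  · obtain ⟨k, hk, m, hm, rfl⟩ := Submodule.mem_sup.1 (hs.ge hζ.1)
    have h1 : ⟪m, k + m⟫ = 0 := hζ.2 m hm
    rw [inner_add_right, Submodule.inner_left_of_mem_orthogonal hk hm.1, zero_add,
      inner_self_eq_zero] at h1
    rw [h1, add_zero]
    exact hk.2

end OrbbAux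

namespace Ctx

variable {N d : ℕ} {F : Type} [NormedAddCommGroup F] [InnerProductSpace ℂ F]
  [FiniteDimensional ℂ F] (c : Ctx N d F)

theorem p_orbb : c.S_orbb where
  dir := OrbbAux.dir c
  gen := fun _ _ _ _ h h' _ hy ho hg => OrbbAux.gen c h h' hy ho hg
  trans := fun _ _ _ _ hL _ hX ho => OrbbAux.trans c hL hX ho
  yz := fun _ _ hz => OrbbAux.yz c hz

end Ctx

end Vale.Agent.P353
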