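import Vale.Agent.P353.Stmts

/-! The potential is proportional to the identity in spinor space. -/

noncomputable section

open MeasureTheory Filter Topology Complex Matrix
open scoped ContDiff RealInnerProductSpace

namespace Vale.Agent.P353

namespace PotIdAux

open Gam1Aux

variable {γ : Fin 9 → M16}

lemma cyc {A : Type} [AddCommMonoid A] (f : Fin 9 → Fin 9 → Fin 9 → A) :
    ∑ i, ∑ j, ∑ k, f i j k = ∑ i, ∑ j, ∑ k, f j k i := by
  rw [Finset.sum_comm (f := fun i j => ∑ k, f j k i)]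
  exact Finset.sum_congr rfl fun j _ => Finset.sum_comm

lemma dl_comm (i j : Fin 9) : dl i j = dl j i := by
  unfold dl
  simp only [eq_comm]

lemma sum_dl (i : Fin 9) (f : Fin 9 → M16) : ∑ j, dl i j • f j = f i := by
  unfold dl
  simp only [ite_smul, one_smul, zero_smul, Finset.sum_ite_eq, Finset.mem_univ, if_true]

lemma sym2 (h : IsGam γ) (a : Fin 9 → Fin 9 → ℝ) (ha : ∀ i j, a i j = a j i) :
    ∑ i, ∑ j, a i j • (γ i * γ j) = (∑ i, a i i) • (1 : M16) := by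
  have e : ∑ i, ∑ j, a i j • (γ i * γ j) = ∑ i, ∑ j, a i j • (γ j * γ i) := by
    rw [Finset.sum_comm]
    exact Finset.sum_congr rfl fun i _ => Finset.sum_congr rfl fun j _ => by rw [ha]
  have e2 : (2 : ℝ) • ∑ i, ∑ j, a i j • (γ i * γ j) = (2 : ℝ) • (∑ i, a i i) • (1 : M16) := by
    rw [two_smul]
    nth_rewrite 2 [e]
    rw [← Finset.sum_add_distrib, Finset.sum_smul, Finset.smul_sum]
    refine Finset.sum_congr rfl fun i _ => ?_
    rw [← Finset.sum_add_distrib, ← sum_dl i fun j => (2 : ℝ) • a i j • (1 : M16)]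
    refine Finset.sum_congr rfl fun j _ => ?_
    rw [swap h i j]
    module
  exact smul_right_injective _ (two_ne_zero) e2

lemma rot3 (h : IsGam γ) (i j k : Fin 9) :
    γ j * γ k * γ i = γ i * γ j * γ k - (2 * dl i j) • γ k + (2 * dl i k) • γ j := by
  rw [mul_assoc (γ i), swap' h i j, swap h i k, mul_sub, mul_smul_comm, mul_one, mul_assoc]
  module

lemma three (h : IsGam γ) (R : Fin 9 → Fin 9 → Fin 9 → ℝ) (ha : ∀ i j k, R i j k = -R j i k)
    (hb : ∀ i j k, R i j k + R j k i + R k i j = 0) :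
    ∑ i, ∑ j, ∑ k, R i j k • (γ i * γ j * γ k) = ∑ k, (-2 * ∑ i, R i k i) • γ k := by
  have h0 : ∀ i k, R i i k = 0 := fun i k => by linarith [ha i i k]
  have e1 := cyc fun i j k => R i j k • (γ i * γ j * γ k)
  have e2 := (cyc fun i j k => R k i j • (γ k * γ i * γ j)).symm
  have t1 : ∑ i, ∑ j, ∑ k, dl i j • (R j k i • γ k) = ∑ k, (∑ i, R i k i) • γ k := by
    simp only [← Finset.smul_sum, sum_dl, Finset.sum_smul]
    exact Finset.sum_comm
  have t2 : ∑ i, ∑ j, ∑ k, dl i k • (R j k i • γ j) = ∑ k, (-∑ i, R i k i) • γ k := by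
    simp only [sum_dl, ← Finset.sum_neg_distrib, Finset.sum_smul]
    rw [Finset.sum_comm]
    exact Finset.sum_congr rfl fun i _ => Finset.sum_congr rfl fun j _ => by rw [ha]
  have t3 : ∑ i, ∑ j, ∑ k, dl j k • (R k i j • γ i) = ∑ k, (∑ i, R i k i) • γ k := by
    simp only [sum_dl, Finset.sum_smul]
  have t4 : ∑ i, ∑ j, ∑ k, dl i k • (R k i j • γ j) = 0 := by
    simp only [sum_dl, h0, zero_smul, Finset.sum_const_zero]
  have e : (3 : ℝ) • ∑ i, ∑ j, ∑ k, R i j k • (γ i * γ j * γ k) =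
      (-2 : ℝ) • ∑ i, ∑ j, ∑ k, dl i j • (R j k i • γ k) +
      (2 : ℝ) • ∑ i, ∑ j, ∑ k, dl i k • (R j k i • γ j) +
      (-2 : ℝ) • ∑ i, ∑ j, ∑ k, dl j k • (R k i j • γ i) +
      (2 : ℝ) • ∑ i, ∑ j, ∑ k, dl i k • (R k i j • γ j) := by
    have : (3 : ℝ) • ∑ i, ∑ j, ∑ k, R i j k • (γ i * γ j * γ k) =
        ∑ i, ∑ j, ∑ k, R i j k • (γ i * γ j * γ k) + ∑ i, ∑ j, ∑ k, R j k i • (γ j * γ k * γ i) +
          ∑ i, ∑ j, ∑ k, R k i j • (γ k * γ i * γ j) := by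
      rw [← e1, ← e2]
      module
    rw [this]
    simp only [Finset.smul_sum, ← Finset.sum_add_distrib]
    refine Finset.sum_congr rfl fun i _ => Finset.sum_congr rfl fun j _ =>
      Finset.sum_congr rfl fun k _ => ?_
    have r2 : γ k * γ i * γ j = γ i * γ j * γ k + (2 * dl i k) • γ j - (2 * dl j k) • γ i := by
      rw [rot3 h k i j, dl_comm k i, dl_comm k j]
      module
    have r3 : R i j k = -R j k i - R k i j := by linarith [hb i j k]
    rw [rot3 h i j k, r2, r3]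
    module
  rw [t1, t2, t3, t4] at e
  refine smul_right_injective _ (three_ne_zero (α := ℝ)) ?_
  simp only
  rw [e]
  simp only [Finset.smul_sum, smul_zero, add_zero, ← Finset.sum_add_distrib]
  refine Finset.sum_congr rfl fun k _ => ?_
  module

lemma four (h : IsGam γ) (R : Fin 9 → Fin 9 → Fin 9 → Fin 9 → ℝ)
    (ha : ∀ i j k l, R i j k l = -R j i k l) (hp : ∀ i j k l, R i j k l = R k l i j)
    (hb : ∀ i j k l, R i j k l + R j k i l + R k i j l = 0) :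
    ∃ t : ℝ, ∑ i, ∑ j, ∑ k, ∑ l, R i j k l • (γ i * γ j * (γ k * γ l)) = t • (1 : M16) := by
  refine ⟨_, Eq.trans ?_ (sym2 h (fun k l => -2 * ∑ i, R i k i l) fun k l => ?_)⟩
  · have e : ∑ i, ∑ j, ∑ k, ∑ l, R i j k l • (γ i * γ j * (γ k * γ l)) =
        ∑ l, (∑ i, ∑ j, ∑ k, R i j k l • (γ i * γ j * γ k)) * γ l := by
      simp only [Finset.sum_mul, smul_mul_assoc, mul_assoc]
      rw [Finset.sum_comm (f := fun l i => ∑ j, ∑ k, R i j k l • (γ i * (γ j * (γ k * γ l))))]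
      refine Finset.sum_congr rfl fun i _ => ?_
      rw [Finset.sum_comm (f := fun l j => ∑ k, R i j k l • (γ i * (γ j * (γ k * γ l))))]
      exact Finset.sum_congr rfl fun j _ => Finset.sum_comm
    rw [e, Finset.sum_comm]
    refine Finset.sum_congr rfl fun l _ => ?_
    rw [three h (fun i j k => R i j k l) (fun i j k => ha i j k l) fun i j k => hb i j k l,
      Finset.sum_mul]
    simp only [smul_mul_assoc]
  · simp only [hp _ k]

lemma small (h : IsGam γ) {i j l : Fin 9} (hi : i.val < 3) (hj : j.val < 3) (hl : l.val < 3)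
    (hij : i ≠ j) (hjl : j ≠ l) (hil : i ≠ l) :
    γ i * γ j * γ l * Gm γ ∈ Submodule.span ℝ {(1 : M16)} := by
  have h1 : (1 : M16) ∈ Submodule.span ℝ {(1 : M16)} := Submodule.mem_span_singleton_self _
  have p : Gm γ * Gm γ ∈ Submodule.span ℝ {(1 : M16)} := by
    rw [h.Gm_sq]
    exact neg_mem h1
  have c1 : γ 1 * γ 2 * γ 0 = Gm γ := by
    rw [Gm, ← pass2 h (by decide) (by decide), mul_assoc]
  have c2 : γ 2 * γ 0 * γ 1 = Gm γ := by
    rw [Gm, mul_assoc, pass2 h (by decide) (by decide)]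
  obtain rfl | rfl | rfl : i = 0 ∨ i = 1 ∨ i = 2 := by omega
  · obtain ⟨rfl, rfl⟩ | ⟨rfl, rfl⟩ : (j = 1 ∧ l = 2) ∨ (j = 2 ∧ l = 1) := by omega
    · exact p
    · rw [h.anti 0 2 (by decide), neg_mul, c2, neg_mul]
      exact neg_mem p
  · obtain ⟨rfl, rfl⟩ | ⟨rfl, rfl⟩ : (j = 0 ∧ l = 2) ∨ (j = 2 ∧ l = 0) := by omega
    · rw [h.anti 1 0 (by decide), neg_mul, neg_mul]
      exact neg_mem p
    · rw [c1]
      exact p
  · obtain ⟨rfl, rfl⟩ | ⟨rfl, rfl⟩ : (j = 0 ∧ l = 1) ∨ (j = 1 ∧ l = 0) := by omega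
    · rw [c2]
      exact p
    · rw [h.anti 2 1 (by decide), neg_mul, c1, neg_mul]
      exact neg_mem p

lemma cubic (h : IsGam γ) (T : Fin 9 → Fin 9 → Fin 9 → ℝ) (ha : ∀ i j k, T i j k = -T j i k)
    (hc : ∀ i j k, T i j k = T j k i) :
    ∃ t : ℝ, ∑ i, ∑ j, ∑ l, (kk l * T i j l) • (γ i * γ j * γ l * Gm γ + Gm γ * (γ i * γ j * γ l)) =
      t • (1 : M16) := by
  obtain ⟨G, hG⟩ : ∃ G : Fin 9 → Fin 9 → Fin 9 → M16, ∀ i j l,
      G i j l = T i j l • (γ i * γ j * γ l * Gm γ + Gm γ * (γ i * γ j * γ l)) := ⟨_, fun _ _ _ => rfl⟩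
  have h0 : ∀ i k, T i i k = 0 := fun i k => by linarith [ha i i k]
  have hGc : ∀ i j l, G j l i = G i j l := by
    intro i j l
    rw [hG, hG, ← hc i j l]
    by_cases hij : i = j
    · rw [hij, h0, zero_smul, zero_smul]
    by_cases hil : i = l
    · rw [hil, hc, hc, h0, zero_smul, zero_smul]
    rw [← pass2 h hij hil, mul_assoc (γ i) (γ j)]
  have e0 : ∑ i, ∑ j, ∑ l, (kk l * T i j l) •
      (γ i * γ j * γ l * Gm γ + Gm γ * (γ i * γ j * γ l)) = ∑ i, ∑ j, ∑ l, kk l • G i j l := by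
    simp only [hG, smul_smul]
  have e1 : ∑ i, ∑ j, ∑ l, kk l • G i j l = ∑ i, ∑ j, ∑ l, kk i • G i j l := by
    rw [cyc]
    simp only [hGc]
  have e2 : ∑ i, ∑ j, ∑ l, kk i • G i j l = ∑ i, ∑ j, ∑ l, kk j • G i j l := by
    rw [cyc]
    simp only [hGc]
  have e3 : ∑ i, ∑ j, ∑ l, kk l • G i j l =
      (1 / 3 : ℝ) • ∑ i, ∑ j, ∑ l, (kk i + kk j + kk l) • G i j l := by
    simp only [add_smul, Finset.sum_add_distrib]
    rw [← e2, ← e1]
    module
  rw [e0, e3]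
  suffices H : ∑ i, ∑ j, ∑ l, (kk i + kk j + kk l) • G i j l ∈ Submodule.span ℝ {(1 : M16)} by
    obtain ⟨t, ht⟩ := Submodule.mem_span_singleton.1 H
    exact ⟨1 / 3 * t, by rw [← ht, smul_smul]⟩
  refine Submodule.sum_mem _ fun i _ => Submodule.sum_mem _ fun j _ =>
    Submodule.sum_mem _ fun l _ => ?_
  have s : Gm γ * (γ i * γ j * γ l) = (sg i * sg j * sg l) • (γ i * γ j * γ l * Gm γ) := by
    rw [← mul_assoc, Gm_mul2 h, smul_mul_assoc, mul_assoc _ (Gm γ), Gm_mul h, mul_smul_comm,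
      smul_smul, mul_assoc (γ i * γ j)]
  have s2 : (kk i + kk j + kk l) • G i j l =
      ((kk i + kk j + kk l) * (1 + sg i * sg j * sg l) * T i j l) • (γ i * γ j * γ l * Gm γ) := by
    rw [hG, s]
    module
  rw [s2]
  by_cases hT : T i j l = 0
  · rw [hT, mul_zero, zero_smul]
    exact zero_mem _
  by_cases hs : i.val < 3 ∧ j.val < 3 ∧ l.val < 3
  · refine Submodule.smul_mem _ _ (small h hs.1 hs.2.1 hs.2.2 ?_ ?_ ?_)
    · rintro rfl
      exact hT (h0 _ _)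
    · rintro rfl
      exact hT (by rw [hc, h0])
    · rintro rfl
      exact hT (by rw [hc, hc, h0])
  · have : (kk i + kk j + kk l) * (1 + sg i * sg j * sg l) = 0 := by
      unfold kk sg
      split_ifs with h1 h2 h3
      · exact absurd ⟨h1, h2, h3⟩ hs
      all_goals norm_num
    rw [this, zero_mul, zero_smul]
    exact zero_mem _

lemma inner_sum_tens {d : ℕ} {ι κ : Type} [Fintype ι] [Fintype κ] (A : ι → M16) (B : κ → M16)
    (u : ι → Lg d) (w : κ → Lg d) (e e' : Fin 16 → ℝ) :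
    ⟪∑ i, tens (A i *ᵥ e) (u i), ∑ j, tens (B j *ᵥ e') (w j)⟫ =
      e ⬝ᵥ ((∑ i, ∑ j, ⟪u i, w j⟫ • ((A i)ᵀ * B j)) *ᵥ e') := by
  rw [sum_inner, Matrix.sum_mulVec, dotProduct_sum]
  refine Finset.sum_congr rfl fun i _ => ?_
  rw [inner_sum, Matrix.sum_mulVec, dotProduct_sum]
  refine Finset.sum_congr rfl fun j _ => ?_
  rw [inner_tens, dot_mul, Matrix.mulVec_mulVec, Matrix.smul_mulVec, dotProduct_smul, smul_eq_mul,
    mul_comm]

end PotIdAux

open PotIdAux Gam1Aux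

namespace Ctx

variable {N d : ℕ} {F : Type} [NormedAddCommGroup F] [InnerProductSpace ℂ F]
  [FiniteDimensional ℂ F] (c : Ctx N d F)

private theorem Phi_eq' (e : Fin 16 → ℝ) (x : Tn 9 d) : c.Phi e x =
    ∑ p : Fin 9 × Fin 9, tens ((c.γ p.2 * c.γ p.1) *ᵥ e)
      ((1 / 2 : ℝ) • c.ad (cmp p.1 x) (cmp p.2 x)) := by
  rw [Fintype.sum_prod_type, Phi]
  simp only [Finset.smul_sum, map_smul]
  refine Finset.sum_congr rfl fun i _ => Finset.sum_congr rfl fun j _ => ?_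
  by_cases h : j = i
  · rw [h, c.ad_self, map_zero, map_zero]
  · rw [c.gam.gamma2_ne h]

private theorem Km_eq' (e : Fin 16 → ℝ) (x : Tn 9 d) :
    c.Km e x = ∑ i, tens ((c.γ i * Gm c.γ) *ᵥ e) (kk i • cmp i x) := by
  rw [Km_apply]
  refine Finset.sum_congr rfl fun i _ => ?_
  rw [map_smul]

private theorem bianchi (x y z w : Lg d) : ⟪c.ad x y, c.ad w z⟫ + ⟪c.ad y z, c.ad w x⟫ +
    ⟪c.ad z x, c.ad w y⟫ = 0 := by
  have h : ∀ x y z : Lg d, ⟪c.ad x y, c.ad w z⟫ = ⟪w, c.ad z (c.ad x y)⟫ := by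
    intro x y z
    rw [real_inner_comm, c.inner_ad_cyc]
  rw [h, h, h, ← inner_add_right, ← inner_add_right, c.ad_anti z (c.ad x y), c.jacobi,
    c.ad_anti z x, map_neg]
  simp

private theorem PP (x : Tn 9 d) : ∃ t : ℝ, ∀ e e', ⟪c.Phi e x, c.Phi e' x⟫ = t * (e ⬝ᵥ e') := by
  obtain ⟨t, ht⟩ := four c.gam (fun i j k l =>
    ⟪(1 / 2 : ℝ) • c.ad (cmp i x) (cmp j x), (1 / 2 : ℝ) • c.ad (cmp l x) (cmp k x)⟫)
    (fun i j k l => by rw [c.ad_anti (cmp i x), smul_neg, inner_neg_left])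
    (fun i j k l => by
      rw [c.ad_anti (cmp i x), c.ad_anti (cmp l x), smul_neg, smul_neg, inner_neg_neg,
        real_inner_comm])
    (fun i j k l => by
      simp only [real_inner_smul_left, real_inner_smul_right]
      linarith [c.bianchi (cmp i x) (cmp j x) (cmp k x) (cmp l x)])
  refine ⟨t, fun e e' => ?_⟩
  rw [Phi_eq', Phi_eq', inner_sum_tens]
  have : ∑ p : Fin 9 × Fin 9, ∑ q : Fin 9 × Fin 9,
      ⟪(1 / 2 : ℝ) • c.ad (cmp p.1 x) (cmp p.2 x), (1 / 2 : ℝ) • c.ad (cmp q.1 x) (cmp q.2 x)⟫ •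
        ((c.γ p.2 * c.γ p.1)ᵀ * (c.γ q.2 * c.γ q.1)) = t • (1 : M16) := by
    rw [← ht, Fintype.sum_prod_type]
    refine Finset.sum_congr rfl fun i _ => Finset.sum_congr rfl fun j _ => ?_
    rw [Fintype.sum_prod_type, Finset.sum_comm]
    simp only [transpose_mul, c.gam.symm]
  rw [this, Matrix.smul_mulVec, Matrix.one_mulVec, dotProduct_smul, smul_eq_mul]

private theorem KK (x : Tn 9 d) : ∃ t : ℝ, ∀ e e', ⟪c.Km e x, c.Km e' x⟫ = t * (e ⬝ᵥ e') := by
  have ht := sym2 c.gam (fun i j => ⟪kk i • cmp i x, kk j • cmp j x⟫)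
    fun i j => real_inner_comm _ _
  refine ⟨∑ i, ⟪kk i • cmp i x, kk i • cmp i x⟫, fun e e' => ?_⟩
  rw [Km_eq', Km_eq', inner_sum_tens]
  have : ∑ i, ∑ j, ⟪kk i • cmp i x, kk j • cmp j x⟫ • ((c.γ i * Gm c.γ)ᵀ * (c.γ j * Gm c.γ)) =
      -(Gm c.γ * (∑ i, ∑ j, ⟪kk i • cmp i x, kk j • cmp j x⟫ • (c.γ i * c.γ j)) * Gm c.γ) := by
    simp only [Finset.mul_sum, Finset.sum_mul, ← Finset.sum_neg_distrib, transpose_mul,
      c.gam.symm, c.gam.Gm_transpose, mul_smul_comm, smul_mul_assoc, mul_assoc, neg_mul, smul_neg]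
  rw [this, ht, mul_smul_comm, smul_mul_assoc, mul_one, c.gam.Gm_sq, smul_neg, neg_neg,
    Matrix.smul_mulVec, Matrix.one_mulVec, dotProduct_smul, smul_eq_mul]

private theorem PK (x : Tn 9 d) : ∃ t : ℝ, ∀ e e',
    ⟪c.Phi e x, c.Km e' x⟫ + ⟪c.Km e x, c.Phi e' x⟫ = t * (e ⬝ᵥ e') := by
  obtain ⟨T, hT⟩ : ∃ T : Fin 9 → Fin 9 → Fin 9 → ℝ, ∀ i j l,
      T i j l = ⟪(1 / 2 : ℝ) • c.ad (cmp i x) (cmp j x), cmp l x⟫ := ⟨_, fun _ _ _ => rfl⟩
  have ha : ∀ i j k, T i j k = -T j i k := fun i j k => by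
    rw [hT, hT, c.ad_anti (cmp i x), smul_neg, inner_neg_left]
  have hc : ∀ i j k, T i j k = T j k i := fun i j k => by
    rw [hT, hT, real_inner_smul_left, real_inner_smul_left, c.inner_ad_cyc, real_inner_comm]
  have h0 : ∀ i k, T i i k = 0 := fun i k => by linarith [ha i i k]
  obtain ⟨t, ht⟩ := cubic c.gam T ha hc
  refine ⟨t, fun e e' => ?_⟩
  rw [Phi_eq', Phi_eq', Km_eq', Km_eq', inner_sum_tens, inner_sum_tens, ← dotProduct_add,
    ← Matrix.add_mulVec, Finset.sum_comm (γ := Fin 9), ← Finset.sum_add_distrib,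
    Fintype.sum_prod_type]
  have : ∀ i j, (∑ l, ⟪(1 / 2 : ℝ) • c.ad (cmp i x) (cmp j x), kk l • cmp l x⟫ •
      ((c.γ j * c.γ i)ᵀ * (c.γ l * Gm c.γ)) +
      ∑ l, ⟪kk l • cmp l x, (1 / 2 : ℝ) • c.ad (cmp i x) (cmp j x)⟫ •
        ((c.γ l * Gm c.γ)ᵀ * (c.γ j * c.γ i))) =
      ∑ l, (kk l * T i j l) •
        (c.γ i * c.γ j * c.γ l * Gm c.γ + Gm c.γ * (c.γ i * c.γ j * c.γ l)) := by
    intro i j
    rw [← Finset.sum_add_distrib]
    refine Finset.sum_congr rfl fun l _ => ?_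
    rw [real_inner_comm _ (kk l • cmp l x), real_inner_smul_right, ← hT, ← smul_add]
    by_cases hij : i = j
    · rw [hij, h0, mul_zero, zero_smul, zero_smul]
    by_cases hil : l = i
    · rw [hil, hc, hc, h0, mul_zero, zero_smul, zero_smul]
    by_cases hjl : l = j
    · rw [hjl, hc, h0, mul_zero, zero_smul, zero_smul]
    congr 1
    rw [transpose_mul, transpose_mul, c.gam.symm, c.gam.symm, c.gam.symm, c.gam.Gm_transpose,
      c.gam.anti j i (Ne.symm hij), neg_mul, neg_mul_neg, mul_assoc (Gm c.γ),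
      pass2 c.gam hil hjl, ← mul_assoc]
  simp only [this]
  rw [ht, Matrix.smul_mulVec, Matrix.one_mulVec, dotProduct_smul, smul_eq_mul]

theorem p_potid : c.S_potid := by
  intro g m e e' x
  obtain ⟨t₁, h₁⟩ := c.PP x
  obtain ⟨t₂, h₂⟩ := c.PK x
  obtain ⟨t₃, h₃⟩ := c.KK x
  have h : ∀ e e', ⟪c.beta g m e x, c.beta g m e' x⟫ =
      (g ^ 2 * t₁ + g * m * t₂ + m ^ 2 * t₃) * (e ⬝ᵥ e') := by
    intro e e'
    simp only [beta, inner_add_left, inner_add_right, real_inner_smul_left, real_inner_smul_right]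
    rw [h₁, h₃]
    linear_combination g * m * h₂ e e'
  have h1 : ∀ α, eb α ⬝ᵥ eb α = 1 := fun α => by simp [eb]
  have hP : c.Pot g m x = 16 * (g ^ 2 * t₁ + g * m * t₂ + m ^ 2 * t₃) := by
    simp only [Pot, ← real_inner_self_eq_norm_sq, h, h1]
    simp
    ring
  rw [h, hP]
  ring

end Ctx

end Vale.Agent.P353
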