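import Vale.Agent.P353.ProdAux1

/-! Products of zero modes. -/

noncomputable section

open MeasureTheory Filter Topology Complex Matrix
open scoped ContDiff RealInnerProductSpace

namespace Vale.Agent.P353

namespace ProdAux

section Gen

variable {E : Type} [NormedAddCommGroup E] [InnerProductSpace ℝ E] [FiniteDimensional ℝ E]
  {U U₁ U₂ : Submodule ℝ E}

theorem proj_zero (h : U₁ ⟂ U₂) {y : E} (hy : y ∈ U₂) : U₁.starProjection y = 0 :=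
  (Submodule.starProjection_apply_eq_zero_iff U₁).2 (h.symm hy)

theorem proj_left (h : U₁ ⟂ U₂) {x y : E} (hx : x ∈ U₁) (hy : y ∈ U₂) :
    U₁.starProjection (x + y) = x := by
  rw [map_add, proj_zero h hy, Submodule.starProjection_eq_self_iff.2 hx, add_zero]

theorem proj_right (h : U₁ ⟂ U₂) {x y : E} (hx : x ∈ U₁) (hy : y ∈ U₂) :
    U₂.starProjection (x + y) = y := by
  rw [add_comm, proj_left h.symm hy hx]

theorem proj_add (h : U₁ ⟂ U₂) (hU : U₁ ⊔ U₂ = U) {x : E} (hx : x ∈ U) :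
    U₁.starProjection x + U₂.starProjection x = x := by
  obtain ⟨y, hy, z, hz, rfl⟩ := Submodule.mem_sup.1 (hU.symm ▸ hx : x ∈ U₁ ⊔ U₂)
  rw [proj_left h hy hz, proj_right h hy hz]

variable [MeasurableSpace E] [BorelSpace E]

theorem integral_prod_proj (h : U₁ ⟂ U₂) (hU : U₁ ⊔ U₂ = U) (f g : E → ℝ) :
    ∫ x : U, f (U₁.starProjection x) * g (U₂.starProjection x)
      = (∫ x : U₁, f x) * ∫ x : U₂, g x := by
  obtain ⟨e, he, hm, -⟩ := measurePreserving_sup h hU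
  rw [← hm.integral_comp' (fun x : U => f (U₁.starProjection x) * g (U₂.starProjection x)),
    ← integral_prod_mul (fun x : U₁ => f x) fun x : U₂ => g x]
  refine integral_congr_ae (Eventually.of_forall fun p => ?_)
  simp only [he, proj_left h p.1.2 p.2.2, proj_right h p.1.2 p.2.2]

theorem integrable_prod_proj (h : U₁ ⟂ U₂) (hU : U₁ ⊔ U₂ = U) {f g : E → ℝ}
    (hf : Integrable fun x : U₁ => f x) (hg : Integrable fun x : U₂ => g x) :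
    Integrable fun x : U => f (U₁.starProjection x) * g (U₂.starProjection x) := by
  rw [integrable_sup h hU (f := fun x => f (U₁.starProjection x) * g (U₂.starProjection x))]
  refine (hf.mul_prod hg).congr (Eventually.of_forall fun p => ?_)
  simp only [proj_left h p.1.2 p.2.2, proj_right h p.1.2 p.2.2]

variable {F : Type} [NormedAddCommGroup F] [InnerProductSpace ℂ F] [FiniteDimensional ℂ F]

theorem integrable_sq {ψ : E → F} (h : Sm U ψ) : Integrable fun x : U => ‖ψ x‖ ^ 2 := by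
  simpa using h.integrable_wnrm (w := fun _ => 1) continuousOn_const

omit [MeasurableSpace E] [BorelSpace E] [FiniteDimensional ℂ F]

/-- the product map -/
def prF (ι : F →L[ℂ] F →L[ℂ] F) (U₁ U₂ : Submodule ℝ E) :
    (E → F) →ₗ[ℂ] (E → F) →ₗ[ℂ] (E → F) :=
  LinearMap.mk₂ ℂ (fun φ ψ x => ι (φ (U₁.starProjection x)) (ψ (U₂.starProjection x)))
    (fun _ _ _ => by ext x; simp) (fun _ _ _ => by ext x; simp)
    (fun _ _ _ => by ext x; simp) (fun _ _ _ => by ext x; simp)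

theorem prF_apply (ι : F →L[ℂ] F →L[ℂ] F) (φ ψ : E → F) (x : E) :
    prF ι U₁ U₂ φ ψ x = ι (φ (U₁.starProjection x)) (ψ (U₂.starProjection x)) := rfl

theorem contDiff_prF (ι : F →L[ℂ] F →L[ℂ] F) {φ ψ : E → F} (hφ : ContDiff ℝ ∞ φ)
    (hψ : ContDiff ℝ ∞ ψ) : ContDiff ℝ ∞ (prF ι U₁ U₂ φ ψ) :=
  ((ι.bilinearRestrictScalars ℝ).contDiff.comp
    (hφ.comp U₁.starProjection.contDiff)).clm_apply (hψ.comp U₂.starProjection.contDiff)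

theorem fderiv_prF (ι : F →L[ℂ] F →L[ℂ] F) {φ ψ : E → F} (hφ : Differentiable ℝ φ)
    (hψ : Differentiable ℝ ψ) (x y : E) :
    fderiv ℝ (prF ι U₁ U₂ φ ψ) x y =
      ι (φ (U₁.starProjection x)) (fderiv ℝ ψ (U₂.starProjection x) (U₂.starProjection y)) +
      ι (fderiv ℝ φ (U₁.starProjection x) (U₁.starProjection y)) (ψ (U₂.starProjection x)) := by
  have h1 := (hφ (U₁.starProjection x)).hasFDerivAt.comp x U₁.starProjection.hasFDerivAt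
  have h2 := (hψ (U₂.starProjection x)).hasFDerivAt.comp x U₂.starProjection.hasFDerivAt
  have h3 : HasFDerivAt (prF ι U₁ U₂ φ ψ) _ x :=
    (ι.bilinearRestrictScalars ℝ).hasFDerivAt_of_bilinear h1 h2
  rw [h3.fderiv]
  rfl

end Gen

variable {N d : ℕ} {F : Type} [NormedAddCommGroup F] [InnerProductSpace ℂ F]
  [FiniteDimensional ℂ F] (c : Ctx N d F) {π₁ π₂ π' : Setoid (Fin N)}

theorem theta_mem {W : Submodule ℝ (Tn 16 d)} {y : Tn 16 d} (hy : y ∈ W) : c.θ y ∈ Cl c.θ W :=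
  Algebra.subset_adjoin ⟨y, hy, rfl⟩

theorem sup9 (h' : ∀ a b, π' a b ↔ π₁ a b ∨ π₂ a b) :
    sub 9 (c.ss π₁) ⊔ sub 9 (c.ss π₂) = sub 9 (c.ss π') := by
  rw [← sub_sup, ss_sup c h']

theorem val2 (H : ∀ a b b', π₁ a b → π₂ a b' → a = b ∨ a = b') {ψ : Tn 9 d → F}
    (hψ : ψ ∈ c.D0 π₂) {y : Tn 9 d} (hy : y ∈ sub 9 (c.ss π₂)) :
    c.P0 (c.ss π₁) (ψ y) = ψ y :=
  P0_mono c (ss_ortho c H) ((c.mem_D0.1 hψ).2 y hy)

section main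

variable {c} {Ω : F} {ι : F →L[ℂ] F →L[ℂ] F} {φ ψ : Tn 9 d → F}

theorem Q_prF (H : ∀ a b b', π₁ a b → π₂ a b' → a = b ∨ a = b')
    (h' : ∀ a b, π' a b ↔ π₁ a b ∨ π₂ a b)
    (hι : ∀ f, ι f ∈ Cl c.θ (sub 16 (c.ss π₁)) ∧ c.Par * ι f = ι f * c.Par)
    (hφ : Differentiable ℝ φ) (hψ : Differentiable ℝ ψ)
    (hΩ : ∀ z ∈ sub 9 (c.ss π₁), ι (φ z) Ω = φ z) (e : Fin 16 → ℝ) {x y : Tn 9 d}
    (hx : x ∈ sub 9 (c.ss π₁)) (hy : y ∈ sub 9 (c.ss π₂)) :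
    ∃ a ∈ Cl c.θ (sub 16 (c.ss π₁)), a Ω = c.Q (c.ss π₁) 1 0 e φ x ∧
      c.Q (c.ss π') 1 0 e (prF ι (sub 9 (c.ss π₁)) (sub 9 (c.ss π₂)) φ ψ) (x + y)
        = a (ψ y) + ι (φ x) (c.Q (c.ss π₂) 1 0 e ψ y) := by
  have ho : sub 9 (c.ss π₁) ⟂ sub 9 (c.ss π₂) := sub_isOrtho (ss_ortho c H)
  have ho16 : sub 16 (c.ss π₁) ⟂ sub 16 (c.ss π₂) := sub_isOrtho (ss_ortho c H)
  have hpu : IsUnit c.Par := ⟨⟨c.Par, c.Par, c.Par_sq, c.Par_sq⟩, rfl⟩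
  have hcomm : ∀ u ∈ sub 16 (c.ss π₂), ∀ g : F, c.θ u (ι (φ x) g) = ι (φ x) (c.θ u g) := by
    intro u hu g
    have h1 := c.car.even_comm hpu c.Par_theta (hι (φ x)).1 (hι (φ x)).2 (ho16.symm hu)
    rw [← mul_apply_eq_comp, ← h1, mul_apply_eq_comp]
  have hd : ∀ z ∈ sub 9 (c.ss π₁), ι (fderiv ℝ φ x z) Ω = fderiv ℝ φ x z := by
    intro z hz
    have h1 : HasFDerivAt (fun w => ι (φ w) Ω)
        (((ι.bilinearRestrictScalars ℝ).flip Ω).comp (fderiv ℝ φ x)) x :=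
      ((ι.bilinearRestrictScalars ℝ).flip Ω).hasFDerivAt.comp x (hφ x).hasFDerivAt
    have h2 := fderiv_congr_on h1.differentiableAt (hφ x) hx hz (Eventually.of_forall hΩ)
    rw [h1.fderiv] at h2
    exact h2
  refine ⟨∑ k, (-I * ((1 : ℝ) : ℂ)) • (c.θ (c.sE e (onb (sub 9 (c.ss π₁)) k)) *
    ι (fderiv ℝ φ x (onb (sub 9 (c.ss π₁)) k))) + c.θ (c.beta 1 0 e x) * ι (φ x), ?_, ?_, ?_⟩
  · refine add_mem (sum_mem fun k _ => Subalgebra.smul_mem _ (mul_mem ?_ (hι _).1) _)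
      (mul_mem ?_ (hι _).1)
    · exact theta_mem c (c.sE_mem e (onb_mem _ k))
    · exact theta_mem c (Cov4Aux.beta_mem c 1 0 e hx)
  · simp only [Ctx.Q, dop, _root_.add_apply, _root_.sum_apply, _root_.smul_apply,
      mul_apply_eq_comp, hd _ (onb_mem _ _), hΩ x hx]
  · obtain ⟨f, hf⟩ := Cov4Aux.exists_bil c.θ (-I * ((1 : ℝ) : ℂ)) (c.sE e)
      (fderiv ℝ (prF ι (sub 9 (c.ss π₁)) (sub 9 (c.ss π₂)) φ ψ) (x + y))
    have h1 := sum_onb_sup f ho (sup9 c h')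
    simp only [hf] at h1
    have d1 : ∀ k, fderiv ℝ (prF ι (sub 9 (c.ss π₁)) (sub 9 (c.ss π₂)) φ ψ) (x + y)
        (onb (sub 9 (c.ss π₁)) k) = ι (fderiv ℝ φ x (onb (sub 9 (c.ss π₁)) k)) (ψ y) := by
      intro k
      rw [fderiv_prF ι hφ hψ, proj_left ho hx hy, proj_right ho hx hy,
        proj_zero ho.symm (onb_mem _ k), Submodule.starProjection_eq_self_iff.2 (onb_mem _ k),
        map_zero, map_zero, zero_add]
    have d2 : ∀ k, fderiv ℝ (prF ι (sub 9 (c.ss π₁)) (sub 9 (c.ss π₂)) φ ψ) (x + y)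
        (onb (sub 9 (c.ss π₂)) k) = ι (φ x) (fderiv ℝ ψ y (onb (sub 9 (c.ss π₂)) k)) := by
      intro k
      rw [fderiv_prF ι hφ hψ, proj_left ho hx hy, proj_right ho hx hy,
        proj_zero ho (onb_mem _ k), Submodule.starProjection_eq_self_iff.2 (onb_mem _ k),
        map_zero, map_zero, _root_.zero_apply, add_zero]
    simp only [d1, d2, hcomm _ (c.sE_mem e (onb_mem _ _))] at h1
    simp only [Ctx.Q, dop]
    rw [h1, prF_apply, proj_left ho hx hy, proj_right ho hx hy, beta_add c H e hx hy, map_add,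
      _root_.add_apply, hcomm _ (Cov4Aux.beta_mem c 1 0 e hy)]
    simp only [_root_.add_apply, _root_.sum_apply, _root_.smul_apply, mul_apply_eq_comp, map_add,
      map_sum, map_smul]
    abel

theorem sm_prF (H : ∀ a b b', π₁ a b → π₂ a b' → a = b ∨ a = b')
    (h' : ∀ a b, π' a b ↔ π₁ a b ∨ π₂ a b) (hφ : Sm (sub 9 (c.ss π₁)) φ)
    (hψ : Sm (sub 9 (c.ss π₂)) ψ) :
    Sm (sub 9 (c.ss π')) (prF ι (sub 9 (c.ss π₁)) (sub 9 (c.ss π₂)) φ ψ) := by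
  obtain ⟨R₁, h1⟩ := hφ.exists_bound
  obtain ⟨R₂, h2⟩ := hψ.exists_bound
  refine sm_of_bound (R := R₁ + R₂) (contDiff_prF ι hφ.1 hψ.1) fun x hx hR => ?_
  have e := proj_add (sub_isOrtho (ss_ortho c H)) (sup9 c h') hx
  have h3 := norm_add_le ((sub 9 (c.ss π₁)).starProjection x) ((sub 9 (c.ss π₂)).starProjection x)
  rw [e] at h3
  rw [prF_apply]
  by_cases h4 : R₁ < ‖(sub 9 (c.ss π₁)).starProjection x‖
  · rw [h1 _ (Submodule.starProjection_apply_mem _ _) h4, map_zero, _root_.zero_apply]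
  · rw [h2 _ (Submodule.starProjection_apply_mem _ _) (by linarith), map_zero]

theorem Ad9_fix {𝔟 : Submodule ℝ (Lg d)} {u : UN N} (hu : ∀ y ∈ 𝔟, c.Ad u y = y) {x : Tn 9 d}
    (hx : x ∈ sub 9 𝔟) : c.Ad9 u x = x :=
  ext_cmp fun i => by
    rw [Ctx.Ad9, cmp_kr_one]
    exact hu _ (mem_sub.1 hx i)

theorem inv_prF (H : ∀ a b b', π₁ a b → π₂ a b' → a = b ∨ a = b')
    (h' : ∀ a b, π' a b ↔ π₁ a b ∨ π₂ a b) (h1 : ‖Ω‖ = 1) (h0 : c.P0 ⊤ Ω = Ω)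
    (hι : ∀ f, ι f ∈ Cl c.θ (sub 16 (c.ss π₁)) ∧ c.Par * ι f = ι f * c.Par)
    (hφ : φ ∈ c.D0 π₁) (hψ : ψ ∈ c.D0 π₂) (hΩ : ∀ z ∈ sub 9 (c.ss π₁), ι (φ z) Ω = φ z)
    {u : UN N} (hu : u ∈ Grp π') {x : Tn 9 d} (hx : x ∈ sub 9 (c.ss π')) :
    prF ι (sub 9 (c.ss π₁)) (sub 9 (c.ss π₂)) φ ψ (c.Ad9 u x)
      = c.U u (prF ι (sub 9 (c.ss π₁)) (sub 9 (c.ss π₂)) φ ψ x) := by
  have ho : sub 9 (c.ss π₁) ⟂ sub 9 (c.ss π₂) := sub_isOrtho (ss_ortho c H)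
  obtain ⟨u₁, hu₁, u₂, hu₂, rfl, f₁, f₂⟩ := split c H h' hu
  obtain ⟨y, hy, z, hz, rfl⟩ := Submodule.mem_sup.1 ((sup9 c h').symm ▸ hx :
    x ∈ sub 9 (c.ss π₁) ⊔ sub 9 (c.ss π₂))
  have my := (c.Th_ss π₁).Ad9_mem c hu₁ hy
  have mz := (c.Th_ss π₂).Ad9_mem c hu₂ hz
  have e : c.Ad9 (u₁ * u₂) (y + z) = c.Ad9 u₁ y + c.Ad9 u₂ z := by
    rw [c.Ad9_mul, mul_apply_eq_comp, map_add, map_add, Ad9_fix f₂ hy, Ad9_fix f₁ mz]
  have iφ := (c.mem_D.1 (c.mem_D0.1 hφ).1).2 u₁ hu₁ y hy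
  have iψ := (c.mem_D.1 (c.mem_D0.1 hψ).1).2 u₂ hu₂ z hz
  rw [e, prF_apply, prF_apply, proj_left ho my mz, proj_right ho my mz, proj_left ho hy hz,
    proj_right ho hy hz]
  have hc : c.U u₁ * ι (φ y) * c.U u₁⁻¹ ∈ Cl c.θ (sub 16 (c.ss π₁)) :=
    conj_mem_Cl (c.U_mul_inv u₁) (c.U_inv_mul u₁) (c.Uθ u₁) (fun w hw => mem_sub.2 fun i => by
      rw [cmp_kr_one]
      exact (c.Th_ss π₁).Ad_mem c hu₁ (mem_sub.1 hw i)) (hι _).1
  have e1 : ι (φ (c.Ad9 u₁ y)) Ω = (c.U u₁ * ι (φ y) * c.U u₁⁻¹) Ω := by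
    rw [hΩ _ my, mul_apply_eq_comp, mul_apply_eq_comp, (fock_fix c h0).1, hΩ y hy, iφ]
  rw [uniq_cl c _ h1 h0 (hι _).1 hc e1 (val2 c H hψ mz)]
  have e2 : c.U u₁ (ψ (c.Ad9 u₂ z)) = ψ (c.Ad9 u₂ z) :=
    U_fix c f₁ h1 h0 ((c.mem_D0.1 hψ).2 _ mz)
  have e3 : c.U u₁⁻¹ (ψ (c.Ad9 u₂ z)) = ψ (c.Ad9 u₂ z) := by
    conv_lhs => rw [← e2]
    rw [← mul_apply_eq_comp, c.U_inv_mul, _root_.one_apply_eq_self]
  rw [mul_apply_eq_comp, mul_apply_eq_comp, e3, iψ, map_mul, mul_apply_eq_comp,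
    ← mul_apply_eq_comp (c.U u₂) (ι (φ y)), U_comm c f₂ (hι _).1, mul_apply_eq_comp]

theorem vac_prF (h' : ∀ a b, π' a b ↔ π₁ a b ∨ π₂ a b)
    (hι : ∀ f, ι f ∈ Cl c.θ (sub 16 (c.ss π₁)) ∧ c.Par * ι f = ι f * c.Par)
    (hψ : ψ ∈ c.D0 π₂) (x : Tn 9 d) :
    c.P0 (c.ss π')ᗮ (prF ι (sub 9 (c.ss π₁)) (sub 9 (c.ss π₂)) φ ψ x)
      = prF ι (sub 9 (c.ss π₁)) (sub 9 (c.ss π₂)) φ ψ x := by
  have h1 : ∀ f, c.P0 (c.ss π')ᗮ * ι f = ι f * c.P0 (c.ss π')ᗮ := fun f =>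
    comm_cl c (fun y hy => Cov4Aux.P0_th c (sub_mono (c.ss_mono (le_left h')) hy)) (hι f).1
  rw [prF_apply, ← mul_apply_eq_comp, h1, mul_apply_eq_comp,
    P0_mono c (Submodule.orthogonal_le (c.ss_mono (le_right h')))
      ((c.mem_D0.1 hψ).2 _ (Submodule.starProjection_apply_mem _ _))]

theorem nrm_Q_le (H : ∀ a b b', π₁ a b → π₂ a b' → a = b ∨ a = b')
    (h' : ∀ a b, π' a b ↔ π₁ a b ∨ π₂ a b) (h1 : ‖Ω‖ = 1) (h0 : c.P0 ⊤ Ω = Ω)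
    (hι : ∀ f, ι f ∈ Cl c.θ (sub 16 (c.ss π₁)) ∧ c.Par * ι f = ι f * c.Par)
    (hφ : φ ∈ c.D0 π₁) (hψ : ψ ∈ c.D0 π₂) (hΩ : ∀ z ∈ sub 9 (c.ss π₁), ι (φ z) Ω = φ z)
    (e : Fin 16 → ℝ) :
    nrm (sub 9 (c.ss π')) (c.Q (c.ss π') 1 0 e (prF ι (sub 9 (c.ss π₁)) (sub 9 (c.ss π₂)) φ ψ))
      ≤ 2 * nrm (sub 9 (c.ss π₁)) (c.Q (c.ss π₁) 1 0 e φ) * nrm (sub 9 (c.ss π₂)) ψ +
        2 * nrm (sub 9 (c.ss π₁)) φ * nrm (sub 9 (c.ss π₂)) (c.Q (c.ss π₂) 1 0 e ψ) := by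
  have ho : sub 9 (c.ss π₁) ⟂ sub 9 (c.ss π₂) := sub_isOrtho (ss_ortho c H)
  have sφ : Sm (sub 9 (c.ss π₁)) φ := (c.mem_D.1 (c.mem_D0.1 hφ).1).1
  have sψ : Sm (sub 9 (c.ss π₂)) ψ := (c.mem_D.1 (c.mem_D0.1 hψ).1).1
  have hQψ := c.Q_mem_D0 1 0 e hψ
  have sQφ : Sm (sub 9 (c.ss π₁)) (c.Q (c.ss π₁) 1 0 e φ) :=
    (c.mem_D.1 (c.mem_D0.1 (c.Q_mem_D0 1 0 e hφ)).1).1
  have sQψ : Sm (sub 9 (c.ss π₂)) (c.Q (c.ss π₂) 1 0 e ψ) := (c.mem_D.1 (c.mem_D0.1 hQψ).1).1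
  have i1 := integrable_prod_proj ho (sup9 c h') (f := fun x => ‖c.Q (c.ss π₁) 1 0 e φ x‖ ^ 2)
    (g := fun x => ‖ψ x‖ ^ 2) (integrable_sq sQφ) (integrable_sq sψ)
  have i2 := integrable_prod_proj ho (sup9 c h') (f := fun x => ‖φ x‖ ^ 2)
    (g := fun x => ‖c.Q (c.ss π₂) 1 0 e ψ x‖ ^ 2) (integrable_sq sφ) (integrable_sq sQψ)
  have j1 := integral_prod_proj ho (sup9 c h') (fun x => ‖c.Q (c.ss π₁) 1 0 e φ x‖ ^ 2)
    fun x => ‖ψ x‖ ^ 2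
  have j2 := integral_prod_proj ho (sup9 c h') (fun x => ‖φ x‖ ^ 2)
    fun x => ‖c.Q (c.ss π₂) 1 0 e ψ x‖ ^ 2
  unfold nrm
  rw [mul_assoc, mul_assoc, ← j1, ← j2, ← integral_const_mul, ← integral_const_mul,
    ← integral_add (i1.const_mul 2) (i2.const_mul 2)]
  refine integral_mono_of_nonneg (Eventually.of_forall fun x => by positivity)
    ((i1.const_mul 2).add (i2.const_mul 2)) (Eventually.of_forall fun x => ?_)
  have m1 := (sub 9 (c.ss π₁)).starProjection_apply_mem (x : Tn 9 d)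
  have m2 := (sub 9 (c.ss π₂)).starProjection_apply_mem (x : Tn 9 d)
  obtain ⟨a, ha, e1, e2⟩ := Q_prF H h' hι (sφ.1.differentiable (by simp))
    (sψ.1.differentiable (by simp)) hΩ e m1 m2
  rw [proj_add ho (sup9 c h') x.2] at e2
  have n1 := norm_cl c _ h1 h0 ha (val2 c H hψ m2)
  have n2 := norm_cl c _ h1 h0 (hι (φ ((sub 9 (c.ss π₁)).starProjection x))).1
    (val2 c H hQψ m2)
  rw [e1] at n1
  rw [hΩ _ m1] at n2
  have n3 := norm_add_le (a (ψ ((sub 9 (c.ss π₂)).starProjection x)))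
    (ι (φ ((sub 9 (c.ss π₁)).starProjection x))
      (c.Q (c.ss π₂) 1 0 e ψ ((sub 9 (c.ss π₂)).starProjection x)))
  rw [← e2, n1, n2] at n3
  have n4 := pow_le_pow_left₀ (norm_nonneg _) n3 2
  simp only
  rw [← mul_pow, ← mul_pow]
  refine n4.trans ?_
  generalize ‖c.Q (c.ss π₁) 1 0 e φ ((sub 9 (c.ss π₁)).starProjection x)‖ *
    ‖ψ ((sub 9 (c.ss π₂)).starProjection x)‖ = s
  generalize ‖φ ((sub 9 (c.ss π₁)).starProjection x)‖ *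
    ‖c.Q (c.ss π₂) 1 0 e ψ ((sub 9 (c.ss π₂)).starProjection x)‖ = t
  nlinarith [sq_nonneg (s - t)]

end main

end ProdAux

namespace Ctx

variable {N d : ℕ} {F : Type} [NormedAddCommGroup F] [InnerProductSpace ℂ F]
  [FiniteDimensional ℂ F] (c : Ctx N d F)

open ProdAux in
theorem p_prod : c.S_prod := by
  intro π₁ π₂ π' H h' Ω h1 h0
  obtain ⟨ι, hι, hι'⟩ := exists_iota c (c.ss π₁) h1 h0
  refine ⟨prF ι (sub 9 (c.ss π₁)) (sub 9 (c.ss π₂)), fun φ hφ hp ψ hψ => ?_⟩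
  have hΩ : ∀ z ∈ sub 9 (c.ss π₁), ι (φ z) Ω = φ z := fun z hz =>
    hι' _ ((c.mem_D0.1 hφ).2 z hz) (hp z hz)
  have ho : sub 9 (c.ss π₁) ⟂ sub 9 (c.ss π₂) := sub_isOrtho (ss_ortho c H)
  refine ⟨c.mem_D0.2 ⟨c.mem_D.2 ⟨sm_prF H h' (c.mem_D.1 (c.mem_D0.1 hφ).1).1
    (c.mem_D.1 (c.mem_D0.1 hψ).1).1, fun u hu x hx => inv_prF H h' h1 h0 hι hφ hψ hΩ hu hx⟩,
    fun x _ => vac_prF h' hι hψ x⟩, ?_, ?_, fun x _ => ⟨⟨_, (hι _).1, (hι _).2,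
      hΩ _ (Submodule.starProjection_apply_mem _ _)⟩, fun a ha e => ?_⟩⟩
  · unfold nrm
    rw [← integral_prod_proj ho (sup9 c h') (fun x => ‖φ x‖ ^ 2) fun x => ‖ψ x‖ ^ 2]
    refine integral_congr_ae (Eventually.of_forall fun x => ?_)
    simp only
    rw [prF_apply, norm_cl c _ h1 h0 (hι _).1
      (val2 c H hψ (Submodule.starProjection_apply_mem _ _)),
      hΩ _ (Submodule.starProjection_apply_mem _ _), mul_pow]
  · have h2 := Finset.sum_le_sum fun α (_ : α ∈ Finset.univ) =>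
      nrm_Q_le H h' h1 h0 hι hφ hψ hΩ (eb α)
    rw [Finset.sum_add_distrib, ← Finset.sum_mul, ← Finset.mul_sum, ← Finset.mul_sum] at h2
    exact h2
  · rw [prF_apply]
    exact uniq_cl c _ h1 h0 (hι _).1 ha
      ((hΩ _ (Submodule.starProjection_apply_mem _ _)).trans e.symm)
      (val2 c H hψ (Submodule.starProjection_apply_mem _ _))

end Ctx

end Vale.Agent.P353
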