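import Vale.Agent.P353.Stmts

/-! Products of zero modes: two partitions with disjoint nontrivial blocks. -/

noncomputable section

open MeasureTheory Filter Topology Complex Matrix
open scoped ContDiff RealInnerProductSpace

namespace Vale.Agent.P353

namespace ProdAux

variable {N d : ℕ} {F : Type} [NormedAddCommGroup F] [InnerProductSpace ℂ F]
  [FiniteDimensional ℂ F] (c : Ctx N d F) {π₁ π₂ π' : Setoid (Fin N)}

/-- points in nontrivial blocks -/
def Big (π : Setoid (Fin N)) (a : Fin N) : Prop := ∃ b, b ≠ a ∧ π a b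

theorem Big.of_rel {π : Setoid (Fin N)} {a b : Fin N} (h : Big π a) (hab : π a b) : Big π b := by
  by_cases e : a = b
  · exact e ▸ h
  · exact ⟨a, e, π.symm' hab⟩

theorem ss_row {π : Setoid (Fin N)} {x : Lg d} (hx : x ∈ c.ss π) {a : Fin N} (ha : ¬ Big π a)
    (b : Fin N) : c.mat x a b = 0 := by
  classical
  obtain ⟨h1, h2⟩ := (c.mem_ss π x).1 hx
  by_cases e : b = a
  · subst e
    have h3 := h2 b
    rw [Finset.sum_eq_single b, if_pos (π.refl' b)] at h3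
    · exact h3
    · intro k _ hk
      exact if_neg fun h => ha ⟨k, hk, h⟩
    · intro h
      exact absurd (Finset.mem_univ b) h
  · exact h1 a b fun h => ha ⟨b, e, h⟩

theorem ss_col {π : Setoid (Fin N)} {x : Lg d} (hx : x ∈ c.ss π) {b : Fin N} (hb : ¬ Big π b)
    (a : Fin N) : c.mat x a b = 0 := by
  have h := (c.mat_herm x).apply a b
  rw [ss_row c hx hb a, star_zero] at h
  exact h.symm

theorem not_big (H : ∀ a b b', π₁ a b → π₂ a b' → a = b ∨ a = b') {a : Fin N} (h : Big π₁ a) :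
    ¬ Big π₂ a := by
  rintro ⟨b', hb', h2⟩
  obtain ⟨b, hb, h1⟩ := h
  rcases H a b b' h1 h2 with e | e
  · exact hb e.symm
  · exact hb' e.symm

theorem mat_mul (H : ∀ a b b', π₁ a b → π₂ a b' → a = b ∨ a = b') {x y : Lg d}
    (hx : x ∈ c.ss π₁) (hy : y ∈ c.ss π₂) : c.mat x * c.mat y = 0 ∧ c.mat y * c.mat x = 0 := by
  constructor
  · ext a b
    rw [Matrix.mul_apply, Matrix.zero_apply]
    refine Finset.sum_eq_zero fun k _ => ?_
    by_cases hk : Big π₁ k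
    · rw [ss_row c hy (not_big H hk), mul_zero]
    · rw [ss_col c hx hk, zero_mul]
  · ext a b
    rw [Matrix.mul_apply, Matrix.zero_apply]
    refine Finset.sum_eq_zero fun k _ => ?_
    by_cases hk : Big π₁ k
    · rw [ss_col c hy (not_big H hk), zero_mul]
    · rw [ss_row c hx hk, mul_zero]

theorem ad_zero (H : ∀ a b b', π₁ a b → π₂ a b' → a = b ∨ a = b') {x y : Lg d}
    (hx : x ∈ c.ss π₁) (hy : y ∈ c.ss π₂) : c.ad y x = 0 := by
  rw [c.ad_eq_zero_iff]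
  exact (mat_mul c H hx hy).2.trans (mat_mul c H hx hy).1.symm

theorem ss_ortho (H : ∀ a b b', π₁ a b → π₂ a b' → a = b ∨ a = b') : c.ss π₁ ⟂ c.ss π₂ := by
  rw [Submodule.isOrtho_iff_inner_eq]
  intro x hx y hy
  have h := c.inner_eq_trace x y
  rw [(mat_mul c H hx hy).1, Matrix.trace_zero] at h
  exact_mod_cast h

theorem proj_cen {π : Setoid (Fin N)} {z : Lg d} (hz : z ∈ (c.ss π)ᗮ) :
    (c.blk π).starProjection z ∈ c.cen π := by
  have h1 : (c.blk π).starProjection z ∈ c.ss π ⊔ c.cen π := by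
    rw [c.ss_sup_cen]
    exact Submodule.starProjection_apply_mem _ _
  obtain ⟨s, hs, k, hk, e⟩ := Submodule.mem_sup.1 h1
  have h2 : ⟪s, (c.blk π).starProjection z⟫ = 0 := by
    rw [← Submodule.inner_starProjection_left_eq_right,
      Submodule.starProjection_eq_self_iff.2 hs.1]
    exact hz s hs
  rw [← e, inner_add_right, (c.ss_isOrtho_cen π).inner_eq hs hk, add_zero,
    inner_self_eq_zero] at h2
  rw [← e, h2, zero_add]
  exact hk

theorem le_left (h' : ∀ a b, π' a b ↔ π₁ a b ∨ π₂ a b) : π₁ ≤ π' :=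
  fun a b h => (h' a b).2 (Or.inl h)

theorem le_right (h' : ∀ a b, π' a b ↔ π₁ a b ∨ π₂ a b) : π₂ ≤ π' :=
  fun a b h => (h' a b).2 (Or.inr h)

theorem ss_sup (h' : ∀ a b, π' a b ↔ π₁ a b ∨ π₂ a b) : c.ss π₁ ⊔ c.ss π₂ = c.ss π' := by
  classical
  have hle : c.ss π₁ ⊔ c.ss π₂ ≤ c.ss π' :=
    sup_le (c.ss_mono (le_left h')) (c.ss_mono (le_right h'))
  have h0 : (c.ss π₁ ⊔ c.ss π₂)ᗮ ⊓ c.ss π' = ⊥ := by
    rw [eq_bot_iff, ← c.ss_inf_cen π']
    rintro z ⟨hz, hz'⟩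
    have h1 := proj_cen c (Submodule.orthogonal_le le_sup_left hz)
    have h2 := proj_cen c (Submodule.orthogonal_le le_sup_right hz)
    have key : ∀ π : Setoid (Fin N), (c.blk π).starProjection z ∈ c.cen π → ∀ a b, π a b →
        (a ≠ b → c.mat z a b = 0) ∧ c.mat z a a = c.mat z b b := by
      intro π h a b hab
      refine ⟨fun hne => ?_, ?_⟩
      · have h3 := h.1 a b hne
        rwa [c.mat_blk_proj, if_pos hab] at h3
      · have h3 := h.2 a b hab
        rwa [c.mat_blk_proj, c.mat_blk_proj, if_pos (π.refl' a), if_pos (π.refl' b)] at h3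
    refine ⟨hz', fun a b hne => ?_, fun a b hab => ?_⟩
    · by_cases hab : π' a b
      · rcases (h' a b).1 hab with h | h
        · exact (key π₁ h1 a b h).1 hne
        · exact (key π₂ h2 a b h).1 hne
      · exact hz'.1 a b hab
    · rcases (h' a b).1 hab with h | h
      · exact (key π₁ h1 a b h).2
      · exact (key π₂ h2 a b h).2
  have h := Submodule.sup_orthogonal_inf_of_hasOrthogonalProjection hle
  rwa [h0, sup_bot_eq] at h

/-- cut a unitary matrix down by a commuting projection -/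
def cut (u : UN N) (p : Fin N → Prop) [DecidablePred p]
    (hp : ∀ a b, (u : Matrix (Fin N) (Fin N) ℂ) a b ≠ 0 → (p a ↔ p b)) : UN N :=
  ⟨Matrix.of fun a b => if p a then (u : Matrix (Fin N) (Fin N) ℂ) a b else (1 : Matrix _ _ ℂ) a b, by
    rw [Matrix.mem_unitaryGroup_iff]
    have hu := Matrix.mem_unitaryGroup_iff.1 u.2
    ext a b
    have hab := congrFun (congrFun hu a) b
    rw [Matrix.mul_apply] at hab ⊢
    simp only [Matrix.star_apply, Matrix.of_apply] at hab ⊢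
    by_cases ha : p a <;> by_cases hb : p b
    · simp only [if_pos ha, if_pos hb]
      exact hab
    · simp only [if_pos ha, if_neg hb]
      have hne : a ≠ b := fun e => hb (e ▸ ha)
      rw [Matrix.one_apply_ne hne, Finset.sum_eq_zero]
      intro k _
      by_cases hk : b = k
      · subst hk
        by_cases h0 : (u : Matrix (Fin N) (Fin N) ℂ) a b = 0
        · rw [h0, zero_mul]
        · exact absurd ((hp a b h0).1 ha) hb
      · rw [Matrix.one_apply_ne hk, star_zero, mul_zero]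
    · simp only [if_neg ha, if_pos hb]
      have hne : a ≠ b := fun e => ha (e ▸ hb)
      rw [Matrix.one_apply_ne hne, Finset.sum_eq_zero]
      intro k _
      by_cases hk : a = k
      · subst hk
        by_cases h0 : (u : Matrix (Fin N) (Fin N) ℂ) b a = 0
        · rw [h0, star_zero, mul_zero]
        · exact absurd ((hp b a h0).1 hb) ha
      · rw [Matrix.one_apply_ne hk, zero_mul]
    · simp only [if_neg ha, if_neg hb]
      have h1 := congrFun (congrFun (Matrix.mem_unitaryGroup_iff.1 (1 : UN N).2) a) b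
      rw [Matrix.mul_apply] at h1
      exact h1⟩

theorem cut_apply (u : UN N) (p : Fin N → Prop) [DecidablePred p]
    (hp : ∀ a b, (u : Matrix (Fin N) (Fin N) ℂ) a b ≠ 0 → (p a ↔ p b)) (a b : Fin N) :
    (cut u p hp : Matrix (Fin N) (Fin N) ℂ) a b
      = if p a then (u : Matrix (Fin N) (Fin N) ℂ) a b else (1 : Matrix _ _ ℂ) a b := rfl

theorem cut_fix (u : UN N) (p : Fin N → Prop) [DecidablePred p]
    (hp : ∀ a b, (u : Matrix (Fin N) (Fin N) ℂ) a b ≠ 0 → (p a ↔ p b)) {y : Lg d}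
    (hy : ∀ a b, p a → c.mat y a b = 0) (hy' : ∀ a b, p b → c.mat y a b = 0) :
    c.Ad (cut u p hp) y = y := by
  rw [c.Ad_eq_iff]
  have e1 : (cut u p hp : Matrix (Fin N) (Fin N) ℂ) * c.mat y = c.mat y := by
    ext a b
    by_cases ha : p a
    · rw [Matrix.mul_apply, hy a b ha]
      refine Finset.sum_eq_zero fun k _ => ?_
      rw [cut_apply, if_pos ha]
      by_cases h0 : (u : Matrix (Fin N) (Fin N) ℂ) a k = 0
      · rw [h0, zero_mul]
      · rw [hy k b ((hp a k h0).1 ha), mul_zero]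
    · conv_rhs => rw [← Matrix.one_mul (c.mat y)]
      simp only [Matrix.mul_apply, cut_apply, if_neg ha]
  have e2 : c.mat y * (cut u p hp : Matrix (Fin N) (Fin N) ℂ) = c.mat y := by
    conv_rhs => rw [← Matrix.mul_one (c.mat y)]
    ext a b
    simp only [Matrix.mul_apply, cut_apply]
    refine Finset.sum_congr rfl fun k _ => ?_
    by_cases hk : p k
    · rw [hy' a k hk, zero_mul, zero_mul]
    · rw [if_neg hk]
  exact e1.trans e2.symm

theorem split (H : ∀ a b b', π₁ a b → π₂ a b' → a = b ∨ a = b')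
    (h' : ∀ a b, π' a b ↔ π₁ a b ∨ π₂ a b) {u : UN N} (hu : u ∈ Grp π') :
    ∃ u₁ ∈ Grp π₁, ∃ u₂ ∈ Grp π₂, u = u₁ * u₂ ∧ (∀ y ∈ c.ss π₂, c.Ad u₁ y = y) ∧
      ∀ x ∈ c.ss π₁, c.Ad u₂ x = x := by
  classical
  have r1 : ∀ a b, Big π₁ a → π' a b → π₁ a b := by
    intro a b ha hab
    rcases (h' a b).1 hab with h | h
    · exact h
    · by_cases e : b = a
      · exact e ▸ π₁.refl' b
      · exact absurd ⟨b, e, h⟩ (not_big H ha)
  have r2 : ∀ a b, ¬ Big π₁ a → π' a b → π₂ a b := by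
    intro a b ha hab
    rcases (h' a b).1 hab with h | h
    · by_cases e : b = a
      · exact e ▸ π₂.refl' b
      · exact absurd ⟨b, e, h⟩ ha
    · exact h
  have hp : ∀ a b, (u : Matrix (Fin N) (Fin N) ℂ) a b ≠ 0 → (Big π₁ a ↔ Big π₁ b) := by
    intro a b h0
    have hab : π' a b := by
      by_contra h
      exact h0 (hu a b h)
    exact ⟨fun h => h.of_rel (r1 a b h hab), fun h => h.of_rel (r1 b a h (π'.symm' hab))⟩
  have hq : ∀ a b, (u : Matrix (Fin N) (Fin N) ℂ) a b ≠ 0 → (¬ Big π₁ a ↔ ¬ Big π₁ b) :=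
    fun a b h0 => not_congr (hp a b h0)
  refine ⟨cut u (Big π₁) hp, fun a b hab => ?_, cut u (fun a => ¬ Big π₁ a) hq,
    fun a b hab => ?_, ?_, fun y hy => ?_, fun x hx => ?_⟩
  · rw [cut_apply]
    split_ifs with ha
    · exact hu a b fun h => hab (r1 a b ha h)
    · exact Matrix.one_apply_ne fun e => hab (e ▸ π₁.refl' a)
  · rw [cut_apply]
    by_cases ha : ¬ Big π₁ a
    · rw [if_pos ha]
      exact hu a b fun h => hab (r2 a b ha h)
    · rw [if_neg ha]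
      exact Matrix.one_apply_ne fun e => hab (e ▸ π₂.refl' a)
  · refine Subtype.ext ?_
    ext a b
    rw [Submonoid.coe_mul, Matrix.mul_apply]
    by_cases ha : Big π₁ a
    · conv_lhs => rw [← Matrix.mul_one (u : Matrix (Fin N) (Fin N) ℂ), Matrix.mul_apply]
      refine Finset.sum_congr rfl fun k _ => ?_
      rw [cut_apply, cut_apply, if_pos ha]
      by_cases h0 : (u : Matrix (Fin N) (Fin N) ℂ) a k = 0
      · rw [h0, zero_mul, zero_mul]
      · rw [if_neg (not_not.2 ((hp a k h0).1 ha))]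
    · rw [Finset.sum_eq_single a]
      · rw [cut_apply, cut_apply, if_neg ha, if_pos ha, Matrix.one_apply_eq, one_mul]
      · intro k _ hk
        rw [cut_apply, if_neg ha, Matrix.one_apply_ne hk.symm, zero_mul]
      · intro h
        exact absurd (Finset.mem_univ a) h
  · exact cut_fix c u _ hp (fun a b ha => ss_row c hy (not_big H ha) b)
      fun a b hb => ss_col c hy (not_big H hb) a
  · exact cut_fix c u _ hq (fun a b ha => ss_row c hx ha b) fun a b hb => ss_col c hx hb a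

theorem beta_add (H : ∀ a b b', π₁ a b → π₂ a b' → a = b ∨ a = b') (e : Fin 16 → ℝ)
    {x y : Tn 9 d} (hx : x ∈ sub 9 (c.ss π₁)) (hy : y ∈ sub 9 (c.ss π₂)) :
    c.beta 1 0 e (x + y) = c.beta 1 0 e x + c.beta 1 0 e y := by
  have h0 : fderiv ℝ (c.Phi e) x y = 0 := by
    rw [c.fderiv_Phi]
    refine Finset.sum_eq_zero fun i _ => Finset.sum_eq_zero fun j _ => ?_
    rw [ad_zero c H (mem_sub.1 hx j) (mem_sub.1 hy i), map_zero]
  simp only [Ctx.beta, c.Phi_add, h0, one_smul, zero_smul, add_zero]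

/-! ### Clifford algebras and vacua -/

theorem P0_mono {𝔟 𝔟' : Submodule ℝ (Lg d)} (h : 𝔟 ≤ 𝔟') {f : F} (hf : c.P0 𝔟' f = f) :
    c.P0 𝔟 f = f := by
  have h1 := Submodule.sup_orthogonal_inf_of_hasOrthogonalProjection h
  have h2 : 𝔟 ⟂ 𝔟ᗮ ⊓ 𝔟' := (Submodule.isOrtho_orthogonal_right 𝔟).mono_right inf_le_left
  have h3 := c.P0_sup h2
  rw [h1] at h3
  have h4 : c.P0 𝔟 * c.P0 𝔟' = c.P0 𝔟' := by
    rw [h3, ← mul_assoc]
    exact congrArg (· * c.P0 (𝔟ᗮ ⊓ 𝔟')) (vac_idem _)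
  conv_lhs => rw [← hf]
  rw [← mul_apply_eq_comp, h4, hf]

theorem exists_cl (𝔟 : Submodule ℝ (Lg d)) {Ω : F} (h1 : ‖Ω‖ = 1) (hΩ : c.P0 ⊤ Ω = Ω) {f : F}
    (hf : c.P0 𝔟ᗮ f = f) : ∃ a ∈ Cl c.θ (sub 16 𝔟), a Ω = f := by
  have hs : 𝔟.starProjection + 𝔟ᗮ.starProjection = 1 := by
    rw [Submodule.starProjection_orthogonal', add_sub_cancel]
  refine c.car.exists_Cl c.irr (c.isPCS_Gm 𝔟) (c.isPCS_Gm 𝔟ᗮ) ?_ ?_ (fun u => ?_) ?_
    (fun h => by rw [h, norm_zero] at h1; exact zero_ne_one h1) hf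
  · rw [kr_mul]
    have h0 : 𝔟.starProjection * 𝔟ᗮ.starProjection = 0 :=
      (Submodule.isOrtho_orthogonal_right 𝔟).starProjection_comp_starProjection
    rw [h0, kr_zero_right]
  · rw [← neg_eq_iff_eq_neg, neg_add, c.Gm_supp, c.Gm_supp, ← kr_add_right, hs, kr_one]
  · rw [mem_sub]
    intro i
    rw [cmp_kr]
    exact Submodule.sum_mem _ fun j _ =>
      Submodule.smul_mem _ _ (Submodule.starProjection_apply_mem _ _)
  · rw [← kr_add_right, hs, ← Submodule.starProjection_top']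
    exact hΩ

theorem norm_cl (𝔟 : Submodule ℝ (Lg d)) {Ω : F} (h1 : ‖Ω‖ = 1) (hΩ : c.P0 ⊤ Ω = Ω)
    {a : F →L[ℂ] F} (ha : a ∈ Cl c.θ (sub 16 𝔟)) {f : F} (hf : c.P0 𝔟 f = f) :
    ‖a f‖ = ‖a Ω‖ * ‖f‖ := by
  refine c.car.norm_Cl_vac (c.isPCS_Gm 𝔟) (fun u hu => ?_) ha (P0_mono c le_top hΩ) h1 hf
  have h := congrArg (fun T : Tn 16 d →L[ℝ] Tn 16 d => T u) (c.Gm_supp 𝔟)
  simp only [← sub_starProjection, Submodule.starProjection_eq_self_iff.2 hu] at h
  exact h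

theorem uniq_cl (𝔟 : Submodule ℝ (Lg d)) {Ω : F} (h1 : ‖Ω‖ = 1) (hΩ : c.P0 ⊤ Ω = Ω)
    {a a' : F →L[ℂ] F} (ha : a ∈ Cl c.θ (sub 16 𝔟)) (ha' : a' ∈ Cl c.θ (sub 16 𝔟))
    (h : a Ω = a' Ω) {f : F} (hf : c.P0 𝔟 f = f) : a f = a' f := by
  have h2 := norm_cl c 𝔟 h1 hΩ (sub_mem ha ha') hf
  rw [_root_.sub_apply, _root_.sub_apply, h, sub_self, norm_zero, zero_mul, norm_eq_zero] at h2
  exact sub_eq_zero.1 h2

theorem fock_fix {Ω : F} (hΩ : c.P0 ⊤ Ω = Ω) : (∀ u, c.U u Ω = Ω) ∧ c.Par Ω = Ω := by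
  obtain ⟨Ω₀, -, h2, h3, h4⟩ := c.exists_fock
  rw [h2] at hΩ
  constructor
  · intro u
    rw [← hΩ, map_smul, h3]
  · rw [← hΩ, map_smul, h4]

theorem comm_cl {W : Submodule ℝ (Tn 16 d)} {b : F →L[ℂ] F}
    (hb : ∀ y ∈ W, b * c.θ y = c.θ y * b) {a : F →L[ℂ] F} (ha : a ∈ Cl c.θ W) :
    b * a = a * b :=
  Algebra.commute_of_mem_adjoin_of_forall_mem_commute ha (by
    rintro _ ⟨y, hy, rfl⟩
    exact hb y hy)

theorem U_comm {𝔟 : Submodule ℝ (Lg d)} {u : UN N} (hu : ∀ x ∈ 𝔟, c.Ad u x = x)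
    {a : F →L[ℂ] F} (ha : a ∈ Cl c.θ (sub 16 𝔟)) : c.U u * a = a * c.U u := by
  refine comm_cl c (fun y hy => ?_) ha
  have h : kr 1 (AdT c.T u) y = y := ext_cmp fun i => by
    rw [cmp_kr_one]
    exact hu _ (mem_sub.1 hy i)
  rw [c.Uθ, h]

theorem U_fix {𝔟 : Submodule ℝ (Lg d)} {u : UN N} (hu : ∀ x ∈ 𝔟, c.Ad u x = x) {Ω : F}
    (h1 : ‖Ω‖ = 1) (hΩ : c.P0 ⊤ Ω = Ω) {f : F} (hf : c.P0 𝔟ᗮ f = f) : c.U u f = f := by
  obtain ⟨a, ha, rfl⟩ := exists_cl c 𝔟 h1 hΩ hf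
  rw [← mul_apply_eq_comp, U_comm c hu ha, mul_apply_eq_comp,
    (fock_fix c hΩ).1]

/-- a linear choice of even Clifford elements -/
theorem exists_iota (𝔟 : Submodule ℝ (Lg d)) {Ω : F} (h1 : ‖Ω‖ = 1) (hΩ : c.P0 ⊤ Ω = Ω) :
    ∃ ι : F →L[ℂ] F →L[ℂ] F, (∀ f, ι f ∈ Cl c.θ (sub 16 𝔟) ∧ c.Par * ι f = ι f * c.Par) ∧
      ∀ f, c.P0 𝔟ᗮ f = f → c.Par f = f → ι f Ω = f := by
  let K : Submodule ℂ (F →L[ℂ] F) :=
    { carrier := {a | a ∈ Cl c.θ (sub 16 𝔟) ∧ c.Par * a = a * c.Par}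
      add_mem' := fun ha hb => ⟨add_mem ha.1 hb.1, by rw [mul_add, add_mul, ha.2, hb.2]⟩
      zero_mem' := ⟨zero_mem _, by rw [mul_zero, zero_mul]⟩
      smul_mem' := fun z a ha => ⟨Subalgebra.smul_mem _ ha.1 z, by
        rw [mul_smul_comm, smul_mul_assoc, ha.2]⟩ }
  let ev : K →ₗ[ℂ] F := (ContinuousLinearMap.apply ℂ F Ω).toLinearMap ∘ₗ K.subtype
  obtain ⟨s, hs⟩ := ev.rangeRestrict.exists_rightInverse_of_surjective ev.range_rangeRestrict
  obtain ⟨g, hg⟩ := LinearMap.exists_extend s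
  refine ⟨LinearMap.toContinuousLinearMap (K.subtype ∘ₗ g), fun f => (g f).2, fun f hf hp => ?_⟩
  obtain ⟨a, ha, haf⟩ := exists_cl c 𝔟 h1 hΩ hf
  have hc : c.Par * a * c.Par ∈ Cl c.θ (sub 16 𝔟) :=
    conj_mem_Cl (R := -1) c.Par_sq c.Par_sq (fun y => by
      rw [c.Par_theta, ← neg_mul, ← map_neg]
      rfl) (fun y hy => neg_mem hy) ha
  have hm : (1 / 2 : ℂ) • (a + c.Par * a * c.Par) ∈ K := by
    refine K.smul_mem _ ⟨add_mem ha hc, ?_⟩
    rw [mul_add, add_mul, ← mul_assoc, ← mul_assoc, c.Par_sq, one_mul, mul_assoc (c.Par * a),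
      c.Par_sq, mul_one, add_comm]
  have hr : f ∈ LinearMap.range ev := by
    refine ⟨⟨_, hm⟩, ?_⟩
    change ((1 / 2 : ℂ) • (a + c.Par * a * c.Par)) Ω = f
    rw [_root_.smul_apply, _root_.add_apply, mul_apply_eq_comp, mul_apply_eq_comp,
      (fock_fix c hΩ).2, haf, hp, ← two_smul ℂ f, smul_smul]
    norm_num
  have e1 : g f = s ⟨f, hr⟩ := LinearMap.congr_fun hg ⟨f, hr⟩
  have e2 : ev (s ⟨f, hr⟩) = f := congrArg Subtype.val (LinearMap.congr_fun hs ⟨f, hr⟩)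
  change ev (g f) = f
  rw [e1, e2]

end ProdAux

end Vale.Agent.P353
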