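import Vale.Agent.P353.Gau
import Vale.Agent.P353.Car1
import Vale.Agent.P353.Ga1

/-! Gaussian averages and vacuum expectation values used in `R2.lean`. -/

noncomputable section

open MeasureTheory Filter Topology Complex
open scoped ContDiff RealInnerProductSpace

namespace Vale.Agent.P353.R2Aux

section Avg

variable {E : Type} [NormedAddCommGroup E] [InnerProductSpace ℝ E] [FiniteDimensional ℝ E]
  [MeasurableSpace E] [BorelSpace E] {U : Submodule ℝ E} {A : E →L[ℝ] E} {a : ℝ}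
variable {V V' : Type} [NormedAddCommGroup V] [NormedSpace ℝ V] [NormedAddCommGroup V']
  [NormedSpace ℝ V']

/-- `f` has the average `c` for the Gaussian measure -/
def Avg (U : Submodule ℝ E) (A : E →L[ℝ] E) (f : E → V) (c : V) : Prop :=
  (Integrable fun x : U => gauss U A x ^ 2 • f x) ∧ ∫ x : U, gauss U A x ^ 2 • f x = c

theorem Avg.congr {f f' : E → V} {c c' : V} (h : Avg U A f c) (hf : ∀ x, f' x = f x)
    (hc : c' = c) : Avg U A f' c' := by
  obtain rfl : f' = f := funext hf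
  exact hc ▸ h

theorem Avg.out {f : E → V} {c c' : V} (h : Avg U A f c) {f' : U → V}
    (hf : ∀ x : U, f' x = gauss U A x ^ 2 • f x) (hc : c = c') :
    Integrable f' ∧ ∫ x, f' x = c' := by
  obtain rfl : f' = _ := funext hf
  exact hc ▸ h

theorem Avg.add {f f' : E → V} {c c' : V} (h : Avg U A f c) (h' : Avg U A f' c') :
    Avg U A (fun x => f x + f' x) (c + c') := by
  simp only [Avg, smul_add]
  exact ⟨h.1.add h'.1, by rw [integral_add h.1 h'.1, h.2, h'.2]⟩

theorem Avg.sub {f f' : E → V} {c c' : V} (h : Avg U A f c) (h' : Avg U A f' c') :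
    Avg U A (fun x => f x - f' x) (c - c') := by
  simp only [Avg, smul_sub]
  exact ⟨h.1.sub h'.1, by rw [integral_sub h.1 h'.1, h.2, h'.2]⟩

theorem Avg.sum {ι : Type} (s : Finset ι) {f : ι → E → V} {c : ι → V}
    (h : ∀ i ∈ s, Avg U A (f i) (c i)) : Avg U A (fun x => ∑ i ∈ s, f i x) (∑ i ∈ s, c i) := by
  simp only [Avg, Finset.smul_sum]
  refine ⟨integrable_finsetSum s fun i hi => (h i hi).1, ?_⟩
  rw [integral_finsetSum s fun i hi => (h i hi).1]
  exact Finset.sum_congr rfl fun i hi => (h i hi).2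

theorem Avg.clm [CompleteSpace V] [CompleteSpace V'] {f : E → V} {c : V} (h : Avg U A f c)
    (L : V →L[ℝ] V') : Avg U A (fun x => L (f x)) (L c) := by
  simp only [Avg, ← map_smul]
  exact ⟨L.integrable_comp h.1, by rw [L.integral_comp_comm h.1, h.2]⟩

theorem integrable_of_le (ha : 0 < a) (hA : ∀ w ∈ U, a * ‖w‖ ^ 2 ≤ ⟪w, A w⟫) {f : E → V}
    (hf : Continuous f) (C : ℝ) (k : ℕ) (h : ∀ x, ‖f x‖ ≤ C * ‖x‖ ^ k) :
    Integrable fun x : U => gauss U A x ^ 2 • f x := by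
  have hg := (contDiff_gauss U A).continuous
  refine ((integrable_gauss_sq ha hA k).const_mul C).mono' (GauAux.meas_of_cont (by fun_prop))
    (Eventually.of_forall fun y => ?_)
  rw [norm_smul, Real.norm_of_nonneg (sq_nonneg _)]
  calc gauss U A y ^ 2 * ‖f y‖ ≤ gauss U A y ^ 2 * (C * ‖(y : E)‖ ^ k) := by
        gcongr
        exact h _
    _ = _ := by ring

theorem avg_const [CompleteSpace V] (ha : 0 < a) (hA : ∀ w ∈ U, a * ‖w‖ ^ 2 ≤ ⟪w, A w⟫) (c : V) :
    Avg U A (fun _ => c) c :=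
  ⟨integrable_of_le ha hA continuous_const ‖c‖ 0 fun x => by simp,
    by rw [integral_smul_const, integral_gauss_sq ha hA, one_smul]⟩

theorem avg_lin (ha : 0 < a) (hA : ∀ w ∈ U, a * ‖w‖ ^ 2 ≤ ⟪w, A w⟫) (L : E →L[ℝ] V) :
    Avg U A (fun x => L x) 0 :=
  ⟨integrable_of_le ha hA L.continuous ‖L‖ 1 fun x => by simpa using L.le_opNorm x,
    integral_gauss_sq_odd U A fun x => map_neg L x⟩

omit [FiniteDimensional ℝ E] [MeasurableSpace E] [BorelSpace E] in
theorem pos_smul (hA : ∀ w ∈ U, a * ‖w‖ ^ 2 ≤ ⟪w, A w⟫) {g : ℝ} (hg : 0 < g) :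
    ∀ w ∈ U, g * a * ‖w‖ ^ 2 ≤ ⟪w, (g • A) w⟫ := by
  intro w hw
  rw [_root_.smul_apply, real_inner_smul_right, mul_assoc]
  exact mul_le_mul_of_nonneg_left (hA w hw) hg.le

/-- average of a quadratic map -/
def qav (U : Submodule ℝ E) (A : E →L[ℝ] E) (q : E →L[ℝ] E →L[ℝ] V) : V :=
  ∫ x : U, gauss U A x ^ 2 • q x x

theorem qav_eq {q : E →L[ℝ] E →L[ℝ] V} {f : E → V} (h : ∀ x, q x x = f x) :
    qav U A q = ∫ x : U, gauss U A x ^ 2 • f x := by
  simp only [qav, h]

theorem avg_quad (ha : 0 < a) (hA : ∀ w ∈ U, a * ‖w‖ ^ 2 ≤ ⟪w, A w⟫) {g : ℝ} (hg : 0 < g)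
    (q : E →L[ℝ] E →L[ℝ] V) :
    Avg U (g • A) (fun x => g • q x x) (qav U A q) := by
  refine ⟨integrable_of_le (f := fun x => g • q x x) (mul_pos hg ha) (pos_smul hA hg)
    (by fun_prop) (g * ‖q‖) 2 fun x => ?_, ?_⟩
  · rw [norm_smul, Real.norm_of_nonneg hg.le, mul_assoc, sq, ← mul_assoc ‖q‖]
    exact mul_le_mul_of_nonneg_left (q.le_opNorm₂ x x) hg.le
  · rw [qav, ← integral_gauss_sq_smul U A hg fun x => q x x]
    refine integral_congr_ae (Eventually.of_forall fun x => ?_)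
    simp only [map_smul, _root_.smul_apply, smul_smul, Real.mul_self_sqrt hg.le]

/-- the bilinear form of an operator -/
def bf (B : E →L[ℝ] E) : E →L[ℝ] E →L[ℝ] ℝ :=
  ((ContinuousLinearMap.compL ℝ E E ℝ).flip B).comp (innerSL ℝ)

omit [FiniteDimensional ℝ E] [MeasurableSpace E] [BorelSpace E] in
theorem bf_apply (B : E →L[ℝ] E) (x y : E) : bf B x y = ⟪x, B y⟫ := rfl

omit [FiniteDimensional ℝ E] [MeasurableSpace E] [BorelSpace E] in
theorem continuous_bf : Continuous (bf : (E →L[ℝ] E) → E →L[ℝ] E →L[ℝ] ℝ) :=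
  (ContinuousLinearMap.compL ℝ E E ℝ).flip.continuous.clm_comp continuous_const

theorem avg_dev (ha : 0 < a) (hA : ∀ w ∈ U, a * ‖w‖ ^ 2 ≤ ⟪w, A w⟫) (B : E →L[ℝ] E) :
    Avg U A (fun x => ((∫ y : U, gauss U A y ^ 2 * ⟪(y : E), B y⟫) - ⟪x, B x⟫) / 2) 0 := by
  have h1 := avg_quad ha hA one_pos (bf B)
  simp only [one_smul, bf_apply, smul_eq_mul, qav] at h1
  have h2 := ((avg_const ha hA (∫ y : U, gauss U A y ^ 2 * ⟪(y : E), B y⟫)).sub h1).clm
    ((1 / 2 : ℝ) • ContinuousLinearMap.id ℝ ℝ)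
  refine h2.congr (fun x => ?_) (by simp)
  simp only [_root_.smul_apply, ContinuousLinearMap.id_apply, smul_eq_mul]
  ring

theorem cont_quad [CompleteSpace V] {X : Type} [TopologicalSpace X] {B : X → E →L[ℝ] E}
    {q : X → E →L[ℝ] E →L[ℝ] V} {x : X} (ha : 0 < a) (hA : ∀ w ∈ U, a * ‖w‖ ^ 2 ≤ ⟪w, B x w⟫)
    (hB : ContinuousAt B x) (hq : ContinuousAt q x) :
    ContinuousAt (fun y => qav U (B y) (q y)) x :=
  ContinuousAt.comp (f := fun y => (B y, q y)) (continuousAt_gauss_quad ha hA (q x)) (hB.prodMk hq)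

variable {F : Type} [NormedAddCommGroup F] [InnerProductSpace ℂ F] [FiniteDimensional ℂ F]

omit [FiniteDimensional ℂ F] in
theorem cont_shape {X ι κ : Type} [TopologicalSpace X] [Fintype ι] [Fintype κ] {x : X}
    (t : ι → F →L[ℂ] F) (s : κ → F →L[ℂ] F) {k0 : X → ℂ} {k1 : ι → X → ℂ} {m : κ → X → ℂ}
    {P T : X → F →L[ℂ] F} {P1 : ι → X → F →L[ℂ] F} {G : κ → X → F →L[ℂ] F}
    (h0 : ContinuousAt k0 x) (h1 : ∀ k, ContinuousAt (k1 k) x) (hm : ∀ a, ContinuousAt (m a) x)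
    (hP : ContinuousAt P x) (hT : ContinuousAt T x) (hP1 : ∀ k, ContinuousAt (P1 k) x)
    (hG : ∀ a, ContinuousAt (G a) x) :
    ContinuousAt (fun y => ∑ k, (-I) • (t k * (k1 k y • P y + k0 y • P1 k y)) -
      k0 y • (P y * (T y + ∑ a, (-I) • (s a * G a y) + ∑ a, I • m a y • s a))) x := by
  have e1 : ContinuousAt (fun y => ∑ k, (-I) • (t k * (k1 k y • P y + k0 y • P1 k y))) x :=
    tendsto_finsetSum _ fun k _ => by
      have := h1 k
      have := hP1 k
      show ContinuousAt (fun y => (-I) • (t k * (k1 k y • P y + k0 y • P1 k y))) x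
      fun_prop
  have e2 : ContinuousAt (fun y => ∑ a, (-I) • (s a * G a y)) x :=
    tendsto_finsetSum _ fun a _ => by
      have := hG a
      show ContinuousAt (fun y => (-I) • (s a * G a y)) x
      fun_prop
  have e3 : ContinuousAt (fun y => ∑ a, I • m a y • s a) x :=
    tendsto_finsetSum _ fun a _ => by
      have := hm a
      show ContinuousAt (fun y => I • m a y • s a) x
      fun_prop
  exact e1.sub (h0.smul (hP.mul ((hT.add e2).add e3)))

theorem Avg.mul_left {f : E → F →L[ℂ] F} {c : F →L[ℂ] F} (h : Avg U A f c) (b : F →L[ℂ] F) :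
    Avg U A (fun x => b * f x) (b * c) :=
  h.clm ((ContinuousLinearMap.mul ℂ (F →L[ℂ] F) b).restrictScalars ℝ)

theorem Avg.csmul {f : E → F →L[ℂ] F} {c : F →L[ℂ] F} (h : Avg U A f c) (z : ℂ) :
    Avg U A (fun x => z • f x) (z • c) :=
  h.clm ((z • ContinuousLinearMap.id ℂ (F →L[ℂ] F)).restrictScalars ℝ)

theorem Avg.rsmul {f : E → ℝ} {c : ℝ} (h : Avg U A f c) (b : F →L[ℂ] F) :
    Avg U A (fun x => (f x : ℂ) • b) ((c : ℂ) • b) :=
  h.clm ((ContinuousLinearMap.id ℝ ℝ).smulRight b)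

/-- moving a skew operator from one slot to the other -/
theorem transp (U : Submodule ℝ E) (f : E →L[ℝ] E →L[ℝ] V) (R T : E →L[ℝ] E)
    (hR : ∀ x ∈ U, R x ∈ U) (hs : ∀ x ∈ U, ∀ y ∈ U, ⟪R x, y⟫ = -⟪x, R y⟫) :
    ∑ k, f (R (onb U k)) (T (onb U k)) = -∑ k, f (onb U k) (T (R (onb U k))) := by
  have h1 : ∀ k, f (R (onb U k)) (T (onb U k)) =
      ∑ l, ⟪onb U l, R (onb U k)⟫ • f (onb U l) (T (onb U k)) := by
    intro k
    conv_lhs => rw [← sum_onb_self (hR _ (onb_mem U k))]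
    simp only [map_sum, map_smul, _root_.sum_apply, _root_.smul_apply]
  have h2 : ∀ l, f (onb U l) (T (R (onb U l))) =
      ∑ k, ⟪onb U k, R (onb U l)⟫ • f (onb U l) (T (onb U k)) := by
    intro l
    conv_lhs => rw [← sum_onb_self (hR _ (onb_mem U l))]
    simp only [map_sum, map_smul]
  simp only [h1, h2]
  rw [Finset.sum_comm, ← Finset.sum_neg_distrib]
  refine Finset.sum_congr rfl fun l _ => ?_
  rw [← Finset.sum_neg_distrib]
  refine Finset.sum_congr rfl fun k _ => ?_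
  rw [real_inner_comm, hs _ (onb_mem U k) _ (onb_mem U l), neg_smul]

/-- an antisymmetric form vanishes on two commuting skew operators -/
theorem sum_skew (U : Submodule ℝ E) (f : E →L[ℝ] E →L[ℝ] V) (hf : ∀ x y, f x y = -f y x)
    (R T : E →L[ℝ] E) (hR : ∀ x ∈ U, R x ∈ U) (hT : ∀ x ∈ U, T x ∈ U)
    (hRs : ∀ x ∈ U, ∀ y ∈ U, ⟪R x, y⟫ = -⟪x, R y⟫)
    (hTs : ∀ x ∈ U, ∀ y ∈ U, ⟪T x, y⟫ = -⟪x, T y⟫) (hc : ∀ x, T (R x) = R (T x)) :
    ∑ k, f (R (onb U k)) (T (onb U k)) = 0 := by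
  have h1 := transp U f R T hR hRs
  have h2 := transp U f T R hT hTs
  have h3 : ∑ k, f (R (onb U k)) (T (onb U k)) = -∑ k, f (T (onb U k)) (R (onb U k)) := by
    rw [← Finset.sum_neg_distrib]
    exact Finset.sum_congr rfl fun k _ => hf _ _
  simp only [hc] at h1
  rw [h2, neg_neg] at h3
  have h4 : (2 : ℝ) • ∑ k, f (R (onb U k)) (T (onb U k)) = 0 := by
    rw [two_smul]
    nth_rewrite 1 [h1]
    rw [h3, neg_add_cancel]
  exact (smul_eq_zero.1 h4).resolve_left two_ne_zero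

end Avg

section Vac

variable {S : Type} [NormedAddCommGroup S] [InnerProductSpace ℝ S] [FiniteDimensional ℝ S]
variable {F : Type} [NormedAddCommGroup F] [InnerProductSpace ℂ F] [FiniteDimensional ℂ F]
variable {θ : S →L[ℝ] F →L[ℂ] F}

/-- one fermion and a second quantized operator between two vacua -/
theorem vac_theta_dG (h : IsCAR θ) {J a : S →L[ℝ] S} (ha : IsSkew a) {u : S}
    (hu : -(J (J u)) = u) : vac θ J * (θ u * dG θ a) * vac θ J =
      (-(1 / 2) : ℂ) • (vac θ J * θ (a u) * vac θ J) +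
        (-(I / 2)) • (vac θ J * θ (a (J u)) * vac θ J) := by
  have h1 := h.vac_theta_J hu
  have h2 := theta_J_vac (θ := θ) hu
  have h3 := h.dG_comm ha u
  have h4 := h.dG_comm ha (J u)
  have e1 : vac θ J * θ (J u) * (dG θ a * vac θ J) =
      (-I) • (vac θ J * (θ u * dG θ a) * vac θ J) := by
    rw [h1, smul_mul_assoc]
    simp only [mul_assoc]
  have e2 : vac θ J * dG θ a * (θ (J u) * vac θ J) =
      I • (vac θ J * (dG θ a * θ u) * vac θ J) := by
    rw [h2, mul_smul_comm]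
    simp only [mul_assoc]
  have e3 : vac θ J * θ (a (J u)) * vac θ J = I • (vac θ J * (dG θ a * θ u) * vac θ J) -
      (-I) • (vac θ J * (θ u * dG θ a) * vac θ J) := by
    rw [← h4, ← e1, ← e2]
    simp only [mul_sub, sub_mul, mul_assoc]
  rw [e3, ← h3, mul_sub, sub_mul]
  match_scalars
  · linear_combination (1 / 2 : ℂ) * I_mul_I
  · linear_combination (1 / 2 : ℂ) * I_mul_I

omit [FiniteDimensional ℝ S] in
/-- the derivative of a family of projections is off diagonal -/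
theorem proj_deriv {X : Type} [NormedAddCommGroup X] [NormedSpace ℝ X] {P : X → F →L[ℂ] F}
    (hP : ∀ x, P x * P x = P x) {x : X} (hd : DifferentiableAt ℝ P x) (y : X) :
    P x * fderiv ℝ P x y * P x = 0 := by
  have h1 := hd.hasFDerivAt.mul' hd.hasFDerivAt
  have h2 : P * P = P := funext hP
  rw [h2] at h1
  have h3 := congrArg (fun L => L y) (hd.hasFDerivAt.unique h1)
  simp only [_root_.add_apply, _root_.smul_apply, smul_eq_mul,
    MulOpposite.smul_eq_mul_unop, MulOpposite.unop_op] at h3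
  have h4 := congrArg (fun T => P x * T * P x) h3
  simp only [mul_add, add_mul, ← mul_assoc, hP] at h4
  rw [mul_assoc _ (P x) (P x), hP] at h4
  exact left_eq_add.1 h4

end Vac

end Vale.Agent.P353.R2Aux
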