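import Vale.Agent.P353.Stmts
import Vale.Agent.P353.Gau
import Vale.Agent.P353.Psq
import Vale.Agent.P353.R2Aux

/-! Ground state average of the error kernel. -/

noncomputable section

open MeasureTheory Filter Topology Complex Matrix
open scoped ContDiff RealInnerProductSpace

namespace Vale.Agent.P353

namespace R2Aux

variable {N d : ℕ} {F : Type} [NormedAddCommGroup F] [InnerProductSpace ℂ F]
  [FiniteDimensional ℂ F] (c : Ctx N d F)

theorem exists_PhiQ (e : Fin 16 → ℝ) :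
    ∃ q : Tn 9 d →L[ℝ] Tn 9 d →L[ℝ] Tn 16 d, ∀ W, q W W = c.Phi e W := by
  obtain ⟨L, hL⟩ := c.exists_adL
  refine ⟨(1 / 2 : ℝ) • ∑ i, ∑ j, (ContinuousLinearMap.compL ℝ (Tn 9 d) (Lg d) (Tn 16 d)
    (tens (gamma2 c.γ j i *ᵥ e))).comp (L.bilinearComp (cmp i) (cmp j)), fun W => ?_⟩
  simp only [Ctx.Phi, _root_.smul_apply, _root_.sum_apply, ContinuousLinearMap.comp_apply,
    ContinuousLinearMap.compL_apply, ContinuousLinearMap.bilinearComp_apply, hL]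

/-- average of the commutator term -/
def mPhi (𝔴 : Submodule ℝ (Lg d)) (v : Fin 9 → ℝ) (e : Fin 16 → ℝ) (X : Tn 9 d) : Tn 16 d :=
  qav (Wsl 𝔴 v) (c.Aw 𝔴 X) (exists_PhiQ c e).choose

/-- average of the gauge term -/
def mq (𝔴 : Submodule ℝ (Lg d)) (v : Fin 9 → ℝ) (η : Lg d) (X : Tn 9 d) : ℝ :=
  qav (Wsl 𝔴 v) (c.Aw 𝔴 X) (bf (-(c.vf (c.zet 𝔴 v X η) * c.Aw 𝔴 X)))

/-- the averaged kernel -/
def N0 (𝔞' 𝔴 : Submodule ℝ (Lg d)) (v : Fin 9 → ℝ) (χ : Tn 9 d → ℝ) (e : Fin 16 → ℝ)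
    (X : Tn 9 d) : F →L[ℂ] F :=
  ∑ k, (-I) • (c.θ (c.sE e (onb (sub 9 𝔞') k)) *
      (((fderiv ℝ (c.kap 𝔴 v χ) X (onb (sub 9 𝔞') k) : ℝ) : ℂ) • c.Pw 𝔴 X +
        (c.kap 𝔴 v χ X : ℂ) • fderiv ℝ (c.Pw 𝔴) X (onb (sub 9 𝔞') k))) -
    (c.kap 𝔴 v χ X : ℂ) • (c.Pw 𝔴 X * (c.θ (mPhi c 𝔴 v e X) +
      ∑ a, (-I) • (c.θ (c.sE e (tens v (onb 𝔴 a))) * c.Gs (c.zet 𝔴 v X (onb 𝔴 a))) +
      ∑ a, I • ((mq c 𝔴 v (onb 𝔴 a) X : ℝ) : ℂ) • c.θ (c.sE e (tens v (onb 𝔴 a)))))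

variable {c}

theorem A_pos (h : c.S_lm1) {𝔴 : Submodule ℝ (Lg d)} {v : Fin 9 → ℝ} {X : Tn 9 d}
    (hX : X ∈ c.Ow 𝔴 v) : ∃ a > 0, ∀ W ∈ Wsl 𝔴 v, a * ‖W‖ ^ 2 ≤ ⟪W, c.Aw 𝔴 X W⟫ := by
  obtain ⟨a, ha, M, hM⟩ := h.A_unif 𝔴 v {X} isCompact_singleton (Set.singleton_subset_iff.2 hX)
  exact ⟨a, ha, (hM X rfl).2⟩

theorem sm_kap (h : c.S_lm1) {𝔴 : Submodule ℝ (Lg d)} {v : Fin 9 → ℝ} {χ : Tn 9 d → ℝ}
    (hχ : ContDiff ℝ ∞ χ) {X : Tn 9 d} (hX : X ∈ c.Ow 𝔴 v) :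
    ContDiffAt ℝ ∞ (c.kap 𝔴 v χ) X :=
  hχ.contDiffAt.mul (h.sm_j 𝔴 v X hX)

theorem fderiv_ker (h : c.S_lm1) {𝔴 : Submodule ℝ (Lg d)} {v : Fin 9 → ℝ} {χ : Tn 9 d → ℝ}
    (hχ : ContDiff ℝ ∞ χ) {X : Tn 9 d} (hX : X ∈ c.Ow 𝔴 v) {g : ℝ} (hg : 0 < g) (W k : Tn 9 d) :
    fderiv ℝ (fun Y => ((c.kap 𝔴 v χ Y * c.Gg 𝔴 v g Y W : ℝ) : ℂ) • c.Pw 𝔴 Y) X k =
      (c.Gg 𝔴 v g X W : ℂ) • (((fderiv ℝ (c.kap 𝔴 v χ) X k : ℝ) : ℂ) • c.Pw 𝔴 X +
        (c.kap 𝔴 v χ X : ℂ) • fderiv ℝ (c.Pw 𝔴) X k + (c.kap 𝔴 v χ X : ℂ) •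
        (((((∫ y : Wsl 𝔴 v, gauss (Wsl 𝔴 v) (g • c.Aw 𝔴 X) y ^ 2 *
          ⟪(y : Tn 9 d), (g • fderiv ℝ (c.Aw 𝔴) X k) y⟫) -
            ⟪W, (g • fderiv ℝ (c.Aw 𝔴) X k) W⟫) / 2 : ℝ) : ℂ) • c.Pw 𝔴 X)) := by
  obtain ⟨a, ha, hA⟩ := A_pos h hX
  have h1 := ((sm_kap h hχ hX).differentiableAt (by simp)).hasFDerivAt
  have h2 := ((h.sm_P 𝔴 v X hX).differentiableAt (by simp)).hasFDerivAt
  have h3 := (((h.sm_A 𝔴 v X hX).differentiableAt (by simp)).hasFDerivAt).const_smul g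
  obtain ⟨h4, h5⟩ := fderiv_gauss_form (mul_pos hg ha) (pos_smul hA hg)
    (g • fderiv ℝ (c.Aw 𝔴) X k) W
  have h6 := h4.hasFDerivAt.comp X h3
  have h7 := ((h1.mul h6).smul h2).fderiv
  have h8 : (fun Y => ((c.kap 𝔴 v χ Y * c.Gg 𝔴 v g Y W : ℝ) : ℂ) • c.Pw 𝔴 Y) =
      (c.kap 𝔴 v χ * (fun A' => gauss (Wsl 𝔴 v) A' W) ∘ (g • c.Aw 𝔴)) • c.Pw 𝔴 := rfl
  rw [h8, h7]
  simp only [_root_.add_apply, _root_.smul_apply, ContinuousLinearMap.smulRight_apply,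
    ContinuousLinearMap.comp_apply, Pi.mul_apply, Function.comp_apply, Pi.smul_apply, smul_eq_mul]
  erw [h5]
  simp only [← Complex.coe_smul, Ctx.Gg, _root_.smul_apply]
  match_scalars <;> ring

theorem avg_Rk (h : c.S_lm1) (𝔞' : Submodule ℝ (Lg d)) {𝔴 : Submodule ℝ (Lg d)} {v : Fin 9 → ℝ}
    {χ : Tn 9 d → ℝ} (hχ : ContDiff ℝ ∞ χ) (e : Fin 16 → ℝ) {g : ℝ} (hg : 0 < g) (m : ℝ)
    {X : Tn 9 d} (hX : X ∈ c.Ow 𝔴 v) :
    (Integrable fun W : Wsl 𝔴 v => (c.Gg 𝔴 v g X W : ℂ) • c.Rk 𝔞' 𝔴 v χ g m e X W) ∧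
      ∫ W : Wsl 𝔴 v, (c.Gg 𝔴 v g X W : ℂ) • c.Rk 𝔞' 𝔴 v χ g m e X W = N0 c 𝔞' 𝔴 v χ e X := by
  obtain ⟨a, ha, hA⟩ := A_pos h hX
  have ha' := mul_pos hg ha
  have hA' := pos_smul hA hg
  have hq := (exists_PhiQ c e).choose_spec
  have t1 := Avg.sum Finset.univ fun k _ => (((avg_const ha' hA'
    (((fderiv ℝ (c.kap 𝔴 v χ) X (onb (sub 9 𝔞') k) : ℝ) : ℂ) • c.Pw 𝔴 X +
      (c.kap 𝔴 v χ X : ℂ) • fderiv ℝ (c.Pw 𝔴) X (onb (sub 9 𝔞') k))).add
    (((avg_dev ha' hA' (g • fderiv ℝ (c.Aw 𝔴) X (onb (sub 9 𝔞') k))).rsmul (c.Pw 𝔴 X)).csmul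
      (c.kap 𝔴 v χ X))).mul_left (c.θ (c.sE e (onb (sub 9 𝔞') k)))).csmul (-I)
  have t2 := ((avg_lin ha' hA' (c.θ ∘L c.sE e ∘L c.Aw 𝔴 X)).csmul (-I)).csmul g
  have t3 := (avg_lin ha' hA' (c.θ ∘L fderiv ℝ (c.Phi e) X)).csmul g
  have t4 := (avg_quad ha hA hg (exists_PhiQ c e).choose).clm c.θ
  have t5 := (avg_lin ha' hA' (c.θ ∘L c.Km e)).csmul m
  have t6 := avg_const ha' hA'
    (∑ a, (-I) • (c.θ (c.sE e (tens v (onb 𝔴 a))) * c.Gs (c.zet 𝔴 v X (onb 𝔴 a))))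
  have t7 := Avg.sum Finset.univ fun a _ => ((avg_quad ha hA hg
    (bf (-(c.vf (c.zet 𝔴 v X (onb 𝔴 a)) * c.Aw 𝔴 X)))).rsmul
      (c.θ (c.sE e (tens v (onb 𝔴 a))))).csmul I
  have t := t1.sub ((((((t2.add t3).add t4).add t5).add t6).add t7).mul_left (c.Pw 𝔴 X) |>.csmul
    (c.kap 𝔴 v χ X))
  refine t.out (fun W => ?_) ?_
  · clear t t1 t2 t3 t4 t5 t6 t7
    have h1 : c.Phi e (X + W) - c.Phi e X = fderiv ℝ (c.Phi e) X W + c.Phi e W := by
      rw [c.Phi_add]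
      abel
    have h2 : ∀ ξ, bf (-(c.vf ξ * c.Aw 𝔴 X)) W W = ⟪c.vf ξ W, c.Aw 𝔴 X W⟫ := by
      intro ξ
      rw [bf_apply, c.vf_skew, _root_.neg_apply, inner_neg_right]
      rfl
    unfold Ctx.Rk
    simp only [fderiv_ker h hχ hX hg, h1, h2, hq, map_add, theta_smul, smul_eq_mul,
      ContinuousLinearMap.comp_apply, mul_smul_comm, mul_smul]
    rw [← Complex.coe_smul, ← show c.Gg 𝔴 v g X W = gauss (Wsl 𝔴 v) (g • c.Aw 𝔴 X) W from rfl]
    simp only [smul_comm (-I) (c.Gg 𝔴 v g X W : ℂ), ← Finset.smul_sum]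
    generalize (∑ k, c.θ (c.sE e (onb (sub 9 𝔞') k)) * _ : F →L[ℂ] F) = T
    simp only [smul_add, mul_add, mul_smul_comm]
    match_scalars <;> ring
  · simp only [N0, mPhi, mq, smul_zero, ofReal_zero, zero_smul, add_zero, zero_add]

theorem cont_N0 (h : c.S_lm1) (𝔞' : Submodule ℝ (Lg d)) {𝔴 : Submodule ℝ (Lg d)} {v : Fin 9 → ℝ}
    {χ : Tn 9 d → ℝ} (hχ : ContDiff ℝ ∞ χ) (e : Fin 16 → ℝ) {X : Tn 9 d} (hX : X ∈ c.Ow 𝔴 v) :
    ContinuousAt (N0 c 𝔞' 𝔴 v χ e) X := by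
  obtain ⟨a, ha, hA⟩ := A_pos h hX
  obtain ⟨LG, hLG⟩ := c.exists_GsL
  obtain ⟨Lv, hLv⟩ := c.exists_vfL
  have hκ := sm_kap h hχ hX
  have hP := h.sm_P 𝔴 v X hX
  have hAc := (h.sm_A 𝔴 v X hX).continuousAt
  have hκ' : ∀ k, ContinuousAt (fun Y => ((fderiv ℝ (c.kap 𝔴 v χ) Y k : ℝ) : ℂ)) X := fun k =>
    continuous_ofReal.continuousAt.comp
      ((hκ.continuousAt_fderiv (by simp)).clm_apply continuousAt_const)
  have hκ0 : ContinuousAt (fun Y => ((c.kap 𝔴 v χ Y : ℝ) : ℂ)) X :=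
    continuous_ofReal.continuousAt.comp hκ.continuousAt
  have hP' : ∀ k, ContinuousAt (fun Y => fderiv ℝ (c.Pw 𝔴) Y k) X := fun k =>
    (hP.continuousAt_fderiv (by simp)).clm_apply continuousAt_const
  have hz : ∀ η, ContinuousAt (fun Y => c.zet 𝔴 v Y η) X := fun η =>
    (h.sm_ainv 𝔴 v X hX).continuousAt.clm_apply continuousAt_const
  have hG : ∀ η, ContinuousAt (fun Y => c.Gs (c.zet 𝔴 v Y η)) X := fun η => by
    simp only [← hLG]
    exact LG.continuous.continuousAt.comp (hz η)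
  have hΦ : ContinuousAt (fun Y => c.θ (mPhi c 𝔴 v e Y)) X := by
    refine c.θ.continuous.continuousAt.comp ?_
    exact cont_quad ha hA hAc continuousAt_const
  have hm : ∀ η, ContinuousAt (fun Y => ((mq c 𝔴 v η Y : ℝ) : ℂ)) X := fun η => by
    refine continuous_ofReal.continuousAt.comp ?_
    have h1 : ContinuousAt (fun Y => bf (-(c.vf (c.zet 𝔴 v Y η) * c.Aw 𝔴 Y))) X := by
      refine continuous_bf.continuousAt.comp (ContinuousAt.neg (ContinuousAt.mul ?_ hAc))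
      simp only [← hLv]
      exact Lv.continuous.continuousAt.comp (hz η)
    exact cont_quad ha hA hAc h1
  exact cont_shape _ _ hκ0 (fun k => hκ' _) (fun a => hm _) hP.continuousAt hΦ (fun k => hP' _)
    fun a => hG _

section Cen

variable {π π' : Setoid (Fin N)}

theorem adw_cen (hπ : π' ≤ π) {x : Lg d} (hx : x ∈ c.cen π') :
    c.ad x * (c.off π π').starProjection = (c.off π π').starProjection * c.ad x ∧
      c.adw (c.off π π') x = c.ad x * (c.off π π').starProjection := by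
  have h1 := c.ad_starProjection fun y hy => c.ad_mem_off hπ (c.cen_le_blk π' hx) hy
  refine ⟨h1, ?_⟩
  unfold Ctx.adw
  rw [← h1, mul_assoc, (c.off π π').isIdempotentElem_starProjection.eq]

theorem adw_P (𝔴 : Submodule ℝ (Lg d)) (x : Lg d) : Commute (c.adw 𝔴 x) 𝔴.starProjection := by
  unfold Ctx.adw Commute SemiconjBy
  rw [mul_assoc _ 𝔴.starProjection, 𝔴.isIdempotentElem_starProjection.eq, ← mul_assoc,
    ← mul_assoc, 𝔴.isIdempotentElem_starProjection.eq]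

theorem adw_comm (hπ : π' ≤ π) {x y : Lg d} (hx : x ∈ c.cen π') (hy : y ∈ c.cen π') :
    Commute (c.adw (c.off π π') x) (c.adw (c.off π π') y) := by
  have h1 : Commute (c.ad x) (c.ad y) := by
    have h2 := c.jacobi x y
    rw [(c.mem_cen_iff x).1 hx y (c.cen_le_blk π' hy), c.ad_zero] at h2
    exact (sub_eq_zero.1 h2.symm)
  have h2 : Commute (c.ad x) (c.off π π').starProjection := (adw_cen hπ hx).1
  have h3 : Commute (c.ad y) (c.off π π').starProjection := (adw_cen hπ hy).1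
  rw [(adw_cen hπ hx).2, (adw_cen hπ hy).2]
  exact (h1.mul_right h2).mul_left (h3.symm.mul_right (Commute.refl _))

theorem adw_skew (𝔴 : Submodule ℝ (Lg d)) (x : Lg d) : IsSkew (c.adw 𝔴 x) := by
  intro u w
  unfold Ctx.adw
  simp only [mul_apply_eq_comp]
  rw [𝔴.inner_starProjection_left_eq_right, c.ad_skew, 𝔴.inner_starProjection_left_eq_right]

theorem commute_inverse {R : Type} [Ring R] {a b : R} (h : Commute a b) :
    Commute a (Ring.inverse b) := by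
  by_cases hb : IsUnit b
  · obtain ⟨u, rfl⟩ := hb
    rw [Ring.inverse_unit]
    exact h.units_inv_right
  · rw [Ring.inverse_non_unit _ hb]
    exact Commute.zero_right _

theorem sum_br (h : c.S_lm1) (hπ : π' ≤ π) {v : Fin 9 → ℝ} {y : Tn 9 d}
    (hy : y ∈ sub 9 (c.cen π')) (hO : y ∈ c.Ow (c.off π π') v) (i : Fin 9) :
    ∑ a, c.ad (c.zet (c.off π π') v y (onb (c.off π π') a)) (c.adw (c.off π π') (cmp i y)
      (Ring.inverse (c.om (c.off π π') y) (onb (c.off π π') a))) = 0 := by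
  obtain ⟨L, hL⟩ := c.exists_adL
  have hom : ∀ x ∈ c.cen π', Commute (c.adw (c.off π π') x) (c.om (c.off π π') y) := by
    intro x hx
    refine psq_comm (h.K_pd _ v y hO) ?_
    have h1 : ∀ j, Commute (c.adw (c.off π π') x) (c.adw (c.off π π') (cmp j y)) := fun j =>
      adw_comm hπ hx (mem_sub.1 hy j)
    exact ((Commute.sum_right _ _ _ fun j _ => (h1 j).mul_right (h1 j)).neg_right.add_right
      ((Commute.one_right _).sub_right (adw_P _ x)))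
  have hi := mem_sub.1 hy i
  have hv := cv_mem v hy
  have hP : Commute (c.om (c.off π π') y) (c.off π π').starProjection := h.om_P _ v y hO
  have hT : Commute (c.adw (c.off π π') (cmp i y) * Ring.inverse (c.om (c.off π π') y))
      (Ring.inverse (c.aw (c.off π π') v y)) := by
    refine commute_inverse (Commute.mul_left ?_ (commute_inverse ?_).symm)
    · exact (adw_comm hπ hi hv).neg_right.add_right ((Commute.one_right _).sub_right (adw_P _ _))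
    · exact ((hom _ hv).symm.neg_right.add_right ((Commute.one_right _).sub_right hP)).symm
  have haw : ∀ x ∈ c.off π π', c.aw (c.off π π') v y x = -c.adw (c.off π π') (cv v y) x := by
    intro x hx
    simp [Ctx.aw, Submodule.starProjection_eq_self_iff.2 hx]
  have h0 := sum_skew (c.off π π') L (fun x z => by rw [hL, hL, c.ad_anti])
    (Ring.inverse (c.aw (c.off π π') v y))
    (c.adw (c.off π π') (cmp i y) * Ring.inverse (c.om (c.off π π') y))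
    (h.zet_mem _ v y hO) (fun x _ => Submodule.starProjection_apply_mem _ _)
    (fun x hx z hz => ?_) (fun x _ z _ => ?_) (fun x => congrArg (fun T => T x) hT.eq)
  · simp only [hL] at h0
    exact h0
  · have h1 := h.a_zet _ v y hO x
    have h2 := h.a_zet _ v y hO z
    rw [haw _ (h.zet_mem _ v y hO x hx)] at h1
    rw [haw _ (h.zet_mem _ v y hO z hz)] at h2
    change ⟪c.zet _ v y x, z⟫ = -⟪x, c.zet _ v y z⟫
    generalize c.zet _ v y x = x' at h1 ⊢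
    generalize c.zet _ v y z = z' at h2 ⊢
    rw [← h1, ← h2, inner_neg_right, ← adw_skew, inner_neg_left, neg_neg]
  · have h1 := commute_inverse (hom _ hi)
    rw [mul_apply_eq_comp, adw_skew, (h.om_pd _ v y hO).inverse.1, h1.eq]
    rfl

theorem sum_J (h : c.S_lm1) (h3 : c.S_lm3) (hπ : π' ≤ π) {v : Fin 9 → ℝ} {y : Tn 9 d}
    (hy : y ∈ sub 9 (c.cen π')) (hO : y ∈ c.Ow (c.off π π') v) (w : Fin 16 → ℝ) :
    ∑ a, kr (1 : M16) (c.ad (c.zet (c.off π π') v y (onb (c.off π π') a)))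
      (c.Jw (c.off π π') y (tens w (onb (c.off π π') a))) = 0 := by
  have hJ : c.Jw (c.off π π') y =
      c.Dw (c.off π π') y * kr 1 (Ring.inverse (c.om (c.off π π') y)) := by
    rw [← h.JB _ v y hO, (h3.B_eq π π' π' v hπ le_rfl y hy hO).1, mul_assoc, kr_mul,
      Ring.mul_inverse_cancel _ (h.om_pd _ v y hO).isUnit, Matrix.mul_one, kr_one, mul_one]
  simp only [hJ, Ctx.Dw, mul_apply_eq_comp, _root_.sum_apply, kr_tens, map_sum, Matrix.one_mulVec]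
  rw [Finset.sum_comm]
  refine Finset.sum_eq_zero fun i _ => ?_
  rw [← map_sum, sum_br h hπ hy hO i, map_zero]

variable (c) in
/-- the divergence of the gauge parameters -/
def mu (𝔴 : Submodule ℝ (Lg d)) (v : Fin 9 → ℝ) (y : Tn 9 d) : Lg d :=
  ∑ a, c.ad (c.zet 𝔴 v y (onb 𝔴 a)) (onb 𝔴 a)

variable {𝔞 : Submodule ℝ (Lg d)}

theorem orth_slow (𝔞 : Submodule ℝ (Lg d)) (π π' : Setoid (Fin N)) :
    𝔞 ⊓ c.blk π' ≤ (c.off π π')ᗮ :=
  inf_le_right.trans (c.off_isOrtho_blk π π').symm.le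

theorem gauge_term (h : c.S_lm1) (h3 : c.S_lm3) (hT : c.Th π 𝔞) (hπ : π' ≤ π) {v : Fin 9 → ℝ}
    {y : Tn 9 d} (hy : y ∈ sub 9 (c.cen π')) (hO : y ∈ c.Ow (c.off π π') v) (e : Fin 16 → ℝ) :
    ∑ a, c.Pw (c.off π π') y * (c.θ (c.sE e (tens v (onb (c.off π π') a))) *
      c.Gs (c.zet (c.off π π') v y (onb (c.off π π') a))) * c.Pw (c.off π π') y =
      (-(1 / 2) : ℂ) • (c.θ (c.sE e (tens v ((𝔞 ⊓ c.blk π').starProjection
        (mu c (c.off π π') v y)))) * c.Pw (c.off π π') y) := by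
  have hu : ∀ a, -(c.Jw (c.off π π') y (c.Jw (c.off π π') y
      (c.sE e (tens v (onb (c.off π π') a))))) = c.sE e (tens v (onb (c.off π π') a)) := by
    intro a
    have h1 := congrArg (fun T => T (c.sE e (tens v (onb (c.off π π') a)))) (h.J_supp _ v y hO)
    simp only [← sub_starProjection] at h1
    rw [Submodule.starProjection_eq_self_iff.2 (c.sE_mem e (tens_mem_sub v (onb_mem _ a)))] at h1
    exact h1
  have h1 := fun a => vac_theta_dG c.car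
    (Cov1Aux.skew_kr_one (c.ad_skew (c.zet (c.off π π') v y (onb (c.off π π') a)))) (hu a)
  have h2 : ∑ a, kr (1 : M16) (c.ad (c.zet (c.off π π') v y (onb (c.off π π') a)))
      (c.sE e (tens v (onb (c.off π π') a))) = c.sE e (tens v (mu c (c.off π π') v y)) := by
    simp only [← c.sE_kr, kr_tens, Matrix.one_mulVec, mu, map_sum]
  have h4 : ∑ a, kr (1 : M16) (c.ad (c.zet (c.off π π') v y (onb (c.off π π') a)))
      (c.Jw (c.off π π') y (c.sE e (tens v (onb (c.off π π') a)))) = 0 := by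
    simp only [c.sE_tens]
    exact sum_J h h3 hπ hy hO _
  have hμ : mu c (c.off π π') v y ∈ 𝔞 := by
    refine hT.1 (Submodule.sum_mem _ fun a _ => c.ad_mem_ss ?_ ?_)
    · exact (h.zet_mem _ v y hO _ (onb_mem _ a)).1
    · exact (onb_mem (c.off π π') a).1
  have h5 : mu c (c.off π π') v y = (𝔞 ⊓ c.blk π').starProjection (mu c (c.off π π') v y) +
      (c.off π π').starProjection (mu c (c.off π π') v y) := by
    rw [← _root_.add_apply, ← Cov1Aux.sup_proj (orth_slow 𝔞 π π')]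
    simp only [Ctx.Th.sup_off c hT hπ]
    exact (Submodule.starProjection_eq_self_iff.2 hμ).symm
  have h6 := h.P_odd _ v y hO _ (c.sE_mem e (tens_mem_sub v
    (Submodule.starProjection_apply_mem (c.off π π') (mu c (c.off π π') v y))))
  have h7 := h.P_comm _ v y hO _ (c.sE_mem e (tens_mem_sub v (orth_slow 𝔞 π π'
    (Submodule.starProjection_apply_mem (𝔞 ⊓ c.blk π') (mu c (c.off π π') v y)))))
  have h8 : c.Pw (c.off π π') y * c.Pw (c.off π π') y = c.Pw (c.off π π') y := vac_idem _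
  refine (Finset.sum_congr rfl fun a _ => h1 a).trans ?_
  rw [Finset.sum_add_distrib, ← Finset.smul_sum, ← Finset.smul_sum, ← Finset.sum_mul,
    ← Finset.sum_mul, ← Finset.mul_sum, ← Finset.mul_sum, ← map_sum, ← map_sum, h2, h4, map_zero,
    mul_zero, zero_mul, smul_zero, add_zero]
  congr 1
  change c.Pw (c.off π π') y * _ * c.Pw (c.off π π') y = _
  conv_lhs => rw [h5]
  rw [map_add, map_add, map_add, mul_add, add_mul, h6, h7, add_zero, mul_assoc, h8]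

theorem kap_term (h : c.S_lm1) (𝔞' : Submodule ℝ (Lg d)) {𝔴 : Submodule ℝ (Lg d)}
    {v : Fin 9 → ℝ} {χ : Tn 9 d → ℝ} {y : Tn 9 d} (hO : y ∈ c.Ow 𝔴 v)
    (hχ : ∀ᶠ X in 𝓝 y, χ X = 1) (e : Fin 16 → ℝ) :
    ∑ k, ((fderiv ℝ (c.kap 𝔴 v χ) y (onb (sub 9 𝔞') k) : ℝ) : ℂ) • c.θ (c.sE e (onb (sub 9 𝔞') k)) =
      ((-(c.kap 𝔴 v χ y / 2) : ℝ) : ℂ) • c.θ (c.sE e (tens v (𝔞'.starProjection (mu c 𝔴 v y)))) := by
  have h1 : c.kap 𝔴 v χ =ᶠ[𝓝 y] fun X => √(c.jw 𝔴 v X) := by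
    filter_upwards [hχ] with X hX
    rw [Ctx.kap, hX, one_mul]
  have h2 : ∀ k, fderiv ℝ (c.kap 𝔴 v χ) y k =
      -(c.kap 𝔴 v χ y / 2) * ⟪k, tens v (mu c 𝔴 v y)⟫ := by
    intro k
    rw [h1.fderiv_eq, h.d_j 𝔴 v y hO, h1.eq_of_nhds, real_inner_comm, inner_tens_left, mu,
      sum_inner, neg_mul, ← mul_neg, ← Finset.sum_neg_distrib]
    congr 1
    refine Finset.sum_congr rfl fun a _ => ?_
    rw [← c.inner_ad_cyc, c.ad_anti, inner_neg_left]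
  have h3 := sum_inner_onb_smul (sub 9 𝔞') (tens v (mu c 𝔴 v y))
  rw [sub_starProjection, kr_tens, Matrix.one_mulVec] at h3
  simp only [← h3, h2, map_sum, (c.sE e).map_smul, theta_smul, Finset.smul_sum, mul_smul,
    ofReal_mul]

theorem vanish (h : c.S_lm1) (h3 : c.S_lm3) (hT : c.Th π 𝔞) (hπ : π' ≤ π) {v : Fin 9 → ℝ}
    {χ : Tn 9 d → ℝ} {y : Tn 9 d} (hy : y ∈ sub 9 (c.cen π')) (hO : y ∈ c.Ow (c.off π π') v)
    (hχ : ∀ᶠ X in 𝓝 y, χ X = 1) (e : Fin 16 → ℝ) :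
    c.Pw (c.off π π') y * (N0 c (𝔞 ⊓ c.blk π') (c.off π π') v χ e y * c.Pw (c.off π π') y) = 0 := by
  have h8 : ∀ X, c.Pw (c.off π π') X * c.Pw (c.off π π') X = c.Pw (c.off π π') X :=
    fun X => vac_idem _
  have h0 : mPhi c (c.off π π') v e y = 0 := by
    rw [mPhi, qav_eq (exists_PhiQ c e).choose_spec, ← h3.w2a π π' v hπ y hy hO e]
    simp only [Ctx.Gg, one_smul]
  have e1 : ∀ k ∈ sub 9 (𝔞 ⊓ c.blk π'), ∀ z z' : ℂ, c.Pw (c.off π π') y * (c.θ (c.sE e k) *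
      (z • c.Pw (c.off π π') y + z' • fderiv ℝ (c.Pw (c.off π π')) y k)) * c.Pw (c.off π π') y =
      z • c.θ (c.sE e k) * c.Pw (c.off π π') y := by
    intro k hk z z'
    have h1 := h.P_comm _ v y hO _ (c.sE_mem e (sub_mono (orth_slow 𝔞 π π') hk))
    have h2 := proj_deriv h8 ((h.sm_P _ v y hO).differentiableAt (by simp)) k
    rw [← mul_assoc, h1, mul_assoc, mul_assoc, ← mul_assoc (c.Pw (c.off π π') y), mul_add, add_mul,
      mul_smul_comm, mul_smul_comm, smul_mul_assoc, smul_mul_assoc, h2, h8, h8, smul_zero, add_zero,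
      mul_smul_comm, smul_mul_assoc]
  have e2 : ∀ a, c.Pw (c.off π π') y * c.θ (c.sE e (tens v (onb (c.off π π') a))) *
      c.Pw (c.off π π') y = 0 := fun a =>
    h.P_odd _ v y hO _ (c.sE_mem e (tens_mem_sub v (onb_mem _ a)))
  have e3 := gauge_term h h3 hT hπ hy hO e
  have e4 := kap_term h (𝔞 ⊓ c.blk π') hO hχ e
  have e5 := fun k (z z' : ℂ) => e1 _ (onb_mem _ k) z z'
  rw [← mul_assoc, N0, h0, map_zero, zero_add, mul_sub, sub_mul, mul_smul_comm, ← mul_assoc, h8,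
    Finset.mul_sum, Finset.sum_mul]
  simp only [mul_smul_comm, smul_mul_assoc (-I), e5]
  rw [← Finset.smul_sum, ← Finset.sum_mul, e4]
  simp only [Finset.mul_sum, Finset.sum_mul, mul_add, add_mul, mul_smul_comm, smul_mul_assoc, e2,
    smul_zero, Finset.sum_const_zero, add_zero]
  rw [← Finset.smul_sum, e3]
  match_scalars
  ring

end Cen

end R2Aux

namespace Ctx

variable {N d : ℕ} {F : Type} [NormedAddCommGroup F] [InnerProductSpace ℂ F]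
  [FiniteDimensional ℂ F] (c : Ctx N d F)

theorem p_r2 (h_lm1 : c.S_lm1) (h_lm3 : c.S_lm3) : c.S_r2 := by
  intro π 𝔞 π' v χ hL hC e
  have hχ : ContDiff ℝ ∞ χ := hC.1.1
  refine ⟨fun X => R2Aux.N0 c (𝔞 ⊓ c.blk π') (c.off π π') v χ e X * c.Pw (c.off π π') X,
    fun X hX => ((R2Aux.cont_N0 h_lm1 _ hχ e hX).mul
      (h_lm1.sm_P _ v X hX).continuousAt).continuousWithinAt, fun g hg m X hX => ?_,
    fun y hy hO h1 => R2Aux.vanish h_lm1 h_lm3 hL.1 hL.2.1 (sub_mono inf_le_right hy) hO h1 e⟩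
  obtain ⟨h1, h2⟩ := R2Aux.avg_Rk h_lm1 (𝔞 ⊓ c.blk π') hχ e hg m hX
  exact ⟨h1, by rw [h2]⟩

end Ctx

end Vale.Agent.P353
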