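import Vale.Agent.P353.Stmts
import Vale.Agent.P353.Gau

/-! Auxiliary estimates for the error kernels. -/

noncomputable section

open MeasureTheory Filter Topology Complex Matrix Asymptotics
open scoped ContDiff RealInnerProductSpace

namespace Vale.Agent.P353

namespace RptAux

section General

variable {E : Type} [NormedAddCommGroup E] [InnerProductSpace ℝ E] [FiniteDimensional ℝ E]
  [MeasurableSpace E] [BorelSpace E]

theorem fderiv_zero {V : Type} [NormedAddCommGroup V] [NormedSpace ℝ V] {U : Submodule ℝ E}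
    {K : Set E} (hK : IsClosed K) {f : E → V} (hf : ∀ x ∈ U, x ∉ K → f x = 0) {x y : E}
    (hx : x ∈ U) (hxK : x ∉ K) (hy : y ∈ U) : fderiv ℝ f x y = 0 := by
  by_cases hd : DifferentiableAt ℝ f x
  · have h : ∀ᶠ z in 𝓝 x, z ∈ U → f z = (fun _ => (0 : V)) z := by
      filter_upwards [hK.isOpen_compl.mem_nhds hxK] with z hz hU using hf z hU hz
    rw [fderiv_congr_on hd (differentiableAt_const 0) hx hy h]
    simp
  · simp [fderiv_zero_of_not_differentiableAt hd]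

theorem dgauss (U : Submodule ℝ E) {a : ℝ} (ha : 0 < a) (M : ℝ) : ∃ K : ℝ, 0 ≤ K ∧
    ∀ (A : E → E →L[ℝ] E) (X : E), DifferentiableAt ℝ A X →
      (∀ w ∈ U, a * ‖w‖ ^ 2 ≤ ⟪w, A X w⟫) → ‖A X‖ ≤ M → ∀ g > 0, ∀ W y,
      |fderiv ℝ (fun Y => gauss U (g • A Y) W) X y| ≤
        ‖fderiv ℝ A X y‖ * ((K + g * ‖W‖ ^ 2) * gauss U (g • A X) W) := by
  obtain ⟨K, hK⟩ := gauss_moment U ha M 1
  refine ⟨|K|, abs_nonneg _, fun A X hA hp hM g hg W y => ?_⟩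
  have hga : 0 < g * a := mul_pos hg ha
  have hp' : ∀ w ∈ U, g * a * ‖w‖ ^ 2 ≤ ⟪w, (g • A X) w⟫ := fun w hw => by
    rw [_root_.smul_apply, real_inner_smul_right, mul_assoc]
    exact mul_le_mul_of_nonneg_left (hp w hw) hg.le
  set B := fderiv ℝ A X y with hB
  obtain ⟨h1, h2⟩ := fderiv_gauss_form hga hp' (g • B) W
  have h3 : HasFDerivAt (fun Y => g • A Y) (g • fderiv ℝ A X) X := hA.hasFDerivAt.const_smul g
  have h4 := (HasFDerivAt.comp X (g := fun A' : E →L[ℝ] E => gauss U A' W) h1.hasFDerivAt h3).fderiv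
  have h5 : fderiv ℝ (fun Y => gauss U (g • A Y) W) X y =
      fderiv ℝ (fun A' : E →L[ℝ] E => gauss U A' W) (g • A X) (g • B) := by
    rw [show (fun Y => gauss U (g • A Y) W) =
      (fun A' : E →L[ℝ] E => gauss U A' W) ∘ fun Y => g • A Y from rfl, h4]
    rfl
  have hb : ∀ x : E, |⟪x, (g • B) x⟫| ≤ ‖B‖ * (g * ‖x‖ ^ 2) := fun x => by
    rw [_root_.smul_apply, real_inner_smul_right, abs_mul, abs_of_pos hg]
    have := mul_le_mul_of_nonneg_left (GauAux.abs_inner_le x B) hg.le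
    linarith
  have h6 : |∫ z : U, gauss U (g • A X) z ^ 2 * ⟪(z : E), (g • B) z⟫| ≤ ‖B‖ * |K| := by
    have h7 := hK (A X) hp hM g hg
    have h8 : Integrable fun z : U => ‖B‖ * ((g * ‖(z : E)‖ ^ 2) ^ 1 * gauss U (g • A X) z ^ 2) := by
      refine (((integrable_gauss_sq hga hp' 2).const_mul g).const_mul ‖B‖).congr
        (Eventually.of_forall fun z => ?_)
      simp only [pow_one, mul_assoc]
    rw [← Real.norm_eq_abs]
    refine (norm_integral_le_of_norm_le h8 (Eventually.of_forall fun z => ?_)).trans ?_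
    · rw [norm_mul, Real.norm_of_nonneg (sq_nonneg _), Real.norm_eq_abs]
      have := mul_le_mul_of_nonneg_left (hb z) (sq_nonneg (gauss U (g • A X) z))
      rw [pow_one]
      linarith
    · rw [integral_const_mul]
      exact mul_le_mul_of_nonneg_left (h7.trans (le_abs_self K)) (norm_nonneg _)
  have hG := gauss_nonneg U (g • A X) W
  rw [h5, h2, abs_mul, abs_of_nonneg hG, abs_div, ← mul_assoc, abs_two]
  refine mul_le_mul_of_nonneg_right ?_ hG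
  have h9 := (abs_sub _ _).trans (add_le_add h6 (hb W))
  have h10 : 0 ≤ ‖B‖ * (|K| + g * ‖W‖ ^ 2) := by positivity
  linarith

omit [InnerProductSpace ℝ E] [FiniteDimensional ℝ E] [MeasurableSpace E] [BorelSpace E] in
theorem bigO_K {T V : Type} [NormedAddCommGroup V] {K : Set E} (hK : IsCompact K) {X : T → E}
    (hX : ∀ t, X t ∈ K) {f : E → V} (hf : ∀ x ∈ K, ContinuousAt f x) :
    (fun t => f (X t)) =O[⊤] fun _ => (1 : ℝ) := by
  obtain ⟨C, hC⟩ := hK.exists_bound_of_continuousOn fun x hx => (hf x hx).continuousWithinAt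
  exact IsBigO.of_bound C (Eventually.of_forall fun t => by simpa using hC _ (hX t))

end General

variable {N d : ℕ} {F : Type} [NormedAddCommGroup F] [InnerProductSpace ℂ F]
  [FiniteDimensional ℂ F] (c : Ctx N d F)

theorem norm_Phi (α : Fin 16) (x : Tn 9 d) : ‖c.Phi (eb α) x‖ ≤ 51 * ‖x‖ ^ 2 := by
  have h1 : c.Fsq x ≤ ∑ _i : Fin 9, ∑ _j : Fin 9, (2 * ‖x‖ * ‖x‖) ^ 2 := by
    refine Finset.sum_le_sum fun i _ => Finset.sum_le_sum fun j _ => ?_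
    have h2 := c.norm_ad_le (cmp i x) (cmp j x)
    have h3 := norm_cmp_le i x
    have h4 := norm_cmp_le j x
    gcongr
    refine h2.trans ?_
    gcongr
  simp only [Finset.sum_const, Finset.card_univ, Fintype.card_fin, nsmul_eq_mul] at h1
  refine (pow_le_pow_iff_left₀ (norm_nonneg _) (by positivity) two_ne_zero).1 ?_
  have h5 := c.norm_Phi_le α x
  have h6 : 0 ≤ ‖x‖ ^ 4 := by positivity
  push_cast at h1
  nlinarith

theorem norm_Pw (𝔴 : Submodule ℝ (Lg d)) (X : Tn 9 d) : ‖c.Pw 𝔴 X‖ ≤ 1 :=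
  ContinuousLinearMap.opNorm_le_bound _ zero_le_one fun x => by
    rw [one_mul]; exact norm_vac_le _ x

theorem sm_h (h : c.S_lm1) {𝔴 : Submodule ℝ (Lg d)} {v : Fin 9 → ℝ} {χ : Tn 9 d → ℝ}
    (hχ : ContDiff ℝ ∞ χ) {X : Tn 9 d} (hX : X ∈ c.Ow 𝔴 v) :
    ContDiffAt ℝ ∞ (fun Y => (c.kap 𝔴 v χ Y : ℂ) • c.Pw 𝔴 Y) X :=
  (Complex.ofRealCLM.contDiff.contDiffAt.comp X (hχ.contDiffAt.mul (h.sm_j 𝔴 v X hX))).smul
    (h.sm_P 𝔴 v X hX)

theorem kG_eq (𝔴 : Submodule ℝ (Lg d)) (v : Fin 9 → ℝ) (χ : Tn 9 d → ℝ) (g : ℝ) (Y W : Tn 9 d) :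
    ((c.kap 𝔴 v χ Y * c.Gg 𝔴 v g Y W : ℝ) : ℂ) • c.Pw 𝔴 Y =
      (c.Gg 𝔴 v g Y W : ℂ) • (c.kap 𝔴 v χ Y : ℂ) • c.Pw 𝔴 Y := by
  rw [smul_smul, Complex.ofReal_mul, mul_comm]

theorem fderiv_kG (h : c.S_lm1) {𝔴 : Submodule ℝ (Lg d)} {v : Fin 9 → ℝ} {χ : Tn 9 d → ℝ}
    (hχ : ContDiff ℝ ∞ χ) {g : ℝ} (hg : 0 < g) {X : Tn 9 d} (hX : X ∈ c.Ow 𝔴 v) (W y : Tn 9 d) :
    fderiv ℝ (fun Y => ((c.kap 𝔴 v χ Y * c.Gg 𝔴 v g Y W : ℝ) : ℂ) • c.Pw 𝔴 Y) X y =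
      (c.Gg 𝔴 v g X W : ℂ) • fderiv ℝ (fun Y => (c.kap 𝔴 v χ Y : ℂ) • c.Pw 𝔴 Y) X y +
        ((fderiv ℝ (fun Y => c.Gg 𝔴 v g Y W) X y : ℝ) : ℂ) • (c.kap 𝔴 v χ X : ℂ) • c.Pw 𝔴 X := by
  have h1 : DifferentiableAt ℝ (fun Y => c.Gg 𝔴 v g Y W) X := by
    simpa only [Function.comp_def] using DifferentiableAt.comp X (f := fun Y => (Y, W))
      ((h.sm_G 𝔴 v g hg X hX W).differentiableAt (by simp)) (by fun_prop)
  have h2 := Complex.ofRealCLM.hasFDerivAt.comp X h1.hasFDerivAt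
  have h3 := h2.smul ((sm_h c h hχ hX).differentiableAt (by simp)).hasFDerivAt
  simp only [kG_eq]
  erw [h3.fderiv]
  simp

theorem cont_zet (h : c.S_lm1) {𝔴 : Submodule ℝ (Lg d)} {v : Fin 9 → ℝ} {X : Tn 9 d}
    (hX : X ∈ c.Ow 𝔴 v) (η : Lg d) : ContinuousAt (fun Y => c.zet 𝔴 v Y η) X :=
  (h.sm_ainv 𝔴 v X hX).continuousAt.clm_apply continuousAt_const

theorem cont_fd (h : c.S_lm1) {𝔴 : Submodule ℝ (Lg d)} {v : Fin 9 → ℝ}
    {χ : Tn 9 d → ℝ} (hχ : ContDiff ℝ ∞ χ) {g : ℝ} (hg : 0 < g)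
    {X : Tn 9 d} (hX : X ∈ c.Ow 𝔴 v) (W : Tn 9 d) :
    ContinuousAt (fun p : Tn 9 d × Tn 9 d => fderiv ℝ (fun Y =>
      ((c.kap 𝔴 v χ Y * c.Gg 𝔴 v g Y p.2 : ℝ) : ℂ) • c.Pw 𝔴 Y) p.1) (X, W) := by
  have hG := h.sm_G 𝔴 v g hg X hX W
  have h0 := sm_h c h hχ hX
  simp only [kG_eq]
  generalize c.Gg 𝔴 v g = G at hG
  set H := fun Y => (c.kap 𝔴 v χ Y : ℂ) • c.Pw 𝔴 Y
  have h2 : ContDiffAt ℝ ∞ (fun q : (Tn 9 d × Tn 9 d) × Tn 9 d => G q.2 q.1.2) ((X, W), X) :=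
    ContDiffAt.comp ((X, W), X) (f := fun q : (Tn 9 d × Tn 9 d) × Tn 9 d => (q.2, q.1.2)) hG
      (by fun_prop)
  have h3 := ContDiffAt.comp ((X, W), X) (f := fun q : (Tn 9 d × Tn 9 d) × Tn 9 d => q.2)
    h0 contDiffAt_snd
  have h4 := (Complex.ofRealCLM.contDiff.contDiffAt.comp _ h2).smul h3
  exact (ContDiffAt.fderiv (m := 0) (g := Prod.fst) (x₀ := (X, W))
    (f := fun (p : Tn 9 d × Tn 9 d) (Y : Tn 9 d) => (G Y p.2 : ℂ) • H Y) h4 contDiffAt_fst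
    (by simp)).continuousAt

theorem cont_aux {T ι κ : Type} [TopologicalSpace T] [Fintype ι] [Fintype κ] {t : T}
    {D : T → Tn 9 d →L[ℝ] F →L[ℂ] F} {r : T → ℝ} {P : T → F →L[ℂ] F}
    {A : T → Tn 9 d →L[ℝ] Tn 9 d} {ζ : κ → T → Lg d} {X W : T → Tn 9 d}
    (hD : ContinuousAt D t) (hr : ContinuousAt r t) (hP : ContinuousAt P t)
    (hA : ContinuousAt A t) (hζ : ∀ a, ContinuousAt (ζ a) t) (hX : ContinuousAt X t)
    (hW : ContinuousAt W t) (g m : ℝ) (e : Fin 16 → ℝ) (k : ι → Tn 9 d) (u : κ → Tn 9 d) :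
    ContinuousAt (fun p => ∑ i, (-I) • (c.θ (c.sE e (k i)) * D p (k i)) - (r p : ℂ) • (P p *
      ((g : ℂ) • ((-I) • c.θ (c.sE e (A p (W p))) + c.θ (c.Phi e (X p + W p) - c.Phi e (X p))) +
        (m : ℂ) • c.θ (c.Km e (W p)) +
        ∑ a, (-I) • (c.θ (c.sE e (u a)) * c.Gs (ζ a p)) +
        ∑ a, (I * ((g * ⟪c.vf (ζ a p) (W p), A p (W p)⟫ : ℝ) : ℂ)) • c.θ (c.sE e (u a))))) t := by
  obtain ⟨L1, hL1⟩ := c.exists_GsL
  obtain ⟨L2, hL2⟩ := c.exists_vfL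
  have h10 := (c.contDiff_Phi e).continuous
  have cs : ∀ {ι : Type} [Fintype ι] {f : ι → T → F →L[ℂ] F},
      (∀ i, ContinuousAt (f i) t) → ContinuousAt (fun p => ∑ i, f i p) t := fun hf =>
    tendsto_finsetSum _ fun i _ => hf i
  simp only [← hL1, ← hL2]
  have h1 : ContinuousAt (fun p => ∑ i, (-I) • (c.θ (c.sE e (k i)) * D p (k i))) t :=
    cs fun i => by fun_prop
  have h2 : ContinuousAt (fun p => ∑ a, (-I) • (c.θ (c.sE e (u a)) * L1 (ζ a p))) t :=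
    cs fun a => by have := hζ a; fun_prop
  have h3 : ContinuousAt (fun p => ∑ a, (I * ((g * ⟪L2 (ζ a p) (W p), A p (W p)⟫ : ℝ) : ℂ)) •
      c.θ (c.sE e (u a))) t := cs fun a => by have := hζ a; fun_prop
  have h4 : ContinuousAt (fun p => (g : ℂ) • ((-I) • c.θ (c.sE e (A p (W p))) +
      c.θ (c.Phi e (X p + W p) - c.Phi e (X p))) + (m : ℂ) • c.θ (c.Km e (W p))) t := by fun_prop
  have h5 : ContinuousAt (fun p => (r p : ℂ)) t := by fun_prop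
  exact h1.sub (h5.smul (hP.mul ((h4.add h2).add h3)))

theorem cont_Rk (h : c.S_lm1) (𝔞' : Submodule ℝ (Lg d)) {𝔴 : Submodule ℝ (Lg d)} {v : Fin 9 → ℝ}
    {χ : Tn 9 d → ℝ} (hχ : ContDiff ℝ ∞ χ) {g : ℝ} (hg : 0 < g) (m : ℝ) (e : Fin 16 → ℝ)
    {X : Tn 9 d} (hX : X ∈ c.Ow 𝔴 v) (W : Tn 9 d) :
    ContinuousAt (fun p : Tn 9 d × Tn 9 d => c.Rk 𝔞' 𝔴 v χ g m e p.1 p.2) (X, W) := by
  have fs : ∀ {V : Type} [TopologicalSpace V] {f : Tn 9 d → V}, ContinuousAt f X →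
      ContinuousAt (fun p : Tn 9 d × Tn 9 d => f p.1) (X, W) := fun hf =>
    ContinuousAt.comp (x := (X, W)) (f := Prod.fst) hf continuousAt_fst
  have h6 := fs (hχ.contDiffAt.mul (h.sm_j 𝔴 v X hX)).continuousAt
  exact cont_aux c (cont_fd c h hχ hg hX W) (h6.mul (h.sm_G 𝔴 v g hg X hX W).continuousAt)
    (fs (h.sm_P 𝔴 v X hX).continuousAt) (fs (h.sm_A 𝔴 v X hX).continuousAt)
    (fun a => fs (cont_zet c h hX (onb 𝔴 a))) continuousAt_fst continuousAt_snd g m e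
    (onb (sub 9 𝔞')) fun a => tens v (onb 𝔴 a)

end RptAux

end Vale.Agent.P353
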