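import Vale.Agent.P353.Stmts
import Vale.Agent.P353.Gau
import Vale.Agent.P353.RptAux

/-! Pointwise bounds for the error kernels. -/

noncomputable section

open MeasureTheory Filter Topology Complex Matrix Asymptotics
open scoped ContDiff RealInnerProductSpace

namespace Vale.Agent.P353

namespace RptAux

variable {N d : ℕ} {F : Type} [NormedAddCommGroup F] [InnerProductSpace ℂ F]
  [FiniteDimensional ℂ F] (c : Ctx N d F)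

theorem bigO_aux {T ι κ : Type} [Fintype ι] [Fintype κ] {g m G r ρ : T → ℝ}
    {D : ι → T → F →L[ℂ] F} {P B : T → F →L[ℂ] F}
    {A : T → Tn 9 d →L[ℝ] Tn 9 d} {ζ : κ → T → Lg d} {W : T → Tn 9 d}
    (hD : ∀ i, D i =O[⊤] fun t => G t * ρ t) (hr : r =O[⊤] fun _ => (1 : ℝ))
    (hP : P =O[⊤] fun _ => (1 : ℝ)) (hA : A =O[⊤] fun _ => (1 : ℝ))
    (hζ : ∀ a, ζ a =O[⊤] fun _ => (1 : ℝ)) (hm : m =O[⊤] fun _ => (1 : ℝ))
    (h1 : (fun _ => (1 : ℝ)) =O[⊤] ρ) (h2 : (fun t => g t * ‖W t‖ ^ 2) =O[⊤] ρ) (h3 : W =O[⊤] ρ)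
    (hB : (fun t => P t * B t) =O[⊤] ρ) (e : Fin 16 → ℝ) (k : ι → Tn 9 d) (u : κ → Tn 9 d) :
    (fun t => ∑ i, (-I) • (c.θ (c.sE e (k i)) * D i t) - ((r t * G t : ℝ) : ℂ) • (P t *
      (B t + (m t : ℂ) • c.θ (c.Km e (W t)) +
        ∑ a, (-I) • (c.θ (c.sE e (u a)) * c.Gs (ζ a t)) +
        ∑ a, (I * ((g t * ⟪c.vf (ζ a t) (W t), A t (W t)⟫ : ℝ) : ℂ)) • c.θ (c.sE e (u a)))))
      =O[⊤] fun t => G t * ρ t := by
  obtain ⟨L1, hL1⟩ := c.exists_GsL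
  have a1 : (fun t => ∑ i, (-I) • (c.θ (c.sE e (k i)) * D i t)) =O[⊤] fun t => G t * ρ t :=
    IsBigO.fun_sum fun i _ => ((hD i).const_mul_left _).const_smul_left (-I)
  have a2 : (fun t => (m t : ℂ) • c.θ (c.Km e (W t))) =O[⊤] ρ := by
    simpa only [one_smul] using (isBigO_ofReal_left.2 hm).smul
      (((c.θ.isBigO_comp _ ⊤).trans ((c.Km e).isBigO_comp W ⊤)).trans h3)
  have a3 : (fun t => ∑ a, (-I) • (c.θ (c.sE e (u a)) * c.Gs (ζ a t))) =O[⊤] ρ := by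
    simp only [← hL1]
    exact IsBigO.fun_sum fun a _ =>
      (((((L1.isBigO_comp _ ⊤).trans (hζ a)).trans h1).const_mul_left _).const_smul_left (-I))
  have a4 : (fun t => ∑ a, (I * ((g t * ⟪c.vf (ζ a t) (W t), A t (W t)⟫ : ℝ) : ℂ)) •
      c.θ (c.sE e (u a))) =O[⊤] ρ := by
    refine IsBigO.fun_sum fun a _ => ?_
    have b1 : (fun t => g t * ⟪c.vf (ζ a t) (W t), A t (W t)⟫) =O[⊤]
        fun t => ‖ζ a t‖ * ‖A t‖ * (g t * ‖W t‖ ^ 2) := by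
      refine IsBigO.of_bound 2 (Eventually.of_forall fun t => ?_)
      have b2 := (norm_inner_le_norm (𝕜 := ℝ) (c.vf (ζ a t) (W t)) (A t (W t))).trans
        (mul_le_mul (c.norm_vf_le _ _) ((A t).le_opNorm _) (norm_nonneg _) (by positivity))
      have b3 := mul_le_mul_of_nonneg_left b2 (norm_nonneg (g t))
      simp only [norm_mul, norm_norm, norm_pow]
      linarith
    have b4 := b1.trans (by simpa only [one_mul] using ((hζ a).norm_left.mul hA.norm_left).mul h2)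
    simpa only [smul_eq_mul, mul_one] using ((isBigO_ofReal_left.2 b4).const_mul_left I).smul
      (isBigO_const_const (c.θ (c.sE e (u a))) (one_ne_zero (α := ℝ)) ⊤)
  have a5 : (fun t => P t * (B t + (m t : ℂ) • c.θ (c.Km e (W t)) +
      ∑ a, (-I) • (c.θ (c.sE e (u a)) * c.Gs (ζ a t)) +
      ∑ a, (I * ((g t * ⟪c.vf (ζ a t) (W t), A t (W t)⟫ : ℝ) : ℂ)) • c.θ (c.sE e (u a)))) =O[⊤]
      ρ := by
    have b5 := hP.mul ((a2.add a3).add a4)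
    simp only [one_mul] at b5
    refine (hB.add b5).congr_left fun t => ?_
    simp only [mul_add, add_assoc]
  have a6 : (fun t => r t * G t) =O[⊤] G := by
    simpa only [one_mul] using hr.mul (isBigO_refl G ⊤)
  exact a1.sub ((isBigO_ofReal_left.2 a6).smul a5)

theorem norm_PB (h : c.S_lm1) {𝔴 : Submodule ℝ (Lg d)} {v : Fin 9 → ℝ} {X : Tn 9 d}
    (hX : X ∈ c.Ow 𝔴 v) (α : Fin 16) (W : Tn 9 d) {g b : ℝ} (hg : 0 ≤ g)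
    (hb : ‖fderiv ℝ (c.Phi (eb α)) X W + c.Jw 𝔴 X (c.sE (eb α) (c.Aw 𝔴 X W))‖ ≤ b) :
    ‖c.Pw 𝔴 X * ((g : ℂ) • ((-I) • c.θ (c.sE (eb α) (c.Aw 𝔴 X W)) +
      c.θ (c.Phi (eb α) (X + W) - c.Phi (eb α) X)))‖ ≤ g * (b + 51 * ‖W‖ ^ 2) := by
  have h1 := h.P_ann 𝔴 v X hX _ (c.sE_mem (eb α) (h.A_mem 𝔴 v X hX W).1)
  rw [mul_sub, sub_eq_zero] at h1
  have h2 : c.Pw 𝔴 X * ((-I) • c.θ (c.sE (eb α) (c.Aw 𝔴 X W)) +
      c.θ (c.Phi (eb α) (X + W) - c.Phi (eb α) X)) = c.Pw 𝔴 X * c.θ ((fderiv ℝ (c.Phi (eb α)) X W +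
        c.Jw 𝔴 X (c.sE (eb α) (c.Aw 𝔴 X W))) + c.Phi (eb α) W) := by
    rw [mul_add, h1, ← mul_add, ← map_add, c.Phi_add]
    congr 2
    abel
  rw [mul_smul_comm, h2, norm_smul, Complex.norm_real, Real.norm_of_nonneg hg]
  refine mul_le_mul_of_nonneg_left ((norm_mul_le _ _).trans ?_) hg
  refine (mul_le_of_le_one_left (norm_nonneg _) (norm_Pw c 𝔴 X)).trans ((c.car.norm_le _).trans ?_)
  exact (norm_add_le _ _).trans (add_le_add hb (norm_Phi c α W))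

theorem bigO_Rk (h : c.S_lm1) (𝔞' : Submodule ℝ (Lg d)) {𝔴 : Submodule ℝ (Lg d)} {v : Fin 9 → ℝ}
    {χ : Tn 9 d → ℝ} (hχ : ContDiff ℝ ∞ χ) {K : Set (Tn 9 d)} (hK : IsCompact K)
    (hO : K ⊆ c.Ow 𝔴 v) (α : Fin 16) {M : ℝ} (hM : ∀ X ∈ K, ∀ W ∈ sub 9 𝔴,
      ‖fderiv ℝ (c.Phi (eb α)) X W + c.Jw 𝔴 X (c.sE (eb α) (c.Aw 𝔴 X W))‖ ≤ M * √(c.Fsq X) * ‖W‖)
    {T : Type} {g m : T → ℝ} {X W : T → Tn 9 d} (hg : ∀ t, 1 ≤ g t) (hm : ∀ t, |m t| ≤ 1)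
    (hX : ∀ t, X t ∈ K) (hW : ∀ t, W t ∈ Wsl 𝔴 v) :
    (fun t => c.Rk 𝔞' 𝔴 v χ (g t) (m t) (eb α) (X t) (W t)) =O[⊤] fun t =>
      c.Gg 𝔴 v (g t) (X t) (W t) * (1 + g t * ‖W t‖ ^ 2 + g t * √(c.Fsq (X t)) * ‖W t‖) := by
  have g0 : ∀ t, 0 < g t := fun t => one_pos.trans_le (hg t)
  set ρ := fun t => 1 + g t * ‖W t‖ ^ 2 + g t * √(c.Fsq (X t)) * ‖W t‖ with hρ
  have p1 : ∀ t, 0 ≤ g t * ‖W t‖ ^ 2 := fun t => by have := g0 t; positivity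
  have p2 : ∀ t, 0 ≤ g t * √(c.Fsq (X t)) * ‖W t‖ := fun t => by have := g0 t; positivity
  have h1 : (fun _ => (1 : ℝ)) =O[⊤] ρ := IsBigO.of_norm_le fun t => by
    simp only [hρ, norm_one]; linarith [p1 t, p2 t]
  have h2 : (fun t => g t * ‖W t‖ ^ 2) =O[⊤] ρ := IsBigO.of_norm_le fun t => by
    simp only [hρ, Real.norm_of_nonneg (p1 t)]; linarith [p2 t]
  have h2' : (fun t => g t * √(c.Fsq (X t)) * ‖W t‖) =O[⊤] ρ := IsBigO.of_norm_le fun t => by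
    simp only [hρ, Real.norm_of_nonneg (p2 t)]; linarith [p1 t]
  have h3 : W =O[⊤] ρ := IsBigO.of_norm_le fun t => by
    have := mul_le_mul_of_nonneg_right (hg t) (sq_nonneg ‖W t‖)
    simp only [hρ]; nlinarith [p2 t, sq_nonneg (‖W t‖ - 1)]
  have bK := fun {V : Type} [NormedAddCommGroup V] {f : Tn 9 d → V} =>
    bigO_K (V := V) hK hX (f := f)
  refine bigO_aux c (D := fun k t => fderiv ℝ (fun Y => ((c.kap 𝔴 v χ Y * c.Gg 𝔴 v (g t) Y (W t) :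
      ℝ) : ℂ) • c.Pw 𝔴 Y) (X t) (onb (sub 9 𝔞') k)) (fun k => ?_)
    (bK fun x hx => (hχ.contDiffAt.mul (h.sm_j 𝔴 v x (hO hx))).continuousAt)
    (bK fun x hx => (h.sm_P 𝔴 v x (hO hx)).continuousAt)
    (bK fun x hx => (h.sm_A 𝔴 v x (hO hx)).continuousAt)
    (fun a => bK fun x hx => cont_zet c h (hO hx) (onb 𝔴 a))
    (IsBigO.of_norm_le fun t => hm t) h1 h2 h3 ?_ (eb α) (onb (sub 9 𝔞'))
    fun a => tens v (onb 𝔴 a)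
  · obtain ⟨a, ha, M', hM'⟩ := h.A_unif 𝔴 v K hK hO
    obtain ⟨C, hC0, hC⟩ := dgauss (Wsl 𝔴 v) ha M'
    set y := onb (sub 9 𝔞') k
    have b1 : (fun t => fderiv ℝ (fun Y => c.Gg 𝔴 v (g t) Y (W t)) (X t) y) =O[⊤] fun t =>
        ‖fderiv ℝ (c.Aw 𝔴) (X t) y‖ * ((C + g t * ‖W t‖ ^ 2) * c.Gg 𝔴 v (g t) (X t) (W t)) :=
      IsBigO.of_norm_le fun t => hC _ _ ((h.sm_A 𝔴 v _ (hO (hX t))).differentiableAt (by simp))
        (hM' _ (hX t)).2 (hM' _ (hX t)).1 _ (g0 t) _ _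
    have b2 := bK (f := fun x => fderiv ℝ (c.Aw 𝔴) x y) fun x hx =>
      ((h.sm_A 𝔴 v x (hO hx)).continuousAt_fderiv (by simp)).clm_apply continuousAt_const
    have b3 : (fun t => C + g t * ‖W t‖ ^ 2) =O[⊤] ρ :=
      ((isBigO_const_const C one_ne_zero ⊤).trans h1).add h2
    have b4 := b1.trans (b2.norm_left.mul (b3.mul (isBigO_refl _ ⊤)))
    have b5 := (isBigO_ofReal_left.2 b4).smul (bK fun x hx => (sm_h c h hχ (hO hx)).continuousAt)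
    have b6 := (isBigO_ofReal_left.2 (isBigO_refl (fun t => c.Gg 𝔴 v (g t) (X t) (W t)) ⊤)).smul
      ((bK (f := fun x => fderiv ℝ (fun Y => (c.kap 𝔴 v χ Y : ℂ) • c.Pw 𝔴 Y) x y) fun x hx =>
        ((sm_h c h hχ (hO hx)).continuousAt_fderiv (by simp)).clm_apply continuousAt_const).trans h1)
    refine (b6.add (b5.congr_right fun t => ?_)).congr_left fun t =>
      (fderiv_kG c h hχ (g0 t) (hO (hX t)) _ _).symm
    simp only [smul_eq_mul, one_mul, mul_comm]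
  · refine IsBigO.trans (IsBigO.of_norm_le fun t => ?_)
      ((h2'.const_mul_left M).add (h2.const_mul_left 51))
    refine (norm_PB c h (hO (hX t)) α (W t) (g0 t).le (hM _ (hX t) _ (hW t).1)).trans_eq ?_
    ring

theorem Rk_zero (𝔞' : Submodule ℝ (Lg d)) (𝔴 : Submodule ℝ (Lg d)) (v : Fin 9 → ℝ)
    {χ : Tn 9 d → ℝ} {K : Set (Tn 9 d)} (hK : IsClosed K) (h0 : ∀ x ∈ sub 9 𝔞', x ∉ K → χ x = 0)
    (g m : ℝ) (e : Fin 16 → ℝ) {X : Tn 9 d} (hX : X ∈ sub 9 𝔞') (hXK : X ∉ K) (W : Tn 9 d) :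
    c.Rk 𝔞' 𝔴 v χ g m e X W = 0 := by
  have h1 : ∀ x ∈ sub 9 𝔞', x ∉ K → c.kap 𝔴 v χ x = 0 := fun x hx hxK => by
    rw [Ctx.kap, h0 x hx hxK, zero_mul]
  have h2 : ∀ k, fderiv ℝ (fun Y => ((c.kap 𝔴 v χ Y * c.Gg 𝔴 v g Y W : ℝ) : ℂ) • c.Pw 𝔴 Y) X
      (onb (sub 9 𝔞') k) = 0 := fun k =>
    fderiv_zero hK (fun x hx hxK => by simp [h1 x hx hxK]) hX hXK (onb_mem _ k)
  rw [Ctx.Rk]
  simp only [h2, h1 X hX hXK]
  simp

theorem norm_Rd {𝔞 𝔞' : Submodule ℝ (Lg d)} (ha : 𝔞' ≤ 𝔞) (𝔴 : Submodule ℝ (Lg d))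
    (v : Fin 9 → ℝ) {χ : Tn 9 d → ℝ} (g : ℝ) (e : Fin 16 → ℝ) (ψ : Tn 9 d → F) {X : Tn 9 d}
    (hχ : 0 ≤ χ X) (W : Tn 9 d) :
    ‖c.Rd 𝔞' 𝔴 v χ g e ψ X W‖ ≤ (∑ a, √(c.jw 𝔴 v X) * (‖c.sE e (tens v (onb 𝔴 a))‖ *
      (2 * ‖c.zet 𝔴 v X (onb 𝔴 a)‖))) * χ X * c.Gg 𝔴 v g X W * ‖W‖ *
        √(gsq (sub 9 𝔞) ψ (X + W)) := by
  have hG : 0 ≤ c.Gg 𝔴 v g X W := gauss_nonneg _ _ _
  simp only [Finset.sum_mul]
  refine (norm_sum_le _ _).trans (Finset.sum_le_sum fun a _ => ?_)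
  set y := (sub 9 𝔞').starProjection (c.vf (c.zet 𝔴 v X (onb 𝔴 a)) W)
  have h1 : ‖y‖ ≤ 2 * ‖c.zet 𝔴 v X (onb 𝔴 a)‖ * ‖W‖ :=
    (Submodule.norm_starProjection_apply_le _ _).trans (c.norm_vf_le _ _)
  have h2 : ‖fderiv ℝ ψ (X + W) y‖ ≤ ‖y‖ * √(gsq (sub 9 𝔞) ψ (X + W)) := by
    rw [← Real.sqrt_sq (norm_nonneg y), ← Real.sqrt_mul (sq_nonneg _)]
    exact Real.le_sqrt_of_sq_le
      (norm_fderiv_sq_le ψ _ (sub_mono ha (Submodule.starProjection_apply_mem _ _)))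
  have h3 : ‖c.Pw 𝔴 X (c.θ (c.sE e (tens v (onb 𝔴 a))) (fderiv ℝ ψ (X + W) y))‖ ≤
      ‖c.sE e (tens v (onb 𝔴 a))‖ *
        (2 * ‖c.zet 𝔴 v X (onb 𝔴 a)‖ * ‖W‖ * √(gsq (sub 9 𝔞) ψ (X + W))) := by
    refine (norm_vac_le _ _).trans ((ContinuousLinearMap.le_opNorm _ _).trans ?_)
    exact mul_le_mul (c.car.norm_le _)
      (h2.trans (mul_le_mul_of_nonneg_right h1 (Real.sqrt_nonneg _))) (norm_nonneg _)
      (norm_nonneg _)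
  have h4 : 0 ≤ c.kap 𝔴 v χ X * c.Gg 𝔴 v g X W :=
    mul_nonneg (mul_nonneg hχ (Real.sqrt_nonneg _)) hG
  rw [norm_smul, norm_mul, norm_neg, Complex.norm_I, one_mul, Complex.norm_real,
    Real.norm_of_nonneg h4]
  refine (mul_le_mul_of_nonneg_left h3 h4).trans_eq ?_
  rw [Ctx.kap]
  ring

end RptAux

namespace Ctx

variable {N d : ℕ} {F : Type} [NormedAddCommGroup F] [InnerProductSpace ℂ F]
  [FiniteDimensional ℂ F] (c : Ctx N d F)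

open RptAux in
theorem p_rpt (h_lm1 : c.S_lm1) (h_lm2 : c.S_lm2) : c.S_rpt := by
  rintro π 𝔞 π' v χ ⟨-, hπ, hv⟩ ⟨⟨hχ, K, hK, hO, hS, h0⟩, hχ1⟩
  refine ⟨K, hK, hO, hS, h0, ?_⟩
  obtain ⟨b, -, M, -, hM⟩ := h_lm2 π π' v hπ hv K hK hO fun X hX => sub_mono inf_le_right (hS hX)
  set 𝔴 := c.off π π'
  set 𝔞' := 𝔞 ⊓ c.blk π'
  have h1 := fun α => isBigO_top.1 (bigO_Rk c h_lm1 𝔞' hχ hK hO α
    (fun X hX W hW => ((hM X hX).1 α W hW).2)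
    (T := {p : (ℝ × ℝ) × Tn 9 d × Tn 9 d // (1 ≤ p.1.1 ∧ |p.1.2| ≤ 1) ∧ p.2.1 ∈ K ∧ p.2.2 ∈ Wsl 𝔴 v})
    (g := fun t => t.1.1.1) (m := fun t => t.1.1.2) (X := fun t => t.1.2.1) (W := fun t => t.1.2.2)
    (fun t => t.2.1.1) (fun t => t.2.1.2) (fun t => t.2.2.1) fun t => t.2.2.2)
  choose C hC using h1
  have h2 : ∀ α, ∃ C', ∀ X ∈ K, ‖∑ a, √(c.jw 𝔴 v X) * (‖c.sE (eb α) (tens v (onb 𝔴 a))‖ *
      (2 * ‖c.zet 𝔴 v X (onb 𝔴 a)‖))‖ ≤ C' := fun α =>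
    hK.exists_bound_of_continuousOn (continuousOn_finsetSum _ fun a _ X hX =>
      ((h_lm1.sm_j 𝔴 v X (hO hX)).continuousAt.mul (continuousAt_const.mul (continuousAt_const.mul
        (cont_zet c h_lm1 (hO hX) _).norm))).continuousWithinAt)
  choose C' hC' using h2
  have h3 : ∀ α, |C α| + |C' α| ≤ ∑ β, (|C β| + |C' β|) := fun α =>
    Finset.single_le_sum (f := fun β => |C β| + |C' β|) (fun β _ => by positivity)
      (Finset.mem_univ α)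
  refine ⟨∑ β, (|C β| + |C' β|), by positivity, fun g hg m hm α X hX W hW => ?_⟩
  have g0 : 0 < g := one_pos.trans_le hg
  have hG : 0 ≤ c.Gg 𝔴 v g X W := gauss_nonneg _ _ _
  have hz := fun hXK => Rk_zero c 𝔞' 𝔴 v hK.isClosed h0 g m (eb α) hX hXK W
  refine ⟨hz, ?_, fun hXK => cont_Rk c h_lm1 𝔞' hχ g0 m _ (hO hXK) W, fun ψ => ?_⟩
  · by_cases hXK : X ∈ K
    · have h4 := hC α ⟨((g, m), X, W), ⟨hg, hm⟩, hXK, hW⟩
      have h5 : 0 ≤ c.Gg 𝔴 v g X W * (1 + g * ‖W‖ ^ 2 + g * √(c.Fsq X) * ‖W‖) := by positivity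
      rw [Real.norm_of_nonneg h5] at h4
      rw [mul_assoc]
      refine h4.trans (mul_le_mul_of_nonneg_right ?_ h5)
      linarith [le_abs_self (C α), abs_nonneg (C' α), h3 α]
    · rw [hz hXK, norm_zero]
      positivity
  · refine (norm_Rd c (inf_le_left : 𝔞' ≤ 𝔞) 𝔴 v g (eb α) ψ (hχ1 X).1 W).trans ?_
    by_cases hXK : X ∈ K
    · have h6 := (hχ1 X).1
      gcongr
      linarith [le_abs_self (C' α), abs_nonneg (C α), h3 α, (le_abs_self _).trans (hC' α X hXK)]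
    · simp [h0 X hX hXK]

end Ctx

end Vale.Agent.P353
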