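import Vale.Agent.P353.RsAux2

/-! Removable singularities of codimension six. -/

noncomputable section

open MeasureTheory Filter Topology Complex Matrix
open scoped ContDiff RealInnerProductSpace

namespace Vale.Agent.P353

variable {E : Type} [NormedAddCommGroup E] [InnerProductSpace ℝ E] [FiniteDimensional ℝ E]
  [MeasurableSpace E] [BorelSpace E]

/-- real linearity on a class of test functions -/
def LinR (C : Submodule ℝ E) (Z : Set E) (L : (E → ℝ) → ℂ) : Prop :=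
  ∀ η η', SmR C η Z → SmR C η' Z → ∀ t : ℝ, L (fun x => η x + t * η' x) = L η + t * L η'

namespace RsAux

variable {C K : Submodule ℝ E} {O : Set E}

omit [FiniteDimensional ℝ E] [MeasurableSpace E] [BorelSpace E] in
theorem D_add {f g : E → ℝ} (hf : ContDiff ℝ ∞ f) (hg : ContDiff ℝ ∞ g) (v : E) :
    (fun y => fderiv ℝ (fun x => f x + g x) y v) = fun y => fderiv ℝ f y v + fderiv ℝ g y v := by
  funext y
  rw [fderiv_fun_add (hf.differentiable (by simp) y) (hg.differentiable (by simp) y)]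
  rfl

omit [FiniteDimensional ℝ E] [MeasurableSpace E] [BorelSpace E] in
theorem D_mul {f g : E → ℝ} (hf : ContDiff ℝ ∞ f) (hg : ContDiff ℝ ∞ g) (v : E) :
    (fun y => fderiv ℝ (fun x => f x * g x) y v) =
      fun y => f y * fderiv ℝ g y v + g y * fderiv ℝ f y v := by
  funext y
  rw [fderiv_fun_mul (hf.differentiable (by simp) y) (hg.differentiable (by simp) y)]
  rfl

omit [FiniteDimensional ℝ E] [MeasurableSpace E] [BorelSpace E] in
theorem D_comp {f : E → ℝ} (hf : ContDiff ℝ ∞ f) (Q : E →L[ℝ] E) (s t : ℝ) (v : E) :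
    (fun y => fderiv ℝ (fun x => s * f (t • Q x)) y v) =
      fun y => s * t * fderiv ℝ f (t • Q y) (Q v) := by
  funext y
  have h1 : HasFDerivAt (fun x => t • Q x) (t • Q) y := (t • Q).hasFDerivAt
  have h2 := ((hf.differentiable (by simp) (t • Q y)).hasFDerivAt.comp y h1).const_mul s
  have h3 : fderiv ℝ (fun x => s * f (t • Q x)) y = _ := h2.fderiv
  rw [h3]
  simp [mul_assoc]

omit [MeasurableSpace E] [BorelSpace E] in
theorem lap_add {f g : E → ℝ} (hf : ContDiff ℝ ∞ f) (hg : ContDiff ℝ ∞ g) (x : E) :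
    lap C (fun x => f x + g x) x = lap C f x + lap C g x := by
  unfold lap
  rw [← Finset.sum_add_distrib]
  refine Finset.sum_congr rfl fun k _ => ?_
  rw [D_add hf hg]
  exact congrFun (D_add (contDiff_D hf _) (contDiff_D hg _) _) x

omit [MeasurableSpace E] [BorelSpace E] in
theorem lap_mul {f g : E → ℝ} (hf : ContDiff ℝ ∞ f) (hg : ContDiff ℝ ∞ g) (x : E) :
    lap C (fun x => f x * g x) x = ∑ k,
      (f x * fderiv ℝ (fun y => fderiv ℝ g y (onb C k)) x (onb C k) +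
        2 * (fderiv ℝ f x (onb C k) * fderiv ℝ g x (onb C k)) +
        fderiv ℝ (fun y => fderiv ℝ f y (onb C k)) x (onb C k) * g x) := by
  unfold lap
  refine Finset.sum_congr rfl fun k _ => ?_
  rw [D_mul hf hg]
  have h1 := congrFun (D_add (hf.mul (contDiff_D hg (onb C k))) (hg.mul (contDiff_D hf (onb C k)))
    (onb C k)) x
  have h2 := congrFun (D_mul hf (contDiff_D hg (onb C k)) (onb C k)) x
  have h3 := congrFun (D_mul hg (contDiff_D hf (onb C k)) (onb C k)) x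
  rw [h1, h2, h3]
  ring

/-- the Schroedinger operator -/
def PP (C : Submodule ℝ E) (a η : E → ℝ) (x : E) : ℝ := -lap C η x / 2 + a x * η x

theorem smR_PP {a η : E → ℝ} (ha : ContDiff ℝ ∞ a) (h : SmR C η O) : SmR C (PP C a η) O := by
  have h1 : (∑ k, fun x => fderiv ℝ (fun y => fderiv ℝ η y (onb C k)) x (onb C k)) ∈ VV C O :=
    Submodule.sum_mem _ fun k _ => (h.fderiv (onb_mem C k)).fderiv (onb_mem C k)
  have h2 := (VV C O).add_mem ((VV C O).smul_mem (-1 / 2 : ℝ) h1) (h.mul' ha)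
  have e : PP C a η = (-1 / 2 : ℝ) •
      (∑ k, fun x => fderiv ℝ (fun y => fderiv ℝ η y (onb C k)) x (onb C k)) +
      fun x => a x * η x := by
    funext x
    simp only [PP, lap, Pi.add_apply, Pi.smul_apply, Finset.sum_apply, smul_eq_mul]
    ring
  rw [e]
  exact h2

theorem small_PP {a η β : E → ℝ} (ha : ContDiff ℝ ∞ a) (h : SmR C η O) (hβ : Bmp β) :
    Small C K O fun δ => PP C a fun x => β (δ⁻¹ • Kᗮ.starProjection x) * η x := by
  have s1 := fun k => small_basic (K := K) hβ ((h.fderiv (onb_mem C k)).fderiv (onb_mem C k))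
    (Nat.zero_le 2)
  have s2 := fun k => small_basic (K := K) (hβ.D (Kᗮ.starProjection (onb C k)))
    (h.fderiv (onb_mem C k)) one_le_two
  have s3 := fun k => small_basic (K := K)
    ((hβ.D (Kᗮ.starProjection (onb C k))).D (Kᗮ.starProjection (onb C k))) h le_rfl
  have s4 := small_basic (K := K) hβ (h.mul' ha) (Nat.zero_le 2)
  refine (((Small.sum Finset.univ fun k => ((s1 k).add ((s2 k).cmul 2)).add (s3 k)).cmul
    (-1 / 2)).add s4).congr fun δ x => ?_
  have hc : ContDiff ℝ ∞ fun x => β (δ⁻¹ • Kᗮ.starProjection x) :=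
    hβ.1.comp (δ⁻¹ • Kᗮ.starProjection).contDiff
  have e1 : ∀ v, (fun y => fderiv ℝ (fun x => β (δ⁻¹ • Kᗮ.starProjection x)) y v) =
      fun y => δ⁻¹ * fderiv ℝ β (δ⁻¹ • Kᗮ.starProjection y) (Kᗮ.starProjection v) := fun v => by
    have := D_comp hβ.1 Kᗮ.starProjection 1 δ⁻¹ v
    simpa only [one_mul] using this
  unfold PP
  rw [lap_mul hc h.1]
  have e2 : ∀ k, β (δ⁻¹ • Kᗮ.starProjection x) *
      fderiv ℝ (fun y => fderiv ℝ η y (onb C k)) x (onb C k) +
      2 * (fderiv ℝ (fun x => β (δ⁻¹ • Kᗮ.starProjection x)) x (onb C k) *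
        fderiv ℝ η x (onb C k)) +
      fderiv ℝ (fun y => fderiv ℝ (fun x => β (δ⁻¹ • Kᗮ.starProjection x)) y (onb C k)) x
        (onb C k) * η x =
      δ⁻¹ ^ 0 * (β (δ⁻¹ • Kᗮ.starProjection x) *
        fderiv ℝ (fun y => fderiv ℝ η y (onb C k)) x (onb C k)) +
      2 * (δ⁻¹ ^ 1 * (fderiv ℝ β (δ⁻¹ • Kᗮ.starProjection x) (Kᗮ.starProjection (onb C k)) *
        fderiv ℝ η x (onb C k))) +
      δ⁻¹ ^ 2 * (fderiv ℝ (fun y => fderiv ℝ β y (Kᗮ.starProjection (onb C k)))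
        (δ⁻¹ • Kᗮ.starProjection x) (Kᗮ.starProjection (onb C k)) * η x) := fun k => by
    have a1 := congrFun (e1 (onb C k)) x
    have a2 := congrFun (D_comp (contDiff_D hβ.1 (Kᗮ.starProjection (onb C k))) Kᗮ.starProjection
      δ⁻¹ δ⁻¹ (onb C k)) x
    rw [e1, a1, a2]
    ring
  simp only [e2]
  ring

theorem integrable_mul {u : C → ℂ} (hm : AEStronglyMeasurable u volume)
    (hu : ∀ S, IsCompact S → S ⊆ O → IntegrableOn (fun x : C => ‖u x‖ ^ 2) {x : C | (x : E) ∈ S})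
    {η : E → ℝ} (h : SmR C η O) : Integrable fun x : C => (η x : ℂ) * u x := by
  obtain ⟨hη, S, hS, hSO, -, hz⟩ := h
  have hS' := compact_pre C hS
  have hc : Continuous fun x : C => (η x : ℂ) :=
    Complex.continuous_ofReal.comp (hη.continuous.comp continuous_subtype_val)
  have h1 : IntegrableOn u {x : C | (x : E) ∈ S} := by
    refine Integrable.mono' ((hu S hS hSO).add
      (integrableOn_const (C := (1 : ℝ)) hS'.measure_lt_top.ne)) hm.restrict
      (Eventually.of_forall fun x => ?_)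
    simp only [Pi.add_apply]
    nlinarith [sq_nonneg (‖u x‖ - 1), norm_nonneg (u x)]
  refine (integrableOn_iff_integrable_of_support_subset (s := {x : C | (x : E) ∈ S})
    fun x hx => ?_).1 (h1.continuousOn_mul hc.continuousOn hS')
  by_contra hx'
  exact hx (by simp only [hz x x.2 hx', ofReal_zero, zero_mul])

theorem step (hK : K ≤ C) (h6 : Module.finrank ℝ K + 6 ≤ Module.finrank ℝ C) {u : C → ℂ}
    (hm : AEStronglyMeasurable u volume)
    (hu : ∀ S, IsCompact S → S ⊆ O → IntegrableOn (fun x : C => ‖u x‖ ^ 2) {x : C | (x : E) ∈ S})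
    {a : E → ℝ} (ha : ContDiff ℝ ∞ a)
    (heq : ∀ η, SmR C η (O \ K) → ∫ x : C, (PP C a η x : ℂ) * u x = 0) {η : E → ℝ}
    (h : SmR C η O) : ∫ x : C, (PP C a η x : ℂ) * u x = 0 := by
  let b : ContDiffBump (0 : E) := ⟨1, 2, one_pos, one_lt_two⟩
  have hb : Bmp b := ⟨b.contDiff, fun y hy => b.zero_of_le_dist (by
    rw [dist_zero_right]
    exact hy.le)⟩
  obtain ⟨c, hc⟩ := (small_PP (K := K) ha h hb).bound hK h6 hu
  have key : ∀ δ : ℝ, 0 < δ → δ ≤ 1 → ‖∫ x : C, (PP C a η x : ℂ) * u x‖ ≤ c * δ := by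
    intro δ h0 h1
    have hf : ContDiff ℝ ∞ fun x => b (δ⁻¹ • Kᗮ.starProjection x) :=
      hb.1.comp (δ⁻¹ • Kᗮ.starProjection).contDiff
    have hf' : ContDiff ℝ ∞ fun x => 1 - b (δ⁻¹ • Kᗮ.starProjection x) := contDiff_const.sub hf
    have t2 := h.mul' hf
    have t1 : SmR C (fun x => (1 - b (δ⁻¹ • Kᗮ.starProjection x)) * η x) (O \ K) := by
      obtain ⟨hη, S, hS, hSO, hSC, hz⟩ := h
      refine ⟨hf'.mul hη, S ∩ {x | δ ≤ ‖Kᗮ.starProjection x‖},
        hS.inter_right (isClosed_le continuous_const Kᗮ.starProjection.continuous.norm),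
        fun x hx => ⟨hSO hx.1, fun hxK => ?_⟩, fun x hx => hSC hx.1, fun x hx hx' => ?_⟩
      · have h2 : δ ≤ ‖Kᗮ.starProjection x‖ := hx.2
        rw [(Submodule.starProjection_apply_eq_zero_iff Kᗮ).2 (K.le_orthogonal_orthogonal hxK),
          norm_zero] at h2
        exact absurd h0 (not_lt.2 h2)
      · by_cases hS' : x ∈ S
        · have h2 : ‖Kᗮ.starProjection x‖ < δ := not_le.1 fun h3 => hx' ⟨hS', h3⟩
          have h3 : b (δ⁻¹ • Kᗮ.starProjection x) = 1 := by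
            refine b.one_of_mem_closedBall (mem_closedBall_zero_iff.2 ?_)
            rw [norm_smul, Real.norm_of_nonneg (inv_pos.2 h0).le, ← div_eq_inv_mul]
            exact (div_le_one h0).2 h2.le
          simp only [h3, sub_self, zero_mul]
        · simp only [hz x hx hS', mul_zero]
    have e : ∀ x, PP C a η x = PP C a (fun x => (1 - b (δ⁻¹ • Kᗮ.starProjection x)) * η x) x +
        PP C a (fun x => b (δ⁻¹ • Kᗮ.starProjection x) * η x) x := fun x => by
      have e1 := lap_add (C := C) t1.1 t2.1 x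
      have e2 : (fun x => (1 - b (δ⁻¹ • Kᗮ.starProjection x)) * η x +
          b (δ⁻¹ • Kᗮ.starProjection x) * η x) = η := by
        funext y
        ring
      rw [e2] at e1
      unfold PP
      rw [e1]
      ring
    have i1 := integrable_mul hm hu (smR_PP ha (t1.mono fun x _ hx => hx.1))
    have i2 := integrable_mul hm hu (smR_PP ha t2)
    simp only [e, ofReal_add, add_mul]
    rw [integral_add i1 i2, heq _ t1, zero_add]
    exact hc δ h0 h1
  have lim : Tendsto (fun δ : ℝ => c * δ) (𝓝[>] 0) (𝓝 0) := by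
    have : Tendsto (fun δ : ℝ => c * δ) (𝓝 0) (𝓝 (c * 0)) :=
      (continuous_const.mul continuous_id).tendsto 0
    rw [mul_zero] at this
    exact this.mono_left nhdsWithin_le_nhds
  refine norm_le_zero_iff.1 (ge_of_tendsto lim ?_)
  filter_upwards [Ioc_mem_nhdsGT (zero_lt_one' ℝ)] with δ hδ using key δ hδ.1 hδ.2

theorem steps {𝒦 : Finset (Submodule ℝ E)}
    (h𝒦 : ∀ K ∈ 𝒦, K ≤ C ∧ Module.finrank ℝ K + 6 ≤ Module.finrank ℝ C) {u : C → ℂ}
    (hm : AEStronglyMeasurable u volume) {a : E → ℝ} (ha : ContDiff ℝ ∞ a) {O : Set E}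
    (hu : ∀ S, IsCompact S → S ⊆ O → IntegrableOn (fun x : C => ‖u x‖ ^ 2) {x : C | (x : E) ∈ S})
    (heq : ∀ η, SmR C η {x | x ∈ O ∧ ∀ K ∈ 𝒦, x ∉ K} → ∫ x : C, (PP C a η x : ℂ) * u x = 0) :
    ∀ η, SmR C η O → ∫ x : C, (PP C a η x : ℂ) * u x = 0 := by
  classical
  induction 𝒦 using Finset.induction_on generalizing O with
  | empty => exact fun η h => heq η (h.mono fun x _ hx => ⟨hx, by simp⟩)
  | insert K s _ ih =>
    obtain ⟨h1, h2⟩ := h𝒦 K (Finset.mem_insert_self _ _)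
    refine fun η h => step h1 h2 hm hu ha ?_ h
    refine ih (fun K' h' => h𝒦 K' (Finset.mem_insert_of_mem h'))
      (fun S hS hSO => hu S hS fun x hx => (hSO hx).1) fun η' h' => heq η' (h'.mono ?_)
    rintro x - ⟨⟨h3, h4⟩, h5⟩
    refine ⟨h3, fun K' hK' => ?_⟩
    rcases Finset.mem_insert.1 hK' with rfl | hK'
    · exact h4
    · exact h5 K' hK'

end RsAux

theorem removable {C : Submodule ℝ E} {𝒦 : Finset (Submodule ℝ E)}
    (h𝒦 : ∀ K ∈ 𝒦, K ≤ C ∧ Module.finrank ℝ K + 6 ≤ Module.finrank ℝ C) {O Z : Set E}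
    (hO : IsOpen O) (hZ : ∀ x ∈ C, x ∈ Z ↔ x ∈ O ∧ ∀ K ∈ 𝒦, x ∉ K) {w : E → ℝ} (hw : Continuous w)
    (hw0 : ∀ x ∈ O, 0 < w x) {L : (E → ℝ) → ℂ} (hL : LinR C Z L) {B : ℝ}
    (hB : ∀ η, SmR C η Z → ‖L η‖ ^ 2 ≤ B * ∫ x : C, η x ^ 2 / w x) {a : E → ℝ}
    (ha : ContDiff ℝ ∞ a) (heq : ∀ η, SmR C η Z → L (fun x => -lap C η x / 2 + a x * η x) = 0) :
    ∃ u : C → ℂ, AEStronglyMeasurable u volume ∧
      IntegrableOn (fun x : C => w x * ‖u x‖ ^ 2) {x : C | (x : E) ∈ O} ∧
      (∀ η, SmR C η Z → L η = ∫ x : C, (η x : ℂ) * u x) ∧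
      ∀ η, SmR C η O → ∫ x : C, ((-lap C η x / 2 + a x * η x : ℝ) : ℂ) * u x = 0 := by
  obtain ⟨u, hm, hi, hu⟩ := RsAux.cx_rep hO (fun x hx h => ((hZ x hx).1 h).1) hw hw0 hL hB
  refine ⟨u, hm, hi, hu, RsAux.steps h𝒦 hm ha (fun S hS hSO => ?_) fun η h => ?_⟩
  · have hS' := RsAux.compact_pre C hS
    have hc : ContinuousOn (fun x : C => (w x)⁻¹) {x : C | (x : E) ∈ S} :=
      (hw.comp continuous_subtype_val).continuousOn.inv₀ fun x hx => (hw0 x (hSO hx)).ne'
    refine ((hi.mono_set fun x hx => hSO hx).continuousOn_mul hc hS').congr_fun (fun x hx => ?_)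
      hS'.measurableSet
    have := (hw0 x (hSO hx)).ne'
    simp only
    rw [← mul_assoc, inv_mul_cancel₀ this, one_mul]
  · have h' : SmR C η Z := h.mono fun x hx h1 => (hZ x hx).2 h1
    rw [← hu _ (RsAux.smR_PP ha h')]
    exact heq η h'

end Vale.Agent.P353
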