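import Vale.Agent.P353.Ga1
import Vale.Agent.P353.Fub

/-! Riesz representation in a weighted space. -/

noncomputable section

open MeasureTheory Filter Topology Complex Matrix
open scoped ContDiff RealInnerProductSpace

namespace Vale.Agent.P353

namespace RsAux

theorem riesz {V H : Type} [AddCommGroup V] [Module ℝ V] [NormedAddCommGroup H]
    [InnerProductSpace ℝ H] [CompleteSpace H] (T : V →ₗ[ℝ] H) (l : V →ₗ[ℝ] ℝ) {M : ℝ}
    (h : ∀ v, |l v| ≤ M * ‖T v‖) : ∃ g : H, ∀ v, l v = ⟪T v, g⟫ := by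
  obtain ⟨s, hs⟩ := T.rangeRestrict.exists_rightInverse_of_surjective T.range_rangeRestrict
  have hs' : ∀ y : LinearMap.range T, T (s y) = y := fun y =>
    congrArg Subtype.val (LinearMap.congr_fun hs y)
  let f : StrongDual ℝ (LinearMap.range T) := (l ∘ₗ s).mkContinuous M (fun y => by
    have := h (s y)
    rw [hs'] at this
    exact this)
  obtain ⟨g, hg, -⟩ := exists_extension_norm_eq (LinearMap.range T) f
  refine ⟨(InnerProductSpace.toDual ℝ H).symm g, fun v => ?_⟩
  rw [real_inner_comm, InnerProductSpace.toDual_symm_apply]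
  have h1 : g (T v) = l (s ⟨T v, LinearMap.mem_range_self T v⟩) :=
    hg ⟨T v, LinearMap.mem_range_self T v⟩
  have h2 := h (s ⟨T v, LinearMap.mem_range_self T v⟩ - v)
  rw [map_sub, map_sub, hs', sub_self, norm_zero, mul_zero] at h2
  rw [h1]
  have := abs_nonneg (l (s ⟨T v, LinearMap.mem_range_self T v⟩) - l v)
  have h3 := abs_eq_zero.1 (le_antisymm h2 this)
  linarith

variable {E : Type} [NormedAddCommGroup E] [InnerProductSpace ℝ E] [FiniteDimensional ℝ E]
  [MeasurableSpace E] [BorelSpace E]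

/-- the space of test functions -/
def VV (C : Submodule ℝ E) (Z : Set E) : Submodule ℝ (E → ℝ) where
  carrier := {η | SmR C η Z}
  add_mem' := fun h h' => h.add h'
  zero_mem' := ⟨contDiff_const, ∅, isCompact_empty, Set.empty_subset _, Set.empty_subset _,
    fun _ _ _ => rfl⟩
  smul_mem' := fun t _ h => SmR.mul' (f := fun _ => t) h contDiff_const

omit [MeasurableSpace E] [BorelSpace E] in
theorem compact_pre (C : Submodule ℝ E) {S : Set E} (hS : IsCompact S) :
    IsCompact {x : C | (x : E) ∈ S} :=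
  C.closed_of_finiteDimensional.isClosedEmbedding_subtypeVal.isCompact_preimage hS

theorem memLp_div {C : Submodule ℝ E} {O : Set E} {w : E → ℝ} (hw : Continuous w)
    (hw0 : ∀ x ∈ O, 0 < w x) {η : E → ℝ} (h : SmR C η O) :
    MemLp (fun x : C => η x / √(w x)) 2 volume := by
  obtain ⟨hη, S, hS, hSO, -, h0⟩ := h
  have hc : ContinuousOn (fun x => η x / √(w x)) S :=
    hη.continuous.continuousOn.div hw.sqrt.continuousOn
      (fun x hx => (Real.sqrt_pos.2 (hw0 x (hSO hx))).ne')
  obtain ⟨M, hM⟩ := hS.exists_bound_of_continuousOn hc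
  refine HasCompactSupport.memLp_of_bound (C := max M 0) ?_ ?_ (Eventually.of_forall fun x => ?_)
  · refine HasCompactSupport.intro (compact_pre C hS) fun x hx => ?_
    rw [h0 x x.2 hx, zero_div]
  · exact ((hη.continuous.comp continuous_subtype_val).measurable.div
      (hw.comp continuous_subtype_val).sqrt.measurable).aestronglyMeasurable
  · by_cases hx : (x : E) ∈ S
    · exact (hM x hx).trans (le_max_left _ _)
    · rw [h0 x x.2 hx, zero_div, norm_zero]
      exact le_max_right _ _

theorem real_rep {C : Submodule ℝ E} {O Z : Set E} (hZ : ∀ x ∈ C, x ∈ Z → x ∈ O) {w : E → ℝ}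
    (hw : Continuous w) (hw0 : ∀ x ∈ O, 0 < w x) (l : VV C Z →ₗ[ℝ] ℝ) {B : ℝ}
    (hB : ∀ η : VV C Z, l η ^ 2 ≤ B * ∫ x : C, η.1 x ^ 2 / w x) :
    ∃ g : C → ℝ, MemLp g 2 volume ∧ ∀ η : VV C Z, l η = ∫ x : C, η.1 x / √(w x) * g x := by
  have hm : ∀ η : VV C Z, MemLp (fun x : C => η.1 x / √(w x)) 2 volume := fun η =>
    memLp_div hw hw0 (SmR.mono η.2 hZ)
  let T : VV C Z →ₗ[ℝ] Lp ℝ 2 (volume : Measure C) :=
    { toFun := fun η => (hm η).toLp _
      map_add' := fun η η' => by
        rw [← MemLp.toLp_add]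
        exact MemLp.toLp_congr _ _ (Eventually.of_forall fun x => by simp [add_div])
      map_smul' := fun t η => by
        rw [RingHom.id_apply, ← MemLp.toLp_const_smul]
        exact MemLp.toLp_congr _ _ (Eventually.of_forall fun x => by simp [mul_div_assoc]) }
  have hT : ∀ η : VV C Z, ∀ᵐ x : C, T η x = η.1 x / √(w x) := fun η => (hm η).coeFn_toLp
  have hn : ∀ η : VV C Z, ‖T η‖ ^ 2 = ∫ x : C, η.1 x ^ 2 / w x := fun η => by
    rw [← real_inner_self_eq_norm_sq, L2.inner_def]
    refine integral_congr_ae ((hT η).mono fun x hx => ?_)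
    obtain ⟨-, S, -, hSO, -, h0⟩ := SmR.mono η.2 hZ
    simp only [hx, real_inner_self_eq_norm_sq, Real.norm_eq_abs, sq_abs]
    by_cases hx : (x : E) ∈ S
    · rw [div_pow, Real.sq_sqrt (hw0 x (hSO hx)).le]
    · rw [h0 x x.2 hx]
      simp
  obtain ⟨g, hg⟩ := riesz T l (M := √(max B 0)) (fun η => by
    rw [← Real.sqrt_sq (norm_nonneg (T η)), ← Real.sqrt_mul (le_max_right _ _)]
    refine Real.abs_le_sqrt ((hB η).trans ?_)
    rw [← hn]
    exact mul_le_mul_of_nonneg_right (le_max_left _ _) (sq_nonneg _))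
  refine ⟨g, Lp.memLp g, fun η => ?_⟩
  rw [hg, L2.inner_def]
  refine integral_congr_ae ((hT η).mono fun x hx => ?_)
  simp only [hx, RCLike.inner_apply, conj_trivial]
  ring

theorem cx_rep {C : Submodule ℝ E} {O Z : Set E} (hO : IsOpen O) (hZ : ∀ x ∈ C, x ∈ Z → x ∈ O)
    {w : E → ℝ} (hw : Continuous w) (hw0 : ∀ x ∈ O, 0 < w x) {L : (E → ℝ) → ℂ}
    (hL : ∀ η η', SmR C η Z → SmR C η' Z → ∀ t : ℝ, L (fun x => η x + t * η' x) = L η + t * L η')
    {B : ℝ} (hB : ∀ η, SmR C η Z → ‖L η‖ ^ 2 ≤ B * ∫ x : C, η x ^ 2 / w x) :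
    ∃ u : C → ℂ, AEStronglyMeasurable u volume ∧
      IntegrableOn (fun x : C => w x * ‖u x‖ ^ 2) {x : C | (x : E) ∈ O} ∧
      ∀ η, SmR C η Z → L η = ∫ x : C, (η x : ℂ) * u x := by
  have h00 : SmR C 0 Z := (VV C Z).zero_mem
  have h0 : L 0 = 0 := by
    have := hL 0 0 h00 h00 1
    have e : (fun x : E => (0 : E → ℝ) x + 1 * (0 : E → ℝ) x) = 0 := by
      funext x
      simp
    rw [e] at this
    simpa using this
  let l : VV C Z →ₗ[ℝ] ℂ :=
    { toFun := fun η => L η
      map_add' := fun η η' => by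
        have := hL η η' η.2 η'.2 1
        have e : (fun x : E => η.1 x + 1 * η'.1 x) = (η + η').1 := by
          funext x
          simp
        rw [e] at this
        simpa using this
      map_smul' := fun t η => by
        have := hL 0 η h00 η.2 t
        have e : (fun x : E => (0 : E → ℝ) x + t * η.1 x) = (t • η).1 := by
          funext x
          simp
        rw [e, h0] at this
        simpa using this }
  obtain ⟨g, hg, hg'⟩ := real_rep hZ hw hw0 (Complex.reLm ∘ₗ l) (B := B) (fun η => by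
    refine le_trans ?_ (hB η η.2)
    rw [← sq_abs]
    exact pow_le_pow_left₀ (abs_nonneg _) (Complex.abs_re_le_norm (L η)) 2)
  obtain ⟨k, hk, hk'⟩ := real_rep hZ hw hw0 (Complex.imLm ∘ₗ l) (B := B) (fun η => by
    refine le_trans ?_ (hB η η.2)
    rw [← sq_abs]
    exact pow_le_pow_left₀ (abs_nonneg _) (Complex.abs_im_le_norm (L η)) 2)
  have hs : AEStronglyMeasurable (fun x : C => (√(w x))⁻¹) volume :=
    (hw.comp continuous_subtype_val).sqrt.measurable.inv.aestronglyMeasurable
  refine ⟨fun x => ((√(w x))⁻¹ * g x : ℝ) + ((√(w x))⁻¹ * k x : ℝ) * I, ?_, ?_, fun η hη => ?_⟩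
  · exact (Complex.continuous_ofReal.comp_aestronglyMeasurable (hs.mul hg.1)).add
      ((Complex.continuous_ofReal.comp_aestronglyMeasurable (hs.mul hk.1)).mul_const _)
  · refine (hg.integrable_sq.add hk.integrable_sq).integrableOn.congr_fun (fun x hx => ?_)
      (hO.preimage continuous_subtype_val).measurableSet
    have h1 : 0 < w x := hw0 x hx
    simp only [Pi.add_apply]
    rw [Complex.sq_norm, Complex.normSq_add_mul_I, mul_pow, mul_pow, inv_pow, Real.sq_sqrt h1.le]
    field_simp
  · have hm := memLp_div hw hw0 (SmR.mono hη hZ)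
    have i1 : Integrable fun x : C => η x / √(w x) * g x := hm.integrable_mul hg
    have i2 : Integrable fun x : C => η x / √(w x) * k x := hm.integrable_mul hk
    have e1 : (L η).re = ∫ x : C, η x / √(w x) * g x := hg' ⟨η, hη⟩
    have e2 : (L η).im = ∫ x : C, η x / √(w x) * k x := hk' ⟨η, hη⟩
    rw [← Complex.re_add_im (L η), e1, e2, ← integral_complex_ofReal, ← integral_complex_ofReal,
      ← integral_mul_const, ← integral_add i1.ofReal (i2.ofReal.mul_const _)]
    refine integral_congr_ae (Eventually.of_forall fun x => ?_)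
    simp only [div_eq_mul_inv]
    push_cast
    ring

end RsAux

end Vale.Agent.P353
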