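import Vale.Agent.P353.RsAux1

/-! Families of functions concentrating near a subspace of codimension six. -/

noncomputable section

open MeasureTheory Filter Topology Complex Matrix
open scoped ContDiff RealInnerProductSpace

namespace Vale.Agent.P353

namespace RsAux

variable {E : Type} [NormedAddCommGroup E] [InnerProductSpace ℝ E] [FiniteDimensional ℝ E]
  [MeasurableSpace E] [BorelSpace E]

theorem vol_tube {C K : Submodule ℝ E} (hK : K ≤ C)
    (h6 : Module.finrank ℝ K + 6 ≤ Module.finrank ℝ C) (R : ℝ) :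
    ∃ c : ℝ, ∀ δ : ℝ, 0 < δ → δ ≤ 1 →
      volume.real {x : C | ‖(x : E)‖ ≤ R ∧ ‖Kᗮ.starProjection x‖ ≤ 2 * δ} ≤ c * δ ^ 6 := by
  have ho : K ⟂ Kᗮ ⊓ C := (Submodule.isOrtho_orthogonal_right K).mono_right inf_le_left
  obtain ⟨e, he, hm, -, -⟩ :=
    measurePreserving_sup ho (Submodule.sup_orthogonal_inf_of_hasOrthogonalProjection hK)
  have hd := Submodule.finrank_add_inf_finrank_orthogonal hK
  set m := Module.finrank ℝ (Kᗮ ⊓ C : Submodule ℝ E) with hmd
  refine ⟨volume.real (Metric.closedBall (0 : K) R) *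
    (2 ^ m * volume.real (Metric.ball (0 : (Kᗮ ⊓ C : Submodule ℝ E)) 1)), fun δ h0 h1 => ?_⟩
  have hsub : e ⁻¹' {x : C | ‖(x : E)‖ ≤ R ∧ ‖Kᗮ.starProjection x‖ ≤ 2 * δ} ⊆
      Metric.closedBall (0 : K) R ×ˢ Metric.closedBall (0 : (Kᗮ ⊓ C : Submodule ℝ E)) (2 * δ) := by
    rintro p ⟨hp1, hp2⟩
    rw [he] at hp1 hp2
    have h2 : (p.2 : E) ∈ Kᗮ := p.2.2.1
    have e1 : K.starProjection ((p.1 : E) + p.2) = p.1 := by
      rw [map_add, Submodule.starProjection_eq_self_iff.2 p.1.2,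
        (Submodule.starProjection_apply_eq_zero_iff K).2 h2, add_zero]
    have e2 : Kᗮ.starProjection ((p.1 : E) + p.2) = p.2 := by
      rw [map_add, Submodule.starProjection_eq_self_iff.2 h2,
        (Submodule.starProjection_apply_eq_zero_iff Kᗮ).2 (K.le_orthogonal_orthogonal p.1.2),
        zero_add]
    refine ⟨?_, ?_⟩
    · rw [mem_closedBall_zero_iff, Submodule.coe_norm, ← e1]
      exact (K.norm_starProjection_apply_le _).trans hp1
    · rw [mem_closedBall_zero_iff, Submodule.coe_norm, ← e2]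
      exact hp2
  have hfin : volume (Metric.closedBall (0 : K) R ×ˢ
      Metric.closedBall (0 : (Kᗮ ⊓ C : Submodule ℝ E)) (2 * δ)) ≠ ⊤ :=
    ((isCompact_closedBall _ _).prod (isCompact_closedBall _ _)).measure_lt_top.ne
  have h2 := measureReal_mono hsub hfin
  rw [Measure.real, hm.measure_preimage_equiv] at h2
  refine h2.trans ?_
  rw [Measure.volume_eq_prod, measureReal_prod_prod,
    Measure.addHaar_real_closedBall _ _ (by positivity : 0 ≤ 2 * δ), ← hmd, mul_assoc]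
  refine mul_le_mul_of_nonneg_left ?_ measureReal_nonneg
  have h3 : δ ^ m ≤ δ ^ 6 := pow_le_pow_of_le_one h0.le h1 (by omega)
  have h4 : (0 : ℝ) ≤ 2 ^ m * volume.real (Metric.ball (0 : (Kᗮ ⊓ C : Submodule ℝ E)) 1) :=
    mul_nonneg (by positivity) measureReal_nonneg
  have := mul_le_mul_of_nonneg_left h3 h4
  rw [mul_pow]
  linarith

/-- families of size `δ⁻²` supported near `K` -/
def Small (C K : Submodule ℝ E) (O : Set E) (F : ℝ → E → ℝ) : Prop :=
  ∃ S : Set E, IsCompact S ∧ S ⊆ O ∧ ∃ M : ℝ, 0 ≤ M ∧ ∀ δ : ℝ, 0 < δ → δ ≤ 1 → ∀ x ∈ C,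
    δ ^ 2 * |F δ x| ≤ M ∧ (x ∉ S ∨ 2 * δ < ‖Kᗮ.starProjection x‖ → F δ x = 0)

variable {C K : Submodule ℝ E} {O : Set E}

omit [MeasurableSpace E] [BorelSpace E] in
theorem Small.add {F G : ℝ → E → ℝ} (h : Small C K O F) (h' : Small C K O G) :
    Small C K O fun δ x => F δ x + G δ x := by
  obtain ⟨S, hS, hSO, M, hM, h⟩ := h
  obtain ⟨S', hS', hSO', M', hM', h'⟩ := h'
  refine ⟨S ∪ S', hS.union hS', Set.union_subset hSO hSO', M + M', add_nonneg hM hM',
    fun δ h0 h1 x hx => ⟨?_, fun hh => ?_⟩⟩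
  · have := mul_le_mul_of_nonneg_left (abs_add_le (F δ x) (G δ x)) (sq_nonneg δ)
    have := (h δ h0 h1 x hx).1
    have := (h' δ h0 h1 x hx).1
    linarith
  · simp only [(h δ h0 h1 x hx).2 (hh.imp_left fun a b => a (Or.inl b)),
      (h' δ h0 h1 x hx).2 (hh.imp_left fun a b => a (Or.inr b)), add_zero]

omit [MeasurableSpace E] [BorelSpace E] in
theorem Small.cmul {F : ℝ → E → ℝ} (h : Small C K O F) (t : ℝ) :
    Small C K O fun δ x => t * F δ x := by
  obtain ⟨S, hS, hSO, M, hM, h⟩ := h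
  refine ⟨S, hS, hSO, |t| * M, mul_nonneg (abs_nonneg t) hM,
    fun δ h0 h1 x hx => ⟨?_, fun hh => ?_⟩⟩
  · have := mul_le_mul_of_nonneg_left (h δ h0 h1 x hx).1 (abs_nonneg t)
    simp only [abs_mul]
    linarith
  · simp only [(h δ h0 h1 x hx).2 hh, mul_zero]

omit [MeasurableSpace E] [BorelSpace E] in
theorem Small.sum {ι : Type} (s : Finset ι) {F : ι → ℝ → E → ℝ} (h : ∀ i, Small C K O (F i)) :
    Small C K O fun δ x => ∑ i ∈ s, F i δ x := by
  classical
  induction s using Finset.induction_on with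
  | empty =>
    exact ⟨∅, isCompact_empty, Set.empty_subset _, 0, le_rfl, fun δ _ _ x _ => by simp⟩
  | insert i s hi ih =>
    simp only [Finset.sum_insert hi]
    exact (h i).add ih

omit [MeasurableSpace E] [BorelSpace E] in
theorem Small.congr {F G : ℝ → E → ℝ} (h : Small C K O F) (e : ∀ δ x, G δ x = F δ x) :
    Small C K O G := by
  have : G = F := funext fun δ => funext (e δ)
  rw [this]
  exact h

/-- smooth functions vanishing outside the ball of radius two -/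
def Bmp (β : E → ℝ) : Prop := ContDiff ℝ ∞ β ∧ ∀ y, 2 < ‖y‖ → β y = 0

omit [FiniteDimensional ℝ E] [MeasurableSpace E] [BorelSpace E] in
theorem contDiff_D {f : E → ℝ} (hf : ContDiff ℝ ∞ f) (v : E) :
    ContDiff ℝ ∞ fun x => fderiv ℝ f x v :=
  (hf.fderiv_right (m := ∞) (by simp)).clm_apply contDiff_const

omit [FiniteDimensional ℝ E] [MeasurableSpace E] [BorelSpace E] in
theorem Bmp.D {β : E → ℝ} (h : Bmp β) (v : E) : Bmp fun x => fderiv ℝ β x v := by
  refine ⟨contDiff_D h.1 v, fun y hy => ?_⟩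
  have : β =ᶠ[𝓝 y] fun _ => 0 :=
    ((isOpen_lt continuous_const continuous_norm).eventually_mem hy).mono fun z hz => h.2 z hz
  simp [this.fderiv_eq]

omit [MeasurableSpace E] [BorelSpace E] in
theorem small_basic {β η : E → ℝ} (hβ : Bmp β) (hη : SmR C η O) {j : ℕ} (hj : j ≤ 2) :
    Small C K O fun δ x => δ⁻¹ ^ j * (β (δ⁻¹ • Kᗮ.starProjection x) * η x) := by
  obtain ⟨hη, S, hS, hSO, -, hz⟩ := hη
  obtain ⟨M, hM⟩ := hS.exists_bound_of_continuousOn hη.continuous.continuousOn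
  obtain ⟨N, hN⟩ := (isCompact_closedBall (0 : E) 2).exists_bound_of_continuousOn
    hβ.1.continuous.continuousOn
  have hN' : ∀ y, |β y| ≤ max N 0 := fun y => by
    by_cases hy : ‖y‖ ≤ 2
    · exact (hN y (mem_closedBall_zero_iff.2 hy)).trans (le_max_left _ _)
    · rw [hβ.2 y (not_le.1 hy), abs_zero]
      exact le_max_right _ _
  have hM' : ∀ x ∈ C, |η x| ≤ max M 0 := fun x hx => by
    by_cases hy : x ∈ S
    · exact (hM x hy).trans (le_max_left _ _)
    · rw [hz x hx hy, abs_zero]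
      exact le_max_right _ _
  refine ⟨S, hS, hSO, max N 0 * max M 0, mul_nonneg (le_max_right _ _) (le_max_right _ _),
    fun δ h0 h1 x hx => ⟨?_, fun hh => ?_⟩⟩
  · have e : δ ^ 2 * δ⁻¹ ^ j ≤ 1 := by
      rw [inv_pow, ← div_eq_mul_inv, div_le_one (pow_pos h0 j)]
      exact pow_le_pow_of_le_one h0.le h1 hj
    simp only [abs_mul]
    rw [abs_of_pos (pow_pos (inv_pos.2 h0) j), ← mul_assoc]
    have h2 := mul_le_mul (hN' (δ⁻¹ • Kᗮ.starProjection x)) (hM' x hx) (abs_nonneg _)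
      (le_max_right _ _)
    exact (mul_le_of_le_one_left (mul_nonneg (abs_nonneg _) (abs_nonneg _)) e).trans h2
  · rcases hh with hh | hh
    · simp only [hz x hx hh, mul_zero]
    · have : 2 < ‖δ⁻¹ • Kᗮ.starProjection x‖ := by
        rw [norm_smul, Real.norm_of_nonneg (inv_pos.2 h0).le, ← div_eq_inv_mul, lt_div_iff₀ h0]
        exact hh
      simp only [hβ.2 _ this, zero_mul, mul_zero]

theorem Small.bound (hK : K ≤ C) (h6 : Module.finrank ℝ K + 6 ≤ Module.finrank ℝ C) {u : C → ℂ}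
    (hu : ∀ S, IsCompact S → S ⊆ O → IntegrableOn (fun x : C => ‖u x‖ ^ 2) {x : C | (x : E) ∈ S})
    {F : ℝ → E → ℝ} (h : Small C K O F) :
    ∃ c : ℝ, ∀ δ : ℝ, 0 < δ → δ ≤ 1 → ‖∫ x : C, (F δ x : ℂ) * u x‖ ≤ c * δ := by
  obtain ⟨S, hS, hSO, M, hM, h⟩ := h
  obtain ⟨R, hR⟩ := hS.isBounded.exists_norm_le
  obtain ⟨c, hc⟩ := vol_tube hK h6 R
  have hS' := compact_pre C hS
  refine ⟨M * ((∫ x in {x : C | (x : E) ∈ S}, ‖u x‖ ^ 2) + c), fun δ h0 h1 => ?_⟩
  set T : Set C := {x : C | ‖(x : E)‖ ≤ R ∧ ‖Kᗮ.starProjection x‖ ≤ 2 * δ} with hT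
  have hTc : IsClosed T := (isClosed_le continuous_subtype_val.norm continuous_const).inter
    (isClosed_le (Kᗮ.starProjection.continuous.comp continuous_subtype_val).norm continuous_const)
  have hTk : IsCompact T :=
    (isCompact_closedBall (0 : C) R).of_isClosed_subset hTc fun x hx =>
      mem_closedBall_zero_iff.2 hx.1
  have i1 : Integrable ({x : C | (x : E) ∈ S}.indicator fun x => ‖u x‖ ^ 2) :=
    (integrable_indicator_iff hS'.measurableSet).2 (hu S hS hSO)
  have i2 : Integrable (T.indicator fun _ => (1 : ℝ)) :=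
    (integrable_indicator_iff hTk.measurableSet).2 (integrableOn_const hTk.measure_lt_top.ne)
  have i3 := ((i1.const_mul δ).add (i2.const_mul (δ ^ 5)⁻¹)).const_mul M
  refine (norm_integral_le_of_norm_le i3 (Eventually.of_forall fun x => ?_)).trans ?_
  · have n1 : 0 ≤ {x : C | (x : E) ∈ S}.indicator (fun x => ‖u x‖ ^ 2) x :=
      Set.indicator_nonneg (fun _ _ => sq_nonneg _) x
    have n2 : 0 ≤ T.indicator (fun _ => (1 : ℝ)) x :=
      Set.indicator_nonneg (fun _ _ => zero_le_one) x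
    by_cases hx : (x : E) ∉ S ∨ 2 * δ < ‖Kᗮ.starProjection x‖
    · rw [(h δ h0 h1 x x.2).2 hx]
      simp only [ofReal_zero, zero_mul, norm_zero, Pi.add_apply]
      positivity
    · rw [not_or, not_not, not_lt] at hx
      have m1 : x ∈ {x : C | (x : E) ∈ S} := hx.1
      have m2 : x ∈ T := ⟨hR x hx.1, hx.2⟩
      simp only [Pi.add_apply]
      rw [Set.indicator_of_mem m1, Set.indicator_of_mem m2, norm_mul, Complex.norm_real,
        Real.norm_eq_abs]
      have a1 : |F δ x| ≤ M * (δ ^ 2)⁻¹ := by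
        rw [← div_eq_mul_inv, le_div_iff₀ (pow_pos h0 2), mul_comm]
        exact (h δ h0 h1 x x.2).1
      have a2 : (δ ^ 2)⁻¹ * ‖u x‖ ≤ δ * ‖u x‖ ^ 2 + (δ ^ 5)⁻¹ * 1 := by
        have e : δ * ‖u x‖ ^ 2 + (δ ^ 5)⁻¹ * 1 - (δ ^ 2)⁻¹ * ‖u x‖ =
            (δ ^ 5)⁻¹ * ((δ ^ 3 * ‖u x‖ - 1) ^ 2 + δ ^ 3 * ‖u x‖) := by
          field_simp
          ring
        have : 0 ≤ (δ ^ 5)⁻¹ * ((δ ^ 3 * ‖u x‖ - 1) ^ 2 + δ ^ 3 * ‖u x‖) := by positivity
        linarith
      have a3 := mul_le_mul_of_nonneg_right a1 (norm_nonneg (u x))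
      have a4 := mul_le_mul_of_nonneg_left a2 hM
      linarith
  · simp only [Pi.add_apply]
    rw [integral_const_mul, integral_add (i1.const_mul δ) (i2.const_mul _), integral_const_mul,
      integral_const_mul, integral_indicator hS'.measurableSet,
      integral_indicator hTk.measurableSet, setIntegral_const, smul_eq_mul, mul_one, mul_assoc]
    refine mul_le_mul_of_nonneg_left ?_ hM
    have a1 := mul_le_mul_of_nonneg_left (hc δ h0 h1) (inv_pos.2 (pow_pos h0 5)).le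
    have e : (δ ^ 5)⁻¹ * (c * δ ^ 6) = c * δ := by field_simp
    rw [e] at a1
    linarith

end RsAux

end Vale.Agent.P353
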