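import Vale.Agent.P353.S1Aux
import Vale.Agent.P353.Area

/-! Global slice bound. -/

noncomputable section

open MeasureTheory Filter Topology Complex Matrix
open scoped ContDiff RealInnerProductSpace

namespace Vale.Agent.P353

namespace S1Aux

variable {N d : ℕ} {F : Type} [NormedAddCommGroup F] [InnerProductSpace ℂ F]
  [FiniteDimensional ℂ F] (c : Ctx N d F) {π π' : Setoid (Fin N)} {𝔞 : Submodule ℝ (Lg d)}
  {v : Fin 9 → ℝ}

theorem det_abs {E G : Type} [NormedAddCommGroup E] [InnerProductSpace ℝ E] [FiniteDimensional ℝ E]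
    [NormedAddCommGroup G] [NormedSpace ℝ G] [FiniteDimensional ℝ G] {U : Submodule ℝ E}
    (T : E →L[ℝ] E) (hT : ∀ x ∈ U, T x ∈ U) (hn : ∀ x, ‖T x‖ = ‖x‖) (A : G →L[ℝ] E)
    (hA : ∀ η, A η ∈ U) (B : U →L[ℝ] G) (Φ : U →L[ℝ] U)
    (hΦ : ∀ x, Φ x = U.orthogonalProjectionOnto (T (x + A (B x)))) (M : G →L[ℝ] G)
    (hM : ∀ η, M η = η + B ⟨A η, hA η⟩) : |Φ.det| = |M.det| := by
  let R : U →ₗᵢ[ℝ] U := ⟨(U.orthogonalProjectionOnto ∘L T ∘L U.subtypeL).toLinearMap, fun x =>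
    (congrArg norm (Submodule.starProjection_eq_self_iff.2 (hT x x.2))).trans (hn x)⟩
  have e1 : Φ.toLinearMap = R.toLinearMap ∘ₗ (1 + A.toLinearMap.codRestrict U hA ∘ₗ B.toLinearMap) :=
    LinearMap.ext hΦ
  have e2 : M.toLinearMap = 1 + B.toLinearMap ∘ₗ A.toLinearMap.codRestrict U hA := LinearMap.ext hM
  rw [ContinuousLinearMap.det, e1, LinearMap.det_comp, det_comm, ← e2, abs_mul,
    ← LinearMap.normDet_eq_abs_det, R.normDet_eq_one, one_mul]

theorem det_comp' {G : Type} [NormedAddCommGroup G] [NormedSpace ℝ G] (A B : G →L[ℝ] G) :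
    (A ∘L B).det = A.det * B.det := LinearMap.det_comp A.toLinearMap B.toLinearMap

theorem fderiv_abs {E G : Type} [NormedAddCommGroup E] [InnerProductSpace ℝ E]
    [FiniteDimensional ℝ E] [NormedAddCommGroup G] [NormedSpace ℝ G] (U : Submodule ℝ E)
    {T : G → E →L[ℝ] E} (hT : ContDiff ℝ 1 T) (B : U →L[ℝ] G) (C : U →L[ℝ] E) :
    ContDiff ℝ 1 (fun x => U.orthogonalProjectionOnto (T (B x) (C x))) ∧ ∀ x δ,
      fderiv ℝ (fun x => U.orthogonalProjectionOnto (T (B x) (C x))) x δ =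
        U.orthogonalProjectionOnto (T (B x) (C δ) + (fderiv ℝ T (B x)).flip (C x) (B δ)) :=
  ⟨U.orthogonalProjectionOnto.contDiff.comp ((hT.comp B.contDiff).clm_apply C.contDiff),
    fun x δ => DFunLike.congr_fun (U.orthogonalProjectionOnto.hasFDerivAt.comp x
      ((((hT.differentiable one_ne_zero _).hasFDerivAt.comp x B.hasFDerivAt).clm_apply
        C.hasFDerivAt))).fderiv δ⟩

theorem jac (h : c.Lc π 𝔞 π' v) {u : UN N} (hu : u ∈ Grp π) {τ : Lg d →L[ℝ] Lg d}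
    (hτ : ∀ η ∈ c.blk π, τ η ∈ c.blk π) {y : Tn 9 d} (hy : y ∈ sub 9 𝔞) (hy' : cv v y ∈ c.blk π')
    {D : Lg d →L[ℝ] Tn 9 d} (hD : ∀ η, D η = c.Ad9 u (c.vf (τ η) y))
    {B : sub 9 𝔞 →L[ℝ] Lg d} (hB : ∀ x, B x = (c.off π π').starProjection (cv v x))
    (Φ : sub 9 𝔞 →L[ℝ] sub 9 𝔞) (hΦ : ∀ x, Φ x = (sub 9 𝔞).orthogonalProjectionOnto
      (c.Ad9 u (x - tens v (B x)) + D (B x))) :
    |Φ.det| = c.jw (c.off π π') v y * |(1 - (c.off π π').starProjection +
        (c.off π π').starProjection * τ * (c.off π π').starProjection).det| := by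
  have a1 := proj_ad c h.2.1 hy'
  simp only [Ctx.jw, Ctx.aw, Ctx.adw, mul_apply_eq_comp] at a1 ⊢
  have hP := DFunLike.congr_fun (c.off π π').isIdempotentElem_starProjection.eq
  have hw := fun x => c.off_le_ss h.2.1 ((c.off π π').starProjection_apply_mem x)
  generalize (c.off π π').starProjection = P at *
  simp only [mul_apply_eq_comp] at hP
  have hA : ∀ η, ((c.Ad9 u⁻¹ ∘L D - tens v) ∘L P) η = c.vf (τ (P η)) y - tens v (P η) := fun η => by
    rw [← c.Ad9_inv_apply u (c.vf _ _), ← hD]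
    rfl
  rw [← abs_mul, ← det_comp']
  refine det_abs (c.Ad9 u) (fun x hx => h.1.Ad9_mem c hu hx) (c.norm_Ad9 u) _
    (fun η => by
      rw [hA]
      exact sub_mem (h.1.vf_mem c (hτ _ (hw η).1) hy) (tens_mem_sub v (h.1.1 (hw η)))) B Φ
    (fun x => ?_) _ fun η => ?_
  · rw [hΦ, hA, hD, ← map_add, hB, hP]
    exact congrArg (fun y => (sub 9 𝔞).orthogonalProjectionOnto (c.Ad9 u y)) (by abel)
  · rw [hB, Subtype.coe_mk, hA, map_sub, Ctx.vf, cv_kr_one, cv_tens, h.2.2, one_smul, c.ad_anti,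
      map_sub, map_neg, ← a1]
    simp [hP]
    abel

theorem area (h_lm1a : c.S_lm1a) (h_orb : c.S_orb) (h : c.Lc π 𝔞 π' v) :
    ∃ r > 0, ∃ M : ℕ, ∀ f : Tn 9 d → ENNReal, Measurable f →
      (∀ u ∈ Grp π, ∀ x ∈ sub 9 𝔞, f (c.Ad9 u x) = f x) →
      ∫⁻ x in {x : sub 9 𝔞 | ‖(c.off π π').starProjection (cv v (x : Tn 9 d))‖ < r},
        ENNReal.ofReal (c.jw (c.off π π') v
          (x - tens v ((c.off π π').starProjection (cv v (x : Tn 9 d)))) / 2) *
        f (x - tens v ((c.off π π').starProjection (cv v (x : Tn 9 d)))) ≤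
        M * ∫⁻ x : sub 9 𝔞, f x := by
  obtain ⟨u, τ, hA, hD, hτ, τ0, u0, hu⟩ := exists_param c
  obtain ⟨z, hz, hz'⟩ := generic c π'
  obtain ⟨L, hL⟩ := exists_krL (d := d) (1 : Matrix (Fin 9) (Fin 9) ℝ)
  set P := (c.off π π').starProjection with hP
  have hw : ∀ x, P x ∈ c.off π π' := fun x => Submodule.starProjection_apply_mem _ x
  have r1 := injOn_ball ((hA.contDiffAt.hasStrictFDerivAt one_ne_zero).clm_apply
    (hasStrictFDerivAt_const z (0 : Lg d))) (c.off π π') fun η hη e => c.mat_injective (by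
      have e' : c.ad η z = 0 := by simpa [hD, u0, τ0, c.Ad_one] using e
      ext a b
      rw [map_zero]
      by_cases hab : π' a b
      · exact (c.mem_off h.2.1 η).1 hη a b (.inr hab)
      · exact entry c hz.1 e' (hz' a b hab))
  have r2 : ∀ᶠ ξ in 𝓝 (0 : Lg d), 1 / 2 < |(1 - P + P * τ ξ * P).det| :=
    (ContinuousLinearMap.continuous_det.comp (f := fun ξ => 1 - P + P * τ ξ * P)
      (by fun_prop)).abs.continuousAt.eventually (lt_mem_nhds (by
        simp only [Function.comp, τ0, mul_one, hP,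
          (c.off π π').isIdempotentElem_starProjection.eq, sub_add_cancel]
        rw [show (1 : Lg d →L[ℝ] Lg d).det = 1 from LinearMap.det_id]
        norm_num))
  obtain ⟨r, r0, hr⟩ := Metric.eventually_nhds_iff.1
    (r1.and (continuous_fst.continuousAt.eventually r2))
  refine ⟨r, r0, Fintype.card (Fin N → Fin N), fun f hf hi => ?_⟩
  let B : sub 9 𝔞 →L[ℝ] Lg d := P ∘L cv v ∘L (sub 9 𝔞).subtypeL
  let C : sub 9 𝔞 →L[ℝ] Tn 9 d := (sub 9 𝔞).subtypeL - tens v ∘L B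
  have hT : ContDiff ℝ 1 fun ξ => c.Ad9 (u ξ) := by
    simpa only [Function.comp_def, hL, Ctx.Ad9] using L.contDiff.comp hA
  have hT' : ∀ ξ η, fderiv ℝ (fun ξ => c.Ad9 (u ξ)) ξ η = c.Ad9 (u ξ) * c.vf (τ ξ η) := by
    intro ξ η
    have := (L.hasFDerivAt.comp ξ (hA.differentiable one_ne_zero ξ).hasFDerivAt).fderiv
    simp only [Function.comp_def, hL] at this
    rw [Ctx.vf, Ctx.Ad9, kr_mul, Matrix.mul_one, ← hD, ← hL]
    exact DFunLike.congr_fun this η
  have hC : ∀ x, C x ∈ sub 9 𝔞 := fun x =>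
    sub_mem x.2 (tens_mem_sub v (h.1.1 (c.off_le_ss h.2.1 (hw _))))
  have hC' : ∀ x, cv v (C x) ∈ c.blk π' := fun x => by
    change cv v ((x : Tn 9 d) - tens v (P (cv v x))) ∈ _
    rw [map_sub, cv_tens, h.2.2, one_smul]
    exact mem_blk_of_proj c h.2.1 (h.1.2 (cv_mem v x.2))
  have hG : ∀ x, u (B x) ∈ Grp π := fun x => (hu π _ (hw _).1).1
  let Ψ : sub 9 𝔞 → sub 9 𝔞 := fun x => (sub 9 𝔞).orthogonalProjectionOnto (c.Ad9 (u (B x)) (C x))
  have hΨ : ∀ x, (Ψ x : Tn 9 d) = c.Ad9 (u (B x)) (C x) := fun x =>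
    Submodule.starProjection_eq_self_iff.2 (h.1.Ad9_mem c (hG x) (hC x))
  have hJ : ∀ x, |(fderiv ℝ Ψ x).det| =
      c.jw (c.off π π') v (C x) * |(1 - P + P * τ (B x) * P).det| := fun x => by
    exact jac c h (hG x) (hu π _ (hw _).1).2 (hC x) (hC' x)
      (D := (fderiv ℝ (fun ξ => c.Ad9 (u ξ)) (B x)).flip (C x)) (B := B)
      (fun η => by rw [ContinuousLinearMap.flip_apply, hT', mul_apply_eq_comp]; rfl) (fun _ => rfl) _
      ((fderiv_abs _ hT B C).2 x)
  have hj := (h_lm1a.j_cont (c.off π π') v).comp C.continuous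
  have hB : ∀ x x', ‖B x‖ < r → ‖B x'‖ < r → dist (B x, B x') (0, 0) < r := fun x x' h h' => by
    simp [Prod.dist_eq, h, h']
  have hO : IsOpen ({x | ‖B x‖ < r} ∩ {x | c.jw (c.off π π') v (C x) ≠ 0}) :=
    (isOpen_lt B.continuous.norm continuous_const).inter (isOpen_ne_fun hj continuous_const)
  refine le_trans ?_ (area_le volume hO (Ψ := Ψ) (fderiv_abs _ hT B C).1.contDiffOn
    (fun x hx e => ?_) (fun x => ?_)
    (hf.comp measurable_subtype_coe))
  · rw [← lintegral_indicator hO.measurableSet, ← lintegral_indicator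
      (isOpen_lt (by fun_prop) continuous_const).measurableSet]
    refine lintegral_mono (Set.indicator_le fun x hx => ?_)
    change ENNReal.ofReal (c.jw _ v (C x) / 2) * f (C x) ≤ _
    by_cases h0 : c.jw (c.off π π') v (C x) = 0
    · simp [h0]
    rw [Set.indicator_of_mem (by exact ⟨hx, h0⟩), hJ, hΨ, hi _ (hG x) _ (hC x),
      div_eq_mul_one_div]
    gcongr
    · exact abs_nonneg _
    · exact (hr (hB x x hx hx)).2.le
  · have := hJ x
    rw [e, abs_zero, eq_comm, mul_eq_zero] at this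
    rcases this with h0 | h0
    · exact hx.2 h0
    · linarith [(hr (hB x x hx.1 hx.1)).2]
  · obtain ⟨g, hg⟩ := count c h_orb h (cv_mem v x.2) hz
    have : Nonempty (Fin N → Fin N) := ⟨id⟩
    choose! φ hφ using fun x' (hx : x' ∈ ({x | ‖B x‖ < r} ∩
        {x | c.jw (c.off π π') v (C x) ≠ 0}) ∩ Ψ ⁻¹' {x}) =>
      hg _ (hG x') _ (hC' x') (abs_ne_zero.1 hx.1.2) (by
        rw [← cv_kr_one, ← show Ψ x' = x from hx.2, hΨ]; rfl)
    refine (Set.encard_le_encard_of_injOn (t := Set.univ) (f := φ) (fun _ _ => trivial)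
      fun x₁ h₁ x₂ h₂ e => ?_).trans (by simp)
    have e1 := c.mat_injective ((hφ _ h₁).trans (e ▸ (hφ _ h₂).symm))
    have e2 := congrArg (c.Ad g⁻¹) e1
    simp only [c.Ad_mul, mul_apply_eq_comp, Bas3Aux.Ad_inv_apply] at e2
    have e3 : B x₁ = B x₂ := (hr (hB _ _ h₁.1.1 h₂.1.1)).1 (hw _) (hw _) e2
    have e4 := congrArg (fun y : sub 9 𝔞 => c.Ad9 (u (B x₂))⁻¹ y) (h₁.2.trans h₂.2.symm)
    simp only [hΨ, e3, c.Ad9_inv_apply] at e4
    change (x₁ : Tn 9 d) - tens v (B x₁) = x₂ - tens v (B x₂) at e4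
    rw [e3, sub_left_inj] at e4
    exact Subtype.ext e4

theorem fub {U U' : Submodule ℝ (Tn 9 d)} {𝔴 : Submodule ℝ (Lg d)} (hv : v ⬝ᵥ v = 1)
    (s1 : U' ⊔ sub 9 𝔴 = U) (o1 : U' ⟂ sub 9 𝔴) (o0 : ∀ X ∈ U', cv v X ∈ 𝔴ᗮ)
    (hj : Continuous (c.jw 𝔴 v)) {r : ℝ} (r0 : 0 < r) :
    ∃ k : NNReal, 0 < k ∧ ∀ f : Tn 9 d → ℝ, Measurable f →
      (k / 2 : NNReal) * ‖∫ X : U', c.jw 𝔴 v X * ∫ W : Wsl 𝔴 v, f (X + W)‖ₑ ≤
      ∫⁻ x in {x : U | ‖𝔴.starProjection (cv v (x : Tn 9 d))‖ < r},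
        ENNReal.ofReal (c.jw 𝔴 v (x - tens v (𝔴.starProjection (cv v (x : Tn 9 d)))) / 2) *
        ‖f (x - tens v (𝔴.starProjection (cv v (x : Tn 9 d))))‖ₑ := by
  obtain ⟨T, s2, o2, hT⟩ : ∃ T, Wsl 𝔴 v ⊔ T = sub 9 𝔴 ∧ Wsl 𝔴 v ⟂ T ∧
      ∀ t ∈ T, tens v (𝔴.starProjection (cv v t)) = t := by
    refine ⟨(Wsl 𝔴 v)ᗮ ⊓ sub 9 𝔴,
      Submodule.sup_orthogonal_inf_of_hasOrthogonalProjection inf_le_left,
      (Submodule.isOrtho_orthogonal_right _).mono_right inf_le_left, fun t ht => ?_⟩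
    have := Bas1Aux.Wsl_proj 𝔴 hv t
    rw [Submodule.starProjection_eq_self_iff.2 ht.2,
      (Submodule.starProjection_apply_eq_zero_iff _).2 ht.1, zero_add] at this
    exact this.symm
  have hS : IsOpen {t : T | ‖𝔴.starProjection (cv v (t : Tn 9 d))‖ < r} :=
    isOpen_lt (by fun_prop) continuous_const
  obtain ⟨k, k0, hk⟩ := ENNReal.lt_iff_exists_nnreal_btwn.1
    (hS.measure_pos volume ⟨0, by simpa using r0⟩)
  refine ⟨k, by exact_mod_cast k0, fun f hf => ?_⟩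
  have hC : Continuous fun x : Tn 9 d => x - tens v (𝔴.starProjection (cv v x)) := by fun_prop
  have hg : Measurable ({x : Tn 9 d | ‖𝔴.starProjection (cv v x)‖ < r}.indicator fun x =>
      ENNReal.ofReal (c.jw 𝔴 v (x - tens v (𝔴.starProjection (cv v x))) / 2) *
        ‖f (x - tens v (𝔴.starProjection (cv v x)))‖ₑ) :=
    (((hj.comp hC).div_const 2).measurable.ennreal_ofReal.mul
      (hf.enorm.comp hC.measurable)).indicator (isOpen_lt (by fun_prop) continuous_const).measurableSet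
  rw [← lintegral_indicator (isOpen_lt (by fun_prop) continuous_const).measurableSet]
  refine le_trans ?_ (lintegral_sup o1 s1 (hg.comp measurable_subtype_coe).aemeasurable).ge
  refine (mul_le_mul_right (enorm_integral_le_lintegral_enorm _) _).trans ?_
  rw [← lintegral_const_mul' _ _ ENNReal.coe_ne_top]
  refine lintegral_mono fun X => ?_
  refine le_trans ?_ (lintegral_sup o2 s2
    ((hg.comp (measurable_const_add X.1)).comp measurable_subtype_coe).aemeasurable).ge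
  rw [enorm_mul]
  refine (mul_le_mul_right (mul_le_mul_right (enorm_integral_le_lintegral_enorm _) _) _).trans ?_
  rw [← mul_assoc, ← lintegral_const_mul' _ _ (by finiteness)]
  refine lintegral_mono fun W => ?_
  have e1 : cv v (W : Tn 9 d) = 0 := W.2.2
  have e2 : ∀ t : T, 𝔴.starProjection (cv v (X.1 + (W.1 + t.1))) =
      𝔴.starProjection (cv v t.1) := fun t => by
    rw [map_add, map_add, map_add (cv v), e1, zero_add,
      (Submodule.starProjection_apply_eq_zero_iff _).2 (o0 X X.2), zero_add]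
  have e3 : c.jw 𝔴 v (X + W) = c.jw 𝔴 v X := by
    simp only [Ctx.jw, Ctx.aw, map_add, e1, add_zero]
  refine le_trans ?_ ((lintegral_indicator_const hS.measurableSet
    (ENNReal.ofReal (c.jw 𝔴 v X / 2) * ‖f (X + W)‖ₑ)).ge.trans_eq (lintegral_congr fun t => ?_))
  · refine le_trans (le_of_eq ?_) (mul_le_mul_right hk.le _)
    rw [Real.enorm_of_nonneg (r := c.jw 𝔴 v X) (abs_nonneg _), ENNReal.ofReal_div_of_pos two_pos,
      ENNReal.coe_div two_ne_zero, ENNReal.ofReal_ofNat, ENNReal.coe_ofNat]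
    simp only [div_eq_mul_inv]
    ring
  · simp only [Function.comp_apply, Set.indicator_apply, Set.mem_ofPred_eq, e2, hT t t.2]
    simp only [← add_assoc, add_sub_cancel_right, e3]

end S1Aux

namespace Ctx

variable {N d : ℕ} {F : Type} [NormedAddCommGroup F] [InnerProductSpace ℂ F]
  [FiniteDimensional ℂ F] (c : Ctx N d F)

theorem p_s1 (h_lm1a : c.S_lm1a) (h_orb : c.S_orb) : c.S_s1 := by
  intro π 𝔞 π' v h
  obtain ⟨r, r0, M, hM⟩ := S1Aux.area c h_lm1a h_orb h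
  have o0 := (c.off_isOrtho_blk π π').symm.mono_left (inf_le_right (a := 𝔞))
  obtain ⟨k, k0, hk⟩ := S1Aux.fub c h.2.2 ((sub_sup _ _).symm.trans
    (congrArg _ (h.1.sup_off c h.2.1))) (sub_isOrtho o0) (fun X hX => o0.le (cv_mem v hX))
    (h_lm1a.j_cont _ v) r0
  have k1 : (0 : ℝ) < k := k0
  refine ⟨2 * M / k, by positivity, fun f hf => ?_⟩
  have h1 := (hk f hf.1.measurable).trans (hM (fun x => ‖f x‖ₑ) hf.1.measurable.enorm
    fun u hu x hx => by rw [hf.2.2.1 u hu x hx])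
  rw [← ofReal_integral_norm_eq_lintegral_enorm (f := fun x : sub 9 𝔞 => f x)
    ((hf.1.comp continuous_subtype_val).integrable_of_hasCompactSupport hf.2.2.2)] at h1
  have h3 := ENNReal.toReal_mono (by finiteness) h1
  simp only [Real.norm_of_nonneg (hf.2.1 _), ENNReal.toReal_mul,
    ENNReal.toReal_ofReal (integral_nonneg fun x : sub 9 𝔞 => hf.2.1 x), toReal_enorm,
    ENNReal.coe_toReal, ENNReal.toReal_natCast, NNReal.coe_div, NNReal.coe_ofNat] at h3
  refine (Real.le_norm_self _).trans ?_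
  rw [div_mul_eq_mul_div, le_div_iff₀ k1]
  linarith

end Ctx

end Vale.Agent.P353
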