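import Vale.Agent.P353.Stmts

/-! A smooth parametrization of the gauge group and counting of conjugates. -/

noncomputable section

open MeasureTheory Filter Topology Complex Matrix
open scoped ContDiff RealInnerProductSpace

namespace Vale.Agent.P353.S1Aux

theorem abs_param {V A : Type} [NormedAddCommGroup V] [NormedSpace ℝ V] [NormedRing A]
    [NormedAlgebra ℝ A] [StarRing A] [ContinuousStar A] [StarModule ℝ A] {E : V → A}
    (hE : ContDiff ℝ 1 E) (h1 : ∀ ξ, star (E ξ) * E ξ = 1) (h2 : ∀ ξ, E ξ * star (E ξ) = 1) :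
    ∃ S : V → V →L[ℝ] A, Continuous S ∧ (∀ ξ η, S ξ η = star (E ξ) * fderiv ℝ E ξ η) ∧
      (∀ ξ η, star (S ξ η) = -S ξ η) ∧ ∀ ξ Y, ∃ D : V →L[ℝ] A,
        HasFDerivAt (fun ξ => E ξ * Y * star (E ξ)) D ξ ∧
        ∀ η, D η = E ξ * (S ξ η * Y - Y * S ξ η) * star (E ξ) := by
  have hd : ∀ ξ, HasFDerivAt E (fderiv ℝ E ξ) ξ := fun ξ =>
    (hE.differentiable one_ne_zero ξ).hasFDerivAt
  have h3 : ∀ ξ η, star (fderiv ℝ E ξ η) * E ξ = -(star (E ξ) * fderiv ℝ E ξ η) := fun ξ η => by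
    have h := ((hd ξ).star.fun_mul' (hd ξ)).unique
      ((hasFDerivAt_const 1 ξ).congr_of_eventuallyEq (.of_forall h1))
    have := DFunLike.congr_fun h η
    simp at this
    exact eq_neg_of_add_eq_zero_right this
  refine ⟨fun ξ => ContinuousLinearMap.mul ℝ A (star (E ξ)) ∘L fderiv ℝ E ξ,
    ((ContinuousLinearMap.mul ℝ A).continuous.comp hE.continuous.star).clm_comp
      (hE.continuous_fderiv one_ne_zero), fun _ _ => rfl, fun ξ η => ?_, fun ξ Y =>
    ⟨_, ((hd ξ).mul_const' Y).fun_mul' (hd ξ).star, fun η => ?_⟩⟩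
  · simp [h3]
  · have e : star (fderiv ℝ E ξ η) = -(star (E ξ) * fderiv ℝ E ξ η) * star (E ξ) := by
      rw [← h3, mul_assoc, h2, mul_one]
    simp [e, mul_sub, sub_mul, ← mul_assoc, h2]
    abel

variable {N d : ℕ} {F : Type} [NormedAddCommGroup F] [InnerProductSpace ℂ F]
  [FiniteDimensional ℂ F] (c : Ctx N d F)

theorem entry {x y : Lg d} (hy : ∀ a b, a ≠ b → c.mat y a b = 0) (h : c.ad x y = 0) {a b : Fin N}
    (hab : c.mat y a a ≠ c.mat y b b) : c.mat x a b = 0 := by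
  have h1 := congrFun (congrFun ((c.ad_eq_zero_iff x y).1 h).eq a) b
  rw [Matrix.mul_apply, Matrix.mul_apply, Finset.sum_eq_single b (fun j _ hj => by
    rw [hy j b hj, mul_zero]) (by simp), Finset.sum_eq_single a (fun j _ hj => by
    rw [hy a j hj.symm, zero_mul]) (by simp), mul_comm] at h1
  exact (mul_eq_mul_right_iff.1 h1).resolve_left hab.symm

open scoped Matrix.Norms.L2Operator in
theorem exists_param : ∃ (u : Lg d → UN N) (τ : Lg d → Lg d →L[ℝ] Lg d),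
    ContDiff ℝ 1 (fun ξ => c.Ad (u ξ)) ∧
    (∀ ξ η, fderiv ℝ (fun ξ => c.Ad (u ξ)) ξ η = c.Ad (u ξ) * c.ad (τ ξ η)) ∧
    Continuous τ ∧ τ 0 = 1 ∧ u 0 = 1 ∧
    ∀ π, ∀ ξ ∈ c.blk π, u ξ ∈ Grp π ∧ ∀ η ∈ c.blk π, τ ξ η ∈ c.blk π := by
  choose u hu using fun ξ => c.exists_exp ξ 0
  let m : Lg d →L[ℝ] Matrix (Fin N) (Fin N) ℂ := LinearMap.toContinuousLinearMap
    (LinearMap.mulLeft ℝ ((-I) • (1 : Matrix (Fin N) (Fin N) ℂ)) ∘ₗ c.mat)
  have hm : (fun ξ => (u ξ : Matrix (Fin N) (Fin N) ℂ)) = NormedSpace.exp ∘ m :=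
    funext fun ξ => by simp [hu, m]
  have hE : ContDiff ℝ 1 fun ξ => (u ξ : Matrix (Fin N) (Fin N) ℂ) := by
    rw [hm]
    exact (contDiff_iff_contDiffAt.2 fun x =>
      (NormedSpace.exp_analytic (𝕂 := ℝ) x).contDiffAt).comp m.contDiff
  obtain ⟨S, s1, s2, s3, s4⟩ := abs_param hE (fun ξ => (u ξ).2.1) fun ξ => (u ξ).2.2
  let co := LinearMap.toContinuousLinearMap c.co
  let φ := LinearMap.toContinuousLinearMap
    (c.co ∘ₗ LinearMap.mulLeft ℝ (I • (1 : Matrix (Fin N) (Fin N) ℂ)))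
  have hA : ContDiff ℝ 1 fun ξ => c.Ad (u ξ) := contDiff_clm_apply_iff.2 fun y =>
    co.contDiff.comp ((hE.mul contDiff_const).mul
      ((starL' ℝ : Matrix (Fin N) (Fin N) ℂ ≃L[ℝ] _).contDiff.comp hE))
  have hu0 : u 0 = 1 := Subtype.ext (by simp [hu])
  have hD : ∀ ξ η, fderiv ℝ (fun ξ => c.Ad (u ξ)) ξ η = c.Ad (u ξ) * c.ad (φ (S ξ η)) := by
    intro ξ η
    ext1 y
    obtain ⟨D, d1, d2⟩ := s4 ξ (c.mat y)
    have h := DFunLike.congr_fun (((hA.differentiable one_ne_zero ξ).hasFDerivAt.clm_apply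
      (hasFDerivAt_const y ξ)).unique (co.hasFDerivAt.comp ξ d1)) η
    obtain ⟨t, ht⟩ := c.b3b_co (M := I • S ξ η) (by
      rw [Matrix.IsHermitian, ← star_eq_conjTranspose, star_smul, s3]
      simp)
    have e : c.mat (c.ad (φ (S ξ η)) y) = S ξ η * c.mat y - c.mat y * S ξ η := by
      rw [c.mat_ad, show φ (S ξ η) = c.co (I • S ξ η) by simp [φ], ht]
      simp [mul_sub, sub_mul, smul_sub, smul_smul]
    simp only [ContinuousLinearMap.add_apply, ContinuousLinearMap.comp_apply,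
      ContinuousLinearMap.zero_apply, map_zero, zero_add, ContinuousLinearMap.flip_apply, d2,
      ← e] at h
    exact h
  refine ⟨u, fun ξ => φ ∘L S ξ, hA, hD, continuous_const.clm_comp s1, ?_, hu0,
    fun π ξ hξ => ⟨c.exp_mem_Grp hξ (hu ξ), fun η hη a b hab => ?_⟩⟩
  · ext1 η
    have h : HasFDerivAt (NormedSpace.exp ∘ m) ((1 : _ →L[ℝ] _) ∘L m) 0 :=
      HasFDerivAt.comp 0 (by rw [map_zero]; exact hasFDerivAt_exp_zero) m.hasFDerivAt
    rw [ContinuousLinearMap.comp_apply, s2, hm, h.fderiv, hu0]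
    simp [φ, m, smul_smul, c.co_mat]
  · obtain ⟨y, hy, hne⟩ := Bas3Aux.exists_cen c a b hab
    refine entry c hy.1 ?_ hne
    have h1 : HasDerivAt (fun t : ℝ => ξ + t • η) η 0 := by
      simpa using ((hasDerivAt_id (0 : ℝ)).smul_const η).const_add ξ
    have h2 := (((hA.differentiable one_ne_zero ξ).hasFDerivAt.comp_hasDerivAt_of_eq 0 h1
      (by simp)).clm_apply (hasDerivAt_const 0 y)).unique ((hasDerivAt_const 0 y).congr_of_eventuallyEq
        (.of_forall fun t => c.Ad_cen (c.exp_mem_Grp (add_mem hξ (Submodule.smul_mem _ t hη))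
          (hu _)) hy))
    rw [map_zero, add_zero, hD] at h2
    rw [← norm_eq_zero, ← c.norm_Ad (u ξ), norm_eq_zero]
    exact h2

theorem generic (π : Setoid (Fin N)) :
    ∃ z ∈ c.cen π, ∀ a b, ¬ π a b → c.mat z a a ≠ c.mat z b b := by
  obtain ⟨t, ht⟩ := c.b3b_co (M := diagonal fun a => (((Quotient.mk π a).out : Fin N).val : ℂ))
    (isHermitian_diagonal_of_self_adjoint _ (funext fun a => by simp))
  generalize c.co _ = z at ht
  refine ⟨z, ⟨fun a b h => by simp [ht, h], fun a b h => ?_⟩, fun a b h e => h ?_⟩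
  · simp [ht, Quotient.sound (s := π) h]
  · simp only [ht, Matrix.sub_apply, diagonal_apply_eq, Matrix.smul_apply, one_apply_eq,
      sub_left_inj, Nat.cast_inj] at e
    exact Quotient.exact (Quotient.out_injective (Fin.ext e))

variable {π π' : Setoid (Fin N)} {𝔞 : Submodule ℝ (Lg d)} {v : Fin 9 → ℝ}

theorem mem_blk_of_proj (h : π' ≤ π) {ζ : Lg d} (hζ : ζ ∈ c.blk π) :
    ζ - (c.off π π').starProjection ζ ∈ c.blk π' := by
  obtain ⟨a, ha, b, hb, rfl⟩ := Submodule.mem_sup.1 ((c.blk_sup_off h).ge hζ)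
  rwa [map_add, Submodule.starProjection_eq_self_iff.2 hb,
    (Submodule.starProjection_apply_eq_zero_iff _).2 ((c.off_isOrtho_blk π π').ge ha), zero_add,
    add_sub_cancel_right]

theorem proj_ad (h : π' ≤ π) {y : Lg d} (hy : y ∈ c.blk π') (ζ : Lg d) :
    c.adw (c.off π π') y ζ = (c.off π π').starProjection (c.ad y ζ) := by
  rw [Ctx.adw, mul_assoc, c.ad_starProjection fun x hx => c.ad_mem_off h hy hx, ← mul_assoc,
    (c.off π π').isIdempotentElem_starProjection.eq]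
  rfl

theorem count (h_orb : c.S_orb) (h : c.Lc π 𝔞 π' v) {m : Lg d} (hm : m ∈ 𝔞) {z : Lg d}
    (hz : z ∈ c.cen π') : ∃ g : UN N, ∀ u ∈ Grp π, ∀ X, cv v X ∈ c.blk π' →
      (c.aw (c.off π π') v X).det ≠ 0 → c.Ad u (cv v X) = m → ∃ φ : Fin N → Fin N,
        c.mat (c.Ad (g * u) z) = diagonal fun a => c.mat z (φ a) (φ a) := by
  obtain ⟨g, hg, π'', -, h1, -⟩ := h_orb.diag π 𝔞 h.1 (tens v m) (tens_mem_sub v hm) (by
    simp [Ctx.Fsq, cmp_tens, c.ad_smul, c.ad_self])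
  have h2 : c.Ad g m ∈ c.cen ⊥ := by
    have := (cv_mem v h1).2
    rw [Ctx.Ad9, cv_kr_one, cv_tens, h.2.2, one_smul] at this
    exact c.cen_anti bot_le this
  refine ⟨g, fun u hu X hX hd e => ?_⟩
  have h3 : c.Ad (g * u) z ∈ c.cen ⊥ := (c.mem_cen_iff _).2 fun t ht => by
    have a1 := c.Ad_mem_blk (inv_mem_Grp (mul_mem_Grp hg hu)) (c.blk_mono bot_le ht)
    have a2 : ∀ y, c.ad (c.Ad (g * u) y) t = c.Ad (g * u) (c.ad y (c.Ad (g * u)⁻¹ t)) := fun y => by
      rw [c.Ad_ad, Bas3Aux.Ad_apply_inv]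
    generalize c.Ad (g * u)⁻¹ t = ζ at a1 a2
    have a3 : c.ad (cv v X) ζ = 0 := by
      rw [← norm_eq_zero, ← c.norm_Ad (g * u), ← a2, c.Ad_mul, norm_eq_zero]
      exact (c.mem_cen_iff _).1 (by rwa [mul_apply_eq_comp, e]) t ht
    have a4 : (c.off π π').starProjection ζ = 0 := by
      refine (map_eq_zero_iff _ ((c.aw (c.off π π') v X).toContinuousLinearEquivOfDetNeZero
        hd).injective).1 ?_
      have a5 := DFunLike.congr_fun (c.off π π').isIdempotentElem_starProjection.eq ζ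
      have a6 := proj_ad c h.2.1 hX ζ
      simp only [Ctx.adw, mul_apply_eq_comp, a3, map_zero] at a5 a6
      simp [Ctx.aw, Ctx.adw, a5, a6]
    have a5 := mem_blk_of_proj c h.2.1 a1
    rw [a4, sub_zero] at a5
    rw [a2, (c.mem_cen_iff _).1 hz ζ a5, map_zero]
  have h4 := c.mat_Ad (g * u) z
  generalize g * u = w at h3 h4 ⊢
  have h5 : c.mat (c.Ad w z) * w = w * c.mat z := by
    rw [h4, Matrix.mul_assoc, w.2.1, Matrix.mul_one]
  have h6 : ∀ a, ∃ b, c.mat (c.Ad w z) a a = c.mat z b b := fun a => by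
    by_contra! hne
    have a1 := congrFun (congrFun w.2.2 a) a
    rw [Matrix.mul_apply, one_apply_eq, Finset.sum_eq_zero fun b _ => ?_] at a1
    · exact zero_ne_one a1
    have a2 := congrFun (congrFun h5 a) b
    rw [Matrix.mul_apply, Matrix.mul_apply, Finset.sum_eq_single a (fun j _ hj => by
      rw [h3.1 a j hj.symm, zero_mul]) (by simp), Finset.sum_eq_single b (fun j _ hj => by
      rw [hz.1 j b hj, mul_zero]) (by simp), mul_comm (w.1 a b)] at a2
    rw [(mul_eq_mul_right_iff.1 a2).resolve_left (hne b), zero_mul]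
  choose φ hφ using h6
  refine ⟨φ, Matrix.ext fun a b => ?_⟩
  rcases eq_or_ne a b with rfl | hab
  · rw [diagonal_apply_eq, hφ]
  · rw [diagonal_apply_ne _ hab, h3.1 a b hab]

theorem injOn_ball {V W : Type} [NormedAddCommGroup V] [NormedSpace ℝ V] [FiniteDimensional ℝ V]
    [NormedAddCommGroup W] [NormedSpace ℝ W] {f : V → W} {L : V →L[ℝ] W}
    (hf : HasStrictFDerivAt f L 0) (K : Submodule ℝ V) (hL : ∀ x ∈ K, L x = 0 → x = 0) :
    ∀ᶠ p : V × V in 𝓝 (0, 0), p.1 ∈ K → p.2 ∈ K → f p.1 = f p.2 → p.1 = p.2 := by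
  obtain ⟨k, k0, hk⟩ := (L.toLinearMap ∘ₗ K.subtype).exists_antilipschitzWith
    (LinearMap.ker_eq_bot'.2 fun x hx => Subtype.ext (hL x x.2 hx))
  have k1 : (0 : ℝ) < k := k0
  filter_upwards [hf.isLittleO.bound (c := 1 / (2 * k)) (by positivity)] with p hp h1 h2 e
  have h3 : ‖p.1 - p.2‖ ≤ k * ‖L (p.1 - p.2)‖ :=
    ZeroHomClass.bound_of_antilipschitz _ hk ⟨_, K.sub_mem h1 h2⟩
  rw [e, sub_self, zero_sub, norm_neg] at hp
  have h4 := mul_le_mul_of_nonneg_left hp k1.le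
  rw [← mul_assoc, show (k : ℝ) * (1 / (2 * k)) = 1 / 2 by field_simp] at h4
  exact sub_eq_zero.1 (norm_le_zero_iff.1 (by linarith))

theorem det_comm {V W : Type} [AddCommGroup V] [Module ℝ V] [FiniteDimensional ℝ V]
    [AddCommGroup W] [Module ℝ W] [FiniteDimensional ℝ W] (A : V →ₗ[ℝ] W) (B : W →ₗ[ℝ] V) :
    LinearMap.det (1 + A ∘ₗ B) = LinearMap.det (1 + B ∘ₗ A) := by
  rw [← LinearMap.det_toMatrix (Module.finBasis ℝ W), ← LinearMap.det_toMatrix (Module.finBasis ℝ V),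
    map_add, map_add, LinearMap.toMatrix_one, LinearMap.toMatrix_one,
    LinearMap.toMatrix_comp _ (Module.finBasis ℝ V), LinearMap.toMatrix_comp _ (Module.finBasis ℝ W),
    det_one_add_mul_comm]

end Vale.Agent.P353.S1Aux
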