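import Vale.Agent.P353.Stmts

/-! Second order identity. -/

noncomputable section

open MeasureTheory Filter Topology Complex Matrix
open scoped ContDiff RealInnerProductSpace

namespace Vale.Agent.P353

namespace SecAux

theorem core {V A ι κ : Type} [AddCommGroup V] [Module ℝ V] [Ring A] [Algebra ℝ A]
    [Fintype ι] [Fintype κ] [DecidableEq κ] (M : V →ₗ[ℝ] A →ₗ[ℝ] ℂ) (D X : κ → V → V)
    (a b : ι → κ → A) (G : κ → κ → ℝ)
    (hyp : ∀ α η t, ∑ l, (M (D l η) (a α l * t) + M (X l η) (b α l * t)) = 0)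
    (hDD : ∀ k l η, D l (D k η) = D k (D l η)) (hXX : ∀ k l η, X l (X k η) = X k (X l η))
    (hDX : ∀ k l η, D l (X k η) = (if k = l then (1 : ℝ) else 0) • η + X k (D l η))
    (haa : ∀ k l, ∑ α, (a α l * a α k + a α k * a α l) =
      (-16 * if k = l then (1 : ℝ) else 0) • (1 : A))
    (hab : ∀ k l, ∑ α, (b α l * a α k + a α k * b α l) = 0)
    (hbb : ∀ k l, ∑ α, (b α l * b α k + b α k * b α l) = G k l • (1 : A)) (η : V) :
    M ((-16 : ℝ) • ∑ k, D k (D k η) + ∑ k, ∑ l, G k l • X l (X k η)) 1 +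
      2 * M η (∑ α, ∑ k, a α k * b α k) = 0 := by
  have h0 : ∑ α, ∑ k, (∑ l, (M (D l (D k η)) (a α l * a α k) + M (X l (D k η)) (b α l * a α k)) +
      ∑ l, (M (D l (X k η)) (a α l * b α k) + M (X l (X k η)) (b α l * b α k))) = 0 := by
    simp only [hyp, add_zero, Finset.sum_const_zero]
  have sw : ∀ f : ι → κ → κ → ℂ, ∑ α, ∑ k, ∑ l, f α k l = ∑ k, ∑ l, ∑ α, f α k l := fun f => by
    rw [Finset.sum_comm]
    exact Finset.sum_congr rfl fun k _ => Finset.sum_comm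
  have sym : ∀ (P : κ → V → V) (e : ι → κ → A), (∀ k l η, P l (P k η) = P k (P l η)) →
      2 * ∑ α, ∑ k, ∑ l, M (P l (P k η)) (e α l * e α k) =
        ∑ k, ∑ l, M (P l (P k η)) (∑ α, (e α l * e α k + e α k * e α l)) := fun P e hP => by
    have h1 : ∑ α, ∑ k, ∑ l, M (P l (P k η)) (e α l * e α k) =
        ∑ α, ∑ k, ∑ l, M (P l (P k η)) (e α k * e α l) :=
      Finset.sum_congr rfl fun α _ => by
        rw [Finset.sum_comm]
        exact Finset.sum_congr rfl fun k _ => Finset.sum_congr rfl fun l _ => by rw [hP]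
    rw [two_mul]
    nth_rewrite 2 [h1]
    rw [sw, sw]
    simp only [map_sum, map_add, Finset.sum_add_distrib]
  have h1 := sym D a hDD
  have h2 := sym X b hXX
  have h3 : ∑ α, ∑ k, ∑ l, M (X l (D k η)) (b α l * a α k) +
      ∑ α, ∑ k, ∑ l, M (X k (D l η)) (a α l * b α k) = 0 := by
    have h4 : ∑ α, ∑ k, ∑ l, M (X k (D l η)) (a α l * b α k) =
        ∑ α, ∑ k, ∑ l, M (X l (D k η)) (a α k * b α l) :=
      Finset.sum_congr rfl fun α _ => Finset.sum_comm
    rw [h4, sw, sw, ← Finset.sum_add_distrib]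
    refine Finset.sum_eq_zero fun k _ => ?_
    rw [← Finset.sum_add_distrib]
    refine Finset.sum_eq_zero fun l _ => ?_
    rw [← Finset.sum_add_distrib]
    simp only [← map_add, ← map_sum, hab, map_zero]
  have h4 : ∑ α, ∑ k, ∑ l, M ((if k = l then (1 : ℝ) else 0) • η) (a α l * b α k) =
      M η (∑ α, ∑ k, a α k * b α k) := by
    simp only [map_sum]
    refine Finset.sum_congr rfl fun α _ => Finset.sum_congr rfl fun k _ => ?_
    rw [Finset.sum_eq_single k (fun l _ hl => by simp [Ne.symm hl]) (by simp)]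
    simp
  have h5 : ∑ k, ∑ l, M (D l (D k η)) (∑ α, (a α l * a α k + a α k * a α l)) =
      M ((-16 : ℝ) • ∑ k, D k (D k η)) 1 := by
    simp only [haa, Finset.smul_sum, map_sum, LinearMap.sum_apply]
    refine Finset.sum_congr rfl fun k _ => ?_
    rw [Finset.sum_eq_single k (fun l _ hl => by simp [Ne.symm hl]) (by simp)]
    rw [if_pos rfl, mul_one, map_smul, map_smul, LinearMap.smul_apply]
  have h6 : ∑ k, ∑ l, M (X l (X k η)) (∑ α, (b α l * b α k + b α k * b α l)) =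
      M (∑ k, ∑ l, G k l • X l (X k η)) 1 := by
    simp only [hbb, map_sum, LinearMap.sum_apply, map_smul, LinearMap.smul_apply]
  simp only [hDX, map_add, LinearMap.add_apply, Finset.sum_add_distrib] at h0
  rw [map_add, LinearMap.add_apply, ← h5, ← h6, ← h1, ← h2, ← h4]
  linear_combination 2 * h0 - 2 * h3

section Fn

variable {E : Type} [NormedAddCommGroup E] [InnerProductSpace ℝ E] [FiniteDimensional ℝ E]
  [MeasurableSpace E] [BorelSpace E] {C : Submodule ℝ E} {Z : Set E}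

/-- derivative on test functions -/
def DD (C : Submodule ℝ E) (Z : Set E) (k : Fin (Module.finrank ℝ C)) (η : RsAux.VV C Z) :
    RsAux.VV C Z := ⟨fun x => fderiv ℝ η.1 x (onb C k), SmR.fderiv η.2 (onb_mem C k)⟩

/-- multiplication by a coordinate -/
def XX (C : Submodule ℝ E) (Z : Set E) (k : Fin (Module.finrank ℝ C)) (η : RsAux.VV C Z) :
    RsAux.VV C Z := ⟨fun x => ⟪onb C k, x⟫ * η.1 x,
  SmR.mul' η.2 (contDiff_const.inner ℝ contDiff_id)⟩

theorem DD_comm (k l : Fin (Module.finrank ℝ C)) (η : RsAux.VV C Z) :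
    DD C Z l (DD C Z k η) = DD C Z k (DD C Z l η) := by
  refine Subtype.ext (funext fun x => ?_)
  have hη : ContDiff ℝ ∞ η.1 := η.2.1
  have h1 : DifferentiableAt ℝ (fderiv ℝ η.1) x :=
    (hη.fderiv_right (m := ∞) (by simp)).differentiable (by simp) x
  have h2 : ∀ u v : E, fderiv ℝ (fun y => fderiv ℝ η.1 y u) x v =
      fderiv ℝ (fderiv ℝ η.1) x v u := fun u v => by
    rw [fderiv_clm_apply h1 (differentiableAt_const u)]
    simp
  have h3 : IsSymmSndFDerivAt ℝ η.1 x :=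
    hη.contDiffAt.isSymmSndFDerivAt (by
      rw [minSmoothness_of_isRCLikeNormedField]
      exact WithTop.coe_le_coe.2 le_top)
  show fderiv ℝ (fun y => fderiv ℝ η.1 y (onb C k)) x (onb C l) =
    fderiv ℝ (fun y => fderiv ℝ η.1 y (onb C l)) x (onb C k)
  rw [h2, h2, h3.eq]

theorem XX_comm (k l : Fin (Module.finrank ℝ C)) (η : RsAux.VV C Z) :
    XX C Z l (XX C Z k η) = XX C Z k (XX C Z l η) :=
  Subtype.ext (funext fun _ => mul_left_comm _ _ _)

theorem DD_XX (k l : Fin (Module.finrank ℝ C)) (η : RsAux.VV C Z) :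
    DD C Z l (XX C Z k η) = (if k = l then (1 : ℝ) else 0) • η + XX C Z k (DD C Z l η) := by
  refine Subtype.ext (funext fun x => ?_)
  have hη : ContDiff ℝ ∞ η.1 := η.2.1
  have h1 : ContDiff ℝ ∞ fun x : E => ⟪onb C k, x⟫ := contDiff_const.inner ℝ contDiff_id
  have h2 := congrFun (RsAux.D_mul h1 hη (onb C l)) x
  have h3 : fderiv ℝ (fun x : E => ⟪onb C k, x⟫) x (onb C l) = ⟪onb C k, onb C l⟫ :=
    congrArg (fun L : E →L[ℝ] ℝ => L (onb C l)) (innerSL ℝ (onb C k)).fderiv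
  show fderiv ℝ (fun x => ⟪onb C k, x⟫ * η.1 x) x (onb C l) =
    (if k = l then (1 : ℝ) else 0) * η.1 x + ⟪onb C k, x⟫ * fderiv ℝ η.1 x (onb C l)
  rw [h2, h3, inner_onb]
  ring

theorem quad (A : E →L[ℝ] E) {x : E} (hx : x ∈ C) :
    ∑ k, ∑ l, ⟪A (onb C l), A (onb C k)⟫ * (⟪onb C l, x⟫ * ⟪onb C k, x⟫) = ‖A x‖ ^ 2 := by
  rw [← real_inner_self_eq_norm_sq]
  conv_rhs => rw [← sum_onb_self hx]
  simp only [map_sum, map_smul, sum_inner, inner_sum, real_inner_smul_left, real_inner_smul_right]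
  refine Finset.sum_congr rfl fun k _ => Finset.sum_congr rfl fun l _ => ?_
  ring

variable {F : Type} [NormedAddCommGroup F] [InnerProductSpace ℂ F] [FiniteDimensional ℂ F]
  {U : Submodule ℝ E}

theorem opL_rsmul (t : ℝ) (a : F →L[ℂ] F) (β : LL U F) :
    opL U (t • a) β = (t : ℂ) • opL U a β := by
  have : t • a = (t : ℂ) • a := rfl
  rw [this, opL_smul]
  rfl

/-- operators that preserve a subspace -/
def Pres (K : Submodule ℂ (LL U F)) : Subalgebra ℝ (F →L[ℂ] F) where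
  carrier := {a | ∀ β ∈ K, opL U a β ∈ K}
  mul_mem' := fun {a b} ha hb β hβ => by
    rw [opL_mul]
    exact ha _ (hb β hβ)
  add_mem' := fun {a b} ha hb β hβ => by
    rw [opL_add]
    exact K.add_mem (ha β hβ) (hb β hβ)
  algebraMap_mem' := fun t β hβ => by
    rw [Algebra.algebraMap_eq_smul_one, opL_rsmul, opL_one]
    exact K.smul_mem _ hβ

theorem exists_M {K : Submodule ℂ (LL U F)} {L : (E → ℝ) → LL U F → ℂ}
    (h1 : ∀ β ∈ K, LinR C Z fun η => L η β)
    (h2 : ∀ η, SmR C η Z → ∀ β ∈ K, ∀ β' ∈ K, ∀ z : ℂ,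
      L η (β + z • β') = L η β + (starRingEnd ℂ) z * L η β') {β : LL U F} (hβ : β ∈ K) :
    ∃ M : RsAux.VV C Z →ₗ[ℝ] Pres K →ₗ[ℝ] ℂ, ∀ η a, M η a = L η.1 (opL U a.1 β) := by
  have h00 : SmR C 0 Z := (RsAux.VV C Z).zero_mem
  have a1 : ∀ γ ∈ K, ∀ η η' : RsAux.VV C Z, L (η + η').1 γ = L η.1 γ + L η'.1 γ :=
    fun γ hγ η η' => by
      have h := h1 γ hγ η η' η.2 η'.2 1
      simp only [one_mul, ofReal_one] at h
      exact h
  have a0 : ∀ γ ∈ K, L 0 γ = 0 := fun γ hγ => by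
    have h := a1 γ hγ 0 0
    rw [add_zero] at h
    exact left_eq_add.1 h
  have a2 : ∀ γ ∈ K, ∀ (t : ℝ) (η : RsAux.VV C Z), L (t • η).1 γ = t • L η.1 γ :=
    fun γ hγ t η => by
      have h := h1 γ hγ 0 η h00 η.2 t
      simp only [Pi.zero_apply, zero_add, a0 γ hγ] at h
      exact h
  have b0 : ∀ η : RsAux.VV C Z, L η.1 0 = 0 := fun η => by
    have h := h2 η η.2 0 K.zero_mem 0 K.zero_mem 1
    rw [one_smul, add_zero, map_one, one_mul] at h
    exact left_eq_add.1 h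
  refine ⟨LinearMap.mk₂ ℝ (fun η a => L η.1 (opL U a.1 β)) (fun η η' a => a1 _ (a.2 β hβ) η η')
    (fun t η a => a2 _ (a.2 β hβ) t η) (fun η a a' => ?_) (fun t η a => ?_), fun _ _ => rfl⟩
  · have h := h2 η η.2 _ (a.2 β hβ) _ (a'.2 β hβ) 1
    rw [one_smul, map_one, one_mul] at h
    rw [← h, Subalgebra.coe_add, opL_add]
    rfl
  · have h := h2 η η.2 0 K.zero_mem _ (a.2 β hβ) t
    rw [zero_add, b0, zero_add, conj_ofReal] at h
    rw [Subalgebra.coe_smul, opL_rsmul, h]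
    rfl

end Fn

variable {N d : ℕ} {F : Type} [NormedAddCommGroup F] [InnerProductSpace ℂ F]
  [FiniteDimensional ℂ F] (c : Ctx N d F)

/-- zero modes in the reference vacuum as a subspace -/
def BKs (π π' : Setoid (Fin N)) : Submodule ℂ (LL (sub 9 (c.ss π')) F) where
  carrier := c.BK π π'
  add_mem' := fun ha hb => ⟨(c.B π').add_mem ha.1 hb.1, by rw [map_add, ha.2, hb.2]⟩
  zero_mem' := ⟨(c.B π').zero_mem, map_zero _⟩
  smul_mem' := fun z _ ha => ⟨(c.B π').smul_mem z ha.1, by rw [map_smul, ha.2]⟩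

theorem anti (z w : ℂ) (u v : Fin 16 → Tn 16 d) :
    ∑ α, ((z • c.θ (u α)) * (w • c.θ (v α)) + (w • c.θ (v α)) * (z • c.θ (u α))) =
      (z * w * ((∑ α, ⟪u α, v α⟫ : ℝ) : ℂ)) • (1 : F →L[ℂ] F) := by
  rw [ofReal_sum, Finset.mul_sum, Finset.sum_smul]
  refine Finset.sum_congr rfl fun α _ => ?_
  rw [mul_smul, ← c.car.anti, smul_mul_smul_comm, smul_mul_smul_comm, mul_comm w z, smul_add]

theorem sum_Km (x y : Tn 9 d) :
    ∑ α, ⟪c.Km (eb α) x, c.Km (eb α) y⟫ = 16 * ⟪Afree d x, Afree d y⟫ := by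
  have h1 := c.sum_Km_sq (x + y)
  simp only [map_add, norm_add_sq_real, Finset.sum_add_distrib, c.sum_Km_sq,
    ← Finset.mul_sum] at h1
  linarith

theorem sum_sE_Km (x y : Tn 9 d) : ∑ α, ⟪c.Km (eb α) x, c.sE (eb α) y⟫ = 0 := by
  have h := (c.iso ⊤ 0 1).2 x trivial y trivial
  simp only [Ctx.beta, zero_smul, one_smul, zero_add] at h
  rw [← h]
  exact Finset.sum_congr rfl fun _ _ => real_inner_comm _ _

end SecAux

namespace Ctx

variable {N d : ℕ} {F : Type} [NormedAddCommGroup F] [InnerProductSpace ℂ F]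
  [FiniteDimensional ℂ F] (c : Ctx N d F)

open SecAux in
theorem p_sec (h_lm4 : c.S_lm4) : c.S_sec := by
  intro π 𝔞 π' _ hle m L h1 h2 h3 h4 η hη β hβ
  have hm : ∀ k, onb (c.CS 𝔞 π') k ∈ sub 9 (c.cen π') := fun k =>
    sub_mono inf_le_right (onb_mem (c.CS 𝔞 π') k)
  obtain ⟨M, hM⟩ := exists_M (K := BKs c π π') h1 h2 hβ
  let a : Fin 16 → Fin (Module.finrank ℝ (c.CS 𝔞 π')) → Pres (BKs c π π') := fun α k =>
    ⟨(-I) • c.θ (c.sE (eb α) (onb (c.CS 𝔞 π') k)),
      h_lm4.theta_BK π π' hle _ (c.sE_mem _ (hm k)) _⟩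
  let b : ℝ → Fin 16 → Fin (Module.finrank ℝ (c.CS 𝔞 π')) → Pres (BKs c π π') := fun t α k =>
    ⟨(t : ℂ) • c.θ (c.Km (eb α) (onb (c.CS 𝔞 π') k)),
      h_lm4.theta_BK π π' hle _ (c.Km_mem _ (hm k)) _⟩
  have hab : ∀ t : ℝ, ((∑ α, ∑ k, a α k * b t α k : Pres (BKs c π π')) : F →L[ℂ] F) =
      (24 * t) • ((-I) • dG c.θ (kr (Gm c.γ) (𝔞 ⊓ c.cen π').starProjection)) := fun t => by
    have h := c.free_bil (𝔞 ⊓ c.cen π')
    have h' : ((∑ α, ∑ k, a α k * b t α k : Pres (BKs c π π')) : F →L[ℂ] F) = (t : ℂ) •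
        ∑ α, ∑ k, (-I) • (c.θ (c.sE (eb α) (onb (sub 9 (𝔞 ⊓ c.cen π')) k)) *
          c.θ (c.Km (eb α) (onb (sub 9 (𝔞 ⊓ c.cen π')) k))) := by
      simp only [AddSubmonoidClass.coe_finsetSum, MulMemClass.coe_mul, Finset.smul_sum]
      refine Finset.sum_congr rfl fun α _ => Finset.sum_congr rfl fun k _ => ?_
      show ((-I) • _) * ((t : ℂ) • _) = _
      rw [smul_mul_smul_comm, smul_smul, mul_comm (-I)]
      rfl
    rw [h', h, ← Complex.coe_smul, smul_smul, smul_smul]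
    congr 1
    push_cast
    ring
  have hG : (-I) • dG c.θ (kr (Gm c.γ) (𝔞 ⊓ c.cen π').starProjection) ∈ Pres (BKs c π π') := by
    have h := (Pres (BKs c π π')).smul_mem (∑ α, ∑ k, a α k * b 1 α k).2 (1 / 24 : ℝ)
    rw [hab, smul_smul] at h
    simpa using h
  refine ⟨hG β hβ, ?_⟩
  have key := core M (DD _ _) (XX _ _) a (b m)
    (fun k l => 16 * m ^ 2 * ⟪Afree d (onb (c.CS 𝔞 π') l), Afree d (onb (c.CS 𝔞 π') k)⟫)
    (fun α η t => by
      simp only [hM, MulMemClass.coe_mul, opL_mul]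
      exact h4 α η.1 η.2 _ (t.2 β hβ))
    DD_comm XX_comm DD_XX
    (fun k l => Subtype.ext (by
      simp only [AddSubmonoidClass.coe_finsetSum, MulMemClass.coe_mul, AddMemClass.coe_add,
        Subalgebra.coe_smul, OneMemClass.coe_one]
      refine (anti c _ _ _ _).trans ?_
      rw [(c.iso ⊤ 0 1).1 _ trivial _ trivial, inner_onb, ← Complex.coe_smul]
      congr 1
      simp only [eq_comm (a := l)]
      push_cast
      linear_combination (16 * ((if k = l then (1 : ℝ) else 0 : ℝ) : ℂ)) * I_mul_I))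
    (fun k l => Subtype.ext (by
      simp only [AddSubmonoidClass.coe_finsetSum, MulMemClass.coe_mul, AddMemClass.coe_add,
        ZeroMemClass.coe_zero]
      refine (anti c _ _ _ _).trans ?_
      rw [sum_sE_Km, ofReal_zero, mul_zero, zero_smul]))
    (fun k l => Subtype.ext (by
      simp only [AddSubmonoidClass.coe_finsetSum, MulMemClass.coe_mul, AddMemClass.coe_add,
        Subalgebra.coe_smul, OneMemClass.coe_one]
      refine (anti c _ _ _ _).trans ?_
      rw [sum_Km, ← Complex.coe_smul]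
      congr 1
      push_cast
      ring)) ⟨η, hη⟩
  have e1 : ∑ α, ∑ k, a α k * b m α k = (24 * m) • (⟨_, hG⟩ : Pres (BKs c π π')) :=
    Subtype.ext (hab m)
  have hs : SmR (c.CS 𝔞 π') (fun x => -lap (c.CS 𝔞 π') η x / 2 +
      m ^ 2 * ‖Afree d x‖ ^ 2 / 2 * η x) (c.Good π π') :=
    RsAux.smR_PP (a := fun x => m ^ 2 * ‖Afree d x‖ ^ 2 / 2)
      ((contDiff_const.mul ((Afree d).contDiff.norm_sq ℝ)).div_const 2) hη
  have e2 := map_smul M (32 : ℝ) ⟨_, hs⟩
  have e3 := congrArg (fun l : Pres (BKs c π π') →ₗ[ℝ] ℂ => l 1) e2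
  simp only [LinearMap.smul_apply, hM, OneMemClass.coe_one, opL_one, one_apply_eq_self] at e3
  rw [e1, map_smul, hM, hM, OneMemClass.coe_one, opL_one, one_apply_eq_self,
    h3 _ ((32 : ℝ) • (⟨_, hs⟩ : RsAux.VV _ _)).1 β, e3] at key
  · simp only [real_smul] at key
    push_cast at key ⊢
    linear_combination key / 32
  · intro y hy
    have hq := quad (Afree d) hy
    simp only [Submodule.coe_add, Submodule.coe_smul, AddSubmonoidClass.coe_finsetSum,
      Pi.add_apply, Pi.smul_apply, Finset.sum_apply, smul_eq_mul, DD, XX, lap]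
    rw [← hq]
    simp only [Finset.mul_sum, Finset.sum_mul, Finset.sum_div, mul_add]
    congr 1
    · rw [← Finset.mul_sum]
      ring
    · refine Finset.sum_congr rfl fun k _ => Finset.sum_congr rfl fun l _ => ?_
      ring

end Ctx

end Vale.Agent.P353
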