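import Vale.Agent.P353.SgAux

/-! The sign of block permutations. -/

noncomputable section

open MeasureTheory Filter Topology Complex Matrix
open scoped ContDiff RealInnerProductSpace

namespace Vale.Agent.P353

namespace SgAux

variable {N d : ℕ} {F : Type} [NormedAddCommGroup F] [InnerProductSpace ℂ F]
  [FiniteDimensional ℂ F] (c : Ctx N d F)

theorem comm_Cl {W : Submodule ℝ (Tn 16 d)} {a b : F →L[ℂ] F}
    (h : ∀ y ∈ W, a * c.θ y = c.θ y * a) (hb : b ∈ Cl c.θ W) : a * b = b * a := by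
  induction hb using Algebra.adjoin_induction with
  | mem x hx =>
    obtain ⟨y, hy, rfl⟩ := hx
    exact h y hy
  | algebraMap r => exact (Algebra.commutes r a).symm
  | add x y _ _ hx hy => rw [mul_add, add_mul, hx, hy]
  | mul x y _ _ hx hy => rw [← mul_assoc, hx, mul_assoc, hy, mul_assoc]

theorem exists_Cl' (𝔟 : Submodule ℝ (Lg d)) {Ω : F} (h1 : ‖Ω‖ = 1) (hΩ : c.P0 ⊤ Ω = Ω) {f : F}
    (hf : c.P0 𝔟ᗮ f = f) : ∃ a ∈ Cl c.θ (sub 16 𝔟), a Ω = f := by
  have hs : 𝔟.starProjection + 𝔟ᗮ.starProjection = 1 := by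
    ext1 x
    exact 𝔟.starProjection_add_starProjection_orthogonal x
  refine c.car.exists_Cl c.irr (c.isPCS_Gm 𝔟) (c.isPCS_Gm 𝔟ᗮ) ?_ ?_ ?_ ?_ ?_ hf
  · have : 𝔟.starProjection * 𝔟ᗮ.starProjection = 0 := by
      ext1 x
      exact 𝔟.starProjection_apply_eq_zero_iff.2 (𝔟ᗮ.starProjection_apply_mem x)
    rw [kr_mul, this, kr_zero_right]
  · rw [← neg_neg (_ * _ + _ * _), neg_add, c.Gm_supp, c.Gm_supp, ← kr_add_right, hs, kr_one]
  · intro u
    rw [mem_sub]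
    intro i
    rw [cmp_kr]
    exact Submodule.sum_mem _ fun j _ => 𝔟.smul_mem _ (𝔟.starProjection_apply_mem _)
  · rw [← kr_add_right, hs, ← Submodule.starProjection_top' (𝕜 := ℝ) (E := Lg d)]
    exact hΩ
  · intro h
    rw [h, norm_zero] at h1
    exact zero_ne_one h1

theorem U_fix {𝔟 : Submodule ℝ (Lg d)} {u : UN N} (hu : ∀ x ∈ 𝔟, c.Ad u x = x) {Ω : F}
    (h1 : ‖Ω‖ = 1) (hΩ : c.P0 ⊤ Ω = Ω) (hU : c.U u Ω = Ω) {f : F} (hf : c.P0 𝔟ᗮ f = f) :
    c.U u f = f := by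
  obtain ⟨a, ha, rfl⟩ := exists_Cl' c 𝔟 h1 hΩ hf
  have h2 : c.U u * a = a * c.U u := by
    refine comm_Cl c (fun y hy => ?_) ha
    rw [c.Uθ]
    congr 2
    exact ext_cmp fun i => by rw [cmp_kr_one]; exact hu _ (mem_sub.1 hy i)
  rw [← mul_apply_eq_comp, h2, mul_apply_eq_comp, hU]

theorem Ad9_proj {u : UN N} {𝔟 𝔟' : Submodule ℝ (Lg d)} (h : ∀ x, c.Ad u x ∈ 𝔟' ↔ x ∈ 𝔟)
    (x : Tn 9 d) :
    c.Ad9 u ((sub 9 𝔟).starProjection x) = (sub 9 𝔟').starProjection (c.Ad9 u x) := by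
  rw [sub_starProjection, sub_starProjection, Ctx.Ad9, ← mul_apply_eq_comp, ← mul_apply_eq_comp,
    kr_mul, kr_mul, c.Ad_starProjection h]

theorem proj_proj {𝔟 𝔟' : Submodule ℝ (Lg d)} (h : 𝔟 ≤ 𝔟') (x : Tn 9 d) :
    (sub 9 𝔟).starProjection ((sub 9 𝔟').starProjection x) = (sub 9 𝔟).starProjection x :=
  DFunLike.congr_fun (Submodule.starProjection_comp_starProjection_of_le (sub_mono h)) x

theorem swap_abs (h_prod : c.S_prod) (h_ev : c.S_ev) {π₁ π₂ π₃ π₄ π' : Setoid (Fin N)}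
    {τ : Equiv.Perm (Fin N)} (hττ : τ * τ = 1)
    (h14 : ∀ a b b', π₁ a b → π₄ a b' → a = b ∨ a = b') (e14 : ∀ a b, π' a b ↔ π₁ a b ∨ π₄ a b)
    (h23 : ∀ a b b', π₂ a b → π₃ a b' → a = b ∨ a = b') (e23 : ∀ a b, π₄ a b ↔ π₂ a b ∨ π₃ a b)
    (m12 : Maps ⊤ π₁ π₂ τ) (m' : Maps ⊤ π' π' τ) (ho : c.ss π₁ ⟂ c.ss π₂)
    (hfix : ∀ x ∈ c.ss π₃, c.Ad (permU τ) x = x)
    (d1 : Module.finrank ℂ (c.V π₁ 1 0) = 1) (d3 : Module.finrank ℂ (c.V π₃ 1 0) = 1)
    (d' : Module.finrank ℂ (c.V π' 1 0) = 1) {β : LL (sub 9 (c.ss π')) F}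
    (hβ : β ∈ c.V π' 1 0) : c.act (permU τ) π' π' β = β := by
  obtain ⟨Ω, hΩ1, hΩ2, hΩ3, -⟩ := c.exists_fock
  have hΩ : c.P0 ⊤ Ω = Ω := by
    rw [hΩ2, inner_self_eq_norm_sq_to_K, hΩ1]
    simp
  obtain ⟨pr, hpr⟩ := h_prod π₁ π₄ π' h14 e14 Ω hΩ1 hΩ
  obtain ⟨pr', hpr'⟩ := h_prod π₂ π₃ π₄ h23 e23 Ω hΩ1 hΩ
  obtain ⟨⟨β₁, hβ₁⟩, n1, -⟩ := finrank_eq_one_iff'.1 d1
  obtain ⟨⟨β₃, hβ₃⟩, n3, -⟩ := finrank_eq_one_iff'.1 d3
  have n1' : β₁ ≠ 0 := fun h => n1 (Subtype.ext h)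
  have n3' : β₃ ≠ 0 := fun h => n3 (Subtype.ext h)
  obtain ⟨φ, hφ, hφe⟩ := exists_Ap_even c hβ₁ (h_ev π₁ β₁ hβ₁)
  obtain ⟨χ, hχ⟩ := exists_Ap c hβ₃
  have hφ' := hφ.act c m12
  have hφe' : ∀ n x, c.Par (c.actF (permU τ) (φ n) x) = c.actF (permU τ) (φ n) x := by
    intro n x
    rw [Ctx.actF, ← mul_apply_eq_comp, c.Par_U, mul_apply_eq_comp, hφe]
  obtain ⟨β₄, h4, n4⟩ := Ap.prod c (pr := pr') (fun a ha he b hb =>
    ⟨(hpr' a ha he b hb).1, (hpr' a ha he b hb).2.1, (hpr' a ha he b hb).2.2.1⟩) hφ'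
    (fun n x _ => hφe' n x) hχ
  obtain ⟨β', h5, n5⟩ := Ap.prod c (pr := pr) (fun a ha he b hb =>
    ⟨(hpr a ha he b hb).1, (hpr a ha he b hb).2.1, (hpr a ha he b hb).2.2.1⟩) hφ
    (fun n x _ => hφe n x) h4
  have hinv : τ⁻¹ = τ := inv_eq_of_mul_eq_one_right hττ
  have huinv : (permU τ)⁻¹ = permU τ := by rw [← permU_inv, hinv]
  have m21 : Maps ⊤ π₂ π₁ τ := by simpa only [hinv] using m12.symm
  have hUU : c.U (permU τ) * c.U (permU τ) = 1 := by
    have := c.U_mul_inv (permU τ)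
    rwa [huinv] at this
  have hAA : ∀ x, c.Ad9 (permU τ) (c.Ad9 (permU τ) x) = x := by
    intro x
    have := c.Ad9_inv_apply (permU τ) x
    rwa [huinv] at this
  have l2 : c.ss π₂ ≤ c.ss π₄ := c.ss_mono fun a b h => (e23 a b).2 (Or.inl h)
  have l3 : c.ss π₃ ≤ c.ss π₄ := c.ss_mono fun a b h => (e23 a b).2 (Or.inr h)
  -- the pointwise formula
  have form : ∀ n, ∀ x ∈ sub 9 (c.ss π'), ∀ a ∈ Cl c.θ (sub 16 (c.ss π₁)),
      ∀ a' ∈ Cl c.θ (sub 16 (c.ss π₁)), a Ω = φ n ((sub 9 (c.ss π₁)).starProjection x) →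
      a' Ω = φ n ((sub 9 (c.ss π₁)).starProjection (c.Ad9 (permU τ) x)) →
      pr (φ n) (pr' (c.actF (permU τ) (φ n)) (χ n)) x =
        a ((c.U (permU τ) * a' * c.U (permU τ)) (χ n ((sub 9 (c.ss π₃)).starProjection x))) := by
    intro n x hx a ha a' ha' e e'
    rw [((hpr _ (hφ.mem n) (fun x _ => hφe n x) _ (h4.mem n)).2.2.2 x hx).2 a ha e]
    congr 1
    rw [((hpr' _ (hφ'.mem n) (fun x _ => hφe' n x) _ (hχ.mem n)).2.2.2 _
      ((sub 9 (c.ss π₄)).starProjection_apply_mem x)).2 (c.U (permU τ) * a' * c.U (permU τ)),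
      proj_proj l3]
    · refine conj_mem_Cl hUU hUU (c.Uθ (permU τ)) (fun y hy => ?_) ha'
      rw [mem_sub] at hy ⊢
      intro i
      rw [cmp_kr_one]
      exact (c.perm_mem_ss m12 _).2 (hy i)
    · rw [proj_proj l2, Ctx.actF, huinv, Ad9_proj c (c.perm_mem_ss m21), ← e', mul_apply_eq_comp,
        mul_apply_eq_comp, hΩ3]
  have inv : ∀ n, ∀ x ∈ sub 9 (c.ss π'),
      c.actF (permU τ) (pr (φ n) (pr' (c.actF (permU τ) (φ n)) (χ n))) x =
        pr (φ n) (pr' (c.actF (permU τ) (φ n)) (χ n)) x := by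
    intro n x hx
    have hx' : c.Ad9 (permU τ) x ∈ sub 9 (c.ss π') :=
      (Cov4Aux.Ad9_mem_iff c (c.perm_mem_ss m') x).2 hx
    obtain ⟨a, ha, hae, e⟩ :=
      ((hpr _ (hφ.mem n) (fun x _ => hφe n x) _ (h4.mem n)).2.2.2 x hx).1
    obtain ⟨a', ha', -, e'⟩ :=
      ((hpr _ (hφ.mem n) (fun x _ => hφe n x) _ (h4.mem n)).2.2.2 _ hx').1
    have h3 : (sub 9 (c.ss π₃)).starProjection (c.Ad9 (permU τ) x) =
        (sub 9 (c.ss π₃)).starProjection x := by
      rw [← Ad9_proj c (c.Ad_mem_iff fun y hy => by rw [hfix y hy]; exact hy)]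
      refine ext_cmp fun i => ?_
      rw [Ctx.Ad9, cmp_kr_one]
      exact hfix _ (mem_sub.1 ((sub 9 (c.ss π₃)).starProjection_apply_mem x) i)
    have hf : c.U (permU τ) (χ n ((sub 9 (c.ss π₃)).starProjection x)) =
        χ n ((sub 9 (c.ss π₃)).starProjection x) :=
      U_fix c hfix hΩ1 hΩ (hΩ3 _)
        ((c.mem_D0.1 (hχ.mem n)).2 _ ((sub 9 (c.ss π₃)).starProjection_apply_mem x))
    have hcm : a * (c.U (permU τ) * a' * c.U (permU τ)) =
        (c.U (permU τ) * a' * c.U (permU τ)) * a := by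
      refine comm_Cl c (W := sub 16 (c.ss π₂)) (fun y hy => ?_) ?_
      · refine c.car.even_comm ⟨⟨c.Par, c.Par, c.Par_sq, c.Par_sq⟩, rfl⟩ c.Par_theta ha hae ?_
        exact (sub_isOrtho ho).symm hy
      · refine conj_mem_Cl hUU hUU (c.Uθ (permU τ)) (fun y hy => ?_) ha'
        rw [mem_sub] at hy ⊢
        intro i
        rw [cmp_kr_one]
        exact (c.perm_mem_ss m12 _).2 (hy i)
    rw [Ctx.actF, huinv, form n _ hx' a' ha' a ha e' (by rw [hAA]; exact e),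
      form n x hx a ha a' ha' e e', h3, ← mul_apply_eq_comp a, hcm]
    simp only [mul_apply_eq_comp, hf]
  have hfx : c.act (permU τ) π' π' β' = β' := by
    refine tendsto_nhds_unique (h5.act c m').lim (h5.lim.congr fun n => ?_)
    exact L2_congr (Eventually.of_forall fun x => (inv n x x.2).symm)
  have n' : β' ≠ 0 := by
    rw [← norm_ne_zero_iff, n5, n4, c.norm_act m12]
    exact mul_ne_zero (norm_ne_zero_iff.2 n1')
      (mul_ne_zero (norm_ne_zero_iff.2 n1') (norm_ne_zero_iff.2 n3'))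
  obtain ⟨z, hz⟩ := (finrank_eq_one_iff_of_nonzero' (⟨β', h5.mem_V c⟩ : c.V π' 1 0)
    fun h => n' (congrArg Subtype.val h)).1 d' ⟨β, hβ⟩
  have hz' : z • β' = β := congrArg Subtype.val hz
  rw [← hz', c.act_smul m', hfx]

theorem swap (h_prod : c.S_prod) (h_ev : c.S_ev) {π' : Setoid (Fin N)}
    (hd : ∀ π'' ≤ π', Module.finrank ℂ (c.V π'' 1 0) = 1) {p q : Fin N → Prop}
    (hp : ∀ a b, π' a b → p a → p b) (hq : ∀ a b, π' a b → q a → q b) (hpq : ∀ a, p a → ¬ q a)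
    {τ : Equiv.Perm (Fin N)} (hττ : τ * τ = 1) (h1 : ∀ a, q (τ a) ↔ p a)
    (h2 : ∀ a, ¬ p a → ¬ q a → τ a = a) (m' : Maps ⊤ π' π' τ) {β : LL (sub 9 (c.ss π')) F}
    (hβ : β ∈ c.V π' 1 0) : c.act (permU τ) π' π' β = β := by
  have hi : ∀ a, τ (τ a) = a := fun a => by rw [← Equiv.Perm.mul_apply, hττ]; rfl
  refine swap_abs c h_prod h_ev (π₁ := res π' p) (π₂ := res π' q)
    (π₃ := res π' fun a => ¬ p a ∧ ¬ q a) (π₄ := res π' fun a => ¬ p a) hττ
    (res_disj π' fun a h h' => h' h) (fun a b => ?_) (res_disj π' fun a h h' => h'.2 h)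
    (fun a b => ?_) ⟨fun _ => trivial, fun a b => ?_⟩ m' (ss_res_orth c π' hpq)
    (fun x hx => Ad_res c (fun a h => h2 a h.1 h.2) (fun a h => ?_) hx)
    (hd _ (res_le _ _)) (hd _ (res_le _ _)) (hd _ le_rfl) hβ
  · rw [res_iff, res_iff]
    constructor
    · intro h
      by_cases ha : p a
      · exact Or.inl (Or.inr ⟨ha, hp a b h ha, h⟩)
      · exact Or.inr (Or.inr ⟨ha, fun hb => ha (hp b a (π'.symm h) hb), h⟩)
    · rintro ((rfl | h) | (rfl | h))
      exacts [π'.refl a, h.2.2, π'.refl a, h.2.2]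
  · rw [res_iff, res_iff, res_iff]
    constructor
    · rintro (h | ⟨ha, hb, h⟩)
      · exact Or.inl (Or.inl h)
      · by_cases hqa : q a
        · exact Or.inl (Or.inr ⟨hqa, hq a b h hqa, h⟩)
        · exact Or.inr (Or.inr ⟨⟨ha, hqa⟩, ⟨hb, fun hqb => hqa (hq b a (π'.symm h) hqb)⟩, h⟩)
    · rintro ((h | h) | (h | h))
      · exact Or.inl h
      · exact Or.inr ⟨fun ha => hpq a ha h.1, fun hb => hpq b hb h.2.1, h.2.2⟩
      · exact Or.inl h
      · exact Or.inr ⟨h.1.1, h.2.1.1, h.2.2⟩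
  · rw [res_iff, res_iff, h1, h1, m'.2, τ.injective.eq_iff]
  · have := h2 _ h.1 h.2
    rw [hi] at this
    rw [this]
    exact h

theorem main (h_prod : c.S_prod) (h_ev : c.S_ev) {π' : Setoid (Fin N)} [DecidableRel π']
    (hd : ∀ π'' ≤ π', Module.finrank ℂ (c.V π'' 1 0) = 1) (n : ℕ) :
    ∀ w : Equiv.Perm (Fin N), (Finset.univ.filter fun a => ¬ π' (w a) a).card ≤ n →
      Maps ⊤ π' π' w → ∀ β ∈ c.V π' 1 0, c.act (permU w) π' π' β = β := by
  induction n with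
  | zero =>
    intro w hw _ β hβ
    refine c.act_of_mem_Grp (fun a => ?_) (c.mem_V_iff.1 hβ).1
    by_contra ha
    have := Finset.card_eq_zero.1 (Nat.le_zero.1 hw)
    exact Finset.filter_eq_empty_iff.1 this (Finset.mem_univ a) ha
  | succ n ih =>
    intro w hw m β hβ
    by_cases h0 : ∀ a, π' (w a) a
    · exact c.act_of_mem_Grp h0 (c.mem_V_iff.1 hβ).1
    obtain ⟨a₀, ha₀⟩ := not_forall.1 h0
    have hpq : ∀ a, π' a a₀ → ¬ π' a (w a₀) := fun a h h' => ha₀ (π'.trans (π'.symm h') h)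
    have k1 : ∀ a, π' (w a) (w a₀) ↔ π' a a₀ := fun a => m.2 a a₀
    have k2 : ∀ a, π' (w⁻¹ a) a₀ ↔ π' a (w a₀) := fun a => by
      rw [← k1]; simp
    let f : Fin N → Fin N := fun a =>
      if π' a a₀ then w a else if π' a (w a₀) then w⁻¹ a else a
    have f1 : ∀ a, π' a a₀ → f a = w a := fun a h => if_pos h
    have f2 : ∀ a, π' a (w a₀) → f a = w⁻¹ a := fun a h => by
      simp only [f]
      rw [if_neg fun h' => hpq a h' h, if_pos h]
    have f3 : ∀ a, ¬ π' a a₀ → ¬ π' a (w a₀) → f a = a := fun a h h' => by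
      simp only [f]
      rw [if_neg h, if_neg h']
    have hf : Function.Involutive f := by
      intro a
      by_cases h : π' a a₀
      · rw [f1 a h, f2 _ ((k1 a).2 h)]; simp
      · by_cases h' : π' a (w a₀)
        · rw [f2 a h', f1 _ ((k2 a).2 h')]; simp
        · rw [f3 a h h', f3 a h h']
    have hττ : hf.toPerm f * hf.toPerm f = 1 := Equiv.ext hf
    have hm : ∀ a b, π' a b → π' (f a) (f b) := by
      intro a b hab
      by_cases h : π' a a₀
      · rw [f1 a h, f1 b (π'.trans (π'.symm hab) h)]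
        exact (m.2 a b).2 hab
      · by_cases h' : π' a (w a₀)
        · rw [f2 a h', f2 b (π'.trans (π'.symm hab) h')]
          exact (m.symm.2 a b).2 hab
        · rw [f3 a h h', f3 b (fun h'' => h (π'.trans hab h'')) fun h'' => h' (π'.trans hab h'')]
          exact hab
    have mτ : Maps ⊤ π' π' (hf.toPerm f) := by
      refine ⟨fun _ => trivial, fun a b => ⟨fun h => ?_, hm a b⟩⟩
      have := hm _ _ h
      rwa [Function.Involutive.coe_toPerm, hf a, hf b] at this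
    have hs : ∀ β ∈ c.V π' 1 0, c.act (permU (hf.toPerm f)) π' π' β = β := by
      intro β hβ
      refine swap c h_prod h_ev hd (p := fun a => π' a a₀) (q := fun a => π' a (w a₀))
        (fun a b h h' => π'.trans (π'.symm h) h') (fun a b h h' => π'.trans (π'.symm h) h')
        hpq hττ (fun a => ?_) f3 mτ hβ
      rw [Function.Involutive.coe_toPerm]
      by_cases h : π' a a₀
      · rw [f1 a h, k1]
      · by_cases h' : π' a (w a₀)
        · rw [f2 a h']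
          exact iff_of_false (hpq _ ((k2 a).2 h')) h
        · rw [f3 a h h']
          exact iff_of_false h' h
    have hc : (Finset.univ.filter fun a => ¬ π' ((hf.toPerm f * w) a) a).card ≤ n := by
      refine Nat.le_of_lt_succ (lt_of_lt_of_le (Finset.card_lt_card ?_) hw)
      have key : ∀ a, π' a a₀ → π' ((hf.toPerm f * w) a) a := by
        intro a h
        rw [Equiv.Perm.mul_apply, Function.Involutive.coe_toPerm, f2 _ ((k1 a).2 h)]
        simp
      refine ⟨fun a ha => ?_, fun h => ?_⟩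
      · rw [Finset.mem_filter] at ha ⊢
        refine ⟨ha.1, fun h => ha.2 ?_⟩
        by_cases h1 : π' a a₀
        · exact key a h1
        · rw [Equiv.Perm.mul_apply, Function.Involutive.coe_toPerm,
            f3 _ (fun h2 => h1 (π'.trans (π'.symm h) h2)) fun h2 => h1 ((k1 a).1 h2)]
          exact h
      · have := h (Finset.mem_filter.2 ⟨Finset.mem_univ a₀, ha₀⟩)
        exact (Finset.mem_filter.1 this).2 (key a₀ (π'.refl a₀))
    have h1 := ih _ hc (m.trans mτ) β hβ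
    have h2 := c.act_act (m.trans mτ) mτ β
    rw [h1, hs β hβ, ← mul_assoc, hττ, one_mul] at h2
    exact h2.symm

end SgAux

namespace Ctx

variable {N d : ℕ} {F : Type} [NormedAddCommGroup F] [InnerProductSpace ℂ F]
  [FiniteDimensional ℂ F] (c : Ctx N d F)

theorem p_sg (h_prod : c.S_prod) (h_ev : c.S_ev) : c.S_sg := by
  classical
  intro π' hd π w m β hβ
  exact SgAux.main c h_prod h_ev hd _ w le_rfl ⟨fun _ => trivial, m.2⟩ β hβ

end Ctx

end Vale.Agent.P353
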