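import Vale.Agent.P353.Stmts

/-! The sign of block permutations: partitions, approximating sequences. -/

noncomputable section

open MeasureTheory Filter Topology Complex Matrix
open scoped ContDiff RealInnerProductSpace

namespace Vale.Agent.P353

namespace SgAux

variable {N : ℕ}

/-- the blocks of `π` inside `p`, singletons elsewhere -/
def res (π : Setoid (Fin N)) (p : Fin N → Prop) : Setoid (Fin N) where
  r a b := a = b ∨ (p a ∧ p b ∧ π a b)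
  iseqv := ⟨fun _ => Or.inl rfl, fun h => h.imp Eq.symm fun h => ⟨h.2.1, h.1, π.symm h.2.2⟩,
    fun h h' => by
      rcases h with rfl | h
      · exact h'
      · rcases h' with rfl | h'
        · exact Or.inr h
        · exact Or.inr ⟨h.1, h'.2.1, π.trans h.2.2 h'.2.2⟩⟩

theorem res_iff (π : Setoid (Fin N)) (p : Fin N → Prop) (a b : Fin N) :
    res π p a b ↔ a = b ∨ (p a ∧ p b ∧ π a b) := Iff.rfl

theorem res_le (π : Setoid (Fin N)) (p : Fin N → Prop) : res π p ≤ π := by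
  intro a b h
  rcases h with rfl | h
  · exact π.refl a
  · exact h.2.2

theorem res_disj (π : Setoid (Fin N)) {p q : Fin N → Prop} (h : ∀ a, p a → ¬ q a) (a b b' : Fin N)
    (h1 : res π p a b) (h2 : res π q a b') : a = b ∨ a = b' := by
  rcases h1 with h1 | h1
  · exact Or.inl h1
  · rcases h2 with h2 | h2
    · exact Or.inr h2
    · exact absurd h2.1 (h a h1.1)

variable {d : ℕ} {F : Type} [NormedAddCommGroup F] [InnerProductSpace ℂ F]
  [FiniteDimensional ℂ F] (c : Ctx N d F)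

theorem mat_res {π : Setoid (Fin N)} {p : Fin N → Prop} {x : Lg d} (hx : x ∈ c.ss (res π p))
    {a b : Fin N} (h : ¬ p a ∨ ¬ p b) : c.mat x a b = 0 := by
  classical
  obtain ⟨h1, h2⟩ := (c.mem_ss _ x).1 hx
  by_cases hab : a = b
  · subst hab
    have hp : ¬ p a := by tauto
    have := h2 a
    rw [Finset.sum_eq_single a] at this
    · rwa [if_pos ((res π p).refl a)] at this
    · intro b _ hb
      rw [if_neg]
      rintro (h3 | h3)
      · exact hb h3.symm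
      · exact hp h3.1
    · intro h3
      exact absurd (Finset.mem_univ a) h3
  · refine h1 a b ?_
    rintro (h3 | h3)
    · exact hab h3
    · tauto

theorem ss_res_orth (π : Setoid (Fin N)) {p q : Fin N → Prop} (h : ∀ a, p a → ¬ q a) :
    c.ss (res π p) ⟂ c.ss (res π q) := by
  rw [Submodule.isOrtho_iff_inner_eq]
  intro x hx y hy
  rw [c.b3b_inner]
  rw [Finset.sum_eq_zero, Complex.zero_re]
  intro a _
  refine Finset.sum_eq_zero fun b _ => ?_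
  by_cases ha : p a
  · rw [mat_res c hy (Or.inr (h a ha)), mul_zero]
  · rw [mat_res c hx (Or.inl ha), zero_mul]

theorem Ad_res {π : Setoid (Fin N)} {p : Fin N → Prop} {τ : Equiv.Perm (Fin N)}
    (hτ : ∀ a, p a → τ a = a) (hτ' : ∀ a, p (τ a) → p a) {x : Lg d} (hx : x ∈ c.ss (res π p)) :
    c.Ad (permU τ) x = x := by
  apply c.mat_injective
  ext a b
  obtain ⟨a, rfl⟩ := τ.surjective a
  obtain ⟨b, rfl⟩ := τ.surjective b
  rw [c.mat_Ad_permU]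
  by_cases ha : p a
  · by_cases hb : p b
    · rw [hτ a ha, hτ b hb]
    · rw [mat_res c hx (Or.inr hb), mat_res c hx (Or.inr fun h => hb (hτ' b h))]
  · rw [mat_res c hx (Or.inl ha), mat_res c hx (Or.inl fun h => ha (hτ' a h))]

/-- an approximating sequence -/
structure Ap (π : Setoid (Fin N)) (β : LL (sub 9 (c.ss π)) F) (φ : ℕ → Tn 9 d → F) : Prop where
  mem : ∀ n, φ n ∈ c.D0 π
  lim : Tendsto (fun n => L2 (sub 9 (c.ss π)) (φ n)) atTop (𝓝 β)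
  en : Tendsto (fun n => c.En (c.ss π) 1 0 (φ n)) atTop (𝓝 0)

theorem Ap.mem_V {π : Setoid (Fin N)} {β : LL (sub 9 (c.ss π)) F} {φ : ℕ → Tn 9 d → F}
    (h : Ap c π β φ) : β ∈ c.V π 1 0 :=
  mem_Ker_of_weak (fun α => c.contDiff_beta 1 0 (eb α)) (l := atTop) h.mem h.en
    fun _ => Filter.Tendsto.inner tendsto_const_nhds h.lim

theorem exists_Ap {π : Setoid (Fin N)} {β : LL (sub 9 (c.ss π)) F} (h : β ∈ c.V π 1 0) :
    ∃ φ, Ap c π β φ := by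
  have h1 := (mem_Ker_iff (fun α => c.contDiff_beta 1 0 (eb α))).1 h
  have h2 : ∀ n : ℕ, ∃ φ ∈ c.D0 π, ‖L2 (sub 9 (c.ss π)) φ - β‖ ≤ 1 / ((n : ℝ) + 1) ∧
      c.En (c.ss π) 1 0 φ ≤ 1 / ((n : ℝ) + 1) := fun n => h1 _ Nat.one_div_pos_of_nat
  choose φ h3 h4 h5 using h2
  refine ⟨φ, h3, ?_, ?_⟩
  · rw [tendsto_iff_norm_sub_tendsto_zero]
    exact squeeze_zero (fun n => norm_nonneg _) h4 tendsto_one_div_add_atTop_nhds_zero_nat
  · exact squeeze_zero (fun n => en_nonneg _ _ _ _) h5 tendsto_one_div_add_atTop_nhds_zero_nat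

theorem sm_of_D0 {π : Setoid (Fin N)} {φ : Tn 9 d → F} (h : φ ∈ c.D0 π) :
    Sm (sub 9 (c.ss π)) φ := h.1

theorem Par_mem {π : Setoid (Fin N)} {φ : Tn 9 d → F} (h : φ ∈ c.D0 π) :
    (fun x => c.Par (φ x)) ∈ c.D0 π := by
  refine clm_mem_Tst h ?_
  rintro _ (rfl | ⟨u, -, rfl⟩)
  · exact c.Par_P0 _
  · exact c.Par_U u

theorem exists_Ap_even {π : Setoid (Fin N)} {β : LL (sub 9 (c.ss π)) F} (h : β ∈ c.V π 1 0)
    (he : opL _ c.Par β = β) : ∃ φ, Ap c π β φ ∧ ∀ n x, c.Par (φ n x) = φ n x := by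
  obtain ⟨φ, hφ⟩ := exists_Ap c h
  have hβ := fun α => c.contDiff_beta 1 0 (eb α)
  refine ⟨fun n => (1 / 2 : ℂ) • (φ n + fun x => c.Par (φ n x)), ⟨fun n => ?_, ?_, ?_⟩, ?_⟩
  · exact (c.D0 π).smul_mem _ ((c.D0 π).add_mem (hφ.mem n) (Par_mem c (hφ.mem n)))
  · have h1 : ∀ n, L2 (sub 9 (c.ss π)) ((1 / 2 : ℂ) • (φ n + fun x => c.Par (φ n x))) =
        (1 / 2 : ℂ) • (L2 (sub 9 (c.ss π)) (φ n) + opL _ c.Par (L2 (sub 9 (c.ss π)) (φ n))) := by
      intro n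
      rw [L2_smul, L2_add (sm_of_D0 c (hφ.mem n)).memLp
        (sm_of_D0 c (Par_mem c (hφ.mem n))).memLp, opL_L2 _ (sm_of_D0 c (hφ.mem n)).memLp]
    simp only [h1]
    have h2 := (hφ.lim.add (((opL (sub 9 (c.ss π)) c.Par).continuous.tendsto β).comp
      hφ.lim)).const_smul (1 / 2 : ℂ)
    have h3 : (1 / 2 : ℂ) • (β + opL (sub 9 (c.ss π)) c.Par β) = β := by
      rw [he, ← two_smul ℂ β, smul_smul]
      norm_num
    rw [h3] at h2
    exact h2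
  · have h1 : ∀ n, √(c.En (c.ss π) 1 0 (φ n + fun x => c.Par (φ n x))) ≤
        √(c.En (c.ss π) 1 0 (φ n)) + √(‖c.Par‖ ^ 2 * c.En (c.ss π) 1 0 (φ n)) := by
      intro n
      refine (IsCAR.en_add_le 1 _ hβ (sm_of_D0 c (hφ.mem n))
        (sm_of_D0 c (Par_mem c (hφ.mem n)))).trans (add_le_add le_rfl (Real.sqrt_le_sqrt ?_))
      refine Ga5Aux.en_clm hβ (Or.inr rfl) (fun α x _ => ⟨?_, ?_⟩) (sm_of_D0 c (hφ.mem n))
      · rw [c.Par_theta, neg_one_smul]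
      · rw [c.Par_theta, neg_one_smul]
    have h2 : Tendsto (fun n => √(c.En (c.ss π) 1 0 (φ n)) +
        √(‖c.Par‖ ^ 2 * c.En (c.ss π) 1 0 (φ n))) atTop (𝓝 0) := by
      have := hφ.en.sqrt.add (hφ.en.const_mul (‖c.Par‖ ^ 2)).sqrt
      simpa using this
    have h3 := (squeeze_zero (fun n => Real.sqrt_nonneg _) h1 h2).pow 2
    have h4 := h3.const_mul (‖(1 / 2 : ℂ)‖ ^ 2)
    rw [zero_pow two_ne_zero, mul_zero] at h4
    refine h4.congr fun n => ?_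
    unfold Ctx.En
    rw [Real.sq_sqrt (en_nonneg _ _ _ _)]
    exact (en_smul _ _ _ _ _).symm
  · intro n x
    have h1 : c.Par (c.Par (φ n x)) = φ n x := by
      rw [← mul_apply_eq_comp, c.Par_sq, one_apply_eq_self]
    simp only [Pi.smul_apply, Pi.add_apply, map_smul, map_add, h1, add_comm]

theorem act_continuous {π π' π'' : Setoid (Fin N)} {w : Equiv.Perm (Fin N)}
    (h : Maps π π' π'' w) : Continuous (c.act (permU w) π' π'') := by
  refine Isometry.continuous (Isometry.of_dist_eq fun β β' => ?_)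
  rw [dist_eq_norm, dist_eq_norm, ← c.act_sub h, c.norm_act h]

theorem Ap.act {π π' π'' : Setoid (Fin N)} {w : Equiv.Perm (Fin N)} (h : Maps π π' π'' w)
    {β : LL (sub 9 (c.ss π')) F} {φ : ℕ → Tn 9 d → F} (hφ : Ap c π' β φ) :
    Ap c π'' (c.act (permU w) π' π'' β) fun n => c.actF (permU w) (φ n) := by
  refine ⟨fun n => c.actF_mem_D0 h (hφ.mem n), ?_, ?_⟩
  · refine (((act_continuous c h).tendsto β).comp hφ.lim).congr fun n => ?_
    exact c.act_L2 h (sm_of_D0 c (hφ.mem n)).memLp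
  · refine hφ.en.congr fun n => ?_
    exact (c.En_actF h 1 0 ((sm_of_D0 c (hφ.mem n)).1.differentiable (by simp))).symm

theorem Ap.nrm {π : Setoid (Fin N)} {β : LL (sub 9 (c.ss π)) F} {φ : ℕ → Tn 9 d → F}
    (h : Ap c π β φ) : Tendsto (fun n => nrm (sub 9 (c.ss π)) (φ n)) atTop (𝓝 (‖β‖ ^ 2)) :=
  (h.lim.norm.pow 2).congr fun n => norm_L2_sq (sm_of_D0 c (h.mem n)).memLp

theorem Ap.prod {π₁ π₂ π' : Setoid (Fin N)}
    {pr : (Tn 9 d → F) →ₗ[ℂ] (Tn 9 d → F) →ₗ[ℂ] (Tn 9 d → F)}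
    (hpr : ∀ φ ∈ c.D0 π₁, (∀ x ∈ sub 9 (c.ss π₁), c.Par (φ x) = φ x) → ∀ ψ ∈ c.D0 π₂,
      pr φ ψ ∈ c.D0 π' ∧
      P353.nrm (sub 9 (c.ss π')) (pr φ ψ) =
        P353.nrm (sub 9 (c.ss π₁)) φ * P353.nrm (sub 9 (c.ss π₂)) ψ ∧
      c.En (c.ss π') 1 0 (pr φ ψ) ≤ 2 * c.En (c.ss π₁) 1 0 φ * P353.nrm (sub 9 (c.ss π₂)) ψ +
        2 * P353.nrm (sub 9 (c.ss π₁)) φ * c.En (c.ss π₂) 1 0 ψ)
    {β₁ : LL (sub 9 (c.ss π₁)) F} {β₂ : LL (sub 9 (c.ss π₂)) F} {φ ψ : ℕ → Tn 9 d → F}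
    (hφ : Ap c π₁ β₁ φ) (he : ∀ n, ∀ x ∈ sub 9 (c.ss π₁), c.Par (φ n x) = φ n x)
    (hψ : Ap c π₂ β₂ ψ) : ∃ β, Ap c π' β (fun n => pr (φ n) (ψ n)) ∧ ‖β‖ = ‖β₁‖ * ‖β₂‖ := by
  have hn : ∀ a ∈ c.D0 π₁, (∀ x ∈ sub 9 (c.ss π₁), c.Par (a x) = a x) → ∀ b ∈ c.D0 π₂,
      ‖L2 (sub 9 (c.ss π')) (pr a b)‖ =
        ‖L2 (sub 9 (c.ss π₁)) a‖ * ‖L2 (sub 9 (c.ss π₂)) b‖ := by
    intro a ha hea b hb
    obtain ⟨h1, h2, -⟩ := hpr a ha hea b hb
    rw [← norm_L2_sq (sm_of_D0 c h1).memLp, ← norm_L2_sq (sm_of_D0 c ha).memLp,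
      ← norm_L2_sq (sm_of_D0 c hb).memLp, ← mul_pow] at h2
    exact (pow_left_inj₀ (norm_nonneg _) (by positivity) two_ne_zero).1 h2
  have hm := fun n => (hpr _ (hφ.mem n) (he n) _ (hψ.mem n)).1
  have hC : CauchySeq fun n => L2 (sub 9 (c.ss π')) (pr (φ n) (ψ n)) := by
    rw [cauchySeq_iff_tendsto_dist_atTop_0]
    have hb : ∀ p : ℕ × ℕ, dist (L2 (sub 9 (c.ss π')) (pr (φ p.1) (ψ p.1)))
        (L2 (sub 9 (c.ss π')) (pr (φ p.2) (ψ p.2))) ≤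
        ‖L2 (sub 9 (c.ss π₁)) (φ p.1) - L2 (sub 9 (c.ss π₁)) (φ p.2)‖ *
          ‖L2 (sub 9 (c.ss π₂)) (ψ p.1)‖ + ‖L2 (sub 9 (c.ss π₁)) (φ p.2)‖ *
          ‖L2 (sub 9 (c.ss π₂)) (ψ p.1) - L2 (sub 9 (c.ss π₂)) (ψ p.2)‖ := by
      rintro ⟨n, m⟩
      have e1 : φ n - φ m ∈ c.D0 π₁ := (c.D0 π₁).sub_mem (hφ.mem n) (hφ.mem m)
      have e2 : ψ n - ψ m ∈ c.D0 π₂ := (c.D0 π₂).sub_mem (hψ.mem n) (hψ.mem m)
      have e3 : ∀ x ∈ sub 9 (c.ss π₁), c.Par ((φ n - φ m) x) = (φ n - φ m) x := by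
        intro x hx
        rw [Pi.sub_apply, map_sub, he n x hx, he m x hx]
      have e4 : pr (φ n) (ψ n) - pr (φ m) (ψ m) =
          pr (φ n - φ m) (ψ n) + pr (φ m) (ψ n - ψ m) := by
        rw [map_sub, map_sub, LinearMap.sub_apply]
        abel
      dsimp only
      rw [dist_eq_norm, ← L2_sub (sm_of_D0 c (hm n)).memLp (sm_of_D0 c (hm m)).memLp, e4,
        L2_add (sm_of_D0 c (hpr _ e1 e3 _ (hψ.mem n)).1).memLp
          (sm_of_D0 c (hpr _ (hφ.mem m) (he m) _ e2).1).memLp]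
      refine (norm_add_le _ _).trans (le_of_eq ?_)
      rw [hn _ e1 e3 _ (hψ.mem n), hn _ (hφ.mem m) (he m) _ e2,
        L2_sub (sm_of_D0 c (hφ.mem n)).memLp (sm_of_D0 c (hφ.mem m)).memLp,
        L2_sub (sm_of_D0 c (hψ.mem n)).memLp (sm_of_D0 c (hψ.mem m)).memLp]
    refine squeeze_zero (fun p => dist_nonneg) hb ?_
    have t1 : Tendsto (Prod.fst : ℕ × ℕ → ℕ) atTop atTop := by
      rw [← prod_atTop_atTop_eq]; exact tendsto_fst
    have t2 : Tendsto (Prod.snd : ℕ × ℕ → ℕ) atTop atTop := by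
      rw [← prod_atTop_atTop_eq]; exact tendsto_snd
    have := (((hφ.lim.comp t1).sub (hφ.lim.comp t2)).norm.mul (hψ.lim.comp t1).norm).add
      ((hφ.lim.comp t2).norm.mul ((hψ.lim.comp t1).sub (hψ.lim.comp t2)).norm)
    simpa using this
  obtain ⟨β, hβ⟩ := cauchySeq_tendsto_of_complete hC
  refine ⟨β, ⟨hm, hβ, ?_⟩, ?_⟩
  · refine squeeze_zero (fun n => en_nonneg _ _ _ _)
      (fun n => (hpr _ (hφ.mem n) (he n) _ (hψ.mem n)).2.2) ?_
    have := ((hφ.en.const_mul 2).mul (hψ.nrm c)).add (((hφ.nrm c).const_mul 2).mul hψ.en)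
    simpa using this
  · refine tendsto_nhds_unique hβ.norm ((hφ.lim.norm.mul hψ.lim.norm).congr fun n => ?_)
    exact (hn _ (hφ.mem n) (he n) _ (hψ.mem n)).symm

end SgAux

end Vale.Agent.P353
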