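import Vale.Agent.P353.Ga2Aux
import Vale.Agent.P353.Gau

/-! Generic lemmas for the slice identity. -/

noncomputable section

open MeasureTheory Filter Topology Complex Matrix
open scoped ContDiff RealInnerProductSpace

namespace Vale.Agent.P353.SiAux

variable {E : Type} [NormedAddCommGroup E] [InnerProductSpace ℝ E]
variable {S : Type} [NormedAddCommGroup S] [InnerProductSpace ℝ S]
variable {F : Type} [NormedAddCommGroup F] [InnerProductSpace ℂ F]

/-- the pointwise algebra -/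
theorem alg (θ : S →L[ℝ] F →L[ℂ] F) (P : F →L[ℂ] F) (s : E →L[ℝ] S) {ι₁ ι₂ ι₃ : Type}
    [Fintype ι₁] [Fintype ι₂] [Fintype ι₃] (k : ι₁ → E) (w : ι₂ → E) (t : ι₃ → E)
    (D : E →L[ℝ] F) (p : F) (N : ι₁ → F →L[ℂ] F) (Gs : ι₃ → F →L[ℂ] F) (τW τX : ι₃ → E)
    (q : ι₃ → ℝ) (a : E) (κ G g m : ℝ) (ΦX Φx KX KW : S)
    (hc : ∀ i, P * θ (s (k i)) = θ (s (k i)) * P)
    (hβ : P * θ (g • ΦX + m • KX) = θ (g • ΦX + m • KX) * P)
    (hD : ∀ i, D (t i) = Gs i p - D (τW i) - D (τX i))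
    (ha : a = ∑ j, ⟪w j, a⟫ • w j + ∑ i, ⟪t i, a⟫ • t i)
    (hq : ∀ i, ⟪τW i, a⟫ = q i - ⟪t i, a⟫) :
    ((κ * G : ℝ) : ℂ) • P ((∑ i, (-I) • θ (s (k i)) (D (k i)) + (∑ j, (-I) • θ (s (w j)) (D (w j)) +
        ∑ i, (-I) • θ (s (t i)) (D (t i)))) + θ (g • Φx + m • (KX + KW)) p) +
      (∑ i, (-I) • (θ (s (k i)) * N i) - ((κ * G : ℝ) : ℂ) • (P *
        ((g : ℂ) • ((-I) • θ (s a) + θ (Φx - ΦX)) + (m : ℂ) • θ KW +
          ∑ i, (-I) • (θ (s (t i)) * Gs i) + ∑ i, (I * ((g * q i : ℝ) : ℂ)) • θ (s (t i))))) p +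
      ∑ i, (-I * ((κ * G : ℝ) : ℂ)) • P (θ (s (t i)) (D (τX i))) =
    (∑ i, (-I) • θ (s (k i)) (N i p + ((κ * G : ℝ) : ℂ) • P (D (k i))) +
      θ (g • ΦX + m • KX) (((κ * G : ℝ) : ℂ) • P p)) +
    (∑ j, ((G : ℂ) • ((-I * κ) • (P * θ (s (w j)))) (D (w j)) -
        ((g * ⟪w j, a⟫ * G : ℝ) : ℂ) • ((-I * κ) • (P * θ (s (w j)))) p) -
      ∑ i, ((G : ℂ) • ((-I * κ) • (P * θ (s (t i)))) (D (τW i)) -
        ((g * ⟪τW i, a⟫ * G : ℝ) : ℂ) • ((-I * κ) • (P * θ (s (t i)))) p)) := by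
  have hc' : ∀ i y, θ (s (k i)) (P y) = P (θ (s (k i)) y) := fun i y =>
    (congrArg (fun T : F →L[ℂ] F => T y) (hc i)).symm
  have hβ' : θ (g • ΦX + m • KX) (P p) = P (θ (g • ΦX + m • KX) p) :=
    (congrArg (fun T : F →L[ℂ] F => T p) hβ).symm
  have ha' : P (θ (s a) p) = ∑ j, ((⟪w j, a⟫ : ℝ) : ℂ) • P (θ (s (w j)) p) +
      ∑ i, ((⟪t i, a⟫ : ℝ) : ℂ) • P (θ (s (t i)) p) := by
    conv_lhs => rw [ha]
    simp only [map_add, map_sum, map_smul, _root_.add_apply,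
      _root_.sum_apply, _root_.smul_apply, ← coe_smul]
  rw [map_smul, hβ']
  simp only [map_add, map_sub, map_sum, map_smul, _root_.add_apply,
    _root_.sub_apply, _root_.sum_apply, _root_.smul_apply,
    mul_apply_eq_comp, ← coe_smul, hc', hD, ha', hq, smul_add, smul_sub, Finset.smul_sum,
    Finset.sum_add_distrib, Finset.sum_sub_distrib, smul_smul]
  push_cast
  simp only [mul_sub, sub_smul, Finset.sum_sub_distrib, mul_neg, neg_smul,
    Finset.sum_neg_distrib, mul_assoc, mul_comm, mul_left_comm]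
  abel

variable [FiniteDimensional ℝ E] [MeasurableSpace E] [BorelSpace E] {U U' W : Submodule ℝ E}
  [FiniteDimensional ℂ F]

theorem intg {V : Type} [NormedAddCommGroup V] {f : E → V} (hf : Continuous f) {R : ℝ}
    (h : ∀ w ∈ W, R < ‖w‖ → f w = 0) : Integrable fun w : W => f w := by
  refine (hf.comp continuous_subtype_val).integrable_of_hasCompactSupport
    (HasCompactSupport.intro (isCompact_closedBall (0 : W) R) fun w hw => h w w.2 ?_)
  simpa using hw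

omit [FiniteDimensional ℝ E] [MeasurableSpace E] [BorelSpace E] in
theorem norm_le (h : U' ⟂ W) {x w : E} (hx : x ∈ U') (hw : w ∈ W) : ‖w‖ ≤ ‖x + w‖ := by
  have h1 := norm_add_sq_real x w
  rw [h.inner_eq hx hw] at h1
  refine (pow_le_pow_iff_left₀ (norm_nonneg _) (norm_nonneg _) two_ne_zero).1 ?_
  nlinarith [sq_nonneg ‖x‖]

omit [FiniteDimensional ℂ F] in
theorem fderiv_zero {ψ : E → F} (h : ContDiff ℝ ∞ ψ) {R : ℝ} (hR : ∀ x ∈ U, R < ‖x‖ → ψ x = 0)
    {x y : E} (hx : x ∈ U) (hy : y ∈ U) (hlt : R < ‖x‖) : fderiv ℝ ψ x y = 0 := by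
  have hev : ∀ᶠ z in 𝓝 x, z ∈ U → ψ z = (fun _ => (0 : F)) z :=
    Filter.Eventually.mono ((isOpen_lt continuous_const continuous_norm).mem_nhds hlt)
      fun z hz hzU => hR z hzU hz
  have := fderiv_congr_on (h.differentiable (by simp) x) (differentiableAt_const (0 : F)) hx hy hev
  simpa using this

/-- integration by parts against the Gaussian -/
theorem ibp0 {A : E →L[ℝ] E} (hA : IsSym A) (g : ℝ) {ψ : E → F} (hψ : ContDiff ℝ ∞ ψ) (X : E)
    {R : ℝ} (hR : ∀ w ∈ W, R < ‖w‖ → ψ (X + w) = 0) (T : F →L[ℂ] F) {τ : E → E}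
    (hτ : ContDiff ℝ 1 τ) (hτW : ∀ w ∈ W, τ w ∈ W)
    (hdiv : ∀ w ∈ W, ∑ j, ⟪onb W j, fderiv ℝ τ w (onb W j)⟫ = 0) :
    (Integrable fun w : W => (gauss W (g • A) w : ℂ) • T (fderiv ℝ ψ (X + w) (τ w)) -
      ((g * ⟪τ w, A w⟫ * gauss W (g • A) w : ℝ) : ℂ) • T (ψ (X + w))) ∧
    ∫ w : W, ((gauss W (g • A) w : ℂ) • T (fderiv ℝ ψ (X + w) (τ w)) -
      ((g * ⟪τ w, A w⟫ * gauss W (g • A) w : ℝ) : ℂ) • T (ψ (X + w))) = 0 := by
  have hB : IsSym (g • A) := fun u v => by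
    simp only [_root_.smul_apply, real_inner_smul_left, real_inner_smul_right, hA u v]
  have h1 : ContDiff ℝ ∞ fun w => ψ (X + w) := hψ.comp (contDiff_const.add contDiff_id)
  have h2 : ContDiff ℝ ∞ fun w => T (ψ (X + w)) := (T.restrictScalars ℝ).contDiff.comp h1
  have h3 : ContDiff ℝ ∞ fun w => (gauss W (g • A) w : ℂ) • T (ψ (X + w)) :=
    Ga2Aux.contDiff_mulR h2 (contDiff_gauss W _)
  have h4 : ∀ w y, fderiv ℝ (fun w => T (ψ (X + w))) w y = T (fderiv ℝ ψ (X + w) y) := by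
    intro w y
    have h5 : HasFDerivAt (fun w => ψ (X + w)) (fderiv ℝ ψ (X + w)) w := by
      have := (hψ.differentiable (by simp) (X + w)).hasFDerivAt.comp w
        ((hasFDerivAt_id w).const_add X)
      simpa [Function.comp_def] using this
    have h6 : HasFDerivAt (fun w => T (ψ (X + w)))
        ((T.restrictScalars ℝ).comp (fderiv ℝ ψ (X + w))) w :=
      (T.restrictScalars ℝ).hasFDerivAt.comp w h5
    rw [h6.fderiv]
    rfl
  have h7 : ∀ w, (gauss W (g • A) w : ℂ) • T (fderiv ℝ ψ (X + w) (τ w)) -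
      ((g * ⟪τ w, A w⟫ * gauss W (g • A) w : ℝ) : ℂ) • T (ψ (X + w)) =
      fderiv ℝ (fun w => (gauss W (g • A) w : ℂ) • T (ψ (X + w))) w (τ w) := by
    intro w
    rw [Ga2Aux.fderiv_mulR (h2.differentiable (by simp) w)
      ((contDiff_gauss W _).differentiable (by simp) w), h4, fderiv_gauss hB, sub_eq_add_neg,
      ← neg_smul, ← ofReal_neg, _root_.smul_apply, real_inner_smul_right, neg_mul]
  have h8 : ∀ w ∈ W, R < ‖w‖ → (gauss W (g • A) w : ℂ) • T (ψ (X + w)) = 0 := fun w hw hlt => by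
    rw [hR w hw hlt, map_zero, smul_zero]
  simp only [h7]
  refine ⟨intg (f := fun w => fderiv ℝ (fun w => (gauss W (g • A) w : ℂ) • T (ψ (X + w))) w (τ w))
    ((h3.continuous_fderiv (by simp)).clm_apply hτ.continuous) (R := R) fun w hw hlt =>
      fderiv_zero h3 h8 hw (hτW w hw) hlt, ?_⟩
  rw [integral_fderiv_field (h3.of_le (by simp)) (sm_of_bound h3 h8).2 hτ hτW]
  have h9 : ∀ w : W, (∑ j, ⟪onb W j, fderiv ℝ τ w (onb W j)⟫) •
      (gauss W (g • A) w : ℂ) • T (ψ (X + w)) = 0 := fun w => by rw [hdiv w w.2, zero_smul]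
  simp only [h9, integral_zero, neg_zero]

/-- differentiation under the integral -/
theorem fderiv_int (hU' : U' ≤ U) (hW : W ≤ U) (hort : U' ⟂ W) {O : Set E}
    (hO : IsOpen O) {M : E → E → F →L[ℂ] F}
    (hM : ∀ Y ∈ O, ∀ w, ContDiffAt ℝ ∞ (fun p : E × E => M p.1 p.2) (Y, w)) {ψ : E → F}
    (hψ : ContDiff ℝ ∞ ψ) {R : ℝ} (hR : ∀ x ∈ U, R < ‖x‖ → ψ x = 0) {X y : E} (hX : X ∈ U')
    (hXO : X ∈ O) (hy : y ∈ U') :
    fderiv ℝ (fun x => ∫ w : W, M (U'.starProjection x) w (ψ (U'.starProjection x + w))) X y =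
      ∫ w : W, (fderiv ℝ (fun Y => M Y w) X y (ψ (X + w)) + M X w (fderiv ℝ ψ (X + w) y)) := by
  have hP : ContDiff ℝ ∞ fun x : E => U'.starProjection x := U'.starProjection.contDiff
  have hPX : U'.starProjection X = X := Submodule.starProjection_eq_self_iff.2 hX
  have hPy : U'.starProjection y = y := Submodule.starProjection_eq_self_iff.2 hy
  have hO' : IsOpen ((fun x => U'.starProjection x) ⁻¹' O) := hO.preimage hP.continuous
  have hXO' : X ∈ (fun x => U'.starProjection x) ⁻¹' O := by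
    rw [Set.mem_preimage, hPX]
    exact hXO
  have h1 := (contDiffOn_integral (U := W)
    (Φ := fun x w => M (U'.starProjection x) w (ψ (U'.starProjection x + w))) hO' ?_ (R := R)
    ?_).2 X hXO' y
  · rw [h1]
    refine integral_congr_ae (Eventually.of_forall fun w => ?_)
    have h2 : HasFDerivAt (fun Y => M Y w) (fderiv ℝ (fun Y => M Y w) X) X :=
      (((hM X hXO w).comp X (f := fun Y : E => (Y, (w : E)))
        (contDiffAt_id.prodMk contDiffAt_const)).differentiableAt (by simp)).hasFDerivAt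
    have h3 : HasFDerivAt (fun Y => ψ (Y + w)) (fderiv ℝ ψ (X + w)) X := by
      have := (hψ.differentiable (by simp) (X + w)).hasFDerivAt.comp X
        ((hasFDerivAt_id X).add_const (w : E))
      simpa [Function.comp_def] using this
    have h4 := (((ContinuousLinearMap.restrictScalarsL ℂ F F ℝ ℝ).hasFDerivAt.comp X h2).clm_apply
      h3)
    rw [← hPX] at h4
    have h5 := (h4.comp X U'.starProjection.hasFDerivAt).fderiv
    have h6 := congrArg (fun L : E →L[ℝ] F => L y) h5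
    simp only [ContinuousLinearMap.comp_apply, hPy, hPX, _root_.add_apply,
      ContinuousLinearMap.flip_apply, Function.comp_apply] at h6
    exact h6.trans (add_comm _ _)
  · intro p hp
    refine ContDiffAt.contDiffWithinAt ?_
    have h2 : ContDiffAt ℝ ∞ (fun p : E × E => M (U'.starProjection p.1) p.2) p :=
      (hM _ hp.1 p.2).comp p (f := fun p : E × E => (U'.starProjection p.1, p.2))
        ((hP.comp contDiff_fst).prodMk contDiff_snd).contDiffAt
    have h3 : ContDiff ℝ ∞ fun p : E × E => ψ (U'.starProjection p.1 + p.2) :=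
      hψ.comp ((hP.comp contDiff_fst).add contDiff_snd)
    exact ((ContinuousLinearMap.restrictScalarsL ℂ F F ℝ ℝ).contDiff.contDiffAt.comp p
      h2).clm_apply h3.contDiffAt
  · intro x _ w hw hlt
    have hx := U'.starProjection_apply_mem x
    rw [hR _ (U.add_mem (hU' hx) (hW hw)) (hlt.trans_le (norm_le hort hx hw)), map_zero]

/-- generic localization map -/
def gT (U' W : Submodule ℝ E) (κ : E → ℝ) (G : E → E → ℝ) (P : E → F →L[ℂ] F) (ψ : E → F)
    (x : E) : F :=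
  (κ (U'.starProjection x) : ℂ) • ∫ w : W, (G (U'.starProjection x) w : ℂ) •
    P (U'.starProjection x) (ψ (U'.starProjection x + w))

/-- generic zero order kernel -/
def gK (θ : S →L[ℝ] F →L[ℂ] F) (s : E →L[ℝ] S) (U' : Submodule ℝ E) {ι : Type} [Fintype ι]
    (t : ι → E) (κ : E → ℝ) (G : E → E → ℝ) (P : E → F →L[ℂ] F) (A : E →L[ℝ] E) (g m : ℝ)
    (Φ : E → S) (K : E →L[ℝ] S) (Gs : ι → F →L[ℂ] F) (V : ι → E →L[ℝ] E) (X w : E) :
    F →L[ℂ] F :=
  ∑ k, (-I) • (θ (s (onb U' k)) *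
      fderiv ℝ (fun Y => ((κ Y * G Y w : ℝ) : ℂ) • P Y) X (onb U' k)) -
    ((κ X * G X w : ℝ) : ℂ) • (P X *
      ((g : ℂ) • ((-I) • θ (s (A w)) + θ (Φ (X + w) - Φ X)) + (m : ℂ) • θ (K w) +
        ∑ a, (-I) • (θ (s (t a)) * Gs a) +
        ∑ a, (I * ((g * ⟪V a w, A w⟫ : ℝ) : ℂ)) • θ (s (t a))))

/-- generic first order term -/
def gD (θ : S →L[ℝ] F →L[ℂ] F) (s : E →L[ℝ] S) (U' : Submodule ℝ E) {ι : Type} [Fintype ι]
    (t : ι → E) (κ : E → ℝ) (G : E → E → ℝ) (P : E → F →L[ℂ] F) (V : ι → E →L[ℝ] E)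
    (ψ : E → F) (X w : E) : F :=
  ∑ a, (-I * ((κ X * G X w : ℝ) : ℂ)) •
    P X (θ (s (t a)) (fderiv ℝ ψ (X + w) (U'.starProjection (V a w))))

omit [FiniteDimensional ℂ F] in
theorem gT_eq (κ : E → ℝ) (G : E → E → ℝ) (P : E → F →L[ℂ] F) (ψ : E → F) (x : E) :
    gT U' W κ G P ψ x = ∫ w : W, (((κ (U'.starProjection x) * G (U'.starProjection x) w : ℝ) : ℂ) •
      P (U'.starProjection x)) (ψ (U'.starProjection x + w)) := by
  simp only [gT, ← integral_smul, _root_.smul_apply, ofReal_mul, mul_smul]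

omit [FiniteDimensional ℂ F] in
theorem zero_case (θ : S →L[ℝ] F →L[ℂ] F) (s : E →L[ℝ] S) {ι : Type} [Fintype ι]
    (t : ι → E) {κ : E → ℝ} (G : E → E → ℝ) (P : E → F →L[ℂ] F) (A : E →L[ℝ] E) (g m : ℝ)
    (Φ : E → S) (K : E →L[ℝ] S) (Gs : ι → F →L[ℂ] F) (V : ι → E →L[ℝ] E) (β : E → S)
    (ψ φ : E → F) {X : E} (hX : X ∈ U') (h0 : ∀ᶠ Y in 𝓝 X, Y ∈ U' → κ Y = 0) :
    (Integrable fun w : W => gK θ s U' t κ G P A g m Φ K Gs V X w (ψ (X + w))) ∧
    (Integrable fun w : W => gD θ s U' t κ G P V ψ X w) ∧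
    dop θ U' 1 s β (gT U' W κ G P ψ) X = gT U' W κ G P φ X +
      (∫ w : W, gK θ s U' t κ G P A g m Φ K Gs V X w (ψ (X + w))) +
      ∫ w : W, gD θ s U' t κ G P V ψ X w := by
  have hPX : U'.starProjection X = X := Submodule.starProjection_eq_self_iff.2 hX
  have hκ : κ X = 0 := h0.self_of_nhds hX
  have h1 : ∀ w k, fderiv ℝ (fun Y => ((κ Y * G Y w : ℝ) : ℂ) • P Y) X (onb U' k) = 0 := by
    intro w k
    by_cases hd : DifferentiableAt ℝ (fun Y => ((κ Y * G Y w : ℝ) : ℂ) • P Y) X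
    · have := fderiv_congr_on hd (differentiableAt_const (0 : F →L[ℂ] F)) hX (onb_mem U' k)
        (h0.mono fun Y hY hYU => by rw [hY hYU, zero_mul, ofReal_zero, zero_smul])
      simpa using this
    · rw [fderiv_zero_of_not_differentiableAt hd, _root_.zero_apply]
  have hK : ∀ w, gK θ s U' t κ G P A g m Φ K Gs V X w = 0 := fun w => by
    simp only [gK, h1, hκ, mul_zero, smul_zero, zero_mul, ofReal_zero, zero_smul,
      Finset.sum_const_zero, sub_self]
  have hD : ∀ w, gD θ s U' t κ G P V ψ X w = 0 := fun w => by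
    simp only [gD, hκ, mul_zero, zero_mul, ofReal_zero, zero_smul, Finset.sum_const_zero]
  have hT : ∀ φ : E → F, gT U' W κ G P φ =ᶠ[𝓝 X] fun _ => 0 := fun φ => by
    have ht : Tendsto (fun x => U'.starProjection x) (𝓝 X) (𝓝 X) := by
      have := U'.starProjection.continuous.tendsto X
      rwa [hPX] at this
    filter_upwards [ht.eventually h0] with x hx
    rw [gT, hx (U'.starProjection_apply_mem x), ofReal_zero, zero_smul]
  simp only [hK, hD, _root_.zero_apply, integral_zero, add_zero, dop,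
    (hT ψ).fderiv_eq, (hT ψ).self_of_nhds, (hT φ).self_of_nhds, fderiv_fun_const, Pi.zero_apply,
    map_zero, smul_zero, Finset.sum_const_zero]
  exact ⟨integrable_zero _ _ _, integrable_zero _ _ _, trivial⟩

omit [FiniteDimensional ℂ F] in
theorem comb {f₁ f₂ f₃ l d : W → F} (i₁ : Integrable f₁) (i₂ : Integrable f₂) (i₃ : Integrable f₃)
    (il : Integrable l) (id : Integrable d) (hd : ∫ w, d w = 0)
    (h : ∀ w, f₁ w + f₂ w + f₃ w = l w + d w) :
    ∫ w, l w = (∫ w, f₁ w) + (∫ w, f₂ w) + ∫ w, f₃ w := by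
  have h1 : ∫ w, (f₁ w + f₂ w + f₃ w) = (∫ w, (f₁ w + f₂ w)) + ∫ w, f₃ w :=
    integral_add (i₁.add i₂) i₃
  rw [← integral_add i₁ i₂, ← h1, funext h, integral_add il id, hd, add_zero]

theorem lin {ι : Type} [Fintype ι] (z : ℂ) (T : ι → F →L[ℂ] F) (B : F →L[ℂ] F) {f : ι → W → F}
    {h : W → F} (i₁ : ∀ k, Integrable (f k)) (i₂ : Integrable h) :
    (Integrable fun w => ∑ k, z • T k (f k w) + B (h w)) ∧
      ∫ w, (∑ k, z • T k (f k w) + B (h w)) = ∑ k, z • T k (∫ w, f k w) + B (∫ w, h w) := by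
  have h1 : ∀ k, Integrable fun w => z • T k (f k w) := fun k =>
    ((T k).integrable_comp (i₁ k)).smul z
  have h2 : Integrable fun w => ∑ k, z • T k (f k w) := integrable_finsetSum _ fun k _ => h1 k
  refine ⟨h2.add (B.integrable_comp i₂), ?_⟩
  rw [integral_add h2 (B.integrable_comp i₂), integral_finsetSum _ fun k _ => h1 k,
    B.integral_comp_comm i₂]
  refine congrArg₂ _ (Finset.sum_congr rfl fun k _ => ?_) rfl
  rw [integral_smul, (T k).integral_comp_comm (i₁ k)]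

omit [FiniteDimensional ℂ F] in
theorem dz {ι κ : Type} [Fintype ι] [Fintype κ] {f : ι → W → F} {h : κ → W → F}
    (b₁ : ∀ j, Integrable (f j) ∧ ∫ w, f j w = 0) (b₂ : ∀ i, Integrable (h i) ∧ ∫ w, h i w = 0) :
    (Integrable fun w => ∑ j, f j w - ∑ i, h i w) ∧ ∫ w, (∑ j, f j w - ∑ i, h i w) = 0 := by
  have h1 : Integrable fun w => ∑ j, f j w := integrable_finsetSum _ fun j _ => (b₁ j).1
  have h2 : Integrable fun w => ∑ i, h i w := integrable_finsetSum _ fun i _ => (b₂ i).1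
  refine ⟨h1.sub h2, ?_⟩
  rw [integral_sub h1 h2, integral_finsetSum _ fun j _ => (b₁ j).1,
    integral_finsetSum _ fun i _ => (b₂ i).1]
  simp only [fun j => (b₁ j).2, fun i => (b₂ i).2, Finset.sum_const_zero, sub_zero]

theorem gen (θ : S →L[ℝ] F →L[ℂ] F) (s : E →L[ℝ] S) (hU' : U' ≤ U) (hW : W ≤ U) (hort : U' ⟂ W)
    {ι : Type} [Fintype ι] (t : ι → E)
    (hsplit : ∀ D : E →L[ℝ] F, ∑ k, (-I) • θ (s (onb U k)) (D (onb U k)) =
      ∑ k, (-I) • θ (s (onb U' k)) (D (onb U' k)) +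
        (∑ j, (-I) • θ (s (onb W j)) (D (onb W j)) + ∑ i, (-I) • θ (s (t i)) (D (t i))))
    {O : Set E} (hO : IsOpen O) {X : E} (hX : X ∈ U') (hXO : X ∈ O) {κ : E → ℝ} {G : E → E → ℝ}
    {P : E → F →L[ℂ] F} {A : E →L[ℝ] E} (g m : ℝ)
    (hM : ∀ Y ∈ O, ∀ w, ContDiffAt ℝ ∞ (fun p : E × E => ((κ p.1 * G p.1 p.2 : ℝ) : ℂ) • P p.1)
      (Y, w))
    (hG : ∀ w, G X w = gauss W (g • A) w) (hA : IsSym A) {Φ : E → S} (hΦ : Continuous Φ)
    (K : E →L[ℝ] S) (Gs : ι → F →L[ℂ] F) (V : ι → E →L[ℝ] E) {τ : ι → E → E}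
    (hτ : ∀ i, ContDiff ℝ 1 (τ i)) (hτW : ∀ i, ∀ w ∈ W, τ i w ∈ W)
    (hdiv : ∀ i, ∀ w ∈ W, ∑ j, ⟪onb W j, fderiv ℝ (τ i) w (onb W j)⟫ = 0)
    (hc : ∀ y ∈ U', P X * θ (s y) = θ (s y) * P X)
    (hβ : P X * θ (g • Φ X + m • K X) = θ (g • Φ X + m • K X) * P X)
    (ha : ∀ w, A w = ∑ j, ⟪onb W j, A w⟫ • onb W j + ∑ i, ⟪t i, A w⟫ • t i)
    (hq : ∀ i w, ⟪τ i w, A w⟫ = ⟪V i w, A w⟫ - ⟪t i, A w⟫) {ψ : E → F} (hψ : Sm U ψ)
    (hD : ∀ i, ∀ w ∈ W, fderiv ℝ ψ (X + w) (t i) = Gs i (ψ (X + w)) -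
      fderiv ℝ ψ (X + w) (τ i w) - fderiv ℝ ψ (X + w) (U'.starProjection (V i w))) :
    (Integrable fun w : W => gK θ s U' t κ G P A g m Φ K Gs V X w (ψ (X + w))) ∧
    (Integrable fun w : W => gD θ s U' t κ G P V ψ X w) ∧
    dop θ U' 1 s (fun x => g • Φ x + m • K x) (gT U' W κ G P ψ) X =
      gT U' W κ G P (dop θ U 1 s (fun x => g • Φ x + m • K x) ψ) X +
      (∫ w : W, gK θ s U' t κ G P A g m Φ K Gs V X w (ψ (X + w))) +
      ∫ w : W, gD θ s U' t κ G P V ψ X w := by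
  obtain ⟨R, hR⟩ := hψ.exists_bound
  have hPX : U'.starProjection X = X := Submodule.starProjection_eq_self_iff.2 hX
  have hm : ∀ w ∈ W, X + w ∈ U := fun w hw => U.add_mem (hU' hX) (hW hw)
  have z0 : ∀ w ∈ W, R < ‖w‖ → ψ (X + w) = 0 := fun w hw hlt =>
    hR _ (hm w hw) (hlt.trans_le (norm_le hort hX hw))
  have z1 : ∀ w ∈ W, R < ‖w‖ → ∀ y ∈ U, fderiv ℝ ψ (X + w) y = 0 := fun w hw hlt y hy =>
    fderiv_zero hψ.1 hR (hm w hw) hy (hlt.trans_le (norm_le hort hX hw))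
  have c0 : Continuous fun w => ψ (X + w) := hψ.1.continuous.comp (continuous_const_add X)
  have c1 : Continuous fun w => fderiv ℝ ψ (X + w) :=
    (hψ.1.continuous_fderiv (by simp)).comp (continuous_const_add X)
  have c2 : Continuous fun w => ((κ X * G X w : ℝ) : ℂ) := by
    simp only [hG]
    exact continuous_ofReal.comp (continuous_const.mul (contDiff_gauss W _).continuous)
  have c3 : ∀ y, Continuous fun w => fderiv ℝ (fun Y => ((κ Y * G Y w : ℝ) : ℂ) • P Y) X y := by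
    intro y
    refine Continuous.clm_apply (continuous_iff_continuousAt.2 fun w => ?_) continuous_const
    refine (ContDiffAt.fderiv (f := fun w Y => ((κ Y * G Y w : ℝ) : ℂ) • P Y) (g := fun _ => X)
      (m := 0) (n := ∞) ?_ contDiffAt_const (by simp)).continuousAt
    exact (hM X hXO w).comp (w, X) (f := Prod.swap) (contDiffAt_snd.prodMk contDiffAt_fst)
  have iK : Integrable fun w : W => gK θ s U' t κ G P A g m Φ K Gs V X w (ψ (X + w)) := by
    refine intg (f := fun w => gK θ s U' t κ G P A g m Φ K Gs V X w (ψ (X + w)))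
      (Continuous.clm_apply ?_ c0) (R := R) fun w hw hlt => by rw [z0 w hw hlt, map_zero]
    unfold gK
    fun_prop
  have iD : Integrable fun w : W => gD θ s U' t κ G P V ψ X w := by
    refine intg (f := fun w => gD θ s U' t κ G P V ψ X w) ?_ (R := R) fun w hw hlt => ?_
    · unfold gD
      fun_prop
    · refine Finset.sum_eq_zero fun i _ => ?_
      rw [z1 w hw hlt _ (hU' (U'.starProjection_apply_mem _)), map_zero, map_zero, smul_zero]
  have iQ : Integrable fun w : W => ((κ X * G X w : ℝ) : ℂ) •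
      P X (dop θ U 1 s (fun x => g • Φ x + m • K x) ψ (X + w)) := by
    refine intg (f := fun w => ((κ X * G X w : ℝ) : ℂ) •
      P X (dop θ U 1 s (fun x => g • Φ x + m • K x) ψ (X + w))) ?_ (R := R) fun w hw hlt => ?_
    · refine c2.smul ((P X).continuous.comp (Continuous.add (continuous_finsetSum _ fun k _ =>
        ((θ _).continuous.comp (c1.clm_apply continuous_const)).const_smul _)
          (Continuous.clm_apply ?_ c0)))
      fun_prop
    · simp only [dop, z0 w hw hlt, z1 w hw hlt _ (onb_mem U _), map_zero, smul_zero,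
        Finset.sum_const_zero, add_zero]
  have i1 : ∀ k, Integrable fun w : W =>
      fderiv ℝ (fun Y => ((κ Y * G Y w : ℝ) : ℂ) • P Y) X (onb U' k) (ψ (X + w)) +
        ((κ X * G X w : ℝ) : ℂ) • P X (fderiv ℝ ψ (X + w) (onb U' k)) := by
    intro k
    refine intg (f := fun w =>
      fderiv ℝ (fun Y => ((κ Y * G Y w : ℝ) : ℂ) • P Y) X (onb U' k) (ψ (X + w)) +
        ((κ X * G X w : ℝ) : ℂ) • P X (fderiv ℝ ψ (X + w) (onb U' k))) ?_ (R := R)
      fun w hw hlt => ?_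
    · exact ((c3 _).clm_apply c0).add
        (c2.smul ((P X).continuous.comp (c1.clm_apply continuous_const)))
    · simp only [z0 w hw hlt, z1 w hw hlt _ (hU' (onb_mem U' _)), map_zero, smul_zero, add_zero]
  have i2 : Integrable fun w : W => ((κ X * G X w : ℝ) : ℂ) • P X (ψ (X + w)) := by
    refine intg (f := fun w => ((κ X * G X w : ℝ) : ℂ) • P X (ψ (X + w)))
      (c2.smul ((P X).continuous.comp c0)) (R := R) fun w hw hlt => ?_
    simp only [z0 w hw hlt, map_zero, smul_zero]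
  have b1 := fun j => ibp0 (W := W) hA g hψ.1 X z0 ((-I * κ X) • (P X * θ (s (onb W j))))
    (τ := fun _ => onb W j) contDiff_const (fun _ _ => onb_mem W j) fun w _ => by simp
  have b2 := fun i => ibp0 (W := W) hA g hψ.1 X z0 ((-I * κ X) • (P X * θ (s (t i))))
    (hτ i) (hτW i) (hdiv i)
  simp only [← hG] at b1 b2
  refine ⟨iK, iD, ?_⟩
  have l1 := lin (-I) (fun k => θ (s (onb U' k))) (θ (g • Φ X + m • K X)) i1 i2
  have e1 : dop θ U' 1 s (fun x => g • Φ x + m • K x) (gT U' W κ G P ψ) X = ∫ w : W,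
      (∑ k, (-I) • θ (s (onb U' k))
        (fderiv ℝ (fun Y => ((κ Y * G Y w : ℝ) : ℂ) • P Y) X (onb U' k) (ψ (X + w)) +
          ((κ X * G X w : ℝ) : ℂ) • P X (fderiv ℝ ψ (X + w) (onb U' k))) +
        θ (g • Φ X + m • K X) (((κ X * G X w : ℝ) : ℂ) • P X (ψ (X + w)))) := by
    rw [l1.2, dop, funext (gT_eq κ G P ψ)]
    simp only [hPX, ofReal_one, mul_one]
    refine congrArg₂ _ (Finset.sum_congr rfl fun k _ => ?_) rfl
    rw [fderiv_int (M := fun Y w => ((κ Y * G Y w : ℝ) : ℂ) • P Y) hU' hW hort hO hM hψ.1 hR hX hXO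
      (onb_mem U' k)]
    rfl
  have e2 : gT U' W κ G P (dop θ U 1 s (fun x => g • Φ x + m • K x) ψ) X = ∫ w : W,
      ((κ X * G X w : ℝ) : ℂ) • P X (dop θ U 1 s (fun x => g • Φ x + m • K x) ψ (X + w)) := by
    rw [gT_eq, hPX]
    rfl
  rw [e1, e2]
  refine comb iQ iK iD l1.1 (dz b1 b2).1 (dz b1 b2).2 fun w => ?_
  have e4 := alg θ (P X) s (onb U') (onb W) t (fderiv ℝ ψ (X + w)) (ψ (X + w))
    (fun k => fderiv ℝ (fun Y => ((κ Y * G Y w : ℝ) : ℂ) • P Y) X (onb U' k)) Gs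
    (fun i => τ i w) (fun i => U'.starProjection (V i w)) (fun i => ⟪V i w, A w⟫) (A w) (κ X)
    (G X w) g m (Φ X) (Φ (X + w)) (K X) (K w) (fun k => hc _ (onb_mem U' k)) hβ
    (fun i => hD i w w.2) (ha w) fun i => hq i w
  rw [← hsplit, ← map_add K] at e4
  simp only [dop, ofReal_one, mul_one]
  exact e4

end Vale.Agent.P353.SiAux
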