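import Vale.Agent.P353.Stmts
import Vale.Agent.P353.Gau
import Vale.Agent.P353.SiAux

/-! The slice identity. -/

noncomputable section

open MeasureTheory Filter Topology Complex Matrix
open scoped ContDiff RealInnerProductSpace

namespace Vale.Agent.P353

namespace Ctx

variable {N d : ℕ} {F : Type} [NormedAddCommGroup F] [InnerProductSpace ℂ F]
  [FiniteDimensional ℂ F] (c : Ctx N d F)

theorem si_Rk (𝔞' 𝔴 : Submodule ℝ (Lg d)) (v : Fin 9 → ℝ) (χ : Tn 9 d → ℝ) (g m : ℝ)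
    (e : Fin 16 → ℝ) (X : Tn 9 d) : c.Rk 𝔞' 𝔴 v χ g m e X =
      SiAux.gK c.θ (c.sE e) (sub 9 𝔞') (fun a => tens v (onb 𝔴 a)) (c.kap 𝔴 v χ) (c.Gg 𝔴 v g)
        (c.Pw 𝔴) (c.Aw 𝔴 X) g m (c.Phi e) (c.Km e) (fun a => c.Gs (c.zet 𝔴 v X (onb 𝔴 a)))
        (fun a => c.vf (c.zet 𝔴 v X (onb 𝔴 a))) X := by
  funext W
  unfold Rk SiAux.gK
  rfl

theorem si_Rd (𝔞' 𝔴 : Submodule ℝ (Lg d)) (v : Fin 9 → ℝ) (χ : Tn 9 d → ℝ) (g : ℝ)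
    (e : Fin 16 → ℝ) (ψ : Tn 9 d → F) (X : Tn 9 d) : c.Rd 𝔞' 𝔴 v χ g e ψ X =
      SiAux.gD c.θ (c.sE e) (sub 9 𝔞') (fun a => tens v (onb 𝔴 a)) (c.kap 𝔴 v χ) (c.Gg 𝔴 v g)
        (c.Pw 𝔴) (fun a => c.vf (c.zet 𝔴 v X (onb 𝔴 a))) ψ X := by
  funext W
  unfold Rd SiAux.gD
  rfl

theorem si_Tr (𝔞' 𝔴 : Submodule ℝ (Lg d)) (v : Fin 9 → ℝ) (χ : Tn 9 d → ℝ) (g : ℝ)
    (ψ : Tn 9 d → F) : c.Tr 𝔞' 𝔴 v χ g ψ =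
      SiAux.gT (sub 9 𝔞') (Wsl 𝔴 v) (c.kap 𝔴 v χ) (c.Gg 𝔴 v g) (c.Pw 𝔴) ψ := by
  funext x
  unfold Tr T0 SiAux.gT
  rfl

theorem si_Q (𝔞 : Submodule ℝ (Lg d)) (g m : ℝ) (e : Fin 16 → ℝ) (ψ : Tn 9 d → F) :
    c.Q 𝔞 g m e ψ =
      dop c.θ (sub 9 𝔞) 1 (c.sE e) (fun x => g • c.Phi e x + m • c.Km e x) ψ := rfl

attribute [local irreducible] SiAux.gK

theorem si_main (h_lm1 : c.S_lm1) {π π' : Setoid (Fin N)} {𝔞 𝔴 : Submodule ℝ (Lg d)}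
    {v : Fin 9 → ℝ} {χ : Tn 9 d → ℝ} (hT : c.Th π 𝔞) (hv : v ⬝ᵥ v = 1) (hχ : ContDiff ℝ ∞ χ)
    {g : ℝ} (hg : 0 < g) (m : ℝ) (e : Fin 16 → ℝ) {ψ : Tn 9 d → F} (hψ : ψ ∈ c.D π 𝔞)
    {X : Tn 9 d} (hX : X ∈ sub 9 (𝔞 ⊓ c.blk π')) (hXO : X ∈ c.Ow 𝔴 v) (hblk : 𝔴 ≤ c.blk π)
    (hoa : 𝔴 ≤ 𝔞) (hbo : c.blk π' ≤ 𝔴ᗮ) (hsup : (𝔞 ⊓ c.blk π') ⊔ 𝔴 = 𝔞)
    (hGe : ∀ ξ ∈ 𝔴, c.Gw 𝔴 X ξ = c.vf ξ X) :
    (Integrable fun W : Wsl 𝔴 v => c.Rk (𝔞 ⊓ c.blk π') 𝔴 v χ g m e X W (ψ (X + W))) ∧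
    (Integrable fun W : Wsl 𝔴 v => c.Rd (𝔞 ⊓ c.blk π') 𝔴 v χ g e ψ X W) ∧
    c.Q (𝔞 ⊓ c.blk π') g m e (c.Tr (𝔞 ⊓ c.blk π') 𝔴 v χ g ψ) X =
      c.Tr (𝔞 ⊓ c.blk π') 𝔴 v χ g (c.Q 𝔞 g m e ψ) X +
      (∫ W : Wsl 𝔴 v, c.Rk (𝔞 ⊓ c.blk π') 𝔴 v χ g m e X W (ψ (X + W))) +
      ∫ W : Wsl 𝔴 v, c.Rd (𝔞 ⊓ c.blk π') 𝔴 v χ g e ψ X W := by
  rw [si_Rk, si_Rd, si_Tr, si_Tr, si_Q, si_Q]
  have hXb : X ∈ sub 9 (c.blk π') := sub_mono inf_le_right hX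
  have ho : 𝔞 ⊓ c.blk π' ⟂ 𝔴 := Submodule.IsOrtho.symm (fun x hx => by
    exact Submodule.orthogonal_le (inf_le_right.trans hbo) (𝔴.le_orthogonal_orthogonal hx))
  have ho9 : sub 9 (𝔞 ⊓ c.blk π') ⟂ sub 9 𝔴 := sub_isOrtho ho
  have hs9 : sub 9 (𝔞 ⊓ c.blk π') ⊔ sub 9 𝔴 = sub 9 𝔞 := by rw [← sub_sup, hsup]
  have hW9 : Wsl 𝔴 v ≤ sub 9 𝔴 := inf_le_left
  have hζ : ∀ a, c.zet 𝔴 v X (onb 𝔴 a) ∈ 𝔴 := fun a => h_lm1.zet_mem 𝔴 v X hXO _ (onb_mem 𝔴 a)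
  have hA9 : ∀ w, c.Aw 𝔴 X w ∈ sub 9 𝔴 := fun w => (h_lm1.A_mem 𝔴 v X hXO w).1
  have hψ' := c.mem_D.1 hψ
  refine SiAux.gen c.θ (c.sE e) (sub_mono inf_le_left) (hW9.trans (sub_mono hoa))
    (ho9.mono_right hW9) (fun a => tens v (onb 𝔴 a)) (fun D => ?_) (h_lm1.isOpen 𝔴 v) hX hXO
    (κ := c.kap 𝔴 v χ) (G := c.Gg 𝔴 v g) (P := c.Pw 𝔴) (A := c.Aw 𝔴 X) g m (fun Y hY w => ?_)
    (fun _ => rfl) (h_lm1.A_sym 𝔴 v X hXO) (c.contDiff_Phi e).continuous (c.Km e)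
    (fun a => c.Gs (c.zet 𝔴 v X (onb 𝔴 a))) (fun a => c.vf (c.zet 𝔴 v X (onb 𝔴 a)))
    (τ := fun a w => c.Gw 𝔴 X (c.zet 𝔴 v X (onb 𝔴 a)) - tens v (onb 𝔴 a) +
      (sub 9 𝔴).starProjection (c.vf (c.zet 𝔴 v X (onb 𝔴 a)) w))
    (fun a => contDiff_const.add (((sub 9 𝔴).starProjection.comp (c.vf _)).contDiff))
    (fun a w hw => ⟨?_, ?_⟩) (fun a w _ => Finset.sum_eq_zero fun j _ => ?_) (fun y hy => ?_) ?_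
    (fun w => ?_) (fun a w => ?_) hψ'.1 fun a w hw => ?_
  · obtain ⟨f, hf⟩ := Cov4Aux.exists_bil c.θ (-I) (c.sE e) D
    have h1 := sum_onb_sup f ho9 hs9
    rw [sum_onb_Wsl 𝔴 hv f] at h1
    simpa only [hf] using h1
  · have h1 : ContDiffAt ℝ ∞ (fun p : Tn 9 d × Tn 9 d => c.kap 𝔴 v χ p.1) (Y, w) :=
      (hχ.contDiffAt.mul (h_lm1.sm_j 𝔴 v Y hY)).comp (Y, w) contDiffAt_fst
    have h2 : ContDiffAt ℝ ∞ (fun p : Tn 9 d × Tn 9 d => c.Pw 𝔴 p.1) (Y, w) :=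
      ContDiffAt.comp (g := c.Pw 𝔴) (f := Prod.fst) (Y, w) (h_lm1.sm_P 𝔴 v Y hY) contDiffAt_fst
    simp only [coe_smul]
    exact (h1.mul (h_lm1.sm_G 𝔴 v g hg Y hY w)).smul h2
  · exact (sub 9 𝔴).add_mem ((sub 9 𝔴).sub_mem (h_lm1.G_mem 𝔴 X _)
      (tens_mem_sub v (onb_mem 𝔴 a))) ((sub 9 𝔴).starProjection_apply_mem _)
  · have h1 : cv v w = 0 := hw.2
    change cv v _ = 0
    rw [map_add, map_sub, h_lm1.cv_G 𝔴 v X _ (hζ a), h_lm1.a_zet 𝔴 v X hXO, cv_tens, hv, one_smul,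
      sub_self, zero_add, sub_starProjection, cv_kr_one, vf, cv_kr_one, h1, map_zero, map_zero]
  · have h1 : HasFDerivAt (fun w => c.Gw 𝔴 X (c.zet 𝔴 v X (onb 𝔴 a)) - tens v (onb 𝔴 a) +
        (sub 9 𝔴).starProjection (c.vf (c.zet 𝔴 v X (onb 𝔴 a)) w))
        ((sub 9 𝔴).starProjection.comp (c.vf (c.zet 𝔴 v X (onb 𝔴 a)))) w :=
      ((sub 9 𝔴).starProjection.comp (c.vf _)).hasFDerivAt.const_add _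
    have h2 := c.vf_skew (c.zet 𝔴 v X (onb 𝔴 a)) (onb (Wsl 𝔴 v) j) (onb (Wsl 𝔴 v) j)
    rw [real_inner_comm] at h2
    rw [h1.fderiv, ContinuousLinearMap.comp_apply, ← Submodule.inner_starProjection_left_eq_right,
      Submodule.starProjection_eq_self_iff.2 (hW9 (onb_mem _ j))]
    linarith
  · exact h_lm1.P_comm 𝔴 v X hXO _ (sub_mono (inf_le_right.trans hbo) (c.sE_mem e hy))
  · exact h_lm1.P_comm 𝔴 v X hXO _ ((sub 16 𝔴ᗮ).add_mem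
      ((sub 16 𝔴ᗮ).smul_mem _ (sub_mono (inf_le_left.trans hbo) (c.Phi_mem e hXb)))
      ((sub 16 𝔴ᗮ).smul_mem _ (sub_mono hbo (c.Km_mem e hXb))))
  · rw [Bas1Aux.onb_frame, Bas1Aux.tens_frame, ← Bas1Aux.Wsl_proj 𝔴 hv,
      Submodule.starProjection_eq_self_iff.2 (hA9 w)]
  · rw [inner_add_left, inner_sub_left, ← h_lm1.A_sym 𝔴 v X hXO, h_lm1.A_G 𝔴 v X hXO,
      inner_zero_left, Submodule.inner_starProjection_left_eq_right,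
      Submodule.starProjection_eq_self_iff.2 (hA9 w)]
    ring
  · have hw9 : w ∈ sub 9 𝔞 := sub_mono hoa (hW9 hw)
    have hx : X + w ∈ sub 9 𝔞 := (sub 9 𝔞).add_mem (sub_mono inf_le_left hX) hw9
    have h1 := hT.vf_mem c (hblk (hζ a)) hw9
    have h2 := Submodule.starProjection_eq_self_iff.2 h1
    rw [← hs9, Cov1Aux.sup_proj ho9, _root_.add_apply] at h2
    rw [← c.gauss_law hT (hψ'.1.1.differentiable (by simp)) hψ'.2 (hblk (hζ a)) hx, ← map_sub,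
      ← map_sub, map_add (c.vf _), ← hGe _ (hζ a)]
    refine congrArg _ ?_
    linear_combination (norm := abel) h2

theorem p_si (h_lm1 : c.S_lm1) (h_tb : c.S_tb) : c.S_si := by
  rintro π 𝔞 π' v χ ⟨hT, hπ, hv⟩ ⟨⟨hχ, K, hK, hKO, -, h0⟩, -⟩ g hg m e ψ hψ X hX
  by_cases hXO : X ∈ c.Ow (c.off π π') v
  · exact c.si_main h_lm1 hT hv hχ hg m e hψ hX hXO inf_le_left ((c.off_le_ss hπ).trans hT.1)
      (c.off_isOrtho_blk π π').symm (hT.sup_off c hπ)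
      (h_lm1.G_eq π π' hπ X (sub_mono inf_le_right hX))
  · rw [TT, TT, si_Rk, si_Rd, si_Tr, si_Tr, si_Q]
    refine SiAux.zero_case _ _ _ _ _ _ _ _ _ _ _ _ _ _ _ hX ?_
    filter_upwards [hK.isClosed.isOpen_compl.mem_nhds fun h => hXO (hKO h)] with Y hY hYU
    rw [kap, h0 Y hYU hY, zero_mul]

end Ctx

end Vale.Agent.P353
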