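import Vale.Agent.P353.Stmts
import Vale.Agent.P353.ChartAuxC

/-! The slice property. -/

noncomputable section

open MeasureTheory Filter Topology Complex Matrix
open scoped ContDiff RealInnerProductSpace

namespace Vale.Agent.P353

namespace SliceAux

theorem est {A : Type} [NormedRing A] [NormedAlgebra ℂ A] [StarRing A] [NormedStarGroup A]
    {u S : A} (hu : u * star u = 1) (hS : S = (I / 2) • (u - star u)) (h1 : ‖u - 1‖ ≤ 1) :
    ‖S‖ ≤ ‖u - 1‖ ∧ ‖u - 1‖ ≤ 2 * ‖S‖ ∧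
      ∀ y, ‖u * y * star u - y - (-I) • (S * y - y * S)‖ ≤ 8 * ‖S‖ ^ 2 * ‖y‖ := by
  obtain ⟨a, rfl⟩ : ∃ a, u = 1 + a := ⟨u - 1, by abel⟩
  rw [add_sub_cancel_left] at h1 ⊢
  rw [star_add, star_one] at hu hS ⊢
  have e4 : a * star a = -a - star a := by
    have : (1 + a) * (1 + star a) = 1 + (a + star a + a * star a) := by noncomm_ring
    rw [this, add_eq_left] at hu
    rw [eq_neg_of_add_eq_zero_right hu]
    abel
  have e1 : (-I) • S = (1 / 2 : ℂ) • (a - star a) := by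
    rw [hS, smul_smul, add_sub_add_left_eq_sub]
    congr 1
    rw [neg_mul, ← mul_div_assoc, I_mul_I]
    norm_num
  have n1 : ‖(-I) • S‖ = ‖S‖ := by rw [norm_smul]; simp
  have n2 : ‖a * star a‖ ≤ ‖a‖ * ‖a‖ := by simpa using norm_mul_le a (star a)
  have h2 : ‖S‖ ≤ ‖a‖ := by
    rw [← n1, e1, norm_smul]
    have := norm_sub_le a (star a)
    rw [norm_star] at this
    simp only [one_div, norm_inv, Complex.norm_ofNat]
    linarith
  have e2 : a = (-I) • S - (1 / 2 : ℂ) • (a * star a) := by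
    rw [e1, e4]
    module
  have h3 : ‖a‖ ≤ 2 * ‖S‖ := by
    have := norm_sub_le ((-I) • S) ((1 / 2 : ℂ) • (a * star a))
    rw [← e2, n1, norm_smul] at this
    simp only [one_div, norm_inv, Complex.norm_ofNat] at this
    nlinarith [norm_nonneg a]
  refine ⟨h2, h3, fun y => ?_⟩
  have e3 : (1 + a) * y * (1 + star a) - y - (-I) • (S * y - y * S) =
      a * y * star a - (1 / 2 : ℂ) • (a * star a * y) - (1 / 2 : ℂ) • (y * (a * star a)) := by
    rw [smul_sub, ← smul_mul_assoc, ← mul_smul_comm, e1, e4]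
    simp only [smul_mul_assoc, mul_smul_comm, sub_mul, mul_sub, add_mul, mul_add, one_mul,
      mul_one, neg_mul, mul_neg]
    module
  have n3 : ‖a * y * star a‖ ≤ ‖a‖ * ‖a‖ * ‖y‖ := by
    have := (norm_mul_le (a * y) (star a)).trans
      (mul_le_mul_of_nonneg_right (norm_mul_le a y) (norm_nonneg _))
    rw [norm_star] at this
    linarith
  have n4 := (norm_mul_le (a * star a) y).trans (mul_le_mul_of_nonneg_right n2 (norm_nonneg _))
  have n5 := (norm_mul_le y (a * star a)).trans (mul_le_mul_of_nonneg_left n2 (norm_nonneg _))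
  have n6 : ‖a‖ * ‖a‖ * ‖y‖ ≤ 2 * ‖S‖ * (2 * ‖S‖) * ‖y‖ :=
    mul_le_mul_of_nonneg_right (mul_self_le_mul_self (norm_nonneg _) h3) (norm_nonneg _)
  rw [e3]
  refine (norm_sub_le _ _).trans ((add_le_add_left (norm_sub_le _ _) _).trans ?_)
  simp only [norm_smul, one_div, norm_inv, Complex.norm_ofNat]
  nlinarith

variable {N d : ℕ} {F : Type} [NormedAddCommGroup F] [InnerProductSpace ℂ F]
  [FiniteDimensional ℂ F] (c : Ctx N d F)

/-- real part of the trace -/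
def tau (u : UN N) : ℝ := (u : Matrix (Fin N) (Fin N) ℂ).trace.re

theorem continuous_tau : Continuous (tau : UN N → ℝ) :=
  continuous_re.comp continuous_subtype_val.matrix_trace

theorem tau_one : tau (1 : UN N) = N := by simp [tau]

open scoped Matrix.Norms.Frobenius in
theorem frob_sq (M : Matrix (Fin N) (Fin N) ℂ) : ‖M‖ ^ 2 = ∑ a, ∑ b, ‖M a b‖ ^ 2 := by
  rw [Matrix.frobenius_norm_def, ← Real.sqrt_eq_rpow, Real.sq_sqrt (by positivity)]
  simp only [Real.rpow_two]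

open scoped Matrix.Norms.Frobenius in
theorem frob_mat (x : Lg d) : ‖c.mat x‖ = ‖x‖ :=
  (sq_eq_sq₀ (norm_nonneg _) (norm_nonneg _)).1 ((frob_sq _).trans (c.norm_sq_eq x).symm)

open scoped Matrix.Norms.Frobenius in
theorem frob_tau (u : UN N) : ‖(u : Matrix (Fin N) (Fin N) ℂ) - 1‖ ^ 2 = 2 * (N - tau u) := by
  have h1 : ∀ M : Matrix (Fin N) (Fin N) ℂ, ‖M‖ ^ 2 = (M * star M).trace.re := fun M => by
    rw [frob_sq]
    simp only [Matrix.trace, Matrix.diag, Matrix.mul_apply, star_apply, re_sum, star_def,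
      Complex.mul_conj, ofReal_re, Complex.normSq_eq_norm_sq]
  have h2 : (u : Matrix (Fin N) (Fin N) ℂ) * star (u : Matrix (Fin N) (Fin N) ℂ) = 1 := u.2.2
  rw [h1, star_sub, star_one, mul_sub, sub_mul, sub_mul, h2, star_eq_conjTranspose]
  simp only [trace_sub, one_mul, mul_one, trace_one, Fintype.card_fin, trace_conjTranspose,
    sub_re, natCast_re, star_def, conj_re, tau]
  ring

open scoped Matrix.Norms.Frobenius in
theorem near {u : UN N} {ξ : Lg d} {ε : ℝ} (hε : 0 ≤ ε) (hε1 : ε ≤ 1)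
    (hξ : c.mat ξ = (I / 2) • ((u : Matrix (Fin N) (Fin N) ℂ) - star (u : Matrix _ _ ℂ)))
    (h : 2 * (N - tau u) ≤ ε ^ 2) : ‖ξ‖ ≤ ε ∧ (ξ = 0 → u = 1) ∧
      ∀ y, ‖c.Ad9 u y - y - c.vf ξ y‖ ≤ 8 * ‖ξ‖ ^ 2 * ‖y‖ := by
  rw [← frob_tau, sq_le_sq₀ (norm_nonneg _) hε] at h
  obtain ⟨h1, h2, h3⟩ := est u.2.2 hξ (h.trans hε1)
  rw [frob_mat] at h1 h2 h3
  refine ⟨h1.trans h, fun h0 => ?_, fun y => ?_⟩
  · rw [h0, norm_zero, mul_zero] at h2
    exact Subtype.ext (sub_eq_zero.1 (norm_le_zero_iff.1 h2))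
  · have h4 : ‖c.Ad u - 1 - c.ad ξ‖ ≤ 8 * ‖ξ‖ ^ 2 := by
      refine ContinuousLinearMap.opNorm_le_bound _ (by positivity) fun x => ?_
      have := h3 (c.mat x)
      rwa [← c.mat_Ad, ← c.mat_ad, ← map_sub, ← map_sub, frob_mat, frob_mat] at this
    have h5 := (kr (1 : Matrix (Fin 9) (Fin 9) ℝ) (c.Ad u - 1 - c.ad ξ)).le_of_opNorm_le
      ((norm_kr_one_le _).trans h4) y
    rwa [kr_sub_right, kr_sub_right, kr_one] at h5

open scoped Matrix.Norms.Frobenius in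
theorem first_order (u Z : Matrix (Fin N) (Fin N) ℂ)
    (h : ∀ s : ℝ, (u * NormedSpace.exp (s • Z)).trace.re ≤ u.trace.re) :
    (u * Z).trace.re = 0 := by
  let L : Matrix (Fin N) (Fin N) ℂ →L[ℝ] ℝ := LinearMap.toContinuousLinearMap
    { toFun := fun M => (u * M).trace.re
      map_add' := fun x y => by simp [mul_add]
      map_smul' := fun t x => by simp }
  have h1 := L.hasFDerivAt.comp_hasDerivAt (0 : ℝ) (hasDerivAt_exp_smul_const (𝕂 := ℝ) Z 0)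
  have h2 : IsLocalMax (L ∘ fun s : ℝ => NormedSpace.exp (s • Z)) 0 :=
    Eventually.of_forall fun s => by simpa [L] using h s
  have h3 := h2.hasDerivAt_eq_zero h1
  rw [zero_smul, NormedSpace.exp_zero, one_mul] at h3
  exact h3

theorem trace_S {u X : Matrix (Fin N) (Fin N) ℂ} (hX : X.IsHermitian)
    (h : (u * ((-I) • X)).trace.re = 0) : (X * ((I / 2) • (u - star u))).trace = 0 := by
  have h1 : (X * star u).trace = star (u * X).trace := by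
    rw [← trace_conjTranspose, conjTranspose_mul, hX.eq, star_eq_conjTranspose]
  rw [Matrix.mul_smul, trace_smul] at h
  rw [Matrix.mul_smul, trace_smul, mul_sub, trace_sub, h1, trace_mul_comm X u, star_def,
    Complex.sub_conj]
  have : (u * X).trace.im = 0 := by simpa using h
  simp [this]

theorem exists_xi {π : Setoid (Fin N)} {𝔪 : Submodule ℝ (Lg d)} {y₀ : Tn 9 d}
    (h𝔪 : 𝔪 ≤ c.blk π) (hz : ∀ ζ ∈ c.blk π ⊓ 𝔪ᗮ, c.vf ζ y₀ = 0) {u : UN N} (hu : u ∈ Grp π)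
    (h : ∀ w ∈ Grp π, c.Ad9 w y₀ = y₀ → tau (u * w) ≤ tau u) : ∃ ξ ∈ 𝔪,
      c.mat ξ = (I / 2) • ((u : Matrix (Fin N) (Fin N) ℂ) - star (u : Matrix _ _ ℂ)) := by
  set S := (I / 2) • ((u : Matrix (Fin N) (Fin N) ℂ) - star (u : Matrix _ _ ℂ)) with hS
  have key : ∀ ζ ∈ c.blk π ⊓ 𝔪ᗮ, ∀ t : ℝ, ((c.mat ζ + (t : ℂ) • 1) * S).trace = 0 := by
    intro ζ hζ t
    refine trace_S ((c.mat_herm ζ).add ?_) (first_order _ _ fun s => ?_)
    · rw [Matrix.IsHermitian, conjTranspose_smul, conjTranspose_one, star_def, conj_ofReal]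
    · obtain ⟨w, hw⟩ := c.exists_exp (s • ζ) (s * t)
      have h1 : c.Ad9 w y₀ = y₀ := by
        rw [Ctx.Ad9, c.Ad_exp hw, ← exp_kr_one]
        have h2 : kr 1 (c.ad (s • ζ)) y₀ = 0 := hz _ (Submodule.smul_mem _ s hζ)
        refine (Bas2Aux.hasSum_apply _ y₀).unique ?_
        have h3 := hasSum_single (f := fun n : ℕ => (n.factorial⁻¹ : ℝ) •
          (kr (1 : Matrix (Fin 9) (Fin 9) ℝ) (c.ad (s • ζ)) ^ n) y₀) 0 fun n hn => by
            obtain ⟨n, rfl⟩ := Nat.exists_eq_succ_of_ne_zero hn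
            rw [pow_succ, mul_apply_eq_comp, h2, map_zero, smul_zero]
        simpa using h3
      have h3 := h w (c.exp_mem_Grp (Submodule.smul_mem _ s hζ.1) hw) h1
      have h4 : s • (-I) • (c.mat ζ + (t : ℂ) • 1) =
          (-I) • (c.mat (s • ζ) + ((s * t : ℝ) : ℂ) • 1) := by
        rw [smul_comm, map_smul, smul_add s, ofReal_mul, mul_smul, coe_smul s]
      rw [h4, ← hw]
      exact h3
  have hH : S.IsHermitian := by
    rw [Matrix.IsHermitian, hS, conjTranspose_smul, conjTranspose_sub, ← star_eq_conjTranspose,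
      ← star_eq_conjTranspose, star_star, ← neg_sub, smul_neg, ← neg_smul]
    congr 1
    simp [neg_div]
  have h0 : S.trace = 0 := by simpa using key 0 (Submodule.zero_mem _) 1
  have hm : c.mat (c.co S) = S := c.span S hH h0
  have hb : c.co S ∈ c.blk π := fun a b hab => by
    rw [hm, hS, Matrix.smul_apply, Matrix.sub_apply, hu a b hab, star_apply,
      hu b a fun h' => hab (π.symm h')]
    simp
  refine ⟨c.co S, ?_, hm⟩
  have hζ : c.co S - 𝔪.starProjection (c.co S) ∈ c.blk π ⊓ 𝔪ᗮ :=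
    ⟨(c.blk π).sub_mem hb (h𝔪 (𝔪.starProjection_apply_mem _)),
      𝔪.sub_starProjection_mem_orthogonal _⟩
  have h1 : ⟪c.co S - 𝔪.starProjection (c.co S), c.co S⟫ = 0 := by
    have := key _ hζ 0
    rw [ofReal_zero, zero_smul, add_zero] at this
    rw [c.inner_co, this, zero_re]
  have h2 : ⟪c.co S - 𝔪.starProjection (c.co S), 𝔪.starProjection (c.co S)⟫ = 0 :=
    Submodule.inner_left_of_mem_orthogonal (𝔪.starProjection_apply_mem _) hζ.2
  have h3 : c.co S - 𝔪.starProjection (c.co S) = 0 := by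
    rw [← inner_self_eq_zero (𝕜 := ℝ), inner_sub_right, h1, h2, sub_zero]
  rw [sub_eq_zero.1 h3]
  exact 𝔪.starProjection_apply_mem _

theorem trans_bound {π : Setoid (Fin N)} {𝔞 𝔪 : Submodule ℝ (Lg d)} {Y : Submodule ℝ (Tn 9 d)}
    {y₀ : Tn 9 d} (h : c.Trans π 𝔞 𝔪 Y y₀) :
    ∃ K : ℝ, 0 < K ∧ ∀ ξ ∈ 𝔪, ∀ y ∈ Y, ‖ξ‖ ≤ K * ‖c.vf ξ y₀ - y‖ := by
  obtain ⟨V, hV, hS⟩ := ChartAux.setup c h
  obtain ⟨δ, hδ, K, hK⟩ := hS.decomp
  refine ⟨max K 1, by positivity, fun ξ hξ y hy => ?_⟩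
  obtain ⟨ξ', y', hy', h1, h2, -⟩ := hK ⟨y₀, h.2.2.2.1⟩ (by simpa using hδ.le) (c.vf ξ y₀ - y)
    (Submodule.sub_mem _ (Ctx.Th.vf_mem c h.1 (h.2.1 hξ) (h.2.2.1 h.2.2.2.1)) (h.2.2.1 hy))
  have h3 : (⟨ξ, hξ⟩ : 𝔪) - ξ' = 0 := by
    refine hS.trans _ ?_
    rw [map_sub, _root_.sub_apply, hV ⟨ξ, hξ⟩, sub_eq_iff_eq_add.1 h1]
    convert Y.add_mem hy' hy using 1
    abel
  rw [← sub_eq_zero.1 h3] at h2
  exact h2.trans (mul_le_mul_of_nonneg_right (le_max_left _ _) (norm_nonneg _))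

theorem inv_fix {y₀ : Tn 9 d} {w : UN N} (hw : c.Ad9 w y₀ = y₀) : c.Ad9 w⁻¹ y₀ = y₀ := by
  conv_lhs => rw [← hw]
  exact c.Ad9_inv_apply w y₀

theorem exists_near (π : Setoid (Fin N)) (y₀ : Tn 9 d) {ε : ℝ} (hε : 0 < ε) :
    ∃ a > 0, ∀ u ∈ Grp π, ‖c.Ad9 u y₀ - y₀‖ < a → ∃ w ∈ Grp π, c.Ad9 w y₀ = y₀ ∧
      2 * (N - tau (u * w)) ≤ ε ^ 2 ∧
        ∀ w' ∈ Grp π, c.Ad9 w' y₀ = y₀ → tau (u * w * w') ≤ tau (u * w) := by
  have hA : Continuous fun u : UN N => c.Ad9 u y₀ :=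
    Continuous.comp (g := fun p : UN N × Tn 9 d => c.Ad9 p.1 p.2) (f := fun u => (u, y₀))
      c.continuous_Ad9 (continuous_id.prodMk continuous_const)
  have hHc : IsCompact (Grp π ∩ {w | c.Ad9 w y₀ = y₀}) :=
    (isCompact_Grp π).inter_right (isClosed_eq hA continuous_const)
  have hT : IsCompact (Grp π ∩ ⋂ w ∈ Grp π ∩ {w | c.Ad9 w y₀ = y₀},
      {u : UN N | tau (u * w) ≤ N - ε ^ 2 / 2}) :=
    (isCompact_Grp π).inter_right (isClosed_biInter fun w _ =>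
      isClosed_le (continuous_tau.comp (continuous_mul_const w)) continuous_const)
  have hA' : Continuous fun u : UN N => ‖c.Ad9 u y₀ - y₀‖ := (hA.sub continuous_const).norm
  obtain ⟨a, ha, hTa⟩ := hT.exists_forall_le' (a := 0) hA'.continuousOn fun u hu => by
    refine norm_pos_iff.2 (sub_ne_zero.2 fun h0 => ?_)
    have := Set.mem_iInter₂.1 hu.2 u⁻¹ ⟨inv_mem_Grp hu.1, inv_fix c h0⟩
    rw [Set.mem_ofPred_eq, mul_inv_cancel, tau_one] at this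
    nlinarith
  refine ⟨a, ha, fun u hu r3 => ?_⟩
  have hc : Continuous fun w : UN N => tau (u * w) := continuous_tau.comp (continuous_const_mul u)
  obtain ⟨w, hw, hmax⟩ := hHc.exists_isMaxOn ⟨1, one_mem_Grp π, by simp [c.Ad9_one]⟩
    hc.continuousOn
  rw [isMaxOn_iff] at hmax
  refine ⟨w, hw.1, hw.2, ?_, fun w' hw' h' => ?_⟩
  · by_contra hlt
    refine absurd (hTa u ⟨hu, Set.mem_iInter₂.2 fun w' hw' => ?_⟩) (not_le.2 r3)
    have := hmax w' hw'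
    rw [Set.mem_ofPred_eq]
    linarith [not_le.1 hlt]
  · rw [mul_assoc]
    exact hmax (w * w') ⟨mul_mem_Grp hw.1 hw', by
      rw [Set.mem_ofPred_eq, c.Ad9_mul, mul_apply_eq_comp, h', hw.2]⟩

end SliceAux

namespace Ctx

variable {N d : ℕ} {F : Type} [NormedAddCommGroup F] [InnerProductSpace ℂ F]
  [FiniteDimensional ℂ F] (c : Ctx N d F)

open SliceAux in
theorem p_slice : c.S_slice := by
  intro π 𝔞 𝔪 Y y₀ h hH hz
  obtain ⟨K, hK0, hK⟩ := trans_bound c h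
  obtain ⟨ε, hε0, hε1, hεK⟩ : ∃ ε : ℝ, 0 < ε ∧ ε ≤ 1 ∧ K * (8 * ε * (‖y₀‖ + 1)) ≤ 1 / 4 := by
    refine ⟨min 1 (1 / (32 * K * (‖y₀‖ + 1))), by positivity, min_le_left _ _, ?_⟩
    have := (le_div_iff₀ (by positivity)).1 (min_le_right 1 (1 / (32 * K * (‖y₀‖ + 1))))
    linarith
  obtain ⟨a, ha, hTa⟩ := exists_near c π y₀ hε0
  refine ⟨min (min 1 (a / 2)) (1 / (8 * K)), by positivity, fun u hu y hy hr huy hur => ?_⟩
  have r1 : ‖y - y₀‖ ≤ 1 := hr.le.trans ((min_le_left _ _).trans (min_le_left _ _))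
  have r2 : K * (2 * ‖y - y₀‖) ≤ 1 / 4 := by
    have := (le_div_iff₀ (by positivity)).1 (hr.le.trans (min_le_right _ _))
    linarith
  have r3 : ‖c.Ad9 u y₀ - y₀‖ < a := by
    have h1 := hr.trans_le ((min_le_left _ _).trans (min_le_right _ _))
    have h2 := hur.trans_le ((min_le_left _ _).trans (min_le_right _ _))
    have h3 := norm_sub_le (c.Ad9 u y - y₀) (c.Ad9 u (y - y₀))
    rw [c.norm_Ad9, map_sub, sub_sub_sub_cancel_left] at h3
    linarith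
  obtain ⟨w, hw, hw', h1, hmax⟩ := hTa u hu r3
  obtain ⟨ξ, hξ, hξe⟩ := exists_xi c h.2.1 hz (mul_mem_Grp hu hw) hmax
  obtain ⟨n1, n2, n3⟩ := near c hε0.le hε1 hξe h1
  have hy' : c.Ad9 w⁻¹ y ∈ Y := hH _ (inv_mem_Grp hw) (inv_fix c hw') y hy
  have e1 : c.Ad9 (u * w) (c.Ad9 w⁻¹ y) = c.Ad9 u y := by
    rw [c.Ad9_mul, mul_apply_eq_comp, c.Ad9_apply_inv]
  have e2 : ‖c.Ad9 w⁻¹ y - y₀‖ = ‖y - y₀‖ := by
    conv_lhs => rw [← inv_fix c hw', ← map_sub, c.norm_Ad9]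
  have n4 := n3 (c.Ad9 w⁻¹ y)
  rw [e1, c.norm_Ad9] at n4
  have n5 := c.norm_vf_le ξ (c.Ad9 w⁻¹ y - y₀)
  rw [e2, map_sub] at n5
  have n6 := hK ξ hξ _ (Y.sub_mem huy hy')
  have n7 := norm_add_le (c.Ad9 u y - c.Ad9 w⁻¹ y - c.vf ξ (c.Ad9 w⁻¹ y))
    (c.vf ξ (c.Ad9 w⁻¹ y) - c.vf ξ y₀)
  rw [sub_add_sub_cancel, norm_sub_rev] at n7
  have n8 : ‖y‖ ≤ ‖y₀‖ + 1 := by linarith [norm_le_norm_add_norm_sub' y y₀]
  have n9 : 8 * ‖ξ‖ ^ 2 * ‖y‖ ≤ ‖ξ‖ * (8 * ε * (‖y₀‖ + 1)) := by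
    have := mul_le_mul n1 n8 (norm_nonneg _) hε0.le
    nlinarith [norm_nonneg ξ]
  have h0 : ξ = 0 := by
    have h2 : ‖ξ‖ ≤ K * (‖ξ‖ * (8 * ε * (‖y₀‖ + 1)) + 2 * ‖ξ‖ * ‖y - y₀‖) :=
      n6.trans (mul_le_mul_of_nonneg_left (by linarith) hK0.le)
    refine norm_le_zero_iff.1 ?_
    nlinarith [norm_nonneg ξ]
  rw [eq_inv_of_mul_eq_one_left (n2 h0)]
  exact inv_fix c hw'

end Ctx

end Vale.Agent.P353
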