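import Vale.Agent.P353.Gau
import Vale.Agent.P353.Ga1

/-! Gaussian Poincare inequality. -/

noncomputable section

open MeasureTheory Filter Topology Complex Matrix
open scoped ContDiff RealInnerProductSpace

namespace Vale.Agent.P353

namespace SoAux

open scoped ENNReal

theorem cs_lintegral {α : Type} [MeasurableSpace α] (ν : Measure α) {g : α → ℝ≥0∞}
    (hg : AEMeasurable g ν) : (∫⁻ a, g a ∂ν) ^ 2 ≤ ν Set.univ * ∫⁻ a, g a ^ 2 ∂ν := by
  have h := ENNReal.lintegral_mul_le_Lp_mul_Lq ν Real.HolderConjugate.two_two hg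
    (g := fun _ => 1) aemeasurable_const
  simp only [Pi.mul_apply, mul_one, lintegral_const, ENNReal.rpow_ofNat] at h
  refine (pow_le_pow_left' h 2).trans (le_of_eq ?_)
  rw [mul_pow, ← ENNReal.rpow_natCast, ← ENNReal.rpow_natCast (_ ^ (1 / 2 : ℝ)),
    ← ENNReal.rpow_mul, ← ENNReal.rpow_mul, mul_comm]
  norm_num

theorem cs_integral {α W : Type} [MeasurableSpace α] [NormedAddCommGroup W] [NormedSpace ℝ W]
    (ν : Measure α) {f : α → W} (hf : AEStronglyMeasurable f ν) :
    ‖∫ a, f a ∂ν‖ₑ ^ 2 ≤ ν Set.univ * ∫⁻ a, ‖f a‖ₑ ^ 2 ∂ν :=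
  (pow_le_pow_left' (enorm_integral_le_lintegral_enorm f) 2).trans (cs_lintegral ν hf.enorm)

section Rot

variable {V : Type} [NormedAddCommGroup V] [NormedSpace ℝ V]

/-- rotation of pairs -/
def rot (V : Type) [NormedAddCommGroup V] [NormedSpace ℝ V] (t : ℝ) : V × V →L[ℝ] V × V :=
  (Real.cos t • ContinuousLinearMap.fst ℝ V V + Real.sin t • ContinuousLinearMap.snd ℝ V V).prod
    (-Real.sin t • ContinuousLinearMap.fst ℝ V V + Real.cos t • ContinuousLinearMap.snd ℝ V V)

theorem rot_apply (t : ℝ) (p : V × V) :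
    rot V t p = (Real.cos t • p.1 + Real.sin t • p.2, -Real.sin t • p.1 + Real.cos t • p.2) := rfl

theorem continuous_rot : Continuous fun q : (V × V) × ℝ => rot V q.2 q.1 := by
  simp only [rot_apply]
  fun_prop

theorem abs_det_rot [FiniteDimensional ℝ V] (t : ℝ) :
    |LinearMap.det (rot V t : V × V →ₗ[ℝ] V × V)| = 1 := by
  set S : V × V →ₗ[ℝ] V × V := (LinearMap.id).prodMap (-LinearMap.id) with hS
  have h1 : S * S = 1 := by
    refine LinearMap.ext fun p => ?_
    simp [hS]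
  have h2 : (rot V t : V × V →ₗ[ℝ] V × V) * (S * (rot V t : V × V →ₗ[ℝ] V × V) * S) = 1 := by
    refine LinearMap.ext fun p => ?_
    have e := Real.cos_sq_add_sin_sq t
    simp only [hS, Module.End.mul_apply, LinearMap.prodMap_apply, LinearMap.id_apply,
      LinearMap.neg_apply, ContinuousLinearMap.coe_coe, rot_apply, Module.End.one_apply]
    refine Prod.ext ?_ ?_
    · show _ = p.1
      conv_rhs => rw [← one_smul ℝ p.1, ← e]
      module
    · show _ = p.2
      conv_rhs => rw [← one_smul ℝ p.2, ← e]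
      module
  have h3 := congrArg LinearMap.det h1
  have h4 := congrArg LinearMap.det h2
  simp only [map_mul, map_one] at h3 h4
  have h5 : LinearMap.det (rot V t : V × V →ₗ[ℝ] V × V) ^ 2 = 1 := by
    linear_combination h4 - LinearMap.det (rot V t : V × V →ₗ[ℝ] V × V) ^ 2 * h3
  rcases sq_eq_one_iff.1 h5 with h | h <;> simp [h]

variable [FiniteDimensional ℝ V] [MeasurableSpace V] [BorelSpace V]

theorem measurePreserving_rot (ν : Measure V) [ν.IsAddHaarMeasure] (t : ℝ) :
    MeasurePreserving (rot V t) (ν.prod ν) (ν.prod ν) := by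
  refine ⟨(rot V t).continuous.measurable, ?_⟩
  have h1 := abs_det_rot (V := V) t
  have h2 : LinearMap.det (rot V t : V × V →ₗ[ℝ] V × V) ≠ 0 := by
    intro h; rw [h] at h1; simp at h1
  have h3 := Measure.map_linearMap_addHaar_eq_smul_addHaar (ν.prod ν) h2
  rw [abs_inv, h1] at h3
  simpa using h3

theorem measurePreserving_rot_density (ν : Measure V) [ν.IsAddHaarMeasure] {ρ : V → ℝ≥0∞}
    (hρ : Measurable ρ) (t : ℝ)
    (h : ∀ p : V × V, ρ (rot V t p).1 * ρ (rot V t p).2 = ρ p.1 * ρ p.2) :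
    MeasurePreserving (rot V t) ((ν.withDensity ρ).prod (ν.withDensity ρ))
      ((ν.withDensity ρ).prod (ν.withDensity ρ)) := by
  have hm := (rot V t).continuous.measurable
  refine ⟨hm, ?_⟩
  rw [prod_withDensity hρ hρ]
  ext s hs
  rw [Measure.map_apply hm hs, withDensity_apply _ (hm hs), withDensity_apply _ hs,
    ← (measurePreserving_rot ν t).setLIntegral_comp_preimage hs (by fun_prop)]
  simp only [h]

variable {W : Type} [NormedAddCommGroup W] [NormedSpace ℝ W] [CompleteSpace W]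

omit [FiniteDimensional ℝ V] [MeasurableSpace V] [BorelSpace V] in
theorem point_le {h : V → W} (hh : ContDiff ℝ 1 h) (p : V × V) :
    ‖h p.1 - h p.2‖ₑ ^ 2 ≤ ENNReal.ofReal (Real.pi / 2) *
      ∫⁻ t in Set.Ioc 0 (Real.pi / 2), ‖fderiv ℝ h (rot V t p).1 (rot V t p).2‖ₑ ^ 2 := by
  obtain ⟨x, y⟩ := p
  simp only [rot_apply]
  have hd : ∀ t : ℝ, HasDerivAt (fun t => h (Real.cos t • x + Real.sin t • y))
      (fderiv ℝ h (Real.cos t • x + Real.sin t • y) (-Real.sin t • x + Real.cos t • y)) t := by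
    intro t
    have h1 : HasDerivAt (fun t => Real.cos t • x + Real.sin t • y)
        (-Real.sin t • x + Real.cos t • y) t :=
      ((Real.hasDerivAt_cos t).smul_const x).add ((Real.hasDerivAt_sin t).smul_const y)
    exact (hh.differentiable (by norm_num) _).hasFDerivAt.comp_hasDerivAt t h1
  have hf := hh.continuous_fderiv (by norm_num)
  have hc : Continuous fun t : ℝ =>
      fderiv ℝ h (Real.cos t • x + Real.sin t • y) (-Real.sin t • x + Real.cos t • y) := by
    fun_prop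
  have hI := intervalIntegral.integral_eq_sub_of_hasDerivAt (a := 0) (b := Real.pi / 2)
    (fun t _ => hd t) (hc.intervalIntegrable _ _)
  rw [intervalIntegral.integral_of_le (by positivity), Real.cos_pi_div_two, Real.sin_pi_div_two,
    Real.cos_zero, Real.sin_zero, zero_smul, one_smul, zero_smul, one_smul, zero_add,
    add_zero] at hI
  have h2 := cs_integral (volume.restrict (Set.Ioc 0 (Real.pi / 2))) hc.aestronglyMeasurable
  rw [hI, Measure.restrict_apply_univ, Real.volume_Ioc, sub_zero, enorm_sub_rev] at h2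
  exact h2

theorem pair_le (μ : Measure V) [IsProbabilityMeasure μ]
    (hrot : ∀ t, MeasurePreserving (rot V t) (μ.prod μ) (μ.prod μ)) {h : V → W}
    (hh : ContDiff ℝ 1 h) :
    ∫⁻ p, ‖h p.1 - h p.2‖ₑ ^ 2 ∂μ.prod μ ≤
      4 * ∫⁻ p, ‖fderiv ℝ h p.1 p.2‖ₑ ^ 2 ∂μ.prod μ := by
  have hc : Continuous fun p : V × V => fderiv ℝ h p.1 p.2 :=
    ((hh.continuous_fderiv (by norm_num)).comp continuous_fst).clm_apply continuous_snd
  have hm : Measurable fun p : V × V => ‖fderiv ℝ h p.1 p.2‖ₑ ^ 2 :=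
    hc.enorm.measurable.pow_const 2
  have h2 : ENNReal.ofReal (Real.pi / 2) ≤ 2 := by
    rw [← ENNReal.ofReal_ofNat]
    exact ENNReal.ofReal_le_ofReal (by linarith [Real.pi_le_four])
  refine (lintegral_mono fun p => point_le hh p).trans ?_
  have hm2 : Measurable (Function.uncurry fun (p : V × V) (t : ℝ) =>
      ‖fderiv ℝ h (rot V t p).1 (rot V t p).2‖ₑ ^ 2) := hm.comp continuous_rot.measurable
  rw [lintegral_const_mul' _ _ ENNReal.ofReal_ne_top, lintegral_lintegral_swap hm2.aemeasurable]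
  have e : ∀ t : ℝ, ∫⁻ p, ‖fderiv ℝ h (rot V t p).1 (rot V t p).2‖ₑ ^ 2 ∂μ.prod μ =
      ∫⁻ p, ‖fderiv ℝ h p.1 p.2‖ₑ ^ 2 ∂μ.prod μ := fun t => (hrot t).lintegral_comp hm
  simp only [e]
  rw [lintegral_const, Measure.restrict_apply_univ, Real.volume_Ioc, sub_zero]
  calc _ ≤ 2 * ((∫⁻ p, ‖fderiv ℝ h p.1 p.2‖ₑ ^ 2 ∂μ.prod μ) * 2) := by gcongr
    _ = _ := by ring

theorem var_le (μ : Measure V) [IsProbabilityMeasure μ]
    (hrot : ∀ t, MeasurePreserving (rot V t) (μ.prod μ) (μ.prod μ)) {h : V → W}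
    (hh : ContDiff ℝ 1 h) (hi : Integrable h μ) :
    ∫⁻ x, ‖h x - ∫ y, h y ∂μ‖ₑ ^ 2 ∂μ ≤ 4 * ∫⁻ p, ‖fderiv ℝ h p.1 p.2‖ₑ ^ 2 ∂μ.prod μ := by
  refine le_trans ?_ (pair_le μ hrot hh)
  have hc : Continuous fun p : V × V => h p.1 - h p.2 :=
    (hh.continuous.comp continuous_fst).sub (hh.continuous.comp continuous_snd)
  rw [lintegral_prod _ (hc.enorm.measurable.pow_const 2).aemeasurable]
  refine lintegral_mono fun x => ?_
  have h1 := cs_integral μ (f := fun y => h x - h y)
    (continuous_const.sub hh.continuous).aestronglyMeasurable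
  rw [integral_sub (integrable_const _) hi, integral_const, measure_univ, one_mul] at h1
  simpa using h1

end Rot

section Gauss

variable {E : Type} [NormedAddCommGroup E] [InnerProductSpace ℝ E] [FiniteDimensional ℝ E]
  [MeasurableSpace E] [BorelSpace E] {U : Submodule ℝ E} {A : E →L[ℝ] E} {a : ℝ}

theorem gauss_sq (U : Submodule ℝ E) (A : E →L[ℝ] E) (x : E) :
    gauss U A x ^ 2 = gnorm U A ^ 2 * Real.exp (-⟪x, A x⟫) := by
  unfold gauss
  rw [mul_pow, ← Real.exp_nat_mul]
  congr 2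
  push_cast
  ring

/-- the Gaussian probability measure -/
def gm (U : Submodule ℝ E) (A : E →L[ℝ] E) : Measure U :=
  volume.withDensity fun x : U => ENNReal.ofReal (gauss U A x ^ 2)

theorem measurable_dens (U : Submodule ℝ E) (A : E →L[ℝ] E) :
    Measurable fun x : U => ENNReal.ofReal (gauss U A x ^ 2) :=
  (((contDiff_gauss U A).continuous.comp continuous_subtype_val).pow 2).measurable.ennreal_ofReal

theorem lintegral_gm {g : U → ℝ} (hg : Continuous g) :
    ∫⁻ x, ENNReal.ofReal (g x) ∂gm U A = ∫⁻ x : U, ENNReal.ofReal (gauss U A x ^ 2 * g x) := by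
  unfold gm
  rw [lintegral_withDensity_eq_lintegral_mul _ (measurable_dens U A)
    hg.measurable.ennreal_ofReal]
  refine lintegral_congr fun x => ?_
  rw [Pi.mul_apply, ENNReal.ofReal_mul (sq_nonneg _)]

theorem lintegral_gm_eq {g : U → ℝ} (hg : Continuous g) (h0 : ∀ x, 0 ≤ g x)
    (hi : Integrable fun x : U => gauss U A x ^ 2 * g x) :
    ∫⁻ x, ENNReal.ofReal (g x) ∂gm U A = ENNReal.ofReal (∫ x : U, gauss U A x ^ 2 * g x) := by
  rw [lintegral_gm hg, ofReal_integral_eq_lintegral_ofReal hi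
    (Eventually.of_forall fun x => mul_nonneg (sq_nonneg _) (h0 x))]

theorem prob_gm (ha : 0 < a) (hA : ∀ w ∈ U, a * ‖w‖ ^ 2 ≤ ⟪w, A w⟫) :
    IsProbabilityMeasure (gm U A) := by
  have h := lintegral_gm_eq (U := U) (A := A) (g := fun _ => 1) continuous_const
    (fun _ => zero_le_one) (by simpa using integrable_gauss_sq ha hA 0)
  simp only [ENNReal.ofReal_one, lintegral_const, one_mul, mul_one, integral_gauss_sq ha hA] at h
  exact ⟨h⟩

theorem rot_gm (U : Submodule ℝ E) (A : E →L[ℝ] E) (t : ℝ) :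
    MeasurePreserving (rot U t) ((gm U A).prod (gm U A)) ((gm U A).prod (gm U A)) := by
  refine measurePreserving_rot_density volume (measurable_dens U A) t fun p => ?_
  rw [← ENNReal.ofReal_mul (sq_nonneg _), ← ENNReal.ofReal_mul (sq_nonneg _)]
  congr 1
  simp only [gauss_sq, rot_apply]
  rw [mul_mul_mul_comm, mul_mul_mul_comm _ (Real.exp _), ← Real.exp_add, ← Real.exp_add]
  congr 2
  simp only [Submodule.coe_add, Submodule.coe_smul, map_add, map_smul, inner_add_left,
    inner_add_right, real_inner_smul_left, real_inner_smul_right]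
  have e := Real.cos_sq_add_sin_sq t
  linear_combination (-⟪(p.1 : E), A p.1⟫ - ⟪(p.2 : E), A p.2⟫) * e

theorem moment_le (ha : 0 < a) (hA : ∀ w ∈ U, a * ‖w‖ ^ 2 ≤ ⟪w, A w⟫) :
    ∫ x : U, gauss U A x ^ 2 * ‖(x : E)‖ ^ 2 ≤ 2 * 2 ^ Module.finrank ℝ E / a := by
  have h1 := integrable_gauss_sq ha hA 2
  have h2 := integrable_gaussian ha hA (t := 1 / 4) (by norm_num) 0
  simp only [pow_zero, one_mul] at h2
  have h3 : ∫ x : U, gauss U A x ^ 2 * ‖(x : E)‖ ^ 2 ≤
      ∫ x : U, (2 / a * gnorm U A ^ 2) * Real.exp (-(1 / 4 * ⟪(x : E), A x⟫)) := by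
    refine integral_mono (by simpa only [mul_comm] using h1) (h2.const_mul _) fun x => ?_
    have b1 := hA x x.2
    set q : ℝ := ⟪(x : E), A x⟫ with hq
    have b2 : ‖(x : E)‖ ^ 2 ≤ 2 / a * Real.exp (3 / 4 * q) := by
      have := Real.add_one_le_exp (3 / 4 * q)
      have := Real.exp_pos (3 / 4 * q)
      rw [div_mul_eq_mul_div, le_div_iff₀ ha]
      linarith
    have b3 : Real.exp (-(1 / 4 * q)) = Real.exp (-q) * Real.exp (3 / 4 * q) := by
      rw [← Real.exp_add]; congr 1; ring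
    show gauss U A x ^ 2 * ‖(x : E)‖ ^ 2 ≤ 2 / a * gnorm U A ^ 2 * Real.exp (-(1 / 4 * q))
    rw [gauss_sq, ← hq, b3]
    calc _ ≤ gnorm U A ^ 2 * Real.exp (-q) * (2 / a * Real.exp (3 / 4 * q)) :=
          mul_le_mul_of_nonneg_left b2 (by positivity)
      _ = _ := by ring
  have h4 := integral_smul_sub U (fun x => Real.exp (-⟪x, A x⟫)) (t := 1 / 2) (by norm_num)
  have h5 : ∀ x : E, Real.exp (-⟪(1 / 2 : ℝ) • x, A ((1 / 2 : ℝ) • x)⟫) =
      Real.exp (-(1 / 4 * ⟪x, A x⟫)) := by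
    intro x
    rw [map_smul, real_inner_smul_left, real_inner_smul_right]
    congr 1
    ring
  simp only [h5] at h4
  have h6 := integral_gauss_sq ha hA
  simp only [gauss_sq] at h6
  rw [integral_const_mul] at h6
  rw [integral_const_mul, h4, smul_eq_mul, one_div, inv_pow, inv_inv] at h3
  have h7 : (2 : ℝ) ^ Module.finrank ℝ U ≤ 2 ^ Module.finrank ℝ E :=
    pow_le_pow_right₀ (by norm_num) (Submodule.finrank_le U)
  calc _ ≤ _ := h3
    _ = 2 * 2 ^ Module.finrank ℝ U / a *
        (gnorm U A ^ 2 * ∫ x : U, Real.exp (-⟪(x : E), A x⟫)) := by ring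
    _ ≤ _ := by rw [h6, mul_one]; gcongr

variable {F : Type} [NormedAddCommGroup F] [InnerProductSpace ℂ F] [FiniteDimensional ℂ F]

theorem weighted (ha : 0 < a) (hA : ∀ w ∈ U, a * ‖w‖ ^ 2 ≤ ⟪w, A w⟫) {h : E → F}
    (hh : Sm U h) :
    ∫ x : U, gauss U A x ^ 2 * ‖h x - ∫ y : U, gauss U A y ^ 2 • h y‖ ^ 2 ≤
      4 * ((∫ x : U, gauss U A x ^ 2 * gsq U h x) * (2 * 2 ^ Module.finrank ℝ E / a)) := by
  have := FiniteDimensional.complete ℂ F
  have := prob_gm ha hA
  have hG : Continuous fun x : U => gauss U A x ^ 2 :=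
    ((contDiff_gauss U A).continuous.comp continuous_subtype_val).pow 2
  have h1 : ContDiff ℝ 1 h := hh.1.of_le (by exact_mod_cast le_top)
  have h2 : ContDiff ℝ 1 fun x : U => h x := h1.comp U.subtypeL.contDiff
  have h3 : ∀ x y : U, fderiv ℝ (fun x : U => h x) x y = fderiv ℝ h x y := by
    intro x y
    have := ((h1.differentiable (by norm_num) (U.subtypeL x)).hasFDerivAt.comp x
      U.subtypeL.hasFDerivAt).fderiv
    exact congrArg (fun L => L y) this
  have hm : ∫ y, h y ∂gm U A = ∫ y : U, gauss U A y ^ 2 • h y := by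
    unfold gm
    rw [integral_withDensity_eq_integral_toReal_smul (measurable_dens U A)
      (Eventually.of_forall fun _ => ENNReal.ofReal_lt_top)]
    simp only [ENNReal.toReal_ofReal (sq_nonneg _)]
  have hv := var_le (gm U A) (rot_gm U A) h2
    (h2.continuous.integrable_of_hasCompactSupport hh.2)
  rw [hm] at hv
  set m := ∫ y : U, gauss U A y ^ 2 • h y
  have hgi : Integrable fun x : U => gauss U A x ^ 2 * gsq U h x :=
    hh.integrable_wgsq ((contDiff_gauss U A).continuous.pow 2).continuousOn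
  have hgc : Continuous fun x : U => gsq U h x :=
    hh.gsq_support.1.comp continuous_subtype_val
  have hnc : Continuous fun x : U => ‖(x : E)‖ ^ 2 := by fun_prop
  have hI0 : 0 ≤ ∫ x : U, gauss U A x ^ 2 * gsq U h x :=
    integral_nonneg fun x => mul_nonneg (sq_nonneg _) (gsq_nonneg U h x)
  have hb : ∫⁻ p, ‖fderiv ℝ (fun x : U => h x) p.1 p.2‖ₑ ^ 2 ∂(gm U A).prod (gm U A) ≤
      ENNReal.ofReal ((∫ x : U, gauss U A x ^ 2 * gsq U h x) *
        (2 * 2 ^ Module.finrank ℝ E / a)) := by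
    calc _ ≤ ∫⁻ p, ENNReal.ofReal (gsq U h p.1) * ENNReal.ofReal (‖(p.2 : E)‖ ^ 2)
          ∂(gm U A).prod (gm U A) := by
          refine lintegral_mono fun p => ?_
          rw [h3, ← ENNReal.ofReal_mul (gsq_nonneg U h _), ← ofReal_norm,
            ← ENNReal.ofReal_pow (norm_nonneg _), mul_comm]
          exact ENNReal.ofReal_le_ofReal (norm_fderiv_sq_le h _ p.2.2)
      _ = _ := lintegral_prod_mul hgc.measurable.ennreal_ofReal.aemeasurable
          hnc.measurable.ennreal_ofReal.aemeasurable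
      _ ≤ _ := by
          rw [lintegral_gm_eq hgc (fun x => gsq_nonneg U h x) hgi,
            lintegral_gm_eq hnc (fun x => sq_nonneg _)
              (by simpa only [mul_comm] using integrable_gauss_sq ha hA 2),
            ENNReal.ofReal_mul hI0]
          gcongr
          exact moment_le ha hA
  have hc : Continuous fun x : U => ‖h x - m‖ ^ 2 := (h2.continuous.sub continuous_const).norm.pow 2
  rw [integral_eq_lintegral_of_nonneg_ae
    (Eventually.of_forall fun x => mul_nonneg (sq_nonneg _) (sq_nonneg _))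
    (hG.mul hc).aestronglyMeasurable, ← lintegral_gm hc]
  refine ENNReal.toReal_le_of_le_ofReal (by positivity) ?_
  rw [ENNReal.ofReal_mul (by norm_num), ENNReal.ofReal_ofNat]
  refine le_trans (le_of_eq ?_) (hv.trans (by gcongr))
  refine lintegral_congr fun x => ?_
  rw [← ofReal_norm, ENNReal.ofReal_pow (norm_nonneg _)]

end Gauss

end SoAux

variable {E : Type} [NormedAddCommGroup E] [InnerProductSpace ℝ E] [FiniteDimensional ℝ E]
  [MeasurableSpace E] [BorelSpace E]

variable {F : Type} [NormedAddCommGroup F] [InnerProductSpace ℂ F] [FiniteDimensional ℂ F]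

theorem poincare : ∃ κ > 0, ∀ (U : Submodule ℝ E) (A : E →L[ℝ] E) (a : ℝ), 0 < a → IsSym A →
    (∀ w ∈ U, a * ‖w‖ ^ 2 ≤ ⟪w, A w⟫) → ∀ f : E → F, Sm U f →
      κ * a * nrm U (fun x => f x - (gauss U A x : ℂ) • ∫ y : U, (gauss U A y : ℂ) • f y) ≤
        ∫ x : U, ∑ k, ‖fderiv ℝ f x (onb U k) + ((⟪onb U k, A x⟫ : ℝ) : ℂ) • f x‖ ^ 2 := by
  refine ⟨(8 * 2 ^ Module.finrank ℝ E)⁻¹, by positivity, ?_⟩
  intro U A a ha hs hA f hf
  have hG := gauss_pos ha hA
  have hh0 : Sm U fun x => (((gauss U A x)⁻¹ : ℝ) : ℂ) • f x :=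
    hf.mulR ((contDiff_gauss U A).inv fun x => (hG x).ne')
  obtain ⟨h, hh, rfl⟩ : ∃ h : E → F, Sm U h ∧ f = fun x => gauss U A x • h x := by
    refine ⟨_, hh0, funext fun x => ?_⟩
    rw [Complex.coe_smul, smul_smul, mul_inv_cancel₀ (hG x).ne', one_smul]
  have hw := SoAux.weighted ha hA hh
  have e1 : nrm U (fun x => gauss U A x • h x -
      (gauss U A x : ℂ) • ∫ y : U, (gauss U A y : ℂ) • gauss U A y • h y) =
      ∫ x : U, gauss U A x ^ 2 * ‖h x - ∫ y : U, gauss U A y ^ 2 • h y‖ ^ 2 := by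
    unfold nrm
    simp only [Complex.coe_smul, smul_smul, ← smul_sub, norm_smul, mul_pow, Real.norm_eq_abs,
      sq_abs, ← sq]
  have e2 : ∀ x : E, ∑ k, ‖fderiv ℝ (fun x => gauss U A x • h x) x (onb U k) +
      ((⟪onb U k, A x⟫ : ℝ) : ℂ) • gauss U A x • h x‖ ^ 2 = gauss U A x ^ 2 * gsq U h x := by
    intro x
    unfold gsq
    rw [Finset.mul_sum]
    refine Finset.sum_congr rfl fun k _ => ?_
    rw [fderiv_fun_smul ((contDiff_gauss U A).differentiable (by simp) x)
      (hh.1.differentiable (by simp) x), _root_.add_apply,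
      _root_.smul_apply, ContinuousLinearMap.smulRight_apply, fderiv_gauss hs,
      Complex.coe_smul, smul_smul, neg_mul, neg_smul, neg_add_cancel_right, norm_smul, mul_pow,
      Real.norm_eq_abs, sq_abs]
  rw [e1]
  simp only [e2]
  calc _ ≤ (8 * 2 ^ Module.finrank ℝ E)⁻¹ * a * (4 * ((∫ x : U, gauss U A x ^ 2 * gsq U h x) *
        (2 * 2 ^ Module.finrank ℝ E / a))) := mul_le_mul_of_nonneg_left hw (by positivity)
    _ = _ := by field_simp; ring

end Vale.Agent.P353
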