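import Vale.Agent.P353.Stmts
import Vale.Agent.P353.Abs
import Vale.Agent.P353.Ga3

/-! The spectral gap. -/

noncomputable section

open MeasureTheory Filter Topology Complex Matrix
open scoped ContDiff RealInnerProductSpace

namespace Vale.Agent.P353

namespace SpecAux

open Classical in
/-- projection onto the rotations -/
def prot (ρ : Matrix (Fin 9) (Fin 9) ℝ) : Matrix (Fin 9) (Fin 9) ℝ := fun k i =>
  if kk k = kk i then (ρ k i - ρ i k) / 2 else 0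

theorem prot_isRot (ρ : Matrix (Fin 9) (Fin 9) ℝ) : IsRot (prot ρ) := by
  refine ⟨?_, fun k i h => if_neg h⟩
  ext k i
  simp only [prot, transpose_apply, Matrix.neg_apply, eq_comm (a := kk i)]
  split_ifs <;> ring

theorem prot_eq {ρ : Matrix (Fin 9) (Fin 9) ℝ} (h : IsRot ρ) : prot ρ = ρ := by
  ext k i
  have h1 : ρ i k = -ρ k i := congrFun (congrFun h.1 k) i
  unfold prot
  split_ifs with hk
  · rw [h1]; ring
  · exact (h.2 k i hk).symm

theorem prot_add (ρ ρ' : Matrix (Fin 9) (Fin 9) ℝ) : prot (ρ + ρ') = prot ρ + prot ρ' := by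
  ext k i
  simp only [prot, Matrix.add_apply]
  split_ifs <;> ring

theorem prot_smul (t : ℝ) (ρ : Matrix (Fin 9) (Fin 9) ℝ) : prot (t • ρ) = t • prot ρ := by
  ext k i
  simp only [prot, Matrix.smul_apply, smul_eq_mul]
  split_ifs <;> ring

theorem hat_add (γ : Fin 9 → M16) (ρ ρ' : Matrix (Fin 9) (Fin 9) ℝ) :
    hat γ (ρ + ρ') = hat γ ρ + hat γ ρ' := by
  simp only [hat, Matrix.add_apply, add_div, add_smul, Finset.sum_add_distrib]

theorem hat_smul (γ : Fin 9 → M16) (t : ℝ) (ρ : Matrix (Fin 9) (Fin 9) ℝ) :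
    hat γ (t • ρ) = t • hat γ ρ := by
  simp only [hat, Matrix.smul_apply, smul_eq_mul, mul_div_assoc, mul_smul, Finset.smul_sum]

variable {N d : ℕ} {F : Type} [NormedAddCommGroup F] [InnerProductSpace ℂ F]
  [FiniteDimensional ℂ F] (c : Ctx N d F) (π : Setoid (Fin N)) (g m : ℝ)

theorem diff {c : Ctx N d F} {π : Setoid (Fin N)} (φ : c.D0 π) : Differentiable ℝ φ.1 :=
  φ.2.1.1.differentiable (by simp)

/-- the class map -/
def io : c.D0 π →ₗ[ℂ] LL (sub 9 (c.ss π)) F := Ga5Aux.iota _ _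

/-- the supercharges on test functions -/
def QD (e : Fin 16 → ℝ) : c.D0 π →ₗ[ℂ] c.D0 π where
  toFun φ := ⟨c.Q (c.ss π) g m e φ.1, c.Q_mem_D0 g m e φ.2⟩
  map_add' φ ψ := Subtype.ext (dop_add 1 _ _ (diff φ) (diff ψ))
  map_smul' z φ := Subtype.ext (dop_smul 1 _ _ z φ.1)

/-- the rotations on test functions -/
def RD (h : c.S_a2) (ρ : Matrix (Fin 9) (Fin 9) ℝ) : c.D0 π →ₗ[ℂ] c.D0 π where
  toFun φ := ⟨c.Rot (prot ρ) φ.1, (h π 0 0 _ (prot_isRot ρ) _ φ.2).1⟩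
  map_add' φ ψ := Subtype.ext (funext fun x => by
    simp only [Ctx.Rot, Submodule.coe_add, Pi.add_apply, fderiv_add (diff φ x) (diff ψ x),
      _root_.add_apply, map_add]
    abel)
  map_smul' z φ := Subtype.ext (funext fun x => by
    simp only [Ctx.Rot, Submodule.coe_smul, Pi.smul_apply, fderiv_const_smul (diff φ x),
      _root_.smul_apply, map_smul, RingHom.id_apply, smul_sub])

variable {c π g m}

theorem io_sq (φ : c.D0 π) : ‖io c π φ‖ ^ 2 = nrm (sub 9 (c.ss π)) φ.1 :=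
  norm_L2_sq φ.2.1.memLp

theorem io_norm (φ : c.D0 π) : ‖io c π φ‖ = √(nrm (sub 9 (c.ss π)) φ.1) := by
  rw [← io_sq, Real.sqrt_sq (norm_nonneg _)]

theorem io_congr {φ ψ : c.D0 π} (h : ∀ x ∈ sub 9 (c.ss π), φ.1 x = ψ.1 x) :
    io c π φ = io c π ψ := L2_congr (Eventually.of_forall fun x => h x x.2)

theorem H_coe (φ : c.D0 π) : (absH (QD c π g m) φ).1 = c.Ham (c.ss π) g m φ.1 := by
  rw [AbsAux.H_apply, Submodule.coe_smul, Submodule.coe_sum]
  rfl

theorem E_eq (φ : c.D0 π) : absE (io c π) (QD c π g m) φ = c.En (c.ss π) g m φ.1 :=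
  Finset.sum_congr rfl fun _ _ => io_sq _

theorem alg (h1 : c.S_a1) (h2 : c.S_a2) (h3 : c.S_my1) (hg : 0 < g) (hm : 0 < m) :
    AbsAlg (io c π) (QD c π g m) c.γ m (RD c π h2) where
  gam := c.gam
  pos := hm
  add e e' := LinearMap.ext fun φ => Subtype.ext (funext fun x => by
    change c.Q _ g m (e + e') φ.1 x = c.Q _ g m e φ.1 x + c.Q _ g m e' φ.1 x
    simp only [Ctx.Q, dop, c.sE_add, c.beta_add, _root_.add_apply, map_add, smul_add,
      Finset.sum_add_distrib]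
    abel)
  smul t e := LinearMap.ext fun φ => Subtype.ext (funext fun x => by
    change c.Q _ g m (t • e) φ.1 x = (t : ℂ) • c.Q _ g m e φ.1 x
    simp only [Ctx.Q, dop, c.sE_smul, c.beta_smul, _root_.smul_apply, theta_smul, smul_add,
      Finset.smul_sum, smul_comm (t : ℂ)])
  Radd ρ ρ' := LinearMap.ext fun φ => Subtype.ext (funext fun x => by
    change c.Rot (prot (ρ + ρ')) φ.1 x = c.Rot (prot ρ) φ.1 x + c.Rot (prot ρ') φ.1 x
    simp only [Ctx.Rot, prot_add, hat_add, kr_add_left, dG_add, _root_.add_apply, map_add]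
    abel)
  Rsmul t ρ := LinearMap.ext fun φ => Subtype.ext (funext fun x => by
    change c.Rot (prot (t • ρ)) φ.1 x = (t : ℂ) • c.Rot (prot ρ) φ.1 x
    simp only [Ctx.Rot, prot_smul, hat_smul, kr_smul_left, dG_smul, _root_.smul_apply, map_smul,
      smul_sub, coe_smul])
  symm e φ ψ := by
    refine (inner_L2 (QD c π g m e φ).2.1.memLp ψ.2.1.memLp).trans
      (Eq.trans ?_ (inner_L2 φ.2.1.memLp (QD c π g m e ψ).2.1.memLp).symm)
    exact c.car.dop_symm 1 _ (c.contDiff_beta g m e).continuous φ.2.1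
      (ψ.2.1.1.of_le (by exact_mod_cast le_top))
  anti e e' φ := io_congr fun x hx => by
    refine (h1 π g m e e' φ.1 φ.2 x hx).trans ?_
    change _ = ((2 * (e ⬝ᵥ e') : ℝ) : ℂ) • (absH (QD c π g m) φ).1 x -
      (I * m) • c.Rot (prot (rho c.γ e e')) φ.1 x
    rw [H_coe, prot_eq (c.gam.rho_isRot e e')]
  rot ρ hρ e φ := by
    rw [← map_neg]
    refine io_congr fun x hx => ?_
    change c.Rot (prot ρ) (c.Q _ g m e φ.1) x - c.Q _ g m e (c.Rot (prot ρ) φ.1) x = _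
    rw [prot_eq hρ]
    exact (h2 π g m ρ hρ φ.1 φ.2).2 e x hx
  esa u hu ε hε := by
    have hu' : u ∈ Hil (sub 9 (c.ss π)) (c.C0 π) := by
      refine closure_mono ?_ hu
      rintro _ ⟨φ, rfl⟩
      exact ⟨φ.1, φ.2, rfl⟩
    obtain ⟨φ, hφ, h⟩ := c.car.esa (fun α => c.contDiff_beta g m (eb α)) (c.iso _ g m)
      (c.adm_C0 π) (fun α => c.cov_C0 π g m (eb α)) hu' hε
    refine ⟨⟨φ, hφ⟩, ?_⟩
    change ‖L2 _ (φ + (absH (QD c π g m) ⟨φ, hφ⟩).1) - u‖ ≤ ε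
    rw [H_coe]
    exact h
  cpt φ hφ := by
    obtain ⟨K, hK⟩ := h3 g g m m hg hm
    refine rellich (fun n => (φ n).2.1) (K := 1 + |K|) fun n => ?_
    have a1 := hK π _ (c.Th_ss π) g ⟨le_rfl, le_rfl⟩ m ⟨le_rfl, le_rfl⟩ _ (φ n).2.1
    have a2 := hφ n
    rw [io_sq, E_eq] at a2
    have a3 : 0 ≤ wnrm (sub 9 (c.ss π)) c.Fsq (φ n).1 :=
      integral_nonneg fun x => mul_nonneg (c.Fsq_nonneg _) (sq_nonneg _)
    have a4 := nrm_nonneg (sub 9 (c.ss π)) (φ n).1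
    have a5 : 0 ≤ c.En (c.ss π) g m (φ n).1 := en_nonneg _ _ _ _
    rw [Ctx.NE] at a1
    nlinarith [le_abs_self K, abs_nonneg K]

theorem mem_V (u : LL (sub 9 (c.ss π)) F) : u ∈ c.V π g m ↔
    ∀ ε > 0, ∃ φ, ‖io c π φ - u‖ ≤ ε ∧ absE (io c π) (QD c π g m) φ ≤ ε := by
  refine (mem_Ker_iff fun α => c.contDiff_beta g m (eb α)).trans
    (forall₂_congr fun ε _ => ⟨?_, ?_⟩)
  · rintro ⟨φ, hφ, h1, h2⟩
    exact ⟨⟨φ, hφ⟩, h1, (E_eq _).trans_le h2⟩
  · rintro ⟨φ, h1, h2⟩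
    exact ⟨φ.1, φ.2, h1, (E_eq φ).symm.trans_le h2⟩

theorem exists_lin {L : (Tn 9 d → F) → ℂ} (h : LinOn (c.D0 π) L) :
    ∃ L' : c.D0 π →ₗ[ℂ] ℂ, ∀ φ, L' φ = L φ.1 := by
  have h0 : L 0 = 0 := by
    have := h 0 (Submodule.zero_mem _) 0 (Submodule.zero_mem _) 1
    rw [smul_zero, add_zero, one_mul] at this
    linear_combination -this
  refine ⟨⟨⟨fun φ => L φ.1, fun φ ψ => ?_⟩, fun z φ => ?_⟩, fun _ => rfl⟩
  · simpa using h _ φ.2 _ ψ.2 1
  · simpa [h0] using h 0 (Submodule.zero_mem _) _ φ.2 z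

end SpecAux

open SpecAux

namespace Ctx

variable {N d : ℕ} {F : Type} [NormedAddCommGroup F] [InnerProductSpace ℂ F]
  [FiniteDimensional ℂ F] (c : Ctx N d F)

theorem p_spec (h_a1 : c.S_a1) (h_a2 : c.S_a2) (h_my1 : c.S_my1) : c.S_spec where
  fin π g m hg hm := ((alg h_a1 h_a2 h_my1 hg hm).gap mem_V).1
  gap π g m hg hm φ hφ := by
    obtain ⟨u, hu, h⟩ := ((alg (π := π) h_a1 h_a2 h_my1 hg hm).gap mem_V).2 ⟨φ, hφ⟩
    exact ⟨u, hu, h.trans_eq (E_eq _)⟩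
  second π g m hg hm φ hφ := by
    have h1 := (alg (π := π) h_a1 h_a2 h_my1 hg hm).energy ⟨φ, hφ⟩
    have h2 := (alg (π := π) h_a1 h_a2 h_my1 hg hm).second ⟨φ, hφ⟩
    rw [io_sq] at h2
    simp only [E_eq, io_norm, H_coe] at h1 h2
    exact ⟨h1, h2⟩
  rot π g m hg hm u hu ε hε := by
    obtain ⟨φ, h1, h2⟩ := (alg (π := π) h_a1 h_a2 h_my1 hg hm).rot_inv mem_V hu
      (lt_min hε one_pos)
    refine ⟨φ.1, φ.2, h1.trans (min_le_left _ _), ?_⟩
    have h3 := io_sq (RD c π h_a2 rot78 φ)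
    change _ = nrm _ (c.Rot (prot rot78) φ.1) at h3
    rw [prot_eq rot78_isRot] at h3
    rw [← h3]
    nlinarith [min_le_left ε 1, min_le_right ε 1, norm_nonneg (io c π (RD c π h_a2 rot78 φ))]
  crit π g m hg hm J _ L hL hb ε k K hε hK hH φ hφ h1 h2 h3 h4 := by
    choose L' hL' using fun i => exists_lin (hL i)
    refine (alg (π := π) h_a1 h_a2 h_my1 hg hm).crit_lower mem_V L' (fun i => ?_) hε hK
      (fun i ψ => ?_) (fun j => ⟨φ j, hφ j⟩) (fun j => ?_) (fun j => ?_) (fun i j hij => ?_) h4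
    · obtain ⟨B, hB⟩ := hb i
      exact ⟨B, fun ψ => by rw [hL', io_sq]; exact hB _ ψ.2⟩
    · rw [hL', io_norm, io_norm, H_coe]
      exact hH i _ ψ.2
    · rw [io_norm]
      exact Real.sqrt_le_iff.2 ⟨hK, h1 j⟩
    · rw [hL']; exact h2 j
    · rw [hL']; exact h3 i j hij

end Ctx

end Vale.Agent.P353
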