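import Vale.Agent.P353.Cov
import Vale.Agent.P353.Rs

/-! Statements of the model specific steps. -/

noncomputable section

open MeasureTheory Filter Topology Complex Matrix
open scoped ContDiff RealInnerProductSpace

namespace Vale.Agent.P353

namespace Ctx

variable {N d : ℕ} {F : Type} [NormedAddCommGroup F] [InnerProductSpace ℂ F]
  [FiniteDimensional ℂ F] (c : Ctx N d F)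

/-- norm plus energy -/
def NE (𝔞 : Submodule ℝ (Lg d)) (g m : ℝ) (ψ : Tn 9 d → F) : ℝ :=
  nrm (sub 9 𝔞) ψ + c.En 𝔞 g m ψ

/-- norm plus gradient at the fast scale -/
def NG (_c : Ctx N d F) (𝔞 : Submodule ℝ (Lg d)) (g : ℝ) (ψ : Tn 9 d → F) : ℝ :=
  nrm (sub 9 𝔞) ψ + grad (sub 9 𝔞) ψ / g

/-- support in a ball -/
def Supp (_c : Ctx N d F) (𝔞 : Submodule ℝ (Lg d)) (R : ℝ) (ψ : Tn 9 d → F) : Prop :=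
  ∀ x ∈ sub 9 𝔞, R < ‖x‖ → ψ x = 0

/-- data for the localization from `(π, 𝔞)` to `(π', 𝔞 ⊓ blk π')` -/
def Lc (π : Setoid (Fin N)) (𝔞 : Submodule ℝ (Lg d)) (π' : Setoid (Fin N)) (v : Fin 9 → ℝ) : Prop :=
  c.Th π 𝔞 ∧ π' ≤ π ∧ v ⬝ᵥ v = 1

/-- the slow space -/
abbrev Sl (𝔞 : Submodule ℝ (Lg d)) (π' : Setoid (Fin N)) : Submodule ℝ (Tn 9 d) :=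
  sub 9 (𝔞 ⊓ c.blk π')

/-- admissible cutoffs on the slow space -/
def Cut (π : Setoid (Fin N)) (𝔞 : Submodule ℝ (Lg d)) (π' : Setoid (Fin N)) (v : Fin 9 → ℝ)
    (χ : Tn 9 d → ℝ) : Prop :=
  SmR (c.Sl 𝔞 π') χ (c.Ow (c.off π π') v) ∧ ∀ x, 0 ≤ χ x ∧ χ x ≤ 1

/-- the localization map -/
abbrev TT (π : Setoid (Fin N)) (𝔞 : Submodule ℝ (Lg d)) (π' : Setoid (Fin N)) (v : Fin 9 → ℝ)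
    (χ : Tn 9 d → ℝ) (g : ℝ) (ψ : Tn 9 d → F) : Tn 9 d → F :=
  c.Tr (𝔞 ⊓ c.blk π') (c.off π π') v χ g ψ

/-- amplitude computed through the localization map -/
def LT (π : Setoid (Fin N)) (𝔞 : Submodule ℝ (Lg d)) (π' : Setoid (Fin N)) (v : Fin 9 → ℝ)
    (χ : Tn 9 d → ℝ) (g : ℝ) (ψ : Tn 9 d → F) (η : Tn 9 d → ℝ) (β : LL (sub 9 (c.ss π')) F) : ℂ :=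
  c.Lam π' (𝔞 ⊓ c.blk π') π' g (c.TT π 𝔞 π' v χ g ψ) (c.hatη π 𝔞 π' η) β

/-- intermediate functional on the slice -/
def Mid (π : Setoid (Fin N)) (𝔞 : Submodule ℝ (Lg d)) (π' π'' : Setoid (Fin N)) (v : Fin 9 → ℝ)
    (g : ℝ) (ψ : Tn 9 d → F) (η : Tn 9 d → ℝ) (β : LL (sub 9 (c.ss π'')) F) : ℂ :=
  ∫ X : c.Sl 𝔞 π', ∫ W : Wsl (c.off π π') v,
    ((√(c.jw (c.off π π') v ((c.CS 𝔞 π'').starProjection X)) *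
      c.Gg (c.off π π') v g ((c.CS 𝔞 π'').starProjection X) W : ℝ) : ℂ) *
    inner ℂ (c.Pw (c.off π π') ((c.CS 𝔞 π'').starProjection X)
      (c.Om π' (𝔞 ⊓ c.blk π') π'' g η (rep (sub 9 (c.ss π'')) β) X)) (ψ (X + W))

/-- zero modes in the reference vacuum of the off diagonal fermions -/
def BK (π π' : Setoid (Fin N)) : Set (LL (sub 9 (c.ss π')) F) :=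
  {β | β ∈ c.B π' ∧ opL _ (c.P0 (c.off π π')) β = β}

/-- energy density with coefficients frozen at `y` -/
def den (𝔞 : Submodule ℝ (Lg d)) (g m : ℝ) (y : Tn 9 d) (ψ : Tn 9 d → F) (x : Tn 9 d) : ℝ :=
  8 * gsq (sub 9 𝔞) ψ x + c.Pot g m y / 2 * ‖ψ x‖ ^ 2 +
    (inner ℂ (ψ x) (bil c.θ (sub 9 𝔞) (fun α => c.sE (eb α)) (fun α => c.beta g m (eb α)) y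
      (ψ x))).re

/-- `Y` is a slice at `y₀` for the gauge directions in `𝔪` -/
def Trans (π : Setoid (Fin N)) (𝔞 𝔪 : Submodule ℝ (Lg d)) (Y : Submodule ℝ (Tn 9 d))
    (y₀ : Tn 9 d) : Prop :=
  c.Th π 𝔞 ∧ 𝔪 ≤ c.blk π ∧ Y ≤ sub 9 𝔞 ∧ y₀ ∈ Y ∧
    Module.finrank ℝ 𝔪 + Module.finrank ℝ Y = Module.finrank ℝ (sub 9 𝔞) ∧
    ∀ ξ ∈ 𝔪, c.vf ξ y₀ ∈ Y → ξ = 0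

/-- invariant continuous densities with compact support -/
def Dens (π : Setoid (Fin N)) (𝔞 : Submodule ℝ (Lg d)) (f : Tn 9 d → ℝ) : Prop :=
  Continuous f ∧ (∀ x, 0 ≤ f x) ∧ c.InvR π (sub 9 𝔞) f ∧ HasCompactSupport fun x : sub 9 𝔞 => f x

/-- the directions orthogonal to the gauge orbit -/
def Np (𝔴 : Submodule ℝ (Lg d)) (X : Tn 9 d) : Submodule ℝ (Tn 9 d) :=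
  sub 9 𝔴 ⊓ LinearMap.ker (c.dv 𝔴 X).toLinearMap

/-- radial bump functions -/
def Bump (_c : Ctx N d F) (ϑ : Tn 9 d → ℝ) (ρ : ℝ) : Prop :=
  ContDiff ℝ ∞ ϑ ∧ (∀ x y, ‖x‖ = ‖y‖ → ϑ x = ϑ y) ∧ (∀ x, 0 ≤ ϑ x ∧ ϑ x ≤ 1) ∧
    (∀ x, ‖x‖ ≤ ρ / 2 → ϑ x = 1) ∧ ∀ x, ρ ≤ ‖x‖ → ϑ x = 0

/-- trial function on the slice -/
def Tf (π π' : Setoid (Fin N)) (v : Fin 9 → ℝ) (g : ℝ) (η₀ ϑ : Tn 9 d → ℝ) (b : Tn 9 d → F)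
    (X W : Tn 9 d) : F :=
  ((ϑ (g ^ (1 / 4 : ℝ) • W) * c.Gg (c.off π π') v g X W *
    η₀ ((c.CS (c.ss π) π').starProjection X) : ℝ) : ℂ) • c.Pw (c.off π π') X
      (dil (sub 9 (c.ss π')) (ell g) b ((sub 9 (c.ss π')).starProjection X))

/-! ### Algebra and coercivity -/

def S_potid : Prop := ∀ (g m : ℝ) (e e' : Fin 16 → ℝ) (x : Tn 9 d),
  ⟪c.beta g m e x, c.beta g m e' x⟫ = (e ⬝ᵥ e') * c.Pot g m x / 16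

def S_a1 : Prop := ∀ (π : Setoid (Fin N)) (g m : ℝ) (e e' : Fin 16 → ℝ), ∀ ψ ∈ c.D0 π,
  ∀ x ∈ sub 9 (c.ss π),
    c.Q (c.ss π) g m e (c.Q (c.ss π) g m e' ψ) x + c.Q (c.ss π) g m e' (c.Q (c.ss π) g m e ψ) x =
      ((2 * (e ⬝ᵥ e') : ℝ) : ℂ) • c.Ham (c.ss π) g m ψ x - (I * m) • c.Rot (rho c.γ e e') ψ x

def S_a2 : Prop := ∀ (π : Setoid (Fin N)) (g m : ℝ) (ρ : Matrix (Fin 9) (Fin 9) ℝ), IsRot ρ →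
  ∀ ψ ∈ c.D0 π, c.Rot ρ ψ ∈ c.D0 π ∧ ∀ e, ∀ x ∈ sub 9 (c.ss π),
    c.Rot ρ (c.Q (c.ss π) g m e ψ) x - c.Q (c.ss π) g m e (c.Rot ρ ψ) x =
      -c.Q (c.ss π) g m (hat c.γ ρ *ᵥ e) ψ x

def S_myp : Prop := ∀ g₀ g₁ m₀ m₁ : ℝ, 0 < g₀ → 0 < m₀ → ∃ k > 0, ∃ K : ℝ,
  ∀ g ∈ Set.Icc g₀ g₁, ∀ m ∈ Set.Icc m₀ m₁, ∀ x, k * (c.Fsq x + ‖x‖ ^ 2) ≤ c.Pot g m x + K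

def S_my1 : Prop := ∀ g₀ g₁ m₀ m₁ : ℝ, 0 < g₀ → 0 < m₀ → ∃ K : ℝ, ∀ π 𝔞, c.Th π 𝔞 →
  ∀ g ∈ Set.Icc g₀ g₁, ∀ m ∈ Set.Icc m₀ m₁, ∀ ψ, Sm (sub 9 𝔞) ψ →
    grad (sub 9 𝔞) ψ + wnrm (sub 9 𝔞) c.Fsq ψ + wnrm (sub 9 𝔞) (fun x => ‖x‖ ^ 2) ψ ≤
      K * c.NE 𝔞 g m ψ

def S_cr : Prop := ∀ R : ℝ, ∃ K : ℝ, 0 ≤ K ∧ ∀ π 𝔞, c.Th π 𝔞 → ∀ g, 1 ≤ g → ∀ ψ, Sm (sub 9 𝔞) ψ →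
  c.Supp 𝔞 R ψ → grad (sub 9 𝔞) ψ + g ^ 2 * wnrm (sub 9 𝔞) c.Fsq ψ ≤
    K * (c.En 𝔞 g 0 ψ + g * nrm (sub 9 𝔞) ψ)

def S_crd : Prop := ∃ K : ℝ, 0 ≤ K ∧ ∀ᶠ g in atTop, ∀ π 𝔞, c.Th π 𝔞 → ∀ ψ, Sm (sub 9 𝔞) ψ →
  grad (sub 9 𝔞) ψ + g ^ 2 * wnrm (sub 9 𝔞) (c.Pot 1 1) ψ ≤
    K * (c.En 𝔞 g g ψ + g * nrm (sub 9 𝔞) ψ)

def S_my2 : Prop := ∃ K : ℝ, ∀ᶠ g in atTop, ∀ π 𝔞, c.Th π 𝔞 → ∀ ψ, Sm (sub 9 𝔞) ψ →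
  wnrm (sub 9 𝔞) (fun x => ‖x‖ ^ 2) ψ ≤ K * c.NE 𝔞 g 1 ψ

/-! ### Spectral consequences -/

structure S_spec : Prop where
  fin : ∀ π g m, 0 < g → 0 < m → FiniteDimensional ℂ (c.V π g m)
  gap : ∀ π g m, 0 < g → 0 < m → ∀ φ ∈ c.D0 π, ∃ u ∈ c.V π g m,
    m * ‖L2 _ φ - u‖ ^ 2 ≤ c.En (c.ss π) g m φ
  second : ∀ π g m, 0 < g → 0 < m → ∀ φ ∈ c.D0 π,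
    c.En (c.ss π) g m φ ≤
      16 * (√(nrm (sub 9 (c.ss π)) φ) * √(nrm (sub 9 (c.ss π)) (c.Ham (c.ss π) g m φ))) ∧
    ∑ α, c.En (c.ss π) g m (c.Q (c.ss π) g m (eb α) φ) ≤
      256 * nrm (sub 9 (c.ss π)) (c.Ham (c.ss π) g m φ) + 128 * m *
        (√(nrm (sub 9 (c.ss π)) φ) * √(nrm (sub 9 (c.ss π)) (c.Ham (c.ss π) g m φ)))
  rot : ∀ π g m, 0 < g → 0 < m → ∀ u ∈ c.V π g m, ∀ ε > 0, ∃ φ ∈ c.D0 π,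
    ‖L2 _ φ - u‖ ≤ ε ∧ nrm (sub 9 (c.ss π)) (c.Rot rot78 φ) ≤ ε
  crit : ∀ π g m, 0 < g → 0 < m → ∀ (J : Type) [Fintype J] (L : J → (Tn 9 d → F) → ℂ),
    (∀ i, LinOn (c.D0 π) (L i)) →
    (∀ i, ∃ B, ∀ φ ∈ c.D0 π, ‖L i φ‖ ^ 2 ≤ B * nrm (sub 9 (c.ss π)) φ) → ∀ ε k K : ℝ, 0 ≤ ε →
    0 ≤ K → (∀ i, ∀ φ ∈ c.D0 π, ‖L i (c.Ham (c.ss π) g m φ)‖ ≤
      ε * (m * √(nrm (sub 9 (c.ss π)) φ) + √(nrm (sub 9 (c.ss π)) (c.Ham (c.ss π) g m φ)))) →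
    ∀ φ : J → Tn 9 d → F, (∀ j, φ j ∈ c.D0 π) → (∀ j, nrm (sub 9 (c.ss π)) (φ j) ≤ K ^ 2) →
    (∀ j, k ≤ ‖L j (φ j)‖) → (∀ i j, i ≠ j → ‖L i (φ j)‖ ≤ ε) →
    Fintype.card J * ε * (1 + 17 * K) < k → Fintype.card J ≤ Module.finrank ℂ (c.V π g m)

def S_const : Prop := ∀ π (g m g' m' : ℝ), 0 < g → 0 < m → 0 < g' → 0 < m' →
  Module.finrank ℂ (c.V π g m) = Module.finrank ℂ (c.V π g' m')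

def S_fd : Prop := ∀ π, FiniteDimensional ℂ (c.V π 1 0) ∧
  Module.finrank ℂ (c.V π 1 0) ≤ Module.finrank ℂ (c.V π 1 1)

def S_ev : Prop := ∀ π, ∀ β ∈ c.V π 1 0, opL _ c.Par β = β

def S_prod : Prop := ∀ (π₁ π₂ π' : Setoid (Fin N)),
  (∀ a b b', π₁ a b → π₂ a b' → a = b ∨ a = b') → (∀ a b, π' a b ↔ π₁ a b ∨ π₂ a b) →
  ∀ Ω : F, ‖Ω‖ = 1 → c.P0 ⊤ Ω = Ω →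
  ∃ pr : (Tn 9 d → F) →ₗ[ℂ] (Tn 9 d → F) →ₗ[ℂ] (Tn 9 d → F),
    ∀ φ ∈ c.D0 π₁, (∀ x ∈ sub 9 (c.ss π₁), c.Par (φ x) = φ x) → ∀ ψ ∈ c.D0 π₂,
      pr φ ψ ∈ c.D0 π' ∧
      nrm (sub 9 (c.ss π')) (pr φ ψ) = nrm (sub 9 (c.ss π₁)) φ * nrm (sub 9 (c.ss π₂)) ψ ∧
      c.En (c.ss π') 1 0 (pr φ ψ) ≤ 2 * c.En (c.ss π₁) 1 0 φ * nrm (sub 9 (c.ss π₂)) ψ +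
        2 * nrm (sub 9 (c.ss π₁)) φ * c.En (c.ss π₂) 1 0 ψ ∧
      ∀ x ∈ sub 9 (c.ss π'),
        (∃ a ∈ Cl c.θ (sub 16 (c.ss π₁)), c.Par * a = a * c.Par ∧
          a Ω = φ ((sub 9 (c.ss π₁)).starProjection x)) ∧
        ∀ a ∈ Cl c.θ (sub 16 (c.ss π₁)), a Ω = φ ((sub 9 (c.ss π₁)).starProjection x) →
          pr φ ψ x = a (ψ ((sub 9 (c.ss π₂)).starProjection x))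

def S_sg : Prop := ∀ π' : Setoid (Fin N), (∀ π'' ≤ π', Module.finrank ℂ (c.V π'' 1 0) = 1) →
  ∀ π w, Maps π π' π' w → ∀ β ∈ c.V π' 1 0, c.act (permU w) π' π' β = β

/-! ### Orbits and slices -/

structure S_orba : Prop where
  diag : ∀ π 𝔞, c.Th π 𝔞 → ∀ x ∈ sub 9 𝔞, c.Fsq x = 0 → ∃ u ∈ Grp π, ∃ π' ≤ π,
    c.Ad9 u x ∈ c.CS 𝔞 π' ∧ c.Ad9 u x ∈ c.Gen π π' ∧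
      (π' = π → (sub 9 (c.ss π)).starProjection x = 0)
  stab : ∀ π π', ∀ y ∈ sub 9 (c.cen π'), y ∈ c.Gen π π' → ∀ u ∈ Grp π, c.Ad9 u y = y → u ∈ Grp π'
  perm : ∀ π π' π'', π' ≤ π → π'' ≤ π → ∀ y ∈ sub 9 (c.cen π'), y ∈ c.Gen π π' → ∀ u ∈ Grp π,
    c.Ad9 u y ∈ sub 9 (c.cen π'') → c.Ad9 u y ∈ c.Gen π π'' →
      ∃ w, Maps π π' π'' w ∧ c.Ad9 u y = c.Ad9 (permU w) y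
  sep : ∀ π π' π'', π' ≤ π → π'' ≤ π → ∀ K' K'' : Set (Tn 9 d), IsCompact K' → IsCompact K'' →
    (∀ y ∈ K', y ∈ sub 9 (c.cen π') ∧ y ∈ c.Gen π π') →
    (∀ y ∈ K'', y ∈ sub 9 (c.cen π'') ∧ y ∈ c.Gen π π'') →
    (∀ w, Maps π π' π'' w → ∀ y ∈ K', c.Ad9 (permU w) y ∉ K'') →
      ∃ δ > 0, ∀ u ∈ Grp π, ∀ y' ∈ K', ∀ y'' ∈ K'', δ ≤ ‖y'' - c.Ad9 u y'‖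
  fix : ∀ π π' w, π' ≤ π → Maps π π' π' w → ∀ y ∈ sub 9 (c.cen π'), y ∈ c.Gen π π' →
    c.Ad9 (permU w) y = y → ∀ y' ∈ sub 9 (c.cen π'), c.Ad9 (permU w) y' = y'
  good : ∀ π 𝔞 π', c.Th π 𝔞 → π' ≤ π → ∃ y ∈ c.CS 𝔞 π', y ∈ c.Good π π'

structure S_orbb : Prop where
  dir : ∃ 𝒱 : Finset (Fin 9 → ℝ), (∀ v ∈ 𝒱, v ⬝ᵥ v = 1) ∧ ∀ π π', π' ≤ π →
    ∀ y ∈ sub 9 (c.cen π'), y ∈ c.Gen π π' → ∃ v ∈ 𝒱, y ∈ c.Ow (c.off π π') v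
  gen : ∀ π π' π'' v, π' ≤ π → π'' ≤ π' → ∀ y ∈ sub 9 (c.cen π''), y ∈ c.Ow (c.off π π') v →
    y ∈ c.Gen π' π'' → y ∈ c.Gen π π''
  trans : ∀ π 𝔞 π' v, c.Lc π 𝔞 π' v → ∀ X ∈ c.Sl 𝔞 π', X ∈ c.Ow (c.off π π') v →
    c.Trans π 𝔞 (c.off π π') (c.Sl 𝔞 π' ⊔ Wsl (c.off π π') v) X
  yz : ∀ π, ∀ z ∈ sub 9 (c.ss π), ∃ 𝔪, c.Trans π (c.ss π) 𝔪 (c.Yz π z) z ∧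
    (∀ u ∈ Grp π, c.Ad9 u z = z → ∀ y ∈ c.Yz π z, c.Ad9 u y ∈ c.Yz π z) ∧
    ∀ ζ ∈ c.blk π ⊓ 𝔪ᗮ, c.vf ζ z = 0

structure S_orb : Prop extends c.S_orba, c.S_orbb

structure S_charta : Prop where
  up : ∀ π 𝔞 𝔪 Y y₀, c.Trans π 𝔞 𝔪 Y y₀ → ∃ δ > 0, ∃ K : ℝ, ∀ L : Tn 9 d →L[ℝ] Tn 9 d,
    ‖L - 1‖ ≤ δ → (∀ x ∈ sub 9 𝔞, L x ∈ sub 9 𝔞) → ∀ t ∈ sub 9 𝔞, ‖t‖ ≤ δ → ∀ f, c.Dens π 𝔞 f →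
      ∫ y in {y : Y | ‖(y : Tn 9 d) - y₀‖ ≤ δ}, f (L y + t) ≤ K * ∫ x : sub 9 𝔞, f x
  low : ∀ π 𝔞 𝔪 Y y₀, c.Trans π 𝔞 𝔪 Y y₀ → ∀ r > 0, ∃ r' > 0, ∃ K : ℝ, ∀ f, c.Dens π 𝔞 f →
    ∫ x in {x : sub 9 𝔞 | ‖(x : Tn 9 d) - y₀‖ < r'}, f x ≤
      K * ∫ y in {y : Y | ‖(y : Tn 9 d) - y₀‖ < r}, f y

structure S_chartb : Prop where
  exact : ∀ π 𝔞 𝔪 Y y₀, c.Trans π 𝔞 𝔪 Y y₀ → ∃ r > 0, ∀ b : Tn 9 d → ℝ, ContDiff ℝ ∞ b →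
    (∀ y ∈ Y, r ≤ ‖y - y₀‖ → b y = 0) → ∃ χ : Tn 9 d → ℝ, ContDiff ℝ ∞ χ ∧
      HasCompactSupport χ ∧ ∀ f : Tn 9 d → ℝ, Continuous f → c.InvR π (sub 9 𝔞) f →
        ∫ x : sub 9 𝔞, χ x ^ 2 * f x = ∫ y : Y, b y ^ 2 * f y

structure S_chart : Prop extends c.S_charta, c.S_chartb

def S_s1 : Prop := ∀ π 𝔞 π' v, c.Lc π 𝔞 π' v → ∃ K : ℝ, 0 ≤ K ∧ ∀ f, c.Dens π 𝔞 f →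
  ∫ X : c.Sl 𝔞 π', c.jw (c.off π π') v X * ∫ W : Wsl (c.off π π') v, f (X + W) ≤
    K * ∫ x : sub 9 𝔞, f x

def S_slice : Prop := ∀ π 𝔞 𝔪 Y y₀, c.Trans π 𝔞 𝔪 Y y₀ →
  (∀ u ∈ Grp π, c.Ad9 u y₀ = y₀ → ∀ y ∈ Y, c.Ad9 u y ∈ Y) → (∀ ζ ∈ c.blk π ⊓ 𝔪ᗮ, c.vf ζ y₀ = 0) →
  ∃ r > 0, ∀ u ∈ Grp π, ∀ y ∈ Y, ‖y - y₀‖ < r → c.Ad9 u y ∈ Y → ‖c.Ad9 u y - y₀‖ < r →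
    c.Ad9 u y₀ = y₀

def S_ext : Prop := ∀ π 𝔞 𝔪 Y y₀, c.Trans π 𝔞 𝔪 Y y₀ →
  (∀ u ∈ Grp π, c.Ad9 u y₀ = y₀ → ∀ y ∈ Y, c.Ad9 u y ∈ Y) → (∀ ζ ∈ c.blk π ⊓ 𝔪ᗮ, c.vf ζ y₀ = 0) →
  ∃ r > 0, ∃ K : ℝ, ∀ f : Tn 9 d → F, ContDiff ℝ ∞ f → (∀ y ∈ Y, r ≤ ‖y - y₀‖ → f y = 0) →
    (∀ u ∈ Grp π, c.Ad9 u y₀ = y₀ → ∀ y ∈ Y, f (c.Ad9 u y) = c.U u (f y)) →
    ∃ φ ∈ c.D π 𝔞, (∀ y ∈ Y, ‖y - y₀‖ < 2 * r → φ y = f y) ∧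
      (∀ x ∈ sub 9 𝔞, φ x ≠ 0 → ∃ u ∈ Grp π, ∃ y ∈ Y, f y ≠ 0 ∧ x = c.Ad9 u y ∧ φ x = c.U u (f y)) ∧
      nrm (sub 9 𝔞) φ ≤ K * nrm Y f ∧ grad (sub 9 𝔞) φ ≤ K * (nrm Y f + grad Y f)

/-! ### The local data -/

structure S_lm1a : Prop where
  isOpen : ∀ 𝔴 v, IsOpen (c.Ow 𝔴 v)
  inner_G : ∀ 𝔴 X ξ W, ⟪c.Gw 𝔴 X ξ, W⟫ = ⟪ξ, c.dv 𝔴 X W⟫
  G_mem : ∀ 𝔴 X ξ, c.Gw 𝔴 X ξ ∈ sub 9 𝔴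
  dv_mem : ∀ 𝔴 X W, c.dv 𝔴 X W ∈ 𝔴
  dv_G : ∀ 𝔴 X, ∀ ξ ∈ 𝔴, c.dv 𝔴 X (c.Gw 𝔴 X ξ) = c.Kw 𝔴 X ξ
  cv_G : ∀ 𝔴 v X, ∀ ξ ∈ 𝔴, cv v (c.Gw 𝔴 X ξ) = c.aw 𝔴 v X ξ
  G_eq : ∀ π π', π' ≤ π → ∀ X ∈ sub 9 (c.blk π'), ∀ ξ ∈ c.off π π',
    c.Gw (c.off π π') X ξ = c.vf ξ X
  j_cont : ∀ 𝔴 v, Continuous (c.jw 𝔴 v)
  j_pos : ∀ 𝔴 v, ∀ X ∈ c.Ow 𝔴 v, 0 < c.jw 𝔴 v X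
  K_pd : ∀ 𝔴 v, ∀ X ∈ c.Ow 𝔴 v, IsPD (c.Kw 𝔴 X)
  om_pd : ∀ 𝔴 v, ∀ X ∈ c.Ow 𝔴 v, IsPD (c.om 𝔴 X)
  om_sq : ∀ 𝔴 v, ∀ X ∈ c.Ow 𝔴 v, c.om 𝔴 X * c.om 𝔴 X = c.Kw 𝔴 X
  om_P : ∀ 𝔴 v, ∀ X ∈ c.Ow 𝔴 v, c.om 𝔴 X * 𝔴.starProjection = 𝔴.starProjection * c.om 𝔴 X
  om_orth : ∀ 𝔴 v, ∀ X ∈ c.Ow 𝔴 v, ∀ y ∈ 𝔴ᗮ, c.om 𝔴 X y = y
  B_pd : ∀ 𝔴 v, ∀ X ∈ c.Ow 𝔴 v, IsPD (c.Bw 𝔴 X)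
  B_sq : ∀ 𝔴 v, ∀ X ∈ c.Ow 𝔴 v,
    c.Bw 𝔴 X * c.Bw 𝔴 X = -(c.Dw 𝔴 X * c.Dw 𝔴 X) + (1 - kr 1 𝔴.starProjection)
  BJ : ∀ 𝔴 v, ∀ X ∈ c.Ow 𝔴 v, c.Bw 𝔴 X * c.Jw 𝔴 X = c.Jw 𝔴 X * c.Bw 𝔴 X
  JB : ∀ 𝔴 v, ∀ X ∈ c.Ow 𝔴 v, c.Jw 𝔴 X * c.Bw 𝔴 X = c.Dw 𝔴 X
  J_pcs : ∀ 𝔴 v, ∀ X ∈ c.Ow 𝔴 v, IsPCS (c.Jw 𝔴 X)
  J_supp : ∀ 𝔴 v, ∀ X ∈ c.Ow 𝔴 v, -(c.Jw 𝔴 X * c.Jw 𝔴 X) = kr 1 𝔴.starProjection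
  zet_mem : ∀ 𝔴 v, ∀ X ∈ c.Ow 𝔴 v, ∀ η ∈ 𝔴, c.zet 𝔴 v X η ∈ 𝔴
  a_zet : ∀ 𝔴 v, ∀ X ∈ c.Ow 𝔴 v, ∀ η, c.aw 𝔴 v X (c.zet 𝔴 v X η) = η
  A_sym : ∀ 𝔴 v, ∀ X ∈ c.Ow 𝔴 v, IsSym (c.Aw 𝔴 X)
  A_mem : ∀ 𝔴 v, ∀ X ∈ c.Ow 𝔴 v, ∀ W, c.Aw 𝔴 X W ∈ c.Np 𝔴 X
  A_G : ∀ 𝔴 v, ∀ X ∈ c.Ow 𝔴 v, ∀ ξ, c.Aw 𝔴 X (c.Gw 𝔴 X ξ) = 0
  A_pos : ∀ 𝔴 v, ∀ X ∈ c.Ow 𝔴 v, ∀ W ∈ Wsl 𝔴 v, W ≠ 0 → 0 < ⟪W, c.Aw 𝔴 X W⟫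
  Np_proj : ∀ 𝔴 v, ∀ X ∈ c.Ow 𝔴 v, (c.Np 𝔴 X).starProjection = kr 1 𝔴.starProjection - c.PN 𝔴 X
  Np_rank : ∀ 𝔴 v, ∀ X ∈ c.Ow 𝔴 v, Module.finrank ℝ (c.Np 𝔴 X) = 8 * Module.finrank ℝ 𝔴
  P_comm : ∀ 𝔴 v, ∀ X ∈ c.Ow 𝔴 v, ∀ y ∈ sub 16 𝔴ᗮ, c.Pw 𝔴 X * c.θ y = c.θ y * c.Pw 𝔴 X
  P_odd : ∀ 𝔴 v, ∀ X ∈ c.Ow 𝔴 v, ∀ y ∈ sub 16 𝔴, c.Pw 𝔴 X * c.θ y * c.Pw 𝔴 X = 0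
  P_ann : ∀ 𝔴 v, ∀ X ∈ c.Ow 𝔴 v, ∀ y ∈ sub 16 𝔴,
    c.Pw 𝔴 X * ((-I) • c.θ y - c.θ (c.Jw 𝔴 X y)) = 0
  P_P0 : ∀ 𝔴 v, ∀ X ∈ c.Ow 𝔴 v, ∀ 𝔟, 𝔟 ⟂ 𝔴 → c.Pw 𝔴 X * c.P0 𝔟 = c.P0 𝔟 * c.Pw 𝔴 X

structure S_lm1b : Prop where
  sm_om : ∀ 𝔴 v, ∀ X ∈ c.Ow 𝔴 v, ContDiffAt ℝ ∞ (c.om 𝔴) X
  sm_B : ∀ 𝔴 v, ∀ X ∈ c.Ow 𝔴 v, ContDiffAt ℝ ∞ (c.Bw 𝔴) X
  sm_J : ∀ 𝔴 v, ∀ X ∈ c.Ow 𝔴 v, ContDiffAt ℝ ∞ (c.Jw 𝔴) X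
  sm_P : ∀ 𝔴 v, ∀ X ∈ c.Ow 𝔴 v, ContDiffAt ℝ ∞ (c.Pw 𝔴) X
  sm_A : ∀ 𝔴 v, ∀ X ∈ c.Ow 𝔴 v, ContDiffAt ℝ ∞ (c.Aw 𝔴) X
  sm_Kinv : ∀ 𝔴 v, ∀ X ∈ c.Ow 𝔴 v, ContDiffAt ℝ ∞ (fun Y => Ring.inverse (c.Kw 𝔴 Y)) X
  sm_ainv : ∀ 𝔴 v, ∀ X ∈ c.Ow 𝔴 v, ContDiffAt ℝ ∞ (fun Y => Ring.inverse (c.aw 𝔴 v Y)) X
  sm_j : ∀ 𝔴 v, ∀ X ∈ c.Ow 𝔴 v, ContDiffAt ℝ ∞ (fun Y => √(c.jw 𝔴 v Y)) X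
  sm_G : ∀ 𝔴 v, ∀ g > 0, ∀ X ∈ c.Ow 𝔴 v, ∀ W,
    ContDiffAt ℝ ∞ (fun p : Tn 9 d × Tn 9 d => c.Gg 𝔴 v g p.1 p.2) (X, W)
  d_j : ∀ 𝔴 v, ∀ X ∈ c.Ow 𝔴 v, ∀ Y, fderiv ℝ (fun Y => √(c.jw 𝔴 v Y)) X Y =
    √(c.jw 𝔴 v X) / 2 * ∑ a, ⟪onb 𝔴 a, c.ad (c.zet 𝔴 v X (onb 𝔴 a)) (cv v Y)⟫
  A_unif : ∀ 𝔴 v (K : Set (Tn 9 d)), IsCompact K → K ⊆ c.Ow 𝔴 v → ∃ a > 0, ∃ M : ℝ, ∀ X ∈ K,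
    ‖c.Aw 𝔴 X‖ ≤ M ∧ ∀ W ∈ Wsl 𝔴 v, a * ‖W‖ ^ 2 ≤ ⟪W, c.Aw 𝔴 X W⟫
  split : ∀ 𝔴 v, v ⬝ᵥ v = 1 → ∀ X ∈ c.Ow 𝔴 v, ∀ f : Tn 9 d → ℂ, (Integrable fun W : sub 9 𝔴 => f W) →
    (Integrable fun p : Wsl 𝔴 v × 𝔴 => f (p.1 + c.Gw 𝔴 X p.2)) ∧
    ∫ W : sub 9 𝔴, f W = c.jw 𝔴 v X * ∫ W : Wsl 𝔴 v, ∫ ξ : 𝔴, f (W + c.Gw 𝔴 X ξ)
  split' : ∀ 𝔴 v, v ⬝ᵥ v = 1 → ∀ X ∈ c.Ow 𝔴 v, ∃ e : (Wsl 𝔴 v × 𝔴) ≃L[ℝ] sub 9 𝔴,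
    (∀ p, (e p : Tn 9 d) = p.1 + c.Gw 𝔴 X p.2) ∧
      volume = ENNReal.ofReal (c.jw 𝔴 v X) • Measure.map e volume

structure S_lm1 : Prop extends c.S_lm1a, c.S_lm1b

structure S_lmea : Prop where
  om : ∀ u (𝔴 𝔴' : Submodule ℝ (Lg d)), (∀ x, c.Ad u x ∈ 𝔴' ↔ x ∈ 𝔴) → ∀ X,
    c.om 𝔴' (c.Ad9 u X) * c.Ad u = c.Ad u * c.om 𝔴 X
  P : ∀ u (𝔴 𝔴' : Submodule ℝ (Lg d)), (∀ x, c.Ad u x ∈ 𝔴' ↔ x ∈ 𝔴) → ∀ X,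
    c.Pw 𝔴' (c.Ad9 u X) * c.U u = c.U u * c.Pw 𝔴 X
  A : ∀ u (𝔴 𝔴' : Submodule ℝ (Lg d)), (∀ x, c.Ad u x ∈ 𝔴' ↔ x ∈ 𝔴) → ∀ X,
    c.Aw 𝔴' (c.Ad9 u X) * c.Ad9 u = c.Ad9 u * c.Aw 𝔴 X
  j : ∀ u (𝔴 𝔴' : Submodule ℝ (Lg d)), (∀ x, c.Ad u x ∈ 𝔴' ↔ x ∈ 𝔴) → ∀ v X,
    c.jw 𝔴' v (c.Ad9 u X) = c.jw 𝔴 v X
  O : ∀ u (𝔴 𝔴' : Submodule ℝ (Lg d)), (∀ x, c.Ad u x ∈ 𝔴' ↔ x ∈ 𝔴) → ∀ v X,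
    c.Ad9 u X ∈ c.Ow 𝔴' v ↔ X ∈ c.Ow 𝔴 v
  W : ∀ u (𝔴 𝔴' : Submodule ℝ (Lg d)), (∀ x, c.Ad u x ∈ 𝔴' ↔ x ∈ 𝔴) → ∀ v W,
    c.Ad9 u W ∈ Wsl 𝔴' v ↔ W ∈ Wsl 𝔴 v
  G : ∀ u (𝔴 𝔴' : Submodule ℝ (Lg d)), (∀ x, c.Ad u x ∈ 𝔴' ↔ x ∈ 𝔴) → ∀ v g X W,
    c.Gg 𝔴' v g (c.Ad9 u X) (c.Ad9 u W) = c.Gg 𝔴 v g X W
  ng : ∀ u (𝔴 𝔴' : Submodule ℝ (Lg d)), (∀ x, c.Ad u x ∈ 𝔴' ↔ x ∈ 𝔴) → ∀ g X,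
    c.ng 𝔴' g (c.Ad9 u X) = c.ng 𝔴 g X
  ov : ∀ u (𝔴 𝔴' : Submodule ℝ (Lg d)), (∀ x, c.Ad u x ∈ 𝔴' ↔ x ∈ 𝔴) → ∀ X,
    c.ovw 𝔴' (c.Ad9 u X) = c.ovw 𝔴 X
  bot : ∀ g X, c.Pw ⊥ X = 1 ∧ c.ng ⊥ g X = 1 ∧ c.ovw ⊥ X = 1

structure S_lmeb : Prop where
  lam : ∀ π 𝔞 π' π'' w, c.Th π 𝔞 → π' ≤ π → Maps π π' π'' w → ∀ g > 0, ∀ ψ ∈ c.D π 𝔞, ∀ η β,
    c.Lam π 𝔞 π'' g ψ (fun x => η (c.Ad9 (permU w)⁻¹ x)) (c.act (permU w) π' π'' β) =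
      c.Lam π 𝔞 π' g ψ η β
  lamh : ∀ π 𝔞 π' π'' w, c.Th π 𝔞 → π' ≤ π → Maps π π' π'' w → ∀ g > 0, ∀ ψ ∈ c.D π 𝔞, ∀ η β,
    c.Lamh π 𝔞 π'' g ψ (fun x => η (c.Ad9 (permU w)⁻¹ x)) (c.act (permU w) π' π'' β) =
      c.Lamh π 𝔞 π' g ψ η β
  smr : ∀ π 𝔞 π' π'' w, c.Th π 𝔞 → Maps π π' π'' w → ∀ η Z, SmR (c.CS 𝔞 π') η Z →
    SmR (c.CS 𝔞 π'') (fun x => η (c.Ad9 (permU w)⁻¹ x)) (c.Ad9 (permU w)⁻¹ ⁻¹' Z)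

structure S_lme : Prop extends c.S_lmea, c.S_lmeb

def S_lm2 : Prop := ∀ π π' v, π' ≤ π → v ⬝ᵥ v = 1 → ∀ K : Set (Tn 9 d), IsCompact K →
  K ⊆ c.Ow (c.off π π') v → (∀ X ∈ K, X ∈ sub 9 (c.blk π')) → ∃ b > 0, ∃ M : ℝ, 0 ≤ M ∧ ∀ X ∈ K,
    (∀ α, ∀ W ∈ sub 9 (c.off π π'), fderiv ℝ (c.Phi (eb α)) X W ∈ sub 16 (c.off π π') ∧
      ‖fderiv ℝ (c.Phi (eb α)) X W +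
        c.Jw (c.off π π') X (c.sE (eb α) (c.Aw (c.off π π') X W))‖ ≤ M * √(c.Fsq X) * ‖W‖) ∧
    (∀ a : F, -(trR (c.Aw (c.off π π') X) / 2 + M * √(c.Fsq X)) * ‖a‖ ^ 2 +
      b * ‖a - c.Pw (c.off π π') X a‖ ^ 2 ≤
        (inner ℂ a ((-I) • dG c.θ (c.Dw (c.off π π') X) a)).re) ∧
    ∀ W ∈ Wsl (c.off π π') v, ‖W‖ ^ 2 ≤ M * c.Fsq (X + W) ∧
      c.Fsq X ≤ 2 * c.Fsq (X + W) + M * ‖W‖ ^ 4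

structure S_lm3a : Prop where
  B_eq : ∀ π π' π'' v, π' ≤ π → π'' ≤ π' → ∀ y ∈ sub 9 (c.cen π''), y ∈ c.Ow (c.off π π') v →
    c.Bw (c.off π π') y = kr 1 (c.om (c.off π π') y) ∧
    ∀ i, c.om (c.off π π') y * c.adw (c.off π π') (cmp i y) =
      c.adw (c.off π π') (cmp i y) * c.om (c.off π π') y
  om_mul : ∀ π π' π'', π' ≤ π → π'' ≤ π' → ∀ y ∈ sub 9 (c.cen π''), y ∈ c.Gen π π'' →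
    ∀ W ∈ sub 9 (c.off π π'), ∀ W' ∈ sub 9 (c.off π' π''),
      ⟪W + W', kr 1 (c.om (c.off π π'') y) (W + W')⟫ =
        ⟪W, kr 1 (c.om (c.off π π') y) W⟫ + ⟪W', kr 1 (c.om (c.off π' π'') y) W'⟫
  P_mul : ∀ π π' π'', π' ≤ π → π'' ≤ π' → ∀ y ∈ sub 9 (c.cen π''), y ∈ c.Gen π π'' →
    c.Pw (c.off π π'') y = c.Pw (c.off π π') y * c.Pw (c.off π' π'') y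
  ng_mul : ∀ π π' π'', π' ≤ π → π'' ≤ π' → ∀ y ∈ sub 9 (c.cen π''), y ∈ c.Gen π π'' → ∀ g > 0,
    c.ng (c.off π π'') g y = c.ng (c.off π π') g y * c.ng (c.off π' π'') g y
  ng_scale : ∀ 𝔴 X, ∀ g > 0, c.ng 𝔴 g X = g ^ (5 / 2 * (Module.finrank ℝ 𝔴 : ℝ)) * c.ng 𝔴 1 X
  ng_cont : ∀ 𝔴 v, ContinuousOn (c.ng 𝔴 1) (c.Ow 𝔴 v)
  ng_nonneg : ∀ 𝔴 g X, 0 ≤ c.ng 𝔴 g X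

structure S_lm3b : Prop where
  gauge : ∀ π π' π'' v, π' ≤ π → π'' ≤ π' → v ⬝ᵥ v = 1 → ∀ y ∈ sub 9 (c.cen π''),
    y ∈ c.Ow (c.off π π') v → ∀ g > 0, ∀ W ∈ Wsl (c.off π π') v,
      c.ng (c.off π π') g y * c.jw (c.off π π') v y * (∫ ξ : c.off π π', Real.exp (-(g *
        ⟪W + c.Gw (c.off π π') y ξ, kr 1 (c.om (c.off π π') y) (W + c.Gw (c.off π π') y ξ)⟫) / 2))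
        = √(c.jw (c.off π π') v y) * c.Gg (c.off π π') v g y W
  w2a : ∀ π π' v, π' ≤ π → ∀ y ∈ sub 9 (c.cen π'), y ∈ c.Ow (c.off π π') v → ∀ e,
    ∫ W : Wsl (c.off π π') v, c.Gg (c.off π π') v 1 y W ^ 2 • c.Phi e W = 0

structure S_lm3 : Prop extends c.S_lm3a, c.S_lm3b

structure S_lm4 : Prop where
  ov_pos : ∀ π π', π' ≤ π → ∀ y ∈ sub 9 (c.cen π'), y ∈ c.Good π π' → 0 < c.ovw (c.off π π') y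
  ov_sm : ∀ 𝔴 v, ∀ X ∈ c.Ow 𝔴 v, ContDiffAt ℝ ∞ (c.ovw 𝔴) X
  PP0P : ∀ 𝔴 v, ∀ X ∈ c.Ow 𝔴 v, c.Pw 𝔴 X * c.P0 𝔴 * c.Pw 𝔴 X = (c.ovw 𝔴 X : ℂ) • c.Pw 𝔴 X ∧
    c.P0 𝔴 * c.Pw 𝔴 X * c.P0 𝔴 = (c.ovw 𝔴 X : ℂ) • c.P0 𝔴
  flat : ∀ π π', π' ≤ π → ∀ y ∈ sub 9 (c.cen π'), y ∈ c.Good π π' → ∀ z ∈ sub 9 (c.cen π'),
    c.Pw (c.off π π') y * fderiv ℝ (fun X => (((√(c.ovw (c.off π π') X))⁻¹ : ℝ) : ℂ) •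
      (c.Pw (c.off π π') X * c.P0 (c.off π π'))) y z = 0
  hat : ∀ π 𝔞 π', π' ≤ π → ∀ η Z, SmR (c.CS 𝔞 π') η (c.Good π π' ∩ Z) →
    SmR (c.CS 𝔞 π') (c.hatη π 𝔞 π' η) (c.Good π π' ∩ Z)
  norm_P : ∀ π π', π' ≤ π → ∀ y ∈ sub 9 (c.cen π'), y ∈ c.Gen π π' → ∀ β ∈ c.BK π π',
    ‖opL _ (c.Pw (c.off π π') y) β‖ ^ 2 = c.ovw (c.off π π') y * ‖β‖ ^ 2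
  theta_BK : ∀ π π', π' ≤ π → ∀ y ∈ sub 16 (c.cen π'), ∀ z : ℂ, ∀ β ∈ c.BK π π',
    opL _ (z • c.θ y) β ∈ c.BK π π'

/-- elementary properties of the amplitudes -/
structure S_lama : Prop where
  memLp : ∀ π 𝔞 π', c.Th π 𝔞 → π' ≤ π → ∀ η, SmR (c.CS 𝔞 π') η (c.Gen π π') → ∀ g > 0,
    ∀ b : Tn 9 d → F, MemLp (fun x : sub 9 (c.ss π') => b x) 2 volume →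
      MemLp (fun x : sub 9 𝔞 => c.Om π 𝔞 π' g η b x) 2 volume
  linOn : ∀ π 𝔞 π', c.Th π 𝔞 → π' ≤ π → ∀ η, SmR (c.CS 𝔞 π') η (c.Gen π π') → ∀ g > 0, ∀ β,
    ∀ φ ψ, Sm (sub 9 𝔞) φ → Sm (sub 9 𝔞) ψ → ∀ z : ℂ,
      c.Lam π 𝔞 π' g (φ + z • ψ) η β = c.Lam π 𝔞 π' g φ η β + z * c.Lam π 𝔞 π' g ψ η β
  bdd : ∀ π 𝔞 π', c.Th π 𝔞 → π' ≤ π → ∀ η, SmR (c.CS 𝔞 π') η (c.Gen π π') → ∀ g > 0, ∀ β,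
    ∃ B, ∀ ψ, Sm (sub 9 𝔞) ψ → ‖c.Lam π 𝔞 π' g ψ η β‖ ^ 2 ≤ B * nrm (sub 9 𝔞) ψ
  linη : ∀ π 𝔞 π', c.Th π 𝔞 → π' ≤ π → ∀ g > 0, ∀ ψ, Sm (sub 9 𝔞) ψ → ∀ β,
    LinR (c.CS 𝔞 π') (c.Gen π π') fun η => c.Lam π 𝔞 π' g ψ η β
  linηh : ∀ π 𝔞 π', c.Th π 𝔞 → π' ≤ π → ∀ g > 0, ∀ ψ, Sm (sub 9 𝔞) ψ → ∀ β,
    LinR (c.CS 𝔞 π') (c.Good π π') fun η => c.Lamh π 𝔞 π' g ψ η β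
  linβ : ∀ π 𝔞 π', c.Th π 𝔞 → π' ≤ π → ∀ η, SmR (c.CS 𝔞 π') η (c.Gen π π') → ∀ g > 0,
    ∀ ψ, Sm (sub 9 𝔞) ψ → ∀ β β' (z : ℂ), c.Lam π 𝔞 π' g ψ η (β + z • β') =
      c.Lam π 𝔞 π' g ψ η β + (starRingEnd ℂ) z * c.Lam π 𝔞 π' g ψ η β'
  congrη : ∀ π 𝔞 π' g ψ η η' β, (∀ y ∈ c.CS 𝔞 π', η y = η' y) →
    c.Lam π 𝔞 π' g ψ η β = c.Lam π 𝔞 π' g ψ η' β ∧ c.Lamh π 𝔞 π' g ψ η β = c.Lamh π 𝔞 π' g ψ η' β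
  congrb : ∀ π 𝔞 π', c.Th π 𝔞 → π' ≤ π → ∀ g > 0, ∀ ψ η (b b' : Tn 9 d → F),
    (∀ᵐ x : sub 9 (c.ss π'), b x = b' x) → c.Lamf π 𝔞 π' g ψ η b = c.Lamf π 𝔞 π' g ψ η b'
  loc : ∀ π 𝔞 π' (K : Set (Tn 9 d)), ∀ δ > 0, ∀ᶠ g in atTop, ∀ φ ψ η β,
    (∀ y ∈ c.CS 𝔞 π', y ∉ K → η y = 0) → (∀ x ∈ sub 9 𝔞, ∀ y ∈ K, ‖x - y‖ ≤ δ → φ x = ψ x) →
      c.Lam π 𝔞 π' g φ η β = c.Lam π 𝔞 π' g ψ η β ∧ c.Lamh π 𝔞 π' g φ η β = c.Lamh π 𝔞 π' g ψ η β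
  zero : ∀ π 𝔞 π' g η β, c.Lam π 𝔞 π' g 0 η β = 0 ∧ c.Lamh π 𝔞 π' g 0 η β = 0

structure S_lamb : Prop where
  P0 : ∀ π π', π' ≤ π → ∀ η, SmR (c.CS (c.ss π) π') η (c.Gen π π') → ∀ g > 0, ∀ ψ ∈ c.D0 π, ∀ β,
    c.Lam π (c.ss π) π' g ψ η (opL _ (c.P0 (c.ss π)ᗮ) β) = c.Lam π (c.ss π) π' g ψ η β
  expand : ∀ π 𝔞 π', c.Th π 𝔞 → π' ≤ π → ∀ g > 0, ∀ ψ, Sm (sub 9 𝔞) ψ → ∀ η β (n : ℕ)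
    (f : Fin n → Tn 9 d → ℝ) (a : Fin n → F →L[ℂ] F), (∀ j, SmR (c.CS 𝔞 π') (f j) (c.Gen π π')) →
    (∀ y ∈ c.CS 𝔞 π', (η y : ℂ) • c.Pw (c.off π π') y =
      ∑ j, (f j y : ℂ) • (c.Pw (c.off π π') y * a j)) →
      c.Lam π 𝔞 π' g ψ η β = ∑ j, c.Lam π 𝔞 π' g ψ (f j) (opL _ (a j) β)
  self : ∀ π 𝔞, c.Th π 𝔞 → ∀ η, SmR (c.CS 𝔞 π) η Set.univ → ∀ β, ∀ ε > 0, ∀ᶠ g in atTop,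
    ∀ ψ, Sm (sub 9 𝔞) ψ → ‖c.Lam π 𝔞 π g ψ η β -
      ip (sub 9 𝔞) (fun x => (η ((c.CS 𝔞 π).starProjection x) : ℂ) •
        dil (sub 9 (c.ss π)) (ell g) (rep _ β) ((sub 9 (c.ss π)).starProjection x)) ψ‖ ^ 2 ≤
      ε * nrm (sub 9 𝔞) ψ
  self_bd : ∀ π 𝔞, c.Th π 𝔞 → ∀ η, SmR (c.CS 𝔞 π) η Set.univ → ∀ β, ∀ g > 0,
    ∀ ψ, Sm (sub 9 𝔞) ψ → ‖c.Lam π 𝔞 π g ψ η β‖ ^ 2 ≤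
      (∫ y : c.CS 𝔞 π, η y ^ 2) * ‖β‖ ^ 2 * nrm (sub 9 𝔞) ψ

structure S_lam : Prop extends c.S_lama, c.S_lamb

/-! ### The localization map -/

structure S_tb : Prop where
  sm : ∀ π 𝔞 π' v χ, c.Lc π 𝔞 π' v → c.Cut π 𝔞 π' v χ → ∀ g > 0, ∀ ψ, Sm (sub 9 𝔞) ψ →
    Sm (c.Sl 𝔞 π') (c.TT π 𝔞 π' v χ g ψ)
  mem : ∀ π 𝔞 π' v χ, c.Lc π 𝔞 π' v → c.Cut π 𝔞 π' v χ → c.InvR π' (c.Sl 𝔞 π') χ → ∀ g > 0,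
    ∀ ψ ∈ c.D π 𝔞, c.TT π 𝔞 π' v χ g ψ ∈ c.D π' (𝔞 ⊓ c.blk π')
  lin : ∀ π 𝔞 π' v χ, c.Lc π 𝔞 π' v → c.Cut π 𝔞 π' v χ → ∀ g > 0, ∀ φ ψ, Sm (sub 9 𝔞) φ →
    Sm (sub 9 𝔞) ψ → ∀ z : ℂ,
      c.TT π 𝔞 π' v χ g (φ + z • ψ) = c.TT π 𝔞 π' v χ g φ + z • c.TT π 𝔞 π' v χ g ψ
  proj : ∀ π 𝔞 π' v χ g ψ, ∀ X ∈ c.Sl 𝔞 π', Sm (sub 9 𝔞) ψ → c.Lc π 𝔞 π' v →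
    c.Pw (c.off π π') X (c.T0 (c.off π π') v g ψ X) = c.T0 (c.off π π') v g ψ X ∧
    c.Pw (c.off π π') X (c.TT π 𝔞 π' v χ g ψ X) = c.TT π 𝔞 π' v χ g ψ X
  pt : ∀ π 𝔞 π' v, c.Lc π 𝔞 π' v → ∀ g > 0, ∀ ψ, Sm (sub 9 𝔞) ψ → ∀ X ∈ c.Sl 𝔞 π',
    X ∈ c.Ow (c.off π π') v →
      ‖c.T0 (c.off π π') v g ψ X‖ ^ 2 ≤ ∫ W : Wsl (c.off π π') v, ‖ψ (X + W)‖ ^ 2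
  bd : ∀ π 𝔞 π' v, c.Lc π 𝔞 π' v → ∃ K : ℝ, 0 ≤ K ∧ ∀ χ, c.Cut π 𝔞 π' v χ → ∀ g > 0,
    ∀ ψ ∈ c.D π 𝔞, nrm (c.Sl 𝔞 π') (c.TT π 𝔞 π' v χ g ψ) ≤ K * nrm (sub 9 𝔞) ψ
  tail : ∀ π 𝔞 π' v χ, c.Lc π 𝔞 π' v → c.Cut π 𝔞 π' v χ → ∀ r > 0, ∀ ε > 0, ∀ᶠ g in atTop,
    ∀ ψ ∈ c.D π 𝔞, ∀ φ : Tn 9 d → F, Sm (sub 9 𝔞) φ → (∀ x ∈ sub 9 𝔞, ‖φ x‖ ≤ ‖ψ x‖) →
      (∀ X ∈ c.Sl 𝔞 π', χ X ≠ 0 → ∀ W ∈ Wsl (c.off π π') v, ‖W‖ < r → φ (X + W) = 0) →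
      nrm (c.Sl 𝔞 π') (c.TT π 𝔞 π' v χ g φ) ≤ ε * nrm (sub 9 𝔞) ψ

def S_si : Prop := ∀ π 𝔞 π' v χ, c.Lc π 𝔞 π' v → c.Cut π 𝔞 π' v χ → ∀ g > 0, ∀ (m : ℝ) e,
  ∀ ψ ∈ c.D π 𝔞, ∀ X ∈ c.Sl 𝔞 π',
    (Integrable fun W : Wsl (c.off π π') v =>
      c.Rk (𝔞 ⊓ c.blk π') (c.off π π') v χ g m e X W (ψ (X + W))) ∧
    (Integrable fun W : Wsl (c.off π π') v =>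
      c.Rd (𝔞 ⊓ c.blk π') (c.off π π') v χ g e ψ X W) ∧
    c.Q (𝔞 ⊓ c.blk π') g m e (c.TT π 𝔞 π' v χ g ψ) X =
      c.TT π 𝔞 π' v χ g (c.Q 𝔞 g m e ψ) X +
      (∫ W : Wsl (c.off π π') v, c.Rk (𝔞 ⊓ c.blk π') (c.off π π') v χ g m e X W (ψ (X + W))) +
      ∫ W : Wsl (c.off π π') v, c.Rd (𝔞 ⊓ c.blk π') (c.off π π') v χ g e ψ X W

def S_rpt : Prop := ∀ π 𝔞 π' v χ, c.Lc π 𝔞 π' v → c.Cut π 𝔞 π' v χ → ∃ K : Set (Tn 9 d),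
  IsCompact K ∧ K ⊆ c.Ow (c.off π π') v ∧ K ⊆ c.Sl 𝔞 π' ∧ (∀ X ∈ c.Sl 𝔞 π', X ∉ K → χ X = 0) ∧
  ∃ M : ℝ, 0 ≤ M ∧ ∀ g, 1 ≤ g → ∀ m : ℝ, |m| ≤ 1 → ∀ α, ∀ X ∈ c.Sl 𝔞 π', ∀ W ∈ Wsl (c.off π π') v,
    (X ∉ K → c.Rk (𝔞 ⊓ c.blk π') (c.off π π') v χ g m (eb α) X W = 0) ∧
    ‖c.Rk (𝔞 ⊓ c.blk π') (c.off π π') v χ g m (eb α) X W‖ ≤
      M * c.Gg (c.off π π') v g X W * (1 + g * ‖W‖ ^ 2 + g * √(c.Fsq X) * ‖W‖) ∧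
    (X ∈ K → ContinuousAt (fun p : Tn 9 d × Tn 9 d =>
      c.Rk (𝔞 ⊓ c.blk π') (c.off π π') v χ g m (eb α) p.1 p.2) (X, W)) ∧
    ∀ ψ, ‖c.Rd (𝔞 ⊓ c.blk π') (c.off π π') v χ g (eb α) ψ X W‖ ≤
      M * χ X * c.Gg (c.off π π') v g X W * ‖W‖ * √(gsq (sub 9 𝔞) ψ (X + W))

def S_r2 : Prop := ∀ π 𝔞 π' v χ, c.Lc π 𝔞 π' v → c.Cut π 𝔞 π' v χ → ∀ e,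
  ∃ 𝒩 : Tn 9 d → F →L[ℂ] F, ContinuousOn 𝒩 (c.Ow (c.off π π') v) ∧
    (∀ g > 0, ∀ m : ℝ, ∀ X ∈ c.Ow (c.off π π') v,
      (Integrable fun W : Wsl (c.off π π') v => (c.Gg (c.off π π') v g X W : ℂ) •
        c.Rk (𝔞 ⊓ c.blk π') (c.off π π') v χ g m e X W) ∧
      (∫ W : Wsl (c.off π π') v, (c.Gg (c.off π π') v g X W : ℂ) •
        c.Rk (𝔞 ⊓ c.blk π') (c.off π π') v χ g m e X W) * c.Pw (c.off π π') X = 𝒩 X) ∧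
    ∀ y ∈ c.CS 𝔞 π', y ∈ c.Ow (c.off π π') v → (∀ᶠ X in 𝓝 y, χ X = 1) →
      c.Pw (c.off π π') y * 𝒩 y = 0

def S_loc2 : Prop := ∀ π 𝔞 π' v χ, c.Lc π 𝔞 π' v → c.Cut π 𝔞 π' v χ → ∀ R : ℝ, ∃ K : ℝ,
  ∀ g, 1 ≤ g → ∀ ψ ∈ c.D π 𝔞, c.Supp 𝔞 R ψ →
    c.En (𝔞 ⊓ c.blk π') g 0 (c.TT π 𝔞 π' v χ g ψ) ≤ K * c.NE 𝔞 g 0 ψ

def S_exp : Prop := ∀ π 𝔞 π' v, c.Lc π 𝔞 π' v → ∀ K : Set (Tn 9 d), IsCompact K →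
  K ⊆ c.Ow (c.off π π') v → K ⊆ c.Sl 𝔞 π' → ∃ k > 0, ∃ δ₀ > 0, ∃ M : ℝ, 0 ≤ M ∧ ∀ δ > 0, δ ≤ δ₀ →
    ∀ g, 1 ≤ g → ∀ ψ ∈ c.D π 𝔞, (∀ x ∈ sub 9 𝔞, δ ^ 2 < c.Fsq x → ψ x = 0) → ∀ X ∈ K,
      k * g * (∫ W : Wsl (c.off π π') v, ‖ψ (X + W) -
        (c.Gg (c.off π π') v g X W : ℂ) • c.T0 (c.off π π') v g ψ X‖ ^ 2) ≤
      (∫ W : Wsl (c.off π π') v,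
        (c.den 𝔞 g 0 (X + W) ψ (X + W) - c.den (𝔞 ⊓ c.blk π') g 0 X ψ (X + W))) +
      M * δ * (∫ W : Wsl (c.off π π') v,
        (gsq (sub 9 𝔞) ψ (X + W) + (g ^ 2 * c.Fsq (X + W) + g) * ‖ψ (X + W)‖ ^ 2)) +
      M * ∫ W : Wsl (c.off π π') v, ‖ψ (X + W)‖ ^ 2

def S_exc : Prop := ∀ π 𝔞 π' v, c.Lc π 𝔞 π' v → ∀ K : Set (Tn 9 d), IsCompact K →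
  K ⊆ c.Ow (c.off π π') v → ∀ R : ℝ, ∀ ε > 0, ∀ᶠ g in atTop, ∀ ψ ∈ c.D π 𝔞, c.Supp 𝔞 R ψ →
    (IntegrableOn (fun X : c.Sl 𝔞 π' => ∫ W : Wsl (c.off π π') v, ‖ψ (X + W) -
      (c.Gg (c.off π π') v g X W : ℂ) • c.T0 (c.off π π') v g ψ X‖ ^ 2) {X | (X : Tn 9 d) ∈ K}) ∧
    ∫ X in {X : c.Sl 𝔞 π' | (X : Tn 9 d) ∈ K}, ∫ W : Wsl (c.off π π') v, ‖ψ (X + W) -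
      (c.Gg (c.off π π') v g X W : ℂ) • c.T0 (c.off π π') v g ψ X‖ ^ 2 ≤ ε * c.NE 𝔞 g 0 ψ

def S_loc3 : Prop := ∀ π 𝔞 π' v χ, c.Lc π 𝔞 π' v → c.Cut π 𝔞 π' v χ → ∀ y ∈ c.Sl 𝔞 π',
  (∀ᶠ X in 𝓝 y, χ X = 1) → ∃ r > 0, ∃ K : ℝ, ∀ R : ℝ, ∀ ε > 0, ∀ᶠ g in atTop, ∀ ψ ∈ c.D π 𝔞,
    c.Supp 𝔞 R ψ → mass (sub 9 𝔞) (Metric.ball y r) ψ ≤
      K * nrm (c.Sl 𝔞 π') (c.TT π 𝔞 π' v χ g ψ) + ε * c.NE 𝔞 g 0 ψ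

/-! ### Amplitudes -/

def S_ub0 : Prop := ∀ π 𝔞 π' v π'', c.Lc π 𝔞 π' v → π'' ≤ π' → ∀ K : Set (Tn 9 d), IsCompact K →
  K ⊆ c.CS 𝔞 π'' → K ⊆ c.Gen π π'' → K ⊆ c.Ow (c.off π π') v → ∀ a > 0, ∃ δ > 0, ∃ M : ℝ,
  ∀ g, 1 ≤ g → ∀ L : Tn 9 d →L[ℝ] Tn 9 d, ‖L - 1‖ ≤ δ → (∀ x ∈ sub 9 𝔞, L x ∈ sub 9 𝔞) →
    ∀ b : Tn 9 d → ℝ, MemLp (fun x : sub 9 (c.ss π'') => b x) 2 volume →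
    ∀ h : Tn 9 d → ℝ, c.Dens π 𝔞 h →
      ∫⁻ X in {X : c.Sl 𝔞 π' | (c.CS 𝔞 π'').starProjection X ∈ K ∧
          ‖(X : Tn 9 d) - (c.CS 𝔞 π'').starProjection X‖ ≤ δ},
        ∫⁻ W in {W : Wsl (c.off π π') v | ‖(W : Tn 9 d)‖ ≤ δ}, ENNReal.ofReal
          (g ^ (5 / 2 * (Module.finrank ℝ (c.off π' π'') : ℝ) +
              2 * (Module.finrank ℝ (c.off π π') : ℝ)) *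
            Real.exp (-(a * g * (‖(sub 9 (c.off π' π'')).starProjection X‖ ^ 2 +
              ‖(W : Tn 9 d)‖ ^ 2))) *
            |b ((sub 9 (c.ss π'')).starProjection X)| * h (L (X + W))) ≤
      ENNReal.ofReal (M * √(∫ x : sub 9 (c.ss π''), b x ^ 2) * √(∫ x : sub 9 𝔞, h x ^ 2))

def S_mul : Prop := ∀ π 𝔞 π', c.Th π 𝔞 → π' ≤ π → ∀ η, SmR (c.CS 𝔞 π') η (c.Gen π π') → ∀ β,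
  ∀ f : Tn 9 d → ℝ, ContDiff ℝ ∞ f → ∀ ε > 0, ∀ᶠ g in atTop, ∀ ψ ∈ c.D π 𝔞,
    ‖c.Lam π 𝔞 π' g (fun x => (f x : ℂ) • ψ x) η β - c.Lam π 𝔞 π' g ψ (fun x => f x * η x) β‖ ^ 2 ≤
      ε * nrm (sub 9 𝔞) ψ

def S_nc1 : Prop := ∀ π 𝔞 π' v χ π'', c.Lc π 𝔞 π' v → c.Cut π 𝔞 π' v χ → π'' ≤ π' →
  ∀ η, SmR (c.CS 𝔞 π'') η (c.Gen π' π'') → ∀ β, ∀ ε > 0, ∀ᶠ g in atTop, ∀ ψ ∈ c.D π 𝔞,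
    ‖c.Lam π' (𝔞 ⊓ c.blk π') π'' g (c.TT π 𝔞 π' v χ g ψ) η β -
      c.Mid π 𝔞 π' π'' v g ψ (fun x => χ x * η x) β‖ ^ 2 ≤ ε * nrm (sub 9 𝔞) ψ

def S_nc2 : Prop := ∀ π 𝔞 π' v π'', c.Lc π 𝔞 π' v → π'' ≤ π' →
  ∀ η, SmR (c.CS 𝔞 π'') η (c.Gen π π'' ∩ c.Ow (c.off π π') v) → ∀ β, ∀ ε > 0, ∀ᶠ g in atTop,
    ∀ ψ ∈ c.D π 𝔞, ‖c.Mid π 𝔞 π' π'' v g ψ η β - c.Lam π 𝔞 π'' g ψ η β‖ ^ 2 ≤ ε * c.NG 𝔞 g ψ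

def S_nc : Prop := ∀ π 𝔞 π' v χ π'', c.Lc π 𝔞 π' v → c.Cut π 𝔞 π' v χ → π'' ≤ π' →
  ∀ η, SmR (c.CS 𝔞 π'') η (c.Gen π' π'') →
    SmR (c.CS 𝔞 π'') (fun x => χ x * η x) (c.Gen π π'') ∧
    ∀ β, ∀ ε > 0, ∀ᶠ g in atTop, ∀ ψ ∈ c.D π 𝔞,
      ‖c.Lam π' (𝔞 ⊓ c.blk π') π'' g (c.TT π 𝔞 π' v χ g ψ) η β -
        c.Lam π 𝔞 π'' g ψ (fun x => χ x * η x) β‖ ^ 2 ≤ ε * c.NG 𝔞 g ψ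

def S_ub : Prop := ∀ π 𝔞 π', c.Th π 𝔞 → π' ≤ π → ∃ K : ℝ, 0 ≤ K ∧ ∀ m : ℝ, |m| ≤ 1 →
  (∀ η, SmR (c.CS 𝔞 π') η (c.Gen π π') → ∀ β, ∀ ε > 0, ∀ᶠ g in atTop, ∀ ψ ∈ c.D π 𝔞,
    ‖c.Lam π 𝔞 π' g ψ η β‖ ^ 2 ≤
      K * (∫ y : c.CS 𝔞 π', η y ^ 2) * ‖β‖ ^ 2 * nrm (sub 9 𝔞) ψ + ε * c.NE 𝔞 g m ψ) ∧
  ∀ η, SmR (c.CS 𝔞 π') η (c.Good π π') → ∀ β ∈ c.BK π π', ∀ ε > 0, ∀ᶠ g in atTop, ∀ ψ ∈ c.D π 𝔞,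
    ‖c.Lamh π 𝔞 π' g ψ η β‖ ^ 2 ≤
      K * (∫ y : c.CS 𝔞 π', η y ^ 2) * ‖β‖ ^ 2 * nrm (sub 9 𝔞) ψ + ε * c.NE 𝔞 g m ψ

def S_apx : Prop := ∀ π π', π' ≤ π → ∀ β ∈ c.BK π π', ∀ r > 0, ∀ ε > 0, ∀ᶠ g in atTop,
  ∃ b ∈ c.D π' (c.ss π'), (∀ x, c.P0 (c.off π π') (b x) = b x) ∧ c.Supp (c.ss π') r b ∧
    nrm (sub 9 (c.ss π')) (b - dil (sub 9 (c.ss π')) (ell g) (rep _ β)) ≤ ε ∧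
    c.En (c.ss π') g 0 b ≤ ε ∧ grad (sub 9 (c.ss π')) b ≤ ε * g ∧
    g * wnrm (sub 9 (c.ss π')) c.Fsq b ≤ ε ∧ wnrm (sub 9 (c.ss π')) (fun x => ‖x‖ ^ 2) b ≤ ε

def S_wib : Prop := ∀ π 𝔞 π' v χ, c.Lc π 𝔞 π' v → c.Cut π 𝔞 π' v χ → ∀ K : Set (Tn 9 d),
  IsCompact K → K ⊆ c.CS 𝔞 π' → (∀ᶠ X in 𝓝ˢ K, χ X = 1) → ∃ r > 0, ∀ (R M m : ℝ), |m| ≤ 1 → ∀ α,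
  ∀ ε > 0, ∃ ε' > 0, ∀ᶠ g in atTop, ∀ φ, Sm (c.Sl 𝔞 π') φ →
    (∀ X ∈ c.Sl 𝔞 π', φ X ≠ 0 → (c.CS 𝔞 π').starProjection X ∈ K ∧
      ‖X - (c.CS 𝔞 π').starProjection X‖ ≤ r) →
    (∀ X ∈ c.Sl 𝔞 π', c.Pw (c.off π π') ((c.CS 𝔞 π').starProjection X) (φ X) = φ X) →
    nrm (c.Sl 𝔞 π') φ ≤ M → g * wnrm (c.Sl 𝔞 π') c.Fsq φ ≤ M → grad (c.Sl 𝔞 π') φ ≤ ε' * g →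
    wnrm (c.Sl 𝔞 π') (fun X => ‖X - (c.CS 𝔞 π').starProjection X‖ ^ 2) φ ≤ ε' →
    ∀ ψ ∈ c.D π 𝔞, c.Supp 𝔞 R ψ →
      ‖ip (c.Sl 𝔞 π') φ (c.TT π 𝔞 π' v χ g (c.Q 𝔞 g m (eb α) ψ)) -
        ip (c.Sl 𝔞 π') (c.Q (𝔞 ⊓ c.blk π') g m (eb α) φ) (c.TT π 𝔞 π' v χ g ψ)‖ ^ 2 ≤
        ε * c.NE 𝔞 g 0 ψ

def S_wil : Prop := ∀ π 𝔞 π' v χ, c.Lc π 𝔞 π' v → c.Cut π 𝔞 π' v χ →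
  ∀ η, SmR (c.CS 𝔞 π') η (c.Good π π' ∩ {y | ∀ᶠ X in 𝓝 y, χ X = 1}) → ∀ β ∈ c.BK π π',
  ∀ (R m : ℝ), |m| ≤ 1 → ∀ α, ∀ ε > 0, ∀ᶠ g in atTop, ∀ ψ ∈ c.D π 𝔞, c.Supp 𝔞 R ψ →
    ‖c.LT π 𝔞 π' v χ g (c.Q 𝔞 g m (eb α) ψ) η β -
      ∑ k, (c.LT π 𝔞 π' v χ g ψ (fun x => fderiv ℝ η x (onb (c.CS 𝔞 π') k))
          (opL _ ((-I) • c.θ (c.sE (eb α) (onb (c.CS 𝔞 π') k))) β) +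
        c.LT π 𝔞 π' v χ g ψ (fun x => ⟪onb (c.CS 𝔞 π') k, x⟫ * η x)
          (opL _ ((m : ℂ) • c.θ (c.Km (eb α) (onb (c.CS 𝔞 π') k))) β))‖ ^ 2 ≤ ε * c.NE 𝔞 g 0 ψ

def S_wif : Prop := ∀ π 𝔞 π', c.Th π 𝔞 → π' ≤ π → ∀ η, SmR (c.CS 𝔞 π') η (c.Good π π') →
  ∀ β ∈ c.BK π π', ∀ m : ℝ, |m| ≤ 1 → ∃ (L : ℝ → (Tn 9 d → F) → ℂ) (K : ℝ),
    (∀ g > 0, LinOn (c.D π 𝔞) (L g) ∧ ∀ ψ ∈ c.D π 𝔞, ‖L g ψ‖ ^ 2 ≤ K * nrm (sub 9 𝔞) ψ) ∧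
    ∀ ε > 0, ∀ᶠ g in atTop, ∀ ψ ∈ c.D π 𝔞,
      ‖L g ψ - c.Lamh π 𝔞 π' g ψ η β‖ ^ 2 ≤ ε * c.NG 𝔞 g ψ ∧
      ∀ α, ‖L g (c.Q 𝔞 g m (eb α) ψ) - c.LamQ π 𝔞 π' g m (eb α) ψ η β‖ ^ 2 ≤ ε * c.NE 𝔞 g m ψ

def S_sec : Prop := ∀ π 𝔞 π', c.Th π 𝔞 → π' ≤ π → ∀ (m : ℝ)
  (L : (Tn 9 d → ℝ) → LL (sub 9 (c.ss π')) F → ℂ),
  (∀ β ∈ c.BK π π', LinR (c.CS 𝔞 π') (c.Good π π') fun η => L η β) →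
  (∀ η, SmR (c.CS 𝔞 π') η (c.Good π π') → ∀ β ∈ c.BK π π', ∀ β' ∈ c.BK π π', ∀ z : ℂ,
    L η (β + z • β') = L η β + (starRingEnd ℂ) z * L η β') →
  (∀ η η' β, (∀ y ∈ c.CS 𝔞 π', η y = η' y) → L η β = L η' β) →
  (∀ α η, SmR (c.CS 𝔞 π') η (c.Good π π') → ∀ β ∈ c.BK π π',
    ∑ k, (L (fun x => fderiv ℝ η x (onb (c.CS 𝔞 π') k))
        (opL _ ((-I) • c.θ (c.sE (eb α) (onb (c.CS 𝔞 π') k))) β) +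
      L (fun x => ⟪onb (c.CS 𝔞 π') k, x⟫ * η x)
        (opL _ ((m : ℂ) • c.θ (c.Km (eb α) (onb (c.CS 𝔞 π') k))) β)) = 0) →
  ∀ η, SmR (c.CS 𝔞 π') η (c.Good π π') → ∀ β ∈ c.BK π π',
    opL _ ((-I) • dG c.θ (kr (Gm c.γ) (𝔞 ⊓ c.cen π').starProjection)) β ∈ c.BK π π' ∧
    L (fun x => -lap (c.CS 𝔞 π') η x / 2 + m ^ 2 * ‖Afree d x‖ ^ 2 / 2 * η x) β +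
      (3 * m / 2 : ℝ) *
        L η (opL _ ((-I) • dG c.θ (kr (Gm c.γ) (𝔞 ⊓ c.cen π').starProjection)) β) = 0

def S_amp0 : Prop := ∀ π π', π' < π → ∀ (g : ℕ → ℝ) (ψ : ℕ → Tn 9 d → F), Tendsto g atTop atTop →
  (∀ n, ψ n ∈ c.D π (c.ss π)) → (∃ K, ∀ n, wnrm (sub 9 (c.ss π)) wt (ψ n) ≤ K) →
  Tendsto (fun n => c.En (c.ss π) (g n) 0 (ψ n)) atTop (𝓝 0) →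
  ∀ η, SmR (c.CS (c.ss π) π') η (c.Good π π') → ∀ β ∈ c.BK π π',
    Tendsto (fun n => c.Lamh π (c.ss π) π' (g n) (ψ n) η β) atTop (𝓝 0)

def S_amp1 : Prop := ∀ π π', π' ≤ π → ∀ β₀ ∈ c.V π' 1 0, (∀ β ∈ c.V π' 1 0, ∃ z : ℂ, β = z • β₀) →
  ∀ η₁, SmR (c.CS (c.ss π) π') η₁ (c.Good π π') →
  (∫ y : c.CS (c.ss π) π', η₁ y * gauss (c.CS (c.ss π) π') (Afree d) y) ≠ 0 →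
  ∀ (g : ℕ → ℝ) (ψ : ℕ → Tn 9 d → F), Tendsto g atTop atTop → (∀ n, ψ n ∈ c.D0 π) →
  (∃ K, ∀ n, nrm (sub 9 (c.ss π)) (ψ n) ≤ K) →
  Tendsto (fun n => c.En (c.ss π) (g n) 1 (ψ n)) atTop (𝓝 0) →
  Tendsto (fun n => c.Lamh π (c.ss π) π' (g n) (ψ n) η₁ β₀) atTop (𝓝 0) →
  ∀ η, SmR (c.CS (c.ss π) π') η (c.Good π π') → ∀ β ∈ c.BK π π',
    Tendsto (fun n => c.Lamh π (c.ss π) π' (g n) (ψ n) η β) atTop (𝓝 0)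

def S_conv : Prop := ∀ π 𝔞 π', c.Th π 𝔞 → π' ≤ π → ∀ g ψ, c.Bdd π 𝔞 g ψ →
  (∀ η, SmR (c.CS 𝔞 π') η (c.Good π π') → ∀ β ∈ c.BK π π',
    Tendsto (fun n => c.Lamh π 𝔞 π' (g n) (ψ n) η β) atTop (𝓝 0)) → c.Null π 𝔞 π' g ψ

def S_cco : Prop := ∀ π, (∀ π' < π, c.CC π') → c.CCo π

def S_ch : Prop := ∀ π, c.CCo π → c.CH π

def S_ni : Prop := ∀ π, c.CH π → ∀ 𝔞, c.Th π 𝔞 → ∀ ε > 0, ∃ R > 0, ∃ r > 0, ∀ g > 0, ∀ ψ ∈ c.D π 𝔞,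
  mass (sub 9 𝔞) {x | R * ell g ≤ ‖(sub 9 (c.ss π)).starProjection x‖ ∧
    ‖(sub 9 (c.ss π)).starProjection x‖ ≤ r} ψ ≤ ε * c.NE 𝔞 g 0 ψ

def S_core : Prop := ∀ π 𝔞, c.Th π 𝔞 → ∀ g ψ, c.Bdd π 𝔞 g ψ → c.Null π 𝔞 π g ψ → ∀ R : ℝ,
  Tendsto (fun n => mass (sub 9 𝔞) {x | ‖(sub 9 (c.ss π)).starProjection x‖ ≤ R * ell (g n)} (ψ n))
    atTop (𝓝 0)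

def S_cc : Prop := ∀ π, c.CC π

/-! ### Weak coupling -/

def S_d2 : Prop := ∀ π R, IsRep π R → ∃ Z : Finset (Tn 9 d), Z.card = R.card ∧
  (∀ z ∈ Z, z ∈ sub 9 (c.ss π) ∧ c.IsVac z) ∧
  (∀ x ∈ sub 9 (c.ss π), c.IsVac x → ∃ z ∈ Z, ∃ u ∈ Grp π, x = c.Ad9 u z) ∧
  ∀ z ∈ Z, ∀ z' ∈ Z, ∀ u ∈ Grp π, z' = c.Ad9 u z → z = z'

def S_d3 : Prop := ∀ π, ∀ z ∈ sub 9 (c.ss π), c.IsVac z → ∃ A Ω, c.VacData π z A Ω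

def S_du1 : Prop := ∀ π, ∀ z ∈ sub 9 (c.ss π), c.IsVac z → ∀ A Ω, c.VacData π z A Ω →
  ∃ ρ₀ > 0, ∀ ρ > 0, ρ ≤ ρ₀ → ∀ ϑ, c.Bump ϑ ρ → ∃ r > 0, ∃ K : ℝ, ∀ ε > 0, ∀ᶠ g in atTop,
    ∀ ψ ∈ c.D0 π, mass (sub 9 (c.ss π)) (Metric.ball z r) ψ ≤
      K * ‖c.Lz π z A Ω ϑ g ψ‖ ^ 2 + ε * c.NE (c.ss π) g g ψ

def S_dl1 : Prop := ∀ π, ∀ z ∈ sub 9 (c.ss π), c.IsVac z → ∀ A Ω, c.VacData π z A Ω →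
  ∃ ρ₀ > 0, ∀ ρ > 0, ρ ≤ ρ₀ → ∀ ϑ, c.Bump ϑ ρ → ∃ K : ℝ, ∀ g, 1 ≤ g →
    LinOn (c.D0 π) (c.Lz π z A Ω ϑ g) ∧ ∀ ψ ∈ c.D0 π,
      ‖c.Lz π z A Ω ϑ g ψ‖ ^ 2 ≤ K * nrm (sub 9 (c.ss π)) ψ ∧
      ∀ α, ‖c.Lz π z A Ω ϑ g (c.Q (c.ss π) g g (eb α) ψ)‖ ^ 2 ≤ K * nrm (sub 9 (c.ss π)) ψ

def S_dl2 : Prop := ∀ π, ∀ z ∈ sub 9 (c.ss π), c.IsVac z → ∀ A Ω, c.VacData π z A Ω →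
  ∃ ρ₀ > 0, ∃ K : ℝ, ∀ ρ > 0, ρ ≤ ρ₀ → ∀ ϑ, c.Bump ϑ ρ → ∀ᶠ g in atTop, ∃ φ ∈ c.D0 π,
    nrm (sub 9 (c.ss π)) φ ≤ K ∧ 1 / 2 ≤ ‖c.Lz π z A Ω ϑ g φ‖ ∧
      ∀ x ∈ sub 9 (c.ss π), φ x ≠ 0 → ∃ u ∈ Grp π, ‖x - c.Ad9 u z‖ ≤ ρ

def S_du : Prop := ∀ π R, IsRep π R → ∀ᶠ g in atTop, Module.finrank ℂ (c.V π g g) ≤ R.card

def S_dl : Prop := ∀ π R, IsRep π R → ∀ᶠ g in atTop, R.card ≤ Module.finrank ℂ (c.V π g g)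

/-! ### Strong coupling -/

def S_la1 : Prop := ∀ π π' v, c.Lc π (c.ss π) π' v → ∀ y₀ ∈ c.CS (c.ss π) π',
  y₀ ∈ c.Ow (c.off π π') v → ∃ r > 0, ∀ b ∈ c.D0 π', ∀ ϑ, c.Bump ϑ 1 →
    ∀ η₀, SmR (c.CS (c.ss π) π') η₀ (Metric.ball y₀ r) →
    ∃ (K : ℝ) (φ : ℝ → Tn 9 d → F), (∀ᶠ g in atTop, φ g ∈ c.D0 π ∧ c.NG (c.ss π) g (φ g) ≤ K ∧
        ∀ X ∈ c.Sl (c.ss π) π', ∀ W ∈ Wsl (c.off π π') v, ‖X + W - y₀‖ < 3 * r →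
          φ g (X + W) = c.Tf π π' v g η₀ ϑ b X W) ∧
      ∀ δ > 0, ∀ᶠ g in atTop, ∀ x ∈ sub 9 (c.ss π), φ g x ≠ 0 →
        ∃ u ∈ Grp π, ∃ y ∈ c.CS (c.ss π) π', y ∈ closure {y ∈ c.CS (c.ss π) π' | η₀ y ≠ 0} ∧
          ‖x - c.Ad9 u y‖ ≤ δ

def S_la : Prop := ∀ π π', π' ≤ π → ∀ y₀ ∈ c.CS (c.ss π) π', y₀ ∈ c.Good π π' → ∀ b ∈ c.D0 π',
  ∃ r > 0, Metric.ball y₀ r ⊆ c.Good π π' ∧ ∃ κ : Tn 9 d → ℝ, ContinuousOn κ (Metric.ball y₀ r) ∧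
    (∀ y ∈ Metric.ball y₀ r, 0 < κ y) ∧ ∀ η₀, SmR (c.CS (c.ss π) π') η₀ (Metric.ball y₀ r) →
    ∃ (K : ℝ) (φ : ℝ → Tn 9 d → F), (∀ᶠ g in atTop, φ g ∈ c.D0 π ∧ c.NG (c.ss π) g (φ g) ≤ K) ∧
      (∀ δ > 0, ∀ᶠ g in atTop, ∀ x ∈ sub 9 (c.ss π), φ g x ≠ 0 →
        ∃ u ∈ Grp π, ∃ y ∈ c.CS (c.ss π) π', y ∈ closure {y ∈ c.CS (c.ss π) π' | η₀ y ≠ 0} ∧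
          ‖x - c.Ad9 u y‖ ≤ δ) ∧
      ∀ η, SmR (c.CS (c.ss π) π') η (Metric.ball y₀ r) → ∀ β ∈ c.V π' 1 0,
        Tendsto (fun g => c.Lamh π (c.ss π) π' g (φ g) η β) atTop
          (𝓝 ((∫ y : c.CS (c.ss π) π', η y * η₀ y * κ y : ℝ) * inner ℂ β (L2 _ b)))

def S_loch : Prop := ∀ π π', π' ≤ π → ∀ β ∈ c.V π' 1 0, β ≠ 0 →
  (∀ w, Maps π π' π' w → c.act (permU w) π' π' β = β) →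
  ∃ K₀ : Set (Tn 9 d), IsCompact K₀ ∧ K₀ ⊆ c.CS (c.ss π) π' ∧ K₀ ⊆ c.Good π π' ∧
    ∃ k > 0, ∃ (K : ℝ) (φ : ℝ → Tn 9 d → F),
      (∀ᶠ g in atTop, φ g ∈ c.D0 π ∧ c.NG (c.ss π) g (φ g) ≤ K) ∧
      (∀ δ > 0, ∀ᶠ g in atTop, ∀ x ∈ sub 9 (c.ss π), φ g x ≠ 0 →
        ∃ u ∈ Grp π, ∃ y ∈ K₀, ‖x - c.Ad9 u y‖ ≤ δ) ∧
      ∀ η, SmR (c.CS (c.ss π) π') η (c.Good π π') → (∀ x, 0 ≤ η x) →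
        (∀ y ∈ K₀, η y = gauss (c.CS (c.ss π) π') (Afree d) y) →
        ∀ᶠ g in atTop, k ≤ ‖c.Lamh π (c.ss π) π' g (φ g) η β‖

def S_lq : Prop := ∀ π π', π' ≤ π → ∀ β ∈ c.V π' 1 0, β ∈ c.BK π π' ∧ ∀ K₀ : Set (Tn 9 d),
  IsCompact K₀ → K₀ ⊆ c.CS (c.ss π) π' → K₀ ⊆ c.Good π π' → ∀ ε > 0,
  ∃ η, SmR (c.CS (c.ss π) π') η (c.Good π π') ∧ (∀ x, 0 ≤ η x) ∧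
    (∀ y ∈ K₀, η y = gauss (c.CS (c.ss π) π') (Afree d) y) ∧
    ∀ᶠ g in atTop, ∀ ψ ∈ c.D0 π, ∀ α,
      ‖c.LamQ π (c.ss π) π' g 1 (eb α) ψ η β‖ ^ 2 ≤ ε * c.NE (c.ss π) g 1 ψ

def S_lo : Prop := ∀ π R, IsRep π R → (∀ π' < π, Module.finrank ℂ (c.V π' 1 0) = 1) →
  ∀ (n : ℕ) (β : Fin n → LL (sub 9 (c.ss π)) F), Orthonormal ℂ β → (∀ i, β i ∈ c.V π 1 0) →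
    ∀ᶠ g in atTop, n + (R.card - 1) ≤ Module.finrank ℂ (c.V π g 1)

def S_up : Prop := ∀ π R, IsRep π R → (∀ π' < π, Module.finrank ℂ (c.V π' 1 0) = 1) →
  FiniteDimensional ℂ (c.V π 1 0) → ∀ a : ℕ, (∀ g > 0, Module.finrank ℂ (c.V π g 1) = a) →
    a ≤ Module.finrank ℂ (c.V π 1 0) + (R.card - 1)

def S_main : Prop := ∀ π, Module.finrank ℂ (c.V π 1 0) = 1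

end Ctx

end Vale.Agent.P353
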