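import Vale.Agent.P353.Ga1
import Vale.Agent.P353.Gau

/-! Fibre integrals against a kernel: smoothness, integrability, Cauchy-Schwarz. -/

noncomputable section

open MeasureTheory Filter Topology Complex
open scoped ContDiff RealInnerProductSpace

namespace Vale.Agent.P353.TbAux

/-- Cauchy-Schwarz for real integrals -/
theorem cs {α : Type} [MeasurableSpace α] {μ : Measure α} {f h : α → ℝ}
    (hf : Integrable (fun x => f x ^ 2) μ) (hh : Integrable (fun x => h x ^ 2) μ)
    (hfh : Integrable (fun x => f x * h x) μ) :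
    (∫ x, f x * h x ∂μ) ^ 2 ≤ (∫ x, f x ^ 2 ∂μ) * ∫ x, h x ^ 2 ∂μ := by
  have key : ∀ t : ℝ, 0 ≤ (∫ x, f x ^ 2 ∂μ) * (t * t) + (-2 * ∫ x, f x * h x ∂μ) * t +
      ∫ x, h x ^ 2 ∂μ := by
    intro t
    have h0 : 0 ≤ ∫ x, (t * f x - h x) ^ 2 ∂μ := integral_nonneg fun x => sq_nonneg _
    have h1 : (fun x => (t * f x - h x) ^ 2) =
        fun x => ((t * t) * f x ^ 2 + (-2 * t) * (f x * h x)) + h x ^ 2 := by
      funext x; ring
    have i1 : Integrable (fun x => (t * t) * f x ^ 2 + (-2 * t) * (f x * h x)) μ :=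
      (hf.const_mul _).add (hfh.const_mul _)
    rw [h1, integral_add i1 hh,
      integral_add (hf.const_mul _) (hfh.const_mul _), integral_const_mul,
      integral_const_mul] at h0
    linarith
  have := discrim_le_zero key
  unfold discrim at this
  nlinarith

variable {E : Type} [NormedAddCommGroup E] [InnerProductSpace ℝ E] [FiniteDimensional ℝ E]
  [MeasurableSpace E] [BorelSpace E]
variable {F : Type} [NormedAddCommGroup F] [InnerProductSpace ℂ F] [FiniteDimensional ℂ F]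
variable {U U₁ U₂ : Submodule ℝ E}

omit [FiniteDimensional ℝ E] [MeasurableSpace E] [BorelSpace E] in
theorem norm_le_add (h : U₁ ⟂ U₂) {x w : E} (hx : x ∈ U₁) (hw : w ∈ U₂) :
    ‖x‖ ≤ ‖x + w‖ ∧ ‖w‖ ≤ ‖x + w‖ := by
  have h0 : ⟪x, w⟫ = 0 := Submodule.isOrtho_iff_inner_eq.1 h x hx w hw
  have h1 : ‖x + w‖ ^ 2 = ‖x‖ ^ 2 + ‖w‖ ^ 2 := by rw [norm_add_sq_real, h0]; ring
  constructor
  · exact le_of_sq_le_sq (by rw [h1]; nlinarith [sq_nonneg ‖w‖]) (norm_nonneg _)
  · exact le_of_sq_le_sq (by rw [h1]; nlinarith [sq_nonneg ‖x‖]) (norm_nonneg _)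

omit [FiniteDimensional ℂ F] in
/-- the fibre integrand is integrable -/
theorem integrable_fib (h₂ : U₂ ≤ U) {ψ : E → F} (hψ : Sm U ψ) {G : E → ℝ} (hG : Continuous G)
    (P : F →L[ℂ] F) {X : E} (hX : X ∈ U) :
    Integrable fun W : U₂ => (G W : ℂ) • P (ψ (X + W)) := by
  have hc : Continuous fun W : U₂ => ψ (X + W) :=
    hψ.1.continuous.comp (continuous_const.add continuous_subtype_val)
  have hs : HasCompactSupport fun W : U₂ => ψ (X + W) := hasCompactSupport_slice h₂ hψ.2 hX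
  refine Continuous.integrable_of_hasCompactSupport ?_ ?_
  · exact (continuous_ofReal.comp (hG.comp continuous_subtype_val)).smul (P.continuous.comp hc)
  · refine HasCompactSupport.smul_left (f := fun W : U₂ => (G W : ℂ)) ?_
    exact hs.comp_left (g := P) (map_zero P)

omit [FiniteDimensional ℂ F] in
theorem integrable_sq (h₂ : U₂ ≤ U) {ψ : E → F} (hψ : Sm U ψ) {X : E} (hX : X ∈ U) :
    Integrable fun W : U₂ => ‖ψ (X + W)‖ ^ 2 := by
  have hc : Continuous fun W : U₂ => ψ (X + W) :=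
    hψ.1.continuous.comp (continuous_const.add continuous_subtype_val)
  have hs : HasCompactSupport fun W : U₂ => ψ (X + W) := hasCompactSupport_slice h₂ hψ.2 hX
  refine Continuous.integrable_of_hasCompactSupport (hc.norm.pow 2) ?_
  exact hs.comp_left (g := fun a : F => ‖a‖ ^ 2) (by simp)

omit [FiniteDimensional ℂ F] in
/-- pointwise bound on the fibre integral -/
theorem fib_le (h₂ : U₂ ≤ U) {ψ : E → F} (hψ : Sm U ψ) {G : E → ℝ} (hG : Continuous G)
    (hG0 : ∀ W, 0 ≤ G W) (hG2 : Integrable fun W : U₂ => G W ^ 2)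
    {P : F →L[ℂ] F} (hP : ∀ a, ‖P a‖ ≤ ‖a‖) {X : E} (hX : X ∈ U) {S : Set U₂}
    (hS : MeasurableSet S) (h0 : ∀ W : U₂, W ∉ S → ψ (X + W) = 0) :
    ‖∫ W : U₂, (G W : ℂ) • P (ψ (X + W))‖ ^ 2 ≤
      (∫ W in S, G W ^ 2) * ∫ W : U₂, ‖ψ (X + W)‖ ^ 2 := by
  have hc : Continuous fun W : U₂ => ψ (X + W) :=
    hψ.1.continuous.comp (continuous_const.add continuous_subtype_val)
  have hs : HasCompactSupport fun W : U₂ => ψ (X + W) := hasCompactSupport_slice h₂ hψ.2 hX
  have e1 : (fun W : U₂ => S.indicator (fun W : U₂ => G W) W * ‖ψ (X + W)‖) =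
      fun W : U₂ => G W * ‖ψ (X + W)‖ := by
    funext W
    by_cases hW : W ∈ S
    · rw [Set.indicator_of_mem hW]
    · rw [h0 W hW]; simp
  have e2 : (fun W : U₂ => S.indicator (fun W : U₂ => G W) W ^ 2) =
      S.indicator fun W : U₂ => G W ^ 2 := by
    funext W
    by_cases hW : W ∈ S
    · rw [Set.indicator_of_mem hW, Set.indicator_of_mem hW]
    · rw [Set.indicator_of_notMem hW, Set.indicator_of_notMem hW]; simp
  have i1 : Integrable fun W : U₂ => G W * ‖ψ (X + W)‖ := by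
    refine Continuous.integrable_of_hasCompactSupport
      ((hG.comp continuous_subtype_val).mul hc.norm) ?_
    exact HasCompactSupport.mul_left (f := fun W : U₂ => G W) hs.norm
  have hcs := cs (μ := volume) (f := fun W : U₂ => S.indicator (fun W : U₂ => G W) W)
    (h := fun W : U₂ => ‖ψ (X + W)‖) (by rw [e2]; exact hG2.indicator hS)
    (integrable_sq h₂ hψ hX) (by rw [e1]; exact i1)
  rw [e1, e2, integral_indicator hS] at hcs
  refine le_trans ?_ hcs
  refine pow_le_pow_left₀ (norm_nonneg _) ?_ 2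
  refine norm_integral_le_of_norm_le i1 (Eventually.of_forall fun W => ?_)
  rw [norm_smul, Complex.norm_real, Real.norm_of_nonneg (hG0 _)]
  exact mul_le_mul_of_nonneg_left (hP _) (hG0 _)

/-- the fibre mass times a continuous weight is integrable -/
theorem integrable_mass (h : U₁ ⟂ U₂) (h₁ : U₁ ≤ U) (h₂ : U₂ ≤ U) {ψ : E → F} (hψ : Sm U ψ)
    {j : E → ℝ} (hj : Continuous j) :
    Integrable fun X : U₁ => j X * ∫ W : U₂, ‖ψ (X + W)‖ ^ 2 := by
  obtain ⟨R, hR⟩ := hψ.exists_bound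
  have hsm : ContDiff ℝ ∞ (Function.uncurry fun (x : U₁) (w : E) => ‖ψ (x + w)‖ ^ 2) := by
    have h1 : ContDiff ℝ ∞ fun p : U₁ × E => ψ (p.1 + p.2) :=
      hψ.1.comp ((U₁.subtypeL.contDiff.comp contDiff_fst).add contDiff_snd)
    exact h1.norm_sq ℂ
  have hI := (contDiffOn_integral (U := U₂) (O := Set.univ) isOpen_univ hsm.contDiffOn (R := R)
    (fun x _ w hw hlt => by
      rw [hR _ (U.add_mem (h₁ x.2) (h₂ hw)) (hlt.trans_le (norm_le_add h x.2 hw).2)]
      simp)).1
  rw [contDiffOn_univ] at hI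
  refine Continuous.integrable_of_hasCompactSupport
    ((hj.comp continuous_subtype_val).mul hI.continuous) ?_
  refine HasCompactSupport.mul_left (f := fun X : U₁ => j X) ?_
  refine HasCompactSupport.intro (isCompact_closedBall (0 : U₁) R) fun x hx => ?_
  have hx' : R < ‖(x : E)‖ := by simpa using hx
  have : (fun W : U₂ => ‖ψ (x + W)‖ ^ 2) = fun _ => 0 := by
    funext W
    rw [hR _ (U.add_mem (h₁ x.2) (h₂ W.2)) (hx'.trans_le (norm_le_add h x.2 W.2).1)]
    simp
  rw [this, integral_zero]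

/-- smoothness of the localized fibre integral -/
theorem sm_fib (h : U₁ ⟂ U₂) (h₁ : U₁ ≤ U) (h₂ : U₂ ≤ U) {ψ : E → F} (hψ : Sm U ψ) {O : Set E}
    (hO : IsOpen O) {χ : E → ℝ} (hχ : SmR U₁ χ O) {s : E → ℝ} (hs : ∀ X ∈ O, ContDiffAt ℝ ∞ s X)
    {G : E → E → ℝ} (hG : ∀ X ∈ O, ∀ W, ContDiffAt ℝ ∞ (fun p : E × E => G p.1 p.2) (X, W))
    {P : E → F →L[ℂ] F} (hP : ∀ X ∈ O, ContDiffAt ℝ ∞ P X) :
    Sm U₁ fun x => ((χ (U₁.starProjection x) * s (U₁.starProjection x) : ℝ) : ℂ) •
      ∫ W : U₂, (G (U₁.starProjection x) W : ℂ) • P (U₁.starProjection x)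
        (ψ (U₁.starProjection x + W)) := by
  obtain ⟨R, hR⟩ := hψ.exists_bound
  obtain ⟨hχ1, K, hK, hKO, hKU, hK0⟩ := hχ
  have hp : ContDiff ℝ ∞ U₁.starProjection := U₁.starProjection.contDiff
  have hO' : IsOpen (U₁.starProjection ⁻¹' O) := hO.preimage hp.continuous
  have hΦ : ContDiffOn ℝ ∞ (Function.uncurry fun (x w : E) =>
      (G (U₁.starProjection x) w : ℂ) • P (U₁.starProjection x) (ψ (U₁.starProjection x + w)))
      ((U₁.starProjection ⁻¹' O) ×ˢ Set.univ) := by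
    rintro ⟨x, w⟩ ⟨hx, -⟩
    refine ContDiffAt.contDiffWithinAt ?_
    have hq : ContDiffAt ℝ ∞ (fun p : E × E => U₁.starProjection p.1) (x, w) :=
      (hp.comp contDiff_fst).contDiffAt
    have g1 : ContDiffAt ℝ ∞ (fun p : E × E => G (U₁.starProjection p.1) p.2) (x, w) :=
      ContDiffAt.comp (g := fun p : E × E => G p.1 p.2)
        (f := fun p : E × E => (U₁.starProjection p.1, p.2)) (x, w) (hG _ hx w)
        (hq.prodMk contDiffAt_snd)
    have g2 : ContDiffAt ℝ ∞ (fun p : E × E => P (U₁.starProjection p.1)) (x, w) :=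
      ContDiffAt.comp (g := P) (f := fun p : E × E => U₁.starProjection p.1) (x, w) (hP _ hx) hq
    have g3 : ContDiffAt ℝ ∞ (fun p : E × E => ψ (U₁.starProjection p.1 + p.2)) (x, w) :=
      hψ.1.contDiffAt.comp (x, w) (hq.add contDiffAt_snd)
    have g4 : ContDiffAt ℝ ∞ (fun p : E × E =>
        (P (U₁.starProjection p.1)).restrictScalars ℝ) (x, w) :=
      (ContinuousLinearMap.restrictScalarsL ℂ F F ℝ ℝ).contDiff.contDiffAt.comp (x, w) g2
    exact (ofRealCLM.contDiff.contDiffAt.comp (x, w) g1).smul (g4.clm_apply g3)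
  have hI := (contDiffOn_integral (U := U₂) hO' hΦ (R := R) (fun x _ w hw hlt => by
    have hx := U₁.starProjection_apply_mem x
    rw [hR _ (U.add_mem (h₁ hx) (h₂ hw)) (hlt.trans_le (norm_le_add h hx hw).2)]
    simp)).1
  obtain ⟨B, hB⟩ := hK.isBounded.exists_norm_le
  refine sm_of_bound (R := B) (contDiff_iff_contDiffAt.2 fun x => ?_) fun x hx hlt => ?_
  · by_cases hx : U₁.starProjection x ∈ O
    · refine ContDiffAt.smul ?_ (hI.contDiffAt (hO'.mem_nhds hx))
      refine ofRealCLM.contDiff.contDiffAt.comp x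
        (f := fun x => χ (U₁.starProjection x) * s (U₁.starProjection x)) ?_
      exact (hχ1.comp hp).contDiffAt.mul ((hs _ hx).comp x hp.contDiffAt)
    · have hopen : IsOpen (U₁.starProjection ⁻¹' Kᶜ) :=
        hK.isClosed.isOpen_compl.preimage hp.continuous
      have hmem : x ∈ U₁.starProjection ⁻¹' Kᶜ := fun hk => hx (hKO hk)
      refine (contDiffAt_const (c := (0 : F))).congr_of_eventuallyEq ?_
      filter_upwards [hopen.mem_nhds hmem] with y hy
      rw [hK0 _ (U₁.starProjection_apply_mem y) hy]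
      simp
  · have hxK : x ∉ K := fun hk => absurd (hB x hk) (not_le.2 hlt)
    rw [Submodule.starProjection_eq_self_iff.2 hx, hK0 x hx hxK]
    simp

end Vale.Agent.P353.TbAux
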