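import Vale.Agent.P353.Stmts
import Vale.Agent.P353.Gau
import Vale.Agent.P353.TbAux

/-! The localization map: basic properties. -/

noncomputable section

open MeasureTheory Filter Topology Complex Matrix
open scoped ContDiff RealInnerProductSpace

namespace Vale.Agent.P353

namespace TbAux

variable {N d : ℕ} {F : Type} [NormedAddCommGroup F] [InnerProductSpace ℂ F]
  [FiniteDimensional ℂ F] {c : Ctx N d F} {π π' : Setoid (Fin N)} {𝔞 : Submodule ℝ (Lg d)}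
  {v : Fin 9 → ℝ}

theorem Sl_le (c : Ctx N d F) (𝔞 : Submodule ℝ (Lg d)) (π' : Setoid (Fin N)) :
    c.Sl 𝔞 π' ≤ sub 9 𝔞 := sub_mono inf_le_left

theorem Wsl_le (h : c.Lc π 𝔞 π' v) : Wsl (c.off π π') v ≤ sub 9 𝔞 :=
  inf_le_left.trans (sub_mono ((c.off_le_ss h.2.1).trans h.1.1))

theorem orth (c : Ctx N d F) (π : Setoid (Fin N)) (𝔞 : Submodule ℝ (Lg d))
    (π' : Setoid (Fin N)) (v : Fin 9 → ℝ) : c.Sl 𝔞 π' ⟂ Wsl (c.off π π') v :=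
  (sub_isOrtho ((c.off_isOrtho_blk π π').symm.mono_left inf_le_right)).mono_right inf_le_left

theorem cont_G (c : Ctx N d F) (𝔴 : Submodule ℝ (Lg d)) (v : Fin 9 → ℝ) (g : ℝ) (X : Tn 9 d) :
    Continuous (c.Gg 𝔴 v g X) := (contDiff_gauss _ _).continuous

theorem int_T0 (h : c.Lc π 𝔞 π' v) (g : ℝ) {ψ : Tn 9 d → F} (hψ : Sm (sub 9 𝔞) ψ) {X : Tn 9 d}
    (hX : X ∈ c.Sl 𝔞 π') : Integrable fun W : Wsl (c.off π π') v =>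
      (c.Gg (c.off π π') v g X W : ℂ) • c.Pw (c.off π π') X (ψ (X + W)) :=
  integrable_fib (Wsl_le h) hψ (cont_G c _ v g X) _ (Sl_le c 𝔞 π' hX)

theorem TT_eq (c : Ctx N d F) (π : Setoid (Fin N)) (χ : Tn 9 d → ℝ) (g : ℝ) (ψ : Tn 9 d → F)
    {X : Tn 9 d} (hX : X ∈ c.Sl 𝔞 π') : c.TT π 𝔞 π' v χ g ψ X =
      (c.kap (c.off π π') v χ X : ℂ) • c.T0 (c.off π π') v g ψ X := by
  unfold Ctx.TT Ctx.Tr
  rw [Submodule.starProjection_eq_self_iff.2 hX]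

theorem Pw_Pw (c : Ctx N d F) (𝔴 : Submodule ℝ (Lg d)) (X : Tn 9 d) (a : F) :
    c.Pw 𝔴 X (c.Pw 𝔴 X a) = c.Pw 𝔴 X a :=
  Submodule.starProjection_eq_self_iff.2 (Submodule.starProjection_apply_mem _ a)

theorem norm_Pw (c : Ctx N d F) (𝔴 : Submodule ℝ (Lg d)) (X : Tn 9 d) (a : F) :
    ‖c.Pw 𝔴 X a‖ ≤ ‖a‖ := Submodule.norm_starProjection_apply_le _ a

theorem Pw_T0 (h : c.Lc π 𝔞 π' v) (g : ℝ) {ψ : Tn 9 d → F} (hψ : Sm (sub 9 𝔞) ψ) {X : Tn 9 d}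
    (hX : X ∈ c.Sl 𝔞 π') :
    c.Pw (c.off π π') X (c.T0 (c.off π π') v g ψ X) = c.T0 (c.off π π') v g ψ X := by
  unfold Ctx.T0
  rw [← (c.Pw (c.off π π') X).integral_comp_comm (int_T0 h g hψ hX)]
  simp only [map_smul, Pw_Pw]

theorem T0_lin (h : c.Lc π 𝔞 π' v) (g : ℝ) {φ ψ : Tn 9 d → F} (hφ : Sm (sub 9 𝔞) φ)
    (hψ : Sm (sub 9 𝔞) ψ) (z : ℂ) {X : Tn 9 d} (hX : X ∈ c.Sl 𝔞 π') :
    c.T0 (c.off π π') v g (φ + z • ψ) X =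
      c.T0 (c.off π π') v g φ X + z • c.T0 (c.off π π') v g ψ X := by
  have i1 : Integrable fun W : Wsl (c.off π π') v =>
      z • (c.Gg (c.off π π') v g X W : ℂ) • c.Pw (c.off π π') X (ψ (X + W)) :=
    (int_T0 h g hψ hX).smul z
  unfold Ctx.T0
  rw [← integral_smul, ← integral_add (int_T0 h g hφ hX) i1]
  refine integral_congr_ae (Eventually.of_forall fun W => ?_)
  simp only [Pi.add_apply, Pi.smul_apply, map_add, map_smul, smul_add]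
  rw [smul_comm z]

theorem T0_inv (h_lmea : c.S_lmea) (h : c.Lc π 𝔞 π' v) (g : ℝ) {ψ : Tn 9 d → F}
    (hψ : ψ ∈ c.D π 𝔞) {u : UN N} (hu : u ∈ Grp π') {X : Tn 9 d} (hX : X ∈ c.Sl 𝔞 π') :
    c.T0 (c.off π π') v g ψ (c.Ad9 u X) = c.U u (c.T0 (c.off π π') v g ψ X) := by
  have hiff := c.Ad_mem_iff (u := u) (𝔟 := c.off π π') fun x hx => c.Ad_mem_off h.2.1 hu hx
  have hmap := map_eq_of_isometry (U := Wsl (c.off π π') v) (R := c.Ad9 u) fun W hW =>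
    ⟨(h_lmea.W u _ _ hiff v W).2 hW, c.norm_Ad9 u W⟩
  obtain ⟨hsm, hinv⟩ := c.mem_D.1 hψ
  unfold Ctx.T0
  rw [← (c.U u).integral_comp_comm (int_T0 h g hsm hX),
    ← integral_isometry (fun W _ => c.norm_Ad9 u W) hmap
      fun W => (c.Gg (c.off π π') v g (c.Ad9 u X) W : ℂ) •
        c.Pw (c.off π π') (c.Ad9 u X) (ψ (c.Ad9 u X + W))]
  refine integral_congr_ae (Eventually.of_forall fun W => ?_)
  have hP := congrArg (fun a : F →L[ℂ] F => a (ψ (X + W))) (h_lmea.P u _ _ hiff X)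
  simp only [mul_apply_eq_comp] at hP
  dsimp only
  rw [h_lmea.G u _ _ hiff, ← map_add, hinv u (Grp_mono h.2.1 hu) _
    ((sub 9 𝔞).add_mem (Sl_le c 𝔞 π' hX) (Wsl_le h W.2)), hP, map_smul]

theorem pos_smul {E : Type} [NormedAddCommGroup E] [InnerProductSpace ℝ E] {U : Submodule ℝ E}
    {A : E →L[ℝ] E} {a g : ℝ} (hg : 0 < g) (hA : ∀ w ∈ U, a * ‖w‖ ^ 2 ≤ ⟪w, A w⟫) :
    ∀ w ∈ U, g * a * ‖w‖ ^ 2 ≤ ⟪w, (g • A) w⟫ := fun w hw => by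
  rw [_root_.smul_apply, real_inner_smul_right, mul_assoc]
  exact mul_le_mul_of_nonneg_left (hA w hw) hg.le

theorem T0_le (h : c.Lc π 𝔞 π' v) {g : ℝ} (hg : 0 < g) {ψ : Tn 9 d → F} (hψ : Sm (sub 9 𝔞) ψ)
    {X : Tn 9 d} (hX : X ∈ c.Sl 𝔞 π') {a : ℝ} (ha : 0 < a)
    (hA : ∀ W ∈ Wsl (c.off π π') v, a * ‖W‖ ^ 2 ≤ ⟪W, c.Aw (c.off π π') X W⟫)
    {S : Set (Wsl (c.off π π') v)} (hS : MeasurableSet S)
    (h0 : ∀ W : Wsl (c.off π π') v, W ∉ S → ψ (X + W) = 0) :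
    ‖c.T0 (c.off π π') v g ψ X‖ ^ 2 ≤ (∫ W in S, c.Gg (c.off π π') v g X W ^ 2) *
      ∫ W : Wsl (c.off π π') v, ‖ψ (X + W)‖ ^ 2 := by
  refine fib_le (Wsl_le h) hψ (cont_G c _ v g X) (fun W => gauss_nonneg _ _ W) ?_
    (norm_Pw c _ X) (Sl_le c 𝔞 π' hX) hS h0
  simpa [Ctx.Gg] using integrable_gauss_sq (mul_pos hg ha) (pos_smul hg hA) 0

theorem pt (h_lm1 : c.S_lm1) (h : c.Lc π 𝔞 π' v) {g : ℝ} (hg : 0 < g) {ψ : Tn 9 d → F}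
    (hψ : Sm (sub 9 𝔞) ψ) {X : Tn 9 d} (hX : X ∈ c.Sl 𝔞 π') (hO : X ∈ c.Ow (c.off π π') v) :
    ‖c.T0 (c.off π π') v g ψ X‖ ^ 2 ≤ ∫ W : Wsl (c.off π π') v, ‖ψ (X + W)‖ ^ 2 := by
  obtain ⟨a, ha, M, hM⟩ := h_lm1.A_unif (c.off π π') v {X} isCompact_singleton
    (Set.singleton_subset_iff.2 hO)
  have hA := (hM X rfl).2
  have := T0_le h hg hψ hX ha hA MeasurableSet.univ fun W hW => absurd (Set.mem_univ W) hW
  rw [Measure.restrict_univ] at this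
  unfold Ctx.Gg at this
  rwa [integral_gauss_sq (mul_pos hg ha) (pos_smul hg hA), one_mul] at this

theorem nrm_le (h_lm1 : c.S_lm1) (h : c.Lc π 𝔞 π' v) {K : ℝ}
    (hK : ∀ f, c.Dens π 𝔞 f → ∫ X : c.Sl 𝔞 π', c.jw (c.off π π') v X *
      ∫ W : Wsl (c.off π π') v, f (X + W) ≤ K * ∫ x : sub 9 𝔞, f x)
    {χ : Tn 9 d → ℝ} (hχ : ∀ x, 0 ≤ χ x ∧ χ x ≤ 1) (g : ℝ) {ψ : Tn 9 d → F} (hψ : ψ ∈ c.D π 𝔞)
    (φ : Tn 9 d → F) {e : ℝ} (he : 0 ≤ e)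
    (hpt : ∀ X ∈ c.Sl 𝔞 π', χ X ≠ 0 → ‖c.T0 (c.off π π') v g φ X‖ ^ 2 ≤
      e * ∫ W : Wsl (c.off π π') v, ‖ψ (X + W)‖ ^ 2) :
    nrm (c.Sl 𝔞 π') (c.TT π 𝔞 π' v χ g φ) ≤ e * (K * nrm (sub 9 𝔞) ψ) := by
  have hsm := (c.mem_D.1 hψ).1
  have hD : c.Dens π 𝔞 fun x => ‖ψ x‖ ^ 2 :=
    ⟨hsm.1.continuous.norm.pow 2, fun x => sq_nonneg _, c.invR_normsq hψ,
      hsm.2.comp_left (g := fun a : F => ‖a‖ ^ 2) (by simp)⟩
  refine le_trans ?_ (mul_le_mul_of_nonneg_left (hK _ hD) he)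
  rw [← integral_const_mul]
  refine integral_mono_of_nonneg (Eventually.of_forall fun X => sq_nonneg _)
    ((integrable_mass (orth c π 𝔞 π' v) (Sl_le c 𝔞 π') (Wsl_le h) hsm
      (h_lm1.j_cont _ v)).const_mul e) (Eventually.of_forall fun X => ?_)
  have hj : 0 ≤ c.jw (c.off π π') v X := abs_nonneg _
  have hm : 0 ≤ ∫ W : Wsl (c.off π π') v, ‖ψ (X + W)‖ ^ 2 := integral_nonneg fun W => sq_nonneg _
  dsimp only
  rw [TT_eq c π χ g φ X.2, norm_smul, mul_pow, Complex.norm_real, Real.norm_eq_abs, sq_abs]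
  unfold Ctx.kap
  by_cases h0 : χ X = 0
  · rw [h0]
    simp only [zero_mul, ne_eq, OfNat.ofNat_ne_zero, not_false_eq_true, zero_pow]
    positivity
  · rw [mul_pow, Real.sq_sqrt hj]
    have h1 : χ X ^ 2 ≤ 1 := pow_le_one₀ (hχ X).1 (hχ X).2
    calc χ X ^ 2 * c.jw (c.off π π') v X * ‖c.T0 (c.off π π') v g φ X‖ ^ 2
        ≤ 1 * c.jw (c.off π π') v X * (e * ∫ W : Wsl (c.off π π') v, ‖ψ (X + W)‖ ^ 2) := by
          gcongr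
          exact hpt X X.2 h0
      _ = _ := by ring

theorem tail (h_lm1 : c.S_lm1) (h_s1 : c.S_s1) {χ : Tn 9 d → ℝ} (h : c.Lc π 𝔞 π' v)
    (hχ : c.Cut π 𝔞 π' v χ) {r : ℝ} (hr : 0 < r) {ε : ℝ} (hε : 0 < ε) : ∀ᶠ g in atTop,
    ∀ ψ ∈ c.D π 𝔞, ∀ φ : Tn 9 d → F, Sm (sub 9 𝔞) φ → (∀ x ∈ sub 9 𝔞, ‖φ x‖ ≤ ‖ψ x‖) →
      (∀ X ∈ c.Sl 𝔞 π', χ X ≠ 0 → ∀ W ∈ Wsl (c.off π π') v, ‖W‖ < r → φ (X + W) = 0) →
      nrm (c.Sl 𝔞 π') (c.TT π 𝔞 π' v χ g φ) ≤ ε * nrm (sub 9 𝔞) ψ := by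
  obtain ⟨K, hK0, hK⟩ := h_s1 π 𝔞 π' v h
  obtain ⟨⟨-, C, hC, hCO, -, hC0⟩, hχ1⟩ := hχ
  obtain ⟨a, ha, M, hM⟩ := h_lm1.A_unif (c.off π π') v C hC hCO
  have he : 0 < ε / (K + 1) := by positivity
  obtain ⟨r₀, hr₀⟩ := gauss_tail (Wsl (c.off π π') v) ha M 0 he
  filter_upwards [eventually_gt_atTop 0, eventually_ge_atTop (r₀ / r ^ 2)] with g hg hg' ψ hψ φ hφ
    hle h0
  have hsm := (c.mem_D.1 hψ).1
  refine (nrm_le h_lm1 h hK hχ1 g hψ φ he.le fun X hX hX0 => ?_).trans ?_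
  · have hXC : X ∈ C := by_contra fun hn => hX0 (hC0 X hX hn)
    have hS : MeasurableSet {W : Wsl (c.off π π') v | r₀ ≤ g * ‖(W : Tn 9 d)‖ ^ 2} :=
      (isClosed_le continuous_const (by fun_prop)).measurableSet
    have h1 := T0_le h hg hφ hX ha (hM X hXC).2 hS fun W hW => by
      refine h0 X hX hX0 W W.2 (lt_of_not_ge fun hge => hW ?_)
      have h2 : r₀ ≤ g * r ^ 2 := (div_le_iff₀ (by positivity)).1 hg'
      exact h2.trans (by gcongr)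
    have h2 := hr₀ _ (hM X hXC).2 (hM X hXC).1 g hg
    simp only [pow_zero, one_mul] at h2
    refine h1.trans (mul_le_mul h2 ?_ (integral_nonneg fun W => sq_nonneg _) he.le)
    refine integral_mono (integrable_sq (Wsl_le h) hφ (Sl_le c 𝔞 π' hX))
      (integrable_sq (Wsl_le h) hsm (Sl_le c 𝔞 π' hX)) fun W => ?_
    exact pow_le_pow_left₀ (norm_nonneg _)
      (hle _ ((sub 9 𝔞).add_mem (Sl_le c 𝔞 π' hX) (Wsl_le h W.2))) 2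
  · have hn : 0 ≤ nrm (sub 9 𝔞) ψ := integral_nonneg fun x => sq_nonneg _
    rw [← mul_assoc]
    refine mul_le_mul_of_nonneg_right ?_ hn
    rw [div_mul_eq_mul_div, div_le_iff₀ (by positivity)]
    nlinarith

theorem sm (h_lm1 : c.S_lm1) {χ : Tn 9 d → ℝ} (h : c.Lc π 𝔞 π' v) (hχ : c.Cut π 𝔞 π' v χ)
    {g : ℝ} (hg : 0 < g) {ψ : Tn 9 d → F} (hψ : Sm (sub 9 𝔞) ψ) :
    Sm (c.Sl 𝔞 π') (c.TT π 𝔞 π' v χ g ψ) :=
  sm_fib (orth c π 𝔞 π' v) (Sl_le c 𝔞 π') (Wsl_le h) hψ (h_lm1.isOpen _ v) hχ.1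
    (h_lm1.sm_j _ v) (h_lm1.sm_G _ v g hg) (h_lm1.sm_P _ v)

end TbAux

namespace Ctx

variable {N d : ℕ} {F : Type} [NormedAddCommGroup F] [InnerProductSpace ℂ F]
  [FiniteDimensional ℂ F] (c : Ctx N d F)

theorem p_tb (h_lm1 : c.S_lm1) (h_lmea : c.S_lmea) (h_s1 : c.S_s1) : c.S_tb where
  sm π 𝔞 π' v χ h hχ g hg ψ hψ := TbAux.sm h_lm1 h hχ hg hψ
  mem π 𝔞 π' v χ h hχ hi g hg ψ hψ := by
    refine c.mem_D.2 ⟨TbAux.sm h_lm1 h hχ hg (c.mem_D.1 hψ).1, fun u hu x hx => ?_⟩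
    have hiff := c.Ad_mem_iff (u := u) (𝔟 := c.off π π') fun x hx => c.Ad_mem_off h.2.1 hu hx
    rw [TbAux.TT_eq c π χ g ψ hx,
      TbAux.TT_eq c π χ g ψ (Th.Ad9_mem c (Th.inf c h.1 h.2.1) hu hx),
      TbAux.T0_inv h_lmea h g hψ hu hx, map_smul]
    unfold kap
    rw [hi u hu x hx, h_lmea.j u _ _ hiff]
  lin π 𝔞 π' v χ h _ g _ φ ψ hφ hψ z := by
    funext x
    have hx := (c.Sl 𝔞 π').starProjection_apply_mem x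
    simp only [Pi.add_apply, Pi.smul_apply]
    unfold TT Tr
    rw [TbAux.T0_lin h g hφ hψ z hx, smul_add, smul_comm z]
  proj π 𝔞 π' v χ g ψ X hX hψ h := by
    refine ⟨TbAux.Pw_T0 h g hψ hX, ?_⟩
    rw [TbAux.TT_eq c π χ g ψ hX, map_smul, TbAux.Pw_T0 h g hψ hX]
  pt π 𝔞 π' v h g hg ψ hψ X hX hO := TbAux.pt h_lm1 h hg hψ hX hO
  bd π 𝔞 π' v h := by
    obtain ⟨K, hK0, hK⟩ := h_s1 π 𝔞 π' v h
    refine ⟨K, hK0, fun χ hχ g hg ψ hψ => ?_⟩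
    obtain ⟨⟨-, C, -, hCO, -, hC0⟩, hχ1⟩ := hχ
    have := TbAux.nrm_le h_lm1 h hK hχ1 g hψ ψ zero_le_one fun X hX hX0 => by
      rw [one_mul]
      exact TbAux.pt h_lm1 h hg (c.mem_D.1 hψ).1 hX (hCO (by_contra fun hn => hX0 (hC0 X hX hn)))
    rwa [one_mul] at this
  tail π 𝔞 π' v χ h hχ r hr ε hε := TbAux.tail h_lm1 h_s1 h hχ hr hε

end Ctx

end Vale.Agent.P353
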