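import Vale.Agent.P353.MkCtx
import Vale.Agent.P353.Cov

/-! Transport to the statement of the problem. -/

noncomputable section

open MeasureTheory Filter Topology Complex Matrix
open scoped ContDiff RealInnerProductSpace

namespace Vale.Agent.P353

namespace TranspAux

section Gen

variable {E : Type} [NormedAddCommGroup E] [InnerProductSpace ℝ E] [FiniteDimensional ℝ E]
  [MeasurableSpace E] [BorelSpace E]
variable {F : Type} [NormedAddCommGroup F] [InnerProductSpace ℂ F] [FiniteDimensional ℂ F]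
variable {W : Submodule ℝ E}

theorem integral_top (hW : W = ⊤) (k : E → ℝ) : ∫ x : W, k x = ∫ x, k x :=
  (LinearIsometryEquiv.ofTop E W hW).measurePreserving.integral_comp
    (LinearIsometryEquiv.ofTop E W hW).toHomeomorph.measurableEmbedding k

theorem exists_equiv (hW : W = ⊤) : ∃ e : LL W F ≃ₗ[ℂ] Lp F 2 (volume : Measure E),
    ∀ u, ∀ᵐ x : W, e u x = u x := by
  set ι := LinearIsometryEquiv.ofTop E W hW with hι
  have h1 := ι.measurePreserving
  have h2 := ι.symm.measurePreserving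
  refine ⟨LinearEquiv.ofLinear (Lp.compMeasurePreservingₗ ℂ ι.symm h2)
    (Lp.compMeasurePreservingₗ ℂ ι h1) ?_ ?_, fun u => ?_⟩
  · refine LinearMap.ext fun u => Lp.ext ?_
    have h3 := Lp.coeFn_compMeasurePreserving (Lp.compMeasurePreserving ι h1 u) h2
    have h4 := h2.quasiMeasurePreserving.ae_eq_comp (Lp.coeFn_compMeasurePreserving u h1)
    filter_upwards [h3, h4] with x hx hx'
    exact hx.trans (hx'.trans (by simp))
  · refine LinearMap.ext fun u => Lp.ext ?_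
    have h3 := Lp.coeFn_compMeasurePreserving (Lp.compMeasurePreserving ι.symm h2 u) h1
    have h4 := h1.quasiMeasurePreserving.ae_eq_comp (Lp.coeFn_compMeasurePreserving u h2)
    filter_upwards [h3, h4] with x hx hx'
    exact hx.trans (hx'.trans (by simp))
  · have h4 := h1.quasiMeasurePreserving.ae_eq_comp (Lp.coeFn_compMeasurePreserving u h2)
    filter_upwards [h4] with x hx
    exact hx.trans (by simp)

theorem dist_eq (hW : W = ⊤) {φ : E → F} (hφ : Sm W φ) (u : LL W F) (v : E → F)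
    (hv : ∀ᵐ x : W, v x = u x) : ∫ x, ‖φ x - v x‖ ^ 2 = ‖L2 W φ - u‖ ^ 2 := by
  conv_rhs => rw [← L2_rep u, ← L2_sub hφ.memLp (memLp_rep u),
    norm_L2_sq (hφ.memLp.sub (memLp_rep u))]
  rw [← integral_top hW, nrm]
  refine integral_congr_ae ?_
  filter_upwards [hv] with x hx
  rw [Pi.sub_apply, rep_coe, hx]

theorem supp_iff (hW : W = ⊤) (φ : E → F) :
    (HasCompactSupport fun x : W => φ x) ↔ HasCompactSupport φ := by
  set ι := (LinearIsometryEquiv.ofTop E W hW).toHomeomorph with hι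
  refine ⟨fun h => ?_, fun h => h.comp_homeomorph ι⟩
  have := h.comp_homeomorph ι.symm
  have e : (fun x : W => φ x) ∘ ι.symm = φ := by
    funext x
    exact congrArg φ (ι.apply_symm_apply x)
  rwa [e] at this

theorem seq_iff {X : Type} (P : X → Prop) (a b : X → ℝ) (ha : ∀ x, 0 ≤ a x) (hb : ∀ x, 0 ≤ b x) :
    (∃ φ : ℕ → X, (∀ n, P (φ n)) ∧ Tendsto (fun n => a (φ n) ^ 2) atTop (𝓝 0) ∧
      Tendsto (fun n => (1 / 16 : ℝ) * b (φ n)) atTop (𝓝 0)) ↔
    ∀ ε > 0, ∃ x, P x ∧ a x ≤ ε ∧ b x ≤ ε := by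
  constructor
  · rintro ⟨φ, h1, h2, h3⟩ ε hε
    obtain ⟨n, hn, hn'⟩ := ((h2.eventually (gt_mem_nhds (pow_pos hε 2))).and
      (h3.eventually (gt_mem_nhds (show 0 < ε / 16 by positivity)))).exists
    exact ⟨φ n, h1 n, (pow_lt_pow_iff_left₀ (ha _) hε.le two_ne_zero).1 hn |>.le, by linarith⟩
  · intro h
    choose φ h1 h2 h3 using fun n : ℕ => h (1 / ((n : ℝ) + 1)) (by positivity)
    have h0 := tendsto_one_div_add_atTop_nhds_zero_nat (𝕜 := ℝ)
    refine ⟨φ, h1, ?_, ?_⟩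
    · simpa using (squeeze_zero (fun n => ha _) h2 h0).pow 2
    · simpa using (squeeze_zero (fun n => hb _) h3 h0).const_mul (1 / 16 : ℝ)

end Gen

variable {N d : ℕ} {F : Type} [NormedAddCommGroup F] [InnerProductSpace ℂ F]
  [FiniteDimensional ℂ F] {T : Fin d → Matrix (Fin N) (Fin N) ℂ} {f : Fin d → Fin d → Fin d → ℝ}
  {γ : Fin 9 → M16} {θ : Fin 16 → Fin d → F →L[ℂ] F}
  {U : Matrix.specialUnitaryGroup (Fin N) ℂ →* (F ≃ₗᵢ[ℂ] F)}

theorem lg_sum (y : Lg d) : y = ∑ A, y A • EuclideanSpace.single A (1 : ℝ) := by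
  ext B
  simp [Pi.single_apply]

theorem mat_single (c : Ctx N d F) (A : Fin d) : c.mat (EuclideanSpace.single A 1) = c.T A := by
  change ∑ B, (EuclideanSpace.single A (1 : ℝ) : Lg d) B • c.T B = c.T A
  simp [Pi.single_apply]

theorem theta_tens (c : Ctx N d F) (hθ : ∀ α A, c.θ (EuclideanSpace.single (α, A) 1) = θ α A)
    (a : Fin 16 → ℝ) (y : Lg d) (v : F) :
    c.θ (tens a y) v = ∑ β, ∑ A, ((a β * y A : ℝ) : ℂ) • θ β A v := by
  have e : tens a y = ∑ β, ∑ A, (a β * y A) • EuclideanSpace.single (β, A) (1 : ℝ) := by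
    rw [← Finset.sum_product']
    ext p
    simp [Pi.single_apply, tens]
  rw [e]
  simp only [map_sum, map_smul, hθ, ContinuousLinearMap.sum_apply, ContinuousLinearMap.smul_apply,
    Complex.coe_smul]

theorem ad_single (h : Data N d F T f γ θ U) (c : Ctx N d F) (hT : c.T = T) (A B C : Fin d) :
    c.ad (EuclideanSpace.single B 1) (EuclideanSpace.single C 1) A = f B C A := by
  have e : c.ad (EuclideanSpace.single B 1) (EuclideanSpace.single C 1) =
      WithLp.toLp 2 (f B C) := by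
    apply c.mat_injective
    rw [c.mat_ad, mat_single, mat_single, hT, h.str, Finset.smul_sum]
    change _ = ∑ A, f B C A • c.T A
    rw [hT]
    refine Finset.sum_congr rfl fun A _ => ?_
    rw [smul_smul, ← mul_assoc, neg_mul, I_mul_I, neg_neg, one_mul, Complex.coe_smul]
  rw [e]

theorem f_cyc (h : Data N d F T f γ θ U) (c : Ctx N d F) (hT : c.T = T) (A B C : Fin d) :
    f B C A = f C A B := by
  have := c.inner_ad_cyc (EuclideanSpace.single B 1) (EuclideanSpace.single C 1)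
    (EuclideanSpace.single A 1)
  rw [EuclideanSpace.inner_single_right, EuclideanSpace.inner_single_left, ad_single h c hT,
    ad_single h c hT] at this
  simpa using this

theorem ad_apply (h : Data N d F T f γ θ U) (c : Ctx N d F) (hT : c.T = T) (y z : Lg d)
    (A : Fin d) : c.ad y z A = ∑ B, ∑ C, f A B C * y B * z C := by
  conv_lhs => rw [lg_sum y, lg_sum z, c.ad_sum]
  simp only [c.ad_smul, ContinuousLinearMap.sum_apply, ContinuousLinearMap.smul_apply, map_sum,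
    map_smul, WithLp.ofLp_sum, WithLp.ofLp_smul, Finset.sum_apply, Pi.smul_apply, smul_eq_mul,
    ad_single h c hT, Finset.mul_sum]
  rw [Finset.sum_comm]
  refine Finset.sum_congr rfl fun B _ => Finset.sum_congr rfl fun C _ => ?_
  rw [f_cyc h c hT A B C, f_cyc h c hT B C A]
  ring

theorem Q_eq (h : Data N d F T f γ θ U) (c : Ctx N d F) (hT : c.T = T) (hγ : c.γ = γ)
    (hθ : ∀ α A, c.θ (EuclideanSpace.single (α, A) 1) = θ α A) (α : Fin 16) (ψ : Bos d → F)
    (x : Bos d) : dop c.θ (sub 9 (c.ss ⊤)) 1 (c.sE (eb α)) (c.beta 1 0 (eb α)) ψ x =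
      supercharge γ θ f α ψ x := by
  have hW : sub 9 (c.ss ⊤) = ⊤ := by rw [c.ss_top, sub_top]
  obtain ⟨g, hg⟩ := Cov4Aux.exists_bil c.θ (-I * ((1 : ℝ) : ℂ)) (c.sE (eb α)) (fderiv ℝ ψ x)
  have h1 := sum_onb_eq (U := sub 9 (c.ss ⊤)) g
    (EuclideanSpace.basisFun (Fin 9 × Fin d) ℝ).orthonormal
    (by rw [hW, ← OrthonormalBasis.coe_toBasis, Module.Basis.span_eq])
  simp only [hg] at h1
  rw [dop, h1, supercharge]
  congr 1
  · rw [Fintype.sum_prod_type]
    refine Finset.sum_congr rfl fun i _ => ?_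
    rw [Finset.sum_comm]
    refine Finset.sum_congr rfl fun A _ => ?_
    have e : EuclideanSpace.basisFun (Fin 9 × Fin d) ℝ (i, A) =
        tens (Pi.single i 1) (EuclideanSpace.single A 1) := by
      ext ⟨j, B⟩
      by_cases h1 : j = i <;> by_cases h2 : B = A <;> simp [tens, h1, h2]
    have e2 : c.sE (eb α) (EuclideanSpace.basisFun (Fin 9 × Fin d) ℝ (i, A)) =
        tens (fun β => γ i α β) (EuclideanSpace.single A 1) := by
      rw [e, c.sE_tens]
      congr 2
      funext β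
      have := congrFun (congrFun (h.gsymm i) β) α
      simp only [Matrix.transpose_apply] at this
      simp [Pi.single_apply, eb, hγ, this]
    rw [e2, theta_tens c hθ, Finset.smul_sum]
    refine Finset.sum_congr rfl fun β _ => ?_
    rw [Finset.sum_eq_single A (fun B _ hB => by simp [hB]) (by simp), smul_smul]
    simp
  · simp only [Ctx.beta, one_smul, zero_smul, add_zero, Ctx.Phi, map_smul, map_sum,
      ContinuousLinearMap.smul_apply, ContinuousLinearMap.sum_apply, theta_tens c hθ,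
      Finset.smul_sum, ad_apply h c hT]
    refine Finset.sum_congr rfl fun i _ => Finset.sum_congr rfl fun j _ =>
      Finset.sum_congr rfl fun β _ => Finset.sum_congr rfl fun A _ => ?_
    have e : (gamma2 c.γ j i *ᵥ eb α) β = gamma2 γ i j α β := by
      rw [← c.gam.gamma2_transpose i j, hγ]
      simp [eb]
    rw [e, ← Complex.coe_smul, smul_smul]
    simp only [← Finset.sum_smul]
    congr 1
    push_cast
    simp only [Finset.mul_sum]
    refine Finset.sum_congr rfl fun B _ => Finset.sum_congr rfl fun C _ => ?_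
    have e1 : (cmp i x) B = x (i, B) := rfl
    have e2 : (cmp j x) C = x (j, C) := rfl
    rw [e1, e2]
    ring

theorem adBos_eq (c : Ctx N d F) (hT : c.T = T) (g : Matrix.specialUnitaryGroup (Fin N) ℂ)
    (u : UN N) (hu : (u : Matrix (Fin N) (Fin N) ℂ) = g) (x : Bos d) :
    adBos T g x = c.Ad9 u x := by
  refine ext_cmp fun i => ?_
  rw [Ctx.Ad9, cmp_kr_one]
  conv_rhs => rw [lg_sum (cmp i x), map_sum]
  ext A
  simp only [map_smul, WithLp.ofLp_sum, WithLp.ofLp_smul, Finset.sum_apply, Pi.smul_apply,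
    smul_eq_mul]
  change ∑ B, adMat T g A B * x (i, B) = _
  refine Finset.sum_congr rfl fun B _ => ?_
  rw [mul_comm]
  congr 1
  change _ = (Matrix.trace (c.T A * ((u : Matrix (Fin N) (Fin N) ℂ) *
    c.mat (EuclideanSpace.single B 1) * star (u : Matrix (Fin N) (Fin N) ℂ)))).re
  rw [mat_single, hT, hu, adMat]

theorem exists_su (hN : 1 ≤ N) (c : Ctx N d F) (u : UN N) :
    ∃ (g : Matrix.specialUnitaryGroup (Fin N) ℂ) (u' : UN N),
      (u' : Matrix (Fin N) (Fin N) ℂ) = g ∧ c.Ad9 u' = c.Ad9 u ∧ c.U u' = c.U u := by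
  set z := (u : Matrix (Fin N) (Fin N) ℂ).det with hz
  have hz1 : ‖z‖ = 1 := CStarRing.norm_of_mem_unitary (Matrix.det_of_mem_unitary u.2)
  obtain ⟨v, hv⟩ := c.exists_exp 0 (arg z / N)
  have h1 : c.Ad v = 1 := by rw [c.Ad_exp hv, c.ad_zero, NormedSpace.exp_zero]
  have h2 : c.U v = 1 := by
    rw [c.Uexp 0 _ v hv]
    change NormedSpace.exp (dG c.θ (kr 1 (c.ad 0))) = 1
    rw [c.ad_zero, kr_zero_right, dG_zero, NormedSpace.exp_zero]
  have h3 : (v : Matrix (Fin N) (Fin N) ℂ).det * z = 1 := by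
    have hN' : (N : ℂ) ≠ 0 := by exact_mod_cast (by omega : N ≠ 0)
    rw [hv, map_zero, zero_add, smul_smul, Matrix.smul_one_eq_diagonal, Matrix.exp_diagonal,
      Matrix.det_diagonal]
    simp only [Pi.coe_exp, Finset.prod_const, Finset.card_univ, Fintype.card_fin,
      ← Complex.exp_eq_exp_ℂ, ← Complex.exp_nat_mul]
    have e := Complex.norm_mul_exp_arg_mul_I z
    rw [hz1, Complex.ofReal_one, one_mul] at e
    generalize arg z = s at e ⊢
    rw [← e, ← Complex.exp_add, ← Complex.exp_zero]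
    congr 1
    push_cast
    field_simp
    ring
  refine ⟨⟨((v * u : UN N) : Matrix (Fin N) (Fin N) ℂ), Matrix.mem_specialUnitaryGroup_iff.2
    ⟨(v * u).2, ?_⟩⟩, v * u, rfl, ?_, ?_⟩
  · rw [Submonoid.coe_mul, Matrix.det_mul, h3]
  · rw [c.Ad9_mul, Ctx.Ad9, h1, kr_one, one_mul]
  · rw [map_mul, h2, one_mul]

theorem test_iff (hN : 1 ≤ N) (c : Ctx N d F) (hT : c.T = T)
    (hU : ∀ (g : Matrix.specialUnitaryGroup (Fin N) ℂ) (u : UN N),
      (u : Matrix (Fin N) (Fin N) ℂ) = g → ∀ a, c.U u a = U g a) (φ : Bos d → F) :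
    IsTest T U φ ↔ φ ∈ Tst (sub 9 (c.ss ⊤)) (c.C0 ⊤) := by
  have hW : sub 9 (c.ss ⊤) = ⊤ := by rw [c.ss_top, sub_top]
  constructor
  · rintro ⟨h1, h2, h3⟩
    refine ⟨⟨h1, (supp_iff hW φ).2 h2⟩, ?_⟩
    rintro p (rfl | ⟨u, -, rfl⟩) x -
    · rw [c.ss_top, Submodule.top_orthogonal_eq_bot, c.P0_bot]
      rfl
    · obtain ⟨g, u', e1, e2, e3⟩ := exists_su hN c u
      change φ (c.Ad9 u x) = c.U u (φ x)
      rw [← e2, ← e3, ← adBos_eq c hT g u' e1, h3, hU g u' e1]
  · rintro ⟨⟨h1, h2⟩, h3⟩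
    refine ⟨h1, (supp_iff hW φ).1 h2, fun g x => ?_⟩
    set u : UN N := ⟨g, (Matrix.mem_specialUnitaryGroup_iff.1 g.2).1⟩ with hu
    rw [adBos_eq c hT g u rfl, ← hU g u rfl]
    exact h3 (c.Ad9 u, c.U u) (Or.inr ⟨u, fun a b hab => absurd trivial hab, rfl⟩) x
      (hW ▸ Submodule.mem_top)

end TranspAux

variable {N d : ℕ} {F : Type} [NormedAddCommGroup F] [InnerProductSpace ℂ F]
  [FiniteDimensional ℂ F] {T : Fin d → Matrix (Fin N) (Fin N) ℂ} {f : Fin d → Fin d → Fin d → ℝ}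
  {γ : Fin 9 → M16} {θ : Fin 16 → Fin d → F →L[ℂ] F}
  {U : Matrix.specialUnitaryGroup (Fin N) ℂ →* (F ≃ₗᵢ[ℂ] F)}

theorem Data.transport (hN : 1 ≤ N) (h : Data N d F T f γ θ U) (c : Ctx N d F) (hT : c.T = T)
    (hγ : c.γ = γ) (hθ : ∀ α A, c.θ (EuclideanSpace.single (α, A) 1) = θ α A)
    (hU : ∀ (g : Matrix.specialUnitaryGroup (Fin N) ℂ) (u : UN N),
      (u : Matrix (Fin N) (Fin N) ℂ) = g → ∀ a, c.U u a = U g a) :
    ∃ e : LL (sub 9 (c.ss ⊤)) F ≃ₗ[ℂ] Lp F 2 (volume : Measure (Bos d)),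
      ∀ u, e u ∈ zeroModes γ θ f T U ↔ u ∈ c.V ⊤ 1 0 := by
  have hW : sub 9 (c.ss ⊤) = ⊤ := by rw [c.ss_top, sub_top]
  obtain ⟨e, he⟩ := TranspAux.exists_equiv (F := F) hW
  refine ⟨e, fun u => ?_⟩
  rw [Ctx.V, mem_Ker_iff fun α => c.contDiff_beta 1 0 (eb α)]
  refine Iff.trans ?_ (TranspAux.seq_iff (fun φ => φ ∈ Tst (sub 9 (c.ss ⊤)) (c.C0 ⊤))
    (fun φ => ‖L2 (sub 9 (c.ss ⊤)) φ - u‖) (fun φ => en c.θ (sub 9 (c.ss ⊤)) 1
      (fun α => c.sE (eb α)) (fun α => c.beta 1 0 (eb α)) φ) (fun _ => norm_nonneg _)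
      (fun _ => en_nonneg _ _ _ _))
  have h1 : ∀ φ : Bos d → F, en c.θ (sub 9 (c.ss ⊤)) 1 (fun α => c.sE (eb α))
      (fun α => c.beta 1 0 (eb α)) φ = ∑ α, ∫ x, ‖supercharge γ θ f α φ x‖ ^ 2 := by
    intro φ
    refine Finset.sum_congr rfl fun α _ => ?_
    rw [← TranspAux.integral_top hW, nrm]
    simp only [TranspAux.Q_eq h c hT hγ hθ]
  simp only [h1]
  refine exists_congr fun φ => ?_
  simp only [TranspAux.test_iff hN c hT hU]
  refine and_congr_right fun hφ => and_congr_left fun _ => ?_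
  simp only [fun n => TranspAux.dist_eq hW (hφ n).1 u (e u) (he u)]

end Vale.Agent.P353
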