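import Vale.Agent.P353.Rs

/-! Generic lemmas for the uniform bounds on the amplitudes. -/

noncomputable section

open MeasureTheory Filter Topology Complex Matrix
open scoped ContDiff RealInnerProductSpace

namespace Vale.Agent.P353

namespace UbAux

/-- Cauchy-Schwarz inequality with a pointwise majorant -/
theorem cs_dom {α : Type} [MeasurableSpace α] {μ : Measure α} {f : α → ℂ} {A B : α → ℝ}
    (hA : Integrable A μ) (hB : Integrable B μ) (hA0 : ∀ x, 0 ≤ A x) (hB0 : ∀ x, 0 ≤ B x)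
    (h : ∀ x, ‖f x‖ ^ 2 ≤ A x * B x) :
    ‖∫ x, f x ∂μ‖ ^ 2 ≤ (∫ x, A x ∂μ) * ∫ x, B x ∂μ := by
  have key : ∀ t > 0, ‖∫ x, f x ∂μ‖ ≤ (t * (∫ x, A x ∂μ) + (∫ x, B x ∂μ) / t) / 2 := by
    intro t ht
    have hi : Integrable (fun x => (t * A x + B x / t) / 2) μ :=
      ((hA.const_mul t).add (hB.div_const t)).div_const 2
    have h1 := norm_integral_le_of_norm_le (f := f) hi (Eventually.of_forall fun x => by
      have h2 := hA0 x
      have h3 := hB0 x
      refine (abs_le_of_sq_le_sq' ((h x).trans ?_) (by positivity)).2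
      have h4 : A x * B x = (t * A x) * (B x / t) := by field_simp
      rw [h4]
      nlinarith [sq_nonneg (t * A x - B x / t)])
    rwa [integral_div, integral_add (hA.const_mul t) (hB.div_const t), integral_const_mul,
      integral_div] at h1
  have ha : 0 ≤ ∫ x, A x ∂μ := integral_nonneg hA0
  have hb : 0 ≤ ∫ x, B x ∂μ := integral_nonneg hB0
  have hn := norm_nonneg (∫ x, f x ∂μ)
  generalize ‖∫ x, f x ∂μ‖ = n at key hn
  generalize ∫ x, A x ∂μ = a at key ha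
  generalize ∫ x, B x ∂μ = b at key hb
  rcases hn.eq_or_lt with rfl | hn
  · simpa using mul_nonneg ha hb
  rcases ha.eq_or_lt with rfl | ha
  · have h1 := key ((b + 1) / n) (by positivity)
    rw [mul_zero, zero_add, div_div_eq_mul_div, div_div, le_div_iff₀ (by positivity)] at h1
    nlinarith
  · have h1 := key (n / a) (by positivity)
    rw [div_mul_cancel₀ _ ha.ne', div_div_eq_mul_div, le_div_iff₀ two_pos] at h1
    have h2 : n ≤ b * a / n := by linarith
    rw [le_div_iff₀ hn] at h2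
    nlinarith

theorem norm_sq_le_two (a b : ℂ) : ‖a‖ ^ 2 ≤ 2 * ‖b‖ ^ 2 + 2 * ‖b - a‖ ^ 2 := by
  have h : ‖a‖ ≤ ‖b‖ + ‖b - a‖ := by
    have := norm_sub_le b (b - a)
    rwa [sub_sub_cancel] at this
  nlinarith [pow_le_pow_left₀ (norm_nonneg _) h 2, sq_nonneg (‖b‖ - ‖b - a‖)]

variable {E : Type} [NormedAddCommGroup E] [InnerProductSpace ℝ E] [FiniteDimensional ℝ E]
  [MeasurableSpace E] [BorelSpace E]
variable {F : Type} [NormedAddCommGroup F] [InnerProductSpace ℂ F] [FiniteDimensional ℂ F]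

theorem integrable_sq {C : Submodule ℝ E} {Z : Set E} {η : E → ℝ} (h : SmR C η Z) :
    Integrable fun y : C => η y ^ 2 := by
  obtain ⟨hη, S, hS, -, -, hz⟩ := h
  refine Continuous.integrable_of_hasCompactSupport
    ((hη.continuous.comp continuous_subtype_val).pow 2) ?_
  exact HasCompactSupport.intro (RsAux.compact_pre C hS) fun x hx => by
    simp only [hz x x.2 hx, ne_eq, OfNat.ofNat_ne_zero, not_false_eq_true, zero_pow]

/-- Cauchy-Schwarz inequality along the fibres -/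
theorem ip_bound {U U₁ U₂ : Submodule ℝ E} (ho : U₁ ⟂ U₂) (hU : U₁ ⊔ U₂ = U) {Φ T : E → F}
    (hT : Sm U T) {a : U₁ → ℝ} (ha : Integrable a) (ha0 : ∀ y, 0 ≤ a y)
    (h : ∀ y : U₁, ∃ A : U₂ → ℝ, Integrable A ∧ (∀ s, 0 ≤ A s) ∧ ∫ s, A s ≤ a y ∧
      ∀ s : U₂, ‖inner ℂ (Φ (y + s)) (T (y + s))‖ ^ 2 ≤ A s * ‖T (y + s)‖ ^ 2) :
    ‖ip U Φ T‖ ^ 2 ≤ (∫ y, a y) * nrm U T := by
  have hi : Integrable fun x : U => ‖T x‖ ^ 2 := by
    simpa only [one_mul] using hT.integrable_wnrm (w := fun _ => 1) continuousOn_const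
  unfold ip
  by_cases hf : Integrable fun x : U => inner ℂ (Φ x) (T x)
  · rw [integral_sup (f := fun x => inner ℂ (Φ x) (T x)) ho hU hf, nrm,
      integral_sup (f := fun x => ‖T x‖ ^ 2) ho hU hi]
    refine cs_dom ha (integrable_integral_sup (f := fun x => ‖T x‖ ^ 2) ho hU hi) ha0
      (fun y => integral_nonneg fun _ => sq_nonneg _) fun y => ?_
    obtain ⟨A, h1, h2, h3, h4⟩ := h y
    have hc : Continuous fun s : U₂ => ‖T (y + s)‖ ^ 2 :=
      (hT.1.continuous.comp (continuous_const.add continuous_subtype_val)).norm.pow 2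
    have hs : HasCompactSupport fun s : U₂ => ‖T (y + s)‖ ^ 2 :=
      (hasCompactSupport_slice (hU ▸ le_sup_right) hT.2 (hU ▸ Submodule.mem_sup_left y.2)).comp_left
        (g := fun z => ‖z‖ ^ 2) (by simp)
    exact (cs_dom h1 (hc.integrable_of_hasCompactSupport hs) h2 (fun _ => sq_nonneg _) h4).trans
      (mul_le_mul_of_nonneg_right h3 (integral_nonneg fun _ => sq_nonneg _))
  · rw [integral_undef hf, norm_zero, zero_pow two_ne_zero]
    exact mul_nonneg (integral_nonneg ha0) (nrm_nonneg _ _)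

theorem linR_sum {C : Submodule ℝ E} {Z : Set E} {L : (E → ℝ) → ℂ} (hL : LinR C Z L) {ι : Type}
    (s : Finset ι) {f : ι → E → ℝ} (hf : ∀ i, SmR C (f i) Z) :
    L (fun x => ∑ i ∈ s, f i x) = ∑ i ∈ s, L (f i) := by
  classical
  induction s using Finset.induction_on with
  | empty =>
    have h0 : SmR C (fun _ => 0) Z := (RsAux.VV C Z).zero_mem
    have := hL _ _ h0 h0 1
    simp only [mul_zero, add_zero, ofReal_one, one_mul] at this
    simp only [Finset.sum_empty]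
    linear_combination -this
  | insert i s hi ih =>
    have h1 : SmR C (fun x => ∑ i ∈ s, f i x) Z := by
      have := (RsAux.VV C Z).sum_mem (t := s) fun i _ => hf i
      rwa [Finset.sum_fn] at this
    have := hL _ _ (hf i) h1 1
    simp only [ofReal_one, one_mul] at this
    simp only [Finset.sum_insert hi]
    rw [this, ih]

/-- patching local bounds with a partition of unity -/
theorem patch {C : Submodule ℝ E} {Z : Set E} {ι : Type} [Fintype ι] {O : ι → Set E}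
    (hO : ∀ i, IsOpen (O i)) (hc : ∀ x ∈ C, x ∈ Z → ∃ i, x ∈ O i) {X : Type} {D : Set X}
    {L : ℝ → X → (E → ℝ) → ℂ} {a : X → ℝ} {b : ℝ → X → ℝ} (ha : ∀ ψ, 0 ≤ a ψ)
    (hb : ∀ g ψ, 0 ≤ b g ψ) (hlin : ∀ g > 0, ∀ ψ ∈ D, LinR C Z (L g ψ))
    (hcongr : ∀ g ψ η η', (∀ y ∈ C, η y = η' y) → L g ψ η = L g ψ η') {K : ℝ} (hK : 0 ≤ K)
    (h : ∀ i η, SmR C η (Z ∩ O i) → ∀ ε > 0, ∀ᶠ g in atTop, ∀ ψ ∈ D,
      ‖L g ψ η‖ ^ 2 ≤ K * (∫ y : C, η y ^ 2) * a ψ + ε * b g ψ)
    {η : E → ℝ} (hη : SmR C η Z) {ε : ℝ} (hε : 0 < ε) : ∀ᶠ g in atTop, ∀ ψ ∈ D,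
      ‖L g ψ η‖ ^ 2 ≤
        (Fintype.card ι : ℝ) ^ 2 * K * (∫ y : C, η y ^ 2) * a ψ + ε * b g ψ := by
  obtain ⟨s, ρ, h1, h2⟩ := hη.partition O hO hc
  obtain ⟨n, hn⟩ : ∃ n : ℝ, n = Fintype.card ι := ⟨_, rfl⟩
  have hn0 : 0 ≤ n := hn ▸ Nat.cast_nonneg _
  have hs : (s.card : ℝ) ≤ n := by
    rw [hn]
    exact_mod_cast s.card_le_univ
  have hε' : 0 < ε / (n ^ 2 + 1) := by positivity
  have h3 := eventually_all.2 fun i => h i _ (h1 i).2.2 _ hε'
  filter_upwards [h3, eventually_gt_atTop 0] with g h4 hg ψ hψ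
  have h5 : L g ψ η = ∑ i ∈ s, L g ψ fun x => ρ i x * η x := by
    rw [← linR_sum (hlin g hg ψ hψ) s fun i => (h1 i).2.2.mono fun x _ hx => hx.1]
    exact hcongr g ψ _ _ fun y hy => (h2 y hy).symm
  obtain ⟨M, hM⟩ : ∃ M, M = K * (∫ y : C, η y ^ 2) * a ψ + ε / (n ^ 2 + 1) * b g ψ := ⟨_, rfl⟩
  have hI : 0 ≤ ∫ y : C, η y ^ 2 := integral_nonneg fun _ => sq_nonneg _
  have ha' := ha ψ
  have hb' := hb g ψ
  have hM0 : 0 ≤ M := by
    rw [hM]
    positivity
  have h6 : ∀ i, ‖L g ψ fun x => ρ i x * η x‖ ≤ √M := fun i => by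
    refine Real.le_sqrt_of_sq_le ((h4 i ψ hψ).trans ?_)
    have h7 : ∫ y : C, (ρ i y * η y) ^ 2 ≤ ∫ y : C, η y ^ 2 := by
      refine integral_mono (integrable_sq (h1 i).2.2) (integrable_sq hη) fun y => ?_
      have h8 := (h1 i).2.1 y
      have h9 : ρ i y ^ 2 ≤ 1 := pow_le_one₀ h8.1 h8.2
      simp only [mul_pow]
      nlinarith [sq_nonneg (η y)]
    rw [hM]
    gcongr
  have h7 : ‖L g ψ η‖ ≤ n * √M := by
    rw [h5]
    refine (norm_sum_le _ _).trans ((Finset.sum_le_card_nsmul _ _ _ fun i _ => h6 i).trans ?_)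
    rw [nsmul_eq_mul]
    gcongr
  have h8 := pow_le_pow_left₀ (norm_nonneg _) h7 2
  rw [mul_pow, Real.sq_sqrt hM0, hM, mul_add] at h8
  have h9 : n ^ 2 * (ε / (n ^ 2 + 1)) ≤ ε := by
    rw [← mul_div_assoc, div_le_iff₀ (by positivity)]
    nlinarith
  rw [← hn]
  nlinarith [mul_le_mul_of_nonneg_right h9 hb']

omit [InnerProductSpace ℝ E] [FiniteDimensional ℝ E] [MeasurableSpace E] [BorelSpace E] in
theorem unif {V : Type} [NormedAddCommGroup V] {K : Set E} (hK : IsCompact K) {P : E → V}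
    (hP : ∀ y ∈ K, ContinuousAt P y) {τ : ℝ} (hτ : 0 < τ) :
    ∃ δ > 0, ∀ y ∈ K, ∀ s : E, ‖s‖ ≤ δ → ‖P (y + s) - P y‖ ≤ τ := by
  obtain ⟨δ, hδ, h⟩ := Metric.mem_uniformity_dist.1
    (hK.uniformContinuousAt_of_continuousAt P hP (Metric.dist_mem_uniformity hτ))
  refine ⟨δ / 2, half_pos hδ, fun y hy s hs => ?_⟩
  have h1 : dist y (y + s) < δ := by
    rw [dist_self_add_right]
    linarith
  have h2 : dist (P y) (P (y + s)) < τ := h h1 hy
  rw [dist_comm, dist_eq_norm] at h2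
  exact h2.le

omit [FiniteDimensional ℂ F] in
/-- the dilated function concentrates at the origin -/
theorem tail (U : Submodule ℝ E) {b : E → F} (hb : MemLp (fun x : U => b x) 2 volume) {δ : ℝ}
    (hδ : 0 < δ) :
    Tendsto (fun g => mass U {x | δ < ‖x‖} (dil U (ell g) b)) atTop (𝓝 0) := by
  have hi : Integrable fun x : U => ‖b x‖ ^ 2 :=
    (memLp_two_iff_integrable_sq_norm hb.aestronglyMeasurable).1 hb
  have hm : ∀ g, MeasurableSet {x : U | δ < ‖ell g • (x : E)‖} := fun g =>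
    (isOpen_lt continuous_const (by fun_prop)).measurableSet
  have h1 := tendsto_integral_filter_of_dominated_convergence (μ := (volume : Measure U))
    (l := atTop) (F := fun g => {x : U | δ < ‖ell g • (x : E)‖}.indicator fun x => ‖b x‖ ^ 2)
    (f := fun _ => (0 : ℝ)) (fun x => ‖b x‖ ^ 2)
    (Eventually.of_forall fun g => hi.aestronglyMeasurable.indicator (hm g))
    (Eventually.of_forall fun g => Eventually.of_forall fun x => by
      refine (norm_indicator_le_norm_self _ _).trans ?_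
      rw [Real.norm_of_nonneg (sq_nonneg _)]) hi
    (Eventually.of_forall fun x => by
      have h2 := (tendsto_ell.smul_const (x : E)).norm
      rw [zero_smul, norm_zero] at h2
      refine tendsto_const_nhds.congr' ?_
      filter_upwards [h2.eventually_le_const hδ] with g hg
      exact (Set.indicator_of_notMem (s := {x : U | δ < ‖ell g • (x : E)‖}) (not_lt.2 hg)
        fun x : U => ‖b x‖ ^ 2).symm)
  rw [integral_zero] at h1
  refine h1.congr' ?_
  filter_upwards [eventually_gt_atTop 0] with g hg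
  rw [mass_dil U (ell_pos hg), integral_indicator (hm g)]
  rfl

omit [FiniteDimensional ℂ F] in
/-- replacing a moving projection by a frozen one -/
theorem frozen {P P' : F →L[ℂ] F} (hP : ∀ x y, inner ℂ (P x) y = inner ℂ x (P y)) {t : ℝ}
    (ht : 0 ≤ t) (h : ‖P - P'‖ ≤ √t) (b : F) {T : F} (hT : P T = T) :
    ‖inner ℂ b T‖ ^ 2 ≤ 2 * ((‖P' b‖ ^ 2 + t * ‖b‖ ^ 2) * ‖T‖ ^ 2) := by
  have h5 : inner ℂ b T = inner ℂ (P b) T := by rw [hP, hT]
  have h6 : ‖P b‖ ≤ ‖P' b‖ + √t * ‖b‖ := by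
    have h7 := (P - P').le_of_opNorm_le h b
    rw [_root_.sub_apply] at h7
    linarith [norm_le_norm_sub_add (P b) (P' b)]
  have h7 : ‖P b‖ ^ 2 ≤ 2 * (‖P' b‖ ^ 2 + t * ‖b‖ ^ 2) := by
    have h8 : (√t * ‖b‖) ^ 2 = t * ‖b‖ ^ 2 := by rw [mul_pow, Real.sq_sqrt ht]
    nlinarith [pow_le_pow_left₀ (norm_nonneg _) h6 2, sq_nonneg (‖P' b‖ - √t * ‖b‖)]
  have h8 := pow_le_pow_left₀ (norm_nonneg _) (norm_inner_le_norm (𝕜 := ℂ) (P b) T) 2
  rw [h5]
  nlinarith [mul_le_mul_of_nonneg_right h7 (sq_nonneg ‖T‖)]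

end UbAux

end Vale.Agent.P353
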