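import Vale.Agent.P353.Stmts
import Vale.Agent.P353.UbAux

/-! Uniform bounds for the amplitudes. -/

noncomputable section

open MeasureTheory Filter Topology Complex Matrix
open scoped ContDiff RealInnerProductSpace

namespace Vale.Agent.P353

namespace UbAux

variable {N d : ℕ} {F : Type} [NormedAddCommGroup F] [InnerProductSpace ℂ F]
  [FiniteDimensional ℂ F] {c : Ctx N d F} {π π' : Setoid (Fin N)} {𝔞 : Submodule ℝ (Lg d)}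
  {v : Fin 9 → ℝ}

theorem nrm_le_NE (c : Ctx N d F) (𝔞 : Submodule ℝ (Lg d)) (g m : ℝ) (ψ : Tn 9 d → F) :
    nrm (sub 9 𝔞) ψ ≤ c.NE 𝔞 g m ψ := le_add_of_nonneg_right (en_nonneg _ _ _ _)

theorem NE_nonneg (c : Ctx N d F) (𝔞 : Submodule ℝ (Lg d)) (g m : ℝ) (ψ : Tn 9 d → F) :
    0 ≤ c.NE 𝔞 g m ψ := (nrm_nonneg _ _).trans (nrm_le_NE c 𝔞 g m ψ)

/-- radial cutoff -/
theorem cut (h_cr : c.S_cr) (h : c.Th π 𝔞) {R : ℝ} (hR : 0 < R) : ∃ M > 0, ∀ m : ℝ, |m| ≤ 1 →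
    ∀ g, 1 ≤ g → ∀ ψ ∈ c.D π 𝔞, ∃ φ ∈ c.D π 𝔞, (∀ x, ‖x‖ ≤ R → φ x = ψ x) ∧
      nrm (sub 9 𝔞) φ ≤ nrm (sub 9 𝔞) ψ ∧ c.NG 𝔞 g φ ≤ M * c.NE 𝔞 g m ψ := by
  obtain ⟨K₀, hK₀⟩ := exists_cutoff (Tn 9 d)
  obtain ⟨χ, h1, h2, h3, h4, h5, h6⟩ := hK₀ R hR
  obtain ⟨K, hK, h7⟩ := h_cr (2 * R)
  obtain ⟨M, hM⟩ : ∃ M, M = max 1 (K₀ / R) := ⟨_, rfl⟩
  refine ⟨1 + K * (1 + 256 * R ^ 2 + 32 * M ^ 2), by positivity, fun m hm g hg ψ hψ => ?_⟩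
  have hφ := c.mulR_mem_D hψ h1 fun u _ x _ => h2 _ _ (c.norm_Ad9 u x)
  have hs := (c.mem_D.1 hψ).1
  have hs' := (c.mem_D.1 hφ).1
  have hi : ∀ {ψ : Tn 9 d → F}, Sm (sub 9 𝔞) ψ → Integrable fun x : sub 9 𝔞 => ‖ψ x‖ ^ 2 :=
    fun hT => by simpa only [one_mul] using hT.integrable_wnrm (w := fun _ => 1) continuousOn_const
  have h8 : nrm (sub 9 𝔞) (fun x => (χ x : ℂ) • ψ x) ≤ nrm (sub 9 𝔞) ψ := by
    refine integral_mono (hi hs') (hi hs) fun x => ?_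
    simp only [norm_smul, norm_real, Real.norm_of_nonneg (h3 x).1]
    exact pow_le_pow_left₀ (mul_nonneg (h3 x).1 (norm_nonneg _))
      (mul_le_of_le_one_left (norm_nonneg _) (h3 x).2) 2
  have h9 : c.En 𝔞 g m (fun x => (χ x : ℂ) • ψ x) ≤
      2 * M ^ 2 * c.En 𝔞 g m ψ + 16 * 1 ^ 2 * M ^ 2 * nrm (sub 9 𝔞) ψ :=
    c.car.en_mulR_le' 1 (fun α => c.contDiff_beta g m (eb α)) (c.iso _ g m) hs h1
      fun x _ _ => ⟨by
        rw [abs_of_nonneg (h3 x).1, hM]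
        exact (h3 x).2.trans (le_max_left _ _), hM ▸ (h6 x).trans (le_max_right _ _)⟩
  refine ⟨_, hφ, fun x hx => by simp only [h4 x hx, ofReal_one, one_smul], h8, ?_⟩
  have hz : c.Supp 𝔞 (2 * R) fun x => (χ x : ℂ) • ψ x := fun x _ hx => by
    simp only [h5 x hx.le, ofReal_zero, zero_smul]
  generalize (fun x => (χ x : ℂ) • ψ x) = φ at hs' h8 h9 hz ⊢
  have h10 := h7 π 𝔞 h g hg _ hs' hz
  have h11 := c.En_mass_le 𝔞 g m 0 hs'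
  have h12 : wnrm (sub 9 𝔞) (fun x => ‖x‖ ^ 2) φ ≤ (2 * R) ^ 2 * nrm (sub 9 𝔞) φ := by
    rw [nrm, ← integral_const_mul]
    refine integral_mono (hs'.integrable_wnrm (continuous_norm.pow 2).continuousOn)
      ((hi hs').const_mul _) fun x => ?_
    by_cases hx : 2 * R < ‖(x : Tn 9 d)‖
    · simp only [hz x x.2 hx, norm_zero, ne_eq, OfNat.ofNat_ne_zero, not_false_eq_true, zero_pow,
        mul_zero, le_refl]
    · exact mul_le_mul_of_nonneg_right (pow_le_pow_left₀ (norm_nonneg _) (not_lt.1 hx) 2)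
        (sq_nonneg _)
  have h13 : 0 ≤ wnrm (sub 9 𝔞) (fun x => ‖x‖ ^ 2) φ :=
    integral_nonneg fun x => mul_nonneg (sq_nonneg _) (sq_nonneg _)
  have h14 : 0 ≤ g ^ 2 * wnrm (sub 9 𝔞) c.Fsq φ := mul_nonneg (sq_nonneg _)
    (integral_nonneg fun x => mul_nonneg (c.Fsq_nonneg _) (sq_nonneg _))
  have h15 : (0 - m) ^ 2 ≤ 1 := by
    rw [zero_sub, neg_sq]
    exact (sq_le_one_iff_abs_le_one m).2 hm
  have h16 : 0 ≤ c.En 𝔞 g 0 φ := en_nonneg _ _ _ _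
  have h17 : 0 ≤ c.En 𝔞 g m ψ := en_nonneg _ _ _ _
  have h18 := nrm_nonneg (sub 9 𝔞) ψ
  have h19 : grad (sub 9 𝔞) φ / g ≤ K * (c.En 𝔞 g 0 φ + nrm (sub 9 𝔞) φ) := by
    rw [div_le_iff₀ (by linarith)]
    nlinarith [mul_le_mul_of_nonneg_left hg (mul_nonneg hK h16)]
  have h20 : c.En 𝔞 g 0 φ + nrm (sub 9 𝔞) φ ≤
      (1 + 256 * R ^ 2 + 32 * M ^ 2) * (nrm (sub 9 𝔞) ψ + c.En 𝔞 g m ψ) := by
    nlinarith [mul_le_mul_of_nonneg_right h15 h13, mul_le_mul_of_nonneg_left h8 (sq_nonneg R),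
      mul_nonneg (sq_nonneg R) h17, mul_nonneg (sq_nonneg M) h17]
  unfold Ctx.NG Ctx.NE
  nlinarith [mul_le_mul_of_nonneg_left h20 hK]

/-- reduction to the localized theory -/
theorem core (h_lm1 : c.S_lm1) (h_lam : c.S_lam) (h_tb : c.S_tb) (h_cr : c.S_cr) (h_nc : c.S_nc)
    (hL : c.Lc π 𝔞 π' v) : ∃ K : ℝ, 0 ≤ K ∧ ∀ m : ℝ, |m| ≤ 1 → ∀ η,
      SmR (c.CS 𝔞 π') η (c.Ow (c.off π π') v) → ∀ β, ∀ ε > 0, ∀ᶠ g in atTop, ∀ ψ ∈ c.D π 𝔞,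
        ∃ T, Sm (c.Sl 𝔞 π') T ∧ nrm (c.Sl 𝔞 π') T ≤ K * nrm (sub 9 𝔞) ψ ∧
          (∀ x ∈ c.Sl 𝔞 π', c.Pw (c.off π π') x (T x) = T x) ∧
          ‖c.Lam π' (𝔞 ⊓ c.blk π') π' g T η β - c.Lam π 𝔞 π' g ψ η β‖ ^ 2 ≤ ε * c.NE 𝔞 g m ψ := by
  obtain ⟨K, hK, hb⟩ := h_tb.bd π 𝔞 π' v hL
  refine ⟨K, hK, fun m hm η hη β ε hε => ?_⟩
  have hη' : SmR (c.CS 𝔞 π') η (c.Gen π' π') := hη.mono fun x _ _ a b h h' => absurd h h'
  obtain ⟨-, S, hS, hSO, -, hz⟩ := hη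
  obtain ⟨χ, h1, h2, h3⟩ := exists_SmR_one (U := c.Sl 𝔞 π') hS (h_lm1.isOpen _ v) hSO
  have hC : c.Cut π 𝔞 π' v χ := ⟨h1, h2⟩
  obtain ⟨R, hR, hSR⟩ := hS.isBounded.exists_pos_norm_le
  obtain ⟨M, hM, h4⟩ := cut h_cr hL.1 (R := R + 1) (by linarith)
  have h5 := (h_nc π 𝔞 π' v χ π' hL hC le_rfl η hη').2 β (ε / M) (div_pos hε hM)
  filter_upwards [h5, h_lam.loc π 𝔞 π' S 1 one_pos, eventually_ge_atTop 1] with g h6 h7 hg ψ hψ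
  obtain ⟨φ, hφ, h8, h9, h10⟩ := h4 m hm g hg ψ hψ
  have hg0 : 0 < g := by linarith
  have hs := (c.mem_D.1 hφ).1
  refine ⟨c.TT π 𝔞 π' v χ g φ, h_tb.sm π 𝔞 π' v χ hL hC g hg0 φ hs,
    (hb χ hC g hg0 φ hφ).trans (mul_le_mul_of_nonneg_left h9 hK),
    fun x hx => (h_tb.proj π 𝔞 π' v χ g φ x hx hs hL).2, ?_⟩
  have h11 : c.Lam π 𝔞 π' g φ (fun x => χ x * η x) β = c.Lam π 𝔞 π' g ψ η β := by
    rw [← (h7 φ ψ η β hz fun x _ y hy hxy => h8 x ?_).1]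
    · refine (h_lam.congrη π 𝔞 π' g φ _ _ β fun y hy => ?_).1
      by_cases hyS : y ∈ S
      · rw [h3.self_of_nhdsSet y hyS, one_mul]
      · rw [hz y hy hyS, mul_zero]
    · linarith [norm_le_norm_sub_add x y, hSR y hy]
  rw [← h11]
  refine (h6 φ hφ).trans ((mul_le_mul_of_nonneg_left h10 (div_pos hε hM).le).trans_eq ?_)
  field_simp

theorem smR_self {η : Tn 9 d → ℝ} {Z : Set (Tn 9 d)} (h : SmR (c.CS 𝔞 π') η Z) :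
    SmR (c.CS (𝔞 ⊓ c.blk π') π') η Set.univ := by
  rw [c.CS_inf le_rfl]
  exact h.mono fun _ _ _ => trivial

/-- the bound for one direction -/
theorem lam_v (h_lm1 : c.S_lm1) (h_lam : c.S_lam) (h_tb : c.S_tb) (h_cr : c.S_cr) (h_nc : c.S_nc)
    (hL : c.Lc π 𝔞 π' v) : ∃ K : ℝ, 0 ≤ K ∧ ∀ m : ℝ, |m| ≤ 1 → ∀ η,
      SmR (c.CS 𝔞 π') η (c.Ow (c.off π π') v) → ∀ β, ∀ ε > 0, ∀ᶠ g in atTop, ∀ ψ ∈ c.D π 𝔞,
        ‖c.Lam π 𝔞 π' g ψ η β‖ ^ 2 ≤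
          K * (∫ y : c.CS 𝔞 π', η y ^ 2) * (‖β‖ ^ 2 * nrm (sub 9 𝔞) ψ) + ε * c.NE 𝔞 g m ψ := by
  obtain ⟨K, hK, h⟩ := core h_lm1 h_lam h_tb h_cr h_nc hL
  refine ⟨2 * K, by positivity, fun m hm η hη β ε hε => ?_⟩
  filter_upwards [h m hm η hη β _ (half_pos hε), eventually_gt_atTop 0] with g h1 hg ψ hψ
  obtain ⟨T, h2, h3, -, h4⟩ := h1 ψ hψ
  have h5 := h_lam.self_bd π' _ (hL.1.inf c hL.2.1) η (smR_self hη) β g hg T h2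
  rw [c.CS_inf le_rfl] at h5
  have hI : 0 ≤ (∫ y : c.CS 𝔞 π', η y ^ 2) * ‖β‖ ^ 2 :=
    mul_nonneg (integral_nonneg fun _ => sq_nonneg _) (sq_nonneg _)
  have h6 := norm_sq_le_two (c.Lam π 𝔞 π' g ψ η β) (c.Lam π' (𝔞 ⊓ c.blk π') π' g T η β)
  nlinarith [mul_le_mul_of_nonneg_left h3 hI]

/-- the pairing with a function in the range of the moving vacuum -/
theorem pair (h_lm1 : c.S_lm1) (h_lm4 : c.S_lm4) (hL : c.Lc π 𝔞 π' v) {η : Tn 9 d → ℝ}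
    (hη : SmR (c.CS 𝔞 π') η (c.Good π π' ∩ c.Ow (c.off π π') v)) {β : LL (sub 9 (c.ss π')) F}
    (hβ : β ∈ c.BK π π') {ε : ℝ} (hε : 0 < ε) : ∀ᶠ g in atTop, ∀ T, Sm (c.Sl 𝔞 π') T →
      (∀ x ∈ c.Sl 𝔞 π', c.Pw (c.off π π') x (T x) = T x) →
      ‖ip (c.Sl 𝔞 π') (fun x => (c.hatη π 𝔞 π' η ((c.CS 𝔞 π').starProjection x) : ℂ) •
        dil (sub 9 (c.ss π')) (ell g) (rep _ β) ((sub 9 (c.ss π')).starProjection x)) T‖ ^ 2 ≤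
        (2 * (∫ y : c.CS 𝔞 π', η y ^ 2) * ‖β‖ ^ 2 + ε) * nrm (c.Sl 𝔞 π') T := by
  have hη' := h_lm4.hat π 𝔞 π' hL.2.1 η _ hη
  have i1 := integrable_sq hη
  have i2 := integrable_sq hη'
  obtain ⟨J, hJ⟩ : ∃ J, J = ∫ y : c.CS 𝔞 π', c.hatη π 𝔞 π' η y ^ 2 := ⟨_, rfl⟩
  have hJ0 : 0 ≤ J := hJ ▸ integral_nonneg fun _ => sq_nonneg _
  obtain ⟨-, S, hS, hSO, -, hz⟩ := hη
  obtain ⟨t, ht, ht'⟩ : ∃ t > 0, t * (2 * (‖β‖ ^ 2 + 1) * J) ≤ ε :=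
    ⟨ε / (2 * (‖β‖ ^ 2 + 1) * J + 1), by positivity, by
      rw [div_mul_eq_mul_div, div_le_iff₀ (by positivity)]
      nlinarith⟩
  obtain ⟨δ, hδ, hu⟩ := unif hS (P := c.Pw (c.off π π'))
    (fun y hy => (h_lm1.sm_P _ v y (hSO hy).2).continuousAt) (Real.sqrt_pos.2 ht)
  have ho := Cov4Aux.CS_ortho c 𝔞 π'
  have hU : c.CS 𝔞 π' ⊔ sub 9 (c.ss π') = c.Sl 𝔞 π' := by
    rw [← c.CS_inf (𝔞 := 𝔞) (π' := π') le_rfl]
    exact Cov4Aux.CS_sup c (hL.1.inf c hL.2.1)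
  filter_upwards [(tail (sub 9 (c.ss π')) (memLp_rep β) hδ).eventually_le_const ht,
    eventually_gt_atTop 0] with g h1 hg T hT hP
  have hl := ell_pos hg
  have hb := memLp_dil hl (memLp_rep β)
  have hn : nrm (sub 9 (c.ss π')) (dil (sub 9 (c.ss π')) (ell g) (rep _ β)) = ‖β‖ ^ 2 := by
    rw [nrm_dil _ hl, ← norm_L2_sq (memLp_rep β), L2_rep]
  have hn' : ∀ a : F →L[ℂ] F, nrm (sub 9 (c.ss π'))
      (fun x => a (dil (sub 9 (c.ss π')) (ell g) (rep _ β) x)) = ‖opL _ a β‖ ^ 2 := fun a => by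
    have e : (fun x => a (dil (sub 9 (c.ss π')) (ell g) (rep _ β) x)) =
        dil (sub 9 (c.ss π')) (ell g) fun x => a (rep _ β x) := by
      funext x
      simp only [dil, map_smul]
    have hm : MemLp (fun x : sub 9 (c.ss π') => a (rep _ β x)) 2 volume :=
      a.comp_memLp' (memLp_rep β)
    rw [e, nrm_dil _ hl, ← norm_L2_sq (ψ := fun x => a (rep _ β x)) hm, ← opL_L2 a (memLp_rep β),
      L2_rep]
  generalize dil (sub 9 (c.ss π')) (ell g) (rep _ β) = b at h1 hb hn hn' ⊢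
  have i3 : Integrable fun x : sub 9 (c.ss π') => ‖b x‖ ^ 2 :=
    (memLp_two_iff_integrable_sq_norm hb.aestronglyMeasurable).1 hb
  have hm : MeasurableSet {x : sub 9 (c.ss π') | δ < ‖(x : Tn 9 d)‖} :=
    (isOpen_lt continuous_const (by fun_prop)).measurableSet
  refine (ip_bound ho hU hT
    (a := fun y => 2 * ‖β‖ ^ 2 * η y ^ 2 + t * (2 * (‖β‖ ^ 2 + 1)) * c.hatη π 𝔞 π' η y ^ 2)
    ((i1.const_mul _).add (i2.const_mul _)) (fun y => by positivity) fun y => ?_).trans ?_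
  swap
  · rw [integral_add (i1.const_mul _) (i2.const_mul _), integral_const_mul, integral_const_mul,
      ← hJ]
    refine mul_le_mul_of_nonneg_right ?_ (nrm_nonneg _ _)
    nlinarith
  have hy : (c.CS 𝔞 π').starProjection y = y := Submodule.starProjection_eq_self_iff.2 y.2
  have p1 : ∀ s : sub 9 (c.ss π'), (c.CS 𝔞 π').starProjection (y + s) = y := fun s => by
    rw [map_add, hy, (Submodule.starProjection_apply_eq_zero_iff _).2 (ho.symm s.2), add_zero]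
  have p2 : ∀ s : sub 9 (c.ss π'), (sub 9 (c.ss π')).starProjection (y + s) = s := fun s => by
    rw [map_add, (Submodule.starProjection_apply_eq_zero_iff _).2 (ho y.2),
      Submodule.starProjection_eq_self_iff.2 s.2, zero_add]
  simp only [p1, p2]
  by_cases hyS : (y : Tn 9 d) ∈ S
  swap
  · have h2 : c.hatη π 𝔞 π' η y = 0 := by rw [Ctx.hatη, hy, hz y y.2 hyS, zero_div]
    refine ⟨fun _ => 0, integrable_zero _ _ _, fun _ => le_rfl, ?_, fun s => ?_⟩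
    · rw [integral_zero]
      positivity
    · simp [h2]
  have hy' : (y : Tn 9 d) ∈ sub 9 (c.cen π') := sub_mono inf_le_right y.2
  have h2 : c.hatη π 𝔞 π' η y ^ 2 * ‖opL _ (c.Pw (c.off π π') y) β‖ ^ 2 = ‖β‖ ^ 2 * η y ^ 2 := by
    have h3 := h_lm4.ov_pos π π' hL.2.1 y hy' (hSO hyS).1
    rw [h_lm4.norm_P π π' hL.2.1 y hy' (c.Good_subset_Gen _ _ (hSO hyS).1) β hβ, Ctx.hatη, hy,
      div_pow, Real.sq_sqrt h3.le]
    field_simp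
  have hb' : MemLp (fun x : sub 9 (c.ss π') => c.Pw (c.off π π') y (b x)) 2 volume :=
    (c.Pw (c.off π π') y).comp_memLp' hb
  have i4 : Integrable fun x : sub 9 (c.ss π') => ‖c.Pw (c.off π π') y (b x)‖ ^ 2 :=
    (memLp_two_iff_integrable_sq_norm hb'.aestronglyMeasurable).1 hb'
  have i5 := i3.indicator hm
  have i6 : Integrable fun x : sub 9 (c.ss π') =>
      ‖c.Pw (c.off π π') y (b x)‖ ^ 2 + t * ‖b x‖ ^ 2 := i4.add (i3.const_mul t)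
  refine ⟨fun s => 2 * c.hatη π 𝔞 π' η y ^ 2 * (‖c.Pw (c.off π π') y (b s)‖ ^ 2 + t * ‖b s‖ ^ 2 +
      {x : sub 9 (c.ss π') | δ < ‖(x : Tn 9 d)‖}.indicator (fun x => ‖b x‖ ^ 2) s),
    (i6.add i5).const_mul _, fun s => ?_, ?_, fun s => ?_⟩
  · have := Set.indicator_nonneg (s := {x : sub 9 (c.ss π') | δ < ‖(x : Tn 9 d)‖})
      (f := fun x => ‖b x‖ ^ 2) (fun _ _ => sq_nonneg _) s
    positivity
  · rw [integral_const_mul, integral_add i6 i5,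
      integral_add i4 (i3.const_mul t), integral_const_mul, integral_indicator hm]
    have h3 := hn' (c.Pw (c.off π π') y)
    have h4 : ∫ x in {x : sub 9 (c.ss π') | δ < ‖(x : Tn 9 d)‖}, ‖b x‖ ^ 2 ≤ t := h1
    unfold nrm at hn h3
    rw [hn, h3]
    linarith [mul_le_mul_of_nonneg_left h4 (sq_nonneg (c.hatη π 𝔞 π' η y))]
  · rw [inner_smul_left, norm_mul, mul_pow, RCLike.norm_conj, norm_real, Real.norm_eq_abs, sq_abs,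
      mul_comm 2, mul_assoc, mul_assoc]
    refine mul_le_mul_of_nonneg_left ?_ (sq_nonneg _)
    by_cases hs : δ < ‖(s : Tn 9 d)‖
    · rw [Set.indicator_of_mem (s := {x : sub 9 (c.ss π') | δ < ‖(x : Tn 9 d)‖}) hs]
      have hT2 := sq_nonneg ‖T (y + s)‖
      have h3 := mul_nonneg (sq_nonneg ‖c.Pw (c.off π π') y (b s)‖) hT2
      have h4 := mul_nonneg (mul_nonneg ht.le (sq_nonneg ‖b s‖)) hT2
      have h5 := pow_le_pow_left₀ (norm_nonneg _) (norm_inner_le_norm (𝕜 := ℂ) (b s) (T (y + s))) 2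
      have h6 := mul_nonneg (sq_nonneg ‖b s‖) hT2
      linarith
    · rw [Set.indicator_of_notMem (s := {x : sub 9 (c.ss π') | δ < ‖(x : Tn 9 d)‖}) hs, add_zero]
      have h3 := frozen (vac_symm _) ht.le (hu y hyS s (not_lt.1 hs)) (b s)
        (hP _ (hU ▸ Submodule.add_mem_sup y.2 s.2))
      linarith

/-- the bound for one direction in the flat trivialization -/
theorem lamh_v (h_lm1 : c.S_lm1) (h_lm4 : c.S_lm4) (h_lam : c.S_lam) (h_tb : c.S_tb)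
    (h_cr : c.S_cr) (h_nc : c.S_nc) (hL : c.Lc π 𝔞 π' v) : ∃ K : ℝ, 0 ≤ K ∧ ∀ m : ℝ, |m| ≤ 1 → ∀ η,
      SmR (c.CS 𝔞 π') η (c.Good π π' ∩ c.Ow (c.off π π') v) → ∀ β ∈ c.BK π π', ∀ ε > 0,
      ∀ᶠ g in atTop, ∀ ψ ∈ c.D π 𝔞, ‖c.Lamh π 𝔞 π' g ψ η β‖ ^ 2 ≤
          K * (∫ y : c.CS 𝔞 π', η y ^ 2) * (‖β‖ ^ 2 * nrm (sub 9 𝔞) ψ) + ε * c.NE 𝔞 g m ψ := by
  obtain ⟨K, hK, h⟩ := core h_lm1 h_lam h_tb h_cr h_nc hL
  refine ⟨8 * K, by positivity, fun m hm η hη β hβ ε hε => ?_⟩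
  have hη' := h_lm4.hat π 𝔞 π' hL.2.1 η _ hη
  obtain ⟨t, ht, ht'⟩ : ∃ t > 0, t * (2 + 8 * K) = ε :=
    ⟨ε / (2 + 8 * K), by positivity, div_mul_cancel₀ _ (by positivity)⟩
  have h0 := h_lam.self π' _ (hL.1.inf c hL.2.1) _ (smR_self hη') β t ht
  rw [c.CS_inf le_rfl] at h0
  filter_upwards [h m hm _ (hη'.mono fun _ _ hx => hx.2) β t ht, h0,
    pair h_lm1 h_lm4 hL hη hβ ht] with g h1 h2 h3 ψ hψ
  obtain ⟨T, h4, h5, h6, h7⟩ := h1 ψ hψ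
  have h8 := h2 T h4
  have h9 := h3 T h4 h6
  rw [norm_sub_rev] at h8
  have h10 := norm_sq_le_two (c.Lam π' (𝔞 ⊓ c.blk π') π' g T (c.hatη π 𝔞 π' η) β)
    (ip (c.Sl 𝔞 π') (fun x => (c.hatη π 𝔞 π' η ((c.CS 𝔞 π').starProjection x) : ℂ) •
      dil (sub 9 (c.ss π')) (ell g) (rep _ β) ((sub 9 (c.ss π')).starProjection x)) T)
  have h11 := norm_sq_le_two (c.Lam π 𝔞 π' g ψ (c.hatη π 𝔞 π' η) β)
    (c.Lam π' (𝔞 ⊓ c.blk π') π' g T (c.hatη π 𝔞 π' η) β)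
  have hI : 0 ≤ (∫ y : c.CS 𝔞 π', η y ^ 2) * ‖β‖ ^ 2 :=
    mul_nonneg (integral_nonneg fun _ => sq_nonneg _) (sq_nonneg _)
  have h12 := mul_le_mul_of_nonneg_left h5 hI
  have h13 := mul_le_mul_of_nonneg_left
    (h5.trans (mul_le_mul_of_nonneg_left (nrm_le_NE c 𝔞 g m ψ) hK)) ht.le
  rw [Ctx.Lamh, ← ht']
  nlinarith

end UbAux

namespace Ctx

variable {N d : ℕ} {F : Type} [NormedAddCommGroup F] [InnerProductSpace ℂ F]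
  [FiniteDimensional ℂ F] (c : Ctx N d F)

theorem p_ub (h_lm1 : c.S_lm1) (h_lmea : c.S_lmea) (h_lm4 : c.S_lm4) (h_orb : c.S_orb)
    (h_lam : c.S_lam) (h_tb : c.S_tb) (h_cr : c.S_cr) (h_nc : c.S_nc) : c.S_ub := by
  intro π 𝔞 π' hT hπ
  obtain ⟨𝒱, h1, h2⟩ := h_orb.dir
  have hL : ∀ v : 𝒱, c.Lc π 𝔞 π' v := fun v => ⟨hT, hπ, h1 v v.2⟩
  choose K hK h3 using fun v : 𝒱 => UbAux.lam_v h_lm1 h_lam h_tb h_cr h_nc (hL v)
  choose K' hK' h4 using fun v : 𝒱 => UbAux.lamh_v h_lm1 h_lm4 h_lam h_tb h_cr h_nc (hL v)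
  obtain ⟨M, hM⟩ : ∃ M, M = ∑ v, (K v + K' v) := ⟨_, rfl⟩
  have hM0 : 0 ≤ M := hM ▸ Finset.sum_nonneg fun v _ => add_nonneg (hK v) (hK' v)
  have hM1 : ∀ v, K v + K' v ≤ M := fun v => hM ▸ Finset.single_le_sum
    (f := fun v => K v + K' v) (fun v _ => add_nonneg (hK v) (hK' v)) (Finset.mem_univ v)
  have hc : ∀ x ∈ c.CS 𝔞 π', x ∈ c.Gen π π' → ∃ v : 𝒱, x ∈ c.Ow (c.off π π') v := fun x hx hx' => by
    obtain ⟨v, hv, h5⟩ := h2 π π' hπ x (sub_mono inf_le_right hx) hx'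
    exact ⟨⟨v, hv⟩, h5⟩
  have hI : ∀ (η : Tn 9 d → ℝ) (β : LL (sub 9 (c.ss π')) F) (ψ : Tn 9 d → F),
      0 ≤ (∫ y : c.CS 𝔞 π', η y ^ 2) * (‖β‖ ^ 2 * nrm (sub 9 𝔞) ψ) := fun η β ψ =>
    mul_nonneg (integral_nonneg fun _ => sq_nonneg _) (mul_nonneg (sq_nonneg _) (nrm_nonneg _ _))
  refine ⟨(Fintype.card 𝒱 : ℝ) ^ 2 * M, by positivity, fun m hm =>
    ⟨fun η hη β ε hε => ?_, fun η hη β hβ ε hε => ?_⟩⟩
  · have := UbAux.patch (D := (c.D π 𝔞 : Set (Tn 9 d → F)))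
      (L := fun g ψ η => c.Lam π 𝔞 π' g ψ η β) (a := fun ψ => ‖β‖ ^ 2 * nrm (sub 9 𝔞) ψ)
      (b := fun g ψ => c.NE 𝔞 g m ψ) (fun v : 𝒱 => h_lm1.isOpen (c.off π π') v) hc
      (fun ψ => mul_nonneg (sq_nonneg _) (nrm_nonneg _ _)) (fun g ψ => UbAux.NE_nonneg c 𝔞 g m ψ)
      (fun g hg ψ hψ => h_lam.linη π 𝔞 π' hT hπ g hg ψ (c.mem_D.1 hψ).1 β)
      (fun g ψ η η' h => (h_lam.congrη π 𝔞 π' g ψ η η' β h).1) hM0
      (fun v η hη ε hε => (h3 v m hm η (hη.mono fun _ _ hx => hx.2) β ε hε).mono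
        fun g hg ψ hψ => (hg ψ hψ).trans (by
          nlinarith [mul_le_mul_of_nonneg_right (hM1 v) (hI η β ψ),
            mul_nonneg (hK' v) (hI η β ψ)])) hη hε
    exact this.mono fun g hg ψ hψ => (hg ψ hψ).trans_eq (by ring)
  · have := UbAux.patch (D := (c.D π 𝔞 : Set (Tn 9 d → F)))
      (L := fun g ψ η => c.Lamh π 𝔞 π' g ψ η β) (a := fun ψ => ‖β‖ ^ 2 * nrm (sub 9 𝔞) ψ)
      (b := fun g ψ => c.NE 𝔞 g m ψ) (fun v : 𝒱 => h_lm1.isOpen (c.off π π') v)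
      (fun x hx hx' => hc x hx (c.Good_subset_Gen _ _ hx'))
      (fun ψ => mul_nonneg (sq_nonneg _) (nrm_nonneg _ _)) (fun g ψ => UbAux.NE_nonneg c 𝔞 g m ψ)
      (fun g hg ψ hψ => h_lam.linηh π 𝔞 π' hT hπ g hg ψ (c.mem_D.1 hψ).1 β)
      (fun g ψ η η' h => (h_lam.congrη π 𝔞 π' g ψ η η' β h).2) hM0
      (fun v η hη ε hε => (h4 v m hm η hη β hβ ε hε).mono
        fun g hg ψ hψ => (hg ψ hψ).trans (by
          nlinarith [mul_le_mul_of_nonneg_right (hM1 v) (hI η β ψ),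
            mul_nonneg (hK v) (hI η β ψ)])) hη hε
    exact this.mono fun g hg ψ hψ => (hg ψ hψ).trans_eq (by ring)

end Ctx

end Vale.Agent.P353
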