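import Vale.Agent.P353.Gau

/-! Abstract part of the crude bound: Fubini and Cauchy-Schwarz on orthogonal subspaces. -/

noncomputable section

open MeasureTheory Filter Topology Complex Matrix
open scoped ContDiff RealInnerProductSpace

namespace Vale.Agent.P353

namespace Ub0Aux

theorem rpow_half (P : ℝ) : ENNReal.ofReal P ^ (1 / 2 : ℝ) = ENNReal.ofReal √P := by
  rcases le_total P 0 with h | h
  · rw [ENNReal.ofReal_of_nonpos h, Real.sqrt_eq_zero_of_nonpos h, ENNReal.ofReal_zero,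
      ENNReal.zero_rpow_of_pos (by norm_num)]
  · rw [ENNReal.ofReal_rpow_of_nonneg h (by norm_num), Real.sqrt_eq_rpow]

theorem cs {α : Type} [MeasurableSpace α] {μ : Measure α} {A B : α → ℝ} (hA : Measurable A)
    (hB : Measurable B) (hA0 : ∀ x, 0 ≤ A x) (hB0 : ∀ x, 0 ≤ B x) {P Q : ℝ}
    (hP : ∫⁻ x, ENNReal.ofReal (A x ^ 2) ∂μ ≤ ENNReal.ofReal P)
    (hQ : ∫⁻ x, ENNReal.ofReal (B x ^ 2) ∂μ ≤ ENNReal.ofReal Q) :
    ∫⁻ x, ENNReal.ofReal (A x * B x) ∂μ ≤ ENNReal.ofReal (√P * √Q) := by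
  have h := ENNReal.lintegral_mul_le_Lp_mul_Lq μ Real.HolderConjugate.two_two
    hA.ennreal_ofReal.aemeasurable hB.ennreal_ofReal.aemeasurable
  have e : ∀ t : ℝ, 0 ≤ t → ENNReal.ofReal t ^ (2 : ℝ) = ENNReal.ofReal (t ^ 2) := fun t ht => by
    rw [ENNReal.ofReal_rpow_of_nonneg ht (by norm_num), Real.rpow_two]
  simp only [Pi.mul_apply, e _ (hA0 _), e _ (hB0 _), ← ENNReal.ofReal_mul (hA0 _)] at h
  refine h.trans ?_
  rw [ENNReal.ofReal_mul (Real.sqrt_nonneg _), ← rpow_half, ← rpow_half]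
  exact mul_le_mul' (ENNReal.rpow_le_rpow hP (by norm_num)) (ENNReal.rpow_le_rpow hQ (by norm_num))

variable {E : Type} [NormedAddCommGroup E] [InnerProductSpace ℝ E] [FiniteDimensional ℝ E]

theorem proj_left {A B : Submodule ℝ E} (h : A ⟂ B) (x : E) {w : E} (hw : w ∈ B) :
    A.starProjection (x + w) = A.starProjection x := by
  rw [map_add, (Submodule.starProjection_apply_eq_zero_iff A).2 (h.symm.le hw), add_zero]

theorem proj_sup {A B : Submodule ℝ E} (h : A ⟂ B) {x w : E} (hx : x ∈ Bᗮ) (hw : w ∈ B) :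
    (A ⊔ B).starProjection (x + w) = A.starProjection x + w := by
  refine Submodule.eq_starProjection_of_mem_orthogonal
    (Submodule.add_mem_sup (A.starProjection_apply_mem x) hw) ?_
  rw [← Submodule.inf_orthogonal, add_sub_add_right_eq_sub]
  exact ⟨A.sub_starProjection_mem_orthogonal x,
    sub_mem hx (h.le (A.starProjection_apply_mem x))⟩

theorem normsq_proj {A B : Submodule ℝ E} (h : A ⟂ B) {x w : E} (hx : x ∈ Bᗮ) (hw : w ∈ B) :
    ‖(A ⊔ B).starProjection (x + w)‖ ^ 2 = ‖A.starProjection x‖ ^ 2 + ‖w‖ ^ 2 := by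
  rw [proj_sup h hx hw, norm_add_sq_real, h.inner_eq (A.starProjection_apply_mem x) hw]
  ring

theorem proj_proj {A B : Submodule ℝ E} (h : A ≤ B) (x : E) :
    A.starProjection (B.starProjection x) = A.starProjection x :=
  DFunLike.congr_fun (Submodule.starProjection_comp_starProjection_of_le h) x

theorem proj_sub_le {A : Submodule ℝ E} (x : E) {y : E} (hy : y ∈ A) :
    ‖A.starProjection x - y‖ ≤ ‖x - y‖ := by
  have h := A.norm_starProjection_apply_le (x - y)
  rwa [map_sub, Submodule.starProjection_eq_self_iff.2 hy] at h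

variable [MeasurableSpace E] [BorelSpace E]

theorem lintegral_two {U U₁ U₂ : Submodule ℝ E} (h : U₁ ⟂ U₂) (hU : U₁ ⊔ U₂ = U)
    {f₁ f₂ : E → ENNReal} (h₁ : Measurable f₁) (h₂ : Measurable f₂) :
    ∫⁻ x : U, f₁ (U₁.starProjection x) * f₂ (U₂.starProjection x) =
      (∫⁻ x : U₁, f₁ x) * ∫⁻ x : U₂, f₂ x := by
  have hm : Measurable fun x : E => f₁ (U₁.starProjection x) * f₂ (U₂.starProjection x) :=
    (h₁.comp U₁.starProjection.continuous.measurable).mul
      (h₂.comp U₂.starProjection.continuous.measurable)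
  rw [lintegral_sup h hU (f := fun x => f₁ (U₁.starProjection x) * f₂ (U₂.starProjection x))
    (hm.comp measurable_subtype_coe).aemeasurable,
    ← lintegral_mul_const _ (f := fun x : U₁ => f₁ x) (h₁.comp measurable_subtype_coe)]
  refine lintegral_congr fun x => ?_
  rw [← lintegral_const_mul _ (f := fun x : U₂ => f₂ x) (h₂.comp measurable_subtype_coe)]
  refine lintegral_congr fun y => ?_
  rw [proj_left h _ y.2, add_comm, proj_left h.symm _ x.2,
    Submodule.starProjection_eq_self_iff.2 x.2, Submodule.starProjection_eq_self_iff.2 y.2]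

theorem lintegral_three {C S W Y : Submodule ℝ E} (hCS : C ⟂ S) (hW : C ⊔ S ⟂ W)
    (hY : (C ⊔ S) ⊔ W = Y) {f₁ f₂ f₃ : E → ENNReal} (h₁ : Measurable f₁) (h₂ : Measurable f₂)
    (h₃ : Measurable f₃) :
    ∫⁻ x : Y, f₁ (C.starProjection x) * f₂ (S.starProjection x) * f₃ (W.starProjection x) =
      (∫⁻ x : C, f₁ x) * (∫⁻ x : S, f₂ x) * ∫⁻ x : W, f₃ x := by
  have hm : Measurable fun x : E => f₁ (C.starProjection x) * f₂ (S.starProjection x) :=
    (h₁.comp C.starProjection.continuous.measurable).mul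
      (h₂.comp S.starProjection.continuous.measurable)
  rw [← lintegral_two hCS rfl h₁ h₂, ← lintegral_two hW hY hm h₃]
  simp only [proj_proj (le_sup_left : C ≤ C ⊔ S), proj_proj (le_sup_right : S ≤ C ⊔ S)]

theorem gauss_scale (W : Submodule ℝ E) {a g : ℝ} (ha : 0 < a) (hg : 0 < g) :
    ∫⁻ w : W, ENNReal.ofReal (g ^ ((Module.finrank ℝ W : ℝ) / 2) *
      Real.exp (-(a * g * ‖(w : E)‖ ^ 2))) =
      ENNReal.ofReal (∫ w : W, Real.exp (-(a * ‖(w : E)‖ ^ 2))) := by
  have hi : Integrable fun w : W => g ^ ((Module.finrank ℝ W : ℝ) / 2) *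
      Real.exp (-(a * g * ‖(w : E)‖ ^ 2)) :=
    (GauAux.integrable_exp_sq (W := W) (mul_pos ha hg)).const_mul _
  rw [← ofReal_integral_eq_lintegral_ofReal hi (Eventually.of_forall fun w => by positivity),
    integral_const_mul]
  have h := integral_smul_sub W (fun x : E => Real.exp (-(a * ‖x‖ ^ 2))) (Real.sqrt_pos.2 hg)
  simp only [GauAux.norm_sqrt_smul_sq hg, ← mul_assoc] at h
  have e : g ^ ((Module.finrank ℝ W : ℝ) / 2) = √g ^ Module.finrank ℝ W := by
    rw [Real.sqrt_eq_rpow, ← Real.rpow_natCast, ← Real.rpow_mul hg.le]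
    congr 1
    ring
  rw [h, e, smul_eq_mul, ← mul_assoc, mul_inv_cancel₀ (by positivity), one_mul]

omit [MeasurableSpace E] [BorelSpace E] in
theorem isCompact_ball {Y : Submodule ℝ E} {y₀ : E} (hy : y₀ ∈ Y) (ρ : ℝ) :
    IsCompact {y : Y | ‖(y : E) - y₀‖ ≤ ρ} := by
  have e : {y : Y | ‖(y : E) - y₀‖ ≤ ρ} = Metric.closedBall (⟨y₀, hy⟩ : Y) ρ := by
    ext y
    rw [Metric.mem_closedBall, dist_eq_norm]
    rfl
  rw [e]
  exact isCompact_closedBall _ _

/-- the profile on the slice -/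
def prof (C S W : Submodule ℝ E) (y₀ : E) (ρ a g : ℝ) (b : E → ℝ) (y : E) : ℝ :=
  (Metric.closedBall y₀ ρ).indicator 1 (C.starProjection y) * |b (S.starProjection y)| *
    (g ^ ((Module.finrank ℝ W : ℝ) / 4) * Real.exp (-(a * g * ‖W.starProjection y‖ ^ 2)))

theorem prof_meas (C S W : Submodule ℝ E) (y₀ : E) (ρ a g : ℝ) {b : E → ℝ} (hb : Measurable b) :
    Measurable (prof C S W y₀ ρ a g b) := by
  refine (((measurable_one.indicator measurableSet_closedBall).comp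
    C.starProjection.continuous.measurable).mul
      (hb.comp S.starProjection.continuous.measurable).abs).mul (Continuous.measurable ?_)
  fun_prop

omit [MeasurableSpace E] [BorelSpace E] in
theorem prof_nonneg (C S W : Submodule ℝ E) (y₀ : E) (ρ a : ℝ) {g : ℝ} (hg : 0 < g) (b : E → ℝ)
    (y : E) : 0 ≤ prof C S W y₀ ρ a g b y :=
  mul_nonneg (mul_nonneg (Set.indicator_nonneg (fun _ _ => zero_le_one) _) (abs_nonneg _))
    (by positivity)

theorem prof_sq {C S W Y : Submodule ℝ E} (hCS : C ⟂ S) (hW : C ⊔ S ⟂ W) (hY : (C ⊔ S) ⊔ W = Y)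
    {y₀ : E} (hy : y₀ ∈ C) (ρ : ℝ) {a : ℝ} (ha : 0 < a) : ∃ M : ℝ, 0 ≤ M ∧ ∀ g > 0,
      ∀ b : E → ℝ, Measurable b → ∀ P : ℝ,
        ∫⁻ x : S, ENNReal.ofReal (b x ^ 2) ≤ ENNReal.ofReal P →
        ∫⁻ y : Y, ENNReal.ofReal (prof C S W y₀ ρ a g b y ^ 2) ≤ ENNReal.ofReal (M * P) := by
  have hfin := (isCompact_ball hy ρ).measure_lt_top (μ := volume)
  have hΓ : 0 ≤ ∫ w : W, Real.exp (-(2 * a * ‖(w : E)‖ ^ 2)) :=
    integral_nonneg fun w => (Real.exp_pos _).le
  refine ⟨(volume {y : C | ‖(y : E) - y₀‖ ≤ ρ}).toReal *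
    ∫ w : W, Real.exp (-(2 * a * ‖(w : E)‖ ^ 2)), mul_nonneg ENNReal.toReal_nonneg hΓ,
    fun g hg b hb P hP => ?_⟩
  have h3 := lintegral_three hCS hW hY (f₁ := (Metric.closedBall y₀ ρ).indicator 1)
    (f₂ := fun x => ENNReal.ofReal (b x ^ 2))
    (f₃ := fun x => ENNReal.ofReal (g ^ ((Module.finrank ℝ W : ℝ) / 2) *
      Real.exp (-(2 * a * g * ‖x‖ ^ 2)))) (measurable_one.indicator measurableSet_closedBall)
    (hb.pow_const 2).ennreal_ofReal (Continuous.measurable (by fun_prop)).ennreal_ofReal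
  have e1 : ∫⁻ x : C, (Metric.closedBall y₀ ρ).indicator (1 : E → ENNReal) x =
      volume {y : C | ‖(y : E) - y₀‖ ≤ ρ} := by
    rw [← lintegral_indicator_one (isCompact_ball hy ρ).measurableSet]
    refine lintegral_congr fun x => ?_
    by_cases hx : ‖(x : E) - y₀‖ ≤ ρ
    · rw [Set.indicator_of_mem (mem_closedBall_iff_norm.2 hx),
        Set.indicator_of_mem (show x ∈ {y : C | ‖(y : E) - y₀‖ ≤ ρ} from hx)]
      rfl
    · rw [Set.indicator_of_notMem (mt mem_closedBall_iff_norm.1 hx),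
        Set.indicator_of_notMem (show x ∉ {y : C | ‖(y : E) - y₀‖ ≤ ρ} from hx)]
  rw [e1, gauss_scale W (by positivity) hg] at h3
  have e2 : ∀ y : E, ENNReal.ofReal (prof C S W y₀ ρ a g b y ^ 2) =
      (Metric.closedBall y₀ ρ).indicator (1 : E → ENNReal) (C.starProjection y) *
        ENNReal.ofReal (b (S.starProjection y) ^ 2) *
        ENNReal.ofReal (g ^ ((Module.finrank ℝ W : ℝ) / 2) *
          Real.exp (-(2 * a * g * ‖W.starProjection y‖ ^ 2))) := fun y => by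
    rw [prof]
    by_cases hx : C.starProjection y ∈ Metric.closedBall y₀ ρ
    · rw [Set.indicator_of_mem hx, Set.indicator_of_mem hx, Pi.one_apply, Pi.one_apply, one_mul,
        one_mul, ← ENNReal.ofReal_mul (sq_nonneg _), mul_pow, mul_pow, sq_abs,
        ← Real.rpow_natCast (g ^ _), ← Real.rpow_mul hg.le, ← Real.exp_nat_mul]
      congr 4
      · push_cast
        ring
      · push_cast
        ring
    · rw [Set.indicator_of_notMem hx, Set.indicator_of_notMem hx]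
      simp
  simp only [e2]
  rw [h3, mul_right_comm, ENNReal.ofReal_mul (mul_nonneg ENNReal.toReal_nonneg hΓ),
    ENNReal.ofReal_mul ENNReal.toReal_nonneg, ENNReal.ofReal_toReal hfin.ne]
  exact mul_le_mul_right hP _

theorem wgt_meas (S V : Submodule ℝ E) (y₀ : E) (ρ p a g : ℝ) {b H : E → ℝ} (hb : Measurable b)
    (hH : Measurable H) : Measurable ((Metric.closedBall y₀ ρ).indicator fun x => ENNReal.ofReal
      (g ^ p * Real.exp (-(a * g * ‖V.starProjection x‖ ^ 2)) * |b (S.starProjection x)| *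
        H x)) := by
  refine Measurable.indicator (Measurable.ennreal_ofReal ?_) measurableSet_closedBall
  refine ((Continuous.measurable ?_).mul
    (hb.comp S.starProjection.continuous.measurable).abs).mul hH
  fun_prop

/-- the local estimate -/
theorem key {C S W Z Y : Submodule ℝ E} (hCS : C ⟂ S) (hW : C ⊔ S ⟂ W) (hY : (C ⊔ S) ⊔ W = Y)
    (hZ : Z ⟂ Y) {y₀ : E} (hy : y₀ ∈ C) (ρ : ℝ) {a : ℝ} (ha : 0 < a) : ∃ M : ℝ, 0 ≤ M ∧ ∀ g > 0,
      ∀ b : E → ℝ, Measurable b → ∀ P : ℝ,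
        ∫⁻ x : S, ENNReal.ofReal (b x ^ 2) ≤ ENNReal.ofReal P →
      ∀ H : E → ℝ, Measurable H → (∀ x, 0 ≤ H x) → ∀ B : ℝ,
        (∀ z ∈ Z, ‖z‖ ≤ ρ → ∫⁻ y in {y : Y | ‖(y : E) - y₀‖ ≤ ρ},
          ENNReal.ofReal (H (z + y) ^ 2) ≤ ENNReal.ofReal B) →
        ∫⁻ x : ↥(Z ⊔ Y), (Metric.closedBall y₀ ρ).indicator (fun x => ENNReal.ofReal
          (g ^ ((Module.finrank ℝ Z : ℝ) / 2 + (Module.finrank ℝ W : ℝ) / 4) *
            Real.exp (-(a * g * ‖(W ⊔ Z).starProjection x‖ ^ 2)) * |b (S.starProjection x)| *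
              H x)) (x : E) ≤ ENNReal.ofReal (M * √P * √B) := by
  obtain ⟨M, hM, h⟩ := prof_sq hCS hW hY hy ρ ha
  have hΓ : 0 ≤ ∫ w : Z, Real.exp (-(a * ‖(w : E)‖ ^ 2)) :=
    integral_nonneg fun w => (Real.exp_pos _).le
  refine ⟨(∫ w : Z, Real.exp (-(a * ‖(w : E)‖ ^ 2))) * √M, mul_nonneg hΓ (Real.sqrt_nonneg _),
    fun g hg b hb P hP H hH hH0 B hB => ?_⟩
  have hCY : C ≤ Y := hY ▸ le_sup_left.trans le_sup_left
  have hSY : S ≤ Y := hY ▸ le_sup_right.trans le_sup_left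
  have hWY : W ≤ Y := hY ▸ le_sup_right
  have hm := wgt_meas S (W ⊔ Z) y₀ ρ
    ((Module.finrank ℝ Z : ℝ) / 2 + (Module.finrank ℝ W : ℝ) / 4) a g hb hH
  rw [lintegral_sup hZ rfl (hm.comp measurable_subtype_coe).aemeasurable, mul_assoc, mul_assoc,
    ENNReal.ofReal_mul hΓ, ← gauss_scale Z ha hg,
    ← lintegral_mul_const _ (Continuous.measurable (by fun_prop)).ennreal_ofReal]
  refine lintegral_mono fun z => ?_
  have hpy : ∀ y : Y, ‖(z : E) + y - y₀‖ ^ 2 = ‖(z : E)‖ ^ 2 + ‖(y : E) - y₀‖ ^ 2 := fun y => by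
    rw [add_sub_assoc, norm_add_sq_real, hZ.inner_eq z.2 (sub_mem y.2 (hCY hy))]
    ring
  by_cases hz : ‖(z : E)‖ ≤ ρ
  swap
  · refine le_trans (le_of_eq ?_) zero_le
    rw [← lintegral_zero (μ := (volume : Measure Y))]
    refine lintegral_congr fun y => Set.indicator_of_notMem (fun hm => hz ?_) _
    have h1 := mem_closedBall_iff_norm.1 hm
    have h2 := hpy y
    refine le_trans (le_of_sq_le_sq ?_ (norm_nonneg _)) h1
    rw [h2]
    exact le_add_of_nonneg_right (sq_nonneg _)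
  have hms : MeasurableSet {y : Y | ‖(y : E) - y₀‖ ≤ ρ} := (isCompact_ball (hCY hy) ρ).measurableSet
  have hH' : Measurable fun y : Y => H (z + y) :=
    hH.comp (measurable_const.add measurable_subtype_coe)
  have hc := cs (μ := (volume : Measure Y)) (A := fun y : Y => prof C S W y₀ ρ a g b y)
    (B := {y : Y | ‖(y : E) - y₀‖ ≤ ρ}.indicator fun y => H (z + y))
    ((prof_meas C S W y₀ ρ a g hb).comp measurable_subtype_coe) (hH'.indicator hms)
    (fun y => prof_nonneg C S W y₀ ρ a hg b y)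
    (fun y => Set.indicator_nonneg (fun _ _ => hH0 _) _) (h g hg b hb P hP) (Q := B) (by
      refine le_trans (le_of_eq ?_) (hB z z.2 hz)
      rw [← lintegral_indicator hms]
      refine lintegral_congr fun y => ?_
      by_cases hy' : y ∈ {y : Y | ‖(y : E) - y₀‖ ≤ ρ}
      · rw [Set.indicator_of_mem hy', Set.indicator_of_mem hy']
      · rw [Set.indicator_of_notMem hy', Set.indicator_of_notMem hy']
        simp)
  rw [Real.sqrt_mul hM, mul_assoc] at hc
  refine le_trans ?_ (mul_le_mul_right hc _)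
  rw [← lintegral_const_mul' _ _ ENNReal.ofReal_ne_top]
  refine lintegral_mono fun y => ?_
  by_cases hm : (z : E) + y ∈ Metric.closedBall y₀ ρ
  swap
  · rw [Set.indicator_of_notMem hm]
    exact zero_le
  have h1 := mem_closedBall_iff_norm.1 hm
  have h2 : ‖(y : E) - y₀‖ ≤ ρ := by
    refine le_trans (le_of_sq_le_sq ?_ (norm_nonneg _)) h1
    rw [hpy y]
    exact le_add_of_nonneg_left (sq_nonneg _)
  have h3 : C.starProjection y ∈ Metric.closedBall y₀ ρ :=
    mem_closedBall_iff_norm.2 ((proj_sub_le _ hy).trans h2)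
  rw [Set.indicator_of_mem hm, Set.indicator_of_mem (show y ∈ {y : Y | ‖(y : E) - y₀‖ ≤ ρ} from h2),
    prof, Set.indicator_of_mem h3, ← ENNReal.ofReal_mul (by positivity), add_comm (z : E),
    normsq_proj (hZ.symm.mono_left hWY) (hZ.symm.le y.2) z.2,
    proj_left (hZ.symm.mono_left hSY) _ z.2, Real.rpow_add hg, mul_add, neg_add, Real.exp_add,
    Pi.one_apply]
  refine le_of_eq (congrArg _ ?_)
  ring

/-- the local estimate for the iterated integral -/
theorem loc {C S W₂ Z W₁ V U Y : Submodule ℝ E} (hCS : C ⟂ S) (hV : W₂ ⊔ Z = V) (h2Z : W₂ ⟂ Z)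
    (hCV : C ⊔ S ⟂ V) (hU : (C ⊔ S) ⊔ V = U) (hU1 : U ⟂ W₁) (hY : (C ⊔ S) ⊔ (W₂ ⊔ W₁) = Y)
    {y₀ : E} (hy : y₀ ∈ C) (ρ : ℝ) {a : ℝ} (ha : 0 < a) : ∃ M : ℝ, 0 ≤ M ∧ ∀ g > 0,
      ∀ b : E → ℝ, MemLp (fun x : S => b x) 2 volume →
      ∀ H : E → ℝ, Measurable H → (∀ x, 0 ≤ H x) → ∀ B : ℝ,
        (∀ z ∈ Z, ‖z‖ ≤ ρ → ∫⁻ y in {y : Y | ‖(y : E) - y₀‖ ≤ ρ},
          ENNReal.ofReal (H (z + y) ^ 2) ≤ ENNReal.ofReal B) → ∀ δ ≤ ρ / 3,
        ∫⁻ X in {X : U | C.starProjection X ∈ Metric.closedBall y₀ (ρ / 3) ∧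
            ‖(X : E) - C.starProjection X‖ ≤ δ}, ∫⁻ W in {W : W₁ | ‖(W : E)‖ ≤ δ}, ENNReal.ofReal
          (g ^ ((Module.finrank ℝ Z : ℝ) / 2 + (Module.finrank ℝ ↥(W₂ ⊔ W₁) : ℝ) / 4) *
            Real.exp (-(a * g * (‖V.starProjection X‖ ^ 2 + ‖(W : E)‖ ^ 2))) *
            |b (S.starProjection X)| * H (X + W)) ≤
          ENNReal.ofReal (M * √(∫ x : S, b x ^ 2) * √B) := by
  have hVU : V ≤ U := hU ▸ le_sup_right
  have hCU : C ⊔ S ≤ U := hU ▸ le_sup_left
  have h2V : W₂ ≤ V := hV ▸ le_sup_left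
  have hZV : Z ≤ V := hV ▸ le_sup_right
  have hW : C ⊔ S ⟂ W₂ ⊔ W₁ :=
    Submodule.isOrtho_sup_right.2 ⟨hCV.mono_right h2V, hU1.mono_left hCU⟩
  have hZ : Z ⟂ Y := hY ▸ Submodule.isOrtho_sup_right.2 ⟨hCV.symm.mono_left hZV,
    Submodule.isOrtho_sup_right.2 ⟨h2Z.symm, hU1.mono_left (hZV.trans hVU)⟩⟩
  have hT : U ⊔ W₁ = Z ⊔ Y := by
    rw [← hU, ← hY, ← hV]
    ac_rfl
  have hT' : (W₂ ⊔ W₁) ⊔ Z = V ⊔ W₁ := by
    rw [← hV]
    ac_rfl
  obtain ⟨M, hM, h⟩ := key hCS hW hY hZ hy ρ ha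
  refine ⟨M, hM, fun g hg b hb H hH hH0 B hB δ hδ => ?_⟩
  have hb' : Measurable fun x : E => hb.1.mk _ (S.orthogonalProjectionOnto x) :=
    hb.1.measurable_mk.comp S.orthogonalProjectionOnto.continuous.measurable
  have h1 := h g hg _ hb' (∫ x : S, b x ^ 2) (by
    rw [ofReal_integral_eq_lintegral_ofReal hb.integrable_sq
      (Eventually.of_forall fun x => sq_nonneg _)]
    refine le_of_eq (lintegral_congr_ae ?_)
    filter_upwards [hb.1.ae_eq_mk] with x hx
    rw [Submodule.orthogonalProjectionOnto_mem_subspace_eq_self, ← hx]) H hH hH0 B hB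
  rw [lintegral_sup hU1 hT ((wgt_meas S _ y₀ ρ _ a g hb' hH).comp
    measurable_subtype_coe).aemeasurable, hT'] at h1
  refine le_trans ?_ h1
  have hms : MeasurableSet {X : U | C.starProjection X ∈ Metric.closedBall y₀ (ρ / 3) ∧
      ‖(X : E) - C.starProjection X‖ ≤ δ} := by
    have h2 : IsClosed {X : U | C.starProjection X ∈ Metric.closedBall y₀ (ρ / 3)} :=
      Metric.isClosed_closedBall.preimage (f := fun X : U => C.starProjection X) (by fun_prop)
    have h3 : IsClosed {X : U | ‖(X : E) - C.starProjection X‖ ≤ δ} :=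
      isClosed_le (by fun_prop) continuous_const
    exact (h2.inter h3).measurableSet
  have hmw : MeasurableSet {W : W₁ | ‖(W : E)‖ ≤ δ} :=
    (isClosed_le (by fun_prop) continuous_const).measurableSet
  refine le_trans (lintegral_mono_ae ?_) (setLIntegral_le_lintegral _ _)
  have hq := (quasiMeasurePreserving_proj (le_sup_right.trans hCU) one_ne_zero).ae hb.1.ae_eq_mk
  filter_upwards [ae_restrict_mem hms, ae_restrict_of_ae hq] with X hX hbX
  refine le_trans (setLIntegral_mono' hmw fun W hW' => le_of_eq ?_) (setLIntegral_le_lintegral _ _)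
  have hn : (X : E) + W ∈ Metric.closedBall y₀ ρ := by
    have e : (X : E) + W - y₀ = ((X : E) - C.starProjection X) + (C.starProjection X - y₀) + W := by
      abel
    have h2 := mem_closedBall_iff_norm.1 hX.1
    have h3 : ‖(W : E)‖ ≤ δ := hW'
    rw [mem_closedBall_iff_norm, e]
    refine norm_add₃_le.trans ?_
    linarith [hX.2]
  rw [one_smul] at hbX
  rw [Set.indicator_of_mem hn, normsq_proj (hU1.mono_left hVU) (hU1.le X.2) W.2,
    proj_left (hU1.mono_left (le_sup_right.trans hCU)) _ W.2, Submodule.starProjection_apply S,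
    Submodule.orthogonalProjectionOnto_mem_subspace_eq_self, ← hbX]

end Ub0Aux

end Vale.Agent.P353
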