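import Vale.Agent.P353.Stmts
import Vale.Agent.P353.Gau
import Vale.Agent.P353.Ub0Aux

/-! Crude bound for the trial functions. -/

noncomputable section

open MeasureTheory Filter Topology Complex Matrix
open scoped ContDiff RealInnerProductSpace

namespace Vale.Agent.P353

namespace Ub0Aux

theorem finrank_sup {E : Type} [NormedAddCommGroup E] [InnerProductSpace ℝ E]
    [FiniteDimensional ℝ E] {A B : Submodule ℝ E} (h : A ⟂ B) :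
    Module.finrank ℝ ↥(A ⊔ B) = Module.finrank ℝ A + Module.finrank ℝ B := by
  rw [← Submodule.finrank_sup_add_finrank_inf_eq, h.disjoint.eq_bot, finrank_bot, add_zero]

theorem lint_le {E : Type} [NormedAddCommGroup E] [InnerProductSpace ℝ E] [FiniteDimensional ℝ E]
    [MeasurableSpace E] [BorelSpace E] {Y : Submodule ℝ E} {y₀ : E} (hy : y₀ ∈ Y) {ρ δ B : ℝ}
    (hρ : ρ ≤ δ) {f : E → ℝ} (hf : Continuous f) (h0 : ∀ x, 0 ≤ f x)
    (h : ∫ y in {y : Y | ‖(y : E) - y₀‖ ≤ δ}, f y ≤ B) :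
    ∫⁻ y in {y : Y | ‖(y : E) - y₀‖ ≤ ρ}, ENNReal.ofReal (f y) ≤ ENNReal.ofReal B := by
  refine le_trans ?_ (ENNReal.ofReal_le_ofReal h)
  have hi : IntegrableOn (fun y : Y => f y) {y : Y | ‖(y : E) - y₀‖ ≤ δ} :=
    (hf.comp continuous_subtype_val).continuousOn.integrableOn_compact (isCompact_ball hy δ)
  rw [ofReal_integral_eq_lintegral_ofReal hi (Eventually.of_forall fun x => h0 _)]
  exact lintegral_mono_set fun x hx => le_trans hx hρ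

variable {N d : ℕ} {F : Type} [NormedAddCommGroup F] [InnerProductSpace ℂ F]
  [FiniteDimensional ℂ F] (c : Ctx N d F) {π π' π'' : Setoid (Fin N)}
  {𝔞 𝔴 : Submodule ℝ (Lg d)} {v v'' : Fin 9 → ℝ}

theorem eq_zero_of_G (h : c.S_lm1a) {X : Tn 9 d} (hX : X ∈ c.Ow 𝔴 v) {ξ : Lg d} (hξ : ξ ∈ 𝔴)
    {w : Tn 9 d} (hw : w ∈ Wsl 𝔴 v) (h0 : c.Gw 𝔴 X ξ - w ∈ (sub 9 𝔴)ᗮ) : ξ = 0 ∧ w = 0 := by
  have h1 : c.Gw 𝔴 X ξ - w = 0 :=
    inner_self_eq_zero.1 (h0 _ (sub_mem (h.G_mem 𝔴 X ξ) hw.1))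
  have h2 : c.aw 𝔴 v X ξ = 0 := by
    rw [← h.cv_G 𝔴 v X ξ hξ, sub_eq_zero.1 h1]
    exact hw.2
  have h3 : ξ = 0 := by
    by_contra hne
    exact hX.1 (LinearMap.det_eq_zero_iff_ker_ne_bot.2 ((Submodule.ne_bot_iff _).2 ⟨ξ, h2, hne⟩))
  refine ⟨h3, ?_⟩
  rw [← sub_eq_zero.1 h1, h3, map_zero]

theorem vf_add (ξ η : Lg d) (x : Tn 9 d) : c.vf (ξ + η) x = c.vf ξ x + c.vf η x := by
  rw [Ctx.vf, c.ad_add, kr_add_right]
  rfl

theorem finrank_WW (hv : v ⬝ᵥ v = 1) (hv'' : v'' ⬝ᵥ v'' = 1) :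
    Module.finrank ℝ ↥(Wsl (c.off π' π'') v'' ⊔ Wsl (c.off π π') v) =
      8 * Module.finrank ℝ (c.off π' π'') + 8 * Module.finrank ℝ (c.off π π') := by
  have h : Wsl (c.off π' π'') v'' ⟂ Wsl (c.off π π') v :=
    (sub_isOrtho (c.off_isOrtho_off π π' π'').symm).mono inf_le_left inf_le_left
  rw [finrank_sup h, finrank_Wsl _ hv, finrank_Wsl _ hv'']

/-- the iterated slice -/
theorem trans (h : c.S_lm1a) (hL : c.Lc π 𝔞 π' v) (h'' : π'' ≤ π') (hv : v'' ⬝ᵥ v'' = 1)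
    {y : Tn 9 d} (hy : y ∈ c.CS 𝔞 π'') (hO : y ∈ c.Ow (c.off π π') v)
    (hO' : y ∈ c.Ow (c.off π' π'') v'') : c.Trans π 𝔞 (c.off π π'')
      (c.Sl 𝔞 π'' ⊔ (Wsl (c.off π' π'') v'' ⊔ Wsl (c.off π π') v)) y := by
  obtain ⟨hT, h', hv1⟩ := hL
  have hoo := c.off_sup_off h' h''
  have h1 : c.off π π' ≤ c.off π π'' := hoo ▸ le_sup_left
  have h2 : c.off π' π'' ≤ c.off π π'' := hoo ▸ le_sup_right
  have h3 : c.off π π'' ≤ 𝔞 := (c.off_le_ss (h''.trans h')).trans hT.1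
  have hW : Wsl (c.off π' π'') v'' ⊔ Wsl (c.off π π') v ≤ sub 9 (c.off π π'') :=
    sup_le (inf_le_left.trans (sub_mono h2)) (inf_le_left.trans (sub_mono h1))
  have hS : c.Sl 𝔞 π'' ≤ sub 9 (c.blk π'') := sub_mono inf_le_right
  have hy'' : y ∈ c.Sl 𝔞 π'' := sub_mono (inf_le_inf_left _ (c.cen_le_blk π'')) hy
  have hb : sub 9 (c.blk π'') ≤ sub 9 (c.blk π') := sub_mono (c.blk_mono h'')
  refine ⟨hT, inf_le_left, sup_le (sub_mono inf_le_left) (hW.trans (sub_mono h3)),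
    Submodule.mem_sup_left hy'', ?_, fun ξ hξ hm => ?_⟩
  · have e1 := finrank_sup ((c.off_isOrtho_blk π π'').symm.mono_left
      (inf_le_right : 𝔞 ⊓ c.blk π'' ≤ c.blk π''))
    have e2 := finrank_sup (c.off_isOrtho_off π π' π'')
    rw [Ctx.Th.sup_off c hT (h''.trans h')] at e1
    rw [hoo] at e2
    rw [finrank_sup ((sub_isOrtho (c.off_isOrtho_blk π π'').symm).mono hS hW),
      finrank_WW c hv1 hv, finrank_sub, finrank_sub]
    omega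
  · rw [← hoo] at hξ
    obtain ⟨ξ₁, h₁, ξ₂, h₂, rfl⟩ := Submodule.mem_sup.1 hξ
    obtain ⟨s, hs, w, hw, e⟩ := Submodule.mem_sup.1 hm
    obtain ⟨w₂, hw₂, w₁, hw₁, rfl⟩ := Submodule.mem_sup.1 hw
    rw [vf_add, ← h.G_eq π π' h' y (hb (hS hy'')) ξ₁ h₁, ← h.G_eq π' π'' h'' y (hS hy'') ξ₂ h₂] at e
    have ho : sub 9 (c.off π' π'') ≤ sub 9 (c.blk π') := sub_mono inf_le_left
    obtain ⟨r1, r2⟩ := eq_zero_of_G c h hO h₁ hw₁ (by
      have e1 : c.Gw (c.off π π') y ξ₁ - w₁ = s + w₂ - c.Gw (c.off π' π'') y ξ₂ := by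
        rw [sub_eq_sub_iff_add_eq_add, ← e, add_assoc]
      rw [e1]
      exact (sub_isOrtho (c.off_isOrtho_blk π π')).symm.le
        (sub_mem (add_mem (hb (hS hs)) (ho hw₂.1)) (ho (h.G_mem _ _ _))))
    rw [r1, r2, map_zero, zero_add, add_zero] at e
    obtain ⟨r3, -⟩ := eq_zero_of_G c h hO' h₂ hw₂ (by
      rw [← e, add_sub_cancel_right]
      exact (sub_isOrtho (c.off_isOrtho_blk π' π'')).symm.le (hS hs))
    rw [r1, r3, add_zero]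

/-- the bound, for a given set of centres and given constants -/
def Bd (π : Setoid (Fin N)) (𝔞 : Submodule ℝ (Lg d)) (π' : Setoid (Fin N)) (v : Fin 9 → ℝ)
    (π'' : Setoid (Fin N)) (a : ℝ) (K : Set (Tn 9 d)) (δ M : ℝ) : Prop :=
  ∀ g, 1 ≤ g → ∀ L : Tn 9 d →L[ℝ] Tn 9 d, ‖L - 1‖ ≤ δ → (∀ x ∈ sub 9 𝔞, L x ∈ sub 9 𝔞) →
    ∀ b : Tn 9 d → ℝ, MemLp (fun x : sub 9 (c.ss π'') => b x) 2 volume →
    ∀ h : Tn 9 d → ℝ, c.Dens π 𝔞 h →
      ∫⁻ X in {X : c.Sl 𝔞 π' | (c.CS 𝔞 π'').starProjection X ∈ K ∧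
          ‖(X : Tn 9 d) - (c.CS 𝔞 π'').starProjection X‖ ≤ δ},
        ∫⁻ W in {W : Wsl (c.off π π') v | ‖(W : Tn 9 d)‖ ≤ δ}, ENNReal.ofReal
          (g ^ (5 / 2 * (Module.finrank ℝ (c.off π' π'') : ℝ) +
              2 * (Module.finrank ℝ (c.off π π') : ℝ)) *
            Real.exp (-(a * g * (‖(sub 9 (c.off π' π'')).starProjection X‖ ^ 2 +
              ‖(W : Tn 9 d)‖ ^ 2))) *
            |b ((sub 9 (c.ss π'')).starProjection X)| * h (L (X + W))) ≤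
      ENNReal.ofReal (M * √(∫ x : sub 9 (c.ss π''), b x ^ 2) * √(∫ x : sub 9 𝔞, h x ^ 2))

theorem Bd.mono {a δ δ' M : ℝ} {K K' : Set (Tn 9 d)} (h : Bd c π 𝔞 π' v π'' a K' δ' M)
    (hK : K ⊆ K') (hδ : δ ≤ δ') : Bd c π 𝔞 π' v π'' a K δ M := fun g hg L hL hL' b hb f hf => by
  refine le_trans ?_ (h g hg L (hL.trans hδ) hL' b hb f hf)
  refine le_trans (lintegral_mono fun X => lintegral_mono_set fun W hW => ?_)
    (lintegral_mono_set fun X hX => ⟨hK hX.1, hX.2.trans hδ⟩)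
  exact le_trans hW hδ

theorem Bd.union {a δ M M' : ℝ} {K K' : Set (Tn 9 d)} (h : Bd c π 𝔞 π' v π'' a K δ M)
    (h' : Bd c π 𝔞 π' v π'' a K' δ M') (hM : 0 ≤ M) (hM' : 0 ≤ M') :
    Bd c π 𝔞 π' v π'' a (K ∪ K') δ (M + M') := fun g hg L hL hL' b hb f hf => by
  rw [add_mul, add_mul, ENNReal.ofReal_add (by positivity) (by positivity)]
  refine le_trans ?_ (add_le_add (h g hg L hL hL' b hb f hf) (h' g hg L hL hL' b hb f hf))
  refine le_trans (lintegral_mono_set fun X hX => ?_) (lintegral_union_le _ _ _)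
  exact hX.1.imp (fun h1 => ⟨h1, hX.2⟩) fun h1 => ⟨h1, hX.2⟩

theorem dens_sq {f : Tn 9 d → ℝ} (hf : c.Dens π 𝔞 f) : c.Dens π 𝔞 fun x => f x ^ 2 :=
  ⟨hf.1.pow 2, fun _ => sq_nonneg _, fun u hu x hx => congrArg (· ^ 2) (hf.2.2.1 u hu x hx),
    hf.2.2.2.comp_left (g := fun t : ℝ => t ^ 2) (by norm_num)⟩

theorem bd_local (h_orb : c.S_orb) (h_chart : c.S_chart) (h : c.S_lm1a) (hL : c.Lc π 𝔞 π' v)
    (h'' : π'' ≤ π') {y : Tn 9 d} (hy : y ∈ c.CS 𝔞 π'') (hG : y ∈ c.Gen π π'')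
    (hO : y ∈ c.Ow (c.off π π') v) {a : ℝ} (ha : 0 < a) : ∃ r > 0, ∃ δ > 0, ∃ M : ℝ, 0 ≤ M ∧
      Bd c π 𝔞 π' v π'' a (Metric.closedBall y r) δ M := by
  obtain ⟨𝒱, hV1, hV2⟩ := h_orb.dir
  obtain ⟨v'', hv'', hO'⟩ := hV2 π' π'' h'' y (sub_mono inf_le_right hy)
    fun a b hab => hG a b (hL.2.1 hab)
  have hv := hV1 v'' hv''
  have hT := trans c h hL h'' hv hy hO hO'
  obtain ⟨δ₀, hδ₀, K₀, hup⟩ := h_chart.up _ _ _ _ _ hT
  have hCS : c.CS 𝔞 π'' ⊔ sub 9 (c.ss π'') = c.Sl 𝔞 π'' := by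
    rw [Ctx.CS, ← sub_sup, Ctx.Th.cen_sup_ss c hL.1 (h''.trans hL.2.1)]
  have hle : Wsl (c.off π' π'') v'' ≤ sub 9 (c.off π' π'') := inf_le_left
  have hU : (c.CS 𝔞 π'' ⊔ sub 9 (c.ss π'')) ⊔ sub 9 (c.off π' π'') = c.Sl 𝔞 π' := by
    have h1 := Ctx.Th.sup_off c (Ctx.Th.inf c hL.1 hL.2.1) h''
    rw [inf_assoc, inf_eq_right.2 (c.blk_mono h'')] at h1
    rw [hCS, ← sub_sup, h1]
  obtain ⟨M, hM, hb⟩ := loc (C := c.CS 𝔞 π'') (S := sub 9 (c.ss π''))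
    (W₁ := Wsl (c.off π π') v)
    (sub_isOrtho ((c.ss_isOrtho_cen π'').symm.mono_left inf_le_right))
    (Submodule.sup_orthogonal_inf_of_hasOrthogonalProjection hle)
    ((Submodule.isOrtho_orthogonal_right _).mono_right inf_le_left)
    (hCS ▸ sub_isOrtho ((c.off_isOrtho_blk π' π'').symm.mono_left inf_le_right)) hU
    ((sub_isOrtho ((c.off_isOrtho_blk π π').symm.mono_left inf_le_right)).mono_right inf_le_left)
    (congrArg (· ⊔ _) hCS) hy (δ₀ / 2) ha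
  have hZ := Submodule.finrank_add_inf_finrank_orthogonal hle
  rw [finrank_Wsl _ hv, finrank_sub] at hZ
  have hZ' : Module.finrank ℝ ↥((Wsl (c.off π' π'') v'')ᗮ ⊓ sub 9 (c.off π' π'')) =
      Module.finrank ℝ (c.off π' π'') := by omega
  have hp : (Module.finrank ℝ ↥((Wsl (c.off π' π'') v'')ᗮ ⊓ sub 9 (c.off π' π'')) : ℝ) / 2 +
      (Module.finrank ℝ ↥(Wsl (c.off π' π'') v'' ⊔ Wsl (c.off π π') v) : ℝ) / 4 =
      5 / 2 * (Module.finrank ℝ (c.off π' π'') : ℝ) + 2 * (Module.finrank ℝ (c.off π π') : ℝ) := by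
    rw [hZ', finrank_WW c hL.2.2 hv]
    push_cast
    ring
  rw [hp] at hb
  refine ⟨δ₀ / 2 / 3, by positivity, min 1 (δ₀ / 2 / 3), by positivity, M * √K₀, by positivity,
    fun g hg L hL1 hL2 b hbm f hf => ?_⟩
  have hLc : Continuous fun x => f (L x) := hf.1.comp L.continuous
  refine (hb g (one_pos.trans_le hg) b hbm (fun x => f (L x)) hLc.measurable (fun x => hf.2.1 _)
    (K₀ * ∫ x : sub 9 𝔞, f x ^ 2) (fun z hz hz' => ?_) _ (min_le_right _ _)).trans (le_of_eq ?_)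
  · have hz𝔞 : z ∈ sub 9 𝔞 := sub_mono ((c.off_le_ss h'').trans
      ((c.ss_mono hL.2.1).trans hL.1.1)) hz.2
    have hLz : ‖L z‖ ≤ δ₀ := by
      have e : L z = (L - 1) z + z := by simp
      have h1 : ‖(L - 1) z‖ ≤ 1 * ‖z‖ := ((L - 1).le_opNorm z).trans
        (mul_le_mul_of_nonneg_right (hL1.trans (min_le_left _ _)) (norm_nonneg _))
      rw [e]
      refine (norm_add_le _ _).trans ?_
      linarith
    have h1 := hup L (hL1.trans ((min_le_right _ _).trans (by linarith))) hL2 (L z) (hL2 z hz𝔞) hLz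
      _ (dens_sq c hf)
    simp only [← map_add, add_comm _ z] at h1
    exact lint_le hT.2.2.2.1 (half_le_self hδ₀.le) (f := fun x => f (L (z + x)) ^ 2)
      ((hLc.comp (continuous_const.add continuous_id)).pow 2) (fun _ => sq_nonneg _) h1
  · rw [Real.sqrt_mul' _ (integral_nonneg fun x => sq_nonneg _)]
    congr 1
    ring

end Ub0Aux

namespace Ctx

variable {N d : ℕ} {F : Type} [NormedAddCommGroup F] [InnerProductSpace ℂ F]
  [FiniteDimensional ℂ F] (c : Ctx N d F)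

theorem p_ub0 (h_orb : c.S_orb) (h_chart : c.S_chart) (h_lm1a : c.S_lm1a) : c.S_ub0 := by
  intro π 𝔞 π' v π'' hL h'' K hK h1 h2 h3 a ha
  suffices h : ∃ δ > 0, ∃ M : ℝ, 0 ≤ M ∧ Ub0Aux.Bd c π 𝔞 π' v π'' a K δ M by
    obtain ⟨δ, hδ, M, -, h⟩ := h
    exact ⟨δ, hδ, M, h⟩
  refine hK.induction_on (p := fun K => ∃ δ > 0, ∃ M : ℝ, 0 ≤ M ∧ Ub0Aux.Bd c π 𝔞 π' v π'' a K δ M)
    ⟨1, one_pos, 0, le_rfl, fun g _ L _ _ b _ f _ => ?_⟩ ?_ ?_ fun y hy => ?_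
  · simp
  · rintro s t hst ⟨δ, hδ, M, hM, h⟩
    exact ⟨δ, hδ, M, hM, h.mono c hst le_rfl⟩
  · rintro s t ⟨δ, hδ, M, hM, h⟩ ⟨δ', hδ', M', hM', h'⟩
    exact ⟨min δ δ', lt_min hδ hδ', M + M', add_nonneg hM hM',
      (h.mono c subset_rfl (min_le_left _ _)).union c (h'.mono c subset_rfl (min_le_right _ _))
        hM hM'⟩
  · obtain ⟨r, hr, h⟩ := Ub0Aux.bd_local c h_orb h_chart h_lm1a hL h'' (h1 hy) (h2 hy) (h3 hy) ha
    exact ⟨_, mem_nhdsWithin_of_mem_nhds (Metric.closedBall_mem_nhds y hr), h⟩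

end Ctx

end Vale.Agent.P353
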