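import Vale.Agent.P353.Stmts
import Vale.Agent.P353.Gau

/-! Upper bound at strong coupling. -/

noncomputable section

open MeasureTheory Filter Topology Complex Matrix
open scoped ContDiff RealInnerProductSpace

namespace Vale.Agent.P353

namespace UpAux

section Gen

variable {E : Type} [NormedAddCommGroup E] [InnerProductSpace ℝ E] [FiniteDimensional ℝ E]
  [MeasurableSpace E] [BorelSpace E]
variable {F : Type} [NormedAddCommGroup F] [InnerProductSpace ℂ F] [FiniteDimensional ℂ F]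
variable {U : Submodule ℝ E}

theorem tendsto_of_close {g : ℕ → ℝ} (hg : Tendsto g atTop atTop) {P : ℝ → ℕ → ℂ} {b : ℕ → ℂ}
    (hb : Tendsto b atTop (𝓝 0))
    (h : ∀ ε > 0, ∀ᶠ t in atTop, ∀ n, t = g n → ‖P t n - b n‖ ^ 2 ≤ ε) :
    Tendsto (fun n => P (g n) n) atTop (𝓝 0) := by
  have h1 : Tendsto (fun n => P (g n) n - b n) atTop (𝓝 0) := by
    rw [NormedAddGroup.tendsto_nhds_zero]
    intro ε hε
    filter_upwards [hg.eventually (h ((ε / 2) ^ 2) (by positivity))] with n hn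
    have h2 := hn n rfl
    have h3 := (pow_le_pow_iff_left₀ (norm_nonneg _) (by positivity) two_ne_zero).1 h2
    linarith
  simpa using h1.add hb

theorem nrm_mul_le {ψ : E → F} (hψ : Sm U ψ) {χ : E → ℝ} (h01 : ∀ x, 0 ≤ χ x ∧ χ x ≤ 1) :
    nrm U (fun x => (χ x : ℂ) • ψ x) ≤ nrm U ψ := by
  refine integral_mono_of_nonneg (Eventually.of_forall fun x => by positivity)
    (Ga5Aux.integrable_sq hψ.memLp) (Eventually.of_forall fun x => ?_)
  refine pow_le_pow_left₀ (norm_nonneg _) ?_ 2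
  rw [norm_smul, Complex.norm_real, Real.norm_of_nonneg (h01 x).1]
  exact mul_le_of_le_one_left (norm_nonneg _) (h01 x).2

theorem wnrm_le {ψ : E → F} (hψ : Sm U ψ) {R : ℝ} (hR : ∀ x ∈ U, R < ‖x‖ → ψ x = 0) :
    wnrm U (fun x => ‖x‖ ^ 2) ψ ≤ R ^ 2 * nrm U ψ := by
  unfold wnrm nrm
  rw [← integral_const_mul]
  refine integral_mono_of_nonneg (Eventually.of_forall fun x => by positivity)
    ((Ga5Aux.integrable_sq hψ.memLp).const_mul _) (Eventually.of_forall fun x => ?_)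
  by_cases hx : R < ‖(x : E)‖
  · simp [hR x x.2 hx]
  · exact mul_le_mul_of_nonneg_right
      (pow_le_pow_left₀ (norm_nonneg _) (not_lt.1 hx) 2) (sq_nonneg _)

theorem nrm_le_cut {ψ : E → F} (hψ : Sm U ψ) {χ : E → ℝ} (hχ : ContDiff ℝ ∞ χ) {R : ℝ}
    (hR : 0 < R) (h1 : ∀ x, ‖x‖ ≤ R → χ x = 1) :
    nrm U ψ ≤ nrm U (fun x => (χ x : ℂ) • ψ x) + wnrm U (fun x => ‖x‖ ^ 2) ψ / R ^ 2 := by
  have i1 : Integrable fun x : U => ‖(χ x : ℂ) • ψ x‖ ^ 2 :=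
    Ga5Aux.integrable_sq (ψ := fun x => (χ x : ℂ) • ψ x) (hψ.mulR hχ).memLp
  have i2 : Integrable fun x : U => ‖(x : E)‖ ^ 2 * ‖ψ x‖ ^ 2 :=
    hψ.integrable_wnrm (w := fun x => ‖x‖ ^ 2) (by fun_prop)
  unfold wnrm nrm
  rw [← integral_div, ← integral_add i1 (i2.div_const _)]
  refine integral_mono_of_nonneg (Eventually.of_forall fun x => by positivity)
    (i1.add (i2.div_const _)) (Eventually.of_forall fun x => ?_)
  by_cases hx : ‖(x : E)‖ ≤ R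
  · simp only [h1 x hx, Complex.ofReal_one, one_smul, le_add_iff_nonneg_right]
    positivity
  · have h2 : R ^ 2 ≤ ‖(x : E)‖ ^ 2 := pow_le_pow_left₀ hR.le (not_le.1 hx).le 2
    have h3 : ‖ψ x‖ ^ 2 ≤ ‖(x : E)‖ ^ 2 * ‖ψ x‖ ^ 2 / R ^ 2 := by
      rw [le_div_iff₀ (by positivity), mul_comm]
      exact mul_le_mul_of_nonneg_right h2 (sq_nonneg _)
    exact h3.trans (le_add_of_nonneg_left (by positivity))

end Gen

variable {N d : ℕ} {F : Type} [NormedAddCommGroup F] [InnerProductSpace ℂ F]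
  [FiniteDimensional ℂ F] (c : Ctx N d F) {π π' π'' : Setoid (Fin N)}

theorem CS_self (π : Setoid (Fin N)) : c.CS (c.ss π) π = ⊥ := by
  unfold Ctx.CS
  rw [c.ss_inf_cen, sub_bot]

theorem smR_one (π : Setoid (Fin N)) : SmR (c.CS (c.ss π) π) (fun _ => 1) (c.Gen π π) := by
  refine ⟨contDiff_const, {0}, isCompact_singleton, ?_, ?_, fun x hx hx' => ?_⟩
  · rintro _ rfl a b h h'
    exact absurd h h'
  · rintro _ rfl
    exact Submodule.zero_mem _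
  · rw [CS_self, Submodule.mem_bot] at hx
    exact absurd hx hx'

theorem exists_eta (h_orb : c.S_orb) (h : π' ≤ π) : ∃ η,
    SmR (c.CS (c.ss π) π') η (c.Good π π') ∧
      (∫ y : c.CS (c.ss π) π', η y * gauss (c.CS (c.ss π) π') (Afree d) y) ≠ 0 := by
  obtain ⟨y, hy, hy'⟩ := h_orb.good π _ π' (c.Th_ss π) h
  obtain ⟨χ, hs, h01, h1⟩ := exists_SmR_one (U := c.CS (c.ss π) π') (isCompact_singleton (x := y))
    (c.isOpen_Good π π') (Set.singleton_subset_iff.2 hy')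
  refine ⟨χ, hs, ne_of_gt ?_⟩
  have hp : ∀ x, 0 < gauss (c.CS (c.ss π) π') (Afree d) x :=
    gauss_pos one_pos fun w _ => by rw [one_mul]; exact (Ctx.Afree_bounds w).2.2
  obtain ⟨hc, K, hK, -, hKC, h0⟩ := hs
  have hK' : IsCompact ((Subtype.val : c.CS (c.ss π) π' → Tn 9 d) ⁻¹' K) :=
    (Submodule.closed_of_finiteDimensional _).isClosedEmbedding_subtypeVal.isCompact_preimage hK
  refine Continuous.integral_pos_of_hasCompactSupport_nonneg_nonzero (x := ⟨y, hy⟩)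
    ((hc.continuous.mul (contDiff_gauss _ _).continuous).comp continuous_subtype_val)
    (HasCompactSupport.intro hK' fun x hx => ?_) (fun x => mul_nonneg (h01 x).1 (hp x).le) ?_
  · rw [h0 x x.2 hx, zero_mul]
  · have : χ y = 1 := by simpa using h1.self_of_nhdsSet y rfl
    simp only [this, one_mul]
    exact (hp y).ne'

theorem smR_hat (h_lm4 : c.S_lm4) {𝔞 : Submodule ℝ (Lg d)} (h : π' ≤ π) {η : Tn 9 d → ℝ}
    (hη : SmR (c.CS 𝔞 π') η (c.Good π π')) : SmR (c.CS 𝔞 π') (c.hatη π 𝔞 π' η) (c.Gen π π') :=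
  (h_lm4.hat π 𝔞 π' h η Set.univ (hη.mono fun _ _ hx => ⟨hx, trivial⟩)).mono
    fun _ _ hx => c.Good_subset_Gen π π' hx.1

theorem bdd_cut {g : ℕ → ℝ} {ψ : ℕ → Tn 9 d → F} (hg : Tendsto g atTop atTop) (hg1 : ∀ n, 1 ≤ g n)
    (hψ : ∀ n, ψ n ∈ c.D0 π) (hn : ∀ n, nrm (sub 9 (c.ss π)) (ψ n) = 1)
    (he : ∀ n, c.En (c.ss π) (g n) 1 (ψ n) ≤ 1) {χ : Tn 9 d → ℝ} (hχ : ContDiff ℝ ∞ χ)
    (hr : ∀ x y, ‖x‖ = ‖y‖ → χ x = χ y) (h01 : ∀ x, 0 ≤ χ x ∧ χ x ≤ 1) {R M : ℝ}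
    (h0 : ∀ x, R ≤ ‖x‖ → χ x = 0) (hd : ∀ x, ‖fderiv ℝ χ x‖ ≤ M) :
    c.Bdd π (c.ss π) g fun n x => (χ x : ℂ) • ψ n x := by
  have hM : 0 ≤ M := (norm_nonneg _).trans (hd 0)
  have hs : ∀ n, ∀ x ∈ sub 9 (c.ss π), R < ‖x‖ → (χ x : ℂ) • ψ n x = 0 := fun n x _ hx => by
    rw [h0 x hx.le, Complex.ofReal_zero, zero_smul]
  refine ⟨hg, hg1, fun n => c.mulR_mem_D (c.mem_D0.1 (hψ n)).1 hχ
    fun u _ x _ => hr _ _ (c.norm_Ad9 u x), ⟨R, hs⟩,
    1 + (2 * (18 * (M + 1) ^ 2) + 64 * R ^ 2), fun n => ?_⟩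
  have hS : Sm (sub 9 (c.ss π)) (ψ n) := (hψ n).1
  have h1 := (nrm_mul_le hS h01).trans (hn n).le
  have h2 : c.En (c.ss π) (g n) 1 (fun x => (χ x : ℂ) • ψ n x) ≤
      2 * (M + 1) ^ 2 * c.En (c.ss π) (g n) 1 (ψ n) +
        16 * 1 ^ 2 * (M + 1) ^ 2 * nrm (sub 9 (c.ss π)) (ψ n) :=
    c.car.en_mulR_le' 1 (fun α => c.contDiff_beta (g n) 1 (eb α)) (c.iso _ (g n) 1) hS hχ
      fun x _ _ => ⟨by rw [abs_of_nonneg (h01 x).1]; linarith [(h01 x).2], by linarith [hd x]⟩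
  have h3 := c.En_mass_le (c.ss π) (g n) 1 0 (hS.mulR hχ)
  have h4 := wnrm_le (hS.mulR hχ) (hs n)
  have h5 := mul_le_mul_of_nonneg_left h1 (sq_nonneg R)
  have h6 := mul_le_mul_of_nonneg_left (he n) (sq_nonneg (M + 1))
  rw [hn n] at h2
  linarith

theorem null_cut (h_lm4 : c.S_lm4) (h_lam : c.S_lam) (h_mul : c.S_mul) (h_conv : c.S_conv)
    (h : π' ≤ π) {g : ℕ → ℝ} {ψ : ℕ → Tn 9 d → F} (hψ : ∀ n, ψ n ∈ c.D0 π)
    (hn : ∀ n, nrm (sub 9 (c.ss π)) (ψ n) = 1) {χ : Tn 9 d → ℝ} (hχ : ContDiff ℝ ∞ χ)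
    (hB : c.Bdd π (c.ss π) g fun n x => (χ x : ℂ) • ψ n x)
    (hL : ∀ η, SmR (c.CS (c.ss π) π') η (c.Good π π') → ∀ β ∈ c.BK π π',
      Tendsto (fun n => c.Lamh π (c.ss π) π' (g n) (ψ n) η β) atTop (𝓝 0)) :
    c.Null π (c.ss π) π' g fun n x => (χ x : ℂ) • ψ n x := by
  refine h_conv π _ π' (c.Th_ss π) h g _ hB fun η hη β hβ => ?_
  refine tendsto_of_close hB.1 (P := fun t n => c.Lamh π (c.ss π) π' t
    (fun x => (χ x : ℂ) • ψ n x) η β) (hL _ (hη.mul' hχ) β hβ) fun ε hε => ?_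
  filter_upwards [h_mul π _ π' (c.Th_ss π) h _ (smR_hat c h_lm4 h hη) β χ hχ ε hε] with t ht n hnt
  have h1 := ht (ψ n) (c.mem_D0.1 (hψ n)).1
  rw [hn n, mul_one] at h1
  have h2 : c.Lam π (c.ss π) π' t (ψ n) (fun x => χ x * c.hatη π (c.ss π) π' η x) β =
      c.Lamh π (c.ss π) π' (g n) (ψ n) (fun x => χ x * η x) β := by
    rw [hnt]
    refine (h_lam.congrη π _ π' _ _ _ _ β fun y hy => ?_).1
    unfold Ctx.hatη
    rw [Submodule.starProjection_eq_self_iff.2 hy, mul_div_assoc]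
  rw [h2] at h1
  exact h1

theorem null_perm (h_lme : c.S_lme) {𝔞 : Submodule ℝ (Lg d)} (h𝔞 : c.Th π 𝔞) (h : π'' ≤ π)
    {w : Equiv.Perm (Fin N)} (hw : Maps π π' π'' w) {g : ℕ → ℝ} {ψ : ℕ → Tn 9 d → F}
    (hB : c.Bdd π 𝔞 g ψ) (hN : c.Null π 𝔞 π' g ψ) : c.Null π 𝔞 π'' g ψ := by
  intro η hη β hβ
  have h1 := hN _ ((h_lme.smr π 𝔞 π'' π' w⁻¹ h𝔞 hw.symm η _ hη).mono fun x _ hx => by
    rw [permU_inv, inv_inv] at hx
    exact (c.perm_mem_Gen hw x).1 hx) _ (c.act_mem_B hw.symm hβ)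
  refine h1.congr fun n => ?_
  exact h_lme.lam π 𝔞 π'' π' w⁻¹ h𝔞 h hw.symm _ (one_pos.trans_le (hB.2.1 n)) _ (hB.2.2.1 n) η β

theorem null_self (h_lam : c.S_lam) {g : ℕ → ℝ} {ψ : ℕ → Tn 9 d → F}
    (hg : Tendsto g atTop atTop) (hg1 : ∀ n, 1 ≤ g n) (hψ : ∀ n, ψ n ∈ c.D0 π)
    {χ : Tn 9 d → ℝ} {R : ℝ} (hR : 0 < R) (h1 : ∀ x, ‖x‖ ≤ R → χ x = 1) {ι : Type} [Fintype ι]
    (e : Module.Basis ι ℂ (c.V π 1 0))
    (hL : ∀ i, Tendsto (fun n => c.Lam π (c.ss π) π (g n) (ψ n) (fun _ => 1) (e i)) atTop (𝓝 0)) :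
    c.Null π (c.ss π) π g fun n x => (χ x : ℂ) • ψ n x := by
  classical
  intro η hη β hβ
  have hp : ∀ n, 0 < g n := fun n => one_pos.trans_le (hg1 n)
  have hlin := fun n => h_lam.linβ π _ π (c.Th_ss π) le_rfl _ (smR_one c π) _ (hp n) _ (hψ n).1
  have hsum : ∀ (z : ι → ℂ) (s : Finset ι), Tendsto (fun n => c.Lam π (c.ss π) π (g n) (ψ n)
      (fun _ => 1) (∑ i ∈ s, z i • (e i : LL (sub 9 (c.ss π)) F))) atTop (𝓝 0) := by
    intro z s
    induction s using Finset.induction_on with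
    | empty =>
      refine tendsto_const_nhds.congr fun n => ?_
      have := hlin n 0 0 1
      rw [smul_zero, add_zero, map_one, one_mul, left_eq_add] at this
      rw [Finset.sum_empty, this]
    | insert i s hi ih =>
      have := ih.add ((hL i).const_mul ((starRingEnd ℂ) (z i)))
      rw [mul_zero, add_zero] at this
      refine this.congr fun n => ?_
      rw [Finset.sum_insert hi, add_comm (z i • _), hlin n]
  have hV := c.P0_mem_V hβ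
  have hrep : opL _ (c.P0 (c.ss π)ᗮ) β =
      ∑ i, e.repr ⟨_, hV⟩ i • (e i : LL (sub 9 (c.ss π)) F) := by
    have := congrArg Subtype.val (e.sum_repr ⟨_, hV⟩)
    rw [Submodule.coe_sum] at this
    exact this.symm
  have h2 : Tendsto (fun n => c.Lam π (c.ss π) π (g n) (ψ n) (fun _ => 1) β) atTop (𝓝 0) := by
    refine (hsum (e.repr ⟨_, hV⟩) Finset.univ).congr fun n => ?_
    rw [← hrep, h_lam.P0 π π le_rfl _ (smR_one c π) _ (hp n) _ (hψ n)]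
  have h3 := h2.add (h2.const_mul ((η 0 - 1 : ℝ) : ℂ))
  rw [mul_zero, add_zero] at h3
  refine h3.congr' ?_
  filter_upwards [hg.eventually (h_lam.loc π (c.ss π) π {0} R hR)] with n hn
  rw [← h_lam.linη π _ π (c.Th_ss π) le_rfl _ (hp n) _ (hψ n).1 β _ _ (smR_one c π) (smR_one c π),
    (hn (fun x => (χ x : ℂ) • ψ n x) (ψ n) η β (fun y hy hy' => ?_) fun x _ y hy hxy => ?_).1]
  · refine (h_lam.congrη π _ π _ _ _ _ β fun y hy => ?_).1
    rw [CS_self, Submodule.mem_bot] at hy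
    rw [hy]
    ring
  · rw [CS_self, Submodule.mem_bot] at hy
    exact absurd hy hy'
  · rw [Set.mem_singleton_iff.1 hy, sub_zero] at hxy
    rw [h1 x hxy, Complex.ofReal_one, one_smul]

end UpAux

namespace Ctx

variable {N d : ℕ} {F : Type} [NormedAddCommGroup F] [InnerProductSpace ℂ F]
  [FiniteDimensional ℂ F] (c : Ctx N d F)

open UpAux in
theorem p_up (h_lme : c.S_lme) (h_lm4 : c.S_lm4) (h_orb : c.S_orb) (h_lam : c.S_lam)
    (h_my2 : c.S_my2) (h_mul : c.S_mul) (h_amp1 : c.S_amp1) (h_conv : c.S_conv)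
    (h_cc : c.S_cc) : c.S_up := by
  classical
  intro π R hR h1 hfd a ha
  by_contra hlt
  rw [not_le] at hlt
  have hle : ∀ p : R.erase π, p.1 ≤ π := fun p => hR.1 _ (Finset.mem_of_mem_erase p.2)
  have hβ : ∀ p : R.erase π, ∃ β₀ ∈ c.V p.1 1 0, ∀ β ∈ c.V p.1 1 0, ∃ z : ℂ, β = z • β₀ := by
    intro p
    obtain ⟨v, -, hv⟩ := finrank_eq_one_iff'.1
      (h1 p.1 (lt_of_le_of_ne (hle p) (Finset.ne_of_mem_erase p.2)))
    refine ⟨v, v.2, fun β hβ => ?_⟩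
    obtain ⟨z, hz⟩ := hv ⟨β, hβ⟩
    exact ⟨z, (congrArg Subtype.val hz).symm⟩
  choose β₀ hβ₀ hsp using hβ
  choose η₁ hη₁ hint using fun p : R.erase π => exists_eta c h_orb (hle p)
  let e := Module.finBasis ℂ (c.V π 1 0)
  let g : ℕ → ℝ := fun n => n + 1
  have hg1 : ∀ n, 1 ≤ g n := fun n => le_add_of_nonneg_left (Nat.cast_nonneg n)
  have hp : ∀ n, 0 < g n := fun n => one_pos.trans_le (hg1 n)
  have hg : Tendsto g atTop atTop := tendsto_atTop_add_const_right _ _ tendsto_natCast_atTop_atTop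
  let L : ℕ → Fin (Module.finrank ℂ (c.V π 1 0)) ⊕ R.erase π → (Tn 9 d → F) → ℂ := fun n =>
    Sum.elim (fun i φ => c.Lam π (c.ss π) π (g n) φ (fun _ => 1) (e i))
      fun p φ => c.Lamh π (c.ss π) p.1 (g n) φ (η₁ p) (β₀ p)
  have hex : ∀ n, ∃ φ ∈ c.D0 π, nrm (sub 9 (c.ss π)) φ = 1 ∧
      c.En (c.ss π) (g n) 1 φ ≤ 1 / (n + 1) ∧ ∀ i, ‖L n i φ‖ ≤ 1 / (n + 1) := by
    intro n
    refine crit_upper (fun α => c.contDiff_beta (g n) 1 (eb α)) ?_ ?_ ?_ (by positivity)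
    · rintro (i | p) φ hφ ψ hψ z
      · exact h_lam.linOn π _ π (c.Th_ss π) le_rfl _ (smR_one c π) _ (hp n) _ φ ψ hφ.1 hψ.1 z
      · exact h_lam.linOn π _ p.1 (c.Th_ss π) (hle p) _ (smR_hat c h_lm4 (hle p) (hη₁ p)) _ (hp n)
          _ φ ψ hφ.1 hψ.1 z
    · rintro (i | p)
      · obtain ⟨B, hB⟩ := h_lam.bdd π _ π (c.Th_ss π) le_rfl _ (smR_one c π) _ (hp n) (e i)
        exact ⟨B, fun φ hφ => hB φ hφ.1⟩
      · obtain ⟨B, hB⟩ := h_lam.bdd π _ p.1 (c.Th_ss π) (hle p) _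
          (smR_hat c h_lm4 (hle p) (hη₁ p)) _ (hp n) (β₀ p)
        exact ⟨B, fun φ hφ => hB φ hφ.1⟩
    · have := ha (g n) (hp n)
      unfold V at this
      rw [this, Fintype.card_sum, Fintype.card_fin, Fintype.card_coe,
        Finset.card_erase_of_mem hR.self_mem]
      exact hlt
  choose ψ hψ hn he hL using hex
  have h0 : Tendsto (fun n : ℕ => 1 / ((n : ℝ) + 1)) atTop (𝓝 0) :=
    tendsto_one_div_add_atTop_nhds_zero_nat
  have hL0 : ∀ i, Tendsto (fun n => L n i (ψ n)) atTop (𝓝 0) := fun i =>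
    squeeze_zero_norm (fun n => hL n i) h0
  have he0 : Tendsto (fun n => c.En (c.ss π) (g n) 1 (ψ n)) atTop (𝓝 0) :=
    squeeze_zero (fun n => en_nonneg _ _ _ _) he h0
  have he1 : ∀ n, c.En (c.ss π) (g n) 1 (ψ n) ≤ 1 := fun n =>
    (he n).trans ((div_le_one (hp n)).2 (hg1 n))
  obtain ⟨K, hK⟩ := h_my2
  obtain ⟨M, hM⟩ := exists_cutoff (Tn 9 d)
  have hr : 0 < 4 * |K| + 1 := by positivity
  obtain ⟨χ, hχ, hrad, h01, hone, hzero, hd⟩ := hM _ hr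
  have hB := bdd_cut c hg hg1 hψ hn he1 hχ hrad h01 hzero hd
  have hnull : ∀ π' ≤ π, c.Null π (c.ss π) π' g fun n x => (χ x : ℂ) • ψ n x := by
    intro π' hπ'
    obtain ⟨π₀, hπ₀, w, hw⟩ := hR.2.1 π' hπ'
    refine null_perm c h_lme (c.Th_ss π) hπ' hw hB ?_
    by_cases h : π₀ = π
    · rw [h]
      exact null_self c h_lam hg hg1 hψ hr hone e fun i => hL0 (Sum.inl i)
    · let p : R.erase π := ⟨π₀, Finset.mem_erase.2 ⟨h, hπ₀⟩⟩
      exact null_cut c h_lm4 h_lam h_mul h_conv (hle p) hψ hn hχ hB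
        (h_amp1 π p.1 (hle p) (β₀ p) (hβ₀ p) (hsp p) (η₁ p) (hη₁ p) (hint p) g ψ hg hψ
          ⟨1, fun n => (hn n).le⟩ he0 (hL0 (Sum.inr p)))
  have hlim := h_cc π _ (c.Th_ss π) g _ hB hnull
  obtain ⟨n, hn1, hn2⟩ := ((hlim.eventually (gt_mem_nhds one_half_pos)).and (hg.eventually hK)).exists
  have h2 := hn2 π _ (c.Th_ss π) (ψ n) (hψ n).1
  have h3 := nrm_le_cut (hψ n).1 hχ hr hone
  have h4 : K * c.NE (c.ss π) (g n) 1 (ψ n) ≤ 2 * |K| := by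
    have h5 : 0 ≤ c.En (c.ss π) (g n) 1 (ψ n) := en_nonneg _ _ _ _
    have h6 := he1 n
    unfold NE
    rw [hn n]
    nlinarith [le_abs_self K, abs_nonneg K]
  have h7 : wnrm (sub 9 (c.ss π)) (fun x => ‖x‖ ^ 2) (ψ n) / (4 * |K| + 1) ^ 2 ≤ 1 / 2 := by
    rw [div_le_iff₀ (by positivity)]
    nlinarith [abs_nonneg K]
  rw [hn n] at h3
  linarith

end Ctx

end Vale.Agent.P353
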