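import Vale.Agent.P353.WibAux1

/-! The first order term in the duality estimate. -/

noncomputable section

open MeasureTheory Filter Topology Complex Matrix
open scoped ContDiff RealInnerProductSpace

namespace Vale.Agent.P353

namespace WibAux

variable {E : Type} [NormedAddCommGroup E] [InnerProductSpace ℝ E] [FiniteDimensional ℝ E]
  [MeasurableSpace E] [BorelSpace E]
variable {F : Type} [NormedAddCommGroup F] [InnerProductSpace ℂ F] [FiniteDimensional ℂ F]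
variable {U U₁ U₂ : Submodule ℝ E}

omit [MeasurableSpace E] [BorelSpace E] in
theorem proj_add (h : U₁ ⟂ U₂) {X W : E} (hX : X ∈ U₁) (hW : W ∈ U₂) :
    U₁.starProjection (X + W) = X ∧ U₂.starProjection (X + W) = W := by
  rw [map_add, map_add, Submodule.starProjection_eq_self_iff.2 hX,
    Submodule.starProjection_eq_self_iff.2 hW,
    (Submodule.starProjection_apply_eq_zero_iff _).2 (h.symm hW),
    (Submodule.starProjection_apply_eq_zero_iff _).2 (h hX), add_zero, zero_add]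
  exact ⟨rfl, rfl⟩

theorem int_slice {ψ : E → F} (hψ : Sm (U₁ ⊔ U₂) ψ) {X : E} (hX : X ∈ U₁) :
    Integrable fun W : U₂ => ‖ψ (X + W)‖ ^ 2 := by
  have s : HasCompactSupport fun x : ↥(U₁ ⊔ U₂) => ‖ψ x‖ ^ 2 :=
    hψ.2.mono fun x hx h0 => hx (by simp [show ψ x = 0 from h0])
  exact Continuous.integrable_of_hasCompactSupport
    ((hψ.1.continuous.comp (continuous_const.add continuous_subtype_val)).norm.pow 2)
    (hasCompactSupport_slice le_sup_right (f := fun x => ‖ψ x‖ ^ 2) s (Submodule.mem_sup_left hX))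

theorem int_jS (h : U₁ ⟂ U₂) {ψ : E → F} (hψ : Sm (U₁ ⊔ U₂) ψ) {j : E → ℝ} (hj : Continuous j) :
    Integrable fun X : U₁ => j X * ∫ W : U₂, ‖ψ (X + W)‖ ^ 2 := by
  have h1 := integrable_integral_sup h rfl (f := fun x => j (U₁.starProjection x) * ‖ψ x‖ ^ 2)
    (hψ.integrable_wnrm (hj.comp U₁.starProjection.continuous).continuousOn)
  refine h1.congr (Eventually.of_forall fun X => ?_)
  simp only [fun W : U₂ => (proj_add h X.2 W.2).1]
  rw [integral_const_mul]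

omit [FiniteDimensional ℝ E] [MeasurableSpace E] [BorelSpace E] in
theorem bd_compact {V : Type} [NormedAddCommGroup V] [NormedSpace ℝ V] {K : Set E}
    (hK : IsCompact K) {f : E → V} (hf : ∀ X ∈ K, ContDiffAt ℝ ∞ f X) :
    ∃ C, 0 ≤ C ∧ ∀ X ∈ K, ‖f X‖ ≤ C ∧ ‖fderiv ℝ f X‖ ≤ C := by
  obtain ⟨C₁, h1⟩ := hK.exists_bound_of_continuousOn (f := f)
    fun X hX => (hf X hX).continuousAt.continuousWithinAt
  obtain ⟨C₂, h2⟩ := hK.exists_bound_of_continuousOn (f := fderiv ℝ f)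
    fun X hX => ((hf X hX).fderiv_right (m := 0) (by simp)).continuousAt.continuousWithinAt
  exact ⟨|C₁| + |C₂|, by positivity, fun X hX =>
    ⟨by linarith [h1 X hX, le_abs_self C₁, abs_nonneg C₂],
      by linarith [h2 X hX, le_abs_self C₂, abs_nonneg C₁]⟩⟩

/-- derivative of the Gaussian in the slow variables -/
theorem dG_le (U : Submodule ℝ E) {a : ℝ} (ha : 0 < a) (M : ℝ) : ∃ K : ℝ, 0 ≤ K ∧
    ∀ (A : E → E →L[ℝ] E) (X : E), DifferentiableAt ℝ A X →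
      (∀ w ∈ U, a * ‖w‖ ^ 2 ≤ ⟪w, A X w⟫) → ‖A X‖ ≤ M → ∀ g > 0, ∀ W k : E,
      DifferentiableAt ℝ (fun Y => gauss U (g • A Y) W) X ∧
      |fderiv ℝ (fun Y => gauss U (g • A Y) W) X k| ≤
        K * ‖fderiv ℝ A X k‖ * (1 + g * ‖W‖ ^ 2) * gauss U (g • A X) W := by
  obtain ⟨K, hK⟩ := gauss_moment U ha M 1
  refine ⟨|K| + 1, by positivity, fun A X hd hA hM g hg W k => ?_⟩
  obtain ⟨h1, h2⟩ := fderiv_gauss_form (mul_pos hg ha) (pos_smul hg hA) (g • fderiv ℝ A X k) W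
  have h3 : HasFDerivAt (fun Y => g • A Y) (g • fderiv ℝ A X) X := hd.hasFDerivAt.const_smul g
  have h4 := HasFDerivAt.comp X (f := fun Y => g • A Y) h1.hasFDerivAt h3
  have h5 : (fun Y => gauss U (g • A Y) W) =
      (fun A' : E →L[ℝ] E => gauss U A' W) ∘ fun Y => g • A Y := rfl
  refine ⟨h4.differentiableAt, ?_⟩
  rw [h5, h4.fderiv, ContinuousLinearMap.comp_apply, ContinuousLinearMap.smul_apply, h2]
  generalize fderiv ℝ A X k = B
  have hG := gauss_nonneg U (g • A X) W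
  have h6 : ∀ y : E, |⟪y, (g • B) y⟫| ≤ ‖B‖ * (g * ‖y‖ ^ 2) := fun y => by
    rw [ContinuousLinearMap.smul_apply, real_inner_smul_right, abs_mul, abs_of_pos hg]
    have := GauAux.abs_inner_le y B
    calc g * |⟪y, B y⟫| ≤ g * (‖B‖ * ‖y‖ ^ 2) := by gcongr
      _ = _ := by ring
  have h7 : |∫ y : U, gauss U (g • A X) y ^ 2 * ⟪(y : E), (g • B) y⟫| ≤ ‖B‖ * |K| := by
    have h8 := norm_integral_le_of_norm_le
      (f := fun y : U => gauss U (g • A X) y ^ 2 * ⟪(y : E), (g • B) y⟫)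
      ((integrable_mom ha hg hA 1).const_mul ‖B‖) (Eventually.of_forall fun y => by
        rw [norm_mul, Real.norm_of_nonneg (sq_nonneg _), Real.norm_eq_abs, pow_one]
        have := h6 y
        calc _ ≤ gauss U (g • A X) y ^ 2 * (‖B‖ * (g * ‖(y : E)‖ ^ 2)) := by gcongr
          _ = _ := by ring)
    rw [integral_const_mul] at h8
    exact h8.trans (mul_le_mul_of_nonneg_left ((hK _ hA hM g hg).trans (le_abs_self K))
      (norm_nonneg _))
  rw [abs_mul, abs_of_nonneg hG]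
  refine mul_le_mul_of_nonneg_right ?_ hG
  have h8 := h6 W
  have hw : 0 ≤ g * ‖W‖ ^ 2 := by positivity
  rw [abs_div, abs_two]
  have h9 := (abs_sub _ _).trans (add_le_add h7 h8)
  have hB := norm_nonneg B
  have hK0 := abs_nonneg K
  nlinarith [mul_nonneg hB hK0, mul_nonneg hB hw, mul_nonneg (mul_nonneg hB hK0) hw]

omit [FiniteDimensional ℝ E] [MeasurableSpace E] [BorelSpace E] [FiniteDimensional ℂ F] in
theorem prod_le {G : E → ℝ} {u : E → E →L[ℝ] ℝ} {T : E → F →L[ℝ] F} {φ : E → F} {X W k : E}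
    (hG : DifferentiableAt ℝ G X) (hu : DifferentiableAt ℝ u X) (hT : DifferentiableAt ℝ T X)
    (hφ : DifferentiableAt ℝ φ X) {C p q : ℝ} (hC : 0 ≤ C) (hp : 1 ≤ p) (hG0 : 0 ≤ G X)
    (h1 : |fderiv ℝ G X k| ≤ C * ‖k‖ * p * G X) (h2 : ‖u X‖ ≤ C ∧ ‖fderiv ℝ u X‖ ≤ C)
    (h3 : ‖T X‖ ≤ C ∧ ‖fderiv ℝ T X‖ ≤ C) (h4 : ‖fderiv ℝ φ X k‖ ≤ ‖k‖ * q) (hq : 0 ≤ q) :
    DifferentiableAt ℝ (fun Y => (G Y * u Y W) • T Y (φ Y)) X ∧
    ‖fderiv ℝ (fun Y => (G Y * u Y W) • T Y (φ Y)) X k‖ ≤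
      C ^ 2 * (C + 2) * ‖k‖ * (G X * ‖W‖ * p) * (‖φ X‖ + q) := by
  have d1 := hu.hasFDerivAt.clm_apply (hasFDerivAt_const W X)
  have d2 := hT.hasFDerivAt.clm_apply hφ.hasFDerivAt
  have d3 := (hG.hasFDerivAt.fun_mul d1).fun_smul d2
  refine ⟨d3.differentiableAt, ?_⟩
  have e : fderiv ℝ (fun Y => (G Y * u Y W) • T Y (φ Y)) X k =
      (G X * u X W) • (T X (fderiv ℝ φ X k) + fderiv ℝ T X k (φ X)) +
        (G X * fderiv ℝ u X k W + u X W * fderiv ℝ G X k) • T X (φ X) := by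
    rw [d3.fderiv]
    simp
  have hk := norm_nonneg k
  have hW := norm_nonneg W
  have hf := norm_nonneg (φ X)
  have b1 : |u X W| ≤ C * ‖W‖ := ((u X).le_opNorm W).trans (by gcongr; exact h2.1)
  have b2 : |fderiv ℝ u X k W| ≤ C * ‖k‖ * ‖W‖ :=
    ((fderiv ℝ u X).le_opNorm₂ k W).trans (by gcongr; exact h2.2)
  have b3 : ‖T X (φ X)‖ ≤ C * ‖φ X‖ := ((T X).le_opNorm _).trans (by gcongr; exact h3.1)
  have b4 : ‖T X (fderiv ℝ φ X k)‖ ≤ C * (‖k‖ * q) :=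
    ((T X).le_opNorm _).trans (by gcongr; exact h3.1)
  have b5 : ‖fderiv ℝ T X k (φ X)‖ ≤ C * ‖k‖ * ‖φ X‖ :=
    ((fderiv ℝ T X).le_opNorm₂ k _).trans (by gcongr; exact h3.2)
  have b6 : ‖(G X * u X W) • (T X (fderiv ℝ φ X k) + fderiv ℝ T X k (φ X))‖ ≤
      G X * (C * ‖W‖) * (C * (‖k‖ * q) + C * ‖k‖ * ‖φ X‖) := by
    rw [norm_smul, Real.norm_eq_abs, abs_mul, abs_of_nonneg hG0]
    have := (norm_add_le _ _).trans (add_le_add b4 b5)
    gcongr
  have b7 : ‖(G X * fderiv ℝ u X k W + u X W * fderiv ℝ G X k) • T X (φ X)‖ ≤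
      (G X * (C * ‖k‖ * ‖W‖) + C * ‖W‖ * (C * ‖k‖ * p * G X)) * (C * ‖φ X‖) := by
    rw [norm_smul, Real.norm_eq_abs]
    have : |G X * fderiv ℝ u X k W + u X W * fderiv ℝ G X k| ≤
        G X * (C * ‖k‖ * ‖W‖) + C * ‖W‖ * (C * ‖k‖ * p * G X) := by
      refine (abs_add_le _ _).trans ?_
      rw [abs_mul, abs_mul, abs_of_nonneg hG0]
      gcongr
    gcongr
  rw [e]
  refine ((norm_add_le _ _).trans (add_le_add b6 b7)).trans ?_
  have hs : 0 ≤ C ^ 2 * ‖k‖ * (G X * ‖W‖) := by positivity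
  have e2 : G X * (C * ‖W‖) * (C * (‖k‖ * q) + C * ‖k‖ * ‖φ X‖) +
      (G X * (C * ‖k‖ * ‖W‖) + C * ‖W‖ * (C * ‖k‖ * p * G X)) * (C * ‖φ X‖) =
      C ^ 2 * ‖k‖ * (G X * ‖W‖) * (q + 2 * ‖φ X‖ + C * p * ‖φ X‖) := by ring
  have e3 : C ^ 2 * (C + 2) * ‖k‖ * (G X * ‖W‖ * p) * (‖φ X‖ + q) =
      C ^ 2 * ‖k‖ * (G X * ‖W‖) * ((C + 2) * p * (‖φ X‖ + q)) := by ring
  rw [e2, e3]
  refine mul_le_mul_of_nonneg_left ?_ hs
  have hp0 : 0 ≤ p := zero_le_one.trans hp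
  nlinarith [mul_nonneg (mul_nonneg hC hp0) hq, mul_le_mul_of_nonneg_right hp hf,
    mul_le_mul_of_nonneg_right hp hq]

theorem num_B {C G n f q g : ℝ} (hg : 0 < g) (hq : 0 ≤ q) :
    (C * (G * n * (1 + g * n ^ 2)) * (f + √q)) ^ 2 ≤
      2 * C ^ 2 * ((f ^ 2 + q) / g) * ((1 + g * n ^ 2) ^ 3 * G ^ 2) := by
  have h1 : (f + √q) ^ 2 ≤ 2 * (f ^ 2 + q) := by
    nlinarith [sq_nonneg (f - √q), Real.sq_sqrt hq]
  have h2 : n ^ 2 ≤ (1 + g * n ^ 2) / g := by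
    rw [le_div_iff₀ hg]; linarith
  have h3 : 0 ≤ 1 + g * n ^ 2 := by positivity
  calc (C * (G * n * (1 + g * n ^ 2)) * (f + √q)) ^ 2
      = C ^ 2 * G ^ 2 * (1 + g * n ^ 2) ^ 2 * n ^ 2 * (f + √q) ^ 2 := by ring
    _ ≤ C ^ 2 * G ^ 2 * (1 + g * n ^ 2) ^ 2 * ((1 + g * n ^ 2) / g) * (2 * (f ^ 2 + q)) := by
      gcongr
    _ = _ := by ring

/-- the first order term -/
theorem bdB (h : U₁ ⟂ U₂) {K : Set E} (hK : IsCompact K) {A : E → E →L[ℝ] E}
    (hA : ∀ X ∈ K, ContDiffAt ℝ ∞ A X) {a M : ℝ} (ha : 0 < a)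
    (hAu : ∀ X ∈ K, ‖A X‖ ≤ M ∧ ∀ W ∈ U₂, a * ‖W‖ ^ 2 ≤ ⟪W, A X W⟫)
    (hG : ∀ g : ℝ, 0 < g → ∀ X ∈ K, ∀ W,
      ContDiffAt ℝ ∞ (fun p : E × E => gauss U₂ (g • A p.1) p.2) (X, W))
    {u : E → E →L[ℝ] ℝ} (hu : ∀ X ∈ K, ContDiffAt ℝ ∞ u X) {T : E → F →L[ℝ] F}
    (hT : ∀ X ∈ K, ContDiffAt ℝ ∞ T X) {j : E → ℝ} (hj : Continuous j) (hj0 : ∀ X, 0 ≤ j X)
    {j₀ : ℝ} (hj₀ : 0 < j₀) (hjK : ∀ X ∈ K, j₀ ≤ j X) {k : E} (hk : k ∈ U₁) :
    ∃ C : ℝ, 0 ≤ C ∧ ∀ g > 0, ∀ φ, Sm U₁ φ → (∀ X ∈ U₁, X ∉ K → φ X = 0) →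
      ∀ ψ, Sm (U₁ ⊔ U₂) ψ →
      (∀ X : U₁, Integrable fun W : U₂ =>
        inner ℂ ((gauss U₂ (g • A X) W * u X W) • T X (φ X)) (fderiv ℝ ψ (X + W) k)) ∧
      (Integrable fun X : U₁ => ∫ W : U₂,
        inner ℂ ((gauss U₂ (g • A X) W * u X W) • T X (φ X)) (fderiv ℝ ψ (X + W) k)) ∧
      ‖∫ X : U₁, ∫ W : U₂,
        inner ℂ ((gauss U₂ (g • A X) W * u X W) • T X (φ X)) (fderiv ℝ ψ (X + W) k)‖ ≤
        C * (√((nrm U₁ φ + grad U₁ φ) / g) * √(∫ X : U₁, j X * ∫ W : U₂, ‖ψ (X + W)‖ ^ 2)) := by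
  obtain ⟨C₁, hC₁, b₁⟩ := bd_compact hK hA
  obtain ⟨C₂, hC₂, b₂⟩ := bd_compact hK hu
  obtain ⟨C₃, hC₃, b₃⟩ := bd_compact hK hT
  obtain ⟨K₁, hK₁, d₁⟩ := dG_le U₂ ha M
  obtain ⟨K₃, hK₃, m₃⟩ := mom3 U₂ ha M
  obtain ⟨C, hC⟩ : ∃ C, C = K₁ * C₁ + C₂ + C₃ := ⟨_, rfl⟩
  have hC0 : 0 ≤ C := by rw [hC]; positivity
  have hKC : 0 ≤ K₁ * C₁ := by positivity
  obtain ⟨C', hC'⟩ : ∃ C', C' = C ^ 2 * (C + 2) * ‖k‖ := ⟨_, rfl⟩
  refine ⟨√(2 * C' ^ 2 * K₃ / j₀), Real.sqrt_nonneg _, fun g hg φ hφ hs ψ hψ => ?_⟩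
  obtain ⟨Φ, hΦ⟩ : ∃ Φ : E → E → F,
    Φ = fun X W => (gauss U₂ (g • A X) W * u X W) • T X (φ X) := ⟨_, rfl⟩
  obtain ⟨Ξ, hΞ⟩ : ∃ Ξ : E → F,
    Ξ = fun x => Φ (U₁.starProjection x) (U₂.starProjection x) := ⟨_, rfl⟩
  have hz : ∀ x, U₁.starProjection x ∉ K → Ξ =ᶠ[𝓝 x] fun _ => 0 := by
    intro x hx
    have h1 : ∀ᶠ z in 𝓝 x, U₁.starProjection z ∉ K :=
      U₁.starProjection.continuous.continuousAt.eventually (hK.isClosed.isOpen_compl.mem_nhds hx)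
    filter_upwards [h1] with z hz
    simp only [hΞ, hΦ]
    rw [hs _ (U₁.starProjection_apply_mem z) hz, map_zero, smul_zero]
  have hsm : ContDiff ℝ 1 Ξ := by
    refine contDiff_iff_contDiffAt.2 fun x => ?_
    by_cases hx : U₁.starProjection x ∈ K
    · have p1 : ContDiffAt ℝ ∞ (fun z => U₁.starProjection z) x :=
        U₁.starProjection.contDiff.contDiffAt
      have p2 : ContDiffAt ℝ ∞ (fun z => U₂.starProjection z) x :=
        U₂.starProjection.contDiff.contDiffAt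
      have q1 := ContDiffAt.comp x (f := fun z => (U₁.starProjection z, U₂.starProjection z))
        (hG g hg _ hx (U₂.starProjection x)) (p1.prodMk p2)
      have q2 := (ContDiffAt.comp x (f := fun z => U₁.starProjection z) (hu _ hx) p1).clm_apply p2
      have q3 := (ContDiffAt.comp x (f := fun z => U₁.starProjection z) (hT _ hx) p1).clm_apply
        (ContDiffAt.comp x (f := fun z => U₁.starProjection z) hφ.1.contDiffAt p1)
      rw [hΞ, hΦ]
      exact ((q1.mul q2).smul q3).of_le (by simp)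
    · exact contDiffAt_const.congr_of_eventuallyEq (hz x hx)
  have hev : ∀ X ∈ U₁, ∀ W ∈ U₂, Ξ (X + W) = Φ X W := fun X hX W hW => by
    simp only [hΞ, (proj_add h hX hW).1, (proj_add h hX hW).2]
  obtain ⟨i1, i2, i3⟩ := ibp h hsm hψ hk
  simp only [fun (X : U₁) (W : U₂) => hev X X.2 W W.2, hΦ] at i1 i2 i3
  refine ⟨i1, i2, ?_⟩
  rw [i3, norm_neg]
  have j1 : Integrable fun X : U₁ => ‖φ X‖ ^ 2 := by
    simpa using hφ.integrable_wnrm (w := fun _ => 1) continuousOn_const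
  have j2 : Integrable fun X : U₁ => gsq U₁ φ X := by
    simpa using hφ.integrable_wgsq (w := fun _ => 1) continuousOn_const
  have j3 : Integrable fun X : U₁ => 2 * C' ^ 2 * K₃ / j₀ * ((‖φ X‖ ^ 2 + gsq U₁ φ X) / g) :=
    ((j1.add j2).div_const g).const_mul _
  have hq := gsq_nonneg U₁ φ
  refine (cs_norm j3 (int_jS h hψ hj) (fun X => by have := hq X; positivity)
    (fun X => mul_nonneg (hj0 X) (integral_nonneg fun W => by positivity)) fun X => ?_).trans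
    (le_of_eq ?_)
  · by_cases hX : (X : E) ∈ K
    · obtain ⟨m1, m2⟩ := m₃ (A X) (hAu X hX).2 (hAu X hX).1 g hg
      have hqX := hq X
      refine (cs_norm (m1.const_mul (2 * C' ^ 2 * ((‖φ X‖ ^ 2 + gsq U₁ φ X) / g)))
        (int_slice hψ X.2) (fun W => by positivity) (fun W => by positivity) fun W => ?_).trans ?_
      · rw [Real.sqrt_sq (norm_nonneg _)]
        refine (norm_inner_le_norm _ _).trans (mul_le_mul_of_nonneg_right ?_ (norm_nonneg _))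
        refine (le_abs_self _).trans (Real.abs_le_sqrt ?_)
        refine le_trans ?_ (num_B hg hqX)
        refine pow_le_pow_left₀ (norm_nonneg _) ?_ 2
        obtain ⟨g1, g2⟩ := d₁ A X ((hA X hX).differentiableAt (by simp)) (hAu X hX).2
          (hAu X hX).1 g hg W k
        have hG0 := gauss_nonneg U₂ (g • A X) W
        have hw : 0 ≤ g * ‖(W : E)‖ ^ 2 := by positivity
        obtain ⟨p1, p2⟩ := prod_le (W := (W : E)) (k := k) (C := C) (p := 1 + g * ‖(W : E)‖ ^ 2)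
          (q := √(gsq U₁ φ X)) g1 ((hu X hX).differentiableAt (by simp))
          ((hT X hX).differentiableAt (by simp)) (hφ.1.differentiable (by simp) X) hC0
          (by linarith) hG0 (g2.trans (by
            have e1 : ‖fderiv ℝ A X k‖ ≤ C₁ * ‖k‖ :=
              ((fderiv ℝ A X).le_opNorm k).trans (by gcongr; exact (b₁ X hX).2)
            have e2 : K₁ * ‖fderiv ℝ A X k‖ ≤ C * ‖k‖ :=
              calc _ ≤ K₁ * (C₁ * ‖k‖) := by gcongr
                _ = K₁ * C₁ * ‖k‖ := by ring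
                _ ≤ _ := by gcongr; linarith
            gcongr))
          ⟨by linarith [(b₂ X hX).1], by linarith [(b₂ X hX).2]⟩
          ⟨by linarith [(b₃ X hX).1], by linarith [(b₃ X hX).2]⟩
          (by
            rw [← Real.sqrt_sq (norm_nonneg k), ← Real.sqrt_mul (sq_nonneg _)]
            exact (le_abs_self _).trans (Real.abs_le_sqrt (norm_fderiv_sq_le φ X hk)))
          (Real.sqrt_nonneg _)
        rw [← hC'] at p2
        refine le_trans (le_of_eq ?_) p2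
        rw [← fderiv_comp_add_right]
        refine congrArg norm (fderiv_congr_on ?_ p1 X.2 hk (Eventually.of_forall fun z hz => ?_))
        · exact (hsm.differentiable one_ne_zero _).comp (X : E) (differentiableAt_id.add_const _)
        · rw [hev z hz W W.2, hΦ]
      · rw [integral_const_mul, ← Real.sqrt_mul (by positivity), ← Real.sqrt_mul (by positivity)]
        refine Real.sqrt_le_sqrt ?_
        have hS : 0 ≤ ∫ W : U₂, ‖ψ (X + W)‖ ^ 2 := integral_nonneg fun W => by positivity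
        have hjj : 1 ≤ j X / j₀ := (one_le_div hj₀).2 (hjK X hX)
        calc _ ≤ 2 * C' ^ 2 * ((‖φ X‖ ^ 2 + gsq U₁ φ X) / g) * K₃ *
              (j X / j₀ * ∫ W : U₂, ‖ψ (X + W)‖ ^ 2) := by
              gcongr
              exact le_mul_of_one_le_left hS hjj
          _ = _ := by ring
    · have h0 : ∀ W : U₂, fderiv ℝ Ξ (X + W) = 0 := fun W => by
        rw [(hz _ (by rwa [(proj_add h X.2 W.2).1])).fderiv_eq]
        simp
      simp only [h0, ContinuousLinearMap.zero_apply, inner_zero_left, integral_zero, norm_zero]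
      positivity
  · rw [integral_const_mul, integral_div, integral_add j1 j2, Real.sqrt_mul (by positivity),
      mul_assoc, nrm, grad]

end WibAux

end Vale.Agent.P353
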