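import Vale.Agent.P353.Stmts
import Vale.Agent.P353.WibAux2

/-! The first order term in the model. -/

noncomputable section

open MeasureTheory Filter Topology Complex Matrix
open scoped ContDiff RealInnerProductSpace

namespace Vale.Agent.P353

namespace WibAux

theorem bdSum {X W ι κ F : Type} [MeasurableSpace X] [MeasurableSpace W] {μ : Measure X}
    {ν : Measure W} [Fintype ι] [Fintype κ] [NormedAddCommGroup F] [InnerProductSpace ℂ F]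
    [CompleteSpace F] {f : ι → κ → X → W → ℂ} {C : ι → κ → ℝ} {B : ℝ}
    (h1 : ∀ a k x, Integrable (f a k x) ν) (h2 : ∀ a k, Integrable (fun x => ∫ w, f a k x w ∂ν) μ)
    (h3 : ∀ a k, ‖∫ x, ∫ w, f a k x w ∂ν ∂μ‖ ≤ C a k * B) {φ : X → F} {r : X → W → F}
    (hr : ∀ x, Integrable (r x) ν) (he : ∀ x w, inner ℂ (φ x) (r x w) = ∑ a, ∑ k, -I * f a k x w) :
    Integrable (fun x => inner ℂ (φ x) (∫ w, r x w ∂ν)) μ ∧
      ‖∫ x, inner ℂ (φ x) (∫ w, r x w ∂ν) ∂μ‖ ≤ (∑ a, ∑ k, C a k) * B := by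
  have key : ∀ x, inner ℂ (φ x) (∫ w, r x w ∂ν) = ∑ a, ∑ k, -I * ∫ w, f a k x w ∂ν := by
    intro x
    rw [← integral_inner (hr x)]
    simp only [he, ← integral_const_mul]
    rw [integral_finsetSum _ fun a _ =>
      integrable_finsetSum _ fun k _ => (h1 a k x).const_mul (-I)]
    exact Finset.sum_congr rfl fun a _ => integral_finsetSum _ fun k _ => (h1 a k x).const_mul (-I)
  simp only [key]
  have hi := fun a k => (h2 a k).const_mul (-I)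
  refine ⟨integrable_finsetSum _ fun a _ => integrable_finsetSum _ fun k _ => hi a k, ?_⟩
  rw [integral_finsetSum _ fun a _ => integrable_finsetSum _ fun k _ => hi a k, Finset.sum_mul]
  refine (norm_sum_le _ _).trans (Finset.sum_le_sum fun a _ => ?_)
  rw [integral_finsetSum _ fun k _ => hi a k, Finset.sum_mul]
  refine (norm_sum_le _ _).trans (Finset.sum_le_sum fun k _ => ?_)
  rw [integral_const_mul, norm_mul, norm_neg, norm_I, one_mul]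
  exact h3 a k

variable {N d : ℕ} {F : Type} [NormedAddCommGroup F] [InnerProductSpace ℂ F]
  [FiniteDimensional ℂ F] (c : Ctx N d F)

theorem Rd_inner (𝔞' 𝔴 : Submodule ℝ (Lg d)) (v : Fin 9 → ℝ) (χ : Tn 9 d → ℝ) (g : ℝ)
    (e : Fin 16 → ℝ) (ψ : Tn 9 d → F) (X W : Tn 9 d) (f : F) :
    inner ℂ f (c.Rd 𝔞' 𝔴 v χ g e ψ X W) = ∑ a, ∑ k, -I * inner ℂ
      ((c.Gg 𝔴 v g X W * ⟪onb (sub 9 𝔞') k, c.vf (c.zet 𝔴 v X (onb 𝔴 a)) W⟫) •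
        (c.kap 𝔴 v χ X : ℂ) • c.θ (c.sE e (tens v (onb 𝔴 a))) (c.Pw 𝔴 X f))
      (fderiv ℝ ψ (X + W) (onb (sub 9 𝔞') k)) := by
  rw [Ctx.Rd, inner_sum]
  refine Finset.sum_congr rfl fun a _ => ?_
  rw [← sum_inner_onb_smul, map_sum, inner_smul_right, Ctx.Pw, ← vac_symm, ← c.car.symm,
    inner_sum, Finset.mul_sum]
  refine Finset.sum_congr rfl fun k _ => ?_
  rw [map_smul, ← Complex.coe_smul, ← Complex.coe_smul, inner_smul_right, inner_smul_left,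
    inner_smul_left, conj_ofReal, conj_ofReal]
  push_cast
  ring

theorem ortho (π π' : Setoid (Fin N)) (𝔞 : Submodule ℝ (Lg d)) (v : Fin 9 → ℝ) :
    c.Sl 𝔞 π' ⟂ Wsl (c.off π π') v :=
  (sub_isOrtho ((c.off_isOrtho_blk π π').symm.mono_left inf_le_right)).mono_right inf_le_left

theorem sm_slice {π π' : Setoid (Fin N)} {𝔞 : Submodule ℝ (Lg d)} {v : Fin 9 → ℝ}
    (h : c.Lc π 𝔞 π' v) {ψ : Tn 9 d → F} (hψ : Sm (sub 9 𝔞) ψ) :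
    Sm (c.Sl 𝔞 π' ⊔ Wsl (c.off π π') v) ψ := by
  obtain ⟨R, hR⟩ := hψ.exists_bound
  have hle : c.Sl 𝔞 π' ⊔ Wsl (c.off π π') v ≤ sub 9 𝔞 :=
    sup_le (sub_mono inf_le_left)
      (inf_le_left.trans (sub_mono ((c.off_le_ss h.2.1).trans h.1.1)))
  exact sm_of_bound hψ.1 fun x hx => hR x (hle hx)

theorem bdRd (h_lm1 : c.S_lm1) {U₁ : Submodule ℝ (Tn 9 d)} {𝔞' 𝔴 : Submodule ℝ (Lg d)}
    (hU : U₁ = sub 9 𝔞') {v : Fin 9 → ℝ} (h : U₁ ⟂ Wsl 𝔴 v) {χ : Tn 9 d → ℝ}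
    (hχ : ContDiff ℝ ∞ χ) (e : Fin 16 → ℝ) {K : Set (Tn 9 d)} (hK : IsCompact K)
    (hKO : K ⊆ c.Ow 𝔴 v) {j₀ : ℝ} (hj₀ : 0 < j₀) (hjK : ∀ X ∈ K, j₀ ≤ c.jw 𝔴 v X) :
    ∃ C : ℝ, 0 ≤ C ∧ ∀ g > 0, ∀ φ, Sm U₁ φ → (∀ X ∈ U₁, X ∉ K → φ X = 0) →
      ∀ ψ, Sm (U₁ ⊔ Wsl 𝔴 v) ψ →
      (∀ X : U₁, Integrable fun W : Wsl 𝔴 v => c.Rd 𝔞' 𝔴 v χ g e ψ X W) →
      (Integrable fun X : U₁ => inner ℂ (φ X) (∫ W : Wsl 𝔴 v, c.Rd 𝔞' 𝔴 v χ g e ψ X W)) ∧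
      ‖∫ X : U₁, inner ℂ (φ X) (∫ W : Wsl 𝔴 v, c.Rd 𝔞' 𝔴 v χ g e ψ X W)‖ ≤
        C * (√((nrm U₁ φ + grad U₁ φ) / g) *
          √(∫ X : U₁, c.jw 𝔴 v X * ∫ W : Wsl 𝔴 v, ‖ψ (X + W)‖ ^ 2)) := by
  subst hU
  haveI := FiniteDimensional.complete ℂ F
  obtain ⟨a, ha, M, hM⟩ := h_lm1.A_unif 𝔴 v K hK hKO
  obtain ⟨L, hL⟩ := c.exists_vfL
  obtain ⟨u, hu⟩ : ∃ u : Fin (Module.finrank ℝ 𝔴) → Fin (Module.finrank ℝ (sub 9 𝔞')) →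
      Tn 9 d → Tn 9 d →L[ℝ] ℝ, u = fun a k X => ContinuousLinearMap.compL ℝ _ _ _
        (innerSL ℝ (onb (sub 9 𝔞') k)) (L (Ring.inverse (c.aw 𝔴 v X) (onb 𝔴 a))) := ⟨_, rfl⟩
  obtain ⟨T, hT⟩ : ∃ T : Fin (Module.finrank ℝ 𝔴) → Tn 9 d → F →L[ℝ] F,
      T = fun a X => ContinuousLinearMap.restrictScalarsL ℂ F F ℝ ℝ
        ((c.kap 𝔴 v χ X : ℂ) • (c.θ (c.sE e (tens v (onb 𝔴 a))) * c.Pw 𝔴 X)) := ⟨_, rfl⟩
  have su : ∀ a k, ∀ X ∈ K, ContDiffAt ℝ ∞ (u a k) X := fun a k X hX => by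
    rw [hu]
    exact (ContinuousLinearMap.contDiff _).contDiffAt.comp X (L.contDiff.contDiffAt.comp X
      ((h_lm1.sm_ainv 𝔴 v X (hKO hX)).clm_apply contDiffAt_const))
  have sT : ∀ a, ∀ X ∈ K, ContDiffAt ℝ ∞ (T a) X := fun a X hX => by
    rw [hT]
    have h1 : ContDiffAt ℝ ∞ (fun X => (c.kap 𝔴 v χ X : ℂ)) X :=
      ofRealCLM.contDiff.contDiffAt.comp X (hχ.contDiffAt.mul (h_lm1.sm_j 𝔴 v X (hKO hX)))
    exact (ContinuousLinearMap.contDiff _).contDiffAt.comp X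
      (h1.smul (contDiffAt_const.mul (h_lm1.sm_P 𝔴 v X (hKO hX))))
  choose C hC0 hC using fun a k => bdB h hK (fun X hX => h_lm1.sm_A 𝔴 v X (hKO hX)) ha hM
    (fun g hg X hX W => h_lm1.sm_G 𝔴 v g hg X (hKO hX) W) (su a k) (sT a) (h_lm1.j_cont 𝔴 v)
    (fun X => abs_nonneg _) hj₀ hjK (onb_mem (sub 9 𝔞') k)
  refine ⟨∑ a, ∑ k, C a k, Finset.sum_nonneg fun a _ => Finset.sum_nonneg fun k _ => hC0 a k,
    fun g hg φ hφ hs ψ hψ hi => ?_⟩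
  have H := fun a k => hC a k g hg φ hφ hs ψ hψ
  refine bdSum (fun a k => (H a k).1) (fun a k => (H a k).2.1) (fun a k => (H a k).2.2) hi
    fun X W => ?_
  rw [Rd_inner]
  refine Finset.sum_congr rfl fun a _ => Finset.sum_congr rfl fun k _ => ?_
  have e1 : u a k X W = ⟪onb (sub 9 𝔞') k, c.vf (c.zet 𝔴 v X (onb 𝔴 a)) W⟫ := by
    rw [hu, ← hL]
    rfl
  have e2 : T a X (φ X) =
      (c.kap 𝔴 v χ X : ℂ) • c.θ (c.sE e (tens v (onb 𝔴 a))) (c.Pw 𝔴 X (φ X)) := by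
    rw [hT]
    rfl
  rw [e1, e2, Ctx.Gg]

end WibAux

end Vale.Agent.P353
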