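import Vale.Agent.P353.Stmts
import Vale.Agent.P353.Gau
import Vale.Agent.P353.WibAux3

/-! Duality estimate on the slice. -/

noncomputable section

open MeasureTheory Filter Topology Complex Matrix
open scoped ContDiff RealInnerProductSpace

namespace Vale.Agent.P353

namespace WibAux

section

variable {E : Type} [NormedAddCommGroup E] [InnerProductSpace ℝ E] [FiniteDimensional ℝ E]
  [MeasurableSpace E] [BorelSpace E]
variable {F : Type} [NormedAddCommGroup F] [InnerProductSpace ℂ F] [FiniteDimensional ℂ F]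
variable {U U₁ U₂ : Submodule ℝ E}

theorem modulus {E V : Type} [NormedAddCommGroup E] [NormedAddCommGroup V] {K : Set E}
    (hK : IsCompact K) {f : E → V} (hf : ContinuousOn f K) {o : ℝ} (ho : 0 < o) :
    ∃ C, 0 ≤ C ∧ ∀ X ∈ K, ∀ y ∈ K, ‖f X - f y‖ ^ 2 ≤ o + C * ‖X - y‖ ^ 2 := by
  obtain ⟨t, ht, h1⟩ := Metric.uniformContinuousOn_iff.1 (hK.uniformContinuousOn_of_continuous hf)
    (√o) (Real.sqrt_pos.2 ho)
  obtain ⟨B, hB⟩ := hK.exists_bound_of_continuousOn hf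
  refine ⟨(2 * B) ^ 2 / t ^ 2, by positivity, fun X hX y hy => ?_⟩
  by_cases h : dist X y < t
  · have h2 := h1 X hX y hy h
    rw [dist_eq_norm] at h2
    have h3 := pow_le_pow_left₀ (norm_nonneg _) h2.le 2
    rw [Real.sq_sqrt ho.le] at h3
    exact h3.trans (le_add_of_nonneg_right (by positivity))
  · rw [dist_eq_norm, not_lt] at h
    have h2 : ‖f X - f y‖ ≤ 2 * B := by linarith [norm_sub_le (f X) (f y), hB X hX, hB y hy]
    have h3 := pow_le_pow_left₀ (norm_nonneg _) h2 2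
    have h4 : (2 * B) ^ 2 ≤ (2 * B) ^ 2 / t ^ 2 * ‖X - y‖ ^ 2 :=
      calc (2 * B) ^ 2 = (2 * B) ^ 2 / t ^ 2 * t ^ 2 := by field_simp
        _ ≤ _ := by gcongr
    linarith

theorem int_ip {φ p : E → F} (hφ : Sm U φ) (hp : Continuous p) :
    Integrable fun x : U => inner ℂ (φ x) (p x) :=
  Continuous.integrable_of_hasCompactSupport
    ((hφ.1.continuous.inner hp).comp continuous_subtype_val)
    (hφ.2.mono fun x hx h0 => hx (by simp [show φ x = 0 from h0]))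

omit [FiniteDimensional ℂ F] in
theorem split_ip {X : Type} [MeasurableSpace X] {μ : Measure X} {φ p q A B : X → F}
    (hp : Integrable (fun x => inner ℂ (φ x) (p x)) μ)
    (hq : Integrable (fun x => inner ℂ (φ x) (q x)) μ)
    (hB : Integrable (fun x => inner ℂ (φ x) (B x)) μ) (h : ∀ x, q x = p x + A x + B x) :
    ‖∫ x, inner ℂ (φ x) (p x) ∂μ - ∫ x, inner ℂ (φ x) (q x) ∂μ‖ ≤
      ‖∫ x, inner ℂ (φ x) (A x) ∂μ‖ + ‖∫ x, inner ℂ (φ x) (B x) ∂μ‖ := by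
  have h1 : ∀ x, inner ℂ (φ x) (A x) =
      inner ℂ (φ x) (q x) - inner ℂ (φ x) (p x) - inner ℂ (φ x) (B x) := fun x => by
    rw [h, inner_add_right, inner_add_right]; ring
  simp only [h1]
  have h2 : Integrable (fun x => inner ℂ (φ x) (q x) - inner ℂ (φ x) (p x)) μ := hq.sub hp
  rw [integral_sub h2 hB, integral_sub hq hp, norm_sub_rev]
  exact norm_le_norm_sub_add _ _

theorem int_exc {A : E →L[ℝ] E} {a : ℝ} (ha : 0 < a) (hA : ∀ w ∈ U₂, a * ‖w‖ ^ 2 ≤ ⟪w, A w⟫)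
    {ψ : E → F} (hψ : Sm (U₁ ⊔ U₂) ψ) {X : E} (hX : X ∈ U₁) (t : F) :
    Integrable fun W : U₂ => ‖ψ (X + W) - (gauss U₂ A W : ℂ) • t‖ ^ 2 := by
  have h1 : Integrable fun W : U₂ => gauss U₂ A W ^ 2 := by
    simpa using integrable_gauss_sq ha hA 0
  have hc := (contDiff_gauss U₂ A).continuous
  have hc' := hψ.1.continuous
  refine (((int_slice hψ hX).const_mul 2).add ((h1.mul_const (‖t‖ ^ 2)).const_mul 2)).mono'
    (GauAux.meas_of_cont (by fun_prop)) (Eventually.of_forall fun W => ?_)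
  rw [Real.norm_of_nonneg (by positivity), sub_eq_add_neg]
  refine (Ga1cAux.norm_add_sq_le _ _).trans (le_of_eq ?_)
  rw [norm_neg, norm_smul, norm_real, Real.norm_eq_abs, mul_pow, sq_abs]
  rfl

omit [FiniteDimensional ℂ F] in
theorem ptA2 {f z t : F} {n n' P : F →L[ℂ] F} (hP : ∀ x y, inner ℂ (P x) y = inner ℂ x (P y))
    (hf : P f = f) (hn : P * n' = 0) {k b β S j j₀ : ℝ} (hk : 0 ≤ k) (hj₀ : 0 < j₀) (hj : j₀ ≤ j)
    (h1 : ‖z - n t‖ ≤ √k * √b) (h2 : ‖n - n'‖ ^ 2 ≤ β) (h3 : ‖t‖ ^ 2 ≤ S) :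
    ‖inner ℂ f z‖ ≤ √(k * ‖f‖ ^ 2) * √b + √(β * ‖f‖ ^ 2 / j₀) * √(j * S) := by
  have h4 : inner ℂ f (n' t) = 0 := by
    rw [← hf, hP, ← ContinuousLinearMap.mul_apply, hn]
    simp
  have h5 : inner ℂ f z = inner ℂ f (z - n t) + inner ℂ f ((n - n') t) := by
    rw [ContinuousLinearMap.sub_apply, inner_sub_right, inner_sub_right, h4]
    ring
  have hβ : 0 ≤ β := (sq_nonneg _).trans h2
  have hS : 0 ≤ S := (sq_nonneg _).trans h3
  rw [h5]
  refine (norm_add_le _ _).trans (add_le_add ((norm_inner_le_norm _ _).trans ?_)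
    ((norm_inner_le_norm _ _).trans ?_))
  · rw [Real.sqrt_mul hk, Real.sqrt_sq (norm_nonneg _)]
    calc _ ≤ ‖f‖ * (√k * √b) := by gcongr
      _ = _ := by ring
  · rw [← Real.sqrt_mul (by positivity)]
    refine (le_abs_self _).trans (Real.abs_le_sqrt ?_)
    have h6 := pow_le_pow_left₀ (norm_nonneg _) ((n - n').le_opNorm t) 2
    have h7 : 1 ≤ j / j₀ := (one_le_div hj₀).2 hj
    calc (‖f‖ * ‖(n - n') t‖) ^ 2 = ‖f‖ ^ 2 * ‖(n - n') t‖ ^ 2 * 1 := by ring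
      _ ≤ ‖f‖ ^ 2 * (‖n - n'‖ * ‖t‖) ^ 2 * (j / j₀) := by gcongr
      _ = ‖f‖ ^ 2 * (‖n - n'‖ ^ 2 * ‖t‖ ^ 2) * (j / j₀) := by ring
      _ ≤ ‖f‖ ^ 2 * (β * S) * (j / j₀) := by gcongr
      _ = _ := by ring

end

theorem small {x y e n b : ℝ} (hx : 0 ≤ x) (hy : y ≤ x)
    (hb0 : 0 ≤ b) (hb : b ≤ e / (x + 1) * n) : y * b ≤ e * n :=
  calc y * b ≤ (x + 1) * b := by gcongr; linarith
    _ ≤ (x + 1) * (e / (x + 1) * n) := by gcongr
    _ = e * n := by field_simp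

theorem num2 {n w M K j₀ C ε ε' b e : ℝ} (hK : 0 ≤ K) (hj : 0 < j₀) (hC : 0 ≤ C) (hε : 0 < ε)
    (he : 0 ≤ e) (hn : n ≤ M) (hw : w ≤ ε') (h' : ε' ≤ ε / 18 * j₀ / (C * K + 1)) (hb0 : 0 ≤ b)
    (hb : b ≤ K * e) :
    (ε / 18 * j₀ / (|M| * K + 1) * n + C * w) / j₀ * b ≤ ε * e / 9 := by
  have h1 : n ≤ |M| := hn.trans (le_abs_self M)
  have h2 := hw.trans h'
  have h3 : |M| * K / (|M| * K + 1) ≤ 1 := by
    rw [div_le_one (by positivity)]; linarith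
  have h4 : C * K / (C * K + 1) ≤ 1 := by
    rw [div_le_one (by positivity)]; linarith
  calc _ ≤ (ε / 18 * j₀ / (|M| * K + 1) * |M| + C * (ε / 18 * j₀ / (C * K + 1))) / j₀ * b := by
        gcongr
    _ ≤ (ε / 18 * j₀ / (|M| * K + 1) * |M| + C * (ε / 18 * j₀ / (C * K + 1))) / j₀ * (K * e) := by
        gcongr
    _ = ε / 18 * e * (|M| * K / (|M| * K + 1) + C * K / (C * K + 1)) := by field_simp
    _ ≤ ε / 18 * e * (1 + 1) := by gcongr
    _ = _ := by ring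

theorem num3 {n w M K C ε ε' g b e : ℝ} (hK : 0 ≤ K) (hε : 0 < ε) (hg : 0 < g)
    (he : 0 ≤ e) (hn : n ≤ M) (hw : w ≤ ε' * g) (h' : ε' ≤ ε / 18 / (C ^ 2 * K + 1))
    (hg' : 18 * C ^ 2 * |M| * K / ε ≤ g) (hb0 : 0 ≤ b) (hb : b ≤ K * e) :
    C ^ 2 * ((n + w) / g) * b ≤ ε * e / 9 := by
  have h1 : n ≤ |M| := hn.trans (le_abs_self M)
  have h2 : w ≤ ε / 18 / (C ^ 2 * K + 1) * g := hw.trans (by gcongr)
  have h3 : C ^ 2 * |M| * K / g ≤ ε / 18 := by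
    rw [div_le_iff₀ hε] at hg'
    rw [div_le_iff₀ hg]; linarith
  have h4 : C ^ 2 * K / (C ^ 2 * K + 1) ≤ 1 := by
    rw [div_le_one (by positivity)]; linarith
  calc _ ≤ C ^ 2 * ((|M| + ε / 18 / (C ^ 2 * K + 1) * g) / g) * b := by gcongr
    _ ≤ C ^ 2 * ((|M| + ε / 18 / (C ^ 2 * K + 1) * g) / g) * (K * e) := by gcongr
    _ = e * (C ^ 2 * |M| * K / g + ε / 18 * (C ^ 2 * K / (C ^ 2 * K + 1))) := by field_simp
    _ ≤ e * (ε / 18 + ε / 18 * 1) := by gcongr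
    _ = _ := by ring

end WibAux

open WibAux

namespace Ctx

variable {N d : ℕ} {F : Type} [NormedAddCommGroup F] [InnerProductSpace ℂ F]
  [FiniteDimensional ℂ F] (c : Ctx N d F)

theorem p_wib (h_lm1 : c.S_lm1) (h_s1 : c.S_s1) (h_tb : c.S_tb) (h_si : c.S_si)
    (h_rpt : c.S_rpt) (h_r2 : c.S_r2) (h_exc : c.S_exc) : c.S_wib := by
  intro π 𝔞 π' v χ hL hχ K hK hKC hK1
  have hCU : c.CS 𝔞 π' ≤ c.Sl 𝔞 π' := sub_mono (inf_le_inf_left _ (c.cen_le_blk π'))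
  have hK1' := eventually_nhdsSet_iff_forall.1 hK1
  have hKO : K ⊆ c.Ow (c.off π π') v := fun y hy => by
    obtain ⟨K', -, h1, -, h2⟩ := hχ.1.2
    by_contra hn
    have h3 := h2 y (hCU (hKC hy)) fun h => hn (h1 h)
    rw [(hK1' y hy).self_of_nhds] at h3
    exact one_ne_zero h3
  obtain ⟨r, hr, hrO⟩ := hK.exists_cthickening_subset_open (h_lm1.isOpen _ v) hKO
  refine ⟨r, hr, fun R M m hm α ε hε => ?_⟩
  have hKr : IsCompact (Metric.cthickening r K) := hK.cthickening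
  have hKK : K ⊆ Metric.cthickening r K := Metric.self_subset_cthickening K
  have hmem : ∀ X, ∀ y ∈ K, ‖X - y‖ ≤ r → X ∈ Metric.cthickening r K := fun X y hy h =>
    Metric.mem_cthickening_of_dist_le X y r K hy (by rwa [dist_eq_norm])
  generalize Metric.cthickening r K = Kr at hrO hKr hKK hmem
  obtain ⟨j₀, hj₀, hjK⟩ := hKr.exists_forall_le' (h_lm1.j_cont (c.off π π') v).continuousOn
    fun X hX => h_lm1.j_pos _ v X (hrO hX)
  obtain ⟨K₁, hK₁, hs1⟩ := h_s1 π 𝔞 π' v hL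
  obtain ⟨K', -, -, -, -, M', -, hrp⟩ := h_rpt π 𝔞 π' v χ hL hχ
  obtain ⟨𝒩, hNc, hN1, hN2⟩ := h_r2 π 𝔞 π' v χ hL hχ (eb α)
  obtain ⟨a, ha, MA, hA⟩ := h_lm1.A_unif _ v Kr hKr hrO
  obtain ⟨KA, hKA, hptA⟩ := ptA (F := F) (Wsl (c.off π π') v) ha MA M'
  have ho := ortho c π π' 𝔞 v
  obtain ⟨CB, hCB, hB⟩ := bdRd c h_lm1 (U₁ := c.Sl 𝔞 π') (𝔞' := 𝔞 ⊓ c.blk π') rfl ho hχ.1.1
    (eb α) hKr hrO hj₀ hjK
  obtain ⟨CN, hCN, hmod⟩ := modulus hKr (hNc.mono hrO)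
    (o := ε / 18 * j₀ / (|M| * K₁ + 1)) (by positivity)
  refine ⟨min (ε / 18 * j₀ / (CN * K₁ + 1)) (ε / 18 / (CB ^ 2 * K₁ + 1)), by positivity, ?_⟩
  filter_upwards [eventually_ge_atTop 1, eventually_ge_atTop (18 * CB ^ 2 * |M| * K₁ / ε),
    h_exc π 𝔞 π' v hL Kr hKr hrO R (ε / 9 / (KA * (2 * |M|) + 1)) (by positivity)]
    with g hg1 hg2 hexc φ hφ hsupp hP hn hF hgr hw ψ hψ hR
  have hg : 0 < g := by linarith
  obtain ⟨e1, e2⟩ := hexc ψ hψ hR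
  have hψ' := sm_slice c hL hψ.1
  have hsi := h_si π 𝔞 π' v χ hL hχ g hg m (eb α) ψ hψ
  have hT := h_tb.sm π 𝔞 π' v χ hL hχ g hg ψ hψ.1
  have hQ := h_tb.sm π 𝔞 π' v χ hL hχ g hg _ (c.Q_mem_D hL.1 g m (eb α) hψ).1
  have hβ := c.contDiff_beta g m (eb α)
  obtain ⟨b1, b2⟩ := hB g hg φ hφ (fun X hX hn => by
    by_contra h0
    exact hn (hmem X _ (hsupp X hX h0).1 (hsupp X hX h0).2)) ψ hψ' fun X => (hsi X X.2).2.1
  have hne : nrm (sub 9 𝔞) ψ ≤ c.NE 𝔞 g 0 ψ := le_add_of_nonneg_right (en_nonneg _ _ _ _)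
  have hne0 : 0 ≤ c.NE 𝔞 g 0 ψ := (nrm_nonneg _ _).trans hne
  have s1 := hs1 (fun x => ‖ψ x‖ ^ 2) ⟨hψ.1.1.continuous.norm.pow 2, fun x => by positivity,
    c.invR_normsq hψ, hψ.1.2.mono fun x hx h0 => hx (by simp [show ψ x = 0 from h0])⟩
  have s2 := s1.trans (mul_le_mul_of_nonneg_left hne hK₁)
  have hj0 : ∀ X, 0 ≤ c.jw (c.off π π') v X := fun X => abs_nonneg _
  have s0 : ∀ X : c.Sl 𝔞 π', 0 ≤ c.jw (c.off π π') v X *
      ∫ W : Wsl (c.off π π') v, ‖ψ (X + W)‖ ^ 2 := fun X =>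
    mul_nonneg (hj0 X) (integral_nonneg fun W => by positivity)
  have hmeas : MeasurableSet {X : c.Sl 𝔞 π' | (X : Tn 9 d) ∈ Kr} :=
    (hKr.isClosed.preimage continuous_subtype_val).measurableSet
  have j1 : Integrable fun X : c.Sl 𝔞 π' => ‖φ X‖ ^ 2 := by
    simpa using hφ.integrable_wnrm (w := fun _ => 1) continuousOn_const
  have j2 := hφ.integrable_wnrm c.contDiff_Fsq.continuous.continuousOn
  have j3 := hφ.integrable_wnrm (w := fun X => ‖X - (c.CS 𝔞 π').starProjection X‖ ^ 2)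
    (Continuous.continuousOn (by fun_prop))
  have i1 : Integrable fun X : c.Sl 𝔞 π' => KA * (1 + g * c.Fsq X) * ‖φ X‖ ^ 2 :=
    ((j1.add (j2.const_mul g)).const_mul KA).congr (Eventually.of_forall fun X => by
      simp only [Pi.add_apply]; ring)
  have i2 : Integrable fun X : c.Sl 𝔞 π' => (ε / 18 * j₀ / (|M| * K₁ + 1) +
      CN * ‖(X : Tn 9 d) - (c.CS 𝔞 π').starProjection X‖ ^ 2) * ‖φ X‖ ^ 2 / j₀ :=
    (((j1.const_mul (ε / 18 * j₀ / (|M| * K₁ + 1))).add (j3.const_mul CN)).div_const j₀).congr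
      (Eventually.of_forall fun X => by simp only [Pi.add_apply]; ring)
  have hFs := c.Fsq_nonneg
  obtain ⟨Ak, hAk⟩ : ∃ Ak : c.Sl 𝔞 π' → F, ∀ X, Ak X = ∫ W : Wsl (c.off π π') v,
    c.Rk (𝔞 ⊓ c.blk π') (c.off π π') v χ g m (eb α) X W (ψ (X + W)) := ⟨_, fun _ => rfl⟩
  have a1 := cs_two i1 ((integrable_indicator_iff hmeas).2 e1)
    (fun X => by have := hFs X; positivity)
    (fun X => Set.indicator_nonneg (fun X _ => integral_nonneg fun W => by positivity) X)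
    i2 (int_jS ho hψ' (h_lm1.j_cont _ v)) (fun X => by positivity) s0
    (h := fun X : c.Sl 𝔞 π' => inner ℂ (φ X) (Ak X)) fun X => by
      by_cases h0 : φ X = 0
      · rw [h0, inner_zero_left, norm_zero]; positivity
      obtain ⟨hy, hXy⟩ := hsupp X X.2 h0
      have hX := hmem X _ hy hXy
      obtain ⟨n1, n2⟩ := hN1 g hg m X (hrO hX)
      have p1 := hptA _ (hA X hX).2 (hA X hX).1 g hg _ (hFs X)
        (fun W : Wsl (c.off π π') v => c.Rk (𝔞 ⊓ c.blk π') (c.off π π') v χ g m (eb α) X W)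
        (fun W : Wsl (c.off π π') v => ψ (X + W)) (c.T0 (c.off π π') v g ψ X)
        (fun W => (hrp g hg1 m hm α X X.2 W W.2).2.1) (hsi X X.2).1 n1
        (int_exc (mul_pos hg ha) (pos_smul hg (hA X hX).2) hψ' X.2 _)
      have p2 := congrArg (fun L : F →L[ℂ] F => L (c.T0 (c.off π π') v g ψ X)) n2
      simp only [ContinuousLinearMap.mul_apply, (h_tb.proj π 𝔞 π' v χ g ψ X X.2 hψ.1 hL).1] at p2
      rw [Set.indicator_of_mem (show X ∈ {X : c.Sl 𝔞 π' | (X : Tn 9 d) ∈ Kr} from hX)]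
      refine ptA2 (vac_symm _) (hP X X.2) (hN2 _ (hKC hy) (hKO hy) (hK1' _ hy))
        (by have := hFs X; positivity) hj₀ (hjK X hX) ?_ (hmod X hX _ (hKK hy))
        (h_tb.pt π 𝔞 π' v hL g hg ψ hψ.1 X X.2 (hrO hX))
      rw [← p2, hAk]
      exact p1
  have a2 := split_ip (A := Ak) (int_ip hφ hQ.1.continuous)
    (int_ip hφ (hT.dop (θ := c.θ) 1 (c.sE (eb α)) hβ).1.continuous) b1 fun X => by
      rw [hAk]
      exact (hsi X X.2).2.2
  rw [integral_indicator hmeas] at a1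
  rw [← Real.sqrt_sq hCB, ← mul_assoc, ← Real.sqrt_mul (sq_nonneg _)] at b2
  have a3 : ip (c.Sl 𝔞 π') (c.Q (𝔞 ⊓ c.blk π') g m (eb α) φ) (c.TT π 𝔞 π' v χ g ψ) = _ :=
    c.car.dop_symm 1 (c.sE (eb α)) hβ.continuous hφ (hT.1.of_le (by simp))
  rw [a3]
  have hn0 := nrm_nonneg (c.Sl 𝔞 π') φ
  have hg0 := grad_nonneg (c.Sl 𝔞 π') φ
  refine fin_num (norm_nonneg _) (a2.trans (add_le_add a1 b2))
    (integral_nonneg fun X => by have := hFs X; positivity) (integral_nonneg fun X => by positivity)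
    (by positivity) (by positivity) ?_ ?_ ?_
  · rw [mul_div_right_comm]
    refine small (by positivity) ?_
      (integral_nonneg fun X => integral_nonneg fun W => by positivity) e2
    have q : ∀ X : c.Sl 𝔞 π', KA * (1 + g * c.Fsq X) * ‖φ X‖ ^ 2 =
        KA * (‖φ X‖ ^ 2 + g * (c.Fsq X * ‖φ X‖ ^ 2)) := fun X => by ring
    simp only [q]
    rw [integral_const_mul, integral_add j1 (j2.const_mul g), integral_const_mul]
    refine mul_le_mul_of_nonneg_left ?_ hKA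
    rw [nrm] at hn
    rw [wnrm] at hF
    linarith [le_abs_self M]
  · refine le_trans (le_of_eq ?_) (num2 hK₁ hj₀ hCN hε hne0 hn hw (min_le_left _ _)
      (integral_nonneg s0) s2)
    simp only [add_mul, mul_assoc CN]
    rw [integral_div, integral_add (j1.const_mul _) (j3.const_mul CN), integral_const_mul,
      integral_const_mul, nrm, wnrm]
  · exact num3 hK₁ hε hg hne0 hn hgr (min_le_right _ _) hg2 (integral_nonneg s0) s2

end Ctx

end Vale.Agent.P353
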