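import Vale.Agent.P353.Gau
import Vale.Agent.P353.Ga1c

/-! Cauchy-Schwarz type estimates and integration by parts on the slice. -/

noncomputable section

open MeasureTheory Filter Topology Complex Matrix
open scoped ContDiff RealInnerProductSpace

namespace Vale.Agent.P353

namespace WibAux

theorem cs {X : Type} [MeasurableSpace X] {μ : Measure X} {a b : X → ℝ} (ha : Integrable a μ)
    (hb : Integrable b μ) (ha0 : ∀ x, 0 ≤ a x) (hb0 : ∀ x, 0 ≤ b x) :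
    Integrable (fun x => √(a x) * √(b x)) μ ∧
      ∫ x, √(a x) * √(b x) ∂μ ≤ √(∫ x, a x ∂μ) * √(∫ x, b x ∂μ) := by
  have hm : ∀ {f : X → ℝ}, Integrable f μ → (∀ x, 0 ≤ f x) → MemLp (fun x => √(f x)) 2 μ := by
    intro f hf h0
    refine (memLp_two_iff_integrable_sq
      (Real.continuous_sqrt.comp_aestronglyMeasurable hf.aestronglyMeasurable)).2 ?_
    simpa only [Real.sq_sqrt (h0 _)] using hf
  refine ⟨(hm ha ha0).integrable_mul (hm hb hb0), ?_⟩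
  have h := integral_mul_le_Lp_mul_Lq_of_nonneg (μ := μ) Real.HolderConjugate.two_two
    (f := fun x => √(a x)) (g := fun x => √(b x))
    (Eventually.of_forall fun x => Real.sqrt_nonneg _)
    (Eventually.of_forall fun x => Real.sqrt_nonneg _)
    (by simpa using hm ha ha0) (by simpa using hm hb hb0)
  simp only [Real.rpow_two, Real.sq_sqrt (ha0 _), Real.sq_sqrt (hb0 _)] at h
  rwa [Real.sqrt_eq_rpow, Real.sqrt_eq_rpow]

theorem cs_norm {X V : Type} [MeasurableSpace X] {μ : Measure X} [NormedAddCommGroup V]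
    [NormedSpace ℝ V] {a b : X → ℝ} (ha : Integrable a μ) (hb : Integrable b μ)
    (ha0 : ∀ x, 0 ≤ a x) (hb0 : ∀ x, 0 ≤ b x) {h : X → V} (hh : ∀ x, ‖h x‖ ≤ √(a x) * √(b x)) :
    ‖∫ x, h x ∂μ‖ ≤ √(∫ x, a x ∂μ) * √(∫ x, b x ∂μ) :=
  (norm_integral_le_of_norm_le (cs ha hb ha0 hb0).1 (Eventually.of_forall hh)).trans
    (cs ha hb ha0 hb0).2

theorem cs_two {X V : Type} [MeasurableSpace X] {μ : Measure X} [NormedAddCommGroup V]
    [NormedSpace ℝ V] {a b a' b' : X → ℝ} (ha : Integrable a μ) (hb : Integrable b μ)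
    (ha0 : ∀ x, 0 ≤ a x) (hb0 : ∀ x, 0 ≤ b x) (ha' : Integrable a' μ) (hb' : Integrable b' μ)
    (ha0' : ∀ x, 0 ≤ a' x) (hb0' : ∀ x, 0 ≤ b' x) {h : X → V}
    (hh : ∀ x, ‖h x‖ ≤ √(a x) * √(b x) + √(a' x) * √(b' x)) :
    ‖∫ x, h x ∂μ‖ ≤ √(∫ x, a x ∂μ) * √(∫ x, b x ∂μ) + √(∫ x, a' x ∂μ) * √(∫ x, b' x ∂μ) := by
  have h1 := cs ha hb ha0 hb0
  have h2 := cs ha' hb' ha0' hb0'
  refine (norm_integral_le_of_norm_le (h1.1.add h2.1) (Eventually.of_forall hh)).trans ?_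
  rw [show (∫ x, ((fun x => √(a x) * √(b x)) + fun x => √(a' x) * √(b' x)) x ∂μ) =
    ∫ x, (√(a x) * √(b x) + √(a' x) * √(b' x)) ∂μ from rfl, integral_add h1.1 h2.1]
  exact add_le_add h1.2 h2.2

theorem fin_num {D a₁ a₂ a₃ b₁ b₂ b₃ e : ℝ} (hD : 0 ≤ D)
    (h : D ≤ √a₁ * √b₁ + √a₂ * √b₂ + √a₃ * √b₃) (ha₁ : 0 ≤ a₁) (ha₂ : 0 ≤ a₂) (ha₃ : 0 ≤ a₃)
    (he : 0 ≤ e) (h1 : a₁ * b₁ ≤ e / 9) (h2 : a₂ * b₂ ≤ e / 9) (h3 : a₃ * b₃ ≤ e / 9) :
    D ^ 2 ≤ e := by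
  rw [← Real.sqrt_mul ha₁, ← Real.sqrt_mul ha₂, ← Real.sqrt_mul ha₃] at h
  have h4 := Real.sqrt_le_sqrt h1
  have h5 := Real.sqrt_le_sqrt h2
  have h6 := Real.sqrt_le_sqrt h3
  have h7 : D ≤ 3 * √(e / 9) := by linarith
  calc D ^ 2 ≤ (3 * √(e / 9)) ^ 2 := by gcongr
    _ = e := by rw [mul_pow, Real.sq_sqrt (by positivity)]; ring

variable {E : Type} [NormedAddCommGroup E] [InnerProductSpace ℝ E] [FiniteDimensional ℝ E]
  [MeasurableSpace E] [BorelSpace E]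
variable {F : Type} [NormedAddCommGroup F] [InnerProductSpace ℂ F] [FiniteDimensional ℂ F]
variable {U U₁ U₂ : Submodule ℝ E}

theorem pos_smul {A : E →L[ℝ] E} {a g : ℝ} (hg : 0 < g)
    (hA : ∀ w ∈ U, a * ‖w‖ ^ 2 ≤ ⟪w, A w⟫) : ∀ w ∈ U, g * a * ‖w‖ ^ 2 ≤ ⟪w, (g • A) w⟫ := by
  intro w hw
  rw [ContinuousLinearMap.smul_apply, real_inner_smul_right, mul_assoc]
  exact mul_le_mul_of_nonneg_left (hA w hw) hg.le

theorem integrable_mom {A : E →L[ℝ] E} {a g : ℝ} (ha : 0 < a) (hg : 0 < g)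
    (hA : ∀ w ∈ U, a * ‖w‖ ^ 2 ≤ ⟪w, A w⟫) (k : ℕ) :
    Integrable fun x : U => (g * ‖(x : E)‖ ^ 2) ^ k * gauss U (g • A) x ^ 2 := by
  refine ((integrable_gauss_sq (mul_pos hg ha) (pos_smul hg hA) (2 * k)).const_mul (g ^ k)).congr
    (Eventually.of_forall fun x => ?_)
  simp only [mul_pow, pow_mul]
  ring

/-- polynomial weights of degree three -/
theorem mom3 (U : Submodule ℝ E) {a : ℝ} (ha : 0 < a) (M : ℝ) : ∃ K : ℝ, 0 ≤ K ∧
    ∀ A : E →L[ℝ] E, (∀ w ∈ U, a * ‖w‖ ^ 2 ≤ ⟪w, A w⟫) → ‖A‖ ≤ M → ∀ g > 0,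
      (Integrable fun x : U => (1 + g * ‖(x : E)‖ ^ 2) ^ 3 * gauss U (g • A) x ^ 2) ∧
      ∫ x : U, (1 + g * ‖(x : E)‖ ^ 2) ^ 3 * gauss U (g • A) x ^ 2 ≤ K := by
  obtain ⟨K0, h0⟩ := gauss_moment U ha M 0
  obtain ⟨K3, h3⟩ := gauss_moment U ha M 3
  refine ⟨|4 * K0 + 4 * K3|, abs_nonneg _, fun A hA hM g hg => ?_⟩
  have i0 := integrable_mom ha hg hA 0
  have i3 := integrable_mom ha hg hA 3
  have hc := (contDiff_gauss U (g • A)).continuous
  have hle : ∀ x : U, (1 + g * ‖(x : E)‖ ^ 2) ^ 3 * gauss U (g • A) x ^ 2 ≤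
      4 * ((g * ‖(x : E)‖ ^ 2) ^ 0 * gauss U (g • A) x ^ 2) +
        4 * ((g * ‖(x : E)‖ ^ 2) ^ 3 * gauss U (g • A) x ^ 2) := by
    intro x
    have ht : 0 ≤ g * ‖(x : E)‖ ^ 2 := by positivity
    generalize g * ‖(x : E)‖ ^ 2 = t at ht
    have h1 : (1 + t) ^ 3 ≤ 4 + 4 * t ^ 3 := by
      nlinarith [mul_nonneg (add_nonneg ht zero_le_one) (sq_nonneg (t - 1))]
    have h2 := mul_le_mul_of_nonneg_right h1 (sq_nonneg (gauss U (g • A) x))
    linarith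
  have hi : Integrable fun x : U => (1 + g * ‖(x : E)‖ ^ 2) ^ 3 * gauss U (g • A) x ^ 2 := by
    refine ((i0.const_mul 4).add (i3.const_mul 4)).mono' (GauAux.meas_of_cont (by fun_prop))
      (Eventually.of_forall fun x => ?_)
    rw [Real.norm_of_nonneg (by positivity)]
    exact hle x
  refine ⟨hi, (integral_mono hi ((i0.const_mul 4).add (i3.const_mul 4)) hle).trans ?_⟩
  rw [integral_add' (i0.const_mul 4) (i3.const_mul 4), integral_const_mul, integral_const_mul]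
  have := h0 A hA hM g hg
  have := h3 A hA hM g hg
  linarith [le_abs_self (4 * K0 + 4 * K3)]

/-- the zero order term at a fixed slow point -/
theorem ptA (U : Submodule ℝ E) {a : ℝ} (ha : 0 < a) (M M' : ℝ) : ∃ K : ℝ, 0 ≤ K ∧
    ∀ A : E →L[ℝ] E, (∀ w ∈ U, a * ‖w‖ ^ 2 ≤ ⟪w, A w⟫) → ‖A‖ ≤ M → ∀ g > 0, ∀ f : ℝ, 0 ≤ f →
    ∀ (R : U → F →L[ℂ] F) (ψ : U → F) (t : F),
      (∀ W : U, ‖R W‖ ≤ M' * gauss U (g • A) W * (1 + g * ‖(W : E)‖ ^ 2 + g * √f * ‖(W : E)‖)) →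
      (Integrable fun W => R W (ψ W)) → (Integrable fun W : U => (gauss U (g • A) W : ℂ) • R W) →
      (Integrable fun W : U => ‖ψ W - (gauss U (g • A) W : ℂ) • t‖ ^ 2) →
      ‖(∫ W, R W (ψ W)) - (∫ W : U, (gauss U (g • A) W : ℂ) • R W) t‖ ≤
        √(K * (1 + g * f)) * √(∫ W : U, ‖ψ W - (gauss U (g • A) W : ℂ) • t‖ ^ 2) := by
  obtain ⟨K, hK0, hK⟩ := mom3 U ha M
  refine ⟨2 * M' ^ 2 * K, by positivity, fun A hA hM g hg f hf R ψ t hR h1 h2 h3 => ?_⟩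
  obtain ⟨hi, hle⟩ := hK A hA hM g hg
  rw [ContinuousLinearMap.integral_apply h2, ← integral_sub h1 (h2.apply_continuousLinearMap t)]
  have h4 := cs_norm (hi.const_mul (2 * M' ^ 2 * (1 + g * f))) h3 (fun x => by positivity)
    (fun x => by positivity)
    (h := fun W : U => R W (ψ W) - ((gauss U (g • A) W : ℂ) • R W) t) fun W => ?_
  · refine h4.trans (mul_le_mul_of_nonneg_right (Real.sqrt_le_sqrt ?_) (Real.sqrt_nonneg _))
    rw [integral_const_mul]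
    calc _ ≤ 2 * M' ^ 2 * (1 + g * f) * K := by gcongr
      _ = _ := by ring
  · have h5 : R W (ψ W) - ((gauss U (g • A) W : ℂ) • R W) t =
        R W (ψ W - (gauss U (g • A) W : ℂ) • t) := by
      rw [map_sub, map_smul, ContinuousLinearMap.smul_apply]
    rw [h5, Real.sqrt_sq (norm_nonneg _)]
    refine ((R W).le_opNorm _).trans (mul_le_mul_of_nonneg_right ?_ (norm_nonneg _))
    refine (hR W).trans ((le_abs_self _).trans (Real.abs_le_sqrt ?_))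
    have hw : 0 ≤ g * ‖(W : E)‖ ^ 2 := by positivity
    have h6 : (g * √f * ‖(W : E)‖) ^ 2 = g * f * (g * ‖(W : E)‖ ^ 2) := by
      rw [mul_pow, mul_pow, Real.sq_sqrt hf]; ring
    have hgf : 0 ≤ g * f := by positivity
    generalize g * √f * ‖(W : E)‖ = s at h6
    generalize g * ‖(W : E)‖ ^ 2 = w at hw h6
    generalize g * f = p at hgf h6
    have h7 : (1 + w + s) ^ 2 ≤ 2 * (1 + p) * (1 + w) ^ 3 := by
      have h8 : (1 + w + s) ^ 2 ≤ 2 * (1 + w) ^ 2 + 2 * s ^ 2 := by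
        nlinarith [sq_nonneg (1 + w - s)]
      have h9 : (1 + w) ^ 2 ≤ (1 + w) ^ 3 := pow_le_pow_right₀ (by linarith) (by norm_num)
      have h10 : w ≤ (1 + w) ^ 3 := by nlinarith [pow_nonneg hw 2, pow_nonneg hw 3]
      have h11 := mul_le_mul_of_nonneg_left h10 hgf
      nlinarith
    calc (M' * gauss U (g • A) W * (1 + w + s)) ^ 2
        = M' ^ 2 * gauss U (g • A) W ^ 2 * (1 + w + s) ^ 2 := by ring
      _ ≤ M' ^ 2 * gauss U (g • A) W ^ 2 * (2 * (1 + p) * (1 + w) ^ 3) := by gcongr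
      _ = _ := by ring

/-- integration by parts along the slow variables -/
theorem ibp (h : U₁ ⟂ U₂) {Ξ ψ : E → F} (hΞ : ContDiff ℝ 1 Ξ) (hψ : Sm (U₁ ⊔ U₂) ψ) {k : E}
    (hk : k ∈ U₁) :
    (∀ X : U₁, Integrable fun W : U₂ => inner ℂ (Ξ (X + W)) (fderiv ℝ ψ (X + W) k)) ∧
    (Integrable fun X : U₁ => ∫ W : U₂, inner ℂ (Ξ (X + W)) (fderiv ℝ ψ (X + W) k)) ∧
    ∫ X : U₁, ∫ W : U₂, inner ℂ (Ξ (X + W)) (fderiv ℝ ψ (X + W) k) =
      -∫ X : U₁, ∫ W : U₂, inner ℂ (fderiv ℝ Ξ (X + W) k) (ψ (X + W)) := by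
  have hk' : k ∈ U₁ ⊔ U₂ := Submodule.mem_sup_left hk
  have hψ1 : ContDiff ℝ 1 ψ := hψ.1.of_le (by simp)
  have hd := hψ.fderiv (τ := fun _ => k) contDiff_const fun _ _ => hk'
  have c1 : Continuous fun x => inner ℂ (Ξ x) (fderiv ℝ ψ x k) :=
    hΞ.continuous.inner hd.1.continuous
  have s1 : HasCompactSupport fun x : ↥(U₁ ⊔ U₂) => inner ℂ (Ξ x) (fderiv ℝ ψ x k) :=
    hd.2.mono fun x hx h0 => hx (by simp [show fderiv ℝ ψ x k = 0 from h0])
  have c2 : Continuous fun x => inner ℂ (fderiv ℝ Ξ x k) (ψ x) :=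
    ((hΞ.continuous_fderiv one_ne_zero).clm_apply continuous_const).inner hψ1.continuous
  have s2 : HasCompactSupport fun x : ↥(U₁ ⊔ U₂) => inner ℂ (fderiv ℝ Ξ x k) (ψ x) :=
    hψ.2.mono fun x hx h0 => hx (by simp [show ψ x = 0 from h0])
  have i1 : Integrable fun x : ↥(U₁ ⊔ U₂) => inner ℂ (Ξ x) (fderiv ℝ ψ x k) :=
    (c1.comp continuous_subtype_val).integrable_of_hasCompactSupport (μ := volume) s1
  have i2 : Integrable fun x : ↥(U₁ ⊔ U₂) => inner ℂ (fderiv ℝ Ξ x k) (ψ x) :=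
    (c2.comp continuous_subtype_val).integrable_of_hasCompactSupport (μ := volume) s2
  refine ⟨fun X => ?_, integrable_integral_sup h rfl
    (f := fun x => inner ℂ (Ξ x) (fderiv ℝ ψ x k)) i1, ?_⟩
  · exact Continuous.integrable_of_hasCompactSupport
      (c1.comp (continuous_const.add continuous_subtype_val))
      (hasCompactSupport_slice le_sup_right (f := fun x => inner ℂ (Ξ x) (fderiv ℝ ψ x k)) s1
        (Submodule.mem_sup_left X.2))
  · rw [← integral_sup h rfl (f := fun x => inner ℂ (Ξ x) (fderiv ℝ ψ x k)) i1,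
      ← integral_sup h rfl (f := fun x => inner ℂ (fderiv ℝ Ξ x k) (ψ x)) i2,
      eq_neg_iff_add_eq_zero, ← integral_add i1 i2]
    have s3 : HasCompactSupport fun x : ↥(U₁ ⊔ U₂) => inner ℂ (Ξ x) (ψ x) :=
      hψ.2.mono fun x hx h0 => hx (by simp [show ψ x = 0 from h0])
    rw [← integral_fderiv_eq_zero (hΞ.inner ℂ hψ1) s3 hk']
    refine integral_congr_ae (Eventually.of_forall fun x => ?_)
    have h1 := ((hΞ.differentiable one_ne_zero x).hasFDerivAt.inner ℂ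
      (hψ1.differentiable one_ne_zero x).hasFDerivAt).fderiv
    simp only [h1]
    simp

end WibAux

end Vale.Agent.P353
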