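import Vale.Agent.P353.Stmts

/-! Global weak identity. -/

noncomputable section

open MeasureTheory Filter Topology Complex Matrix
open scoped ContDiff RealInnerProductSpace

namespace Vale.Agent.P353

namespace WifAux

section Sml

variable {X : Type} {D D' : Set X} {A B : ℝ → X → ℂ} {Nn Nn' : ℝ → X → ℝ}

/-- asymptotically small functionals -/
def Sml (D : Set X) (A : ℝ → X → ℂ) (Nn : ℝ → X → ℝ) : Prop :=
  ∀ ε > 0, ∀ᶠ g in atTop, ∀ ψ ∈ D, ‖A g ψ‖ ^ 2 ≤ ε * Nn g ψ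

theorem sq_add_le (a b : ℂ) : ‖a + b‖ ^ 2 ≤ 2 * ‖a‖ ^ 2 + 2 * ‖b‖ ^ 2 := by
  have h1 := pow_le_pow_left₀ (norm_nonneg _) (norm_add_le a b) 2
  nlinarith [sq_nonneg (‖a‖ - ‖b‖)]

theorem Sml.add (h : Sml D A Nn) (h' : Sml D B Nn) : Sml D (fun g ψ => A g ψ + B g ψ) Nn := by
  intro ε hε
  filter_upwards [h (ε / 4) (by positivity), h' (ε / 4) (by positivity)] with g h1 h2 ψ hψ
  linarith [sq_add_le (A g ψ) (B g ψ), h1 ψ hψ, h2 ψ hψ]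

theorem Sml.congr (h : Sml D A Nn) (he : ∀ᶠ g in atTop, ∀ ψ ∈ D, B g ψ = A g ψ) : Sml D B Nn := by
  intro ε hε
  filter_upwards [h ε hε, he] with g h1 h2 ψ hψ
  rw [h2 ψ hψ]
  exact h1 ψ hψ

theorem Sml.sum {ι : Type} (s : Finset ι) {A : ι → ℝ → X → ℂ} (h : ∀ i ∈ s, Sml D (A i) Nn)
    (h0 : ∀ᶠ g in atTop, ∀ ψ ∈ D, 0 ≤ Nn g ψ) : Sml D (fun g ψ => ∑ i ∈ s, A i g ψ) Nn := by
  classical
  induction s using Finset.induction_on with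
  | empty =>
    intro ε hε
    filter_upwards [h0] with g h1 ψ hψ
    rw [Finset.sum_empty, norm_zero, zero_pow two_ne_zero]
    exact mul_nonneg hε.le (h1 ψ hψ)
  | insert a s ha ih =>
    simp only [Finset.sum_insert ha]
    exact (h a (Finset.mem_insert_self a s)).add
      (ih fun i hi => h i (Finset.mem_insert_of_mem hi))

theorem Sml.comp (h : Sml D A Nn) {T : X → X} (hT : ∀ ψ ∈ D', T ψ ∈ D) {M : ℝ} (hM : 0 < M)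
    (hN : ∀ᶠ g in atTop, ∀ ψ ∈ D', Nn g (T ψ) ≤ M * Nn' g ψ) :
    Sml D' (fun g ψ => A g (T ψ)) Nn' := by
  intro ε hε
  filter_upwards [h (ε / M) (by positivity), hN] with g h1 h2 ψ hψ
  refine (h1 _ (hT ψ hψ)).trans ?_
  refine (mul_le_mul_of_nonneg_left (h2 ψ hψ) (by positivity)).trans (le_of_eq ?_)
  field_simp

theorem norm_sum_sq_le {ι : Type} (s : Finset ι) (a : ι → ℂ) :
    ‖∑ i ∈ s, a i‖ ^ 2 ≤ s.card * ∑ i ∈ s, ‖a i‖ ^ 2 :=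
  (pow_le_pow_left₀ (norm_nonneg _) (norm_sum_le s a) 2).trans sq_sum_le_card_mul_sum_sq

end Sml

section Gen

variable {E : Type} [NormedAddCommGroup E] [InnerProductSpace ℝ E] [FiniteDimensional ℝ E]
  [MeasurableSpace E] [BorelSpace E]
variable {F : Type} [NormedAddCommGroup F] [InnerProductSpace ℂ F] [FiniteDimensional ℂ F]
variable {U : Submodule ℝ E}

omit [FiniteDimensional ℝ E] [MeasurableSpace E] [BorelSpace E] in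
theorem smR_zero (Z : Set E) : SmR U (fun _ => 0) Z :=
  ⟨contDiff_const, ∅, isCompact_empty, Set.empty_subset _, Set.empty_subset _, fun _ _ _ => rfl⟩

theorem linR_sum {Z : Set E} {L : (E → ℝ) → ℂ} (hL : LinR U Z L) {ι : Type} (s : Finset ι)
    {η : ι → E → ℝ} (h : ∀ i ∈ s, SmR U (η i) Z) :
    SmR U (fun x => ∑ i ∈ s, η i x) Z ∧ L (fun x => ∑ i ∈ s, η i x) = ∑ i ∈ s, L (η i) := by
  classical
  induction s using Finset.induction_on with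
  | empty =>
    simp only [Finset.sum_empty]
    refine ⟨smR_zero Z, ?_⟩
    have h1 := hL _ _ (smR_zero Z) (smR_zero Z) 1
    simp only [mul_zero, add_zero, ofReal_one, one_mul] at h1
    exact left_eq_add.1 h1
  | insert a s ha ih =>
    obtain ⟨h1, h2⟩ := ih fun i hi => h i (Finset.mem_insert_of_mem hi)
    have h3 := h a (Finset.mem_insert_self a s)
    simp only [Finset.sum_insert ha]
    refine ⟨h3.add h1, ?_⟩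
    have h4 := hL _ _ h3 h1 1
    simp only [ofReal_one, one_mul] at h4
    rw [h4, h2]

theorem integrable_sq {ψ : E → F} (h : Sm U ψ) (M : ℝ) :
    Integrable fun x : U => M * ‖ψ x‖ ^ 2 :=
  h.integrable_wnrm (w := fun _ => M) continuousOn_const

theorem nrm_le_of_le {φ ψ : E → F} (hφ : Sm U φ) (hψ : Sm U ψ) {M : ℝ}
    (h : ∀ x ∈ U, ‖φ x‖ ≤ M * ‖ψ x‖) : nrm U φ ≤ M ^ 2 * nrm U ψ := by
  rw [nrm, nrm, ← integral_const_mul]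
  have h1 := integrable_sq hφ 1
  simp only [one_mul] at h1
  refine integral_mono h1 (integrable_sq hψ _) fun x => ?_
  exact (pow_le_pow_left₀ (norm_nonneg _) (h x x.2) 2).trans (mul_pow _ _ _).le

theorem wnrm_le_of_supp {ψ : E → F} (hψ : Sm U ψ) {R : ℝ} (h : ∀ x ∈ U, R < ‖x‖ → ψ x = 0) :
    wnrm U (fun x => ‖x‖ ^ 2) ψ ≤ R ^ 2 * nrm U ψ := by
  rw [wnrm, nrm, ← integral_const_mul]
  refine integral_mono (hψ.integrable_wnrm (continuous_norm.pow 2).continuousOn)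
    (integrable_sq hψ _) fun x => ?_
  by_cases hx : R < ‖(x : E)‖
  · simp [h x x.2 hx]
  · exact mul_le_mul_of_nonneg_right
      (pow_le_pow_left₀ (norm_nonneg _) (not_lt.1 hx) 2) (sq_nonneg _)

omit [MeasurableSpace E] [BorelSpace E] in
theorem norm_onb (k : Fin (Module.finrank ℝ U)) : ‖onb U k‖ = 1 :=
  (stdOrthonormalBasis ℝ U).orthonormal.1 k

theorem grad_mul_le {ψ : E → F} (hψ : Sm U ψ) {f : E → ℝ} (hf : ContDiff ℝ ∞ f) {M : ℝ}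
    (h1 : ∀ x, |f x| ≤ 1) (h2 : ∀ x, ‖fderiv ℝ f x‖ ≤ M) :
    grad U (fun x => (f x : ℂ) • ψ x) ≤
      2 * grad U ψ + 2 * Module.finrank ℝ U * M ^ 2 * nrm U ψ := by
  have i1 := (hψ.mulR hf).integrable_wgsq (w := fun _ => 1) continuousOn_const
  have i2 := hψ.integrable_wgsq (w := fun _ => 2) continuousOn_const
  have i3 := integrable_sq hψ (2 * Module.finrank ℝ U * M ^ 2)
  simp only [one_mul] at i1
  rw [grad, grad, nrm, ← integral_const_mul, ← integral_const_mul, ← integral_add i2 i3]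
  refine integral_mono i1 (i2.add i3) fun x => ?_
  have h3 : ∀ k, ‖fderiv ℝ (fun x => (f x : ℂ) • ψ x) x (onb U k)‖ ^ 2 ≤
      2 * ‖fderiv ℝ ψ x (onb U k)‖ ^ 2 + 2 * M ^ 2 * ‖ψ x‖ ^ 2 := by
    intro k
    rw [Ga2Aux.fderiv_mulR (hψ.1.differentiable (by simp) _) (hf.differentiable (by simp) _)]
    have a1 : ‖(f x : ℂ) • fderiv ℝ ψ x (onb U k)‖ ≤ ‖fderiv ℝ ψ x (onb U k)‖ := by
      rw [norm_smul, Complex.norm_real, Real.norm_eq_abs]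
      exact mul_le_of_le_one_left (norm_nonneg _) (h1 _)
    have a2 : ‖((fderiv ℝ f x (onb U k) : ℝ) : ℂ) • ψ x‖ ≤ M * ‖ψ x‖ := by
      rw [norm_smul, Complex.norm_real]
      refine mul_le_mul_of_nonneg_right ?_ (norm_nonneg _)
      refine ((fderiv ℝ f x).le_opNorm _).trans ?_
      rw [norm_onb, mul_one]
      exact h2 _
    have a3 := pow_le_pow_left₀ (norm_nonneg _) ((norm_add_le _ _).trans (add_le_add a1 a2)) 2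
    nlinarith [sq_nonneg (‖fderiv ℝ ψ x (onb U k)‖ - M * ‖ψ x‖)]
  refine (Finset.sum_le_sum fun k _ => h3 k).trans (le_of_eq ?_)
  rw [Finset.sum_add_distrib, ← Finset.mul_sum, Finset.sum_const, Finset.card_univ,
    Fintype.card_fin, nsmul_eq_mul, gsq]
  ring

/-- radial cutoffs -/
structure Cf (f : E → ℝ) (R M : ℝ) : Prop where
  sm : ContDiff ℝ ∞ f
  rad : ∀ x y, ‖x‖ = ‖y‖ → f x = f y
  le : ∀ x, |f x| ≤ 1
  one : ∀ x, ‖x‖ ≤ R → f x = 1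
  zero : ∀ x, 2 * R ≤ ‖x‖ → f x = 0
  der : ∀ x, ‖fderiv ℝ f x‖ ≤ M
  M1 : 1 ≤ M

omit [MeasurableSpace E] [BorelSpace E] in
theorem exists_cf {R : ℝ} (hR : 0 < R) : ∃ (f : E → ℝ) (M : ℝ), Cf f R M := by
  obtain ⟨K, hK⟩ := exists_cutoff E
  obtain ⟨f, h1, h2, h3, h4, h5, h6⟩ := hK R hR
  exact ⟨f, max (K / R) 1, h1, h2, fun x => abs_le.2 ⟨by linarith [(h3 x).1], (h3 x).2⟩, h4, h5,
    fun x => (h6 x).trans (le_max_left _ _), le_max_right _ _⟩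

theorem Cf.gU_eq {f : E → ℝ} {R M : ℝ} (h : Cf f R M) {x : E} (hx : ‖x‖ < R) : gU U f x = 0 := by
  have h1 : f =ᶠ[𝓝 x] fun _ => 1 := by
    filter_upwards [(continuous_norm.tendsto x).eventually (gt_mem_nhds hx)] with y hy
    exact h.one y hy.le
  have h2 := norm_gU_le U f x
  rw [h1.fderiv_eq, fderiv_fun_const, Pi.zero_apply, norm_zero] at h2
  exact norm_le_zero_iff.1 h2

theorem Cf.nrm_le {f : E → ℝ} {R M : ℝ} (h : Cf f R M) {ψ : E → F} (hψ : Sm U ψ) :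
    nrm U (fun x => (f x : ℂ) • ψ x) ≤ nrm U ψ := by
  have h1 := nrm_le_of_le (hψ.mulR h.sm) hψ (M := 1) fun x _ => by
    rw [norm_smul, Complex.norm_real, Real.norm_eq_abs]
    exact mul_le_mul_of_nonneg_right (h.le x) (norm_nonneg _)
  rwa [one_pow, one_mul] at h1

end Gen

theorem real1 {n n' e e0 em w M R m : ℝ} (hn : 0 ≤ n) (he : 0 ≤ e) (hw : 0 ≤ w) (hm : |m| ≤ 1)
    (h1 : n' ≤ n) (h2 : e0 ≤ 2 * em + 64 * (0 - m) ^ 2 * w)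
    (h3 : em ≤ 2 * M ^ 2 * e + 16 * 1 ^ 2 * M ^ 2 * n) (h4 : w ≤ (2 * R) ^ 2 * n') :
    n' + e0 ≤ (1 + 32 * M ^ 2 + 256 * R ^ 2) * (n + e) := by
  have a1 : (0 - m) ^ 2 ≤ 1 := by
    rw [zero_sub, neg_sq, ← sq_abs]
    exact pow_le_one₀ (abs_nonneg _) hm
  have a2 := mul_le_mul_of_nonneg_right a1 hw
  have a3 := mul_le_mul_of_nonneg_left h1 (sq_nonneg (2 * R))
  have a4 := mul_nonneg (sq_nonneg M) he
  have a5 := mul_nonneg (sq_nonneg R) he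
  linarith

theorem real2 {n e G w K g : ℝ} (hn : 0 ≤ n) (he : 0 ≤ e) (hw : 0 ≤ w) (hK : 0 ≤ K) (hg : 1 ≤ g)
    (h : G + g ^ 2 * w ≤ K * (e + g * n)) : n + G / g ≤ (1 + K) * (n + e) := by
  have a1 : G / g ≤ K * (n + e) := by
    rw [div_le_iff₀ (by linarith)]
    have a2 := mul_nonneg (sq_nonneg g) hw
    have a3 := mul_le_mul_of_nonneg_left hg (mul_nonneg hK he)
    linarith
  linarith

theorem real3 {n n' G G' A g : ℝ} (hn : 0 ≤ n) (hG : 0 ≤ G) (hA : 0 ≤ A) (hg : 1 ≤ g)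
    (h1 : n' ≤ n) (h2 : G' ≤ 2 * G + A * n) : n' + G' / g ≤ (2 + A) * (n + G / g) := by
  have a0 : 0 < g := by linarith
  have a1 : G' / g ≤ 2 * (G / g) + A * n := by
    rw [div_le_iff₀ a0, add_mul, mul_assoc, div_mul_cancel₀ _ a0.ne']
    have a3 := mul_le_mul_of_nonneg_left hg (mul_nonneg hA hn)
    linarith
  have a2 := mul_nonneg hA (div_nonneg hG a0.le)
  linarith

variable {N d : ℕ} {F : Type} [NormedAddCommGroup F] [InnerProductSpace ℂ F]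
  [FiniteDimensional ℂ F] {c : Ctx N d F} {π π' : Setoid (Fin N)} {𝔞 : Submodule ℝ (Lg d)}
  {v : Fin 9 → ℝ} {χ η f : Tn 9 d → ℝ} {R M : ℝ}

theorem mul_mem (h : Cf f R M) {ψ : Tn 9 d → F} (hψ : ψ ∈ c.D π 𝔞) :
    (fun x => (f x : ℂ) • ψ x) ∈ c.D π 𝔞 :=
  c.mulR_mem_D hψ h.sm fun u _ x _ => h.rad _ _ (c.norm_Ad9 u x)

theorem mul_supp (h : Cf f R M) (ψ : Tn 9 d → F) :
    c.Supp 𝔞 (2 * R) fun x => (f x : ℂ) • ψ x := fun x _ hx => by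
  show (f x : ℂ) • ψ x = 0
  rw [h.zero x hx.le, ofReal_zero, zero_smul]

theorem NE_nonneg (g m : ℝ) (ψ : Tn 9 d → F) : 0 ≤ c.NE 𝔞 g m ψ :=
  add_nonneg (nrm_nonneg _ _) (en_nonneg _ _ _ _)

theorem NG_nonneg {g : ℝ} (hg : 0 ≤ g) (ψ : Tn 9 d → F) : 0 ≤ c.NG 𝔞 g ψ :=
  add_nonneg (nrm_nonneg _ _) (div_nonneg (grad_nonneg _ _) hg)

theorem NE_mul (h : Cf f R M) (g : ℝ) {m : ℝ} (hm : |m| ≤ 1) {ψ : Tn 9 d → F}
    (hψ : Sm (sub 9 𝔞) ψ) : c.NE 𝔞 g 0 (fun x => (f x : ℂ) • ψ x) ≤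
      (1 + 32 * M ^ 2 + 256 * R ^ 2) * c.NE 𝔞 g m ψ :=
  real1 (nrm_nonneg _ _) (en_nonneg _ _ _ _)
    (integral_nonneg fun _ => mul_nonneg (sq_nonneg _) (sq_nonneg _)) hm (h.nrm_le hψ)
    (c.En_mass_le 𝔞 g m 0 (hψ.mulR h.sm))
    (c.car.en_mulR_le' 1 (fun α => c.contDiff_beta g m (eb α)) (c.iso _ g m) hψ h.sm
      fun x _ _ => ⟨(h.le x).trans h.M1, h.der x⟩)
    (wnrm_le_of_supp (hψ.mulR h.sm) (mul_supp (c := c) h ψ))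

theorem NG_mul (h : Cf f R M) {g : ℝ} (hg : 1 ≤ g) {ψ : Tn 9 d → F} (hψ : Sm (sub 9 𝔞) ψ) :
    c.NG 𝔞 g (fun x => (f x : ℂ) • ψ x) ≤
      (2 + 2 * Module.finrank ℝ (sub 9 𝔞) * M ^ 2) * c.NG 𝔞 g ψ :=
  real3 (nrm_nonneg _ _) (grad_nonneg _ _) (by positivity) hg (h.nrm_le hψ)
    (grad_mul_le hψ h.sm h.le h.der)

theorem NG_le (h_cr : c.S_cr) (hT : c.Th π 𝔞) (R : ℝ) : ∃ K > 0, ∀ g, 1 ≤ g →
    ∀ ψ, Sm (sub 9 𝔞) ψ → c.Supp 𝔞 R ψ → c.NG 𝔞 g ψ ≤ K * c.NE 𝔞 g 0 ψ := by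
  obtain ⟨K, hK, h⟩ := h_cr R
  refine ⟨1 + K, by linarith, fun g hg ψ hψ hs => ?_⟩
  have hw : 0 ≤ wnrm (sub 9 𝔞) c.Fsq ψ :=
    integral_nonneg fun x => mul_nonneg (c.Fsq_nonneg x) (sq_nonneg _)
  exact real2 (nrm_nonneg _ _) (en_nonneg _ _ _ _) hw hK hg (h π 𝔞 hT g hg ψ hψ hs)

theorem gen_self (x : Tn 9 d) : x ∈ c.Gen π' π' := fun _ _ h h' => absurd h h'

theorem hat_smR (h_lm4 : c.S_lm4) (hle : π' ≤ π) {Z : Set (Tn 9 d)}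
    (hη : SmR (c.CS 𝔞 π') η (c.Good π π' ∩ Z)) :
    SmR (c.CS (𝔞 ⊓ c.blk π') π') (c.hatη π 𝔞 π' η) (c.Gen π' π') := by
  rw [c.CS_inf le_rfl]
  exact (h_lm4.hat π 𝔞 π' hle η Z hη).mono fun x _ _ => gen_self x

theorem lt_nc (h_lm4 : c.S_lm4) (h_lam : c.S_lam) (h_nc : c.S_nc) (hL : c.Lc π 𝔞 π' v)
    (hχ : c.Cut π 𝔞 π' v χ)
    (hη : SmR (c.CS 𝔞 π') η (c.Good π π' ∩ {y | ∀ᶠ X in 𝓝 y, χ X = 1}))
    (β : LL (sub 9 (c.ss π')) F) :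
    Sml (c.D π 𝔞) (fun g ψ => c.LT π 𝔞 π' v χ g ψ η β - c.Lamh π 𝔞 π' g ψ η β) (c.NG 𝔞) := by
  have h1 := h_lm4.hat π 𝔞 π' hL.2.1 η _ hη
  intro ε hε
  filter_upwards [(h_nc π 𝔞 π' v χ π' hL hχ le_rfl _
    (h1.mono fun x _ _ => gen_self x)).2 β ε hε] with g h2 ψ hψ
  have h3 := h2 ψ hψ
  obtain ⟨-, K, -, hKZ, -, h0⟩ := h1
  rw [(h_lam.congrη π 𝔞 π' g ψ _ (c.hatη π 𝔞 π' η) β fun y hy => ?_).1] at h3
  · exact h3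
  · by_cases hK : y ∈ K
    · have h4 : χ y = 1 := Filter.Eventually.self_of_nhds (p := fun X => χ X = 1) (hKZ hK).2
      rw [h4, one_mul]
    · rw [h0 y hy hK, mul_zero]

theorem lt_bd (h_lm4 : c.S_lm4) (h_lam : c.S_lam) (h_tb : c.S_tb) (hL : c.Lc π 𝔞 π' v)
    (hχ : c.Cut π 𝔞 π' v χ) {Z : Set (Tn 9 d)} (hη : SmR (c.CS 𝔞 π') η (c.Good π π' ∩ Z))
    (β : LL (sub 9 (c.ss π')) F) : ∃ B > 0, ∀ g > 0, ∀ ψ, Sm (sub 9 𝔞) ψ →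
      ‖c.LT π 𝔞 π' v χ g ψ η β‖ ^ 2 ≤ B * nrm (c.Sl 𝔞 π') (c.TT π 𝔞 π' v χ g ψ) := by
  refine ⟨(∫ y : c.CS (𝔞 ⊓ c.blk π') π', c.hatη π 𝔞 π' η y ^ 2) * ‖β‖ ^ 2 + 1,
    by positivity, fun g hg ψ hψ => ?_⟩
  have h1 := h_lam.self_bd π' _ (hL.1.inf c hL.2.1) _
    ((hat_smR h_lm4 hL.2.1 hη).mono fun x _ _ => Set.mem_univ x) β g hg _
    (h_tb.sm π 𝔞 π' v χ hL hχ g hg ψ hψ)
  refine le_trans h1 ?_
  exact mul_le_mul_of_nonneg_right (by linarith) (nrm_nonneg _ _)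

theorem lt_lin (h_lm4 : c.S_lm4) (h_lam : c.S_lam) (h_tb : c.S_tb) (hL : c.Lc π 𝔞 π' v)
    (hχ : c.Cut π 𝔞 π' v χ) {Z : Set (Tn 9 d)} (hη : SmR (c.CS 𝔞 π') η (c.Good π π' ∩ Z))
    (β : LL (sub 9 (c.ss π')) F) {g : ℝ} (hg : 0 < g) {φ ψ : Tn 9 d → F} (hφ : Sm (sub 9 𝔞) φ)
    (hψ : Sm (sub 9 𝔞) ψ) (z : ℂ) : c.LT π 𝔞 π' v χ g (φ + z • ψ) η β =
      c.LT π 𝔞 π' v χ g φ η β + z * c.LT π 𝔞 π' v χ g ψ η β := by
  unfold Ctx.LT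
  rw [h_tb.lin π 𝔞 π' v χ hL hχ g hg φ ψ hφ hψ z]
  exact h_lam.linOn π' _ π' (hL.1.inf c hL.2.1) le_rfl _ (hat_smR h_lm4 hL.2.1 hη) g hg β _ _
    (h_tb.sm π 𝔞 π' v χ hL hχ g hg φ hφ) (h_tb.sm π 𝔞 π' v χ hL hχ g hg ψ hψ) z

/-- the commutator of the supercharge with a cutoff -/
def cor (c : Ctx N d F) (𝔞 : Submodule ℝ (Lg d)) (f : Tn 9 d → ℝ) (e : Fin 16 → ℝ)
    (ψ : Tn 9 d → F) (x : Tn 9 d) : F := I • c.θ (c.sE e (gU (sub 9 𝔞) f x)) (ψ x)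

theorem mul_Q (h : Cf f R M) (g m : ℝ) (e : Fin 16 → ℝ) {ψ : Tn 9 d → F} (hψ : Sm (sub 9 𝔞) ψ) :
    (fun x => (f x : ℂ) • c.Q 𝔞 g m e ψ x) =
      c.Q 𝔞 g m e (fun x => (f x : ℂ) • ψ x) + (1 : ℂ) • cor c 𝔞 f e ψ := by
  funext x
  rw [one_smul, Pi.add_apply, Ctx.Q, Ctx.Q, dop_mulR 1 _ _ (hψ.1.differentiable (by simp) x)
    (h.sm.differentiable (by simp) x), cor, ofReal_one, mul_one, neg_smul, neg_add_cancel_right]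

theorem cor_mem (hT : c.Th π 𝔞) (h : Cf f R M) (e : Fin 16 → ℝ) {ψ : Tn 9 d → F}
    (hψ : ψ ∈ c.D π 𝔞) : cor c 𝔞 f e ψ ∈ c.D π 𝔞 := by
  have h1 := mul_Q (c := c) h 0 0 e hψ.1
  rw [one_smul, ← sub_eq_iff_eq_add'] at h1
  rw [← h1]
  exact sub_mem (mul_mem h (c.Q_mem_D hT 0 0 e hψ)) (c.Q_mem_D hT 0 0 e (mul_mem h hψ))

theorem norm_cor (h : Cf f R M) (e : Fin 16 → ℝ) (ψ : Tn 9 d → F) (x : Tn 9 d) :
    ‖cor c 𝔞 f e ψ x‖ ≤ ‖c.θ‖ * (‖c.sE e‖ * M) * ‖ψ x‖ := by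
  rw [cor, norm_smul, Complex.norm_I, one_mul]
  refine (ContinuousLinearMap.le_opNorm _ _).trans
    (mul_le_mul_of_nonneg_right ?_ (norm_nonneg _))
  refine (c.θ.le_opNorm _).trans (mul_le_mul_of_nonneg_left ?_ (norm_nonneg _))
  refine ((c.sE e).le_opNorm _).trans (mul_le_mul_of_nonneg_left ?_ (norm_nonneg _))
  exact (norm_gU_le _ f x).trans (h.der x)

theorem lt_cor (h_lm4 : c.S_lm4) (h_lam : c.S_lam) (h_tb : c.S_tb) (hL : c.Lc π 𝔞 π' v)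
    (hχ : c.Cut π 𝔞 π' v χ) {Z : Set (Tn 9 d)} (hη : SmR (c.CS 𝔞 π') η (c.Good π π' ∩ Z))
    (β : LL (sub 9 (c.ss π')) F) (h : Cf f R M) (hR : ∀ X ∈ c.Sl 𝔞 π', χ X ≠ 0 → ‖X‖ + 1 ≤ R)
    (m : ℝ) (e : Fin 16 → ℝ) :
    Sml (c.D π 𝔞) (fun g ψ => c.LT π 𝔞 π' v χ g (cor c 𝔞 f e ψ) η β)
      fun g ψ => c.NE 𝔞 g m ψ := by
  obtain ⟨B, hB, h1⟩ := lt_bd h_lm4 h_lam h_tb hL hχ hη β
  have h2 : Sml {φ | φ ∈ c.D π 𝔞 ∧ ∀ x : Tn 9 d, ‖x‖ < R → φ x = 0}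
      (fun g φ => c.LT π 𝔞 π' v χ g φ η β) fun _ φ => nrm (sub 9 𝔞) φ := by
    intro ε hε
    filter_upwards [h_tb.tail π 𝔞 π' v χ hL hχ 1 one_pos (ε / B) (by positivity),
      eventually_gt_atTop 0] with g h3 hg φ hφ
    have h4 := h3 φ hφ.1 φ hφ.1.1 (fun _ _ => le_rfl) fun X hX h0 W _ hW =>
      hφ.2 _ ((norm_add_le _ _).trans_lt (by linarith [hR X hX h0]))
    refine (h1 g hg φ hφ.1.1).trans ((mul_le_mul_of_nonneg_left h4 hB.le).trans (le_of_eq ?_))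
    field_simp
  refine h2.comp (T := cor c 𝔞 f e) (fun ψ hψ => ⟨cor_mem hL.1 h e hψ, fun x hx => ?_⟩)
    (M := (‖c.θ‖ * (‖c.sE e‖ * M)) ^ 2 + 1) (by positivity)
    (Eventually.of_forall fun g ψ hψ => ?_)
  · rw [cor, h.gU_eq hx, map_zero, map_zero, _root_.zero_apply, smul_zero]
  · have h3 := nrm_le_of_le (cor_mem hL.1 h e hψ).1 hψ.1 fun x _ => norm_cor h e ψ x
    have h4 : nrm (sub 9 𝔞) ψ ≤ c.NE 𝔞 g m ψ := le_add_of_nonneg_right (en_nonneg _ _ _ _)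
    refine h3.trans ((mul_le_mul_of_nonneg_left h4 (sq_nonneg _)).trans ?_)
    exact mul_le_mul_of_nonneg_right (by linarith) (NE_nonneg g m ψ)

theorem piece1 (h_lm4 : c.S_lm4) (h_lam : c.S_lam) (h_nc : c.S_nc) (hL : c.Lc π 𝔞 π' v)
    (hχ : c.Cut π 𝔞 π' v χ)
    (hη : SmR (c.CS 𝔞 π') η (c.Good π π' ∩ {y | ∀ᶠ X in 𝓝 y, χ X = 1}))
    (β : LL (sub 9 (c.ss π')) F) (h : Cf f R M) :
    Sml (c.D π 𝔞) (fun g ψ => c.LT π 𝔞 π' v χ g (fun x => (f x : ℂ) • ψ x) η β -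
      c.Lamh π 𝔞 π' g (fun x => (f x : ℂ) • ψ x) η β) (c.NG 𝔞) :=
  (lt_nc h_lm4 h_lam h_nc hL hχ hη β).comp (T := fun ψ x => (f x : ℂ) • ψ x)
    (fun _ hψ => mul_mem h hψ) (M := 2 + 2 * Module.finrank ℝ (sub 9 𝔞) * M ^ 2) (by positivity)
    ((eventually_ge_atTop 1).mono fun _ hg _ hψ => NG_mul h hg hψ.1)

theorem piece2 (h_lm4 : c.S_lm4) (h_lam : c.S_lam) (h_tb : c.S_tb) (h_cr : c.S_cr) (h_nc : c.S_nc)
    (h_wil : c.S_wil) (hL : c.Lc π 𝔞 π' v) (hχ : c.Cut π 𝔞 π' v χ)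
    (hη : SmR (c.CS 𝔞 π') η (c.Good π π' ∩ {y | ∀ᶠ X in 𝓝 y, χ X = 1}))
    {β : LL (sub 9 (c.ss π')) F} (hβ : β ∈ c.BK π π') (h : Cf f R M)
    (hR : ∀ X ∈ c.Sl 𝔞 π', χ X ≠ 0 → ‖X‖ + 1 ≤ R) {m : ℝ} (hm : |m| ≤ 1) (α : Fin 16) :
    Sml (c.D π 𝔞) (fun g ψ => c.LT π 𝔞 π' v χ g (fun x => (f x : ℂ) • c.Q 𝔞 g m (eb α) ψ x) η β -
      c.LamQ π 𝔞 π' g m (eb α) (fun x => (f x : ℂ) • ψ x) η β) fun g ψ => c.NE 𝔞 g m ψ := by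
  obtain ⟨K, hK, hNG⟩ := NG_le h_cr hL.1 (2 * R)
  have h0 : ∀ η', SmR (c.CS 𝔞 π') η' (c.Good π π' ∩ {y | ∀ᶠ X in 𝓝 y, χ X = 1}) → ∀ β',
      Sml {ψ | ψ ∈ c.D π 𝔞 ∧ c.Supp 𝔞 (2 * R) ψ}
        (fun g ψ => c.LT π 𝔞 π' v χ g ψ η' β' - c.Lamh π 𝔞 π' g ψ η' β')
        fun g ψ => c.NE 𝔞 g 0 ψ := fun η' hη' β' =>
    (lt_nc h_lm4 h_lam h_nc hL hχ hη' β').comp (T := fun ψ => ψ) (fun _ hψ => hψ.1) hK
      ((eventually_ge_atTop 1).mono fun g hg ψ hψ => hNG g hg ψ hψ.1.1 hψ.2)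
  have h1 : Sml {ψ | ψ ∈ c.D π 𝔞 ∧ c.Supp 𝔞 (2 * R) ψ} _ fun g ψ => c.NE 𝔞 g 0 ψ := fun ε hε =>
    (h_wil π 𝔞 π' v χ hL hχ η hη β hβ (2 * R) m hm α ε hε).mono fun _ hg ψ hψ => hg ψ hψ.1 hψ.2
  have h2 := Sml.sum Finset.univ (fun k _ =>
    (h0 _ (hη.fderiv (onb_mem (c.CS 𝔞 π') k))
      (opL _ ((-I) • c.θ (c.sE (eb α) (onb (c.CS 𝔞 π') k))) β)).add
    (h0 _ (hη.mul' (f := fun x => ⟪onb (c.CS 𝔞 π') k, x⟫) (contDiff_const.inner ℝ contDiff_id))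
      (opL _ ((m : ℂ) • c.θ (c.Km (eb α) (onb (c.CS 𝔞 π') k))) β)))
    (Eventually.of_forall fun g ψ _ => NE_nonneg g 0 ψ)
  have h3 := (h1.add h2).comp (D' := c.D π 𝔞) (T := fun ψ x => (f x : ℂ) • ψ x)
    (Nn' := fun g ψ => c.NE 𝔞 g m ψ) (fun ψ hψ => ⟨mul_mem h hψ, mul_supp h ψ⟩)
    (M := 1 + 32 * M ^ 2 + 256 * R ^ 2) (by positivity)
    (Eventually.of_forall fun g _ hψ => NE_mul h g hm hψ.1)
  refine (h3.add (lt_cor h_lm4 h_lam h_tb hL hχ hη β h hR m (eb α))).congr ?_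
  filter_upwards [eventually_gt_atTop 0] with g hg ψ hψ
  rw [mul_Q h g m (eb α) hψ.1, lt_lin h_lm4 h_lam h_tb hL hχ hη β hg
    (c.Q_mem_D hL.1 g m _ (mul_mem h hψ)).1 (cor_mem hL.1 h _ hψ).1, Ctx.LamQ]
  simp only [Finset.sum_add_distrib, Finset.sum_sub_distrib]
  ring

theorem lamh_sum (h_lam : c.S_lam) (hT : c.Th π 𝔞) (hle : π' ≤ π) {g : ℝ} (hg : 0 < g)
    {ψ : Tn 9 d → F} (hψ : Sm (sub 9 𝔞) ψ) {ι : Type} (s : Finset ι) {ηi : ι → Tn 9 d → ℝ}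
    (h : ∀ i ∈ s, SmR (c.CS 𝔞 π') (ηi i) (c.Good π π'))
    (hs : ∀ x ∈ c.CS 𝔞 π', ∑ i ∈ s, ηi i x = η x) (β : LL (sub 9 (c.ss π')) F) :
    ∑ i ∈ s, c.Lamh π 𝔞 π' g ψ (ηi i) β = c.Lamh π 𝔞 π' g ψ η β :=
  (linR_sum (h_lam.linηh π 𝔞 π' hT hle g hg ψ hψ β) s h).2.symm.trans
    (h_lam.congrη π 𝔞 π' g ψ _ η β hs).2

theorem lamQ_sum (h_lam : c.S_lam) (hT : c.Th π 𝔞) (hle : π' ≤ π) {g : ℝ} (hg : 0 < g)
    {ψ : Tn 9 d → F} (hψ : Sm (sub 9 𝔞) ψ) {ι : Type} (s : Finset ι) {ηi : ι → Tn 9 d → ℝ}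
    (h : ∀ i ∈ s, SmR (c.CS 𝔞 π') (ηi i) (c.Good π π')) (hη : ContDiff ℝ ∞ η)
    (hs : ∀ x ∈ c.CS 𝔞 π', ∑ i ∈ s, ηi i x = η x) (β : LL (sub 9 (c.ss π')) F) (m : ℝ)
    (e : Fin 16 → ℝ) :
    ∑ i ∈ s, c.LamQ π 𝔞 π' g m e ψ (ηi i) β = c.LamQ π 𝔞 π' g m e ψ η β := by
  unfold Ctx.LamQ
  rw [Finset.sum_comm]
  refine Finset.sum_congr rfl fun k _ => ?_
  have hd : ∀ x, ∀ i ∈ s, DifferentiableAt ℝ (ηi i) x := fun x i hi =>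
    (h i hi).1.differentiable (by simp) x
  rw [Finset.sum_add_distrib,
    lamh_sum h_lam hT hle hg hψ s (η := fun x => fderiv ℝ η x (onb (c.CS 𝔞 π') k))
      (fun i hi => (h i hi).fderiv (onb_mem _ k)) fun x hx => ?_,
    lamh_sum h_lam hT hle hg hψ s (η := fun x => ⟪onb (c.CS 𝔞 π') k, x⟫ * η x)
      (fun i hi => (h i hi).mul' (f := fun x => ⟪onb (c.CS 𝔞 π') k, x⟫)
        (contDiff_const.inner ℝ contDiff_id)) fun x hx => ?_]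
  · rw [← Finset.mul_sum, hs x hx]
  · rw [← fderiv_congr_on (DifferentiableAt.fun_sum (hd x)) (hη.differentiable (by simp) x) hx
      (onb_mem _ k) (Eventually.of_forall hs), fderiv_fun_sum (hd x),
      _root_.sum_apply]

theorem lamh_loc (h_lam : c.S_lam) (h : Cf f R M) (π π' : Setoid (Fin N))
    (𝔞 : Submodule ℝ (Lg d)) : ∀ᶠ g in atTop, ∀ (ψ : Tn 9 d → F) η β,
      SmR (c.CS 𝔞 π') η {y | ‖y‖ + 1 ≤ R} →
      c.Lamh π 𝔞 π' g (fun x => (f x : ℂ) • ψ x) η β = c.Lamh π 𝔞 π' g ψ η β := by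
  filter_upwards [h_lam.loc π 𝔞 π' {y | ‖y‖ + 1 ≤ R} 1 one_pos] with g hg ψ η β hη
  obtain ⟨-, K, -, hKZ, -, h0⟩ := hη
  refine (hg _ ψ η β (fun y hy hy' => h0 y hy fun hK => hy' (hKZ hK)) fun x _ y hy hxy => ?_).2
  have h1 : ‖y‖ + 1 ≤ R := hy
  rw [h.one x (by linarith [norm_le_insert' x y]), ofReal_one, one_smul]

theorem lamQ_loc (h_lam : c.S_lam) (h : Cf f R M) (π π' : Setoid (Fin N))
    (𝔞 : Submodule ℝ (Lg d)) : ∀ᶠ g in atTop, ∀ (ψ : Tn 9 d → F) η β m e,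
      SmR (c.CS 𝔞 π') η {y | ‖y‖ + 1 ≤ R} →
      c.LamQ π 𝔞 π' g m e (fun x => (f x : ℂ) • ψ x) η β = c.LamQ π 𝔞 π' g m e ψ η β := by
  filter_upwards [lamh_loc h_lam h π π' 𝔞] with g hg ψ η β m e hη
  unfold Ctx.LamQ
  refine Finset.sum_congr rfl fun k _ => ?_
  rw [hg ψ _ _ (hη.fderiv (onb_mem _ k)), hg ψ _ _
    (hη.mul' (f := fun x => ⟪onb (c.CS 𝔞 π') k, x⟫) (contDiff_const.inner ℝ contDiff_id))]

theorem exists_data (h_orb : c.S_orb) (h_lm1a : c.S_lm1a) (hT : c.Th π 𝔞) (hle : π' ≤ π)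
    (hη : SmR (c.CS 𝔞 π') η (c.Good π π')) :
    ∃ (ι : Type) (s : Finset ι) (v : ι → Fin 9 → ℝ) (χ ηi : ι → Tn 9 d → ℝ) (R : ℝ), 0 < R ∧
      (∀ i, c.Lc π 𝔞 π' (v i) ∧ c.Cut π 𝔞 π' (v i) (χ i) ∧
        SmR (c.CS 𝔞 π') (ηi i) (c.Good π π' ∩ {y | ∀ᶠ X in 𝓝 y, χ i X = 1})) ∧
      (∀ i ∈ s, ∀ X ∈ c.Sl 𝔞 π', χ i X ≠ 0 → ‖X‖ + 1 ≤ R) ∧
      (∀ x ∈ c.CS 𝔞 π', ∑ i ∈ s, ηi i x = η x) ∧ SmR (c.CS 𝔞 π') η {y | ‖y‖ + 1 ≤ R} := by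
  obtain ⟨𝒱, h1, h2⟩ := h_orb.dir
  obtain ⟨s, ρ, h3, h4⟩ := hη.partition (fun v : 𝒱 => c.Ow (c.off π π') v)
    (fun v => h_lm1a.isOpen _ v) fun x hx hG => by
      obtain ⟨v, hv, h5⟩ := h2 π π' hle x (sub_mono inf_le_right hx) (c.Good_subset_Gen π π' hG)
      exact ⟨⟨v, hv⟩, h5⟩
  have h5 : ∀ v : 𝒱, ∃ (χ : Tn 9 d → ℝ) (r : ℝ), c.Cut π 𝔞 π' v χ ∧
      SmR (c.CS 𝔞 π') (fun x => ρ v x * η x) (c.Good π π' ∩ {y | ∀ᶠ X in 𝓝 y, χ X = 1}) ∧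
      ∀ X ∈ c.Sl 𝔞 π', χ X ≠ 0 → ‖X‖ ≤ r := by
    intro v
    obtain ⟨hs, K, hK, hKZ, hKC, h0⟩ := (h3 v).2.2
    obtain ⟨χ, hχ, h01, h6⟩ := exists_SmR_one (U := c.Sl 𝔞 π') hK (h_lm1a.isOpen _ v)
      fun x hx => (hKZ hx).2
    obtain ⟨K', hK', -, -, h0'⟩ := hχ.2
    obtain ⟨r, hr⟩ := hK'.isBounded.exists_norm_le
    refine ⟨χ, r, ⟨hχ, h01⟩, ⟨hs, K, hK, fun x hx => ⟨(hKZ hx).1, ?_⟩, hKC, h0⟩,
      fun X hX hne => hr X (by_contra fun hn => hne (h0' X hX hn))⟩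
    exact eventually_nhdsSet_iff_forall.1 h6 x hx
  choose χ r h6 h7 h8 using h5
  obtain ⟨hs, K, hK, -, hKC, h0⟩ := hη
  obtain ⟨r0, hr0⟩ := hK.isBounded.exists_norm_le
  have h9 : 0 ≤ ∑ i ∈ s, |r i| := Finset.sum_nonneg fun i _ => abs_nonneg _
  refine ⟨𝒱, s, fun v => v, χ, fun v x => ρ v x * η x, |r0| + ∑ i ∈ s, |r i| + 1, by positivity,
    fun v => ⟨⟨hT, hle, h1 v v.2⟩, h6 v, h7 v⟩, fun i hi X hX hne => ?_, h4,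
    hs, K, hK, fun y hy => ?_, hKC, h0⟩
  · have h10 := Finset.single_le_sum (f := fun i => |r i|) (fun i _ => abs_nonneg _) hi
    linarith [h8 i X hX hne, le_abs_self (r i), abs_nonneg r0]
  · show ‖y‖ + 1 ≤ _
    linarith [hr0 y hy, le_abs_self r0]

end WifAux

namespace Ctx

open WifAux

variable {N d : ℕ} {F : Type} [NormedAddCommGroup F] [InnerProductSpace ℂ F]
  [FiniteDimensional ℂ F] (c : Ctx N d F)

theorem p_wif (h_lm4 : c.S_lm4) (h_orb : c.S_orb) (h_lam : c.S_lam) (h_tb : c.S_tb)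
    (h_cr : c.S_cr) (h_nc : c.S_nc) (h_wil : c.S_wil) (h_lm1a : c.S_lm1a) : c.S_wif := by
  intro π 𝔞 π' hT hle η hη β hβ m hm
  obtain ⟨ι, s, v, χ, ηi, R, hR, h1, h2, h3, h4⟩ := exists_data h_orb h_lm1a hT hle hη
  obtain ⟨f, M, hf⟩ := exists_cf (E := Tn 9 d) hR
  choose B hB hB' using fun i => lt_bd h_lm4 h_lam h_tb (h1 i).1 (h1 i).2.1 (h1 i).2.2 β
  choose K hK hK' using fun i => h_tb.bd π 𝔞 π' (v i) (h1 i).1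
  have hg : ∀ i ∈ s, SmR (c.CS 𝔞 π') (ηi i) (c.Good π π') := fun i _ =>
    (h1 i).2.2.mono fun _ _ hx => hx.1
  refine ⟨fun g ψ => ∑ i ∈ s, c.LT π 𝔞 π' (v i) (χ i) g (fun x => (f x : ℂ) • ψ x) (ηi i) β,
    s.card * ∑ i ∈ s, B i * K i, fun g hg0 => ⟨fun φ hφ ψ hψ z => ?_, fun ψ hψ => ?_⟩, ?_⟩
  · have e : (fun x => (f x : ℂ) • (φ + z • ψ) x) =
        (fun x => (f x : ℂ) • φ x) + z • fun x => (f x : ℂ) • ψ x := by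
      funext x
      rw [Pi.add_apply, Pi.add_apply, Pi.smul_apply, Pi.smul_apply, smul_add, smul_comm]
    beta_reduce
    rw [e, Finset.mul_sum, ← Finset.sum_add_distrib]
    exact Finset.sum_congr rfl fun i _ => lt_lin h_lm4 h_lam h_tb (h1 i).1 (h1 i).2.1 (h1 i).2.2 β
      hg0 (hφ.1.mulR hf.sm) (hψ.1.mulR hf.sm) z
  · refine (norm_sum_sq_le s _).trans ?_
    rw [mul_assoc, Finset.sum_mul]
    refine mul_le_mul_of_nonneg_left (Finset.sum_le_sum fun i _ => ?_) (Nat.cast_nonneg _)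
    refine (hB' i g hg0 _ (hψ.1.mulR hf.sm)).trans ?_
    rw [mul_assoc]
    refine mul_le_mul_of_nonneg_left ?_ (hB i).le
    exact (hK' i (χ i) (h1 i).2.1 g hg0 _ (mul_mem hf hψ)).trans
      (mul_le_mul_of_nonneg_left (hf.nrm_le hψ.1) (hK i))
  have p1 : Sml (c.D π 𝔞) (fun g ψ =>
      ∑ i ∈ s, c.LT π 𝔞 π' (v i) (χ i) g (fun x => (f x : ℂ) • ψ x) (ηi i) β -
        c.Lamh π 𝔞 π' g ψ η β) (c.NG 𝔞) := by
    refine (Sml.sum s (fun i _ => piece1 h_lm4 h_lam h_nc (h1 i).1 (h1 i).2.1 (h1 i).2.2 β hf)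
      ((eventually_ge_atTop 0).mono fun g hg ψ _ => NG_nonneg hg ψ)).congr ?_
    filter_upwards [eventually_gt_atTop 0, lamh_loc h_lam hf π π' 𝔞] with g hg0 hl ψ hψ
    rw [Finset.sum_sub_distrib, lamh_sum h_lam hT hle hg0 (hψ.1.mulR hf.sm) s hg h3 β,
      hl ψ η β h4]
  have p2 : ∀ α, Sml (c.D π 𝔞) (fun g ψ => ∑ i ∈ s, c.LT π 𝔞 π' (v i) (χ i) g
      (fun x => (f x : ℂ) • c.Q 𝔞 g m (eb α) ψ x) (ηi i) β - c.LamQ π 𝔞 π' g m (eb α) ψ η β)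
      fun g ψ => c.NE 𝔞 g m ψ := by
    intro α
    refine (Sml.sum s (fun i hi => piece2 h_lm4 h_lam h_tb h_cr h_nc h_wil (h1 i).1 (h1 i).2.1
      (h1 i).2.2 hβ hf (h2 i hi) hm α) (Eventually.of_forall fun g ψ _ => NE_nonneg g m ψ)).congr ?_
    filter_upwards [eventually_gt_atTop 0, lamQ_loc h_lam hf π π' 𝔞] with g hg0 hl ψ hψ
    rw [Finset.sum_sub_distrib, lamQ_sum h_lam hT hle hg0 (hψ.1.mulR hf.sm) s hg hη.1 h3 β,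
      hl ψ η β m _ h4]
  intro ε hε
  filter_upwards [p1 ε hε, eventually_all.2 fun α => p2 α ε hε] with g a1 a2 ψ hψ
  exact ⟨a1 ψ hψ, fun α => a2 α ψ hψ⟩

end Ctx

end Vale.Agent.P353
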