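import Vale.Agent.P353.Cov

/-! Product functions on an orthogonal sum. -/

noncomputable section

open MeasureTheory Filter Topology Complex
open scoped ContDiff RealInnerProductSpace

namespace Vale.Agent.P353.WilAux

variable {E : Type} [NormedAddCommGroup E] [InnerProductSpace ℝ E] [FiniteDimensional ℝ E]
  [MeasurableSpace E] [BorelSpace E]
variable {F : Type} [NormedAddCommGroup F] [InnerProductSpace ℂ F] [FiniteDimensional ℂ F]
variable {U C S : Submodule ℝ E} {K : Set E}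

/-- volume of the trace of a set -/
def vol (C : Submodule ℝ E) (K : Set E) : ℝ := ∫ y : C, K.indicator (fun _ => (1 : ℝ)) y

/-- the function `N(y) b(σ)` -/
def pr (C S : Submodule ℝ E) (N : E → F →L[ℂ] F) (b : E → F) (X : E) : F :=
  N (C.starProjection X) (b (S.starProjection X))

/-- operator valued functions supported in `K` -/
def Op (C : Submodule ℝ E) (K : Set E) (N : E → F →L[ℂ] F) : Prop :=
  Continuous N ∧ ∀ y ∈ C, y ∉ K → N y = 0

theorem vol_nonneg (C : Submodule ℝ E) (K : Set E) : 0 ≤ vol C K :=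
  integral_nonneg fun _ => Set.indicator_nonneg (fun _ _ => zero_le_one) _

omit [MeasurableSpace E] [BorelSpace E] in
theorem proj_add (h : C ⟂ S) {y x : E} (hy : y ∈ C) (hx : x ∈ S) :
    C.starProjection (y + x) = y ∧ S.starProjection (y + x) = x := by
  rw [map_add, map_add, Submodule.starProjection_eq_self_iff.2 hy,
    Submodule.starProjection_eq_self_iff.2 hx,
    (Submodule.starProjection_apply_eq_zero_iff C).2 (h.symm.le hx),
    (Submodule.starProjection_apply_eq_zero_iff S).2 (h.le hy), add_zero, zero_add]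
  exact ⟨rfl, rfl⟩

omit [MeasurableSpace E] [BorelSpace E] [FiniteDimensional ℂ F] in
theorem pr_add (h : C ⟂ S) (N : E → F →L[ℂ] F) (b : E → F) {y x : E} (hy : y ∈ C) (hx : x ∈ S) :
    pr C S N b (y + x) = N y (b x) := by
  rw [pr, (proj_add h hy hx).1, (proj_add h hy hx).2]

omit [FiniteDimensional ℝ E] [MeasurableSpace E] [BorelSpace E] in
theorem decomp (hU : C ⊔ S = U) {X : E} (hX : X ∈ U) : ∃ y ∈ C, ∃ x ∈ S, X = y + x := by
  obtain ⟨y, hy, x, hx, e⟩ := Submodule.mem_sup.1 (hU ▸ hX)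
  exact ⟨y, hy, x, hx, e.symm⟩

theorem prod_int (h : C ⟂ S) (hU : C ⊔ S = U) (hK : IsCompact K) {k : E → ℝ}
    (hk : Integrable fun x : S => k x) :
    (Integrable fun X : U =>
      K.indicator (fun _ => (1 : ℝ)) (C.starProjection X) * k (S.starProjection X)) ∧
    ∫ X : U, K.indicator (fun _ => (1 : ℝ)) (C.starProjection X) * k (S.starProjection X) =
      vol C K * ∫ x : S, k x := by
  have hc : IsCompact ((↑) ⁻¹' K : Set C) :=
    C.closed_of_finiteDimensional.isClosedEmbedding_subtypeVal.isCompact_preimage hK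
  have h1 : Integrable fun y : C => K.indicator (fun _ => (1 : ℝ)) y :=
    (integrable_indicator_iff hc.measurableSet).2 (integrableOn_const hc.measure_lt_top.ne)
  have e : ∀ (y : C) (x : S), K.indicator (fun _ => (1 : ℝ)) (C.starProjection (y + x : E)) *
      k (S.starProjection (y + x : E)) = K.indicator (fun _ => (1 : ℝ)) (y : E) * k x :=
    fun y x => by rw [(proj_add h y.2 x.2).1, (proj_add h y.2 x.2).2]
  have h2 : Integrable fun X : U =>
      K.indicator (fun _ => (1 : ℝ)) (C.starProjection X) * k (S.starProjection X) := by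
    refine (integrable_sup h hU (f := fun X => K.indicator (fun _ => (1 : ℝ))
      (C.starProjection X) * k (S.starProjection X))).2 ?_
    simp only [e]
    exact h1.mul_prod hk
  refine ⟨h2, ?_⟩
  rw [integral_sup h hU (f := fun X => K.indicator (fun _ => (1 : ℝ))
      (C.starProjection X) * k (S.starProjection X)) h2]
  simp only [e, integral_const_mul, integral_mul_const, vol]

omit [MeasurableSpace E] [BorelSpace E] in
theorem le_ind (h : C ⟂ S) (hU : C ⊔ S = U) {z k : E → ℝ}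
    (hz : ∀ y ∈ C, ∀ x ∈ S, (y ∈ K → z (y + x) ≤ k x) ∧ (y ∉ K → z (y + x) = 0)) (X : U) :
    z X ≤ K.indicator (fun _ => (1 : ℝ)) (C.starProjection X) * k (S.starProjection X) := by
  obtain ⟨y, hy, x, hx, e⟩ := decomp hU X.2
  rw [e, (proj_add h hy hx).1, (proj_add h hy hx).2]
  by_cases hyK : y ∈ K
  · rw [Set.indicator_of_mem hyK, one_mul]
    exact (hz y hy x hx).1 hyK
  · rw [Set.indicator_of_notMem hyK, zero_mul, (hz y hy x hx).2 hyK]

theorem dom (h : C ⟂ S) (hU : C ⊔ S = U) (hK : IsCompact K) {z k : E → ℝ}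
    (hk : Integrable fun x : S => k x) (h0 : ∀ X, 0 ≤ z X)
    (hz : ∀ y ∈ C, ∀ x ∈ S, (y ∈ K → z (y + x) ≤ k x) ∧ (y ∉ K → z (y + x) = 0)) :
    ∫ X : U, z X ≤ vol C K * ∫ x : S, k x := by
  rw [← (prod_int h hU hK hk).2]
  exact integral_mono_of_nonneg (Eventually.of_forall fun X => h0 X) (prod_int h hU hK hk).1
    (Eventually.of_forall (le_ind h hU hz))

omit [InnerProductSpace ℂ F] [FiniteDimensional ℂ F] in
theorem memLp_dom (h : C ⟂ S) (hU : C ⊔ S = U) (hK : IsCompact K) {u : E → F} {k : E → ℝ}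
    (hu : AEStronglyMeasurable fun X : U => u X) (hk : Integrable fun x : S => k x)
    (hz : ∀ y ∈ C, ∀ x ∈ S, (y ∈ K → ‖u (y + x)‖ ^ 2 ≤ k x) ∧ (y ∉ K → u (y + x) = 0)) :
    MemLp (fun X : U => u X) 2 volume ∧ nrm U u ≤ vol C K * ∫ x : S, k x := by
  have hz' : ∀ y ∈ C, ∀ x ∈ S, (y ∈ K → ‖u (y + x)‖ ^ 2 ≤ k x) ∧
      (y ∉ K → ‖u (y + x)‖ ^ 2 = 0) := fun y hy x hx =>
    ⟨(hz y hy x hx).1, fun h' => by simp [(hz y hy x hx).2 h']⟩
  refine ⟨(memLp_two_iff_integrable_sq_norm hu).2 ((prod_int h hU hK hk).1.mono'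
    (hu.norm.pow 2) (Eventually.of_forall fun X => ?_)),
    dom h hU hK (z := fun X => ‖u X‖ ^ 2) hk (fun _ => sq_nonneg _) hz'⟩
  rw [Real.norm_of_nonneg (sq_nonneg _)]
  exact le_ind (z := fun X => ‖u X‖ ^ 2) h hU hz' X

theorem aesm_proj {V : Type} [TopologicalSpace V] (hS : S ≤ U) {b : E → V}
    (hb : AEStronglyMeasurable fun x : S => b x) :
    AEStronglyMeasurable fun X : U => b (S.starProjection X) := by
  have := hb.comp_quasiMeasurePreserving (quasiMeasurePreserving_proj hS one_ne_zero)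
  simp only [Function.comp_def, one_smul] at this
  exact this

omit [FiniteDimensional ℝ E] [MeasurableSpace E] [BorelSpace E] [FiniteDimensional ℂ F] in
theorem Op.bound {N : E → F →L[ℂ] F} (hN : Op C K N) (hK : IsCompact K) :
    ∃ M, 0 ≤ M ∧ ∀ y ∈ K, ∀ a, ‖N y a‖ ^ 2 ≤ M * ‖a‖ ^ 2 := by
  obtain ⟨M, hM⟩ := hK.exists_bound_of_continuousOn hN.1.continuousOn
  refine ⟨M ^ 2, sq_nonneg _, fun y hy a => ?_⟩
  rw [← mul_pow]
  exact pow_le_pow_left₀ (norm_nonneg _) ((N y).le_of_opNorm_le (hM y hy) a) 2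

omit [FiniteDimensional ℝ E] [MeasurableSpace E] [BorelSpace E] [FiniteDimensional ℂ F] in
theorem Op.sub {N N' : E → F →L[ℂ] F} (hN : Op C K N) (hN' : Op C K N') :
    Op C K fun y => N y - N' y :=
  ⟨hN.1.sub hN'.1, fun y hy h => by simp only [hN.2 y hy h, hN'.2 y hy h, sub_self]⟩

omit [FiniteDimensional ℂ F] in
theorem Op.memLp {N : E → F →L[ℂ] F} (hN : Op C K N) (h : C ⟂ S) (hU : C ⊔ S = U)
    (hK : IsCompact K) : ∃ M, 0 ≤ M ∧ ∀ b : E → F, MemLp (fun x : S => b x) 2 volume →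
      MemLp (fun X : U => pr C S N b X) 2 volume ∧ nrm U (pr C S N b) ≤ M * nrm S b := by
  obtain ⟨M, h0, hM⟩ := hN.bound hK
  refine ⟨vol C K * M, mul_nonneg (vol_nonneg C K) h0, fun b hb => ?_⟩
  have hm : AEStronglyMeasurable fun X : U => pr C S N b X :=
    Continuous.comp_aestronglyMeasurable₂ (g := fun (a : F →L[ℂ] F) (x : F) => a x)
      isBoundedBilinearMap_apply.continuous
      (hN.1.comp (C.starProjection.continuous.comp continuous_subtype_val)).aestronglyMeasurable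
      (aesm_proj (hU ▸ le_sup_right) hb.1)
  have := memLp_dom h hU hK (k := fun x => M * ‖b x‖ ^ 2) hm
    (((memLp_two_iff_integrable_sq_norm hb.1).1 hb).const_mul M) fun y hy x hx => by
      rw [pr_add h N b hy hx]
      exact ⟨fun hyK => hM y hyK _, fun hyK => by rw [hN.2 y hy hyK, zero_apply]⟩
  rwa [integral_const_mul, ← mul_assoc] at this

theorem cs (h : C ⟂ S) (hU : C ⊔ S = U) (hK : IsCompact K) {z : E → ℂ} {k : E → ℝ} {T : E → F}
    (hT : MemLp (fun X : U => T X) 2 volume) (hk : Continuous k)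
    (hk' : Integrable fun x : S => k x ^ 2)
    (hz : ∀ y ∈ C, ∀ x ∈ S, (y ∈ K → ‖z (y + x)‖ ≤ k x * ‖T (y + x)‖) ∧ (y ∉ K → z (y + x) = 0)) :
    ‖∫ X : U, z X‖ ^ 2 ≤ vol C K * (∫ x : S, k x ^ 2) * nrm U T := by
  set H : E → ℝ := fun X =>
    K.indicator (fun _ => (1 : ℝ)) (C.starProjection X) * k (S.starProjection X) with hH
  have hm : AEStronglyMeasurable fun X : U => (H X : ℂ) :=
    continuous_ofReal.comp_aestronglyMeasurable
      ((((measurable_const.indicator hK.measurableSet).comp (C.starProjection.continuous.comp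
        continuous_subtype_val).measurable).aestronglyMeasurable).mul
        (hk.comp (S.starProjection.continuous.comp continuous_subtype_val)).aestronglyMeasurable)
  obtain ⟨h1, h2⟩ := memLp_dom h hU hK (u := fun X => (H X : ℂ)) (k := fun x => k x ^ 2) hm hk'
      fun y hy x hx => by
    simp only [hH, (proj_add h hy hx).1, (proj_add h hy hx).2]
    exact ⟨fun hyK => by simp [Set.indicator_of_mem hyK],
      fun hyK => by simp [Set.indicator_of_notMem hyK]⟩
  have h3 : MemLp (fun X : U => ((‖T X‖ : ℝ) : ℂ)) 2 volume := hT.norm.ofReal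
  have h4 := norm_ip_sq_le (φ := fun X => (H X : ℂ)) (ψ := fun X => ((‖T X‖ : ℝ) : ℂ)) h1 h3
  have e : ∀ X : U, inner ℂ (H X : ℂ) ((‖T X‖ : ℝ) : ℂ) = ((H X * ‖T X‖ : ℝ) : ℂ) := fun X => by
    simp [mul_comm]
  have h5 : Integrable fun X : U => H X * ‖T X‖ := by
    have := h1.re.integrable_mul hT.norm
    simp only [RCLike.re_to_complex, ofReal_re] at this
    exact this
  have h6 : ‖∫ X : U, z X‖ ≤ ∫ X : U, H X * ‖T X‖ := by
    refine norm_integral_le_of_norm_le h5 (Eventually.of_forall fun X => ?_)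
    obtain ⟨y, hy, x, hx, e⟩ := decomp hU X.2
    simp only [hH, e, (proj_add h hy hx).1, (proj_add h hy hx).2]
    by_cases hyK : y ∈ K
    · rw [Set.indicator_of_mem hyK, one_mul]
      exact (hz y hy x hx).1 hyK
    · rw [Set.indicator_of_notMem hyK, zero_mul, zero_mul, (hz y hy x hx).2 hyK, norm_zero]
  have h7 : nrm U (fun X => ((‖T X‖ : ℝ) : ℂ)) = nrm U T := by simp [nrm]
  rw [ip, integral_congr_ae (Eventually.of_forall e), integral_complex_ofReal, norm_real, Real.norm_eq_abs,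
    sq_abs, h7] at h4
  exact (pow_le_pow_left₀ (norm_nonneg _) h6 2).trans
    (h4.trans (mul_le_mul_of_nonneg_right h2 (nrm_nonneg U T)))

theorem ip_sub {φ φ' T : E → F} (h : MemLp (fun X : U => φ X) 2 volume)
    (h' : MemLp (fun X : U => φ' X) 2 volume) (hT : MemLp (fun X : U => T X) 2 volume) :
    ip U φ T - ip U φ' T = ip U (φ - φ') T := by
  rw [← inner_L2 h hT, ← inner_L2 h' hT, ← inner_L2 (φ := φ - φ') (h.sub h') hT, L2_sub h h',
    inner_sub_left]

theorem ip_add {φ φ' T : E → F} (h : MemLp (fun X : U => φ X) 2 volume)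
    (h' : MemLp (fun X : U => φ' X) 2 volume) (hT : MemLp (fun X : U => T X) 2 volume) :
    ip U (φ + φ') T = ip U φ T + ip U φ' T := by
  rw [← inner_L2 h hT, ← inner_L2 h' hT, ← inner_L2 (φ := φ + φ') (h.add h') hT, L2_add h h',
    inner_add_left]

theorem compare (h : C ⟂ S) (hU : C ⊔ S = U) (hK : IsCompact K) {P N N' : E → F →L[ℂ] F}
    (hN : Op C K N) (hN' : Op C K N') (hP : ∀ X a b, inner ℂ (P X a) b = inner ℂ a (P X b))
    {r L : ℝ} (hL : ∀ y ∈ K, ∀ x, ‖x‖ ≤ r → ‖P (y + x) - P y‖ ≤ L * ‖x‖) :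
    ∃ M, 0 ≤ M ∧ ∀ b B T : E → F, Sm S b → (∀ x ∈ S, r < ‖x‖ → b x = 0) →
      (∀ y ∈ C, y ∈ K → ∀ x, P y (N y (b x)) = P y (N' y (b x))) →
      MemLp (fun x : S => B x) 2 volume → MemLp (fun X : U => T X) 2 volume →
      (∀ X ∈ U, P X (T X) = T X) →
      ‖ip U (pr C S N b) T - ip U (pr C S N' B) T‖ ^ 2 ≤
        M * (wnrm S (fun x => ‖x‖ ^ 2) b + nrm S (b - B)) * nrm U T := by
  obtain ⟨M₁, -, h1⟩ := hN.memLp h hU hK
  obtain ⟨M₂, p2, h2⟩ := hN'.memLp h hU hK
  obtain ⟨M₃, h3⟩ := hK.exists_bound_of_continuousOn (hN.sub hN').1.continuousOn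
  set M₄ := vol C K * (|L| * |M₃|) ^ 2 with hM₄
  have p4 : 0 ≤ M₄ := mul_nonneg (vol_nonneg C K) (sq_nonneg _)
  refine ⟨2 * M₄ + 2 * M₂, by positivity, fun b B T hb hr hPN hB hT hPT => ?_⟩
  have e1 : ip U (pr C S N b) T - ip U (pr C S N' B) T =
      ip U (pr C S N b - pr C S N' b) T + ip U (pr C S N' (b - B)) T := by
    have : pr C S N' (b - B) = pr C S N' b - pr C S N' B := funext fun X => map_sub _ _ _
    rw [this, ← ip_sub (h1 b hb.memLp).1 (h2 b hb.memLp).1 hT,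
      ← ip_sub (h2 b hb.memLp).1 (h2 B hB).1 hT]
    ring
  have e2 := (norm_ip_sq_le (h2 (b - B) (hb.memLp.sub hB)).1 hT).trans
    (mul_le_mul_of_nonneg_right (h2 (b - B) (hb.memLp.sub hB)).2 (nrm_nonneg U T))
  have e0 : ∀ x, (|L| * |M₃| * (‖x‖ * ‖b x‖)) ^ 2 = (|L| * |M₃|) ^ 2 * (‖x‖ ^ 2 * ‖b x‖ ^ 2) :=
    fun x => by ring
  have e3 := cs h hU hK (z := fun X => inner ℂ ((pr C S N b - pr C S N' b) X) (T X))
    (k := fun x => |L| * |M₃| * (‖x‖ * ‖b x‖)) hT
    (continuous_const.mul (continuous_norm.mul hb.1.continuous.norm))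
    (by
      simp only [e0]
      exact (hb.integrable_wnrm (w := fun x => ‖x‖ ^ 2) (by fun_prop)).const_mul _)
    fun y hy x hx => by
      simp only [Pi.sub_apply, pr_add h _ b hy hx]
      refine ⟨fun hyK => ?_, fun hyK => by simp [hN.2 y hy hyK, hN'.2 y hy hyK]⟩
      by_cases hx' : r < ‖x‖
      · simp [hr x hx hx']
      have hm : y + x ∈ U := hU ▸ Submodule.add_mem_sup hy hx
      have e4 : P (y + x) (N y (b x) - N' y (b x)) = (P (y + x) - P y) ((N y - N' y) (b x)) := by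
        rw [sub_apply, sub_apply, map_sub (P y), hPN y hy hyK, sub_self, sub_zero]
      rw [← hPT _ hm, ← hP, hPT _ hm, e4]
      refine (norm_inner_le_norm _ _).trans (mul_le_mul_of_nonneg_right ?_ (norm_nonneg _))
      calc ‖(P (y + x) - P y) ((N y - N' y) (b x))‖ ≤ |L| * ‖x‖ * (|M₃| * ‖b x‖) :=
            (ContinuousLinearMap.le_opNorm _ _).trans (mul_le_mul ((hL y hyK x (not_lt.1 hx')).trans
              (mul_le_mul_of_nonneg_right (le_abs_self L) (norm_nonneg _)))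
              (ContinuousLinearMap.le_of_opNorm_le _ ((h3 y hyK).trans (le_abs_self _)) _)
              (norm_nonneg _) (by positivity))
        _ = _ := by ring
  simp only [e0, integral_const_mul] at e3
  rw [← mul_assoc] at e3
  have e5 := Ga1cAux.norm_add_sq_le (ip U (pr C S N b - pr C S N' b) T) (ip U (pr C S N' (b - B)) T)
  have p5 : 0 ≤ wnrm S (fun x => ‖x‖ ^ 2) b := integral_nonneg fun _ => by positivity
  have p6 := nrm_nonneg S (b - B)
  have p7 := nrm_nonneg U T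
  rw [e1]
  refine e5.trans ?_
  have e6 : ‖ip U (pr C S N b - pr C S N' b) T‖ ^ 2 ≤
    M₄ * wnrm S (fun x => ‖x‖ ^ 2) b * nrm U T := e3
  nlinarith [mul_nonneg (mul_nonneg p4 p6) p7, mul_nonneg (mul_nonneg p2 p5) p7]

omit [MeasurableSpace E] [BorelSpace E] [FiniteDimensional ℂ F] in
theorem exists_lip (hK : IsCompact K) {O : Set E} (hO : IsOpen O) (hKO : K ⊆ O)
    {P : E → F →L[ℂ] F} (hP : ∀ X ∈ O, ContDiffAt ℝ ∞ P X) :
    ∃ r > 0, ∃ L : ℝ, ∀ y ∈ K, ∀ x, ‖x‖ ≤ r → ‖P (y + x) - P y‖ ≤ L * ‖x‖ := by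
  obtain ⟨r, hr, hs⟩ := hK.exists_cthickening_subset_open hO hKO
  obtain ⟨L, hL⟩ := LocallyLipschitzOn.exists_lipschitzOnWith_of_compact (f := P)
    (hK.cthickening (r := r)) fun X hX => by
      obtain ⟨L, t, ht, h⟩ := ((hP X (hs hX)).of_le (m := 1) (by simp)).exists_lipschitzOnWith
      exact ⟨L, t, mem_nhdsWithin_of_mem_nhds ht, h⟩
  refine ⟨r, hr, L, fun y hy x hx => ?_⟩
  have := hL.norm_sub_le (x := y + x) (y := y)
    (Metric.mem_cthickening_of_dist_le _ y r K hy (by simpa using hx))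
    (Metric.self_subset_cthickening K hy)
  rwa [add_sub_cancel_left] at this

omit [MeasurableSpace E] [BorelSpace E] [FiniteDimensional ℂ F] in
theorem contDiff_pr {V : E → F →L[ℂ] F} (hV : ContDiff ℝ ∞ V) {b : E → F} (hb : ContDiff ℝ ∞ b) :
    ContDiff ℝ ∞ (pr C S V b) :=
  ((ContinuousLinearMap.restrictScalarsL ℂ F F ℝ ℝ).contDiff.comp
    (hV.comp C.starProjection.contDiff)).clm_apply (hb.comp S.starProjection.contDiff)

omit [MeasurableSpace E] [BorelSpace E] [FiniteDimensional ℂ F] in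
theorem fderiv_pr (h : C ⟂ S) {V : E → F →L[ℂ] F} (hV : ContDiff ℝ ∞ V) {b : E → F}
    (hb : ContDiff ℝ ∞ b) {y x : E} (hy : y ∈ C) (hx : x ∈ S) :
    (∀ z ∈ C, fderiv ℝ (pr C S V b) (y + x) z = fderiv ℝ V y z (b x)) ∧
      ∀ z ∈ S, fderiv ℝ (pr C S V b) (y + x) z = V y (fderiv ℝ b x z) := by
  have h1 := (ContinuousLinearMap.restrictScalarsL ℂ F F ℝ ℝ).hasFDerivAt.comp (y + x)
    ((hV.differentiable (by simp) _).hasFDerivAt.comp (y + x) C.starProjection.hasFDerivAt)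
  have h2 := (hb.differentiable (by simp) _).hasFDerivAt.comp (y + x) S.starProjection.hasFDerivAt
  have h3 : HasFDerivAt (pr C S V b) _ (y + x) := h1.clm_apply h2
  rw [h3.fderiv]
  refine ⟨fun z hz => ?_, fun z hz => ?_⟩
  · have := proj_add h hz S.zero_mem
    rw [add_zero] at this
    simp [(proj_add h hy hx).1, (proj_add h hy hx).2, this.1, this.2]
  · have := proj_add h C.zero_mem hz
    rw [zero_add] at this
    simp [(proj_add h hy hx).1, (proj_add h hy hx).2, this.1, this.2]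

theorem dir_zero (hK : IsCompact K) {G : Type} [NormedAddCommGroup G] [NormedSpace ℝ G] {f : E → G}
    (hf : ContDiff ℝ ∞ f) (h0 : ∀ y ∈ C, y ∉ K → f y = 0) {z : E} (hz : z ∈ C) :
    ∀ y ∈ C, y ∉ K → fderiv ℝ f y z = 0 := fun y hy hyK => by
  have hev : ∀ᶠ w in 𝓝 y, w ∈ C → f w = (fun _ => 0) w :=
    Filter.Eventually.mono (hK.isClosed.isOpen_compl.mem_nhds hyK) fun w hw hwC => h0 w hwC hw
  have := fderiv_congr_on (hf.differentiable (by simp) y) (differentiableAt_const _) hy hz hev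
  simpa using this

omit [FiniteDimensional ℂ F] in
theorem Op.dir (hK : IsCompact K) {V : E → F →L[ℂ] F} (hV : ContDiff ℝ ∞ V) (h0 : Op C K V)
    {z : E} (hz : z ∈ C) : Op C K fun y => fderiv ℝ V y z :=
  ⟨(hV.continuous_fderiv (by simp)).clm_apply continuous_const, dir_zero hK hV h0.2 hz⟩

omit [FiniteDimensional ℝ E] [MeasurableSpace E] [BorelSpace E] [FiniteDimensional ℂ F] in
theorem Op.add {N N' : E → F →L[ℂ] F} (hN : Op C K N) (hN' : Op C K N') :
    Op C K fun y => N y + N' y :=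
  ⟨hN.1.add hN'.1, fun y hy h => by simp only [hN.2 y hy h, hN'.2 y hy h, add_zero]⟩

omit [FiniteDimensional ℝ E] [MeasurableSpace E] [BorelSpace E] [FiniteDimensional ℂ F] in
theorem Op.sum {ι : Type} (s : Finset ι) {N : ι → E → F →L[ℂ] F} (hN : ∀ k, Op C K (N k)) :
    Op C K fun y => ∑ k ∈ s, N k y :=
  ⟨continuous_finsetSum _ fun k _ => (hN k).1, fun y hy h =>
    Finset.sum_eq_zero fun k _ => (hN k).2 y hy h⟩

omit [FiniteDimensional ℝ E] [MeasurableSpace E] [BorelSpace E] [FiniteDimensional ℂ F] in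
theorem Op.mul {N a : E → F →L[ℂ] F} (hN : Op C K N) (ha : Continuous a) :
    Op C K fun y => a y * N y :=
  ⟨ha.mul hN.1, fun y hy h => by simp only [hN.2 y hy h, mul_zero]⟩

theorem ip_pr_add (h : C ⟂ S) (hU : C ⊔ S = U) (hK : IsCompact K) {N N' : E → F →L[ℂ] F}
    (hN : Op C K N) (hN' : Op C K N') {B T : E → F} (hB : MemLp (fun x : S => B x) 2 volume)
    (hT : MemLp (fun X : U => T X) 2 volume) :
    ip U (pr C S (fun y => N y + N' y) B) T = ip U (pr C S N B) T + ip U (pr C S N' B) T := by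
  obtain ⟨_, _, h1⟩ := hN.memLp h hU hK
  obtain ⟨_, _, h2⟩ := hN'.memLp h hU hK
  exact ip_add (h1 B hB).1 (h2 B hB).1 hT

theorem ip_pr_sum (h : C ⟂ S) (hU : C ⊔ S = U) (hK : IsCompact K) {ι : Type} (s : Finset ι)
    {N : ι → E → F →L[ℂ] F} (hN : ∀ k, Op C K (N k)) {B T : E → F}
    (hB : MemLp (fun x : S => B x) 2 volume) (hT : MemLp (fun X : U => T X) 2 volume) :
    ip U (pr C S (fun y => ∑ k ∈ s, N k y) B) T = ∑ k ∈ s, ip U (pr C S (N k) B) T := by
  classical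
  induction s using Finset.induction_on with
  | empty => simp [ip, pr]
  | insert k s hk ih =>
    simp only [Finset.sum_insert hk]
    rw [ip_pr_add h hU hK (hN k) (Op.sum s hN) hB hT, ih]

theorem small (A : ℝ) {ε : ℝ} (hε : 0 < ε) : ∀ᶠ δ in 𝓝[>] (0 : ℝ), A * δ ≤ ε := by
  have : Tendsto (fun δ : ℝ => A * δ) (𝓝 0) (𝓝 (A * 0)) := (continuous_const_mul A).tendsto 0
  rw [mul_zero] at this
  exact (this.eventually (ge_mem_nhds hε)).filter_mono nhdsWithin_le_nhds

theorem sm_pr (h : C ⟂ S) (hU : C ⊔ S = U) (hK : IsCompact K) {V : E → F →L[ℂ] F}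
    (hV : ContDiff ℝ ∞ V) (h0 : Op C K V) {b : E → F} (hb : Sm S b) : Sm U (pr C S V b) := by
  obtain ⟨R, hR⟩ := hb.exists_bound
  obtain ⟨R', hR'⟩ := hK.isBounded.exists_norm_le
  refine sm_of_bound (contDiff_pr hV hb.1) (R := R' + R) fun X hX hlt => ?_
  obtain ⟨y, hy, x, hx, rfl⟩ := decomp hU hX
  rw [pr_add h V b hy hx]
  by_cases hyK : y ∈ K
  · rw [hR x hx (by linarith [norm_add_le y x, hR' y hyK]), map_zero]
  · rw [h0.2 y hy hyK, zero_apply]

theorem wnrm_pr (h : C ⟂ S) (hU : C ⊔ S = U) (hK : IsCompact K) {V : E → F →L[ℂ] F}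
    (h0 : Op C K V) : ∃ M, 0 ≤ M ∧ ∀ b : E → F, Sm S b → ∀ w w' : E → ℝ, Continuous w' →
      (∀ X, 0 ≤ w X) → (∀ y ∈ C, ∀ x ∈ S, w (y + x) = w' x) →
      wnrm U w (pr C S V b) ≤ M * wnrm S w' b := by
  obtain ⟨M, p0, hM⟩ := h0.bound hK
  refine ⟨vol C K * M, mul_nonneg (vol_nonneg C K) p0, fun b hb w w' hw' hw he => ?_⟩
  have := dom h hU hK (z := fun X => w X * ‖pr C S V b X‖ ^ 2)
    (k := fun x => M * (w' x * ‖b x‖ ^ 2)) ((hb.integrable_wnrm hw'.continuousOn).const_mul M)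
    (fun X => mul_nonneg (hw X) (sq_nonneg _)) fun y hy x hx => by
      rw [pr_add h V b hy hx, ← he y hy x hx, mul_left_comm]
      exact ⟨fun hyK => mul_le_mul_of_nonneg_left (hM y hyK _) (hw _),
        fun hyK => by simp [h0.2 y hy hyK]⟩
  rwa [integral_const_mul, ← mul_assoc] at this

theorem grad_pr (h : C ⟂ S) (hU : C ⊔ S = U) (hK : IsCompact K) {V : E → F →L[ℂ] F}
    (hV : ContDiff ℝ ∞ V) (h0 : Op C K V) : ∃ M, 0 ≤ M ∧ ∀ b : E → F, Sm S b →
      grad U (pr C S V b) ≤ M * (nrm S b + grad S b) := by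
  obtain ⟨M, p0, hM⟩ := h0.bound hK
  choose M' p1 hM' using fun k => (h0.dir hK hV (onb_mem C k)).bound hK
  set M₁ := M + ∑ k, M' k with hM₁
  have p2 : 0 ≤ ∑ k, M' k := Finset.sum_nonneg fun k _ => p1 k
  refine ⟨vol C K * M₁, mul_nonneg (vol_nonneg C K) (add_nonneg p0 p2), fun b hb => ?_⟩
  have i1 : Integrable fun x : S => ‖b x‖ ^ 2 :=
    (memLp_two_iff_integrable_sq_norm hb.memLp.1).1 hb.memLp
  have i2 : Integrable fun x : S => gsq S b x := Cov4Aux.integrable_gsq le_rfl hb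
  have := dom h hU hK (z := gsq U (pr C S V b))
    (k := fun x => M₁ * (‖b x‖ ^ 2 + gsq S b x)) ((i1.add i2).const_mul M₁)
    (gsq_nonneg _ _) fun y hy x hx => by
      rw [gsq_sup _ _ h hU]
      simp only [gsq, (fderiv_pr h hV hb.1 hy hx).1 _ (onb_mem C _),
        (fderiv_pr h hV hb.1 hy hx).2 _ (onb_mem S _)]
      refine ⟨fun hyK => ?_, fun hyK => by
        simp [h0.2 y hy hyK, (h0.dir hK hV (onb_mem C _)).2 y hy hyK]⟩
      have e1 : ∑ k, ‖fderiv ℝ V y (onb C k) (b x)‖ ^ 2 ≤ (∑ k, M' k) * ‖b x‖ ^ 2 := by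
        rw [Finset.sum_mul]
        exact Finset.sum_le_sum fun k _ => hM' k y hyK _
      have e2 : ∑ k, ‖V y (fderiv ℝ b x (onb S k))‖ ^ 2 ≤
          M * ∑ k, ‖fderiv ℝ b x (onb S k)‖ ^ 2 := by
        rw [Finset.mul_sum]
        exact Finset.sum_le_sum fun k _ => hM y hyK _
      have e3 : 0 ≤ ∑ k, ‖fderiv ℝ b x (onb S k)‖ ^ 2 := Finset.sum_nonneg fun _ _ => sq_nonneg _
      nlinarith [mul_nonneg p0 (sq_nonneg ‖b x‖), mul_nonneg p2 e3]
  rwa [integral_const_mul, ← mul_assoc, integral_add i1 i2] at this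

omit [FiniteDimensional ℂ F] in
theorem dop_pr {S' : Type} [NormedAddCommGroup S'] [InnerProductSpace ℝ S'] (h : C ⟂ S)
    (hU : C ⊔ S = U) (θ : S' →L[ℝ] F →L[ℂ] F) (s : E →L[ℝ] S') (β : E → S') {V : E → F →L[ℂ] F}
    (hV : ContDiff ℝ ∞ V) {b : E → F} (hb : ContDiff ℝ ∞ b) {y x : E} (hy : y ∈ C) (hx : x ∈ S)
    {κ : S'} (hβ : β (y + x) = κ + β x) (h1 : ∀ z ∈ S, V y * θ (s z) = θ (s z) * V y)
    (h2 : V y * θ (β x) = θ (β x) * V y) :
    dop θ U 1 s β (pr C S V b) (y + x) =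
      (∑ k, (-I) • θ (s (onb C k)) * fderiv ℝ V y (onb C k) + θ κ * V y) (b x) +
        V y (dop θ S 1 s β b x) := by
  obtain ⟨f, hf⟩ := Cov4Aux.exists_bil θ (-I * (1 : ℝ)) s (fderiv ℝ (pr C S V b) (y + x))
  have e1 := sum_onb_sup f h hU
  have e2 : ∀ z ∈ S, ∀ a, V y (θ (s z) a) = θ (s z) (V y a) := fun z hz a =>
    congrArg (fun T : F →L[ℂ] F => T a) (h1 z hz)
  have e3 : V y (θ (β x) (b x)) = θ (β x) (V y (b x)) :=
    congrArg (fun T : F →L[ℂ] F => T (b x)) h2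
  simp only [hf] at e1
  rw [dop, dop, e1, hβ, pr_add h V b hy hx]
  simp only [(fderiv_pr h hV hb hy hx).1 _ (onb_mem C _),
    (fderiv_pr h hV hb hy hx).2 _ (onb_mem S _), map_add, map_sum, map_smul, add_apply, sum_apply,
    mul_apply_eq_comp, smul_apply, e2 _ (onb_mem S _), e3, ofReal_one, mul_one]
  abel

end Vale.Agent.P353.WilAux
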