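import Vale.Agent.P353.Stmts
import Vale.Agent.P353.WilAux

/-! Local weak identity. -/

noncomputable section

open MeasureTheory Filter Topology Complex
open scoped ContDiff RealInnerProductSpace Matrix

namespace Vale.Agent.P353

namespace WilAux

variable {N d : ℕ} {F : Type} [NormedAddCommGroup F] [InnerProductSpace ℂ F]
  [FiniteDimensional ℂ F] (c : Ctx N d F) {π π' : Setoid (Fin N)} {𝔞 𝔴 : Submodule ℝ (Lg d)}
  {v : Fin 9 → ℝ} {χ η : Tn 9 d → ℝ} {K : Set (Tn 9 d)} {R : ℝ}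

/-- errors that are small compared to norm plus energy -/
def Sml (π : Setoid (Fin N)) (𝔞 : Submodule ℝ (Lg d)) (R : ℝ) (e : ℝ → (Tn 9 d → F) → ℂ) : Prop :=
  ∀ ε > 0, ∀ᶠ g in atTop, ∀ ψ ∈ c.D π 𝔞, c.Supp 𝔞 R ψ → ‖e g ψ‖ ^ 2 ≤ ε * c.NE 𝔞 g 0 ψ

theorem NE_nonneg (𝔞 : Submodule ℝ (Lg d)) (g m : ℝ) (ψ : Tn 9 d → F) : 0 ≤ c.NE 𝔞 g m ψ :=
  add_nonneg (nrm_nonneg _ _) (en_nonneg _ _ _ _)

theorem Sml.add {e e' : ℝ → (Tn 9 d → F) → ℂ} (h : Sml c π 𝔞 R e) (h' : Sml c π 𝔞 R e') :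
    Sml c π 𝔞 R fun g ψ => e g ψ + e' g ψ := fun ε hε => by
  filter_upwards [h (ε / 4) (by positivity), h' (ε / 4) (by positivity)] with g h1 h2 ψ hψ hs
  linarith [Ga1cAux.norm_add_sq_le (e g ψ) (e' g ψ), h1 ψ hψ hs, h2 ψ hψ hs]

theorem Sml.neg {e : ℝ → (Tn 9 d → F) → ℂ} (h : Sml c π 𝔞 R e) :
    Sml c π 𝔞 R fun g ψ => -e g ψ := fun ε hε => by
  simpa only [norm_neg] using h ε hε

theorem Sml.sum {ι : Type} (s : Finset ι) {e : ι → ℝ → (Tn 9 d → F) → ℂ}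
    (h : ∀ k, Sml c π 𝔞 R (e k)) : Sml c π 𝔞 R fun g ψ => ∑ k ∈ s, e k g ψ := by
  classical
  induction s using Finset.induction_on with
  | empty =>
    exact fun ε hε => Eventually.of_forall fun g ψ _ _ => by
      simpa using mul_nonneg hε.le (NE_nonneg c 𝔞 g 0 ψ)
  | insert k s hk ih =>
    simp only [Finset.sum_insert hk]
    exact (h k).add c ih

/-- families of functions on the slow space that are controlled by norm plus energy -/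
def Ctl (π : Setoid (Fin N)) (𝔞 : Submodule ℝ (Lg d)) (π' : Setoid (Fin N)) (R : ℝ)
    (T : ℝ → (Tn 9 d → F) → Tn 9 d → F) : Prop :=
  ∃ M, 0 ≤ M ∧ ∀ g > 0, ∀ ψ ∈ c.D π 𝔞, c.Supp 𝔞 R ψ → Sm (c.Sl 𝔞 π') (T g ψ) ∧
    (∀ X ∈ c.Sl 𝔞 π', c.Pw (c.off π π') X (T g ψ X) = T g ψ X) ∧
    nrm (c.Sl 𝔞 π') (T g ψ) ≤ M * c.NE 𝔞 g 0 ψ

theorem nrm_Q_le (𝔞 : Submodule ℝ (Lg d)) (g : ℝ) {m : ℝ} (hm : |m| ≤ 1) (α : Fin 16)
    {ψ : Tn 9 d → F} (hψ : Sm (sub 9 𝔞) ψ) : nrm (sub 9 𝔞) (c.Q 𝔞 g m (eb α) ψ) ≤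
      2 * c.En 𝔞 g 0 ψ + 64 * wnrm (sub 9 𝔞) (fun x => ‖x‖ ^ 2) ψ := by
  have h1 : nrm (sub 9 𝔞) (c.Q 𝔞 g m (eb α) ψ) ≤ c.En 𝔞 g m ψ :=
    Finset.single_le_sum (f := fun α => nrm (sub 9 𝔞) (c.Q 𝔞 g m (eb α) ψ))
      (fun _ _ => nrm_nonneg _ _) (Finset.mem_univ α)
  have h2 := c.En_mass_le 𝔞 g 0 m hψ
  have h3 : 0 ≤ wnrm (sub 9 𝔞) (fun x => ‖x‖ ^ 2) ψ := integral_nonneg fun _ => by positivity
  have h4 : m ^ 2 ≤ 1 := by rwa [sq_le_one_iff_abs_le_one]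
  rw [sub_zero] at h2
  nlinarith

theorem ctl (h_tb : c.S_tb) (hL : c.Lc π 𝔞 π' v) (hχ : c.Cut π 𝔞 π' v χ) (R : ℝ) {m : ℝ}
    (hm : |m| ≤ 1) (α : Fin 16) : Ctl c π 𝔞 π' R (c.TT π 𝔞 π' v χ) ∧
      Ctl c π 𝔞 π' R fun g ψ => c.TT π 𝔞 π' v χ g (c.Q 𝔞 g m (eb α) ψ) := by
  obtain ⟨M, h0, hM⟩ := h_tb.bd π 𝔞 π' v hL
  refine ⟨⟨M, h0, fun g hg ψ hψ _ => ⟨h_tb.sm π 𝔞 π' v χ hL hχ g hg ψ hψ.1, fun X hX =>
    (h_tb.proj π 𝔞 π' v χ g ψ X hX hψ.1 hL).2, (hM χ hχ g hg ψ hψ).trans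
      (mul_le_mul_of_nonneg_left (le_add_of_nonneg_right (en_nonneg _ _ _ _)) h0)⟩⟩,
    M * (2 + 64 * R ^ 2), by positivity, fun g hg ψ hψ hs => ?_⟩
  have hQ := c.Q_mem_D hL.1 g m (eb α) hψ
  refine ⟨h_tb.sm π 𝔞 π' v χ hL hχ g hg _ hQ.1, fun X hX =>
    (h_tb.proj π 𝔞 π' v χ g _ X hX hQ.1 hL).2, (hM χ hχ g hg _ hQ).trans ?_⟩
  rw [mul_assoc]
  refine mul_le_mul_of_nonneg_left ((nrm_Q_le c 𝔞 g hm α hψ.1).trans ?_) h0
  have h1 : wnrm (sub 9 𝔞) (fun x => ‖x‖ ^ 2) ψ ≤ R ^ 2 * nrm (sub 9 𝔞) ψ := by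
    rw [nrm, ← integral_const_mul]
    refine integral_mono_of_nonneg (Eventually.of_forall fun _ => by positivity)
      (hψ.1.integrable_wnrm (w := fun _ => R ^ 2) continuousOn_const)
      (Eventually.of_forall fun x => ?_)
    by_cases hx : R < ‖(x : Tn 9 d)‖
    · simp [hs x x.2 hx]
    · exact mul_le_mul_of_nonneg_right (pow_le_pow_left₀ (norm_nonneg _) (not_lt.1 hx) 2)
        (sq_nonneg _)
  have h2 := nrm_nonneg (sub 9 𝔞) ψ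
  have h3 : 0 ≤ c.En 𝔞 g 0 ψ := en_nonneg _ _ _ _
  rw [Ctx.NE]
  nlinarith [mul_nonneg (sq_nonneg R) h3]

theorem split (hL : c.Lc π 𝔞 π' v) :
    c.CS 𝔞 π' ⟂ sub 9 (c.ss π') ∧ c.CS 𝔞 π' ⊔ sub 9 (c.ss π') = c.Sl 𝔞 π' :=
  ⟨Cov4Aux.CS_ortho c 𝔞 π', by rw [Ctx.CS, ← sub_sup, hL.1.cen_sup_ss c hL.2.1]⟩

theorem self_sml (h_lam : c.S_lam) (hL : c.Lc π 𝔞 π' v) {f : Tn 9 d → ℝ}
    (hf : SmR (c.CS 𝔞 π') f Set.univ) (a : F →L[ℂ] F) (β : LL (sub 9 (c.ss π')) F)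
    {T : ℝ → (Tn 9 d → F) → Tn 9 d → F} (hT : Ctl c π 𝔞 π' R T) :
    Sml c π 𝔞 R fun g ψ => c.Lam π' (𝔞 ⊓ c.blk π') π' g (T g ψ) f (opL _ a β) -
      ip (c.Sl 𝔞 π') (pr (c.CS 𝔞 π') (sub 9 (c.ss π')) (fun y => (f y : ℂ) • a)
        (dil (sub 9 (c.ss π')) (ell g) (rep _ β))) (T g ψ) := by
  intro ε hε
  obtain ⟨M, h0, hM⟩ := hT
  obtain ⟨δ, h1, h2⟩ := ((small M hε).and self_mem_nhdsWithin).exists
  have := h_lam.self π' (𝔞 ⊓ c.blk π') (hL.1.inf c hL.2.1) f (by rwa [c.CS_inf le_rfl])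
    (opL _ a β) δ h2
  rw [c.CS_inf le_rfl] at this
  filter_upwards [this, eventually_gt_atTop 0] with g h3 hg ψ hψ hs
  obtain ⟨h4, -, h5⟩ := hM g hg ψ hψ hs
  have e : ip (c.Sl 𝔞 π') (pr (c.CS 𝔞 π') (sub 9 (c.ss π')) (fun y => (f y : ℂ) • a)
      (dil (sub 9 (c.ss π')) (ell g) (rep _ β))) (T g ψ) =
      ip (c.Sl 𝔞 π') (fun x => (f ((c.CS 𝔞 π').starProjection x) : ℂ) •
        dil (sub 9 (c.ss π')) (ell g) (rep _ (opL _ a β)) ((sub 9 (c.ss π')).starProjection x))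
        (T g ψ) := by
    refine integral_congr_ae ?_
    filter_upwards [(quasiMeasurePreserving_proj ((split c hL).2 ▸ le_sup_right)
      (inv_ne_zero (ell_pos hg).ne')).ae (coe_opL a β)] with X hX
    have e1 : ∀ u : LL (sub 9 (c.ss π')) F, rep _ u ((ell g)⁻¹ • (sub 9 (c.ss π')).starProjection X)
        = u ((ell g)⁻¹ • (sub 9 (c.ss π')).orthogonalProjectionOnto X) := fun u =>
      rep_coe u ((ell g)⁻¹ • (sub 9 (c.ss π')).orthogonalProjectionOnto X)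
    simp only [pr, dil, e1, hX, smul_apply, map_smul]
    rw [smul_comm]
  rw [e]
  refine (h3 _ h4).trans ((mul_le_mul_of_nonneg_left h5 h2.le).trans ?_)
  rw [← mul_assoc, mul_comm δ]
  exact mul_le_mul_of_nonneg_right h1 (NE_nonneg c 𝔞 g 0 ψ)

/-- flat trivialization -/
def UU (𝔴 : Submodule ℝ (Lg d)) (X : Tn 9 d) : F →L[ℂ] F :=
  (((√(c.ovw 𝔴 X))⁻¹ : ℝ) : ℂ) • (c.Pw 𝔴 X * c.P0 𝔴)

/-- flat trivialization times the test function -/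
def VV (C : Submodule ℝ (Tn 9 d)) (𝔴 : Submodule ℝ (Lg d)) (η : Tn 9 d → ℝ) (X : Tn 9 d) :
    F →L[ℂ] F :=
  (η (C.starProjection X) : ℂ) • UU c 𝔴 (C.starProjection X)

theorem contDiffAt_UU (h_lm1 : c.S_lm1) (h_lm4 : c.S_lm4) {X : Tn 9 d} (hX : X ∈ c.Ow 𝔴 v)
    (h0 : 0 < c.ovw 𝔴 X) : ContDiffAt ℝ ∞ (UU c 𝔴) X :=
  (ofRealCLM.contDiff.contDiffAt.comp X (((h_lm4.ov_sm 𝔴 v X hX).sqrt h0.ne').inv
    (Real.sqrt_pos.2 h0).ne')).smul ((h_lm1.sm_P 𝔴 v X hX).mul contDiffAt_const)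

theorem VV_op {C : Submodule ℝ (Tn 9 d)} (hK : IsCompact K) (hη : ContDiff ℝ ∞ η)
    (h0 : ∀ y ∈ C, y ∉ K → η y = 0) (hU : ∀ y ∈ K, ContDiffAt ℝ ∞ (UU c 𝔴) y) :
    ContDiff ℝ ∞ (VV c C 𝔴 η) ∧ Op C K (VV c C 𝔴 η) := by
  have hP : ContDiff ℝ ∞ fun x => C.starProjection x := C.starProjection.contDiff
  have h1 : ContDiff ℝ ∞ (VV c C 𝔴 η) := contDiff_iff_contDiffAt.2 fun x => by
    by_cases hx : C.starProjection x ∈ K
    · exact (ofRealCLM.contDiff.comp (hη.comp hP)).contDiffAt.smul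
        ((hU _ hx).comp x hP.contDiffAt)
    · have hev : ∀ᶠ z in 𝓝 x, C.starProjection z ∈ Kᶜ :=
        hP.continuous.continuousAt.eventually (hK.isClosed.isOpen_compl.mem_nhds hx)
      refine (contDiffAt_const (c := (0 : F →L[ℂ] F))).congr_of_eventuallyEq
        (hev.mono fun z hz => ?_)
      simp only [VV, h0 _ (C.starProjection_apply_mem z) hz, ofReal_zero, zero_smul]
  refine ⟨h1, h1.continuous, fun y hy hyK => ?_⟩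
  simp only [VV, Submodule.starProjection_eq_self_iff.2 hy, h0 y hy hyK, ofReal_zero, zero_smul]

theorem fderiv_VV {C : Submodule ℝ (Tn 9 d)} (hη : ContDiff ℝ ∞ η) {y z : Tn 9 d} (hy : y ∈ C)
    (hz : z ∈ C) (hU : ContDiffAt ℝ ∞ (UU c 𝔴) y) : fderiv ℝ (VV c C 𝔴 η) y z =
      (η y : ℂ) • fderiv ℝ (UU c 𝔴) y z + (fderiv ℝ η y z : ℂ) • UU c 𝔴 y := by
  have h1 := (ofRealCLM.hasFDerivAt.comp y (hη.differentiable (by simp) y).hasFDerivAt).fun_smul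
    (hU.differentiableAt (by simp)).hasFDerivAt
  have h2 : HasFDerivAt (VV c C 𝔴 η) _ y := HasFDerivAt.comp y
    (g := fun x => (η x : ℂ) • UU c 𝔴 x)
    (by rw [Submodule.starProjection_eq_self_iff.2 hy]; exact h1) C.starProjection.hasFDerivAt
  rw [h2.fderiv]
  simp [Submodule.starProjection_eq_self_iff.2 hz]

theorem Pw_idem (X : Tn 9 d) (a : F) : c.Pw 𝔴 X (c.Pw 𝔴 X a) = c.Pw 𝔴 X a :=
  congrArg (fun T : F →L[ℂ] F => T a) (vac_idem _)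

theorem mem_orth {𝔟 : Submodule ℝ (Lg d)} (h : 𝔟 ≤ c.blk π') {w : Tn 16 d} (hw : w ∈ sub 16 𝔟) :
    w ∈ sub 16 (c.off π π')ᗮ := sub_mono (h.trans (c.off_isOrtho_blk π π').symm.le) hw

theorem hat_apply (f : Tn 9 d → ℝ) {y : Tn 9 d} (hy : y ∈ c.CS 𝔞 π') :
    c.hatη π 𝔞 π' f y = f y * (√(c.ovw (c.off π π') y))⁻¹ := by
  rw [Ctx.hatη, Submodule.starProjection_eq_self_iff.2 hy, div_eq_mul_inv]

theorem hat_op {f : Tn 9 d → ℝ} (hf : Continuous (c.hatη π 𝔞 π' f))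
    (h0 : ∀ y ∈ c.CS 𝔞 π', y ∉ K → f y = 0) (a : F →L[ℂ] F) :
    Op (c.CS 𝔞 π') K fun y => (c.hatη π 𝔞 π' f y : ℂ) • a :=
  ⟨(continuous_ofReal.comp hf).smul continuous_const, fun y hy hyK => by
    simp only [hat_apply c f hy, h0 y hy hyK, zero_mul, ofReal_zero, zero_smul]⟩

/-- the part of the supercharge that acts on the centre of mass -/
def NN (C : Submodule ℝ (Tn 9 d)) (m : ℝ) (e : Fin 16 → ℝ) (V : Tn 9 d → F →L[ℂ] F) (y : Tn 9 d) :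
    F →L[ℂ] F :=
  ∑ k, (-I) • c.θ (c.sE e (onb C k)) * fderiv ℝ V y (onb C k) + c.θ (m • c.Km e y) * V y

theorem NN_op {C : Submodule ℝ (Tn 9 d)} (hK : IsCompact K) (m : ℝ) (e : Fin 16 → ℝ)
    {V : Tn 9 d → F →L[ℂ] F} (hV : ContDiff ℝ ∞ V) (h0 : Op C K V) : Op C K (NN c C m e V) :=
  (Op.sum _ fun k => (h0.dir hK hV (onb_mem C k)).mul continuous_const).add
    (h0.mul (c.θ.continuous.comp ((c.Km e).continuous.const_smul m)))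

theorem Q_pr (hL : c.Lc π 𝔞 π' v) (g m : ℝ) (e : Fin 16 → ℝ) {V : Tn 9 d → F →L[ℂ] F}
    (hV : ContDiff ℝ ∞ V)
    (hc : ∀ y ∈ c.CS 𝔞 π', ∀ w ∈ sub 16 (c.ss π'), V y * c.θ w = c.θ w * V y) {b : Tn 9 d → F}
    (hb : ContDiff ℝ ∞ b) {X : Tn 9 d} (hX : X ∈ c.Sl 𝔞 π') :
    c.Q (𝔞 ⊓ c.blk π') g m e (pr (c.CS 𝔞 π') (sub 9 (c.ss π')) V b) X =
      pr (c.CS 𝔞 π') (sub 9 (c.ss π')) (NN c (c.CS 𝔞 π') m e V) b X +
        pr (c.CS 𝔞 π') (sub 9 (c.ss π')) V (c.Q (c.ss π') g m e b) X := by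
  obtain ⟨h1, h2⟩ := split c hL
  obtain ⟨y, hy, x, hx, rfl⟩ := decomp h2 hX
  rw [pr_add h1 _ _ hy hx, pr_add h1 _ _ hy hx]
  refine dop_pr h1 h2 c.θ (c.sE e) (c.beta g m e) hV hb hy hx ?_
    (fun z hz => hc y hy _ (c.sE_mem e hz)) (hc y hy _ (Cov4Aux.beta_mem c g m e hx))
  rw [Ctx.beta, Ctx.beta, c.Phi_add_cen e (sub_mono inf_le_left hx) (sub_mono inf_le_right hy),
    map_add, smul_add]
  abel

theorem mid (h_apx : c.S_apx) (h_wib : c.S_wib) (hL : c.Lc π 𝔞 π' v) (hχ : c.Cut π 𝔞 π' v χ)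
    (hK : IsCompact K) (hKC : K ⊆ c.CS 𝔞 π') (hK1 : ∀ᶠ X in 𝓝ˢ K, χ X = 1) {r₀ L : ℝ}
    (hr₀ : 0 < r₀) (hLip : ∀ y ∈ K, ∀ x, ‖x‖ ≤ r₀ →
      ‖c.Pw (c.off π π') (y + x) - c.Pw (c.off π π') y‖ ≤ L * ‖x‖)
    {m : ℝ} (hm : |m| ≤ 1) (α : Fin 16) {V N₀ N' : Tn 9 d → F →L[ℂ] F} (hV : ContDiff ℝ ∞ V)
    (oV : Op (c.CS 𝔞 π') K V) (o₀ : Op (c.CS 𝔞 π') K N₀) (o' : Op (c.CS 𝔞 π') K N')
    (hPV : ∀ y ∈ c.CS 𝔞 π', ∀ a, c.Pw (c.off π π') y (V y a) = V y a)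
    (hc : ∀ y ∈ c.CS 𝔞 π', ∀ w ∈ sub 16 (c.ss π'), V y * c.θ w = c.θ w * V y)
    (e₀ : ∀ y ∈ c.CS 𝔞 π', y ∈ K → ∀ a, c.P0 (c.off π π') a = a →
      c.Pw (c.off π π') y (V y a) = c.Pw (c.off π π') y (N₀ y a))
    (e' : ∀ y ∈ c.CS 𝔞 π', y ∈ K → ∀ a, c.P0 (c.off π π') a = a →
      c.Pw (c.off π π') y (NN c (c.CS 𝔞 π') m (eb α) V y a) = c.Pw (c.off π π') y (N' y a))
    {β : LL (sub 9 (c.ss π')) F} (hβ : β ∈ c.BK π π') (hT : Ctl c π 𝔞 π' R (c.TT π 𝔞 π' v χ))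
    (hTQ : Ctl c π 𝔞 π' R fun g ψ => c.TT π 𝔞 π' v χ g (c.Q 𝔞 g m (eb α) ψ)) :
    Sml c π 𝔞 R fun g ψ =>
      ip (c.Sl 𝔞 π') (pr (c.CS 𝔞 π') (sub 9 (c.ss π')) N₀ (dil (sub 9 (c.ss π')) (ell g) (rep _ β)))
        (c.TT π 𝔞 π' v χ g (c.Q 𝔞 g m (eb α) ψ)) -
      ip (c.Sl 𝔞 π') (pr (c.CS 𝔞 π') (sub 9 (c.ss π')) N' (dil (sub 9 (c.ss π')) (ell g) (rep _ β)))
        (c.TT π 𝔞 π' v χ g ψ) := by
  intro ε hε
  obtain ⟨h1, h2⟩ := split c hL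
  have oN := NN_op c hK m (eb α) hV oV
  have hsym : ∀ X a b, inner ℂ (c.Pw (c.off π π') X a) b = inner ℂ a (c.Pw (c.off π π') X b) :=
    fun X => vac_symm _
  obtain ⟨r₁, hr₁, hw⟩ := h_wib π 𝔞 π' v χ hL hχ K hK hKC hK1
  obtain ⟨K₁, k1, hK₁⟩ := hT
  obtain ⟨K₂, k2, hK₂⟩ := hTQ
  obtain ⟨M₂, p2, hM₂⟩ := compare h1 h2 hK oV o₀ hsym hLip
  obtain ⟨M₅, p5, hM₅⟩ := compare h1 h2 hK oN o' hsym hLip
  obtain ⟨M₄, p4, hM₄⟩ := oV.memLp h1 h2 hK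
  obtain ⟨M₆, -, hM₆⟩ := oN.memLp h1 h2 hK
  obtain ⟨Mw, pw, hMw⟩ := wnrm_pr h1 h2 hK oV
  obtain ⟨Mg, pg, hMg⟩ := grad_pr h1 h2 hK hV oV
  set n := 2 + 2 * ‖β‖ ^ 2 with hn
  have pn : 0 ≤ n := by positivity
  obtain ⟨ε', hε', hw⟩ := hw R (M₄ * n + Mw) m hm α (ε / 16) (by positivity)
  obtain ⟨δ, ⟨⟨d1, d2, d3⟩, d4, d5, d6⟩, hδ⟩ := ((((small 1 one_pos).and ((small Mw hε').and
    (small Mg (half_pos hε')))).and ((small (M₂ * 2 * K₂) (ε := ε / 16) (by positivity)).and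
    ((small (M₅ * 2 * K₁) (ε := ε / 16) (by positivity)).and
    (small (M₄ * 66 * K₁) (ε := ε / 16) (by positivity))))).and self_mem_nhdsWithin).exists
  have hδ : 0 < δ := hδ
  rw [one_mul] at d1
  filter_upwards [hw, h_apx π π' hL.2.1 β hβ (min r₀ r₁) (lt_min hr₀ hr₁) δ hδ,
    eventually_gt_atTop 0, eventually_ge_atTop (Mg * n / (ε' / 2))] with g hw hb hg hg' ψ hψ hs
  obtain ⟨b, hb, b1, b2, b3, b4, b5, b6, b7⟩ := hb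
  have hb : Sm (sub 9 (c.ss π')) b := hb.1
  set B := dil (sub 9 (c.ss π')) (ell g) (rep _ β) with hB
  have mB : MemLp (fun x : sub 9 (c.ss π') => B x) 2 volume := memLp_dil (ell_pos hg) (memLp_rep β)
  have nb : nrm (sub 9 (c.ss π')) b ≤ n := by
    have e1 := nrm_add_le (φ := b - B) (ψ := B) (hb.memLp.sub mB) mB
    rw [sub_add_cancel, hB, nrm_dil _ (ell_pos hg), ← norm_L2_sq (memLp_rep β), L2_rep] at e1
    linarith
  have hr : ∀ x ∈ sub 9 (c.ss π'), r₀ < ‖x‖ → b x = 0 := fun x hx h =>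
    b2 x hx ((min_le_left _ _).trans_lt h)
  obtain ⟨t1, t2, t3⟩ := hK₁ g hg ψ hψ hs
  obtain ⟨q1, q2, q3⟩ := hK₂ g hg ψ hψ hs
  have pE := NE_nonneg c 𝔞 g 0 ψ
  have fin : ∀ {x M t K' : ℝ} (j : ℝ), 0 ≤ M → ∀ {s : ℝ}, x ≤ M * s * t → s ≤ j * δ → 0 ≤ t → 0 ≤ j →
      t ≤ K' * c.NE 𝔞 g 0 ψ → M * j * K' * δ ≤ ε / 16 → x ≤ ε / 16 * c.NE 𝔞 g 0 ψ := by
    intro x M t K' j hM s a1 a2 a3 a4 a5 a6
    calc x ≤ M * s * t := a1
      _ ≤ M * (j * δ) * t := mul_le_mul_of_nonneg_right (mul_le_mul_of_nonneg_left a2 hM) a3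
      _ ≤ M * (j * δ) * (K' * c.NE 𝔞 g 0 ψ) := mul_le_mul_of_nonneg_left a5 (by positivity)
      _ = M * j * K' * δ * c.NE 𝔞 g 0 ψ := by ring
      _ ≤ _ := mul_le_mul_of_nonneg_right a6 pE
  have E2 := fin 2 p2 (hM₂ b B _ hb hr (fun y hy hyK x => e₀ y hy hyK _ (b1 x)) mB q1.memLp q2)
    (by linarith) (nrm_nonneg _ _) zero_le_two q3 d4
  have E5 := fin 2 p5 (hM₅ b B _ hb hr (fun y hy hyK x => e' y hy hyK _ (b1 x)) mB t1.memLp t2)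
    (by linarith) (nrm_nonneg _ _) zero_le_two t3 d5
  have hq : Sm (sub 9 (c.ss π')) (c.Q (c.ss π') g m (eb α) b) := hb.dop _ _ (c.contDiff_beta _ _ _)
  have E4 := fin 66 p4 ((norm_ip_sq_le (hM₄ _ hq.memLp).1 t1.memLp).trans
    (mul_le_mul_of_nonneg_right (hM₄ _ hq.memLp).2 (nrm_nonneg _ _)))
    (by linarith [nrm_Q_le c (c.ss π') g hm α hb]) (nrm_nonneg _ _) (by norm_num) t3 d6
  have E3 := hw (pr (c.CS 𝔞 π') (sub 9 (c.ss π')) V b) (sm_pr h1 h2 hK hV oV hb)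
    (fun X hX h => by
      obtain ⟨y, hy, x, hx, rfl⟩ := decomp h2 hX
      rw [pr_add h1 _ _ hy hx] at h
      rw [(proj_add h1 hy hx).1, add_sub_cancel_left]
      refine ⟨by_contra fun h' => h (by rw [oV.2 y hy h', zero_apply]), not_lt.1 fun h' => h ?_⟩
      rw [b2 x hx ((min_le_right _ _).trans_lt h'), map_zero])
    (fun X _ => hPV _ (Submodule.starProjection_apply_mem _ X) _)
    ((hM₄ b hb.memLp).2.trans (by linarith [mul_le_mul_of_nonneg_left nb p4]))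
    (by
      have := hMw b hb c.Fsq c.Fsq c.contDiff_Fsq.continuous c.Fsq_nonneg fun y hy x hx =>
        c.Fsq_add_cen (sub_mono inf_le_left hx) (sub_mono inf_le_right hy)
      have := mul_le_mul_of_nonneg_left this hg.le
      nlinarith [mul_le_mul_of_nonneg_left (b6.trans d1) pw, mul_nonneg p4 pn])
    (by
      rw [div_le_iff₀ (half_pos hε')] at hg'
      nlinarith [hMg b hb, mul_le_mul_of_nonneg_left nb pg, mul_le_mul_of_nonneg_left b5 pg,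
        mul_le_mul_of_nonneg_right d3 hg.le])
    ((hMw b hb _ (fun x => ‖x‖ ^ 2) (by fun_prop) (fun _ => sq_nonneg _) fun y hy x hx => by
      simp only [(proj_add h1 hy hx).1, add_sub_cancel_left]).trans
      ((mul_le_mul_of_nonneg_left b7 pw).trans d2)) ψ hψ hs
  have e4 : ip (c.Sl 𝔞 π') (c.Q (𝔞 ⊓ c.blk π') g m (eb α) (pr (c.CS 𝔞 π') (sub 9 (c.ss π')) V b))
      (c.TT π 𝔞 π' v χ g ψ) = _ := (integral_congr_ae (Eventually.of_forall fun X =>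
        congrArg (fun a => inner ℂ a _) (Q_pr c hL g m (eb α) hV hc hb.1 X.2))).trans
      (ip_add (hM₆ b hb.memLp).1 (hM₄ _ hq.memLp).1 t1.memLp)
  rw [e4] at E3
  have key : ∀ x₀ x₁ x₂ x₃ x₄ : ℂ, ‖x₀ - x₄‖ ^ 2 ≤ 4 * (‖x₁ - x₀‖ ^ 2 + ‖x₁ - (x₂ + x₃)‖ ^ 2 +
      ‖x₃‖ ^ 2 + ‖x₂ - x₄‖ ^ 2) := fun x₀ x₁ x₂ x₃ x₄ => by
    have e : x₀ - x₄ = (-(x₁ - x₀) + (x₁ - (x₂ + x₃))) + (x₃ + (x₂ - x₄)) := by ring
    have a1 := Ga1cAux.norm_add_sq_le (-(x₁ - x₀) + (x₁ - (x₂ + x₃))) (x₃ + (x₂ - x₄))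
    have a2 := Ga1cAux.norm_add_sq_le (-(x₁ - x₀)) (x₁ - (x₂ + x₃))
    have a3 := Ga1cAux.norm_add_sq_le x₃ (x₂ - x₄)
    rw [norm_neg] at a2
    rw [e]
    linarith
  refine (key _ _ _ _ _).trans ((mul_le_mul_of_nonneg_left
    (add_le_add (add_le_add (add_le_add E2 E3) E4) E5) (by norm_num)).trans ?_)
  nlinarith [mul_nonneg hε.le pE]

theorem flat_id {C : Submodule ℝ (Tn 9 d)} (m : ℝ) (e : Fin 16 → ℝ) {V : Tn 9 d → F →L[ℂ] F}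
    {y : Tn 9 d} (hy : y ∈ C) {p : F →L[ℂ] F} {a : F} {h t : ℝ} {t' : Tn 9 d → ℝ}
    (hs : ∀ z ∈ C, ∀ x, p (c.θ (c.sE e z) x) = c.θ (c.sE e z) (p x))
    (hk : ∀ z ∈ C, ∀ x, p (c.θ (c.Km e z) x) = c.θ (c.Km e z) (p x))
    (h1 : p (V y a) = ((t * h : ℝ) : ℂ) • p a)
    (h2 : ∀ z ∈ C, p (fderiv ℝ V y z a) = ((t' z * h : ℝ) : ℂ) • p a) :
    p (NN c C m e V y a) = p ((∑ k, (((t' (onb C k) * h : ℝ) : ℂ) • (-I) • c.θ (c.sE e (onb C k)) +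
      ((⟪onb C k, y⟫ * t * h : ℝ) : ℂ) • (m : ℂ) • c.θ (c.Km e (onb C k)))) a) := by
  have e1 : c.θ (m • c.Km e y) = ∑ k, ((m * ⟪onb C k, y⟫ : ℝ) : ℂ) • c.θ (c.Km e (onb C k)) := by
    conv_lhs => rw [← sum_onb_self hy]
    simp only [map_sum, (c.Km e).map_smul, Finset.smul_sum, smul_smul, theta_smul]
  simp only [NN, e1, add_apply, sum_apply, mul_apply_eq_comp, smul_apply, map_add, map_sum,
    map_smul, hs _ (onb_mem C _), hk _ (onb_mem C _), h1, h2 _ (onb_mem C _), smul_smul,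
    Finset.sum_add_distrib]
  congr 1 <;> refine Finset.sum_congr rfl fun k _ => ?_ <;> congr 1 <;> push_cast <;> ring

end WilAux

open WilAux

namespace Ctx

variable {N d : ℕ} {F : Type} [NormedAddCommGroup F] [InnerProductSpace ℂ F]
  [FiniteDimensional ℂ F] (c : Ctx N d F)

theorem p_wil (h_lm1 : c.S_lm1) (h_lmea : c.S_lmea) (h_lm4 : c.S_lm4) (h_lam : c.S_lam)
    (h_tb : c.S_tb) (h_apx : c.S_apx) (h_wib : c.S_wib) : c.S_wil := by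
  intro π 𝔞 π' v χ hL hχ η hη β hβ R m hm α
  have _ := h_lmea
  obtain ⟨hη1, K, hK, hKZ, hKC, h0⟩ := id hη
  obtain ⟨h1, h2⟩ := split c hL
  have hKO : K ⊆ c.Ow (c.off π π') v := fun y hy => by
    obtain ⟨-, K', -, hK', -, h'⟩ := hχ.1
    refine hK' (by_contra fun h => ?_)
    have := h' y (h2 ▸ Submodule.mem_sup_left (hKC hy)) h
    rw [(hKZ hy).2.self_of_nhds] at this
    exact one_ne_zero this
  have hcen : ∀ y ∈ c.CS 𝔞 π', y ∈ sub 9 (c.cen π') := fun y hy => sub_mono inf_le_right hy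
  have hU : ∀ y ∈ K, ContDiffAt ℝ ∞ (UU c (c.off π π')) y := fun y hy =>
    contDiffAt_UU c h_lm1 h_lm4 (hKO hy) (h_lm4.ov_pos π π' hL.2.1 y (hcen y (hKC hy)) (hKZ hy).1)
  obtain ⟨hV, oV⟩ := VV_op c hK hη1 h0 hU
  obtain ⟨r₀, hr₀, L, hLip⟩ := exists_lip hK (h_lm1.isOpen _ v) hKO (h_lm1.sm_P _ v)
  obtain ⟨hT, hTQ⟩ := ctl c h_tb hL hχ R hm α
  have s0 := h_lm4.hat π 𝔞 π' hL.2.1 η _ hη
  have s1 := fun k => h_lm4.hat π 𝔞 π' hL.2.1 _ _ (hη.fderiv (onb_mem _ k))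
  have s2 := fun k => h_lm4.hat π 𝔞 π' hL.2.1 _ _
    (hη.mul' (f := fun x => ⟪onb (c.CS 𝔞 π') k, x⟫) (contDiff_const.inner ℝ contDiff_id))
  have o0 := hat_op c s0.1.continuous h0 1
  have o1 := fun k => hat_op c (s1 k).1.continuous (dir_zero hK hη1 h0 (onb_mem _ k))
    ((-I) • c.θ (c.sE (eb α) (onb (c.CS 𝔞 π') k)))
  have o2 := fun k => hat_op c (s2 k).1.continuous (fun y hy h => by rw [h0 y hy h, mul_zero])
    ((m : ℂ) • c.θ (c.Km (eb α) (onb (c.CS 𝔞 π') k)))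
  have hVy : ∀ y ∈ c.CS 𝔞 π', ∀ a, VV c (c.CS 𝔞 π') (c.off π π') η y a =
      ((η y * (√(c.ovw (c.off π π') y))⁻¹ : ℝ) : ℂ) • c.Pw (c.off π π') y (c.P0 (c.off π π') a) :=
    fun y hy a => by
      simp only [VV, UU, Submodule.starProjection_eq_self_iff.2 hy, smul_apply, smul_smul,
        mul_apply_eq_comp, ofReal_mul]
  have hPθ : ∀ y ∈ K, ∀ w ∈ sub 16 (c.off π π')ᗮ, ∀ a,
      c.Pw (c.off π π') y (c.θ w a) = c.θ w (c.Pw (c.off π π') y a) := fun y hy w hw a =>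
    congrArg (fun T : F →L[ℂ] F => T a) (h_lm1.P_comm _ v y (hKO hy) w hw)
  have hle : 𝔞 ⊓ c.cen π' ≤ c.blk π' := inf_le_right.trans (c.cen_le_blk π')
  have A := mid c h_apx h_wib hL hχ hK hKC (eventually_nhdsSet_iff_forall.2 fun y hy => (hKZ hy).2)
    hr₀ hLip hm α hV oV o0 (Op.sum Finset.univ fun k => (o1 k).add (o2 k))
    (fun y hy a => by rw [hVy y hy, map_smul, Pw_idem])
    (fun y hy w hw => by
      by_cases hyK : y ∈ K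
      · have hw' := mem_orth c (π := π) inf_le_left hw
        ext1 a
        rw [mul_apply_eq_comp, mul_apply_eq_comp, hVy y hy, hVy y hy, map_smul, ← hPθ y hyK w hw']
        exact congrArg (fun T : F →L[ℂ] F => _ • c.Pw _ y (T a)) (c.P0_theta hw')
      · rw [oV.2 y hy hyK, zero_mul, mul_zero])
    (fun y hy hyK a ha => by
      rw [hVy y hy, map_smul, Pw_idem, ha, hat_apply c η hy, smul_apply, one_apply_eq_self, map_smul])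
    (fun y hy hyK a ha => by
      simp only [hat_apply c _ hy]
      refine flat_id c m (eb α) hy (t' := fun z => fderiv ℝ η y z)
        (fun z hz => hPθ y hyK _ (mem_orth c hle (c.sE_mem _ hz)))
        (fun z hz => hPθ y hyK _ (mem_orth c hle (c.Km_mem _ hz)))
        (by rw [hVy y hy, map_smul, Pw_idem, ha]) fun z hz => ?_
      have e : c.Pw (c.off π π') y (fderiv ℝ (UU c (c.off π π')) y z a) = 0 :=
        congrArg (fun T : F →L[ℂ] F => T a)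
          (h_lm4.flat π π' hL.2.1 y (hcen y hy) (hKZ hyK).1 z (hcen z hz))
      rw [fderiv_VV c hη1 hy hz (hU y hyK)]
      simp only [add_apply, smul_apply, map_add, map_smul, e, smul_zero, zero_add, UU,
        mul_apply_eq_comp, Pw_idem, ha, smul_smul, ofReal_mul])
    hβ hT hTQ
  have B0 := self_sml c h_lam hL (s0.mono fun _ _ _ => trivial) 1 β hTQ
  have B1 := fun k => self_sml c h_lam hL ((s1 k).mono fun _ _ _ => trivial)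
    ((-I) • c.θ (c.sE (eb α) (onb (c.CS 𝔞 π') k))) β hT
  have B2 := fun k => self_sml c h_lam hL ((s2 k).mono fun _ _ _ => trivial)
    ((m : ℂ) • c.θ (c.Km (eb α) (onb (c.CS 𝔞 π') k))) β hT
  intro ε hε
  filter_upwards [((B0.add c A).add c ((Sml.sum c Finset.univ fun k =>
    (B1 k).add c (B2 k)).neg c)) ε hε, eventually_gt_atTop 0] with g h hg ψ hψ hs
  obtain ⟨M, -, hM⟩ := hT
  have mB := memLp_dil (ell_pos hg) (memLp_rep β)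
  have mT := (hM g hg ψ hψ hs).1.memLp
  have := h ψ hψ hs
  rw [ip_pr_sum h1 h2 hK _ (fun k => (o1 k).add (o2 k)) mB mT, opL_one, one_apply_eq_self] at this
  simp only [fun k => ip_pr_add h1 h2 hK (o1 k) (o2 k) mB mT] at this
  convert this using 3
  simp only [LT, Finset.sum_add_distrib, Finset.sum_sub_distrib]
  ring

end Ctx

end Vale.Agent.P353
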